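import Vale.Agent.P154.Hel.FormWalk

/-!
The forms on the unit square from walks on the leaves of an adaptive partition into cells.
-/

namespace Vale.Agent.P154.Hel.TM

/-- All the forms of a list are nonnegative on a cell. -/
def CellP (G : ℝ → ℝ → List ℝ) (zs : List (List ℤ)) (K i j : ℕ) : Prop :=
  ∀ z ∈ zs, ∀ v w : ℝ, InCell K i j v w → 0 ≤ linV (G v w) z

theorem cellP_of_walk {c : Cfg} (hc : c.Valid) {B : TMod → TMod → List TMod} {G : ℝ → ℝ → List ℝ}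
    (hB : ∀ ξ η (_ : Ctx c ξ η) (a b : TMod) (v w : ℝ), RepAt c ξ η a v → RepAt c ξ η b w →
      List.Forall₂ (RepAt c ξ η) (B a b) (G v w))
    {f K i j : ℕ} {zs : List (List ℤ)} (h : formWalk c B f K i j zs = true) : CellP G zs K i j :=
  fun _ hz _ _ hv => formWalk_sound hc hB f K i j zs h hz hv

theorem cellP_split {G : ℝ → ℝ → List ℝ} {zs : List (List ℤ)} {K i j : ℕ}
    (h00 : CellP G zs (K + 1) (2 * i) (2 * j)) (h10 : CellP G zs (K + 1) (2 * i + 1) (2 * j))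
    (h01 : CellP G zs (K + 1) (2 * i) (2 * j + 1)) (h11 : CellP G zs (K + 1) (2 * i + 1) (2 * j + 1)) :
    CellP G zs K i j := by
  intro z hz v w hv
  obtain ⟨i', hi', hi1, hi2⟩ := inCell_split hv.1 hv.2.1
  obtain ⟨j', hj', hj1, hj2⟩ := inCell_split hv.2.2.1 hv.2.2.2
  rcases hi' with rfl | rfl <;> rcases hj' with rfl | rfl
  · exact h00 z hz v w ⟨hi1, hi2, hj1, hj2⟩
  · exact h01 z hz v w ⟨hi1, hi2, hj1, hj2⟩
  · exact h10 z hz v w ⟨hi1, hi2, hj1, hj2⟩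
  · exact h11 z hz v w ⟨hi1, hi2, hj1, hj2⟩

theorem cellP_square {G : ℝ → ℝ → List ℝ} {zs : List (List ℤ)} (h : CellP G zs 0 0 0) {z : List ℤ}
    (hz : z ∈ zs) {v w : ℝ} (hv0 : 0 ≤ v) (hv1 : v ≤ 1) (hw0 : 0 ≤ w) (hw1 : w ≤ 1) :
    0 ≤ linV (G v w) z :=
  h z hz v w ⟨by simpa using hv0, by simpa using hv1, by simpa using hw0, by simpa using hw1⟩

end Vale.Agent.P154.Hel.TM
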