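import Mathlib

/-!
Digits of natural numbers in base `W`, used as the coefficient vectors of packed polynomials:
additivity without carries, convolution for products, digit sums by reduction modulo `W - 1`.
-/

namespace Vale.Agent.P154.Hel.TM

open Finset

/-- The digit number `k` of `X` in base `W`. -/
def dig (W X k : ℕ) : ℕ := X / W ^ k % W

lemma dig_zero (W X : ℕ) : dig W X 0 = X % W := by
  simp [dig]

lemma dig_succ (W X k : ℕ) : dig W X (k + 1) = dig W (X / W) k := by
  unfold dig
  rw [pow_succ', Nat.div_div_eq_div_mul]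

lemma dig_lt {W : ℕ} (hW : 0 < W) (X k : ℕ) : dig W X k < W := Nat.mod_lt _ hW

lemma dig_eq_zero_of_lt {W X k : ℕ} (h : X < W ^ k) : dig W X k = 0 := by
  simp [dig, Nat.div_eq_of_lt h]

lemma dig_of_zero (W k : ℕ) : dig W 0 k = 0 := by
  simp [dig]

/-- A number is the sum of its digits. -/
lemma sum_dig {W : ℕ} (hW : 0 < W) (n X : ℕ) (hX : X < W ^ n) :
    ∑ k ∈ range n, dig W X k * W ^ k = X := by
  induction n generalizing X with
  | zero =>
    simp at hX
    simp [hX]
  | succ n ih =>
    rw [sum_range_succ']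
    have h1 : X / W < W ^ n := by
      rw [Nat.div_lt_iff_lt_mul hW, ← pow_succ]
      exact hX
    have e : ∑ k ∈ range n, dig W X (k + 1) * W ^ (k + 1)
        = W * ∑ k ∈ range n, dig W (X / W) k * W ^ k := by
      rw [mul_sum]
      refine sum_congr rfl fun k _ => ?_
      rw [dig_succ, pow_succ]
      ring
    rw [e, ih _ h1, dig_zero, pow_zero, mul_one]
    exact Nat.div_add_mod X W

/-- Digits of an explicit sum. -/
lemma dig_sum {W : ℕ} (hW : 0 < W) (n : ℕ) (c : ℕ → ℕ) (hc : ∀ k, k < n → c k < W) (k : ℕ) (hk : k < n) :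
    dig W (∑ i ∈ range n, c i * W ^ i) k = c k := by
  induction n generalizing c k with
  | zero => exact absurd hk (Nat.not_lt_zero k)
  | succ n ih =>
    rw [sum_range_succ']
    have e : ∑ i ∈ range n, c (i + 1) * W ^ (i + 1) = W * ∑ i ∈ range n, c (i + 1) * W ^ i := by
      rw [mul_sum]
      refine sum_congr rfl fun i _ => ?_
      rw [pow_succ]
      ring
    rw [e, pow_zero, mul_one]
    have h0 : c 0 < W := hc 0 (Nat.succ_pos n)
    cases k with
    | zero =>
      rw [dig_zero, Nat.mul_add_mod, Nat.mod_eq_of_lt h0]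
    | succ k =>
      rw [dig_succ]
      have e2 : (W * ∑ i ∈ range n, c (i + 1) * W ^ i + c 0) / W = ∑ i ∈ range n, c (i + 1) * W ^ i := by
        rw [Nat.mul_add_div hW, Nat.div_eq_of_lt h0, add_zero]
      rw [e2]
      exact ih (fun i => c (i + 1)) (fun j hj => hc (j + 1) (by omega)) k (by omega)

lemma sum_lt_pow {W : ℕ} (hW : 0 < W) (n : ℕ) (c : ℕ → ℕ) (hc : ∀ k, k < n → c k < W) :
    ∑ i ∈ range n, c i * W ^ i < W ^ n := by
  induction n with
  | zero => simp
  | succ n ih =>
    rw [sum_range_succ]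
    have h1 := ih (fun k hk => hc k (by omega))
    have h2 := hc n (by omega)
    have h3 : c n * W ^ n + W ^ n ≤ W * W ^ n := by
      have : (c n + 1) * W ^ n ≤ W * W ^ n := Nat.mul_le_mul_right _ h2
      linarith
    rw [pow_succ']
    omega

/-- Additivity of the digits without carries. -/
lemma dig_add {W : ℕ} (hW : 0 < W) {X Y : ℕ} (h : ∀ k, dig W X k + dig W Y k < W) (k : ℕ) :
    dig W (X + Y) k = dig W X k + dig W Y k := by
  induction k generalizing X Y with
  | zero =>
    have h0 := h 0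
    rw [dig_zero, dig_zero] at h0
    rw [dig_zero, dig_zero, dig_zero, Nat.add_mod, Nat.mod_eq_of_lt h0]
  | succ k ih =>
    have h0 := h 0
    rw [dig_zero, dig_zero] at h0
    have e : (X + Y) / W = X / W + Y / W := by
      rw [Nat.add_div hW, if_neg (by omega), add_zero]
    rw [dig_succ, dig_succ, dig_succ, e]
    apply ih
    intro j
    have := h (j + 1)
    rwa [dig_succ, dig_succ] at this

/-- Multiplication by a small constant. -/
lemma dig_mul_const {W : ℕ} (hW : 0 < W) {X c : ℕ} (h : ∀ k, dig W X k * c < W) (k : ℕ) :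
    dig W (X * c) k = dig W X k * c := by
  induction k generalizing X with
  | zero =>
    have h0 := h 0
    rw [dig_zero] at h0
    rw [dig_zero, dig_zero]
    have e1 : X * c = (X % W) * c + W * (X / W * c) := by
      conv_lhs => rw [← Nat.mod_add_div X W]
      ring
    rw [e1, Nat.add_mul_mod_self_left, Nat.mod_eq_of_lt h0]
  | succ k ih =>
    have h0 := h 0
    rw [dig_zero] at h0
    have e : X * c / W = X / W * c := by
      have e1 : X * c = (X % W) * c + W * (X / W * c) := by
        conv_lhs => rw [← Nat.mod_add_div X W]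
        ring
      rw [e1, Nat.add_mul_div_left _ _ hW, Nat.div_eq_of_lt h0, zero_add]
    rw [dig_succ, dig_succ, e]
    apply ih
    intro j
    have := h (j + 1)
    rwa [dig_succ] at this

lemma dig_low {W : ℕ} (hW : 0 < W) (X L k : ℕ) (hk : k < L) : dig W (X % W ^ L) k = dig W X k := by
  unfold dig
  have e : W ^ L = W ^ k * W ^ (L - k) := by
    rw [← pow_add]
    congr 1
    omega
  rw [e, Nat.mod_mul_right_div_self]
  apply Nat.mod_mod_of_dvd
  exact dvd_pow_self W (by omega)

lemma dig_high (W X L k : ℕ) : dig W (X / W ^ L) k = dig W X (k + L) := by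
  unfold dig
  rw [Nat.div_div_eq_div_mul, pow_add, mul_comm]

/-- Digits of a conjunction of bits. -/
lemma dig_land {w : ℕ} (X M k : ℕ) :
    dig (2 ^ w) (X &&& M) k = dig (2 ^ w) X k &&& dig (2 ^ w) M k := by
  unfold dig
  have e : ∀ Y : ℕ, Y / (2 ^ w) ^ k = Y >>> (w * k) := by
    intro Y
    rw [Nat.shiftRight_eq_div_pow, pow_mul]
  rw [e, e, e, Nat.shiftRight_and_distrib, Nat.and_mod_two_pow]

lemma dig_land_le {w : ℕ} (X M k : ℕ) : dig (2 ^ w) (X &&& M) k ≤ dig (2 ^ w) M k := by
  rw [dig_land]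
  exact Nat.and_le_right

/-- The sum of the digits. -/
def dsum (W n X : ℕ) : ℕ := ∑ k ∈ range n, dig W X k

lemma dsum_succ (W n X : ℕ) : dsum W (n + 1) X = X % W + dsum W n (X / W) := by
  unfold dsum
  rw [sum_range_succ', dig_zero, add_comm]
  congr 1
  exact sum_congr rfl fun k _ => dig_succ W X k

/-- The digit sum as a remainder modulo `W - 1`. -/
lemma mod_eq_dsum {W : ℕ} (hW : 2 ≤ W) (n X : ℕ) (hX : X < W ^ n) (hs : dsum W n X < W - 1) :
    X % (W - 1) = dsum W n X := by
  have key : ∀ (n X : ℕ), X < W ^ n → X ≡ dsum W n X [MOD (W - 1)] := by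
    intro n
    induction n with
    | zero =>
      intro X hX
      simp at hX
      simp [hX, dsum]
      exact Nat.ModEq.refl _
    | succ n ih =>
      intro X hX
      have hW0 : 0 < W := by omega
      have h1 : X / W < W ^ n := by
        rw [Nat.div_lt_iff_lt_mul hW0, ← pow_succ]
        exact hX
      rw [dsum_succ]
      have hW1 : W ≡ 1 [MOD (W - 1)] := by
        have : W = (W - 1) * 1 + 1 := by omega
        conv_lhs => rw [this]
        simp [Nat.ModEq]
      have h2 : X / W * W ≡ X / W * 1 [MOD (W - 1)] := Nat.ModEq.mul_left _ hW1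
      have e : X = X % W + X / W * W := (Nat.mod_add_div' X W).symm
      calc X = X % W + X / W * W := e
        _ ≡ X % W + X / W * 1 [MOD (W - 1)] := Nat.ModEq.add_left _ h2
        _ = X % W + X / W := by rw [mul_one]
        _ ≡ X % W + dsum W n (X / W) [MOD (W - 1)] := Nat.ModEq.add_left _ (ih _ h1)
  have h := key n X hX
  unfold Nat.ModEq at h
  rw [h, Nat.mod_eq_of_lt hs]

/-! ### Products -/

lemma sum_fiber {R : Type*} [CommSemiring R] (n K : ℕ) (a : ℕ → ℕ → R) (g : ℕ → R)
    (h : ∀ i, i < n → ∀ j, j < n → i + j < K) :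
    ∑ k ∈ range K, (∑ i ∈ range n, ∑ j ∈ range n, if i + j = k then a i j else 0) * g k
      = ∑ i ∈ range n, ∑ j ∈ range n, a i j * g (i + j) := by
  simp_rw [sum_mul]
  rw [sum_comm]
  refine sum_congr rfl fun i hi => ?_
  rw [sum_comm]
  refine sum_congr rfl fun j hj => ?_
  rw [sum_eq_single (i + j)]
  · simp
  · intro k _ hk
    rw [if_neg (Ne.symm hk), zero_mul]
  · intro hn
    exact absurd (mem_range.mpr (h i (mem_range.mp hi) j (mem_range.mp hj))) hn

/-- The coefficient of a product. -/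
def conv (W n X Y k : ℕ) : ℕ :=
  ∑ i ∈ range n, ∑ j ∈ range n, if i + j = k then dig W X i * dig W Y j else 0

lemma conv_le (W n X Y k : ℕ) : conv W n X Y k ≤ dsum W n X * dsum W n Y := by
  unfold conv dsum
  rw [sum_mul_sum]
  refine sum_le_sum fun i _ => sum_le_sum fun j _ => ?_
  split_ifs
  · exact le_rfl
  · exact Nat.zero_le _

lemma mul_eq_sum_conv {W : ℕ} (hW : 0 < W) {n X Y : ℕ} (hX : X < W ^ n) (hY : Y < W ^ n) :
    X * Y = ∑ k ∈ range (2 * n), conv W n X Y k * W ^ k := by
  unfold conv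
  rw [sum_fiber (R := ℕ) n (2 * n) (fun i j => dig W X i * dig W Y j) (fun k => W ^ k)
    (fun i hi j hj => by omega)]
  conv_lhs => rw [← sum_dig hW n X hX, ← sum_dig hW n Y hY]
  rw [sum_mul_sum]
  refine sum_congr rfl fun i _ => sum_congr rfl fun j _ => ?_
  rw [pow_add]
  ring

/-- Digits of a product, when no carry can occur. -/
lemma dig_mul {W : ℕ} (hW : 0 < W) {n X Y : ℕ} (hX : X < W ^ n) (hY : Y < W ^ n)
    (hs : dsum W n X * dsum W n Y < W) (k : ℕ) (hk : k < 2 * n) :
    dig W (X * Y) k = conv W n X Y k := by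
  rw [mul_eq_sum_conv hW hX hY]
  exact dig_sum hW (2 * n) _ (fun j _ => lt_of_le_of_lt (conv_le W n X Y j) hs) k hk

lemma mul_lt_pow {W n X Y : ℕ} (hW : 0 < W) (hX : X < W ^ n) (hY : Y < W ^ n) : X * Y < W ^ (2 * n) := by
  have h1 : X * Y < W ^ n * W ^ n := Nat.mul_lt_mul'' hX hY
  rwa [← pow_add, ← two_mul] at h1

/-- The value of a packed polynomial for given values of the monomials. -/
noncomputable def lam (W n X : ℕ) (g : ℕ → ℝ) : ℝ := ∑ k ∈ range n, (dig W X k : ℝ) * g k

/-- Products of values, expressed by the digits of the product. -/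
lemma lam_mul {W : ℕ} (hW : 0 < W) {n X Y : ℕ} (hX : X < W ^ n) (hY : Y < W ^ n)
    (hs : dsum W n X * dsum W n Y < W) (g : ℕ → ℝ) :
    lam W (2 * n) (X * Y) g
      = ∑ i ∈ range n, ∑ j ∈ range n, (dig W X i : ℝ) * (dig W Y j : ℝ) * g (i + j) := by
  unfold lam
  have e : ∀ k ∈ range (2 * n), (dig W (X * Y) k : ℝ) * g k
      = (∑ i ∈ range n, ∑ j ∈ range n, if i + j = k then (dig W X i : ℝ) * (dig W Y j : ℝ) else 0) * g k := by
    intro k hk
    rw [dig_mul hW hX hY hs k (mem_range.mp hk)]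
    unfold conv
    push_cast
    rfl
  rw [sum_congr rfl e]
  exact sum_fiber (R := ℝ) n (2 * n) (fun i j => (dig W X i : ℝ) * (dig W Y j : ℝ)) g
    (fun i hi j hj => by omega)

lemma lam_add {W : ℕ} (hW : 0 < W) {X Y : ℕ} (h : ∀ k, dig W X k + dig W Y k < W) (n : ℕ) (g : ℕ → ℝ) :
    lam W n (X + Y) g = lam W n X g + lam W n Y g := by
  unfold lam
  rw [← sum_add_distrib]
  refine sum_congr rfl fun k _ => ?_
  rw [dig_add hW h k]
  push_cast
  ring

lemma lam_congr {W n X Y : ℕ} {g : ℕ → ℝ} (h : ∀ k, k < n → dig W X k = dig W Y k) :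
    lam W n X g = lam W n Y g := by
  unfold lam
  exact sum_congr rfl fun k hk => by rw [h k (mem_range.mp hk)]

lemma abs_lam_le {W n X : ℕ} {g : ℕ → ℝ} (hg : ∀ k, |g k| ≤ 1) : |lam W n X g| ≤ (dsum W n X : ℝ) := by
  unfold lam dsum
  push_cast
  refine (abs_sum_le_sum_abs _ _).trans (sum_le_sum fun k _ => ?_)
  rw [abs_mul, Nat.abs_cast]
  calc (dig W X k : ℝ) * |g k| ≤ (dig W X k : ℝ) * 1 :=
        mul_le_mul_of_nonneg_left (hg k) (Nat.cast_nonneg _)
    _ = _ := mul_one _

end Vale.Agent.P154.Hel.TM
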