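import Vale.Agent.P154.Hel.Mono

/-!
Nonreconstruction on the `d`-ary tree from a key inequality that is only valid after a burn-in:
if the Hellinger defect of one character is below `X0` at some level `n0`, then it stays below `X0` at all
later levels, and the key inequality is only needed at the hull points satisfying this bound.
-/

namespace Vale.Agent.P154

namespace Hel

noncomputable section

open Finset Filter Topology

/-- The Hellinger defects are nonincreasing along the chain. -/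
theorem Ht_Lk_mono_add (d : ℕ) {lam : ℝ} (h0 : -(1 / 2) ≤ lam) (h1 : lam ≤ 1) {s : Fin 3 → ℝ}
    (hs : AdmS s) (n k : ℕ) : 1 - Ht s (Lk d lam (n + k)) ≤ 1 - Ht s (Lk d lam n) := by
  induction k with
  | zero => exact le_rfl
  | succ k ih => exact (Ht_Lk_mono d h0 h1 hs (n + k)).trans ih

/-- The step of the telescoping sum at level `n`. -/
theorem regular_step {ι : Type*} [Fintype ι] {s : ι → Fin 3 → ℝ}
    (hs : ∀ j, AdmS (s j)) {d : ℕ} {lam κ B : ℝ} (h0 : -(1 / 2) ≤ lam) (h1 : lam ≤ 1) (n : ℕ)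
    {a c : ι → ℝ} {c0 e : ℝ} (ha : ∀ j, a j ≤ B)
    (h2 : ∑ j, a j * (1 - (1 - (1 - Ht (s j) (chanLaw lam (Lk d lam n)))) ^ d)
        + κ * (YY (Lk d lam n)) ^ 2
      ≤ ∑ j, c j * (1 - Ht (s j) (chanLaw lam (Lk d lam n))) + c0 * YY (Lk d lam n) + e)
    (h3 : ∀ x : Fin 3 → ℝ, (∀ i, 0 < x i) →
      ∑ j, c j * psi (s j) lam x + c0 * yyv x + e * mass x ≤ phiF a s x) :
    B * ∑ j, (1 - Ht (s j) (Lk d lam (n + 1))) + κ * (YY (Lk d lam n)) ^ 2
      ≤ B * ∑ j, (1 - Ht (s j) (Lk d lam n)) := by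
  have hL := isLawN_Lk d h0 h1
  have h4 := (hL n).key_sum hs h0 h1 h3
  have h5 : ∑ j, a j * (1 - (1 - (1 - Ht (s j) (chanLaw lam (Lk d lam n)))) ^ d)
      = ∑ j, a j * (1 - Ht (s j) (Lk d lam (n + 1))) := by
    refine Finset.sum_congr rfl fun j _ => ?_
    rw [Ht_Lk_succ d h0 h1]
    congr 3
    ring
  rw [h5] at h2
  unfold VV at h4
  have h6 : ∑ j, (a j * (1 - Ht (s j) (Lk d lam n)) - a j * (1 - Ht (s j) (Lk d lam (n + 1))))
      ≤ ∑ j, B * ((1 - Ht (s j) (Lk d lam n)) - (1 - Ht (s j) (Lk d lam (n + 1)))) := by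
    refine Finset.sum_le_sum fun j _ => ?_
    rw [← mul_sub]
    exact mul_le_mul_of_nonneg_right (ha j) (sub_nonneg.2 (Ht_Lk_mono d h0 h1 (hs j) n))
  rw [Finset.sum_sub_distrib, ← Finset.mul_sum, Finset.sum_sub_distrib, mul_sub] at h6
  linarith

/-- Nonreconstruction on the `d`-ary tree with a key valid after a burn-in. -/
theorem hel_regular_burn {ι : Type*} [Fintype ι] {s : ι → Fin 3 → ℝ}
    (hs : ∀ j, AdmS (s j)) {d : ℕ} {lam κ B X0 : ℝ} (h0 : -(1 / 2) ≤ lam) (h1 : lam ≤ 1)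
    (hκ : 0 < κ) (j0 : ι) (n0 : ℕ) (hburn : 1 - Ht (s j0) (Lk d lam n0) ≤ X0)
    (hK : ∀ (y : ι → ℝ) (Y : ℝ), HullY s lam y Y → 1 - (1 - y j0) ^ d ≤ X0 →
      ∃ (a c : ι → ℝ) (c0 e : ℝ), (∀ j, a j ≤ B) ∧
        ∑ j, a j * (1 - (1 - y j) ^ d) + κ * Y ^ 2 ≤ ∑ j, c j * y j + c0 * Y + e ∧
        ∀ x : Fin 3 → ℝ, (∀ i, 0 < x i) →
          ∑ j, c j * psi (s j) lam x + c0 * yyv x + e * mass x ≤ phiF a s x) :
    Tendsto (reconA 3 d lam) atTop (𝓝 0) := by
  have hL := isLawN_Lk d h0 h1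
  have hY0 : Tendsto (fun n => YY (Lk d lam (n + n0))) atTop (𝓝 0) := by
    refine tendsto_zero_of_telescope
      (V := fun n => B * ∑ j, (1 - Ht (s j) (Lk d lam (n + n0)))) (κ := κ)
      (B := |B| * (Fintype.card ι : ℝ)) hκ (fun n => (hL _).YY_nonneg)
      (fun n => abs_sum_defect_le B _ (fun j => abs_one_sub_Ht (hL _) (hs j))) (fun n => ?_)
    have hb : 1 - (1 - (1 - Ht (s j0) (chanLaw lam (Lk d lam (n + n0))))) ^ d ≤ X0 := by
      have e1 : (1 - (1 - Ht (s j0) (chanLaw lam (Lk d lam (n + n0))))) ^ d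
          = Ht (s j0) (Lk d lam (n + n0 + 1)) := by
        rw [Ht_Lk_succ d h0 h1]
        congr 1
        ring
      rw [e1]
      have e2 : n + n0 + 1 = n0 + (n + 1) := by ring
      rw [e2]
      exact (Ht_Lk_mono_add d h0 h1 (hs j0) n0 (n + 1)).trans hburn
    obtain ⟨a, c, c0, e, ha, h2, h3⟩ := hK _ _ ((hL (n + n0)).hull hs h0 h1) hb
    have := regular_step hs h0 h1 (n + n0) ha h2 h3
    have e3 : n + 1 + n0 = n + n0 + 1 := by ring
    show B * ∑ j, (1 - Ht (s j) (Lk d lam (n + 1 + n0))) + κ * (YY (Lk d lam (n + n0))) ^ 2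
      ≤ B * ∑ j, (1 - Ht (s j) (Lk d lam (n + n0)))
    rw [e3]
    exact this
  have hY : Tendsto (fun n => YY (Lk d lam n)) atTop (𝓝 0) :=
    (tendsto_add_atTop_iff_nat n0).1 hY0
  have hsq : Tendsto (fun n => Real.sqrt (YY (Lk d lam n) / 2)) atTop (𝓝 0) := by
    have := (Real.continuous_sqrt.tendsto (0 / 2)).comp (hY.div_const 2)
    have e : Real.sqrt (0 / 2) = 0 := by simp
    rw [e] at this
    exact this
  refine squeeze_zero (fun n => ?_) (fun n => ?_) hsq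
  · rw [reconA_eqN d n (hL n)]
    refine Finset.sum_nonneg fun τ _ => ?_
    positivity
  · rw [reconA_eqN d n (hL n)]
    exact Real.le_sqrt_of_sq_le (hL n).sq_sum_le

end

end Hel

end Vale.Agent.P154
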