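import Vale.Agent.P154.Hel.Direct

/-!
Regular scalars for the corner of the `q = 3` certificate: the key inequality of the `d`-ary tree on a
region of hull points, from a list of planes and tangent data, by exact rational arithmetic.

A *row* is a range `[Y1, Y2]` of the defect `y jc` of the centre character, split into *bins*: ranges
`[r1, r2]` of the ratio `y j9 / y jc`. Each bin carries a plane and a tangent point for each positive
character. Negative characters are handled by convexity on the range of the cell.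
-/

namespace Vale.Agent.P154.Hel.Corner

open Vale.Agent.P154.Hel Vale.Agent.P154.Hel.Direct

/-! ### Real lemmas -/

theorem pow_tangent (d : ℕ) {u v : ℝ} (hu : 0 ≤ u) (hv : 0 ≤ v) :
    v ^ (d + 1) + (d + 1) * v ^ d * (u - v) ≤ u ^ (d + 1) := by
  induction d with
  | zero => simp
  | succ d ih =>
    have h1 : u * (v ^ (d + 1) + (d + 1) * v ^ d * (u - v)) ≤ u * u ^ (d + 1) :=
      mul_le_mul_of_nonneg_left ih hu
    have h2 : 0 ≤ (d + 1) * (u - v) ^ 2 * v ^ d := by positivity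
    have e1 : u * u ^ (d + 1) = u ^ (d + 1 + 1) := by ring
    have e2 : u * (v ^ (d + 1) + (d + 1) * v ^ d * (u - v))
        = v ^ (d + 1 + 1) + ((d + 1 : ℕ) + 1) * v ^ (d + 1) * (u - v) + (d + 1) * (u - v) ^ 2 * v ^ d := by
      push_cast
      ring
    rw [e2, e1] at h1
    linarith

/-- Writing a point of an interval as a convex combination of the end points. -/
theorem exists_convex {Z1 Z2 z : ℝ} (h1 : Z1 ≤ z) (h2 : z ≤ Z2) :
    ∃ l m : ℝ, 0 ≤ l ∧ 0 ≤ m ∧ l + m = 1 ∧ l * Z1 + m * Z2 = z := by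
  rcases eq_or_lt_of_le (h1.trans h2) with h | h
  · refine ⟨1, 0, by norm_num, le_refl _, by norm_num, ?_⟩
    have : z = Z1 := le_antisymm (h2.trans h.symm.le) h1
    rw [this]
    ring
  · have hd : 0 < Z2 - Z1 := by linarith
    refine ⟨(Z2 - z) / (Z2 - Z1), (z - Z1) / (Z2 - Z1), div_nonneg (by linarith) hd.le,
      div_nonneg (by linarith) hd.le, ?_, ?_⟩
    · field_simp
      ring
    · field_simp
      ring

/-- The tangent of a positive character. -/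
theorem ub_tan {d : ℕ} {a c q y : ℝ} (ha : 0 ≤ a) (hq : q ≤ 1)
    (hs : a * (d + 1) * (1 - q) ^ d ≤ c) (hy0 : 0 ≤ y) (hy1 : y ≤ 1) :
    a * (1 - (1 - y) ^ (d + 1)) - c * y
      ≤ a * (1 - (1 - q) ^ (d + 1) - (d + 1) * (1 - q) ^ d * q) := by
  have h1 := pow_tangent d (u := 1 - y) (v := 1 - q) (by linarith) (by linarith)
  have h2 : a * ((1 - q) ^ (d + 1) + (d + 1) * (1 - q) ^ d * (1 - y - (1 - q)))
      ≤ a * (1 - y) ^ (d + 1) := mul_le_mul_of_nonneg_left h1 ha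
  have h3 : (a * (d + 1) * (1 - q) ^ d) * y ≤ c * y := mul_le_mul_of_nonneg_right hs hy0
  nlinarith

/-- The maximum of two rationals, computable in the kernel. -/
def qmax (a b : ℚ) : ℚ := if a ≤ b then b else a

theorem le_qmax_left (a b : ℚ) : a ≤ qmax a b := by
  unfold qmax
  split_ifs with h
  · exact h
  · exact le_rfl

theorem le_qmax_right (a b : ℚ) : b ≤ qmax a b := by
  unfold qmax
  split_ifs with h
  · exact le_rfl
  · exact (not_le.1 h).le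

/-- The bound of a negative character on its range. -/
theorem ub_rng {d : ℕ} {a c lo hi y M : ℝ} (ha : a ≤ 0) (h1 : lo ≤ y) (h2 : y ≤ hi) (h3 : hi ≤ 1)
    (hlo : a * (1 - (1 - lo) ^ d) - c * lo ≤ M) (hhi : a * (1 - (1 - hi) ^ d) - c * hi ≤ M) :
    a * (1 - (1 - y) ^ d) - c * y ≤ M := by
  obtain ⟨l, m, l0, m0, lm, hz⟩ := exists_convex h1 h2
  have hc := (convexOn_pow d).2 (x := 1 - lo) (y := 1 - hi)
    (Set.mem_Ici.2 (by linarith)) (Set.mem_Ici.2 (by linarith)) l0 m0 lm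
  simp only [smul_eq_mul] at hc
  have e1 : l * (1 - lo) + m * (1 - hi) = 1 - y := by
    rw [← hz]
    have : l = 1 - m := by linarith
    subst this
    ring
  rw [e1] at hc
  have h4 : a * (l * (1 - lo) ^ d + m * (1 - hi) ^ d) ≤ a * (1 - y) ^ d :=
    mul_le_mul_of_nonpos_left hc ha
  have h5 := mul_le_mul_of_nonneg_left hlo l0
  have h6 := mul_le_mul_of_nonneg_left hhi m0
  have e2 : l * M + m * M = M := by
    have : l = 1 - m := by linarith
    subst this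
    ring
  have e3 : c * y = c * (l * lo + m * hi) := by rw [hz]
  have e4 : a = a * (l + m) := by rw [lm, mul_one]
  nlinarith

/-- The quadratic term in the second moment. -/
theorem quad_ub {κ c0 Y M U : ℝ} (hκ : 0 ≤ κ) (hY0 : 0 ≤ Y) (hY : Y ≤ M) (h0 : 0 ≤ U)
    (h1 : κ * M ^ 2 - c0 * M ≤ U) : κ * Y ^ 2 - c0 * Y ≤ U := by
  rcases eq_or_lt_of_le (hY0.trans hY) with hM | hM
  · have : Y = 0 := le_antisymm (hY.trans hM.symm.le) hY0
    subst this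
    simpa using h0
  · obtain ⟨l, m, l0, m0, lm, hz⟩ := exists_convex hY0 hY
    have hz' : Y = m * M := by rw [← hz]; ring
    have hm1 : m ≤ 1 := by linarith
    have h2 : κ * (m * M) ^ 2 ≤ κ * (m * M ^ 2) := by
      apply mul_le_mul_of_nonneg_left _ hκ
      have : m ^ 2 ≤ m := by nlinarith
      have h3 : 0 ≤ M ^ 2 := by positivity
      calc (m * M) ^ 2 = m ^ 2 * M ^ 2 := by ring
        _ ≤ m * M ^ 2 := mul_le_mul_of_nonneg_right this h3
    have h4 := mul_le_mul_of_nonneg_left h1 m0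
    rw [hz']
    have h5 : m * U ≤ U := by nlinarith
    nlinarith

/-! ### Data -/

/-- A plane: numerators over a common denominator. -/
structure Plane where
  A : List ℤ
  C : List ℤ
  C0 : ℤ
  E : ℤ

/-- A bin: a range of the ratio, a plane and tangent points. -/
structure RBin where
  r1 : ℚ
  r2 : ℚ
  pl : Plane
  q : List ℚ

/-- A row: a range of the centre defect and its bins. -/
structure RRow where
  Y1 : ℚ
  Y2 : ℚ
  bins : List RBin

/-- Parameters of a check. -/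
structure RPar where
  /-- the arity of the tree minus one: `d = dd + 1` -/
  dd : ℕ
  /-- the denominator of the planes -/
  D : ℕ
  /-- number of characters -/
  n : ℕ
  /-- index of the centre character -/
  jc : ℕ
  /-- index of the second negative character -/
  j9 : ℕ
  /-- the coefficient of the square of the second moment -/
  κ : ℚ
  /-- the bound of the positive coefficients -/
  B : ℚ
  /-- the bound `Y ≤ ρY * d * y jc` -/
  ρY : ℚ

/-- The sum of a sequence of rationals, computable. -/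
def sumTo : ℕ → (ℕ → ℚ) → ℚ
  | 0, _ => 0
  | n + 1, g => sumTo n g + g n

/-- A property of all indices below `n`. -/
def allTo : ℕ → (ℕ → Bool) → Bool
  | 0, _ => true
  | n + 1, g => allTo n g && g n

theorem allTo_spec {n : ℕ} {g : ℕ → Bool} (h : allTo n g = true) {j : ℕ} (hj : j < n) : g j = true := by
  induction n with
  | zero => omega
  | succ n ih =>
    simp only [allTo, Bool.and_eq_true] at h
    rcases Nat.lt_succ_iff_lt_or_eq.1 hj with h1 | h1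
    · exact ih h.1 h1
    · rw [h1]
      exact h.2

theorem sum_sumTo {n : ℕ} (g : ℕ → ℚ) :
    ∑ j : Fin n, ((g j : ℚ) : ℝ) = ((sumTo n g : ℚ) : ℝ) := by
  induction n with
  | zero => simp [sumTo]
  | succ n ih =>
    rw [Fin.sum_univ_castSucc]
    simp only [Fin.val_castSucc, Fin.val_last, sumTo]
    rw [ih]
    push_cast
    rfl

/-- The coefficient `a j` of a plane. -/
def aQ (p : RPar) (P : Plane) (j : ℕ) : ℚ := (P.A.getD j 0 : ℚ) / p.D

/-- The coefficient `c j` of a plane. -/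
def cQ (p : RPar) (P : Plane) (j : ℕ) : ℚ := (p.dd + 1 : ℕ) * ((P.C.getD j 0 : ℚ) / p.D)

/-- The value of the function of a character at a rational point. -/
def fQ (p : RPar) (a c y : ℚ) : ℚ := a * (1 - (1 - y) ^ (p.dd + 1)) - c * y

/-- The upper bound of the function of a character on a cell. -/
def ubQ (p : RPar) (b : RBin) (Y1 Y2 : ℚ) (j : ℕ) : ℚ :=
  if j = p.jc then qmax (fQ p (aQ p b.pl j) (cQ p b.pl j) Y1) (fQ p (aQ p b.pl j) (cQ p b.pl j) Y2)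
  else if j = p.j9 then
    qmax (fQ p (aQ p b.pl j) (cQ p b.pl j) (b.r1 * Y1)) (fQ p (aQ p b.pl j) (cQ p b.pl j) (b.r2 * Y2))
  else
    aQ p b.pl j * (1 - (1 - b.q.getD j 0) ^ (p.dd + 1)
      - ((p.dd + 1 : ℕ) : ℚ) * (1 - b.q.getD j 0) ^ p.dd * b.q.getD j 0)

/-- The condition on a character. -/
def charOK (p : RPar) (b : RBin) (j : ℕ) : Bool :=
  decide (aQ p b.pl j ≤ p.B) &&
  if j = p.jc ∨ j = p.j9 then decide (aQ p b.pl j ≤ 0)
  else
    decide (0 ≤ aQ p b.pl j) && decide (b.q.getD j 0 ≤ 1) &&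
      decide (aQ p b.pl j * ((p.dd + 1 : ℕ) : ℚ) * (1 - b.q.getD j 0) ^ p.dd ≤ cQ p b.pl j)

/-- The largest value of the second moment on a cell. -/
def YmaxQ (p : RPar) (Y2 : ℚ) : ℚ := p.ρY * (p.dd + 1 : ℕ) * Y2

/-- The check of the scalar inequality on a cell. -/
def binOK (p : RPar) (Y1 Y2 : ℚ) (b : RBin) : Bool :=
  let M := YmaxQ p Y2
  decide (Y2 ≤ 1) && decide (b.r2 * Y2 ≤ 1) && decide (0 ≤ b.r1 * Y1) && decide (0 ≤ Y1) &&
  allTo p.n (charOK p b) &&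
  decide (sumTo p.n (ubQ p b Y1 Y2)
      + qmax 0 (p.κ * M ^ 2 - ((b.pl.C0 : ℚ) / p.D) * M) ≤ (b.pl.E : ℚ) / p.D)

/-- Intervals covering a range. -/
def chainOK {α : Type} (lo hi : α → ℚ) : ℚ → List α → ℚ → Bool
  | a, [], b => decide (b < a)
  | a, x :: L, b => decide (lo x ≤ a) && chainOK lo hi (hi x) L b

theorem chainOK_spec {α : Type} {lo hi : α → ℚ} {a b : ℚ} {L : List α}
    (h : chainOK lo hi a L b = true) {x : ℝ} (h1 : (a : ℝ) ≤ x) (h2 : x ≤ (b : ℝ)) :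
    ∃ u ∈ L, ((lo u : ℚ) : ℝ) ≤ x ∧ x ≤ ((hi u : ℚ) : ℝ) := by
  induction L generalizing a with
  | nil =>
    simp only [chainOK, decide_eq_true_eq] at h
    have : (b : ℝ) < a := by exact_mod_cast h
    linarith
  | cons u L ih =>
    simp only [chainOK, Bool.and_eq_true, decide_eq_true_eq] at h
    by_cases hx : x ≤ ((hi u : ℚ) : ℝ)
    · refine ⟨u, by simp, ?_, hx⟩
      have : ((lo u : ℚ) : ℝ) ≤ a := by exact_mod_cast h.1
      linarith
    · obtain ⟨w, hw, hw2⟩ := ih h.2 (not_le.1 hx).le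
      exact ⟨w, List.mem_cons_of_mem _ hw, hw2⟩

/-- The check of a row. -/
def rowOK (p : RPar) (ρ0 : ℚ) (r : RRow) : Bool :=
  decide (0 < r.Y1) && r.bins.all (binOK p r.Y1 r.Y2) &&
  chainOK (fun b : RBin => b.r1) (fun b : RBin => b.r2) ρ0 r.bins 1

/-- The check of a list of rows, covering the range `[Ya, Yb]` of the centre defect. -/
def rowsOK (p : RPar) (ρ0 Ya Yb : ℚ) (rows : List RRow) : Bool :=
  decide (0 ≤ p.κ) && decide (0 ≤ p.ρY) && decide (0 < p.D) &&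
  rows.all (rowOK p ρ0) && chainOK (fun r : RRow => r.Y1) (fun r : RRow => r.Y2) Ya rows Yb

/-! ### Soundness -/

noncomputable section

theorem aQ_cast (p : RPar) (P : Plane) (j : ℕ) :
    ((aQ p P j : ℚ) : ℝ) = ((P.A.getD j 0 : ℤ) : ℝ) / p.D := by
  unfold aQ
  push_cast
  rfl

theorem cQ_cast (p : RPar) (P : Plane) (j : ℕ) :
    ((cQ p P j : ℚ) : ℝ) = ((p.dd + 1 : ℕ) : ℝ) * (((P.C.getD j 0 : ℤ) : ℝ) / p.D) := by
  unfold cQ
  push_cast
  rfl

theorem fQ_cast (p : RPar) (a c y : ℚ) :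
    ((fQ p a c y : ℚ) : ℝ) = (a : ℝ) * (1 - (1 - (y : ℝ)) ^ (p.dd + 1)) - (c : ℝ) * y := by
  unfold fQ
  push_cast
  rfl

/-- The bound for one character. -/
theorem char_ub {p : RPar} {b : RBin} {Y1 Y2 : ℚ} {j : ℕ} (hOK : charOK p b j = true)
    (hY2 : Y2 ≤ 1) (hr2 : b.r2 * Y2 ≤ 1) {yj yc y9 : ℝ} (hy0 : 0 ≤ yj) (hy1 : yj ≤ 1)
    (hc : j = p.jc → yj = yc) (h9 : j = p.j9 → yj = y9)
    (hc1 : (Y1 : ℝ) ≤ yc) (hc2 : yc ≤ (Y2 : ℝ))
    (h91 : ((b.r1 * Y1 : ℚ) : ℝ) ≤ y9) (h92 : y9 ≤ ((b.r2 * Y2 : ℚ) : ℝ)) :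
    ((aQ p b.pl j : ℚ) : ℝ) * (1 - (1 - yj) ^ (p.dd + 1)) - ((cQ p b.pl j : ℚ) : ℝ) * yj
      ≤ ((ubQ p b Y1 Y2 j : ℚ) : ℝ) := by
  unfold charOK at hOK
  rw [Bool.and_eq_true] at hOK
  obtain ⟨_, hOK⟩ := hOK
  have hY2' : (Y2 : ℝ) ≤ 1 := by exact_mod_cast hY2
  have hr2' : ((b.r2 * Y2 : ℚ) : ℝ) ≤ 1 := by exact_mod_cast hr2
  unfold ubQ
  by_cases h1 : j = p.jc
  · rw [if_pos (Or.inl h1), decide_eq_true_eq] at hOK
    rw [if_pos h1]
    have ha' : ((aQ p b.pl j : ℚ) : ℝ) ≤ 0 := by exact_mod_cast hOK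
    refine ub_rng ha' (lo := (Y1 : ℝ)) (hi := (Y2 : ℝ))
      (by rw [hc h1]; exact hc1) (by rw [hc h1]; exact hc2) hY2' ?_ ?_
    · rw [← fQ_cast]
      exact Rat.cast_le.2 (le_qmax_left _ _)
    · rw [← fQ_cast]
      exact Rat.cast_le.2 (le_qmax_right _ _)
  · by_cases h2 : j = p.j9
    · rw [if_pos (Or.inr h2), decide_eq_true_eq] at hOK
      rw [if_neg h1, if_pos h2]
      have ha' : ((aQ p b.pl j : ℚ) : ℝ) ≤ 0 := by exact_mod_cast hOK
      refine ub_rng ha' (lo := ((b.r1 * Y1 : ℚ) : ℝ)) (hi := ((b.r2 * Y2 : ℚ) : ℝ))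
        (by rw [h9 h2]; exact h91) (by rw [h9 h2]; exact h92) hr2' ?_ ?_
      · rw [← fQ_cast]
        exact Rat.cast_le.2 (le_qmax_left _ _)
      · rw [← fQ_cast]
        exact Rat.cast_le.2 (le_qmax_right _ _)
    · have hn : ¬ (j = p.jc ∨ j = p.j9) := by tauto
      rw [if_neg hn, Bool.and_eq_true, Bool.and_eq_true, decide_eq_true_eq, decide_eq_true_eq,
        decide_eq_true_eq] at hOK
      obtain ⟨⟨ha, hq⟩, hs⟩ := hOK
      rw [if_neg h1, if_neg h2]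
      have ha' : (0 : ℝ) ≤ ((aQ p b.pl j : ℚ) : ℝ) := by exact_mod_cast ha
      have hq' : ((b.q.getD j 0 : ℚ) : ℝ) ≤ 1 := by exact_mod_cast hq
      have hs' : ((aQ p b.pl j : ℚ) : ℝ) * (p.dd + 1) * (1 - ((b.q.getD j 0 : ℚ) : ℝ)) ^ p.dd
          ≤ ((cQ p b.pl j : ℚ) : ℝ) := by
        have h3 := (Rat.cast_le (K := ℝ)).2 hs
        rw [Rat.cast_mul, Rat.cast_mul, Rat.cast_pow, Rat.cast_sub, Rat.cast_one, Rat.cast_natCast,
          Nat.cast_add, Nat.cast_one] at h3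
        exact h3
      have h4 := ub_tan ha' hq' hs' hy0 hy1
      refine h4.trans (le_of_eq ?_)
      rw [Rat.cast_mul, Rat.cast_sub, Rat.cast_sub, Rat.cast_one, Rat.cast_pow, Rat.cast_sub,
        Rat.cast_one, Rat.cast_mul, Rat.cast_mul, Rat.cast_pow, Rat.cast_sub, Rat.cast_one,
        Rat.cast_natCast, Nat.cast_add, Nat.cast_one]

/-- The scalar inequality on a cell. -/
theorem bin_scalar {p : RPar} {Y1 Y2 : ℚ} {b : RBin} (hκ : 0 ≤ p.κ) (hρ : 0 ≤ p.ρY)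
    (hOK : binOK p Y1 Y2 b = true) {y : Fin p.n → ℝ} {Y : ℝ} {jc j9 : Fin p.n}
    (hjc : (jc : ℕ) = p.jc) (hj9 : (j9 : ℕ) = p.j9)
    (h0 : ∀ j, 0 ≤ y j) (h1 : ∀ j, y j ≤ 1)
    (hc1 : (Y1 : ℝ) ≤ y jc) (hc2 : y jc ≤ (Y2 : ℝ))
    (h91 : ((b.r1 * Y1 : ℚ) : ℝ) ≤ y j9) (h92 : y j9 ≤ ((b.r2 * Y2 : ℚ) : ℝ))
    (hY0 : 0 ≤ Y) (hY1 : Y ≤ (p.ρY : ℝ) * (p.dd + 1 : ℕ) * y jc) :
    ∑ j : Fin p.n, ((aQ p b.pl j : ℚ) : ℝ) * (1 - (1 - y j) ^ (p.dd + 1)) + (p.κ : ℝ) * Y ^ 2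
      ≤ ∑ j : Fin p.n, ((cQ p b.pl j : ℚ) : ℝ) * y j
        + ((b.pl.C0 : ℝ) / p.D) * Y + (b.pl.E : ℝ) / p.D := by
  unfold binOK at hOK
  simp only [Bool.and_eq_true, decide_eq_true_eq] at hOK
  obtain ⟨⟨⟨⟨⟨hY2, hr2⟩, _⟩, _⟩, hch⟩, hsum⟩ := hOK
  have hchar : ∀ j : Fin p.n, ((aQ p b.pl j : ℚ) : ℝ) * (1 - (1 - y j) ^ (p.dd + 1))
      - ((cQ p b.pl j : ℚ) : ℝ) * y j ≤ ((ubQ p b Y1 Y2 j : ℚ) : ℝ) := by
    intro j
    refine char_ub (allTo_spec hch j.2) hY2 hr2 (h0 j) (h1 j) (yc := y jc) (y9 := y j9) ?_ ?_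
      hc1 hc2 h91 h92
    · intro h
      have : j = jc := Fin.ext (by rw [h, hjc])
      rw [this]
    · intro h
      have : j = j9 := Fin.ext (by rw [h, hj9])
      rw [this]
  have hs := Finset.sum_le_sum fun j (_ : j ∈ (Finset.univ : Finset (Fin p.n))) => hchar j
  rw [Finset.sum_sub_distrib, sum_sumTo (n := p.n) (ubQ p b Y1 Y2)] at hs
  have hsum' := (Rat.cast_le (K := ℝ)).2 hsum
  push_cast at hsum'
  have hκ' : (0 : ℝ) ≤ p.κ := by exact_mod_cast hκ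
  have hρ' : (0 : ℝ) ≤ p.ρY := by exact_mod_cast hρ
  have hM : Y ≤ ((YmaxQ p Y2 : ℚ) : ℝ) := by
    unfold YmaxQ
    push_cast
    refine hY1.trans ?_
    have h2 : (0 : ℝ) ≤ (p.ρY : ℝ) * ((p.dd : ℝ) + 1) := by positivity
    push_cast at *
    exact mul_le_mul_of_nonneg_left hc2 h2
  have hq := quad_ub (κ := (p.κ : ℝ)) (c0 := (b.pl.C0 : ℝ) / p.D) (Y := Y)
    (M := ((YmaxQ p Y2 : ℚ) : ℝ))
    (U := ((qmax 0 (p.κ * (YmaxQ p Y2) ^ 2 - ((b.pl.C0 : ℚ) / p.D) * YmaxQ p Y2) : ℚ) : ℝ))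
    hκ' hY0 hM (by exact_mod_cast le_qmax_left _ _)
    (by
      have := le_qmax_right 0 (p.κ * (YmaxQ p Y2) ^ 2 - ((b.pl.C0 : ℚ) / p.D) * YmaxQ p Y2)
      have h3 := (Rat.cast_le (K := ℝ)).2 this
      push_cast at h3 ⊢
      exact h3)
  have hsum2 : ((sumTo p.n (ubQ p b Y1 Y2) : ℚ) : ℝ)
      + ((qmax 0 (p.κ * (YmaxQ p Y2) ^ 2 - ((b.pl.C0 : ℚ) / p.D) * YmaxQ p Y2) : ℚ) : ℝ)
      ≤ (b.pl.E : ℝ) / p.D := by
    exact_mod_cast hsum
  linarith

/-- The pointwise inequality of a plane at the channel `lam`, for the tree of arity `dd + 1`. -/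
def PlaneHolds (X : List E3) (dd D : ℕ) (lam : ℝ) (P : Plane) : Prop :=
  ∀ x : Fin 3 → ℝ, (∀ i, 0 < x i) →
    ∑ j, ((dd + 1 : ℕ) : ℝ) * coef P.C D X.length j * psi (expo X j) lam x
      + ((P.C0 : ℝ) / D) * yyv x + ((P.E : ℝ) / D) * mass x
      ≤ phiF (coef P.A D X.length) (expo X) x

/-- The key inequality at a point of the hull, from the rows. -/
theorem reg_rows {X : List E3} {p : RPar} (hn : p.n = X.length) {ρ0 Ya Yb : ℚ} {rows : List RRow}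
    (hchk : rowsOK p ρ0 Ya Yb rows = true) {lam : ℝ}
    (hpl : ∀ r ∈ rows, ∀ b ∈ r.bins, PlaneHolds X p.dd p.D lam b.pl)
    {jc j9 : Fin X.length} (hjc : (jc : ℕ) = p.jc) (hj9 : (j9 : ℕ) = p.j9)
    {y : Fin X.length → ℝ} {Y : ℝ} (h0 : ∀ j, 0 ≤ y j) (h1 : ∀ j, y j ≤ 1)
    (hr0 : (ρ0 : ℝ) * y jc ≤ y j9) (hr1 : y j9 ≤ y jc) (hY0 : 0 ≤ Y)
    (hY1 : Y ≤ (p.ρY : ℝ) * (p.dd + 1 : ℕ) * y jc)
    (ha : (Ya : ℝ) ≤ y jc) (hb : y jc ≤ (Yb : ℝ)) :
    ∃ (a c : Fin X.length → ℝ) (c0 e : ℝ), (∀ j, a j ≤ (p.B : ℝ)) ∧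
      ∑ j, a j * (1 - (1 - y j) ^ (p.dd + 1)) + (p.κ : ℝ) * Y ^ 2 ≤ ∑ j, c j * y j + c0 * Y + e ∧
      ∀ x : Fin 3 → ℝ, (∀ i, 0 < x i) →
        ∑ j, c j * psi (expo X j) lam x + c0 * yyv x + e * mass x ≤ phiF a (expo X) x := by
  obtain ⟨dd, D, n, jc', j9', κ, B, ρY⟩ := p
  simp only at hn hjc hj9 hY1 ⊢
  subst hn
  have hchk' := hchk
  unfold rowsOK at hchk'
  simp only [Bool.and_eq_true, decide_eq_true_eq, List.all_eq_true] at hchk'
  obtain ⟨⟨⟨⟨hκ, hρ⟩, hD⟩, hrows⟩, hcov⟩ := hchk'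
  obtain ⟨r, hr, hr1', hr2'⟩ := chainOK_spec hcov ha hb
  have hrow := hrows r hr
  unfold rowOK at hrow
  simp only [Bool.and_eq_true, decide_eq_true_eq, List.all_eq_true] at hrow
  obtain ⟨⟨hY1pos, hbins⟩, hcov2⟩ := hrow
  have hyc : 0 < y jc := lt_of_lt_of_le (by exact_mod_cast hY1pos) hr1'
  have hρ1 : (ρ0 : ℝ) ≤ y j9 / y jc := by
    rw [le_div_iff₀ hyc]
    exact hr0
  have hρ2 : y j9 / y jc ≤ ((1 : ℚ) : ℝ) := by
    rw [div_le_iff₀ hyc]
    push_cast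
    linarith
  obtain ⟨b, hb', hb1, hb2⟩ := chainOK_spec hcov2 hρ1 hρ2
  have hbin := hbins b hb'
  have hbin' := hbin
  unfold binOK at hbin'
  simp only [Bool.and_eq_true, decide_eq_true_eq] at hbin'
  obtain ⟨⟨⟨⟨⟨_, _⟩, hr1Y⟩, _⟩, hch⟩, _⟩ := hbin'
  have hY1pos' : (0 : ℝ) < r.Y1 := by exact_mod_cast hY1pos
  have hr10 : (0 : ℝ) ≤ b.r1 := by
    have h2 : (0 : ℝ) ≤ ((b.r1 * r.Y1 : ℚ) : ℝ) := by exact_mod_cast hr1Y
    push_cast at h2
    exact nonneg_of_mul_nonneg_left h2 hY1pos'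
  have hrho : b.r1 * y jc ≤ y j9 := by
    have := (le_div_iff₀ hyc).1 hb1
    exact this
  have hrho2 : y j9 ≤ b.r2 * y jc := by
    have := (div_le_iff₀ hyc).1 hb2
    exact this
  have hr20 : (0 : ℝ) ≤ b.r2 := by
    have h3 := h0 j9
    have h4 : 0 ≤ (b.r2 : ℝ) * y jc := h3.trans hrho2
    exact nonneg_of_mul_nonneg_left h4 hyc
  have h91 : ((b.r1 * r.Y1 : ℚ) : ℝ) ≤ y j9 := by
    push_cast
    exact (mul_le_mul_of_nonneg_left hr1' hr10).trans hrho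
  have h92 : y j9 ≤ ((b.r2 * r.Y2 : ℚ) : ℝ) := by
    push_cast
    exact hrho2.trans (mul_le_mul_of_nonneg_left hr2' hr20)
  have hs := bin_scalar (p := ⟨dd, D, X.length, jc', j9', κ, B, ρY⟩) hκ hρ hbin
    (y := y) (Y := Y) (jc := jc) (j9 := j9) hjc hj9 h0 h1 hr1' hr2' h91 h92 hY0 hY1
  refine ⟨fun j => ((aQ ⟨dd, D, X.length, jc', j9', κ, B, ρY⟩ b.pl j : ℚ) : ℝ),
    fun j => ((cQ ⟨dd, D, X.length, jc', j9', κ, B, ρY⟩ b.pl j : ℚ) : ℝ),
    (b.pl.C0 : ℝ) / D, (b.pl.E : ℝ) / D, ?_, hs, ?_⟩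
  · intro j
    have h2 := allTo_spec hch j.2
    unfold charOK at h2
    rw [Bool.and_eq_true, decide_eq_true_eq] at h2
    exact Rat.cast_le.2 h2.1
  · intro x hx
    have h3 := hpl r hr b hb' x hx
    have e1 : (fun j : Fin X.length => ((aQ ⟨dd, D, X.length, jc', j9', κ, B, ρY⟩ b.pl j : ℚ) : ℝ))
        = coef b.pl.A D X.length := by
      funext j
      rw [aQ_cast]
      rfl
    rw [e1]
    refine le_trans (le_of_eq ?_) h3
    congr 2
    refine Finset.sum_congr rfl fun j _ => ?_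
    beta_reduce
    rw [cQ_cast]
    rfl

end

end Vale.Agent.P154.Hel.Corner
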