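import Vale.Agent.P154.Hel.CornerHull
import Vale.Agent.P154.Hel.CornerReg
import Vale.Agent.P154.Hel.CornerBurn

/-!
Assembly of the regular key of the corner: the facts on the hull, the checked rows and the statement for
small centre defect give the key on the `d`-ary tree, with or without a burn-in.
-/

namespace Vale.Agent.P154.Hel.Corner

open Vale.Agent.P154.Hel Vale.Agent.P154.Hel.Direct Filter Topology
open Vale.Agent.P154.Hel.CornerHull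

noncomputable section

/-- The conclusion of the key at a point of the hull. -/
def RegPoint {n : ℕ} (s : Fin n → Fin 3 → ℝ) (d : ℕ) (lam κ B : ℝ) (y : Fin n → ℝ) (Y : ℝ) : Prop :=
  ∃ (a c : Fin n → ℝ) (c0 e : ℝ), (∀ j, a j ≤ B) ∧
    ∑ j, a j * (1 - (1 - y j) ^ d) + κ * Y ^ 2 ≤ ∑ j, c j * y j + c0 * Y + e ∧
    ∀ x : Fin 3 → ℝ, (∀ i, 0 < x i) →
      ∑ j, c j * psi (s j) lam x + c0 * yyv x + e * mass x ≤ phiF a s x

/-- The key at a point of the hull with centre defect in the range of the rows. -/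
theorem reg_point_rows {X : List E3} {p : RPar} (hn : p.n = X.length) {ρ0 Ya Yb : ℚ} {rows : List RRow}
    (hchk : rowsOK p ρ0 Ya Yb rows = true) {t : ℝ} (ht : t ^ 2 * ((p.dd + 1 : ℕ) : ℝ) = 1)
    (hpl : ∀ r ∈ rows, ∀ b ∈ r.bins, PlaneHolds X p.dd p.D (-t) b.pl)
    {jc j9 : Fin X.length} (hjc : (jc : ℕ) = p.jc) (hj9 : (j9 : ℕ) = p.j9)
    (hρ0 : (ρ0 : ℝ) ≤ 293 / 500) (hρY : (6 / 5 : ℝ) ≤ (p.ρY : ℝ))
    {y : Fin X.length → ℝ} {Y : ℝ} (hf : CornerHullFacts jc j9 t y Y)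
    (ha : (Ya : ℝ) ≤ y jc) (hb : y jc ≤ (Yb : ℝ)) :
    RegPoint (expo X) (p.dd + 1) (-t) (p.κ : ℝ) (p.B : ℝ) y Y := by
  have hc0 : 0 ≤ y jc := hf.y_nonneg jc
  have hd : (0 : ℝ) < ((p.dd + 1 : ℕ) : ℝ) := by positivity
  refine reg_rows hn hchk hpl hjc hj9 hf.y_nonneg (fun j => (hf.y_le_c j).trans hf.yc_le_one) ?_
    (hf.y_le_c j9) hf.Y_nonneg ?_ ha hb
  · exact (mul_le_mul_of_nonneg_right hρ0 hc0).trans hf.y921_ge
  · have h1 := hf.tY_le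
    have h2 : Y = ((p.dd + 1 : ℕ) : ℝ) * (t ^ 2 * Y) := by
      calc Y = (t ^ 2 * ((p.dd + 1 : ℕ) : ℝ)) * Y := by rw [ht, one_mul]
        _ = _ := by ring
    have h3 : ((p.dd + 1 : ℕ) : ℝ) * (t ^ 2 * Y) ≤ ((p.dd + 1 : ℕ) : ℝ) * (6 / 5 * y jc) :=
      mul_le_mul_of_nonneg_left h1 hd.le
    have h4 : (6 / 5 : ℝ) * ((p.dd + 1 : ℕ) : ℝ) * y jc ≤ (p.ρY : ℝ) * ((p.dd + 1 : ℕ) : ℝ) * y jc :=
      mul_le_mul_of_nonneg_right (mul_le_mul_of_nonneg_right hρY hd.le) hc0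
    calc Y = ((p.dd + 1 : ℕ) : ℝ) * (t ^ 2 * Y) := h2
      _ ≤ ((p.dd + 1 : ℕ) : ℝ) * (6 / 5 * y jc) := h3
      _ = (6 / 5 : ℝ) * ((p.dd + 1 : ℕ) : ℝ) * y jc := by ring
      _ ≤ _ := h4

/-- On the hull, the centre defect is at most `4 t ^ 2`. -/
theorem yc_le_of_facts {n : ℕ} {jc j9 : Fin n} {t : ℝ} {y : Fin n → ℝ} {Y : ℝ}
    (hf : CornerHullFacts jc j9 t y Y) : y jc ≤ 4 * t ^ 2 := by
  have h1 := hf.yc_le_tY
  have h2 : t ^ 2 * Y ≤ t ^ 2 * 1 := mul_le_mul_of_nonneg_left hf.Y_le_one (sq_nonneg t)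
  linarith

/-- Nonreconstruction on the `d`-ary tree: rows on `[Ya, Yb]`, and the key for small centre defect. -/
theorem reg_tendsto {X : List E3} (hX : ∀ e ∈ X, e.1 + e.2.1 + e.2.2 = 12) {p : RPar}
    (hn : p.n = X.length) {ρ0 Ya Yb : ℚ} {rows : List RRow}
    (hchk : rowsOK p ρ0 Ya Yb rows = true) {t : ℝ} (h0 : 0 < t) (h1 : t ≤ 1 / 2)
    (ht : t ^ 2 * ((p.dd + 1 : ℕ) : ℝ) = 1)
    (hpl : ∀ r ∈ rows, ∀ b ∈ r.bins, PlaneHolds X p.dd p.D (-t) b.pl)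
    {jc j9 : Fin X.length} (hjc : (jc : ℕ) = p.jc) (hj9 : (j9 : ℕ) = p.j9)
    (hC : X.get jc = (4, 4, 4)) (h9 : X.get j9 = (9, 2, 1))
    (hρ0 : (ρ0 : ℝ) ≤ 293 / 500) (hρY : (6 / 5 : ℝ) ≤ (p.ρY : ℝ))
    (hYb : 4 * t ^ 2 ≤ (Yb : ℝ)) (hκ : (0 : ℝ) < (p.κ : ℝ))
    (hsmall : ∀ (y : Fin X.length → ℝ) (Y : ℝ), HullY (expo X) (-t) y Y → y jc ≤ (Ya : ℝ) →
      RegPoint (expo X) (p.dd + 1) (-t) (p.κ : ℝ) (p.B : ℝ) y Y) :
    Tendsto (reconA 3 (p.dd + 1) (-t)) atTop (𝓝 0) := by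
  refine hel_regular_cells (s := expo X) (fun j => adm_sE (hX _ (List.get_mem X j)))
    (κ := (p.κ : ℝ)) (B := (p.B : ℝ)) (by linarith) (by linarith) hκ ?_
  intro y Y hy
  rcases le_total (y jc) (Ya : ℝ) with hs | hs
  · exact hsmall y Y hy hs
  · have hf := corner_hull_facts X hX hC h9 h0 h1 hy
    exact reg_point_rows hn hchk ht hpl hjc hj9 hρ0 hρY hf hs ((yc_le_of_facts hf).trans hYb)

/-- Bound on a point from the bound on the defect after the power. -/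
theorem le_of_pow_defect {d : ℕ} {X0 u b : ℝ} (hu0 : 0 ≤ u) (hu1 : u ≤ 1) (hb : b ≤ 1)
    (hX0 : X0 < 1 - (1 - b) ^ d) (h : 1 - (1 - u) ^ d ≤ X0) : u ≤ b := by
  by_contra hcon
  push_neg at hcon
  have h1 : (1 - u) ^ d ≤ (1 - b) ^ d := pow_le_pow_left₀ (by linarith) (by linarith) d
  linarith

/-- Nonreconstruction on the `d`-ary tree after a burn-in on the centre character: rows on `[Ya, Yb]`
only. -/
theorem reg_tendsto_burn {X : List E3} (hX : ∀ e ∈ X, e.1 + e.2.1 + e.2.2 = 12) {p : RPar}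
    (hn : p.n = X.length) {ρ0 Ya Yb : ℚ} {rows : List RRow}
    (hchk : rowsOK p ρ0 Ya Yb rows = true) {t : ℝ} (h0 : 0 < t) (h1 : t ≤ 1 / 2)
    (ht : t ^ 2 * ((p.dd + 1 : ℕ) : ℝ) = 1)
    (hpl : ∀ r ∈ rows, ∀ b ∈ r.bins, PlaneHolds X p.dd p.D (-t) b.pl)
    {jc j9 : Fin X.length} (hjc : (jc : ℕ) = p.jc) (hj9 : (j9 : ℕ) = p.j9)
    (hC : X.get jc = (4, 4, 4)) (h9 : X.get j9 = (9, 2, 1))
    (hρ0 : (ρ0 : ℝ) ≤ 293 / 500) (hρY : (6 / 5 : ℝ) ≤ (p.ρY : ℝ))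
    (hYb1 : (Yb : ℝ) ≤ 1) (hκ : (0 : ℝ) < (p.κ : ℝ))
    (hsmall : ∀ (y : Fin X.length → ℝ) (Y : ℝ), HullY (expo X) (-t) y Y → y jc ≤ (Ya : ℝ) →
      RegPoint (expo X) (p.dd + 1) (-t) (p.κ : ℝ) (p.B : ℝ) y Y)
    {X0 : ℝ} (hX0 : X0 < 1 - (1 - (Yb : ℝ)) ^ (p.dd + 1)) (n0 : ℕ)
    (hburn : 1 - Ht (expo X jc) (Lk (p.dd + 1) (-t) n0) ≤ X0) :
    Tendsto (reconA 3 (p.dd + 1) (-t)) atTop (𝓝 0) := by
  refine hel_regular_burn (s := expo X) (fun j => adm_sE (hX _ (List.get_mem X j)))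
    (κ := (p.κ : ℝ)) (B := (p.B : ℝ)) (by linarith) (by linarith) hκ jc n0 hburn ?_
  intro y Y hy hB
  rcases le_total (y jc) (Ya : ℝ) with hs | hs
  · exact hsmall y Y hy hs
  · have hf := corner_hull_facts X hX hC h9 h0 h1 hy
    exact reg_point_rows hn hchk ht hpl hjc hj9 hρ0 hρY hf hs
      (le_of_pow_defect (hf.y_nonneg jc) hf.yc_le_one hYb1 hX0 hB)

end

end Vale.Agent.P154.Hel.Corner
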