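import Vale.Agent.P154.Hel.Direct

/-!
The pointwise ratio of the two characters `(9,2,1)/12` and `(4,4,4)/12` after the channel at `1/2`:
`psi_921 >= (293/500) psi_c`. Near the centre by a polynomial estimate, elsewhere by the walker.
-/

namespace Vale.Agent.P154.Hel.CornerHull

open TM Q3 Direct

noncomputable section

/-- The exponents of the ratio. -/
def XR : List E3 := [(9, 2, 1), (4, 4, 4)]
/-- No density. -/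
def AR : List ℤ := [0, 0]
/-- The coefficients of the ratio over `500`. -/
def CR : List ℤ := [-500, 293]

theorem cornerHull_XR_sum : ∀ e ∈ XR, e.1 + e.2.1 + e.2.2 = 12 := by
  decide

/-! ### Near the centre -/

theorem cornerHull_poly_nonneg {β γ : ℝ} (hβ0 : 0 ≤ β) (hβ : β ≤ 1 / 63) (hγ0 : 0 ≤ γ) (hγ : γ ≤ 1 / 63) :
    0 ≤ 414 * (1 + (1 + β) ^ 12 + (1 + γ) ^ 12) - 500 * six (9, 2, 1) 1 (1 + β) (1 + γ)
      + 293 * six (4, 4, 4) 1 (1 + β) (1 + γ) := by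
  have hn : (16808 * (β ^ 1) + 16808 * (γ ^ 1) + 97872 * (β ^ 2) + 181968 * (β ^ 3) + 189000 * (β ^ 4) + 126000 * (β ^ 5) + 54000 * (β ^ 6) + 13500 * (β ^ 7) + 1500 * (β ^ 8) + 52452 * (β ^ 3 * γ ^ 1) + 63000 * (β ^ 4 * γ ^ 1) + 42000 * (β ^ 5 * γ ^ 1) + 18000 * (β ^ 6 * γ ^ 1) + 4500 * (β ^ 7 * γ ^ 1) + 500 * (β ^ 8 * γ ^ 1) + 97872 * (γ ^ 2) + 181968 * (γ ^ 3) + 189000 * (γ ^ 4) + 126000 * (γ ^ 5) + 54000 * (γ ^ 6) + 13500 * (γ ^ 7) + 1500 * (γ ^ 8) + 52452 * (β ^ 1 * γ ^ 3) + 63000 * (β ^ 1 * γ ^ 4) + 42000 * (β ^ 1 * γ ^ 5) + 18000 * (β ^ 1 * γ ^ 6) + 4500 * (β ^ 1 * γ ^ 7) + 500 * (β ^ 1 * γ ^ 8)) ≤ 872 := by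
    have h : (16808 * (β ^ 1) + 16808 * (γ ^ 1) + 97872 * (β ^ 2) + 181968 * (β ^ 3) + 189000 * (β ^ 4) + 126000 * (β ^ 5) + 54000 * (β ^ 6) + 13500 * (β ^ 7) + 1500 * (β ^ 8) + 52452 * (β ^ 3 * γ ^ 1) + 63000 * (β ^ 4 * γ ^ 1) + 42000 * (β ^ 5 * γ ^ 1) + 18000 * (β ^ 6 * γ ^ 1) + 4500 * (β ^ 7 * γ ^ 1) + 500 * (β ^ 8 * γ ^ 1) + 97872 * (γ ^ 2) + 181968 * (γ ^ 3) + 189000 * (γ ^ 4) + 126000 * (γ ^ 5) + 54000 * (γ ^ 6) + 13500 * (γ ^ 7) + 1500 * (γ ^ 8) + 52452 * (β ^ 1 * γ ^ 3) + 63000 * (β ^ 1 * γ ^ 4) + 42000 * (β ^ 1 * γ ^ 5) + 18000 * (β ^ 1 * γ ^ 6) + 4500 * (β ^ 1 * γ ^ 7) + 500 * (β ^ 1 * γ ^ 8)) ≤ (16808 * ((1 / 63) ^ 1) + 16808 * ((1 / 63) ^ 1) + 97872 * ((1 / 63) ^ 2) + 181968 * ((1 / 63) ^ 3) + 189000 * ((1 / 63) ^ 4) + 126000 * ((1 / 63) ^ 5) + 54000 * ((1 / 63) ^ 6) + 13500 * ((1 / 63) ^ 7) + 1500 * ((1 / 63)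 ^ 8) + 52452 * ((1 / 63) ^ 3 * (1 / 63) ^ 1) + 63000 * ((1 / 63) ^ 4 * (1 / 63) ^ 1) + 42000 * ((1 / 63) ^ 5 * (1 / 63) ^ 1) + 18000 * ((1 / 63) ^ 6 * (1 / 63) ^ 1) + 4500 * ((1 / 63) ^ 7 * (1 / 63) ^ 1) + 500 * ((1 / 63) ^ 8 * (1 / 63) ^ 1) + 97872 * ((1 / 63) ^ 2) + 181968 * ((1 / 63) ^ 3) + 189000 * ((1 / 63) ^ 4) + 126000 * ((1 / 63) ^ 5) + 54000 * ((1 / 63) ^ 6) + 13500 * ((1 / 63) ^ 7) + 1500 * ((1 / 63) ^ 8) + 52452 * ((1 / 63) ^ 1 * (1 / 63) ^ 3) + 63000 * ((1 / 63) ^ 1 * (1 / 63) ^ 4) + 42000 * ((1 / 63) ^ 1 * (1 / 63) ^ 5) + 18000 * ((1 / 63) ^ 1 * (1 / 63) ^ 6) + 4500 * ((1 / 63) ^ 1 * (1 / 63) ^ 7) + 500 * ((1 / 63) ^ 1 * (1 / 63) ^ 8)) := by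
      gcongr
    refine h.trans ?_
    norm_num
  have e : 414 * (1 + (1 + β) ^ 12 + (1 + γ) ^ 12) - 500 * six (9, 2, 1) 1 (1 + β) (1 + γ)
      + 293 * six (4, 4, 4) 1 (1 + β) (1 + γ)
      = 872 * (β - γ) ^ 2 + β * γ * (872 - ((16808 * (β ^ 1) + 16808 * (γ ^ 1) + 97872 * (β ^ 2) + 181968 * (β ^ 3) + 189000 * (β ^ 4) + 126000 * (β ^ 5) + 54000 * (β ^ 6) + 13500 * (β ^ 7) + 1500 * (β ^ 8) + 52452 * (β ^ 3 * γ ^ 1) + 63000 * (β ^ 4 * γ ^ 1) + 42000 * (β ^ 5 * γ ^ 1) + 18000 * (β ^ 6 * γ ^ 1) + 4500 * (β ^ 7 * γ ^ 1) + 500 * (β ^ 8 * γ ^ 1) + 97872 * (γ ^ 2) + 181968 * (γ ^ 3) + 189000 * (γ ^ 4) + 126000 * (γ ^ 5) + 54000 * (γ ^ 6) + 13500 * (γ ^ 7) + 1500 * (γ ^ 8) + 52452 * (β ^ 1 * γ ^ 3) + 63000 * (β ^ 1 * γ ^ 4) + 42000 * (β ^ 1 * γ ^ 5) + 18000 * (β ^ 1 * γ ^ 6) + 4500 * (β ^ 1 * γ ^ 7) + 500 * (β ^ 1 * γ ^ 8)))) +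 ((14112 * (β ^ 3) + 80688 * (β ^ 4) + 201888 * (β ^ 5) + 298536 * (β ^ 6) + 291888 * (β ^ 7) + 195930 * (β ^ 8) + 90080 * (β ^ 9) + 27324 * (β ^ 10) + 4968 * (β ^ 11) + 414 * (β ^ 12) + 14112 * (γ ^ 3) + 80688 * (γ ^ 4) + 201888 * (γ ^ 5) + 298536 * (γ ^ 6) + 291888 * (γ ^ 7) + 195930 * (γ ^ 8) + 90080 * (γ ^ 9) + 27324 * (γ ^ 10) + 4968 * (γ ^ 11) + 414 * (γ ^ 12) + 27288 * (β ^ 2 * γ ^ 2) + 192 * (β ^ 3 * γ ^ 2) + 192 * (β ^ 2 * γ ^ 3) + 28128 * (β ^ 3 * γ ^ 3) + 7032 * (β ^ 3 * γ ^ 4) + 7032 * (β ^ 4 * γ ^ 3) + 1758 * (β ^ 4 * γ ^ 4))) := by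
    unfold six
    simp only
    ring
  rw [e]
  have h1 : 0 ≤ β * γ * (872 - ((16808 * (β ^ 1) + 16808 * (γ ^ 1) + 97872 * (β ^ 2) + 181968 * (β ^ 3) + 189000 * (β ^ 4) + 126000 * (β ^ 5) + 54000 * (β ^ 6) + 13500 * (β ^ 7) + 1500 * (β ^ 8) + 52452 * (β ^ 3 * γ ^ 1) + 63000 * (β ^ 4 * γ ^ 1) + 42000 * (β ^ 5 * γ ^ 1) + 18000 * (β ^ 6 * γ ^ 1) + 4500 * (β ^ 7 * γ ^ 1) + 500 * (β ^ 8 * γ ^ 1) + 97872 * (γ ^ 2) + 181968 * (γ ^ 3) + 189000 * (γ ^ 4) + 126000 * (γ ^ 5) + 54000 * (γ ^ 6) + 13500 * (γ ^ 7) + 1500 * (γ ^ 8) + 52452 * (β ^ 1 * γ ^ 3) + 63000 * (β ^ 1 * γ ^ 4) + 42000 * (β ^ 1 * γ ^ 5) + 18000 * (β ^ 1 * γ ^ 6) + 4500 * (β ^ 1 * γ ^ 7) + 500 * (β ^ 1 * γ ^ 8)))) := mul_nonneg (mul_nonneg hβ0 hγ0) (by linarith)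
  have h2 : 0 ≤ (14112 * (β ^ 3) + 80688 * (β ^ 4) + 201888 * (β ^ 5) + 298536 * (β ^ 6) + 291888 * (β ^ 7) + 195930 * (β ^ 8) + 90080 * (β ^ 9) + 27324 * (β ^ 10) + 4968 * (β ^ 11) + 414 * (β ^ 12) + 14112 * (γ ^ 3) + 80688 * (γ ^ 4) + 201888 * (γ ^ 5) + 298536 * (γ ^ 6) + 291888 * (γ ^ 7) + 195930 * (γ ^ 8) + 90080 * (γ ^ 9) + 27324 * (γ ^ 10) + 4968 * (γ ^ 11) + 414 * (γ ^ 12) + 27288 * (β ^ 2 * γ ^ 2) + 192 * (β ^ 3 * γ ^ 2) + 192 * (β ^ 2 * γ ^ 3) + 28128 * (β ^ 3 * γ ^ 3) + 7032 * (β ^ 3 * γ ^ 4) + 7032 * (β ^ 4 * γ ^ 3) + 1758 * (β ^ 4 * γ ^ 4)) := by positivity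
  positivity

theorem cornerHull_six_scale (e : E3) (he : e.1 + e.2.1 + e.2.2 = 12) (y b c : ℝ) :
    six e (y * 1) (y * b) (y * c) = y ^ 12 * six e 1 b c := by
  unfold six
  have e1 : y ^ 12 = y ^ e.1 * y ^ e.2.1 * y ^ e.2.2 := by
    rw [← pow_add, ← pow_add, he]
  rw [e1]
  simp only [mul_pow]
  ring

theorem cornerHull_homog {y0 y1 y2 : ℝ} (h0 : 0 < y0) (h01 : y0 ≤ y1) (h02 : y0 ≤ y2) (h1 : y1 ≤ 64 / 63 * y0)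
    (h2 : y2 ≤ 64 / 63 * y0) :
    0 ≤ 414 * (y0 ^ 12 + y1 ^ 12 + y2 ^ 12) - 500 * six (9, 2, 1) y0 y1 y2 + 293 * six (4, 4, 4) y0 y1 y2 := by
  obtain ⟨β, hβ⟩ : ∃ β, y1 = y0 * (1 + β) := ⟨y1 / y0 - 1, by field_simp; ring⟩
  obtain ⟨γ, hγ⟩ : ∃ γ, y2 = y0 * (1 + γ) := ⟨y2 / y0 - 1, by field_simp; ring⟩
  subst hβ hγ
  have hβ0 : 0 ≤ β := by nlinarith
  have hγ0 : 0 ≤ γ := by nlinarith
  have hβ1 : β ≤ 1 / 63 := by nlinarith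
  have hγ1 : γ ≤ 1 / 63 := by nlinarith
  have h := cornerHull_poly_nonneg hβ0 hβ1 hγ0 hγ1
  have e1 := cornerHull_six_scale (9, 2, 1) (by norm_num) y0 (1 + β) (1 + γ)
  have e2 := cornerHull_six_scale (4, 4, 4) (by norm_num) y0 (1 + β) (1 + γ)
  rw [mul_one] at e1 e2
  rw [e1, e2]
  have e3 : 414 * (y0 ^ 12 + (y0 * (1 + β)) ^ 12 + (y0 * (1 + γ)) ^ 12) - 500 * (y0 ^ 12 * six (9, 2, 1) 1 (1 + β) (1 + γ))
      + 293 * (y0 ^ 12 * six (4, 4, 4) 1 (1 + β) (1 + γ))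
      = y0 ^ 12 * (414 * (1 + (1 + β) ^ 12 + (1 + γ) ^ 12) - 500 * six (9, 2, 1) 1 (1 + β) (1 + γ)
      + 293 * six (4, 4, 4) 1 (1 + β) (1 + γ)) := by
    ring
  rw [e3]
  positivity

theorem cornerHull_core_eq (v w y0 y1 y2 : ℝ) :
    coreR XR AR CR (coreK XR AR CR 0) 0 v w y0 y1 y2
      = 414 * (1 + v ^ 12 + w ^ 12) - 500 * six (9, 2, 1) y0 y1 y2 + 293 * six (4, 4, 4) y0 y1 y2 := by
  have e : coreK XR AR CR 0 = 414 := by decide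
  rw [e]
  simp only [coreR, XR, AR, CR, sumR]
  push_cast
  ring

/-- The function near the centre. -/
theorem cornerHull_near {v r : ℝ} (hv0 : 127 / 128 ≤ v) (hv1 : v ≤ 1) (hr0 : 127 / 128 ≤ r) (hr1 : r ≤ 1) :
    0 ≤ valHalf XR AR CR 0 0 v r := by
  unfold valHalf
  rw [cornerHull_core_eq]
  have hv : 0 < v := by linarith
  have hr : 0 < r := by linarith
  have hw0 : 0 < v * r := by positivity
  have hw1 : v * r ≤ v := by nlinarith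
  have hw2 : (127 / 128) ^ 2 ≤ v * r := by nlinarith
  set w := v * r with hw
  have e0 : 0 ≤ (1 + r ^ 12) / 2 := by positivity
  have e1 : 0 ≤ (1 + w ^ 12) / 2 := by positivity
  have e2 : 0 ≤ (1 + v ^ 12) / 2 := by positivity
  set a0 := ((1 + r ^ 12) / 2) ^ ((1 : ℝ) / 12) with ha0
  set y1 := ((1 + w ^ 12) / 2) ^ ((1 : ℝ) / 12) with hy1
  set y2 := ((1 + v ^ 12) / 2) ^ ((1 : ℝ) / 12) with hy2
  have p0 : a0 ^ 12 = (1 + r ^ 12) / 2 := pow12_eq e0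
  have p1 : y1 ^ 12 = (1 + w ^ 12) / 2 := pow12_eq e1
  have p2 : y2 ^ 12 = (1 + v ^ 12) / 2 := pow12_eq e2
  have a00 : 0 ≤ a0 := Real.rpow_nonneg e0 _
  have y10 : 0 ≤ y1 := Real.rpow_nonneg e1 _
  have y20 : 0 ≤ y2 := Real.rpow_nonneg e2 _
  set y0 := v * a0 with hy0
  have p00 : y0 ^ 12 = (v ^ 12 + w ^ 12) / 2 := by
    rw [hy0, mul_pow, p0, hw, mul_pow]
    ring
  have y00 : 0 ≤ y0 := mul_nonneg hv.le a00
  have vp : v ^ 12 ≤ 1 := pow_le_one₀ hv.le hv1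
  have wp : w ^ 12 ≤ v ^ 12 := pow_le_pow_left₀ hw0.le hw1 12
  have wp0 : 0 ≤ w ^ 12 := by positivity
  have y01 : y0 ≤ y1 := by
    apply le_of_pow_le_pow_left₀ (n := 12) (by norm_num) y10
    rw [p00, p1]
    linarith
  have y02 : y0 ≤ y2 := by
    apply le_of_pow_le_pow_left₀ (n := 12) (by norm_num) y20
    rw [p00, p2]
    linarith
  have y11 : y1 ≤ 1 := by
    apply le_of_pow_le_pow_left₀ (n := 12) (by norm_num) zero_le_one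
    rw [p1]
    linarith
  have y21 : y2 ≤ 1 := by
    apply le_of_pow_le_pow_left₀ (n := 12) (by norm_num) zero_le_one
    rw [p2]
    linarith
  have yw : w ≤ y0 := by
    apply le_of_pow_le_pow_left₀ (n := 12) (by norm_num) y00
    rw [p00]
    linarith
  have y0pos : 0 < y0 := lt_of_lt_of_le hw0 yw
  have hy : (63 : ℝ) / 64 ≤ y0 := by
    have : (63 : ℝ) / 64 ≤ (127 / 128) ^ 2 := by norm_num
    linarith
  have k := cornerHull_homog y0pos y01 y02 (by nlinarith) (by nlinarith)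
  have eM : 1 + v ^ 12 + w ^ 12 = y0 ^ 12 + y1 ^ 12 + y2 ^ 12 := by
    rw [p00, p1, p2]
    ring
  rw [eM]
  exact k

/-! ### Outside the centre: the walker -/

/-- The cells of the central square. -/
def outR (K i j : ℕ) : Bool :=
  and (Nat.ble (Nat.mul 127 (Nat.pow 2 K)) (Nat.mul 128 i))
    (Nat.ble (Nat.mul 127 (Nat.pow 2 K)) (Nat.mul 128 j))

lemma cornerHull_outR_sound {K i j : ℕ} (h : outR K i j = true) {v w : ℝ} (hvw : InCell K i j v w)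
    (hc : v < 127 / 128 ∨ w < 127 / 128) : False := by
  have hK : (0 : ℝ) < 2 ^ K := by positivity
  unfold outR at h
  rw [Bool.and_eq_true] at h
  obtain ⟨h1, h2⟩ := h
  have h3 : 127 * 2 ^ K ≤ 128 * i := Nat.le_of_ble_eq_true h1
  have h4 : 127 * 2 ^ K ≤ 128 * j := Nat.le_of_ble_eq_true h2
  have h5 : (127 : ℝ) * 2 ^ K ≤ 128 * i := by exact_mod_cast h3
  have h6 : (127 : ℝ) * 2 ^ K ≤ 128 * j := by exact_mod_cast h4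
  have h7 := hvw.1
  have h8 := hvw.2.2.1
  rw [div_le_iff₀ hK] at h7 h8
  rcases hc with hc | hc <;> nlinarith

set_option maxRecDepth 100000 in
theorem cornerHull_walk {v r : ℝ} (hv0 : 0 ≤ v) (hv1 : v ≤ 1) (hr0 : 0 ≤ r) (hr1 : r ≤ 1)
    (hc : v < 127 / 128 ∨ r < 127 / 128) : 0 ≤ valHalf XR AR CR 0 0 v r := by
  refine of_walk (Q := fun v r => (v < 127 / 128 ∨ r < 127 / 128) → 0 ≤ valHalf XR AR CR 0 0 v r)
    cfgD_valid (F := progHalf cfgD XR AR CR 0 0) (G := valHalf XR AR CR 0 0)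
    (fun ξ η CC a b v r ha hb => repAt_progHalf CC cornerHull_XR_sum AR CR 0 0 ha hb)
    (out := outR) ?_ (fun v r h _ => h) 18 (by decide +kernel) v r hv0 hv1 hr0 hr1 hc
  intro K i j h v w hvw hc
  exact (cornerHull_outR_sound h hvw hc).elim

/-- The ratio at `1/2`, in the form of the defect. -/
theorem cornerHull_defect (x : Fin 3 → ℝ) (hx : ∀ i, 0 < x i) : 0 ≤ defect XR AR CR 0 0 500 (1 / 2) x := by
  refine defect_nonneg XR cornerHull_XR_sum AR CR 0 0 500 (by norm_num) (by norm_num) le_rfl ?_ x hx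
  intro v r v0 v1 r0 r1
  have hG : 0 ≤ valHalf XR AR CR 0 0 v r := by
    by_cases hc : v < 127 / 128 ∨ r < 127 / 128
    · exact cornerHull_walk v0 v1 r0 r1 hc
    · push Not at hc
      exact cornerHull_near hc.1 v1 hc.2 r1
  have e0 : 0 ≤ (1 + r ^ 12) / 2 := by positivity
  have e1 : 0 ≤ (1 + (v * r) ^ 12) / 2 := by positivity
  have e2 : 0 ≤ (1 + v ^ 12) / 2 := by positivity
  refine ⟨_, _, _, mul_nonneg v0 (Real.rpow_nonneg e0 _), Real.rpow_nonneg e1 _, Real.rpow_nonneg e2 _, ?_, hG⟩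
  have e3 : (v * ((1 + r ^ 12) / 2) ^ ((1 : ℝ) / 12)) ^ 12 = v ^ 12 * ((1 + r ^ 12) / 2) := by
    rw [mul_pow, pow12_eq e0]
  rw [e3, pow12_eq e1, pow12_eq e2]
  funext i
  fin_cases i <;> simp [T, mass, mul_pow] <;> ring

/-- The ratio of the two characters at `1/2`. -/
theorem cornerHull_ratio_half {x : Fin 3 → ℝ} (hx : ∀ i, 0 < x i) :
    293 / 500 * psi (sE (4, 4, 4)) (-(1 / 2)) x ≤ psi (sE (9, 2, 1)) (-(1 / 2)) x := by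
  have h := cornerHull_defect x hx
  unfold defect phiF at h
  have e1 : ∀ f : Fin XR.length → ℝ, ∑ j, f j = f ⟨0, by decide⟩ + f ⟨1, by decide⟩ :=
    fun f => Fin.sum_univ_two f
  rw [e1, e1] at h
  have e2 : expo XR ⟨0, by decide⟩ = sE (9, 2, 1) := rfl
  have e3 : expo XR ⟨1, by decide⟩ = sE (4, 4, 4) := rfl
  rw [e2, e3] at h
  simp only [coef, AR, CR, XR, List.getD_cons_zero, List.getD_cons_succ] at h
  push_cast at h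
  norm_num at h
  linarith

end

end Vale.Agent.P154.Hel.CornerHull
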