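import Vale.Agent.P154.Hel.Defs

/-!
The ray lemma: a plane inequality at `t = 1/2`, plus a one-sided bound on the derivative along the rays
`w_s = T (-s) x`, gives the plane inequality in the `z`-form for all `t` in `[t0, 1/2]`.
-/

namespace Vale.Agent.P154

namespace Hel

noncomputable section

open Finset

/-- The sum of the partial derivatives of `chi s` at `w`. -/
def Sj (s w : Fin 3 → ℝ) : ℝ :=
  (1 / 6) * ∑ g : Equiv.Perm (Fin 3), mono s (fun i => w (g i)) * ∑ i, s i / w (g i)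

/-- The derivative function of the ray lemma. -/
def Dj (s w : Fin 3 → ℝ) : ℝ := chi s w + mass w * Sj s w - 2 * mass w

/-- A point of the ray. -/
def rayW (x : Fin 3 → ℝ) (τ : ℝ) (i : Fin 3) : ℝ := (1 + τ) * mass x - τ * x i

theorem T_neg_eq_rayW (x : Fin 3 → ℝ) (τ : ℝ) : T (-τ) x = rayW x τ := by
  funext i
  unfold T rayW
  ring

theorem rayW_pos {x : Fin 3 → ℝ} (hx : ∀ i, 0 < x i) {τ : ℝ} (h0 : 0 ≤ τ) (h1 : τ ≤ 1 / 2)
    (i : Fin 3) : 0 < rayW x τ i := by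
  have h2 := hx 0
  have h3 := hx 1
  have h4 := hx 2
  unfold rayW mass
  have e1 : 0 ≤ 1 - 2 * τ := by linarith
  have e2 : 0 < 1 + τ := by linarith
  fin_cases i
  · show 0 < (1 + τ) * ((x 0 + x 1 + x 2) / 3) - τ * x 0
    have : (1 + τ) * ((x 0 + x 1 + x 2) / 3) - τ * x 0
        = (1 + τ) * (x 1 + x 2) / 3 + (1 - 2 * τ) * x 0 / 3 := by ring
    rw [this]
    positivity
  · show 0 < (1 + τ) * ((x 0 + x 1 + x 2) / 3) - τ * x 1
    have : (1 + τ) * ((x 0 + x 1 + x 2) / 3) - τ * x 1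
        = (1 + τ) * (x 0 + x 2) / 3 + (1 - 2 * τ) * x 1 / 3 := by ring
    rw [this]
    positivity
  · show 0 < (1 + τ) * ((x 0 + x 1 + x 2) / 3) - τ * x 2
    have : (1 + τ) * ((x 0 + x 1 + x 2) / 3) - τ * x 2
        = (1 + τ) * (x 0 + x 1) / 3 + (1 - 2 * τ) * x 2 / 3 := by ring
    rw [this]
    positivity

theorem mass_rayW (x : Fin 3 → ℝ) (τ : ℝ) : mass (rayW x τ) = mass x := by
  unfold mass rayW mass
  ring

/-- The mixture of `x` with its mass: the channel at `1/2` applied to it is the channel at `τ`. -/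
def mixX (x : Fin 3 → ℝ) (τ : ℝ) (i : Fin 3) : ℝ := 2 * τ * x i + (1 - 2 * τ) * mass x

theorem mass_mixX (x : Fin 3 → ℝ) (τ : ℝ) : mass (mixX x τ) = mass x := by
  unfold mass mixX mass
  ring

theorem T_half_mixX (x : Fin 3 → ℝ) (τ : ℝ) : T (-(1 / 2)) (mixX x τ) = rayW x τ := by
  funext i
  unfold T rayW
  rw [mass_mixX]
  unfold mixX
  ring

theorem mixX_pos {x : Fin 3 → ℝ} (hx : ∀ i, 0 < x i) {τ : ℝ} (h0 : 0 < τ) (h1 : τ ≤ 1 / 2)
    (i : Fin 3) : 0 < mixX x τ i := by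
  have hm : 0 < mass x := by
    unfold mass
    have h2 := hx 0
    have h3 := hx 1
    have h4 := hx 2
    positivity
  have hi := hx i
  unfold mixX
  have e1 : 0 ≤ 1 - 2 * τ := by linarith
  have e2 : 0 < 2 * τ * x i := by positivity
  have e3 : 0 ≤ (1 - 2 * τ) * mass x := by positivity
  linarith

/-- Derivative of a monomial along a curve. -/
theorem hasDerivAt_mono (s : Fin 3 → ℝ) {f f' : Fin 3 → ℝ → ℝ} {τ : ℝ}
    (hf : ∀ i, HasDerivAt (f i) (f' i τ) τ) (hpos : ∀ i, 0 < f i τ) :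
    HasDerivAt (fun σ => mono s (fun i => f i σ))
      (mono s (fun i => f i τ) * ∑ i, s i * f' i τ / f i τ) τ := by
  unfold mono
  simp only [Fin.prod_univ_three, Fin.sum_univ_three]
  have h0 := (hf 0).rpow_const (p := s 0) (Or.inl (hpos 0).ne')
  have h1 := (hf 1).rpow_const (p := s 1) (Or.inl (hpos 1).ne')
  have h2 := (hf 2).rpow_const (p := s 2) (Or.inl (hpos 2).ne')
  refine HasDerivAt.congr_deriv (f := fun σ => f 0 σ ^ s 0 * f 1 σ ^ s 1 * f 2 σ ^ s 2) ((h0.mul h1).mul h2) ?_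
  simp only [Pi.mul_apply]
  rw [Real.rpow_sub_one (hpos 0).ne', Real.rpow_sub_one (hpos 1).ne', Real.rpow_sub_one (hpos 2).ne']
  have e0 := (hpos 0).ne'
  have e1 := (hpos 1).ne'
  have e2 := (hpos 2).ne'
  field_simp

/-- Derivative of the character along the ray. -/
theorem hasDerivAt_chi_ray {s : Fin 3 → ℝ} (hs : AdmS s) {x : Fin 3 → ℝ} (hx : ∀ i, 0 < x i) {τ : ℝ}
    (h0 : 0 < τ) (h1 : τ ≤ 1 / 2) :
    HasDerivAt (fun σ => chi s (rayW x σ))
      ((chi s (rayW x τ) - mass x * Sj s (rayW x τ)) / τ) τ := by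
  have hW := rayW_pos hx h0.le h1
  have hd : ∀ i, HasDerivAt (fun σ => rayW x σ i) (mass x - x i) τ := by
    intro i
    unfold rayW
    have h2 : HasDerivAt (fun σ : ℝ => (1 + σ) * mass x - σ * x i)
        (1 * mass x - 1 * x i) τ := by
      exact (((hasDerivAt_id τ).const_add 1).mul_const (mass x)).sub ((hasDerivAt_id τ).mul_const (x i))
    simpa using h2
  have hd' : ∀ i, mass x - x i = (rayW x τ i - mass x) / τ := by
    intro i
    unfold rayW
    field_simp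
    ring
  have key : ∀ g : Equiv.Perm (Fin 3),
      HasDerivAt (fun σ => mono s (fun i => rayW x σ (g i)))
        (mono s (fun i => rayW x τ (g i)) * (1 - mass x * ∑ i, s i / rayW x τ (g i)) / τ) τ := by
    intro g
    have h3 := hasDerivAt_mono s (f := fun i σ => rayW x σ (g i)) (f' := fun i _ => mass x - x (g i))
      (τ := τ) (fun i => hd (g i)) (fun i => hW (g i))
    convert h3 using 1
    have e : ∀ i, s i * (mass x - x (g i)) / rayW x τ (g i)
        = (s i - mass x * (s i / rayW x τ (g i))) / τ := by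
      intro i
      rw [hd']
      have := (hW (g i)).ne'
      field_simp
    simp only [e]
    rw [← Finset.sum_div, Finset.sum_sub_distrib, ← Finset.mul_sum]
    have hsum : ∑ i, s i = 1 := by
      rw [Fin.sum_univ_three]
      exact hs.sum
    rw [hsum]
    ring
  have h4 : HasDerivAt (fun σ => (1 / 6 : ℝ) * ∑ g : Equiv.Perm (Fin 3), mono s (fun i => rayW x σ (g i)))
      ((1 / 6 : ℝ) * ∑ g : Equiv.Perm (Fin 3),
        mono s (fun i => rayW x τ (g i)) * (1 - mass x * ∑ i, s i / rayW x τ (g i)) / τ) τ :=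
    (HasDerivAt.fun_sum (fun g _ => key g)).const_mul _
  unfold chi
  convert h4 using 1
  unfold Sj
  rw [← Finset.sum_div]
  have e1 : ∀ g : Equiv.Perm (Fin 3), mono s (fun i => rayW x τ (g i)) * (1 - mass x * ∑ i, s i / rayW x τ (g i))
      = mono s (fun i => rayW x τ (g i))
        - mass x * (mono s (fun i => rayW x τ (g i)) * ∑ i, s i / rayW x τ (g i)) := by
    intro g
    ring
  simp only [e1]
  rw [Finset.sum_sub_distrib, ← Finset.mul_sum]
  ring

/-- The function `B` of the ray lemma. -/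
def rayB {ι : Type*} [Fintype ι] (S : ι → Fin 3 → ℝ) (P : ι → ℝ) (x : Fin 3 → ℝ) (τ : ℝ) : ℝ :=
  ∑ j, P j * ((mass x - chi (S j) (rayW x τ)) / τ ^ 2)

theorem hasDerivAt_rayB {ι : Type*} [Fintype ι] {S : ι → Fin 3 → ℝ} (hS : ∀ j, AdmS (S j)) (P : ι → ℝ)
    {x : Fin 3 → ℝ} (hx : ∀ i, 0 < x i) {τ : ℝ} (h0 : 0 < τ) (h1 : τ ≤ 1 / 2) :
    HasDerivAt (rayB S P x) ((∑ j, P j * Dj (S j) (rayW x τ)) / τ ^ 3) τ := by
  have key : ∀ j, HasDerivAt (fun σ => P j * ((mass x - chi (S j) (rayW x σ)) / σ ^ 2))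
      (P j * (Dj (S j) (rayW x τ) / τ ^ 3)) τ := by
    intro j
    have h2 := hasDerivAt_chi_ray (hS j) hx h0 h1
    have h3 : HasDerivAt (fun σ : ℝ => σ ^ 2) (2 * τ) τ := by
      simpa using hasDerivAt_pow 2 τ
    have h4 := ((hasDerivAt_const τ (mass x)).sub h2).div h3 (by positivity)
    refine HasDerivAt.congr_deriv (f := fun σ => P j * ((mass x - chi (S j) (rayW x σ)) / σ ^ 2)) (h4.const_mul (P j)) ?_
    congr 1
    simp only [Pi.sub_apply]
    unfold Dj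
    rw [mass_rayW]
    field_simp
    ring
  have h5 := HasDerivAt.fun_sum (u := Finset.univ) (fun j _ => key j)
  refine HasDerivAt.congr_deriv (f := rayB S P x) h5 ?_
  rw [Finset.sum_div]
  exact Finset.sum_congr rfl fun j _ => by ring

theorem yyv_rayW {x : Fin 3 → ℝ} (hx : ∀ i, 0 < x i) (τ : ℝ) : yyv (rayW x τ) = τ ^ 2 * yyv x := by
  have hm : x 0 + x 1 + x 2 ≠ 0 := by
    have h2 := hx 0
    have h3 := hx 1
    have h4 := hx 2
    positivity
  unfold yyv yy rayW mass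
  have e : (1 + τ) * ((x 0 + x 1 + x 2) / 3) - τ * x 0 + ((1 + τ) * ((x 0 + x 1 + x 2) / 3) - τ * x 1)
      + ((1 + τ) * ((x 0 + x 1 + x 2) / 3) - τ * x 2) = x 0 + x 1 + x 2 := by ring
  rw [e]
  field_simp
  ring

theorem yyv_nonneg' {x : Fin 3 → ℝ} (hx : ∀ i, 0 < x i) : 0 ≤ yyv x := by
  have h2 := hx 0
  have h3 := hx 1
  have h4 := hx 2
  have hm : 0 < x 0 + x 1 + x 2 := by positivity
  unfold yyv yy
  have e : (x 0 + x 1 + x 2) / 3 - (x 0 * x 1 + x 1 * x 2 + x 2 * x 0) / (x 0 + x 1 + x 2)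
      = ((x 0 - x 1) ^ 2 + (x 1 - x 2) ^ 2 + (x 2 - x 0) ^ 2) / (6 * (x 0 + x 1 + x 2)) := by
    field_simp
    ring
  rw [e]
  positivity

/-- The monotone function along the ray. -/
def rayH {ι : Type*} [Fintype ι] (S : ι → Fin 3 → ℝ) (P : ι → ℝ) (x : Fin 3 → ℝ) (ε η : ℝ) (τ : ℝ) : ℝ :=
  rayB S P x τ + ε * yyv x * Real.log τ - η * mass x / (2 * τ ^ 2)

theorem hasDerivAt_rayH {ι : Type*} [Fintype ι] {S : ι → Fin 3 → ℝ} (hS : ∀ j, AdmS (S j)) (P : ι → ℝ)
    {x : Fin 3 → ℝ} (hx : ∀ i, 0 < x i) (ε η : ℝ) {τ : ℝ} (h0 : 0 < τ) (h1 : τ ≤ 1 / 2) :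
    HasDerivAt (rayH S P x ε η)
      ((∑ j, P j * Dj (S j) (rayW x τ) + ε * yyv (rayW x τ) + η * mass x) / τ ^ 3) τ := by
  have h2 := hasDerivAt_rayB hS P hx h0 h1
  have h3 : HasDerivAt (fun σ : ℝ => ε * yyv x * Real.log σ) (ε * yyv x * τ⁻¹) τ :=
    (Real.hasDerivAt_log h0.ne').const_mul _
  have h4 : HasDerivAt (fun σ : ℝ => 2 * σ ^ 2) (2 * (2 * τ)) τ := by
    have := (hasDerivAt_pow 2 τ).const_mul (2 : ℝ)
    simpa using this
  have h5 := (hasDerivAt_const τ (η * mass x)).div h4 (by positivity)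
  have h6 := (h2.add h3).sub h5
  refine HasDerivAt.congr_deriv (f := rayH S P x ε η) h6 ?_
  rw [yyv_rayW hx]
  field_simp
  ring

/-- The bound along the ray. -/
theorem rayB_le {ι : Type*} [Fintype ι] {S : ι → Fin 3 → ℝ} (hS : ∀ j, AdmS (S j)) (P : ι → ℝ)
    {ε η : ℝ}
    (hD : ∀ x : Fin 3 → ℝ, (∀ i, 0 < x i) →
      0 ≤ ∑ j, P j * Dj (S j) (T (-(1 / 2)) x) + ε * yyv (T (-(1 / 2)) x) + η * mass x)
    {x : Fin 3 → ℝ} (hx : ∀ i, 0 < x i) {t : ℝ} (h0 : 0 < t) (h1 : t ≤ 1 / 2) :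
    rayB S P x t + ε * yyv x * Real.log t - η * mass x / (2 * t ^ 2)
      ≤ rayB S P x (1 / 2) + ε * yyv x * Real.log (1 / 2) - η * mass x / (2 * (1 / 2) ^ 2) := by
  have hmono : MonotoneOn (rayH S P x ε η) (Set.Icc t (1 / 2)) := by
    have hder : ∀ τ ∈ Set.Icc t (1 / 2), HasDerivAt (rayH S P x ε η)
        ((∑ j, P j * Dj (S j) (rayW x τ) + ε * yyv (rayW x τ) + η * mass x) / τ ^ 3) τ :=
      fun τ hτ => hasDerivAt_rayH hS P hx ε η (lt_of_lt_of_le h0 hτ.1) hτ.2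
    refine monotoneOn_of_deriv_nonneg (convex_Icc _ _)
      (fun τ hτ => (hder τ hτ).continuousAt.continuousWithinAt)
      (fun τ hτ => (hder τ (interior_subset hτ)).differentiableAt.differentiableWithinAt) ?_
    intro τ hτ
    have hτ' := interior_subset hτ
    rw [(hder τ hτ').deriv]
    have hτ0 : 0 < τ := lt_of_lt_of_le h0 hτ'.1
    refine div_nonneg ?_ (by positivity)
    have h2 := hD (mixX x τ) (mixX_pos hx hτ0 hτ'.2)
    rw [T_half_mixX, mass_mixX] at h2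
    exact h2
  exact hmono (Set.left_mem_Icc.mpr h1) (Set.right_mem_Icc.mpr h1) h1

/-- `rayB` in terms of `psi`. -/
theorem rayB_eq {ι : Type*} [Fintype ι] (S : ι → Fin 3 → ℝ) (P : ι → ℝ) (x : Fin 3 → ℝ) (τ : ℝ) :
    rayB S P x τ = ∑ j, P j / τ ^ 2 * psi (S j) (-τ) x := by
  unfold rayB psi
  rw [T_neg_eq_rayW]
  refine Finset.sum_congr rfl fun j _ => ?_
  ring

/-- The ray lemma: the plane at `t = 1/2` and the derivative bound give the plane on `[t0, 1/2]`. -/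
theorem plane_t_uniform {ι : Type*} [Fintype ι] {S : ι → Fin 3 → ℝ} (hS : ∀ j, AdmS (S j))
    (a P : ι → ℝ) {c0 e ε η L H t0 : ℝ} (ht0 : 0 < t0) (hε : 0 ≤ ε) (hη : 0 ≤ η)
    (hL : 1 / (2 * t0) - 1 ≤ L) (hH : 1 / (2 * t0 ^ 2) - 2 ≤ H)
    (hF : ∀ x : Fin 3 → ℝ, (∀ i, 0 < x i) →
      ∑ j, (4 * P j) * psi (S j) (-(1 / 2)) x + (c0 + L * ε) * yyv x + (e + H * η) * mass x
        ≤ phiF a S x)
    (hD : ∀ x : Fin 3 → ℝ, (∀ i, 0 < x i) →
      0 ≤ ∑ j, P j * Dj (S j) (T (-(1 / 2)) x) + ε * yyv (T (-(1 / 2)) x) + η * mass x)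
    {t : ℝ} (h0 : t0 ≤ t) (h1 : t ≤ 1 / 2) {x : Fin 3 → ℝ} (hx : ∀ i, 0 < x i) :
    ∑ j, P j / t ^ 2 * psi (S j) (-t) x + c0 * yyv x + e * mass x ≤ phiF a S x := by
  have ht : 0 < t := lt_of_lt_of_le ht0 h0
  have hm : 0 < mass x := by
    unfold mass
    have h2 := hx 0
    have h3 := hx 1
    have h4 := hx 2
    positivity
  have hY := yyv_nonneg' hx
  have h2 := rayB_le hS P hD hx ht h1
  have h3 := hF x hx
  have e1 : rayB S P x (1 / 2) = ∑ j, (4 * P j) * psi (S j) (-(1 / 2)) x := by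
    rw [rayB_eq]
    refine Finset.sum_congr rfl fun j _ => ?_
    congr 1
    field_simp
    norm_num
  rw [e1] at h2
  rw [← rayB_eq]
  -- the logarithm
  have hlog : Real.log (1 / 2) - Real.log t ≤ L := by
    have e2 : Real.log (1 / 2) - Real.log t = Real.log (1 / (2 * t)) := by
      rw [← Real.log_div (by norm_num) ht.ne']
      congr 1
      field_simp
    rw [e2]
    have h4 := Real.log_le_sub_one_of_pos (show 0 < 1 / (2 * t) by positivity)
    have h5 : 1 / (2 * t) ≤ 1 / (2 * t0) :=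
      one_div_le_one_div_of_le (by positivity) (by linarith)
    linarith
  have hinv : 1 / (2 * t ^ 2) - 2 ≤ H := by
    have h5 : 1 / (2 * t ^ 2) ≤ 1 / (2 * t0 ^ 2) := by
      apply one_div_le_one_div_of_le (by positivity)
      have : t0 ^ 2 ≤ t ^ 2 := pow_le_pow_left₀ ht0.le h0 2
      linarith
    linarith
  have k1 : ε * yyv x * (Real.log (1 / 2) - Real.log t) ≤ ε * yyv x * L :=
    mul_le_mul_of_nonneg_left hlog (mul_nonneg hε hY)
  have k2 : η * mass x * (1 / (2 * t ^ 2) - 2) ≤ η * mass x * H :=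
    mul_le_mul_of_nonneg_left hinv (mul_nonneg hη hm.le)
  have e3 : η * mass x / (2 * t ^ 2) = η * mass x * (1 / (2 * t ^ 2)) := by ring
  have e4 : η * mass x / (2 * (1 / 2 : ℝ) ^ 2) = η * mass x * 2 := by
    norm_num
    ring
  rw [e3, e4] at h2
  nlinarith

end

end Hel

end Vale.Agent.P154
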