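import Vale.Agent.P154.Hel.Direct
import Vale.Agent.P154.Hel.RayLemma
import Vale.Agent.P154.Hel.CornerHullRatio

/-!
Facts on the points of the hull for the characters of the corner `t` in `(0, 1/2]`:
all the pure hull facts (without the density `phiF`) reduce to `t = 1/2` by `T (-t) x = T (-1/2) (mixX x t)`.
-/

namespace Vale.Agent.P154.Hel.CornerHull

open TM Q3 Direct

noncomputable section

/-! ### General facts on the characters -/

theorem cornerHull_chi_nonneg (s : Fin 3 → ℝ) {y : Fin 3 → ℝ} (hy : ∀ i, 0 ≤ y i) : 0 ≤ chi s y := by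
  unfold chi
  have : 0 ≤ ∑ g : Equiv.Perm (Fin 3), mono s (fun i => y (g i)) :=
    Finset.sum_nonneg fun g _ => mono_nonneg fun i => hy (g i)
  positivity

theorem cornerHull_chi_le_mass {s : Fin 3 → ℝ} (hs : AdmS s) {y : Fin 3 → ℝ} (hy : ∀ i, 0 ≤ y i) :
    chi s y ≤ mass y := by
  rw [chi_six]
  have g0 := hs.nonneg 0
  have g1 := hs.nonneg 1
  have g2 := hs.nonneg 2
  have h := hs.sum
  have key : ∀ a b c : ℝ, 0 ≤ a → 0 ≤ b → 0 ≤ c →
      a ^ s 0 * b ^ s 1 * c ^ s 2 ≤ s 0 * a + s 1 * b + s 2 * c :=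
    fun a b c ha hb hc => Real.geom_mean_le_arith_mean3_weighted g0 g1 g2 ha hb hc h
  have k1 := key _ _ _ (hy 0) (hy 1) (hy 2)
  have k2 := key _ _ _ (hy 0) (hy 2) (hy 1)
  have k3 := key _ _ _ (hy 1) (hy 0) (hy 2)
  have k4 := key _ _ _ (hy 2) (hy 0) (hy 1)
  have k5 := key _ _ _ (hy 1) (hy 2) (hy 0)
  have k6 := key _ _ _ (hy 2) (hy 1) (hy 0)
  have e : (s 0 * y 0 + s 1 * y 1 + s 2 * y 2) + (s 0 * y 0 + s 1 * y 2 + s 2 * y 1)
      + (s 0 * y 1 + s 1 * y 0 + s 2 * y 2) + (s 0 * y 2 + s 1 * y 0 + s 2 * y 1)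
      + (s 0 * y 1 + s 1 * y 2 + s 2 * y 0) + (s 0 * y 2 + s 1 * y 1 + s 2 * y 0)
      = 2 * (s 0 + s 1 + s 2) * (y 0 + y 1 + y 2) := by ring
  rw [h] at e
  unfold mass
  linarith

/-- The central exponent vector in the format of the grid. -/
def s444 : Fin 3 → ℝ := sE (4, 4, 4)

theorem cornerHull_s444_eq : s444 = sC := by
  funext i
  fin_cases i <;> simp [s444, sE, sC] <;> norm_num

theorem cornerHull_exp_form {a b c p q r : ℝ} (ha : 0 < a) (hb : 0 < b) (hc : 0 < c) :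
    a ^ p * b ^ q * c ^ r = Real.exp (p * Real.log a + q * Real.log b + r * Real.log c) := by
  rw [Real.rpow_def_of_pos ha, Real.rpow_def_of_pos hb, Real.rpow_def_of_pos hc, ← Real.exp_add,
    ← Real.exp_add]
  congr 1
  ring

theorem cornerHull_exp_tangent (u m : ℝ) : Real.exp m * (1 + (u - m)) ≤ Real.exp u := by
  have h := Real.add_one_le_exp (u - m)
  have e : Real.exp u = Real.exp m * Real.exp (u - m) := by
    rw [← Real.exp_add]
    congr 1
    ring
  rw [e]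
  exact mul_le_mul_of_nonneg_left (by linarith) (Real.exp_pos m).le

/-- The central character lies below every other one: arithmetic-geometric mean on the six monomials. -/
theorem cornerHull_chiC_le {s : Fin 3 → ℝ} (hs : AdmS s) {y : Fin 3 → ℝ} (hy : ∀ i, 0 < y i) :
    chi sC y ≤ chi s y := by
  have hA := hy 0
  have hB := hy 1
  have hC := hy 2
  set La := Real.log (y 0) with hLa
  set Lb := Real.log (y 1) with hLb
  set Lc := Real.log (y 2) with hLc
  set m := (La + Lb + Lc) / 3 with hm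
  have h1 : chi sC y = Real.exp m := by
    rw [chi_six]
    simp only [sC, Matrix.cons_val_zero, Matrix.cons_val_one, Matrix.cons_val]
    rw [cornerHull_exp_form hA hB hC, cornerHull_exp_form hA hC hB, cornerHull_exp_form hB hA hC,
      cornerHull_exp_form hC hA hB, cornerHull_exp_form hB hC hA, cornerHull_exp_form hC hB hA]
    rw [← hLa, ← hLb, ← hLc]
    have e : ∀ a b c : ℝ, a + b + c = La + Lb + Lc →
        Real.exp (1 / 3 * a + 1 / 3 * b + 1 / 3 * c) = Real.exp m := by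
      intro a b c h
      congr 1
      rw [hm, ← h]
      ring
    rw [e La Lb Lc rfl, e La Lc Lb (by ring), e Lb La Lc (by ring), e Lc La Lb (by ring),
      e Lb Lc La (by ring), e Lc Lb La (by ring)]
    ring
  rw [h1, chi_six, cornerHull_exp_form hA hB hC, cornerHull_exp_form hA hC hB,
    cornerHull_exp_form hB hA hC, cornerHull_exp_form hC hA hB, cornerHull_exp_form hB hC hA,
    cornerHull_exp_form hC hB hA]
  rw [← hLa, ← hLb, ← hLc]
  have k1 := cornerHull_exp_tangent (s 0 * La + s 1 * Lb + s 2 * Lc) m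
  have k2 := cornerHull_exp_tangent (s 0 * La + s 1 * Lc + s 2 * Lb) m
  have k3 := cornerHull_exp_tangent (s 0 * Lb + s 1 * La + s 2 * Lc) m
  have k4 := cornerHull_exp_tangent (s 0 * Lc + s 1 * La + s 2 * Lb) m
  have k5 := cornerHull_exp_tangent (s 0 * Lb + s 1 * Lc + s 2 * La) m
  have k6 := cornerHull_exp_tangent (s 0 * Lc + s 1 * Lb + s 2 * La) m
  have hsum := hs.sum
  have e : (1 + (s 0 * La + s 1 * Lb + s 2 * Lc - m)) + (1 + (s 0 * La + s 1 * Lc + s 2 * Lb - m))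
      + (1 + (s 0 * Lb + s 1 * La + s 2 * Lc - m)) + (1 + (s 0 * Lc + s 1 * La + s 2 * Lb - m))
      + (1 + (s 0 * Lb + s 1 * Lc + s 2 * La - m)) + (1 + (s 0 * Lc + s 1 * Lb + s 2 * La - m))
      = 6 + 2 * (s 0 + s 1 + s 2 - 1) * (La + Lb + Lc) := by
    rw [hm]
    ring
  rw [hsum] at e
  have e2 : Real.exp m * ((1 + (s 0 * La + s 1 * Lb + s 2 * Lc - m)) + (1 + (s 0 * La + s 1 * Lc + s 2 * Lb - m))
      + (1 + (s 0 * Lb + s 1 * La + s 2 * Lc - m)) + (1 + (s 0 * Lc + s 1 * La + s 2 * Lb - m))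
      + (1 + (s 0 * Lb + s 1 * Lc + s 2 * La - m)) + (1 + (s 0 * Lc + s 1 * Lb + s 2 * La - m)))
      = 6 * Real.exp m := by
    rw [e]
    ring
  have e3 := mul_add (Real.exp m)
  nlinarith

/-! ### Reduction of `t` to `1/2` -/

theorem cornerHull_psi_mix (s : Fin 3 → ℝ) (x : Fin 3 → ℝ) (t : ℝ) :
    psi s (-t) x = psi s (-(1 / 2)) (mixX x t) := by
  unfold psi
  rw [T_half_mixX, T_neg_eq_rayW, mass_mixX]

/-! ### The second moment -/

theorem cornerHull_cbrt_le {P h : ℝ} (hP : 0 ≤ P) (hh : 0 ≤ h) (H : P ≤ h ^ 3) :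
    P ^ ((1 : ℝ) / 3) ≤ h := by
  have e : h = (h ^ 3) ^ ((1 : ℝ) / 3) := by
    rw [← Real.rpow_natCast, ← Real.rpow_mul hh]
    norm_num
  rw [e]
  exact Real.rpow_le_rpow hP H (by norm_num)

theorem cornerHull_le_cbrt {P h : ℝ} (hh : 0 ≤ h) (H : h ^ 3 ≤ P) :
    h ≤ P ^ ((1 : ℝ) / 3) := by
  have e : h = (h ^ 3) ^ ((1 : ℝ) / 3) := by
    rw [← Real.rpow_natCast, ← Real.rpow_mul hh]
    norm_num
  rw [e]
  exact Real.rpow_le_rpow (by positivity) H (by norm_num)

/-- The product of the coordinates after the channel at `1/2`. -/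
theorem cornerHull_chiC_half {x : Fin 3 → ℝ} (hx : ∀ i, 0 < x i) :
    chi sC (T (-(1 / 2)) x) = mass x * (1 - (3 * AA (nrm x) + RR (nrm x)) / 4) ^ ((1 : ℝ) / 3) := by
  have hm := mass_pos hx
  have hu : ∀ i, 0 ≤ nrm x i := fun i => (nrm_pos hx i).le
  have hTu : ∀ i, 0 ≤ T (-(1 / 2)) (nrm x) i := T_nonneg hu (by norm_num) (by norm_num)
  rw [T_nrm hx, chi_smul admC hm hTu, chiC_eq hTu, prod_T (mass_nrm hx)]
  unfold WW
  congr 3
  ring

/-- The product of the coordinates after the channel at `1/2` is nonnegative. -/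
theorem cornerHull_prod_nonneg {x : Fin 3 → ℝ} (hx : ∀ i, 0 < x i) :
    0 ≤ 1 - (3 * AA (nrm x) + RR (nrm x)) / 4 := by
  have hu : ∀ i, 0 ≤ nrm x i := fun i => (nrm_pos hx i).le
  have hTu : ∀ i, 0 ≤ T (-(1 / 2)) (nrm x) i := T_nonneg hu (by norm_num) (by norm_num)
  have h := prod_T (mass_nrm hx) (1 / 2)
  unfold WW at h
  have h0 : 0 ≤ T (-(1 / 2)) (nrm x) 0 * T (-(1 / 2)) (nrm x) 1 * T (-(1 / 2)) (nrm x) 2 :=
    mul_nonneg (mul_nonneg (hTu 0) (hTu 1)) (hTu 2)
  rw [h] at h0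
  have e : (1 : ℝ) - (1 / 2) ^ 2 * (3 * AA (nrm x) + 2 * (1 / 2) * RR (nrm x))
      = 1 - (3 * AA (nrm x) + RR (nrm x)) / 4 := by ring
  rwa [e] at h0

/-- The moment polynomials: first inequality. -/
theorem cornerHull_poly1 {A R : ℝ} (hD : Dom A R) :
    1 - (3 * A + R) / 4 ≤ (1 - 5 / 24 * A) ^ 3 := by
  obtain ⟨A0, A1, h3, h4⟩ := hD
  have key : -R / 4 ≤ A / 8 := by
    rcases le_total A (1 / 4) with h | h
    · have h5 : A ^ 3 ≤ A ^ 2 / 4 := by nlinarith [sq_nonneg A]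
      have h6 : R ^ 2 ≤ (A / 2) ^ 2 := by nlinarith
      have h7 := abs_le_of_sq_le_sq' h6 (by positivity)
      linarith [h7.1]
    · linarith
  have h2 : 0 ≤ 25 / 192 * A ^ 2 - 125 / 13824 * A ^ 3 := by
    have : A ^ 3 ≤ A ^ 2 := by nlinarith [sq_nonneg A]
    nlinarith [sq_nonneg A]
  nlinarith

/-- The moment polynomials: second inequality. -/
theorem cornerHull_poly2 {A R : ℝ} (hD : Dom A R) :
    (1 - A) ^ 3 ≤ 1 - (3 * A + R) / 4 := by
  obtain ⟨A0, A1, h3, h4⟩ := hD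
  have key : R ≤ A * (3 - 2 * A) ^ 2 := by
    by_contra hn
    push Not at hn
    have h1 : 1 ≤ 3 - 2 * A := by linarith
    have h2 : 1 ≤ (3 - 2 * A) ^ 2 := by nlinarith
    have h5 : A ≤ A * (3 - 2 * A) ^ 2 := by nlinarith
    have h6 : A * A ≤ (A * (3 - 2 * A) ^ 2) ^ 2 := by nlinarith
    have h7 : (A * (3 - 2 * A) ^ 2) ^ 2 ≤ R ^ 2 := by
      apply pow_le_pow_left₀ (by positivity) hn.le
    have h8 : A ^ 2 ≤ R ^ 2 := by nlinarith
    have h9 : A ^ 3 ≤ A ^ 2 := by nlinarith [sq_nonneg A]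
    have h10 : A ^ 3 = A ^ 2 ∨ A = 0 := by
      by_cases hA : A = 0
      · exact Or.inr hA
      · left
        nlinarith
    have hstrict : A * (3 - 2 * A) ^ 2 < R := hn
    rcases eq_or_lt_of_le A0 with h | hA
    · subst h
      have : R = 0 := by
        have : R ^ 2 ≤ 0 := by simpa using h3
        nlinarith
      simp [this] at hstrict
    · have hA2 : (A * (3 - 2 * A) ^ 2) ^ 2 < R ^ 2 := by
        apply pow_lt_pow_left₀ hstrict (by positivity) (by norm_num)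
      nlinarith
  nlinarith

/-- `yyv` after the channel against `psi` of the central character, lower side. -/
theorem cornerHull_yyv_le {x : Fin 3 → ℝ} (hx : ∀ i, 0 < x i) :
    yyv (T (-(1 / 2)) x) ≤ 6 / 5 * psi sC (-(1 / 2)) x := by
  have hm := mass_pos hx
  have hD := dom_of (fun i => (nrm_pos hx i).le) (mass_nrm hx)
  have e1 : yyv (T (-(1 / 2)) x) = (1 / 4) * (mass x * AA (nrm x)) := by
    rw [T_neg_eq_rayW, yyv_rayW hx, yyv_nrm hx]
    ring
  have hP := cornerHull_prod_nonneg hx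
  have h3 := cornerHull_cbrt_le hP (h := 1 - 5 / 24 * AA (nrm x)) (by linarith [hD.2.1]) (cornerHull_poly1 hD)
  unfold psi
  rw [cornerHull_chiC_half hx, e1]
  nlinarith

/-- `yyv` after the channel against `psi` of the central character, upper side. -/
theorem cornerHull_psiC_le {x : Fin 3 → ℝ} (hx : ∀ i, 0 < x i) :
    psi sC (-(1 / 2)) x ≤ 4 * yyv (T (-(1 / 2)) x) := by
  have hm := mass_pos hx
  have hD := dom_of (fun i => (nrm_pos hx i).le) (mass_nrm hx)
  have e1 : yyv (T (-(1 / 2)) x) = (1 / 4) * (mass x * AA (nrm x)) := by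
    rw [T_neg_eq_rayW, yyv_rayW hx, yyv_nrm hx]
    ring
  have h3 := cornerHull_le_cbrt (h := 1 - AA (nrm x)) (by linarith [hD.2.1]) (cornerHull_poly2 hD)
  unfold psi
  rw [cornerHull_chiC_half hx, e1]
  nlinarith

/-! ### The pointwise facts for all `t` in `(0, 1/2]` -/

theorem cornerHull_s444_sE : sE (4, 4, 4) = sC := cornerHull_s444_eq

theorem cornerHull_psi_T_pos {x : Fin 3 → ℝ} (hx : ∀ i, 0 < x i) {t : ℝ} (h0 : 0 < t) (h1 : t ≤ 1 / 2) (i : Fin 3) :
    0 < T (-t) x i := by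
  rw [T_neg_eq_rayW]
  exact rayW_pos hx h0.le h1 i

/-- `psi` is nonnegative. -/
theorem cornerHull_psi_nonneg {s : Fin 3 → ℝ} (hs : AdmS s) {x : Fin 3 → ℝ} (hx : ∀ i, 0 < x i) {t : ℝ}
    (h0 : 0 < t) (h1 : t ≤ 1 / 2) : 0 ≤ psi s (-t) x := by
  unfold psi
  have h := cornerHull_chi_le_mass hs (fun i => (cornerHull_psi_T_pos hx h0 h1 i).le)
  rw [mass_T] at h
  linarith

/-- `psi` is below `psi` of the central character. -/
theorem cornerHull_psi_le_psiC {s : Fin 3 → ℝ} (hs : AdmS s) {x : Fin 3 → ℝ} (hx : ∀ i, 0 < x i) {t : ℝ}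
    (h0 : 0 < t) (h1 : t ≤ 1 / 2) : psi s (-t) x ≤ psi sC (-t) x := by
  unfold psi
  have h := cornerHull_chiC_le hs (cornerHull_psi_T_pos hx h0 h1)
  linarith

/-- `psi` of the central character is below the mass. -/
theorem cornerHull_psiC_le_mass {x : Fin 3 → ℝ} (hx : ∀ i, 0 < x i) {t : ℝ}
    (h0 : 0 < t) (h1 : t ≤ 1 / 2) : psi sC (-t) x ≤ mass x := by
  unfold psi
  have h := cornerHull_chi_nonneg sC (fun i => (cornerHull_psi_T_pos hx h0 h1 i).le)
  linarith

theorem cornerHull_yyv_T {x : Fin 3 → ℝ} (hx : ∀ i, 0 < x i) (t : ℝ) : yyv (T (-t) x) = t ^ 2 * yyv x := by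
  rw [T_neg_eq_rayW, yyv_rayW hx]

/-- `t^2 yyv <= (6/5) psi_c`. -/
theorem cornerHull_yyv_le_t {x : Fin 3 → ℝ} (hx : ∀ i, 0 < x i) {t : ℝ} (h0 : 0 < t) (h1 : t ≤ 1 / 2) :
    t ^ 2 * yyv x ≤ 6 / 5 * psi sC (-t) x := by
  have hp := mixX_pos hx h0 h1
  have h := cornerHull_yyv_le hp
  rw [T_half_mixX, ← cornerHull_psi_mix, yyv_rayW hx] at h
  exact h

/-- `psi_c <= 4 t^2 yyv`. -/
theorem cornerHull_psiC_le_t {x : Fin 3 → ℝ} (hx : ∀ i, 0 < x i) {t : ℝ} (h0 : 0 < t) (h1 : t ≤ 1 / 2) :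
    psi sC (-t) x ≤ 4 * (t ^ 2 * yyv x) := by
  have hp := mixX_pos hx h0 h1
  have h := cornerHull_psiC_le hp
  rw [T_half_mixX, ← cornerHull_psi_mix, yyv_rayW hx] at h
  exact h

/-- `yyv <= mass`. -/
theorem cornerHull_yyv_le_mass {x : Fin 3 → ℝ} (hx : ∀ i, 0 < x i) : yyv x ≤ mass x := by
  rw [yyv_nrm hx]
  have hD := dom_of (fun i => (nrm_pos hx i).le) (mass_nrm hx)
  have hm := mass_pos hx
  nlinarith [hD.2.1]

/-- The ratio for all `t`. -/
theorem cornerHull_ratio_t {x : Fin 3 → ℝ} (hx : ∀ i, 0 < x i) {t : ℝ} (h0 : 0 < t) (h1 : t ≤ 1 / 2) :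
    293 / 500 * psi sC (-t) x ≤ psi (sE (9, 2, 1)) (-t) x := by
  have h := cornerHull_ratio_half (mixX_pos hx h0 h1)
  rw [cornerHull_s444_sE, ← cornerHull_psi_mix, ← cornerHull_psi_mix] at h
  exact h

/-! ### The hull -/

/-- A hull inequality with two characters. -/
theorem cornerHull_hull_two {n : ℕ} {s : Fin n → Fin 3 → ℝ} {lam : ℝ} {y : Fin n → ℝ} {Y : ℝ}
    (hy : HullY s lam y Y) (i k : Fin n) (a b c0 e : ℝ)
    (h : ∀ x : Fin 3 → ℝ, (∀ i, 0 < x i) →
      a * psi (s i) lam x + b * psi (s k) lam x + c0 * yyv x ≤ e * mass x) :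
    a * y i + b * y k + c0 * Y ≤ e := by
  have e1 : ∀ f : Fin n → ℝ, ∑ j, ((if j = i then a else 0) + (if j = k then b else 0)) * f j
      = a * f i + b * f k := by
    intro f
    simp only [add_mul, Finset.sum_add_distrib, ite_mul, zero_mul, Finset.sum_ite_eq', Finset.mem_univ,
      if_true]
  have key := hy (fun j => (if j = i then a else 0) + (if j = k then b else 0)) c0 e (fun x hx => by
    rw [e1 (fun j => psi (s j) lam x)]
    exact h x hx)
  rwa [e1 y] at key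

/-- The facts on a point of the hull for the corner. -/
structure CornerHullFacts {n : ℕ} (iC i921 : Fin n) (t : ℝ) (y : Fin n → ℝ) (Y : ℝ) : Prop where
  y_nonneg : ∀ j, 0 ≤ y j
  y_le_c : ∀ j, y j ≤ y iC
  yc_le_one : y iC ≤ 1
  y921_ge : 293 / 500 * y iC ≤ y i921
  Y_nonneg : 0 ≤ Y
  Y_le_one : Y ≤ 1
  tY_le : t ^ 2 * Y ≤ 6 / 5 * y iC
  yc_le_tY : y iC ≤ 4 * (t ^ 2 * Y)

/-- All the facts on a point of the hull, for any list of exponents on the grid containing the central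
exponent and `(9,2,1)`. -/
theorem corner_hull_facts (X : List E3) (hX : ∀ e ∈ X, e.1 + e.2.1 + e.2.2 = 12) {iC i921 : Fin X.length}
    (hC : X.get iC = (4, 4, 4)) (h9 : X.get i921 = (9, 2, 1)) {t : ℝ} (h0 : 0 < t) (h1 : t ≤ 1 / 2)
    {y : Fin X.length → ℝ} {Y : ℝ} (hy : HullY (expo X) (-t) y Y) : CornerHullFacts iC i921 t y Y := by
  have hadm : ∀ j, AdmS (expo X j) := fun j => adm_sE (hX _ (List.get_mem X j))
  have eC : expo X iC = sC := by
    show sE (X.get iC) = sC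
    rw [hC, cornerHull_s444_sE]
  have e9 : expo X i921 = sE (9, 2, 1) := by
    show sE (X.get i921) = _
    rw [h9]
  refine ⟨?_, ?_, ?_, ?_, ?_, ?_, ?_, ?_⟩
  · intro j
    have := cornerHull_hull_two hy j j (-1) 0 0 0 (fun x hx => by
      have := cornerHull_psi_nonneg (hadm j) hx h0 h1
      linarith)
    linarith
  · intro j
    have := cornerHull_hull_two hy j iC 1 (-1) 0 0 (fun x hx => by
      have := cornerHull_psi_le_psiC (hadm j) hx h0 h1
      rw [eC]
      linarith)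
    linarith
  · have := cornerHull_hull_two hy iC iC 1 0 0 1 (fun x hx => by
      have := cornerHull_psiC_le_mass hx h0 h1
      rw [eC]
      linarith)
    linarith
  · have := cornerHull_hull_two hy iC i921 (293 / 500) (-1) 0 0 (fun x hx => by
      have := cornerHull_ratio_t hx h0 h1
      rw [eC, e9]
      linarith)
    linarith
  · have := cornerHull_hull_two hy iC iC 0 0 (-1) 0 (fun x hx => by
      have := yyv_nonneg' hx
      linarith)
    linarith
  · have := cornerHull_hull_two hy iC iC 0 0 1 1 (fun x hx => by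
      have := cornerHull_yyv_le_mass hx
      linarith)
    linarith
  · have := cornerHull_hull_two hy iC iC (-(6 / 5)) 0 (t ^ 2) 0 (fun x hx => by
      have := cornerHull_yyv_le_t hx h0 h1
      rw [eC]
      linarith)
    linarith
  · have := cornerHull_hull_two hy iC iC 1 0 (-(4 * t ^ 2)) 0 (fun x hx => by
      have := cornerHull_psiC_le_t hx h0 h1
      rw [eC]
      linarith)
    linarith

end

end Vale.Agent.P154.Hel.CornerHull
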