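import Mathlib

/-!
The scalar inequalities of the small-`z` family near the critical point: tangent bounds for the
positive characters, second order bound for the centre character.
-/

namespace Vale.Agent.P154

namespace Hel

namespace SmallScalar

noncomputable section

/-- `-log (1 - p)` lies above its third Taylor polynomial. -/
theorem neg_log_ge {p : ℝ} (h0 : 0 ≤ p) (h1 : p < 1) : p + p ^ 2 / 2 + p ^ 3 / 3 ≤ -Real.log (1 - p) := by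
  have hs := Real.hasSum_pow_div_log_of_abs_lt_one (x := p) (by rw [abs_of_nonneg h0]; exact h1)
  have := sum_le_hasSum (Finset.range 3) (fun i _ => by positivity) hs
  simp only [Finset.sum_range_succ, Finset.sum_range_zero] at this
  norm_num at this
  linarith

/-- Tangent bound for `1 - exp (-z)` with slope `1 - p`, valid for all `z`. -/
theorem one_sub_exp_le {p : ℝ} (h0 : 0 ≤ p) (h1 : p < 1) (z : ℝ) :
    1 - Real.exp (-z) ≤ (1 - p) * z + (p ^ 2 / 2 + p ^ 3 / 6 + p ^ 4 / 3) := by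
  have h2 : 0 < 1 - p := by linarith
  obtain ⟨q, hq⟩ : ∃ q, q = -Real.log (1 - p) := ⟨_, rfl⟩
  have hq1 : p + p ^ 2 / 2 + p ^ 3 / 3 ≤ q := by rw [hq]; exact neg_log_ge h0 h1
  have he : Real.exp (-q) = 1 - p := by
    rw [hq, neg_neg, Real.exp_log h2]
  have h3 := Real.add_one_le_exp (q - z)
  have h4 : Real.exp (-z) = Real.exp (-q) * Real.exp (q - z) := by
    rw [← Real.exp_add]
    congr 1
    ring
  rw [h4, he]
  have h5 : (1 - p) * ((q - z) + 1) ≤ (1 - p) * Real.exp (q - z) :=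
    mul_le_mul_of_nonneg_left h3 h2.le
  have h6 : (1 - p) * (p + p ^ 2 / 2 + p ^ 3 / 3) ≤ (1 - p) * q :=
    mul_le_mul_of_nonneg_left hq1 h2.le
  nlinarith

/-- Fourth order bound for `exp (-Z)`. -/
theorem exp_neg_le {Z : ℝ} (h0 : 0 ≤ Z) (h1 : Z ≤ 1) :
    Real.exp (-Z) ≤ 1 - Z + Z ^ 2 / 2 - Z ^ 3 / 6 + (5 / 96) * Z ^ 4 := by
  have := Real.exp_bound (x := -Z) (by rw [abs_neg, abs_of_nonneg h0]; exact h1) (n := 4) (by norm_num)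
  have h2 := (abs_le.1 this).2
  simp only [Finset.sum_range_succ, Finset.sum_range_zero, abs_neg, abs_of_nonneg h0] at h2
  norm_num [Nat.factorial] at h2
  nlinarith [h2, pow_nonneg h0 4]

/-- The data of the family. -/
def aA : ℝ := 83 / 24
def aB : ℝ := 9
def aD : ℝ := 1
def bC : ℝ := 339 / 32
def kA : ℝ := 3 / 4
def kB : ℝ := 15 / 16
def kD : ℝ := 9 / 16
def cP : ℝ := 1 / 4096
def e2 : ℝ := 21 / 100

/-- The scalar inequality for the Poisson tree, in the variables `z_j = d y_j`. -/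
theorem poi_scalar {zA zB zD Z Y κ : ℝ} (hZ0 : 0 ≤ Z) (hZ1 : Z ≤ 1 / 100) (hY0 : 0 ≤ Y)
    (hY : Y ≤ (6 / 5) * Z) (hκ : κ * (6 / 5) ≤ cP) (hκ0 : 0 ≤ κ) :
    aA * (1 - Real.exp (-zA)) + aB * (1 - Real.exp (-zB)) + aD * (1 - Real.exp (-zD))
        - bC * (1 - Real.exp (-Z)) + κ * Y ^ 2
      ≤ aA * (1 - kA * Z) * zA + aB * (1 - kB * Z) * zB + aD * (1 - kD * Z) * zD
        - bC * (1 - Z) * Z + cP * Z * Y - e2 * Z ^ 2 := by
  have hp : ∀ k : ℝ, 0 ≤ k → k ≤ 1 → 0 ≤ k * Z ∧ k * Z < 1 := fun k h0 h1 => ⟨by positivity, by nlinarith⟩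
  have tA := one_sub_exp_le (hp kA (by norm_num [kA]) (by norm_num [kA])).1
    (hp kA (by norm_num [kA]) (by norm_num [kA])).2 zA
  have tB := one_sub_exp_le (hp kB (by norm_num [kB]) (by norm_num [kB])).1
    (hp kB (by norm_num [kB]) (by norm_num [kB])).2 zB
  have tD := one_sub_exp_le (hp kD (by norm_num [kD]) (by norm_num [kD])).1
    (hp kD (by norm_num [kD]) (by norm_num [kD])).2 zD
  have tC := exp_neg_le hZ0 (by linarith)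
  have tY : κ * Y ^ 2 ≤ cP * Z * Y := by
    have : κ * Y ≤ cP * Z := by nlinarith
    nlinarith
  have hA := mul_le_mul_of_nonneg_left tA (by norm_num [aA] : (0 : ℝ) ≤ aA)
  have hB := mul_le_mul_of_nonneg_left tB (by norm_num [aB] : (0 : ℝ) ≤ aB)
  have hD := mul_le_mul_of_nonneg_left tD (by norm_num [aD] : (0 : ℝ) ≤ aD)
  have hC : bC * (Z - Z ^ 2 / 2 + Z ^ 3 / 6 - (5 / 96) * Z ^ 4) ≤ bC * (1 - Real.exp (-Z)) :=
    mul_le_mul_of_nonneg_left (by linarith) (by norm_num [bC])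
  -- the polynomial inequality in `Z`
  have hpoly : aA * ((kA * Z) ^ 2 / 2 + (kA * Z) ^ 3 / 6 + (kA * Z) ^ 4 / 3)
      + aB * ((kB * Z) ^ 2 / 2 + (kB * Z) ^ 3 / 6 + (kB * Z) ^ 4 / 3)
      + aD * ((kD * Z) ^ 2 / 2 + (kD * Z) ^ 3 / 6 + (kD * Z) ^ 4 / 3)
      - bC * (Z - Z ^ 2 / 2 + Z ^ 3 / 6 - (5 / 96) * Z ^ 4) + bC * (1 - Z) * Z + e2 * Z ^ 2 ≤ 0 := by
    norm_num [aA, aB, aD, bC, kA, kB, kD, e2]
    have h2 : Z ^ 3 ≤ (1 / 100) * Z ^ 2 := by nlinarith [sq_nonneg Z]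
    have h3 : Z ^ 4 ≤ (1 / 100) * Z ^ 3 := by nlinarith [pow_nonneg hZ0 3]
    nlinarith [sq_nonneg Z, pow_nonneg hZ0 3, pow_nonneg hZ0 4]
  have e1 : aA * ((1 - kA * Z) * zA + ((kA * Z) ^ 2 / 2 + (kA * Z) ^ 3 / 6 + (kA * Z) ^ 4 / 3))
      = aA * (1 - kA * Z) * zA + aA * ((kA * Z) ^ 2 / 2 + (kA * Z) ^ 3 / 6 + (kA * Z) ^ 4 / 3) := by ring
  have e3 : aB * ((1 - kB * Z) * zB + ((kB * Z) ^ 2 / 2 + (kB * Z) ^ 3 / 6 + (kB * Z) ^ 4 / 3))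
      = aB * (1 - kB * Z) * zB + aB * ((kB * Z) ^ 2 / 2 + (kB * Z) ^ 3 / 6 + (kB * Z) ^ 4 / 3) := by ring
  have e4 : aD * ((1 - kD * Z) * zD + ((kD * Z) ^ 2 / 2 + (kD * Z) ^ 3 / 6 + (kD * Z) ^ 4 / 3))
      = aD * (1 - kD * Z) * zD + aD * ((kD * Z) ^ 2 / 2 + (kD * Z) ^ 3 / 6 + (kD * Z) ^ 4 / 3) := by ring
  rw [e1] at hA
  rw [e3] at hB
  rw [e4] at hD
  linarith

/-- The tangent bound for the quartic, with slope `4 (1 - p)`. -/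
theorem quartic_le {p y : ℝ} (hp0 : 0 ≤ p) (hp1 : p ≤ 1 / 10) (hy0 : 0 ≤ y) (hy1 : y ≤ 1) :
    1 - (1 - y) ^ 4 ≤ 4 * (1 - p) * y + (2 / 3 * p ^ 2 + p ^ 3) := by
  have hw : (1 : ℝ) - y ≥ 0 := by linarith
  have hq : 4 * p * y - 6 * y ^ 2 + 4 * y ^ 3 - y ^ 4 ≤ 2 / 3 * p ^ 2 + p ^ 3 := by
    rcases le_or_gt (1 / 2) y with hy | hy
    · -- large y
      have h1 : 4 * y ^ 3 ≤ 4 * y ^ 2 := by nlinarith [sq_nonneg y]
      have h2 : 4 * p * y ≤ (2 / 5) * y := by nlinarith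
      nlinarith [pow_nonneg hy0 4, pow_nonneg hp0 2, pow_nonneg hp0 3, sq_nonneg y]
    · have h3 : 4 * y ^ 3 ≤ 2 * y ^ 2 := by nlinarith [sq_nonneg y]
      obtain ⟨w, hw⟩ : ∃ w, w = y - p / 3 := ⟨_, rfl⟩
      have e : y = w + p / 3 := by rw [hw]; ring
      rcases le_or_gt 0 w with hw0 | hw0
      · subst e
        nlinarith [mul_nonneg hp0 hw0, mul_nonneg (mul_nonneg hp0 hp0) hw0, sq_nonneg (w - p), sq_nonneg w,
          mul_nonneg hp0 (sq_nonneg w), mul_nonneg hw0 (sq_nonneg w), pow_nonneg hp0 3, pow_nonneg hy0 4,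
          mul_nonneg hp0 (sq_nonneg (w - p)), mul_nonneg hp0 hp0]
      · -- y below p / 3
        have hy' : y ≤ p / 3 := by linarith
        have h4 : 4 * y ^ 3 ≤ 4 * (p / 3) ^ 3 := by
          have := pow_le_pow_left₀ hy0 hy' 3
          linarith
        nlinarith [sq_nonneg (y - p / 3), pow_nonneg hy0 4, pow_nonneg hp0 3]
  have : 1 - (1 - y) ^ 4 = 4 * y - 6 * y ^ 2 + 4 * y ^ 3 - y ^ 4 := by ring
  rw [this]
  nlinarith

/-- The tangent bound for the quintic, with slope `5 (1 - p)`. -/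
theorem quintic_le {p y : ℝ} (hp0 : 0 ≤ p) (hp1 : p ≤ 1 / 10) (hy0 : 0 ≤ y) (hy1 : y ≤ 1) :
    1 - (1 - y) ^ 5 ≤ 5 * (1 - p) * y + (5 / 8 * p ^ 2 + p ^ 3) := by
  have hq : 5 * p * y - 10 * y ^ 2 + 10 * y ^ 3 - 5 * y ^ 4 + y ^ 5 ≤ 5 / 8 * p ^ 2 + p ^ 3 := by
    have h5 : y ^ 5 ≤ y ^ 4 := by
      have : y ^ 5 = y * y ^ 4 := by ring
      rw [this]
      nlinarith [pow_nonneg hy0 4]
    rcases le_or_gt (1 / 2) y with hy | hy
    · have h1 : 10 * y ^ 3 - 4 * y ^ 4 ≤ 6 * y ^ 2 + (4 * y ^ 2 - 4 * y ^ 2 ) + 4 * y ^ 2 * (y - y ^ 2) := by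
        nlinarith [sq_nonneg y, mul_nonneg hy0 (sub_nonneg.2 hy1), mul_nonneg (sq_nonneg y) (sub_nonneg.2 hy1)]
      have h2 : 5 * p * y ≤ (1 / 2) * y := by nlinarith
      nlinarith [pow_nonneg hy0 4, pow_nonneg hp0 2, pow_nonneg hp0 3, sq_nonneg y, mul_nonneg hy0 (sub_nonneg.2 hy1), mul_nonneg (sq_nonneg y) (sub_nonneg.2 hy1)]
    · obtain ⟨w, hw⟩ : ∃ w, w = y - p / 4 := ⟨_, rfl⟩
      have e : y = w + p / 4 := by rw [hw]; ring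
      rcases le_or_gt 0 w with hw0 | hw0
      · have h7 : 10 * y ^ 3 ≤ 5 * y ^ 2 + 5 * y ^ 2 * (2 * y - 1) := by nlinarith [sq_nonneg y]
        have h8 : w ≤ 1 / 2 := by nlinarith
        have h9 : 5 * p * y - 10 * y ^ 2 + 10 * y ^ 3 ≤ 5 / 8 * p ^ 2 + p ^ 3 := by
          subst e
          nlinarith [mul_nonneg hp0 hw0, mul_nonneg (mul_nonneg hp0 hp0) hw0, sq_nonneg (w - p), sq_nonneg w,
            mul_nonneg hp0 (sq_nonneg w), mul_nonneg hw0 (sq_nonneg w), pow_nonneg hp0 3,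
            mul_nonneg hp0 (sq_nonneg (w - p)), mul_nonneg hp0 hp0]
        nlinarith [pow_nonneg hy0 4]
      · have hy' : y ≤ p / 4 := by linarith
        have h4 : y ^ 3 ≤ (p / 4) ^ 3 := pow_le_pow_left₀ hy0 hy' 3
        nlinarith [sq_nonneg (y - p / 4), pow_nonneg hy0 4, pow_nonneg hp0 3]
  have : 1 - (1 - y) ^ 5 = 5 * y - 10 * y ^ 2 + 10 * y ^ 3 - 5 * y ^ 4 + y ^ 5 := by ring
  rw [this]
  nlinarith

/-- The scalar inequality for the `4`-ary tree: `Z' = 3 y_c`, and the coefficients are those of the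
family at `Z'`, times `d = 4`. -/
theorem reg4_scalar {yA yB yD yc Z Y κ : ℝ} (hZ : Z = 3 * yc) (hA0 : 0 ≤ yA) (hA1 : yA ≤ 1)
    (hB0 : 0 ≤ yB) (hB1 : yB ≤ 1) (hD0 : 0 ≤ yD) (hD1 : yD ≤ 1) (hc0 : 0 ≤ yc)
    (hZ1 : Z ≤ 1 / 200) (hY0 : 0 ≤ Y) (hY : Y ≤ (8 / 5) * Z) (hκ : κ * (8 / 5) ≤ cP) (hκ0 : 0 ≤ κ) :
    aA * (1 - (1 - yA) ^ 4) + aB * (1 - (1 - yB) ^ 4) + aD * (1 - (1 - yD) ^ 4)
        - bC * (1 - (1 - yc) ^ 4) + κ * Y ^ 2
      ≤ aA * (1 - kA * Z) * 4 * yA + aB * (1 - kB * Z) * 4 * yB + aD * (1 - kD * Z) * 4 * yD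
        - bC * (1 - Z) * 4 * yc + cP * Z * Y - e2 * Z ^ 2 := by
  have hZ0 : 0 ≤ Z := by rw [hZ]; positivity
  have hp : ∀ k : ℝ, 0 ≤ k → k ≤ 1 → 0 ≤ k * Z ∧ k * Z ≤ 1 / 10 := fun k h0 h1 =>
    ⟨by positivity, by nlinarith⟩
  have tA := quartic_le (hp kA (by norm_num [kA]) (by norm_num [kA])).1
    (hp kA (by norm_num [kA]) (by norm_num [kA])).2 hA0 hA1
  have tB := quartic_le (hp kB (by norm_num [kB]) (by norm_num [kB])).1
    (hp kB (by norm_num [kB]) (by norm_num [kB])).2 hB0 hB1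
  have tD := quartic_le (hp kD (by norm_num [kD]) (by norm_num [kD])).1
    (hp kD (by norm_num [kD]) (by norm_num [kD])).2 hD0 hD1
  have tY : κ * Y ^ 2 ≤ cP * Z * Y := by
    have : κ * Y ≤ cP * Z := by nlinarith
    nlinarith
  have hA := mul_le_mul_of_nonneg_left tA (by norm_num [aA] : (0 : ℝ) ≤ aA)
  have hB := mul_le_mul_of_nonneg_left tB (by norm_num [aB] : (0 : ℝ) ≤ aB)
  have hD := mul_le_mul_of_nonneg_left tD (by norm_num [aD] : (0 : ℝ) ≤ aD)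
  have hc : yc = Z / 3 := by rw [hZ]; ring
  have hC : (2 / 3) * Z ^ 2 ≤ (1 - (1 - yc) ^ 4) - (1 - Z) * 4 * yc := by
    have h1 : 0 ≤ yc := hc0
    have h2 : yc ≤ 1 / 100 := by rw [hc]; linarith
    have e : (1 - (1 - yc) ^ 4) - (1 - Z) * 4 * yc = 6 * yc ^ 2 + 4 * yc ^ 3 - yc ^ 4 := by
      rw [hZ]
      ring
    rw [e, hZ]
    have h3 : yc ^ 4 ≤ yc ^ 3 := pow_le_pow_of_le_one h1 (by linarith) (by norm_num)
    have h4 := pow_nonneg h1 3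
    linarith
  have hC' := mul_le_mul_of_nonneg_left hC (by norm_num [bC] : (0 : ℝ) ≤ bC)
  have hpoly : aA * (2 / 3 * (kA * Z) ^ 2 + (kA * Z) ^ 3) + aB * (2 / 3 * (kB * Z) ^ 2 + (kB * Z) ^ 3)
      + aD * (2 / 3 * (kD * Z) ^ 2 + (kD * Z) ^ 3) - bC * ((2 / 3) * Z ^ 2) + e2 * Z ^ 2 ≤ 0 := by
    norm_num [aA, aB, aD, bC, kA, kB, kD, e2]
    have h2 : Z ^ 3 ≤ (1 / 200) * Z ^ 2 := by nlinarith [sq_nonneg Z]
    nlinarith [sq_nonneg Z, pow_nonneg hZ0 3]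
  linarith

/-- The scalar inequality for the `5`-ary tree: `Z' = 4 y_c`. -/
theorem reg5_scalar {yA yB yD yc Z Y κ : ℝ} (hZ : Z = 4 * yc) (hA0 : 0 ≤ yA) (hA1 : yA ≤ 1)
    (hB0 : 0 ≤ yB) (hB1 : yB ≤ 1) (hD0 : 0 ≤ yD) (hD1 : yD ≤ 1) (hc0 : 0 ≤ yc)
    (hZ1 : Z ≤ 1 / 200) (hY0 : 0 ≤ Y) (hY : Y ≤ (3 / 2) * Z) (hκ : κ * (3 / 2) ≤ cP) (hκ0 : 0 ≤ κ) :
    aA * (1 - (1 - yA) ^ 5) + aB * (1 - (1 - yB) ^ 5) + aD * (1 - (1 - yD) ^ 5)
        - bC * (1 - (1 - yc) ^ 5) + κ * Y ^ 2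
      ≤ aA * (1 - kA * Z) * 5 * yA + aB * (1 - kB * Z) * 5 * yB + aD * (1 - kD * Z) * 5 * yD
        - bC * (1 - Z) * 5 * yc + cP * Z * Y - e2 * Z ^ 2 := by
  have hZ0 : 0 ≤ Z := by rw [hZ]; positivity
  have hp : ∀ k : ℝ, 0 ≤ k → k ≤ 1 → 0 ≤ k * Z ∧ k * Z ≤ 1 / 10 := fun k h0 h1 =>
    ⟨by positivity, by nlinarith⟩
  have tA := quintic_le (hp kA (by norm_num [kA]) (by norm_num [kA])).1
    (hp kA (by norm_num [kA]) (by norm_num [kA])).2 hA0 hA1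
  have tB := quintic_le (hp kB (by norm_num [kB]) (by norm_num [kB])).1
    (hp kB (by norm_num [kB]) (by norm_num [kB])).2 hB0 hB1
  have tD := quintic_le (hp kD (by norm_num [kD]) (by norm_num [kD])).1
    (hp kD (by norm_num [kD]) (by norm_num [kD])).2 hD0 hD1
  have tY : κ * Y ^ 2 ≤ cP * Z * Y := by
    have : κ * Y ≤ cP * Z := by nlinarith
    nlinarith
  have hA := mul_le_mul_of_nonneg_left tA (by norm_num [aA] : (0 : ℝ) ≤ aA)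
  have hB := mul_le_mul_of_nonneg_left tB (by norm_num [aB] : (0 : ℝ) ≤ aB)
  have hD := mul_le_mul_of_nonneg_left tD (by norm_num [aD] : (0 : ℝ) ≤ aD)
  have hc : yc = Z / 4 := by rw [hZ]; ring
  have hC : (5 / 8) * Z ^ 2 ≤ (1 - (1 - yc) ^ 5) - (1 - Z) * 5 * yc := by
    have h1 : 0 ≤ yc := hc0
    have h2 : yc ≤ 1 / 100 := by rw [hc]; linarith
    have e : (1 - (1 - yc) ^ 5) - (1 - Z) * 5 * yc = 10 * yc ^ 2 + 10 * yc ^ 3 - 5 * yc ^ 4 + yc ^ 5 := by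
      rw [hZ]
      ring
    rw [e, hZ]
    have h3 : yc ^ 4 ≤ yc ^ 3 := pow_le_pow_of_le_one h1 (by linarith) (by norm_num)
    have h4 := pow_nonneg h1 3
    have h5 := pow_nonneg h1 5
    linarith
  have hC' := mul_le_mul_of_nonneg_left hC (by norm_num [bC] : (0 : ℝ) ≤ bC)
  have hpoly : aA * (5 / 8 * (kA * Z) ^ 2 + (kA * Z) ^ 3) + aB * (5 / 8 * (kB * Z) ^ 2 + (kB * Z) ^ 3)
      + aD * (5 / 8 * (kD * Z) ^ 2 + (kD * Z) ^ 3) - bC * ((5 / 8) * Z ^ 2) + e2 * Z ^ 2 ≤ 0 := by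
    norm_num [aA, aB, aD, bC, kA, kB, kD, e2]
    have h2 : Z ^ 3 ≤ (1 / 200) * Z ^ 2 := by nlinarith [sq_nonneg Z]
    nlinarith [sq_nonneg Z, pow_nonneg hZ0 3]
  linarith

end

end SmallScalar

end Hel

end Vale.Agent.P154
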