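import Vale.Agent.P154.Hel.SmallN
import Vale.Agent.P154.Hel.SmallScalar
import Vale.Agent.P154.Hel.CornerHull

/-!
Assembly for small centre defect: from the pointwise family `famL t Z x ≤ phiS x`, valid for `Z` in
`[0, Z1]` and all triples, and the scalar inequalities, one gets the conclusion of the key at every point
of the hull with small centre defect: Poisson tree on the critical curve, `d`-ary trees for `d = 4, 5`.
-/

namespace Vale.Agent.P154.Hel.Small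

open TM Q3 Direct CornerHull

noncomputable section

/-- The vector supported on the four characters of the family. -/
def fourV {n : ℕ} (jA jB jD jC : Fin n) (p q r u : ℝ) : Fin n → ℝ := fun j =>
  (if j = jA then p else 0) + (if j = jB then q else 0) + (if j = jD then r else 0)
    + (if j = jC then u else 0)

theorem sum_fourV {n : ℕ} (jA jB jD jC : Fin n) (p q r u : ℝ) (f : Fin n → ℝ) :
    ∑ j, fourV jA jB jD jC p q r u j * f j = p * f jA + q * f jB + r * f jD + u * f jC := by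
  unfold fourV
  simp only [add_mul, Finset.sum_add_distrib, ite_mul, zero_mul, Finset.sum_ite_eq', Finset.mem_univ,
    if_true]

/-- The family on a list of characters containing the four characters. -/
structure FourChars (X : List E3) (jA jB jD jC : Fin X.length) : Prop where
  hA : X.get jA = (6, 6, 0)
  hB : X.get jB = (6, 3, 3)
  hD : X.get jD = (9, 3, 0)
  hC : X.get jC = (4, 4, 4)

theorem phiF_fourV {X : List E3} {jA jB jD jC : Fin X.length} (h : FourChars X jA jB jD jC)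
    (x : Fin 3 → ℝ) :
    phiF (fourV jA jB jD jC (83 / 24) 9 1 (-(339 / 32))) (expo X) x = phiS x := by
  unfold phiF
  rw [sum_fourV]
  have e1 : expo X jA = sA := by show sE (X.get jA) = _; rw [h.hA]; rfl
  have e2 : expo X jB = sB := by show sE (X.get jB) = _; rw [h.hB]; rfl
  have e3 : expo X jD = sD := by show sE (X.get jD) = _; rw [h.hD]; rfl
  have e4 : expo X jC = sZ := by show sE (X.get jC) = _; rw [h.hC]; rfl
  rw [e1, e2, e3, e4]
  unfold phiS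
  ring

/-- The coefficients of the plane of the family at `Z`. -/
def famC {n : ℕ} (jA jB jD jC : Fin n) (t Z : ℝ) : Fin n → ℝ :=
  fourV jA jB jD jC (83 / 24 * (1 - 3 / 4 * Z) / t ^ 2) (9 * (1 - 15 / 16 * Z) / t ^ 2)
    ((1 - 9 / 16 * Z) / t ^ 2) (-(339 / 32 * (1 - Z) / t ^ 2))

theorem famC_sum {X : List E3} {jA jB jD jC : Fin X.length} (h : FourChars X jA jB jD jC) (t Z : ℝ)
    (x : Fin 3 → ℝ) :
    ∑ j, famC jA jB jD jC t Z j * psi (expo X j) (-t) x + 1 / 4096 * Z * yyv x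
        + -(21 / 100 * Z ^ 2) * mass x = famL t Z x := by
  unfold famC
  rw [sum_fourV]
  have e1 : expo X jA = sA := by show sE (X.get jA) = _; rw [h.hA]; rfl
  have e2 : expo X jB = sB := by show sE (X.get jB) = _; rw [h.hB]; rfl
  have e3 : expo X jD = sD := by show sE (X.get jD) = _; rw [h.hD]; rfl
  have e4 : expo X jC = sZ := by show sE (X.get jC) = _; rw [h.hC]; rfl
  rw [e1, e2, e3, e4]
  unfold famL
  ring

theorem fourV_le {n : ℕ} (jA jB jD jC : Fin n) {B : ℝ} (hB : 14 ≤ B) (j : Fin n) :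
    fourV jA jB jD jC (83 / 24) 9 1 (-(339 / 32)) j ≤ B := by
  unfold fourV
  have h1 : (if j = jA then (83 / 24 : ℝ) else 0) ≤ 83 / 24 := by split_ifs <;> norm_num
  have h2 : (if j = jB then (9 : ℝ) else 0) ≤ 9 := by split_ifs <;> norm_num
  have h3 : (if j = jD then (1 : ℝ) else 0) ≤ 1 := by split_ifs <;> norm_num
  have h4 : (if j = jC then (-(339 / 32) : ℝ) else 0) ≤ 0 := by split_ifs <;> norm_num
  norm_num at h1 ⊢
  linarith

/-- The key at a point of the hull with small centre defect, for the Poisson tree on the critical curve. -/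
theorem poi_small_point {X : List E3} {jA jB jD jC : Fin X.length} (h : FourChars X jA jB jD jC)
    {t d κ B Z1 : ℝ} (ht : t ^ 2 * d = 1) (ht0 : t ≠ 0) (hZ1 : Z1 ≤ 1 / 100) (hB : 14 ≤ B)
    (hκ0 : 0 ≤ κ) (hκ : κ * (6 / 5) ≤ 1 / 4096)
    (fam : ∀ Z : ℝ, 0 ≤ Z → Z ≤ Z1 → ∀ x : Fin 3 → ℝ, (∀ i, 0 < x i) → famL t Z x ≤ phiS x)
    {y : Fin X.length → ℝ} {Y : ℝ} (hy0 : 0 ≤ y jC) (hY0 : 0 ≤ Y) (hY : t ^ 2 * Y ≤ 6 / 5 * y jC)
    (hs : d * y jC ≤ Z1) :
    ∃ (a c : Fin X.length → ℝ) (c0 e : ℝ), (∀ j, a j ≤ B) ∧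
      ∑ j, a j * (1 - Real.exp (-(d * y j))) + κ * Y ^ 2 ≤ ∑ j, c j * y j + c0 * Y + e ∧
      ∀ x : Fin 3 → ℝ, (∀ i, 0 < x i) →
        ∑ j, c j * psi (expo X j) (-t) x + c0 * yyv x + e * mass x ≤ phiF a (expo X) x := by
  have ht2 : 0 < t ^ 2 := by positivity
  have hd : d = 1 / t ^ 2 := by field_simp; linarith
  have hd0 : 0 < d := by rw [hd]; positivity
  obtain ⟨Z, hZ⟩ : ∃ Z, Z = d * y jC := ⟨_, rfl⟩
  have hZ0 : 0 ≤ Z := by rw [hZ]; positivity
  have hZZ : Z ≤ Z1 := by rw [hZ]; exact hs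
  refine ⟨fourV jA jB jD jC (83 / 24) 9 1 (-(339 / 32)), famC jA jB jD jC t Z, 1 / 4096 * Z,
    -(21 / 100 * Z ^ 2), fourV_le _ _ _ _ hB, ?_, fun x hx => ?_⟩
  · rw [sum_fourV (f := fun j => 1 - Real.exp (-(d * y j)))]
    unfold famC
    rw [sum_fourV]
    have hYZ : Y ≤ 6 / 5 * Z := by
      have h1 : Y = d * (t ^ 2 * Y) := by
        calc Y = (t ^ 2 * d) * Y := by rw [ht, one_mul]
          _ = _ := by ring
      have h2 := mul_le_mul_of_nonneg_left hY hd0.le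
      rw [← h1] at h2
      rw [hZ]
      linarith
    have key := SmallScalar.poi_scalar (zA := d * y jA) (zB := d * y jB) (zD := d * y jD) hZ0
      (hZZ.trans hZ1) hY0 hYZ (by unfold SmallScalar.cP; norm_num; norm_num at hκ; linarith) hκ0
    unfold SmallScalar.aA SmallScalar.aB SmallScalar.aD SmallScalar.bC SmallScalar.kA SmallScalar.kB
      SmallScalar.kD SmallScalar.cP SmallScalar.e2 at key
    have eZ : Real.exp (-Z) = Real.exp (-(d * y jC)) := by rw [hZ]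
    rw [eZ] at key
    rw [hd] at key ⊢
    have eL : 1 / t ^ 2 * y jC = Z := by rw [hZ, hd]
    rw [eL] at key
    have e9 : -(339 / 32 * (1 - Z) / t ^ 2) * y jC = -(339 / 32) * (1 - Z) * Z := by
      rw [← eL]
      ring
    refine le_trans (le_of_eq ?_) (le_trans key (le_of_eq ?_))
    · rw [eL]
      ring
    · rw [e9]
      ring
  · rw [famC_sum h, phiF_fourV h]
    exact fam Z hZ0 hZZ x hx

/-- The key at a point of the hull with small centre defect, for the `4`-ary tree. -/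
theorem reg4_small_point {X : List E3} {jA jB jD jC : Fin X.length} (h : FourChars X jA jB jD jC)
    {κ B Z1 : ℝ} (hZ1 : Z1 ≤ 1 / 200) (hB : 14 ≤ B)
    (hκ0 : 0 ≤ κ) (hκ : κ * (8 / 5) ≤ 1 / 4096)
    (fam : ∀ Z : ℝ, 0 ≤ Z → Z ≤ Z1 → ∀ x : Fin 3 → ℝ, (∀ i, 0 < x i) → famL (1 / 2) Z x ≤ phiS x)
    {y : Fin X.length → ℝ} {Y : ℝ} (hy0 : ∀ j, 0 ≤ y j) (hy1 : ∀ j, y j ≤ 1) (hY0 : 0 ≤ Y)
    (hY : (1 / 2 : ℝ) ^ 2 * Y ≤ 6 / 5 * y jC) (hs : 3 * y jC ≤ Z1) :
    ∃ (a c : Fin X.length → ℝ) (c0 e : ℝ), (∀ j, a j ≤ B) ∧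
      ∑ j, a j * (1 - (1 - y j) ^ 4) + κ * Y ^ 2 ≤ ∑ j, c j * y j + c0 * Y + e ∧
      ∀ x : Fin 3 → ℝ, (∀ i, 0 < x i) →
        ∑ j, c j * psi (expo X j) (-(1 / 2)) x + c0 * yyv x + e * mass x ≤ phiF a (expo X) x := by
  obtain ⟨Z, hZ⟩ : ∃ Z, Z = 3 * y jC := ⟨_, rfl⟩
  have hZ0 : 0 ≤ Z := by have := hy0 jC; rw [hZ]; positivity
  have hZZ : Z ≤ Z1 := by rw [hZ]; exact hs
  refine ⟨fourV jA jB jD jC (83 / 24) 9 1 (-(339 / 32)), famC jA jB jD jC (1 / 2) Z, 1 / 4096 * Z,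
    -(21 / 100 * Z ^ 2), fourV_le _ _ _ _ hB, ?_, fun x hx => ?_⟩
  · rw [sum_fourV (f := fun j => 1 - (1 - y j) ^ 4)]
    unfold famC
    rw [sum_fourV]
    have hYZ : Y ≤ 8 / 5 * Z := by
      rw [hZ]
      linarith
    have key := SmallScalar.reg4_scalar hZ (hy0 jA) (hy1 jA) (hy0 jB) (hy1 jB) (hy0 jD) (hy1 jD)
      (hy0 jC) (hZZ.trans hZ1) hY0 hYZ (by unfold SmallScalar.cP; norm_num; norm_num at hκ; linarith) hκ0
    unfold SmallScalar.aA SmallScalar.aB SmallScalar.aD SmallScalar.bC SmallScalar.kA SmallScalar.kB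
      SmallScalar.kD SmallScalar.cP SmallScalar.e2 at key
    refine le_trans (le_of_eq ?_) (le_trans key (le_of_eq ?_))
    · ring
    · ring
  · rw [famC_sum h, phiF_fourV h]
    exact fam Z hZ0 hZZ x hx

/-- The key at a point of the hull with small centre defect, for the `5`-ary tree. -/
theorem reg5_small_point {X : List E3} {jA jB jD jC : Fin X.length} (h : FourChars X jA jB jD jC)
    {t κ B Z1 : ℝ} (ht : t ^ 2 = 1 / 5) (hZ1 : Z1 ≤ 1 / 200) (hB : 14 ≤ B)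
    (hκ0 : 0 ≤ κ) (hκ : κ * (3 / 2) ≤ 1 / 4096)
    (fam : ∀ Z : ℝ, 0 ≤ Z → Z ≤ Z1 → ∀ x : Fin 3 → ℝ, (∀ i, 0 < x i) → famL t Z x ≤ phiS x)
    {y : Fin X.length → ℝ} {Y : ℝ} (hy0 : ∀ j, 0 ≤ y j) (hy1 : ∀ j, y j ≤ 1) (hY0 : 0 ≤ Y)
    (hY : t ^ 2 * Y ≤ 6 / 5 * y jC) (hs : 4 * y jC ≤ Z1) :
    ∃ (a c : Fin X.length → ℝ) (c0 e : ℝ), (∀ j, a j ≤ B) ∧
      ∑ j, a j * (1 - (1 - y j) ^ 5) + κ * Y ^ 2 ≤ ∑ j, c j * y j + c0 * Y + e ∧
      ∀ x : Fin 3 → ℝ, (∀ i, 0 < x i) →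
        ∑ j, c j * psi (expo X j) (-t) x + c0 * yyv x + e * mass x ≤ phiF a (expo X) x := by
  obtain ⟨Z, hZ⟩ : ∃ Z, Z = 4 * y jC := ⟨_, rfl⟩
  have hZ0 : 0 ≤ Z := by have := hy0 jC; rw [hZ]; positivity
  have hZZ : Z ≤ Z1 := by rw [hZ]; exact hs
  refine ⟨fourV jA jB jD jC (83 / 24) 9 1 (-(339 / 32)), famC jA jB jD jC t Z, 1 / 4096 * Z,
    -(21 / 100 * Z ^ 2), fourV_le _ _ _ _ hB, ?_, fun x hx => ?_⟩
  · rw [sum_fourV (f := fun j => 1 - (1 - y j) ^ 5)]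
    unfold famC
    rw [sum_fourV, ht]
    have hYZ : Y ≤ 3 / 2 * Z := by
      rw [ht] at hY
      rw [hZ]
      linarith
    have key := SmallScalar.reg5_scalar hZ (hy0 jA) (hy1 jA) (hy0 jB) (hy1 jB) (hy0 jD) (hy1 jD)
      (hy0 jC) (hZZ.trans hZ1) hY0 hYZ (by unfold SmallScalar.cP; norm_num; norm_num at hκ; linarith) hκ0
    unfold SmallScalar.aA SmallScalar.aB SmallScalar.aD SmallScalar.bC SmallScalar.kA SmallScalar.kB
      SmallScalar.kD SmallScalar.cP SmallScalar.e2 at key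
    refine le_trans (le_of_eq ?_) (le_trans key (le_of_eq ?_))
    · ring
    · ring
  · rw [famC_sum h, phiF_fourV h]
    exact fam Z hZ0 hZZ x hx

end

end Vale.Agent.P154.Hel.Small
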