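import Vale.Agent.P154.Hel.CornerPoi
import Vale.Agent.P154.Hel.CornerRegKey
import Vale.Agent.P154.Hel.SmallPoint

/-!
Assembly of the critical statements from the rows and the family for small centre defect.
-/

namespace Vale.Agent.P154.Hel.Corner

open Vale.Agent.P154.Hel Vale.Agent.P154.Hel.Direct Vale.Agent.P154.Hel.CornerHull Filter Topology

noncomputable section

/-- The Poisson tree on the critical curve, from the rows and the family for small centre defect. -/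
theorem curve_of_rows {X : List E3} (hX : ∀ e ∈ X, e.1 + e.2.1 + e.2.2 = 12) {p : PPar} (hn : p.n = X.length)
    {Za : ℚ} {rows : List PRow} (hchk : prowsOK p Za 4 rows = true)
    (hpl : ∀ r ∈ rows, ∀ b ∈ r.bins, PoiPlane X p.D b.pl)
    {jA jB jD jc j9 : Fin X.length} (hjc : (jc : ℕ) = p.jc) (hj9 : (j9 : ℕ) = p.j9)
    (h4 : Small.FourChars X jA jB jD jc) (h9 : X.get j9 = (9, 2, 1))
    {t0 t : ℝ} (ht0 : 0 < t0) (hL : 1 / (2 * t0) - 1 ≤ (p.L : ℝ)) (hH : 1 / (2 * t0 ^ 2) - 2 ≤ (p.H : ℝ))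
    (ht : t0 ≤ t) (ht1 : t ≤ 1 / 2) (hZa : (Za : ℝ) ≤ 1 / 100) (hB : (14 : ℝ) ≤ (p.B : ℝ))
    (hκ0 : (0 : ℝ) < (p.κ : ℝ)) (hκ : (p.κ : ℝ) * (6 / 5) ≤ 1 / 4096)
    (fam : ∀ Z : ℝ, 0 ≤ Z → Z ≤ (Za : ℝ) → ∀ x : Fin 3 → ℝ, (∀ i, 0 < x i) →
      Small.famL t Z x ≤ Small.phiS x) :
    Tendsto (gwA 3 (poissonWeight (1 / t ^ 2)) (-t)) atTop (𝓝 0) := by
  have ht00 : 0 < t := lt_of_lt_of_le ht0 ht
  have ht2 : 0 < t ^ 2 := by positivity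
  have hadm : ∀ j, AdmS (expo X j) := fun j => adm_sE (hX _ (List.get_mem X j))
  have hK : PoiKeyB (expo X) (1 / t ^ 2) (-t) (p.κ : ℝ) (p.B : ℝ) := by
    refine poiKeyB_of_rows hX hn hchk hpl hjc hj9 h4.hC h9 ht0 hL hH ht ht1 ?_
    intro y Y hy hs
    have hf := corner_hull_facts X hX h4.hC h9 ht00 ht1 hy
    exact Small.poi_small_point h4 (t := t) (d := 1 / t ^ 2) (κ := (p.κ : ℝ)) (B := (p.B : ℝ))
      (Z1 := (Za : ℝ)) (by field_simp) ht00.ne' hZa hB hκ0.le hκ fam (hf.y_nonneg jc) hf.Y_nonneg hf.tY_le hs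
  exact (hel_poisson_cells (s := expo X) hadm (d := 1 / t ^ 2) (κ := (p.κ : ℝ)) (B := (p.B : ℝ))
    (by positivity) (by linarith) (by linarith) hκ0 hK).2

/-- The `4`-ary tree at `t = 1/2` after a burn-in on the centre character, from the rows and the family. -/
theorem reg4_small_hyp {X : List E3} (hX : ∀ e ∈ X, e.1 + e.2.1 + e.2.2 = 12)
    {jA jB jD jc j9 : Fin X.length} (h4 : Small.FourChars X jA jB jD jc) (h9 : X.get j9 = (9, 2, 1))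
    {κ B Z1 : ℝ} (hZ1 : Z1 ≤ 1 / 200) (hB : 14 ≤ B) (hκ0 : 0 ≤ κ) (hκ : κ * (8 / 5) ≤ 1 / 4096)
    (fam : ∀ Z : ℝ, 0 ≤ Z → Z ≤ Z1 → ∀ x : Fin 3 → ℝ, (∀ i, 0 < x i) →
      Small.famL (1 / 2) Z x ≤ Small.phiS x)
    (y : Fin X.length → ℝ) (Y : ℝ) (hy : HullY (expo X) (-(1 / 2)) y Y) (hs : y jc ≤ Z1 / 3) :
    RegPoint (expo X) 4 (-(1 / 2)) κ B y Y := by
  have hf := corner_hull_facts X hX h4.hC h9 (t := 1 / 2) (by norm_num) le_rfl hy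
  exact Small.reg4_small_point h4 hZ1 hB hκ0 hκ fam hf.y_nonneg
    (fun j => (hf.y_le_c j).trans hf.yc_le_one) hf.Y_nonneg hf.tY_le (by linarith)

/-- The `5`-ary tree at `t ^ 2 = 1/5`: the key for small centre defect. -/
theorem reg5_small_hyp {X : List E3} (hX : ∀ e ∈ X, e.1 + e.2.1 + e.2.2 = 12)
    {jA jB jD jc j9 : Fin X.length} (h4 : Small.FourChars X jA jB jD jc) (h9 : X.get j9 = (9, 2, 1))
    {t κ B Z1 : ℝ} (h0 : 0 < t) (ht : t ^ 2 = 1 / 5) (hZ1 : Z1 ≤ 1 / 200) (hB : 14 ≤ B) (hκ0 : 0 ≤ κ)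
    (hκ : κ * (3 / 2) ≤ 1 / 4096)
    (fam : ∀ Z : ℝ, 0 ≤ Z → Z ≤ Z1 → ∀ x : Fin 3 → ℝ, (∀ i, 0 < x i) →
      Small.famL t Z x ≤ Small.phiS x)
    (y : Fin X.length → ℝ) (Y : ℝ) (hy : HullY (expo X) (-t) y Y) (hs : y jc ≤ Z1 / 4) :
    RegPoint (expo X) 5 (-t) κ B y Y := by
  have ht1 : t ≤ 1 / 2 := by nlinarith
  have hf := corner_hull_facts X hX h4.hC h9 h0 ht1 hy
  exact Small.reg5_small_point h4 ht hZ1 hB hκ0 hκ fam hf.y_nonneg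
    (fun j => (hf.y_le_c j).trans hf.yc_le_one) hf.Y_nonneg hf.tY_le (by linarith)

end

end Vale.Agent.P154.Hel.Corner
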