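import Vale.Agent.P154.Hel.SmallFam

/-!
The small-`z` family up to `Z = 21/2048`: the far zone from seven planes at `Z = k/2048`, interpolated
linearly in `Z` between consecutive ones.
-/

namespace Vale.Agent.P154.Hel.Small

open TM Q3 Direct

noncomputable section

/-- The characters of the plane at `Z = 5/2048`. -/
def CC5 : List ℤ := [347489792, 903896064, 100525056, -1063798272]
/-- The row D of the plane at `Z = 5/2048`. -/
def DC5 : List ℤ := [86872448, 225974016, 25131264, -265949568]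
/-- The characters of the plane at `Z = 7/2048`. -/
def CC7 : List ℤ := [347234816, 903066624, 100469760, -1062756864]
/-- The row D of the plane at `Z = 7/2048`. -/
def DC7 : List ℤ := [86808704, 225766656, 25117440, -265689216]
/-- The characters of the plane at `Z = 10/2048`. -/
def CC10 : List ℤ := [346852352, 901822464, 100386816, -1061194752]
/-- The row D of the plane at `Z = 10/2048`. -/
def DC10 : List ℤ := [86713088, 225455616, 25096704, -265298688]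
/-- The characters of the plane at `Z = 13/2048`. -/
def CC13 : List ℤ := [346469888, 900578304, 100303872, -1059632640]
/-- The row D of the plane at `Z = 13/2048`. -/
def DC13 : List ℤ := [86617472, 225144576, 25075968, -264908160]
/-- The characters of the plane at `Z = 16/2048`. -/
def CC16 : List ℤ := [346087424, 899334144, 100220928, -1058070528]
/-- The row D of the plane at `Z = 16/2048`. -/
def DC16 : List ℤ := [86521856, 224833536, 25055232, -264517632]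
/-- The characters of the plane at `Z = 19/2048`. -/
def CC19 : List ℤ := [345704960, 898089984, 100137984, -1056508416]
/-- The row D of the plane at `Z = 19/2048`. -/
def DC19 : List ℤ := [86426240, 224522496, 25034496, -264127104]
/-- The characters of the plane at `Z = 21/2048`. -/
def CC21 : List ℤ := [345449984, 897260544, 100082688, -1055467008]
/-- The row D of the plane at `Z = 21/2048`. -/
def DC21 : List ℤ := [86362496, 224315136, 25020672, -263866752]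
/-- The forms. -/
def zsT : List (List ℤ) :=
  [formFS Xs A0 CC5 40719 (-232) 6193152,
    formDS Xs DC5 1 11010048,
    formFS Xs A0 CC7 30741 (-210) 6193152,
    formDS Xs DC7 1 11010048,
    formFS Xs A0 CC10 14622 (-194) 6193152,
    formDS Xs DC10 1 11010048,
    formFS Xs A0 CC13 39 (-209) 6193152,
    formDS Xs DC13 1 11010048,
    formFS Xs A0 CC16 48 (-318) 6193152,
    formDS Xs DC16 1 11010048,
    formFS Xs A0 CC19 57 (-451) 6193152,
    formDS Xs DC19 1 11010048,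
    formFS Xs A0 CC21 63 (-553) 6193152,
    formDS Xs DC21 1 11010048]

theorem walkT_ok : formWalk cfgD (tableST cfgD Xs) 12 0 0 0 zsT = true := by decide +kernel

theorem formsT_ok {z : List ℤ} (hz : z ∈ zsT) {v r : ℝ} (hv0 : 0 ≤ v) (hv1 : v ≤ 1) (hr0 : 0 ≤ r)
    (hr1 : r ≤ 1) : 0 ≤ linV (tableSR Xs v r) z := by
  refine formsS_nonneg cfgD_valid hXs 12 0 zsT ?_ hz hv0 hv1 hr0 hr1
  intro i j hi hj
  have hi0 : i = 0 := by
    have : i < 1 := by simpa using hi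
    omega
  have hj0 : j = 0 := by
    have : j < 1 := by simpa using hj
    omega
  subst hi0 hj0
  exact walkT_ok

/-- The left side of a plane of the family, without the term in `Z^2`. -/
def famG (t Z : ℝ) (x : Fin 3 → ℝ) : ℝ :=
  83 / 24 * (1 - 3 / 4 * Z) / t ^ 2 * psi sA (-t) x + 9 * (1 - 15 / 16 * Z) / t ^ 2 * psi sB (-t) x
    + (1 - 9 / 16 * Z) / t ^ 2 * psi sD (-t) x - 339 / 32 * (1 - Z) / t ^ 2 * psi sZ (-t) x
    + 1 / 4096 * Z * yyv x

/-- A plane from its two rows. -/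
theorem node_plane {C Dd : List ℤ} {C0 E : ℤ} {Z mu e : ℝ}
    (hCD : ∀ j : Fin Xs.length, ((C.getD j 0 : ℤ) : ℝ) = 4 * ((Dd.getD j 0 : ℤ) : ℝ))
    (hC0 : (C0 : ℝ) / 25165824 = 1 / 4096 * Z + mu) (he : ((E : ℝ) - 1) / 25165824 = e)
    (h0' : ((C.getD (0 : Fin 4) 0 : ℤ) : ℝ) / 25165824 / 4 = 83 / 24 * (1 - 3 / 4 * Z))
    (h1' : ((C.getD (1 : Fin 4) 0 : ℤ) : ℝ) / 25165824 / 4 = 9 * (1 - 15 / 16 * Z))
    (h2' : ((C.getD (2 : Fin 4) 0 : ℤ) : ℝ) / 25165824 / 4 = 1 - 9 / 16 * Z)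
    (h3' : ((C.getD (3 : Fin 4) 0 : ℤ) : ℝ) / 25165824 / 4 = -(339 / 32 * (1 - Z)))
    (hlA : A0.length = Xs.length) (hlC : C.length = Xs.length) (hlD : Dd.length = Xs.length)
    (hF : formFS Xs A0 C C0 E 6193152 ∈ zsT) (hD : formDS Xs Dd 1 11010048 ∈ zsT)
    {t : ℝ} (ht0 : 3345 / 8192 ≤ t) (ht1 : t ≤ 1 / 2) {x : Fin 3 → ℝ} (hx : ∀ i, 0 < x i) :
    famG t Z x + mu * yyv x + e * mass x ≤ phiS x := by
  have hDr : (DD : ℝ) = 25165824 := by
    unfold DD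
    norm_num
  have main := plane_t_uniform3 Sx_adm (coef A0 DD Xs.length) (fun j => coef C DD Xs.length j / 4)
    (c0 := (C0 : ℝ) / DD) (e := ((E : ℝ) - 1) / DD) (η := 1 / DD) (ε₃ := 7 / 16) (H := 1) (H₃ := 9 / 16)
    (t0 := 3345 / 8192) (by norm_num) (by positivity) (by norm_num) (by norm_num) (by norm_num) ?_ ?_ ht0 ht1 hx
  · have hp : phiF (coef A0 DD Xs.length) Sx x = phiS x := phiF_eq x
    rw [hp] at main
    have hs : ∑ j : Fin Xs.length, (coef C DD Xs.length j / 4) / t ^ 2 * psi (Sx j) (-t) x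
        = ∑ j : Fin 4, (coef C DD Xs.length j / 4) / t ^ 2 * psi (Sx j) (-t) x := rfl
    rw [hs, Fin.sum_univ_four] at main
    have s0 : Sx (0 : Fin 4) = sA := rfl
    have s1 : Sx (1 : Fin 4) = sB := rfl
    have s2 : Sx (2 : Fin 4) = sD := rfl
    have s3 : Sx (3 : Fin 4) = sZ := rfl
    rw [s0, s1, s2, s3] at main
    have e0 : coef C DD Xs.length (0 : Fin 4) / 4 = 83 / 24 * (1 - 3 / 4 * Z) := by
      rw [← h0', ← hDr]
      rfl
    have e1 : coef C DD Xs.length (1 : Fin 4) / 4 = 9 * (1 - 15 / 16 * Z) := by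
      rw [← h1', ← hDr]
      rfl
    have e2 : coef C DD Xs.length (2 : Fin 4) / 4 = 1 - 9 / 16 * Z := by
      rw [← h2', ← hDr]
      rfl
    have e3 : coef C DD Xs.length (3 : Fin 4) / 4 = -(339 / 32 * (1 - Z)) := by
      rw [← h3', ← hDr]
      rfl
    rw [e0, e1, e2, e3, hDr, hC0, he] at main
    unfold famG
    rw [neg_div, neg_mul] at main
    linarith
  · intro y hy
    have h2 := rowFS_of_form hXs hlA hlC DD DD_pos
      (fun _ _ v0 v1 r0 r1 => formsT_ok hF v0 v1 r0 r1) y hy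
    have e1 : ∑ j, (4 * (coef C DD Xs.length j / 4)) * psi (Sx j) (-(1 / 2)) y
        = ∑ j, coef C DD Xs.length j * psi (expo Xs j) (-(1 / 2)) y := by
      refine Finset.sum_congr rfl fun j _ => ?_
      congr 1
      ring
    rw [e1]
    have e2 : ((E : ℝ) - 1) / DD + 1 * (1 / DD) = (E : ℝ) / DD := by
      ring
    rw [e2]
    have e3 : (9 / 16 : ℝ) * (7 / 16) = ((6193152 : ℤ) : ℝ) / DD := by
      rw [hDr]
      norm_num
    rw [e3]
    exact h2
  · intro y hy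
    have h2 := rowDS_of_form hXs hGs hlD (fun _ _ v0 v1 r0 r1 => formsT_ok hD v0 v1 r0 r1) y hy
    unfold rowD at h2
    have hpos : (0 : ℝ) ≤ 1 / DD := by positivity
    have h3 := mul_nonneg hpos h2
    have e1 : ∑ j, (coef C DD Xs.length j / 4) * Dj (Sx j) (T (-(1 / 2)) y)
        = (1 / DD) * ∑ j : Fin Xs.length, ((Dd.getD j 0 : ℤ) : ℝ) * Dj (sE (Xs.get j)) (T (-(1 / 2)) y) := by
      rw [Finset.mul_sum]
      refine Finset.sum_congr rfl fun j _ => ?_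
      show (((C.getD j 0 : ℤ) : ℝ) / DD / 4) * _ = _
      rw [hCD j]
      have : Sx j = sE (Xs.get j) := rfl
      rw [this]
      ring
    rw [e1]
    have e2 : (1 / (DD : ℝ)) * 11010048 = 7 / 16 := by
      rw [hDr]
      norm_num
    have e3 : (7 / 16 : ℝ) * cub y = (1 / DD) * (11010048 * cub y) := by
      rw [← e2]
      ring
    rw [e3]
    push_cast at h3
    have e4 : (1 / (DD : ℝ)) * ((∑ j : Fin Xs.length, ((Dd.getD j 0 : ℤ) : ℝ) * Dj (sE (Xs.get j)) (T (-(1 / 2)) y))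
        + 0 * yyv (T (-(1 / 2)) y) + 1 * mass y + 11010048 * cub y)
        = (1 / DD) * (∑ j : Fin Xs.length, ((Dd.getD j 0 : ℤ) : ℝ) * Dj (sE (Xs.get j)) (T (-(1 / 2)) y))
          + 1 / DD * mass y + 1 / DD * (11010048 * cub y) := by
      ring
    linarith

theorem node5 {t : ℝ} (ht0 : 3345 / 8192 ≤ t) (ht1 : t ≤ 1 / 2) {x : Fin 3 → ℝ} (hx : ∀ i, 0 < x i) :
    famG t (5 / 2048) x + (53 / 32768) * yyv x + (-233 / 25165824) * mass x ≤ phiS x := by
  refine node_plane (C := CC5) (Dd := DC5) (C0 := 40719) (E := -232) ?_ (by norm_num) (by norm_num)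
    (by norm_num [CC5]) (by norm_num [CC5]) (by norm_num [CC5]) (by norm_num [CC5])
    rfl rfl rfl (by simp [zsT]) (by simp [zsT]) ht0 ht1 hx
  have hj : ∀ j : Fin 4, ((CC5.getD j 0 : ℤ) : ℝ) = 4 * ((DC5.getD j 0 : ℤ) : ℝ) := by
    intro j
    fin_cases j <;> simp [CC5, DC5] <;> norm_num
  exact hj

theorem node7 {t : ℝ} (ht0 : 3345 / 8192 ≤ t) (ht1 : t ≤ 1 / 2) {x : Fin 3 → ℝ} (hx : ∀ i, 0 < x i) :
    famG t (7 / 2048) x + (40 / 32768) * yyv x + (-211 / 25165824) * mass x ≤ phiS x := by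
  refine node_plane (C := CC7) (Dd := DC7) (C0 := 30741) (E := -210) ?_ (by norm_num) (by norm_num)
    (by norm_num [CC7]) (by norm_num [CC7]) (by norm_num [CC7]) (by norm_num [CC7])
    rfl rfl rfl (by simp [zsT]) (by simp [zsT]) ht0 ht1 hx
  have hj : ∀ j : Fin 4, ((CC7.getD j 0 : ℤ) : ℝ) = 4 * ((DC7.getD j 0 : ℤ) : ℝ) := by
    intro j
    fin_cases j <;> simp [CC7, DC7] <;> norm_num
  exact hj

theorem node10 {t : ℝ} (ht0 : 3345 / 8192 ≤ t) (ht1 : t ≤ 1 / 2) {x : Fin 3 → ℝ} (hx : ∀ i, 0 < x i) :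
    famG t (10 / 2048) x + (19 / 32768) * yyv x + (-195 / 25165824) * mass x ≤ phiS x := by
  refine node_plane (C := CC10) (Dd := DC10) (C0 := 14622) (E := -194) ?_ (by norm_num) (by norm_num)
    (by norm_num [CC10]) (by norm_num [CC10]) (by norm_num [CC10]) (by norm_num [CC10])
    rfl rfl rfl (by simp [zsT]) (by simp [zsT]) ht0 ht1 hx
  have hj : ∀ j : Fin 4, ((CC10.getD j 0 : ℤ) : ℝ) = 4 * ((DC10.getD j 0 : ℤ) : ℝ) := by
    intro j
    fin_cases j <;> simp [CC10, DC10] <;> norm_num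
  exact hj

theorem node13 {t : ℝ} (ht0 : 3345 / 8192 ≤ t) (ht1 : t ≤ 1 / 2) {x : Fin 3 → ℝ} (hx : ∀ i, 0 < x i) :
    famG t (13 / 2048) x + (0 / 32768) * yyv x + (-210 / 25165824) * mass x ≤ phiS x := by
  refine node_plane (C := CC13) (Dd := DC13) (C0 := 39) (E := -209) ?_ (by norm_num) (by norm_num)
    (by norm_num [CC13]) (by norm_num [CC13]) (by norm_num [CC13]) (by norm_num [CC13])
    rfl rfl rfl (by simp [zsT]) (by simp [zsT]) ht0 ht1 hx
  have hj : ∀ j : Fin 4, ((CC13.getD j 0 : ℤ) : ℝ) = 4 * ((DC13.getD j 0 : ℤ) : ℝ) := by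
    intro j
    fin_cases j <;> simp [CC13, DC13] <;> norm_num
  exact hj

theorem node16 {t : ℝ} (ht0 : 3345 / 8192 ≤ t) (ht1 : t ≤ 1 / 2) {x : Fin 3 → ℝ} (hx : ∀ i, 0 < x i) :
    famG t (16 / 2048) x + (0 / 32768) * yyv x + (-319 / 25165824) * mass x ≤ phiS x := by
  refine node_plane (C := CC16) (Dd := DC16) (C0 := 48) (E := -318) ?_ (by norm_num) (by norm_num)
    (by norm_num [CC16]) (by norm_num [CC16]) (by norm_num [CC16]) (by norm_num [CC16])
    rfl rfl rfl (by simp [zsT]) (by simp [zsT]) ht0 ht1 hx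
  have hj : ∀ j : Fin 4, ((CC16.getD j 0 : ℤ) : ℝ) = 4 * ((DC16.getD j 0 : ℤ) : ℝ) := by
    intro j
    fin_cases j <;> simp [CC16, DC16] <;> norm_num
  exact hj

theorem node19 {t : ℝ} (ht0 : 3345 / 8192 ≤ t) (ht1 : t ≤ 1 / 2) {x : Fin 3 → ℝ} (hx : ∀ i, 0 < x i) :
    famG t (19 / 2048) x + (0 / 32768) * yyv x + (-452 / 25165824) * mass x ≤ phiS x := by
  refine node_plane (C := CC19) (Dd := DC19) (C0 := 57) (E := -451) ?_ (by norm_num) (by norm_num)
    (by norm_num [CC19]) (by norm_num [CC19]) (by norm_num [CC19]) (by norm_num [CC19])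
    rfl rfl rfl (by simp [zsT]) (by simp [zsT]) ht0 ht1 hx
  have hj : ∀ j : Fin 4, ((CC19.getD j 0 : ℤ) : ℝ) = 4 * ((DC19.getD j 0 : ℤ) : ℝ) := by
    intro j
    fin_cases j <;> simp [CC19, DC19] <;> norm_num
  exact hj

theorem node21 {t : ℝ} (ht0 : 3345 / 8192 ≤ t) (ht1 : t ≤ 1 / 2) {x : Fin 3 → ℝ} (hx : ∀ i, 0 < x i) :
    famG t (21 / 2048) x + (0 / 32768) * yyv x + (-554 / 25165824) * mass x ≤ phiS x := by
  refine node_plane (C := CC21) (Dd := DC21) (C0 := 63) (E := -553) ?_ (by norm_num) (by norm_num)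
    (by norm_num [CC21]) (by norm_num [CC21]) (by norm_num [CC21]) (by norm_num [CC21])
    rfl rfl rfl (by simp [zsT]) (by simp [zsT]) ht0 ht1 hx
  have hj : ∀ j : Fin 4, ((CC21.getD j 0 : ℤ) : ℝ) = 4 * ((DC21.getD j 0 : ℤ) : ℝ) := by
    intro j
    fin_cases j <;> simp [CC21, DC21] <;> norm_num
  exact hj

/-- The family is affine in `Z`. -/
lemma famG_affine (t l Z1 Z2 : ℝ) (x : Fin 3 → ℝ) :
    famG t ((1 - l) * Z1 + l * Z2) x = (1 - l) * famG t Z1 x + l * famG t Z2 x := by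
  unfold famG
  ring

/-- Interpolation between two planes, in the far zone. -/
lemma interp {t Z1 Z2 E1 E2 Z : ℝ} {x : Fin 3 → ℝ} (hx : ∀ i, 0 < x i)
    (h1 : famG t Z1 x ≤ phiS x + E1 * mass x) (h2 : famG t Z2 x ≤ phiS x + E2 * mass x)
    (hlt : Z1 < Z2) (hZ1 : Z1 ≤ Z) (hZ2 : Z ≤ Z2)
    (hq : (Z2 - Z) / (Z2 - Z1) * E1 + (Z - Z1) / (Z2 - Z1) * E2 ≤ 21 / 100 * Z ^ 2) :
    famL t Z x ≤ phiS x := by
  have hm := mass_pos hx
  have hd : 0 < Z2 - Z1 := by linarith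
  set l := (Z - Z1) / (Z2 - Z1) with hl
  have hl1 : (Z2 - Z) / (Z2 - Z1) = 1 - l := by
    rw [hl]
    field_simp
    ring
  rw [hl1] at hq
  have hl0 : 0 ≤ l := div_nonneg (by linarith) hd.le
  have hl2 : l ≤ 1 := by
    rw [hl, div_le_one hd]
    linarith
  have hZ : Z = (1 - l) * Z1 + l * Z2 := by
    rw [hl]
    field_simp
    ring
  have e1 : famL t Z x = famG t Z x - 21 / 100 * Z ^ 2 * mass x := by
    unfold famL famG
    ring
  have e2 : famG t Z x = (1 - l) * famG t Z1 x + l * famG t Z2 x := by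
    conv_lhs => rw [hZ]
    exact famG_affine t l Z1 Z2 x
  have k1 := mul_le_mul_of_nonneg_left h1 (sub_nonneg.mpr hl2)
  have k2 := mul_le_mul_of_nonneg_left h2 hl0
  have k3 := mul_le_mul_of_nonneg_right hq hm.le
  rw [e1, e2]
  nlinarith

lemma far5 {t : ℝ} (ht0 : 3345 / 8192 ≤ t) (ht1 : t ≤ 1 / 2) {x : Fin 3 → ℝ} (hx : ∀ i, 0 < x i)
    (hA : 1 / 200 ≤ AA (nrm x)) : famG t (5 / 2048) x ≤ phiS x + (30 / 25165824) * mass x := by
  have h := node5 ht0 ht1 hx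
  have hm := mass_pos hx
  have hyy := yyv_nrm hx
  have hbig : mass x * (1 / 200) ≤ yyv x := by
    rw [hyy]
    exact mul_le_mul_of_nonneg_left hA hm.le
  nlinarith

lemma far7 {t : ℝ} (ht0 : 3345 / 8192 ≤ t) (ht1 : t ≤ 1 / 2) {x : Fin 3 → ℝ} (hx : ∀ i, 0 < x i)
    (hA : 1 / 200 ≤ AA (nrm x)) : famG t (7 / 2048) x ≤ phiS x + (58 / 25165824) * mass x := by
  have h := node7 ht0 ht1 hx
  have hm := mass_pos hx
  have hyy := yyv_nrm hx
  have hbig : mass x * (1 / 200) ≤ yyv x := by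
    rw [hyy]
    exact mul_le_mul_of_nonneg_left hA hm.le
  nlinarith

lemma far10 {t : ℝ} (ht0 : 3345 / 8192 ≤ t) (ht1 : t ≤ 1 / 2) {x : Fin 3 → ℝ} (hx : ∀ i, 0 < x i)
    (hA : 1 / 200 ≤ AA (nrm x)) : famG t (10 / 2048) x ≤ phiS x + (123 / 25165824) * mass x := by
  have h := node10 ht0 ht1 hx
  have hm := mass_pos hx
  have hyy := yyv_nrm hx
  have hbig : mass x * (1 / 200) ≤ yyv x := by
    rw [hyy]
    exact mul_le_mul_of_nonneg_left hA hm.le
  nlinarith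

lemma far13 {t : ℝ} (ht0 : 3345 / 8192 ≤ t) (ht1 : t ≤ 1 / 2) {x : Fin 3 → ℝ} (hx : ∀ i, 0 < x i)
    (hA : 1 / 200 ≤ AA (nrm x)) : famG t (13 / 2048) x ≤ phiS x + (210 / 25165824) * mass x := by
  have h := node13 ht0 ht1 hx
  have hm := mass_pos hx
  have hyy := yyv_nrm hx
  have hbig : mass x * (1 / 200) ≤ yyv x := by
    rw [hyy]
    exact mul_le_mul_of_nonneg_left hA hm.le
  nlinarith

lemma far16 {t : ℝ} (ht0 : 3345 / 8192 ≤ t) (ht1 : t ≤ 1 / 2) {x : Fin 3 → ℝ} (hx : ∀ i, 0 < x i)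
    (hA : 1 / 200 ≤ AA (nrm x)) : famG t (16 / 2048) x ≤ phiS x + (319 / 25165824) * mass x := by
  have h := node16 ht0 ht1 hx
  have hm := mass_pos hx
  have hyy := yyv_nrm hx
  have hbig : mass x * (1 / 200) ≤ yyv x := by
    rw [hyy]
    exact mul_le_mul_of_nonneg_left hA hm.le
  nlinarith

lemma far19 {t : ℝ} (ht0 : 3345 / 8192 ≤ t) (ht1 : t ≤ 1 / 2) {x : Fin 3 → ℝ} (hx : ∀ i, 0 < x i)
    (hA : 1 / 200 ≤ AA (nrm x)) : famG t (19 / 2048) x ≤ phiS x + (452 / 25165824) * mass x := by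
  have h := node19 ht0 ht1 hx
  have hm := mass_pos hx
  have hyy := yyv_nrm hx
  have hbig : mass x * (1 / 200) ≤ yyv x := by
    rw [hyy]
    exact mul_le_mul_of_nonneg_left hA hm.le
  nlinarith

lemma far21 {t : ℝ} (ht0 : 3345 / 8192 ≤ t) (ht1 : t ≤ 1 / 2) {x : Fin 3 → ℝ} (hx : ∀ i, 0 < x i)
    (hA : 1 / 200 ≤ AA (nrm x)) : famG t (21 / 2048) x ≤ phiS x + (554 / 25165824) * mass x := by
  have h := node21 ht0 ht1 hx
  have hm := mass_pos hx
  have hyy := yyv_nrm hx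
  have hbig : mass x * (1 / 200) ≤ yyv x := by
    rw [hyy]
    exact mul_le_mul_of_nonneg_left hA hm.le
  nlinarith

lemma iv5 {t Z : ℝ} (ht0 : 3345 / 8192 ≤ t) (ht1 : t ≤ 1 / 2) {x : Fin 3 → ℝ} (hx : ∀ i, 0 < x i)
    (hA : 1 / 200 ≤ AA (nrm x)) (h1 : 5 / 2048 ≤ Z) (h2 : Z ≤ 7 / 2048) : famL t Z x ≤ phiS x := by
  refine interp hx (far5 ht0 ht1 hx hA) (far7 ht0 ht1 hx hA) (by norm_num) h1 h2 ?_
  have e : (((7 : ℝ) / 2048 - Z) / ((7 : ℝ) / 2048 - 5 / 2048) * (30 / 25165824)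
      + (Z - 5 / 2048) / ((7 : ℝ) / 2048 - 5 / 2048) * (58 / 25165824))
      = (7 / 2048 - Z) * (2048 / 2) * (30 / 25165824) + (Z - 5 / 2048) * (2048 / 2) * (58 / 25165824) := by
    norm_num
    ring
  rw [e]
  nlinarith [sq_nonneg (Z - ((5 + 7) / 4096 : ℝ))]

lemma iv7 {t Z : ℝ} (ht0 : 3345 / 8192 ≤ t) (ht1 : t ≤ 1 / 2) {x : Fin 3 → ℝ} (hx : ∀ i, 0 < x i)
    (hA : 1 / 200 ≤ AA (nrm x)) (h1 : 7 / 2048 ≤ Z) (h2 : Z ≤ 10 / 2048) : famL t Z x ≤ phiS x := by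
  refine interp hx (far7 ht0 ht1 hx hA) (far10 ht0 ht1 hx hA) (by norm_num) h1 h2 ?_
  have e : (((10 : ℝ) / 2048 - Z) / ((10 : ℝ) / 2048 - 7 / 2048) * (58 / 25165824)
      + (Z - 7 / 2048) / ((10 : ℝ) / 2048 - 7 / 2048) * (123 / 25165824))
      = (10 / 2048 - Z) * (2048 / 3) * (58 / 25165824) + (Z - 7 / 2048) * (2048 / 3) * (123 / 25165824) := by
    norm_num
    ring
  rw [e]
  nlinarith [sq_nonneg (Z - ((7 + 10) / 4096 : ℝ))]

lemma iv10 {t Z : ℝ} (ht0 : 3345 / 8192 ≤ t) (ht1 : t ≤ 1 / 2) {x : Fin 3 → ℝ} (hx : ∀ i, 0 < x i)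
    (hA : 1 / 200 ≤ AA (nrm x)) (h1 : 10 / 2048 ≤ Z) (h2 : Z ≤ 13 / 2048) : famL t Z x ≤ phiS x := by
  refine interp hx (far10 ht0 ht1 hx hA) (far13 ht0 ht1 hx hA) (by norm_num) h1 h2 ?_
  have e : (((13 : ℝ) / 2048 - Z) / ((13 : ℝ) / 2048 - 10 / 2048) * (123 / 25165824)
      + (Z - 10 / 2048) / ((13 : ℝ) / 2048 - 10 / 2048) * (210 / 25165824))
      = (13 / 2048 - Z) * (2048 / 3) * (123 / 25165824) + (Z - 10 / 2048) * (2048 / 3) * (210 / 25165824) := by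
    norm_num
    ring
  rw [e]
  nlinarith [sq_nonneg (Z - ((10 + 13) / 4096 : ℝ))]

lemma iv13 {t Z : ℝ} (ht0 : 3345 / 8192 ≤ t) (ht1 : t ≤ 1 / 2) {x : Fin 3 → ℝ} (hx : ∀ i, 0 < x i)
    (hA : 1 / 200 ≤ AA (nrm x)) (h1 : 13 / 2048 ≤ Z) (h2 : Z ≤ 16 / 2048) : famL t Z x ≤ phiS x := by
  refine interp hx (far13 ht0 ht1 hx hA) (far16 ht0 ht1 hx hA) (by norm_num) h1 h2 ?_
  have e : (((16 : ℝ) / 2048 - Z) / ((16 : ℝ) / 2048 - 13 / 2048) * (210 / 25165824)
      + (Z - 13 / 2048) / ((16 : ℝ) / 2048 - 13 / 2048) * (319 / 25165824))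
      = (16 / 2048 - Z) * (2048 / 3) * (210 / 25165824) + (Z - 13 / 2048) * (2048 / 3) * (319 / 25165824) := by
    norm_num
    ring
  rw [e]
  nlinarith [sq_nonneg (Z - ((13 + 16) / 4096 : ℝ))]

lemma iv16 {t Z : ℝ} (ht0 : 3345 / 8192 ≤ t) (ht1 : t ≤ 1 / 2) {x : Fin 3 → ℝ} (hx : ∀ i, 0 < x i)
    (hA : 1 / 200 ≤ AA (nrm x)) (h1 : 16 / 2048 ≤ Z) (h2 : Z ≤ 19 / 2048) : famL t Z x ≤ phiS x := by
  refine interp hx (far16 ht0 ht1 hx hA) (far19 ht0 ht1 hx hA) (by norm_num) h1 h2 ?_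
  have e : (((19 : ℝ) / 2048 - Z) / ((19 : ℝ) / 2048 - 16 / 2048) * (319 / 25165824)
      + (Z - 16 / 2048) / ((19 : ℝ) / 2048 - 16 / 2048) * (452 / 25165824))
      = (19 / 2048 - Z) * (2048 / 3) * (319 / 25165824) + (Z - 16 / 2048) * (2048 / 3) * (452 / 25165824) := by
    norm_num
    ring
  rw [e]
  nlinarith [sq_nonneg (Z - ((16 + 19) / 4096 : ℝ))]

lemma iv19 {t Z : ℝ} (ht0 : 3345 / 8192 ≤ t) (ht1 : t ≤ 1 / 2) {x : Fin 3 → ℝ} (hx : ∀ i, 0 < x i)
    (hA : 1 / 200 ≤ AA (nrm x)) (h1 : 19 / 2048 ≤ Z) (h2 : Z ≤ 21 / 2048) : famL t Z x ≤ phiS x := by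
  refine interp hx (far19 ht0 ht1 hx hA) (far21 ht0 ht1 hx hA) (by norm_num) h1 h2 ?_
  have e : (((21 : ℝ) / 2048 - Z) / ((21 : ℝ) / 2048 - 19 / 2048) * (452 / 25165824)
      + (Z - 19 / 2048) / ((21 : ℝ) / 2048 - 19 / 2048) * (554 / 25165824))
      = (21 / 2048 - Z) * (2048 / 2) * (452 / 25165824) + (Z - 19 / 2048) * (2048 / 2) * (554 / 25165824) := by
    norm_num
    ring
  rw [e]
  nlinarith [sq_nonneg (Z - ((19 + 21) / 4096 : ℝ))]

/-- **The small-`z` family up to `21/2048`**. -/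
theorem small_family' {t Z : ℝ} (h0 : 3345 / 8192 ≤ t) (h1 : t ≤ 1 / 2) (hZ0 : 0 ≤ Z) (hZ1 : Z ≤ 21 / 2048)
    {x : Fin 3 → ℝ} (hx : ∀ i, 0 < x i) : famL t Z x ≤ phiS x := by
  rcases le_total (AA (nrm x)) (1 / 200) with hA | hA
  · exact near_fam hx (by linarith) h1 (by linarith) hA
  · rcases le_total Z (5 / 2048) with h5 | h5
    · exact far_fam h0 h1 hZ0 h5 hx hA
    · rcases le_total Z (7 / 2048) with h7 | h7
      · exact iv5 h0 h1 hx hA h5 h7
      · rcases le_total Z (10 / 2048) with h10 | h10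
        · exact iv7 h0 h1 hx hA h7 h10
        · rcases le_total Z (13 / 2048) with h13 | h13
          · exact iv10 h0 h1 hx hA h10 h13
          · rcases le_total Z (16 / 2048) with h16 | h16
            · exact iv13 h0 h1 hx hA h13 h16
            · rcases le_total Z (19 / 2048) with h19 | h19
              · exact iv16 h0 h1 hx hA h16 h19
              · exact iv19 h0 h1 hx hA h19 hZ1

/-- **The small-`z` family up to `1/100`**. -/
theorem small_family_100 {t Z : ℝ} (h0 : 3345 / 8192 ≤ t) (h1 : t ≤ 1 / 2) (hZ0 : 0 ≤ Z) (hZ1 : Z ≤ 1 / 100)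
    {x : Fin 3 → ℝ} (hx : ∀ i, 0 < x i) : famL t Z x ≤ phiS x :=
  small_family' h0 h1 hZ0 (by linarith) hx

end

end Vale.Agent.P154.Hel.Small
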