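import Vale.Agent.P154.Hel.Tree

/-!
The Hellinger Lyapunov method on the Poisson Galton-Watson tree.
-/

namespace Vale.Agent.P154

namespace Hel

noncomputable section

open Finset Filter Topology

section Lin

variable {X ι : Type*} [Fintype ι] {p : X → ℝ}

theorem E1_sum (hp0 : ∀ x, 0 ≤ p x) (hp : HasSum p 1) (c : ι → ℝ) (f : ι → X → ℝ)
    (hf : ∀ j x, |f j x| ≤ 1) :
    E1 p (fun x => ∑ j, c j * f j x) = ∑ j, c j * E1 p (f j) := by
  unfold E1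
  simp only [Finset.mul_sum]
  rw [Summable.tsum_finsetSum]
  · refine Finset.sum_congr rfl fun j _ => ?_
    rw [← tsum_mul_left]
    refine tsum_congr fun x => ?_
    ring
  · intro j _
    have := (E1_summable hp0 hp (hf j)).mul_left (c j)
    refine this.congr fun x => ?_
    ring

theorem abs_lin_le (c : ι → ℝ) (c0 e : ℝ) (f : ι → ℝ) (g : ℝ) (hf : ∀ j, |f j| ≤ 1) (hg : |g| ≤ 1) :
    |∑ j, c j * f j + c0 * g + e| ≤ ∑ j, |c j| + |c0| + |e| := by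
  refine (abs_add_le _ _).trans (add_le_add ((abs_add_le _ _).trans (add_le_add ?_ ?_)) le_rfl)
  · refine (Finset.abs_sum_le_sum_abs _ _).trans (Finset.sum_le_sum fun j _ => ?_)
    rw [abs_mul]
    exact mul_le_of_le_one_right (abs_nonneg _) (hf j)
  · rw [abs_mul]
    exact mul_le_of_le_one_right (abs_nonneg _) hg

theorem E1_lin (hp0 : ∀ x, 0 ≤ p x) (hp : HasSum p 1) (c : ι → ℝ) (c0 e : ℝ) (f : ι → X → ℝ)
    (g : X → ℝ) (hf : ∀ j x, |f j x| ≤ 1) (hg : ∀ x, |g x| ≤ 1) :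
    E1 p (fun x => ∑ j, c j * f j x + c0 * g x + e)
      = ∑ j, c j * E1 p (f j) + c0 * E1 p g + e := by
  have b1 : ∀ x, |∑ j, c j * f j x| ≤ ∑ j, |c j| := fun x => by
    refine (Finset.abs_sum_le_sum_abs _ _).trans (Finset.sum_le_sum fun j _ => ?_)
    rw [abs_mul]
    exact mul_le_of_le_one_right (abs_nonneg _) (hf j x)
  have b2 : ∀ x, |c0 * g x| ≤ |c0| := fun x => by
    rw [abs_mul]
    exact mul_le_of_le_one_right (abs_nonneg _) (hg x)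
  rw [E1_add hp0 hp (C := ∑ j, |c j| + |c0|) (D := |e|)
    (fun x => (abs_add_le _ _).trans (add_le_add (b1 x) (b2 x))) (fun _ => le_rfl),
    E1_add hp0 hp b1 b2, E1_sum hp0 hp c f hf, E1_const_mul, E1_const hp]

theorem E1_one_sub (hp0 : ∀ x, 0 ≤ p x) (hp : HasSum p 1) (h : X → ℝ) (hh : ∀ x, |h x| ≤ 1) :
    E1 p (fun x => 1 - h x) = 1 - E1 p h := by
  have b : ∀ x, |(-1) * h x| ≤ 1 := fun x => by
    rw [abs_mul]
    simpa using hh x
  have e : (fun x => 1 - h x) = fun x => (-1) * h x + 1 := by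
    funext x
    ring
  rw [e, E1_add hp0 hp (C := 1) (D := |(1 : ℝ)|) b (fun _ => le_rfl), E1_const hp, E1_const_mul]
  ring

end Lin

theorem isLawN_Lt {lam : ℝ} (h0 : -(1 / 2) ≤ lam) (h1 : lam ≤ 1) {n : ℕ} (T : DTree n) :
    IsLawN (Lt lam T) := by
  induction T with
  | leaf => exact isLawN_delta
  | node k child ih =>
    rw [Lt_node]
    exact IsLawN.pi fun c => (ih c).chan h0 h1

/-- The quantity `treeA` in terms of a nonnegative law. -/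
theorem treeA_eqN {lam : ℝ} {n : ℕ} (T : DTree n) (hL : IsLawN (Lt lam T)) :
    T.treeA 3 lam = ∑ τ, (1 / 6) *
      (|Lt lam T τ 0 - (Lt lam T τ 0 + Lt lam T τ 1 + Lt lam T τ 2) / 3|
      + |Lt lam T τ 1 - (Lt lam T τ 0 + Lt lam T τ 1 + Lt lam T τ 2) / 3|
      + |Lt lam T τ 2 - (Lt lam T τ 0 + Lt lam T τ 1 + Lt lam T τ 2) / 3|) := by
  unfold DTree.treeA
  refine Finset.sum_congr rfl fun τ _ => ?_
  have p0 := hL.nonneg τ 0
  have p1 := hL.nonneg τ 1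
  have p2 := hL.nonneg τ 2
  unfold Lt at p0 p1 p2 ⊢
  obtain ⟨x0, hx0⟩ : ∃ x, x = DTree.lik 3 lam T 0 τ := ⟨_, rfl⟩
  obtain ⟨x1, hx1⟩ : ∃ x, x = DTree.lik 3 lam T 1 τ := ⟨_, rfl⟩
  obtain ⟨x2, hx2⟩ : ∃ x, x = DTree.lik 3 lam T 2 τ := ⟨_, rfl⟩
  have hs : DTree.spinProb 3 lam T τ = (x0 + x1 + x2) / 3 := by
    unfold DTree.spinProb
    rw [Fin.sum_univ_three, ← hx0, ← hx1, ← hx2]
    push_cast
    ring
  rw [hs, Fin.sum_univ_three, ← hx0, ← hx1, ← hx2]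
  rw [← hx0] at p0
  rw [← hx1] at p1
  rw [← hx2] at p2
  obtain ⟨s, hss⟩ : ∃ s, s = (x0 + x1 + x2) / 3 := ⟨_, rfl⟩
  rw [← hss]
  by_cases hs0' : s = 0
  · have e0 : x0 = 0 := by linarith
    have e1 : x1 = 0 := by linarith
    have e2 : x2 = 0 := by linarith
    subst e0 e1 e2
    rw [hs0']
    simp
  have hs0 : 0 < s := by
    refine lt_of_le_of_ne ?_ (Ne.symm hs0')
    rw [hss]
    positivity
  have key : ∀ x : ℝ, s * |(1 / ((3 : ℕ) : ℝ)) * x / s - 1 / ((3 : ℕ) : ℝ)| = (1 / 3) * |x - s| := by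
    intro x
    have e : (1 / ((3 : ℕ) : ℝ)) * x / s - 1 / ((3 : ℕ) : ℝ) = (x - s) * (1 / (3 * s)) := by
      push_cast
      field_simp
    rw [e, abs_mul, abs_of_pos (by positivity : 0 < 1 / (3 * s))]
    field_simp
  have e3 : s * ((1 / 2) * (|(1 / ((3 : ℕ) : ℝ)) * x0 / s - 1 / ((3 : ℕ) : ℝ)|
      + |(1 / ((3 : ℕ) : ℝ)) * x1 / s - 1 / ((3 : ℕ) : ℝ)|
      + |(1 / ((3 : ℕ) : ℝ)) * x2 / s - 1 / ((3 : ℕ) : ℝ)|))
      = (1 / 2) * (s * |(1 / ((3 : ℕ) : ℝ)) * x0 / s - 1 / ((3 : ℕ) : ℝ)|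
      + s * |(1 / ((3 : ℕ) : ℝ)) * x1 / s - 1 / ((3 : ℕ) : ℝ)|
      + s * |(1 / ((3 : ℕ) : ℝ)) * x2 / s - 1 / ((3 : ℕ) : ℝ)|) := by ring
  rw [e3, key, key, key]
  ring

section Bounds

variable {lam : ℝ}

theorem abs_one_sub_Ht {Ω : Type*} [Fintype Ω] {L : Ω → Fin 3 → ℝ} (hL : IsLawN L)
    {s : Fin 3 → ℝ} (hs : AdmS s) : |1 - Ht s L| ≤ 1 := by
  have h1 := hL.Ht_nonneg s
  have h2 := hL.Ht_le_one hs
  rw [abs_le]
  constructor <;> linarith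

theorem abs_Ht_le {Ω : Type*} [Fintype Ω] {L : Ω → Fin 3 → ℝ} (hL : IsLawN L)
    {s : Fin 3 → ℝ} (hs : AdmS s) : |Ht s L| ≤ 1 := by
  rw [abs_of_nonneg (hL.Ht_nonneg s)]
  exact hL.Ht_le_one hs

/-- Mean of the Hellinger defect. -/
def xbarH (w : ℕ → ℝ) (lam : ℝ) (s : Fin 3 → ℝ) (n : ℕ) : ℝ :=
  E1 (fun T : DTree n => T.prob w) (fun T => 1 - Ht s (Lt lam T))

/-- Mean of the Hellinger defect after the channel. -/
def ybarH (w : ℕ → ℝ) (lam : ℝ) (s : Fin 3 → ℝ) (n : ℕ) : ℝ :=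
  E1 (fun T : DTree n => T.prob w) (fun T => 1 - Ht s (chanLaw lam (Lt lam T)))

/-- Mean of the second moment functional. -/
def YbarH (w : ℕ → ℝ) (lam : ℝ) (n : ℕ) : ℝ :=
  E1 (fun T : DTree n => T.prob w) (fun T => YY (Lt lam T))

/-- The one step recursion for the Hellinger defect on the Poisson tree. -/
theorem xbarH_succ {d : ℝ} (hd : 0 ≤ d) (h0 : -(1 / 2) ≤ lam) (h1 : lam ≤ 1) {s : Fin 3 → ℝ}
    (hs : AdmS s) (n : ℕ) :
    xbarH (poissonWeight d) lam s (n + 1)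
      = 1 - Real.exp (-(d * ybarH (poissonWeight d) lam s n)) := by
  have hw0 := poisson_nonneg hd
  have hw := poisson_hasSum d
  obtain ⟨p, hpd⟩ : ∃ p : DTree n → ℝ, p = fun T => T.prob (poissonWeight d) := ⟨_, rfl⟩
  have hp : HasSum p 1 := by rw [hpd]; exact prob_hasSum hw0 hw n
  have hp0 : ∀ T, 0 ≤ p T := fun T => by rw [hpd]; exact prob_nonneg hw0 T
  have hp1 := prob_hasSum hw0 hw (n + 1)
  have hp10 : ∀ T : DTree (n + 1), 0 ≤ T.prob (poissonWeight d) := prob_nonneg hw0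
  have hb : ∀ T : DTree (n + 1), |Ht s (Lt lam T)| ≤ 1 :=
    fun T => abs_Ht_le (isLawN_Lt h0 h1 T) hs
  have hbh : ∀ T : DTree n, |Ht s (chanLaw lam (Lt lam T))| ≤ 1 :=
    fun T => abs_Ht_le ((isLawN_Lt h0 h1 T).chan h0 h1) hs
  unfold xbarH ybarH
  rw [E1_one_sub hp10 hp1 _ hb, E1_one_sub (fun T => prob_nonneg hw0 T) (prob_hasSum hw0 hw n) _ hbh,
    E1_succ hw0 hw hb, ← hpd]
  obtain ⟨q, hq⟩ : ∃ q, q = E1 p fun T => Ht s (chanLaw lam (Lt lam T)) := ⟨_, rfl⟩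
  have hk : ∀ k : ℕ, Ek p k (fun t => Ht s (Lt lam (DTree.node k t))) = q ^ k := by
    intro k
    rw [hq, ← Ek_prod hp0 hp hbh k]
    congr 1
    funext t
    rw [Lt_node]
    exact Ht_pi s (fun c => ((isLawN_Lt h0 h1 (t c)).chan h0 h1).nonneg)
  simp only [hk]
  have hq' : E1 (DTree.prob (poissonWeight d)) (fun x : DTree n => Ht s (chanLaw lam (Lt lam x)))
      = q := by
    rw [hq, hpd]
  rw [(poisson_gen d q).tsum_eq, ← Real.exp_add, hq']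
  congr 2
  ring

theorem abs_xbarH_le {w : ℕ → ℝ} (hw0 : ∀ k, 0 ≤ w k) (hw : HasSum w 1) (h0 : -(1 / 2) ≤ lam)
    (h1 : lam ≤ 1) {s : Fin 3 → ℝ} (hs : AdmS s) (n : ℕ) : |xbarH w lam s n| ≤ 1 :=
  abs_E1_le (prob_nonneg hw0) (prob_hasSum hw0 hw n)
    (fun T => abs_one_sub_Ht (isLawN_Lt h0 h1 T) hs)

theorem YbarH_nonneg {w : ℕ → ℝ} (hw0 : ∀ k, 0 ≤ w k) (h0 : -(1 / 2) ≤ lam) (h1 : lam ≤ 1)
    (n : ℕ) : 0 ≤ YbarH w lam n :=
  tsum_nonneg fun T => mul_nonneg (prob_nonneg hw0 T) (isLawN_Lt h0 h1 T).YY_nonneg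

/-- The means lie in the hull. -/
theorem hull_bar {ι : Type*} [Fintype ι] {w : ℕ → ℝ} (hw0 : ∀ k, 0 ≤ w k) (hw : HasSum w 1)
    {s : ι → Fin 3 → ℝ} (hs : ∀ j, AdmS (s j)) (h0 : -(1 / 2) ≤ lam) (h1 : lam ≤ 1) (n : ℕ) :
    HullY s lam (fun j => ybarH w lam (s j) n) (YbarH w lam n) := by
  intro c c0 e hce
  have hp0 : ∀ T : DTree n, 0 ≤ T.prob w := prob_nonneg hw0
  have hp := prob_hasSum hw0 hw n
  have hf : ∀ (j : ι) (T : DTree n), |1 - Ht (s j) (chanLaw lam (Lt lam T))| ≤ 1 :=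
    fun j T => abs_one_sub_Ht ((isLawN_Lt h0 h1 T).chan h0 h1) (hs j)
  have hg : ∀ T : DTree n, |YY (Lt lam T)| ≤ 1 := fun T => (isLawN_Lt h0 h1 T).abs_YY_le
  have hle : ∀ T : DTree n,
      ∑ j, c j * (1 - Ht (s j) (chanLaw lam (Lt lam T))) + c0 * YY (Lt lam T) + 0 ≤ e := by
    intro T
    have := (isLawN_Lt h0 h1 T).hull hs h0 h1 c c0 e hce
    simpa using this
  have hE := E1_mono hp0 hp (g := fun T : DTree n =>
      ∑ j, c j * (1 - Ht (s j) (chanLaw lam (Lt lam T))) + c0 * YY (Lt lam T) + 0)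
    (h := fun _ => e) (C := ∑ j, |c j| + |c0| + |(0 : ℝ)|) (D := |e|)
    (fun T => abs_lin_le c c0 0 _ _ (fun j => hf j T) (hg T)) (fun _ => le_rfl) hle
  rw [E1_lin hp0 hp c c0 0 _ _ hf hg, E1_const hp] at hE
  simpa [ybarH, YbarH] using hE

/-- The key inequality in the mean. -/
theorem key_bar {ι : Type*} [Fintype ι] {w' : ℕ → ℝ} (hw0 : ∀ k, 0 ≤ w' k) (hw : HasSum w' 1)
    {w : ι → ℝ} {s : ι → Fin 3 → ℝ} (hs : ∀ j, AdmS (s j)) (h0 : -(1 / 2) ≤ lam) (h1 : lam ≤ 1)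
    (n : ℕ) {c : ι → ℝ} {c0 e : ℝ}
    (hk : ∀ x : Fin 3 → ℝ, (∀ i, 0 < x i) →
      ∑ j, c j * psi (s j) lam x + c0 * yyv x + e * mass x ≤ phiF w s x) :
    ∑ j, c j * ybarH w' lam (s j) n + c0 * YbarH w' lam n + e
      ≤ ∑ j, w j * xbarH w' lam (s j) n := by
  have hp0 : ∀ T : DTree n, 0 ≤ T.prob w' := prob_nonneg hw0
  have hp := prob_hasSum hw0 hw n
  have hf : ∀ (j : ι) (T : DTree n), |1 - Ht (s j) (chanLaw lam (Lt lam T))| ≤ 1 :=
    fun j T => abs_one_sub_Ht ((isLawN_Lt h0 h1 T).chan h0 h1) (hs j)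
  have hf2 : ∀ (j : ι) (T : DTree n), |1 - Ht (s j) (Lt lam T)| ≤ 1 :=
    fun j T => abs_one_sub_Ht (isLawN_Lt h0 h1 T) (hs j)
  have hg : ∀ T : DTree n, |YY (Lt lam T)| ≤ 1 := fun T => (isLawN_Lt h0 h1 T).abs_YY_le
  have hle : ∀ T : DTree n,
      ∑ j, c j * (1 - Ht (s j) (chanLaw lam (Lt lam T))) + c0 * YY (Lt lam T) + e
        ≤ ∑ j, w j * (1 - Ht (s j) (Lt lam T)) + 0 * 0 + 0 := by
    intro T
    have := (isLawN_Lt h0 h1 T).key_sum hs h0 h1 hk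
    unfold VV at this
    simpa using this
  have hE := E1_mono hp0 hp (g := fun T : DTree n =>
      ∑ j, c j * (1 - Ht (s j) (chanLaw lam (Lt lam T))) + c0 * YY (Lt lam T) + e)
    (h := fun T : DTree n => ∑ j, w j * (1 - Ht (s j) (Lt lam T)) + 0 * 0 + 0)
    (C := ∑ j, |c j| + |c0| + |e|) (D := ∑ j, |w j| + |(0 : ℝ)| + |(0 : ℝ)|)
    (fun T => abs_lin_le c c0 e _ _ (fun j => hf j T) (hg T))
    (fun T => abs_lin_le w 0 0 _ 0 (fun j => hf2 j T) (by simp)) hle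
  rw [E1_lin hp0 hp c c0 e _ _ hf hg,
    E1_lin hp0 hp w 0 0 _ (fun _ => 0) hf2 (by simp)] at hE
  simpa [ybarH, YbarH, xbarH] using hE

/-- The bound of `a_n` by the functional. -/
theorem gwA_sq_leH {w : ℕ → ℝ} (hw0 : ∀ k, 0 ≤ w k) (hw : HasSum w 1) (h0 : -(1 / 2) ≤ lam)
    (h1 : lam ≤ 1) (n : ℕ) : (gwA 3 w lam n) ^ 2 ≤ YbarH w lam n / 2 := by
  have hp := prob_hasSum hw0 hw n
  have hp0 : ∀ T : DTree n, 0 ≤ T.prob w := prob_nonneg hw0
  have h2 := E1_sq_ge hp0 hp (f := fun T => T.treeA 3 lam) (abs_treeA_le' h0 h1)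
  have hle : E1 (fun T : DTree n => T.prob w) (fun T => (T.treeA 3 lam) ^ 2)
      ≤ E1 (fun T : DTree n => T.prob w) (fun T => (1 / 2) * YY (Lt lam T)) := by
    refine E1_mono hp0 hp (C := 1) (D := 1) (fun T => ?_) (fun T => ?_) (fun T => ?_)
    · rw [abs_pow]
      exact pow_le_one₀ (abs_nonneg _) (abs_treeA_le' h0 h1 T)
    · rw [abs_mul, abs_of_nonneg (by norm_num : (0 : ℝ) ≤ 1 / 2)]
      have := (isLawN_Lt h0 h1 T).abs_YY_le
      linarith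
    · rw [treeA_eqN T (isLawN_Lt h0 h1 T)]
      have := (isLawN_Lt h0 h1 T).sq_sum_le
      linarith
  rw [E1_const_mul] at hle
  show (E1 (fun T : DTree n => T.prob w) (fun T => T.treeA 3 lam)) ^ 2 ≤ _
  unfold YbarH
  linarith

end Bounds

/-- Nonreconstruction on the Poisson Galton-Watson tree from the key inequality. -/
theorem hel_poisson {ι : Type*} [Fintype ι] {w : ι → ℝ} {s : ι → Fin 3 → ℝ}
    (hs : ∀ j, AdmS (s j)) {d lam κ : ℝ} (hd : 0 ≤ d) (h0 : -(1 / 2) ≤ lam) (h1 : lam ≤ 1)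
    (hκ : 0 < κ) (hK : PoiKey w s d lam κ) :
    (∀ n, Summable fun T : DTree n => T.prob (poissonWeight d) * T.treeA 3 lam)
      ∧ Tendsto (gwA 3 (poissonWeight d) lam) atTop (𝓝 0) := by
  have hw0 := poisson_nonneg hd
  have hw := poisson_hasSum d
  refine ⟨gwA_summable' hw0 hw h0 h1, ?_⟩
  have hY : Tendsto (YbarH (poissonWeight d) lam) atTop (𝓝 0) := by
    refine tendsto_zero_of_telescope
      (V := fun n => ∑ j, w j * xbarH (poissonWeight d) lam (s j) n) (κ := κ)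
      (B := ∑ j, |w j|) hκ (YbarH_nonneg hw0 h0 h1) (fun n => ?_) (fun n => ?_)
    · refine (Finset.abs_sum_le_sum_abs _ _).trans (Finset.sum_le_sum fun j _ => ?_)
      rw [abs_mul]
      exact mul_le_of_le_one_right (abs_nonneg _) (abs_xbarH_le hw0 hw h0 h1 (hs j) n)
    · obtain ⟨c, c0, e, h2, h3⟩ := hK _ _ (hull_bar hw0 hw hs h0 h1 n)
      have h4 := key_bar hw0 hw hs h0 h1 n h3
      have h5 : ∑ j, w j * xbarH (poissonWeight d) lam (s j) (n + 1)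
          = ∑ j, w j * (1 - Real.exp (-(d * ybarH (poissonWeight d) lam (s j) n))) :=
        Finset.sum_congr rfl fun j _ => by rw [xbarH_succ hd h0 h1 (hs j)]
      rw [h5]
      linarith
  have hsq : Tendsto (fun n => Real.sqrt (YbarH (poissonWeight d) lam n / 2)) atTop (𝓝 0) := by
    have := (Real.continuous_sqrt.tendsto (0 / 2)).comp (hY.div_const 2)
    have e : Real.sqrt (0 / 2) = 0 := by simp
    rw [e] at this
    exact this
  refine squeeze_zero (fun n => ?_) (fun n => ?_) hsq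
  · exact tsum_nonneg fun T => mul_nonneg (prob_nonneg hw0 T)
      (treeA_nonneg' T (lik_nonneg' h0 h1 T))
  · exact Real.le_sqrt_of_sq_le (gwA_sq_leH hw0 hw h0 h1 n)

end

end Hel

end Vale.Agent.P154
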