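import Vale.Agent.P154.Hel.Q3Rpow

/-!
The functions `F2` and `F1` written with `y = 1 / M` and the two variables `a1`, `a2`.
-/

namespace Vale.Agent.P154.Hel.Q3

noncomputable section

/-- The inverse of the normaliser. -/
def yvw (v w : ℝ) : ℝ := (1 + v ^ 12 + w ^ 12)⁻¹

/-- First coordinate. -/
def a1vw (v w : ℝ) : ℝ := 3 * yvw v w - 1

/-- Second coordinate. -/
def a2vw (v w : ℝ) : ℝ := 3 * (v ^ 12 * yvw v w) - 1

/-- `A` from the two coordinates. -/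
def Asvw (v w : ℝ) : ℝ := (a1vw v w ^ 2 + a2vw v w ^ 2 + a1vw v w * a2vw v w) / 3

/-- `R` from the two coordinates. -/
def Rsvw (v w : ℝ) : ℝ := -(a1vw v w * a2vw v w * (a1vw v w + a2vw v w)) / 2

/-- The six monomials of the main character. -/
def Ssvw (v w : ℝ) : ℝ :=
  v ^ 5 * w + v * w ^ 5 + v ^ 6 * w + v * w ^ 6 + v ^ 6 * w ^ 5 + v ^ 5 * w ^ 6

lemma M_pos (v w : ℝ) : 0 < 1 + v ^ 12 + w ^ 12 := by
  have h1 : 0 ≤ v ^ 12 := by positivity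
  have h2 : 0 ≤ w ^ 12 := by positivity
  linarith

lemma third_coord (v w : ℝ) : 3 * w ^ 12 * yvw v w - 1 = -(a1vw v w + a2vw v w) := by
  unfold a1vw a2vw yvw
  have h := (M_pos v w).ne'
  field_simp
  ring

lemma Avw_eq (v w : ℝ) : Avw v w = Asvw v w := by
  unfold Avw Asvw Mvw
  have h := third_coord v w
  have e1 : (3 / (1 + v ^ 12 + w ^ 12) - 1) = a1vw v w := by
    unfold a1vw yvw
    rw [div_eq_mul_inv]
  have e2 : (3 * v ^ 12 / (1 + v ^ 12 + w ^ 12) - 1) = a2vw v w := by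
    unfold a2vw yvw
    rw [div_eq_mul_inv, mul_assoc]
  have e3 : (3 * w ^ 12 / (1 + v ^ 12 + w ^ 12) - 1) = -(a1vw v w + a2vw v w) := by
    rw [← h]
    unfold yvw
    rw [div_eq_mul_inv]
  rw [e1, e2, e3]
  ring

lemma Rvw_eq (v w : ℝ) : Rvw v w = Rsvw v w := by
  unfold Rvw Rsvw Mvw
  have h := third_coord v w
  have e1 : (3 / (1 + v ^ 12 + w ^ 12) - 1) = a1vw v w := by
    unfold a1vw yvw
    rw [div_eq_mul_inv]
  have e2 : (3 * v ^ 12 / (1 + v ^ 12 + w ^ 12) - 1) = a2vw v w := by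
    unfold a2vw yvw
    rw [div_eq_mul_inv, mul_assoc]
  have e3 : (3 * w ^ 12 / (1 + v ^ 12 + w ^ 12) - 1) = -(a1vw v w + a2vw v w) := by
    rw [← h]
    unfold yvw
    rw [div_eq_mul_inv]
  rw [e1, e2, e3]
  ring

lemma F2_eq (v w : ℝ) :
    F2 v w = 93 / 37 - 192 / 37 * (Ssvw v w * yvw v w) + 873 / 37 * (v ^ 4 * w ^ 4 * yvw v w)
      - Asvw v w - Npoly (Asvw v w) (Rsvw v w) := by
  unfold F2
  rw [Avw_eq, Rvw_eq]
  unfold chiSvw chiCvw Mvw Ssvw yvw aw bw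
  rw [div_eq_mul_inv (3 * _) (1 + v ^ 12 + w ^ 12), div_eq_mul_inv (3 * _) (1 + v ^ 12 + w ^ 12)]
  ring

lemma F1_eq (v w : ℝ) :
    F1 v w = 1 / 2 * (Ssvw v w * yvw v w) - 1 + 41 / 48 * Asvw v w - 97 / 192 * Rsvw v w
      + Upoly (Asvw v w) (Rsvw v w) := by
  unfold F1
  rw [Avw_eq, Rvw_eq]
  unfold chiSvw Mvw Ssvw yvw
  rw [div_eq_mul_inv (3 * _) (1 + v ^ 12 + w ^ 12)]
  ring

end

end Vale.Agent.P154.Hel.Q3
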