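import Vale.Agent.P154.Hel.TMCfg
import Vale.Agent.P154.Hel.Q3EDefs

/-!
The functions `F2`, `F1` away from the corner `v = w = 1`: subdivision with Taylor models.
-/

namespace Vale.Agent.P154.Hel.Q3

open TM

/-- The common part of the two programs: `1 / M`, `A`, `R`, the six monomials, `v^4 w^4`. -/
def preT (c : Cfg) (v w : TMod) (k : TMod → TMod → TMod → TMod → TMod → TMod) : TMod :=
  (fun v2 w2 => (fun v4 w4 => (fun v5 w5 => (fun v6 w6 => (fun v12 w12 =>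
  (fun Mi =>
  (fun a1 a2 => (fun a3 =>
  (fun a12 => (fun A R =>
  (fun S C => k Mi A R S C)
    (addT c (addT c (addT c (addT c (addT c (mulT c v5 w) (mulT c v w5)) (mulT c v6 w)) (mulT c v w6))
      (mulT c v6 w5)) (mulT c v5 w6))
    (mulT c v4 w4))
    (mulT c (ofRat c 1 6) (addT c (addT c (mulT c a1 a1) (mulT c a2 a2)) (mulT c a3 a3)))
    (mulT c (ofRat c 1 2) (mulT c a12 a3)))
    (mulT c a1 a2))
    (negT (addT c a1 a2)))
    (subT c (smulT c 3 Mi) (ofRat c 1 1)) (subT c (smulT c 3 (mulT c v12 Mi)) (ofRat c 1 1)))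
    (invT c (addT c (addT c (ofRat c 1 1) v12) w12)))
    (mulT c v6 v6) (mulT c w6 w6))
    (mulT c v5 v) (mulT c w5 w))
    (mulT c v4 v) (mulT c w4 w))
    (mulT c v2 v2) (mulT c w2 w2))
    (mulT c v v) (mulT c w w)

/-- The polynomial `Npoly` on Taylor models. -/
def NT (c : Cfg) (A R : TMod) : TMod :=
  (fun R2 =>
    mulT c (ofRat c 1 1024)
    (subT c (mulT c A
      (addT c (mulT c A
        (addT c (mulT c A
          (subT c (mulT c A (subT c (smulT c 2580 A) (ofRat c 172 1)))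
            (addT c (ofRat c 14 1) (smulT c 2203 R))))
          (subT c (addT c (ofRat c 308 1) (smulT c 1173 R)) (smulT c 498 R2))))
        (subT c (smulT c 100 R) (smulT c 46 R2))))
      (smulT c 318 R2)))
    (mulT c R R)

/-- The function `F2` on Taylor models. -/
def F2T (c : Cfg) (v w : TMod) : TMod :=
  preT c v w fun Mi A R S C =>
    subT c (subT c (addT c (subT c (ofRat c 93 37) (mulT c (ofRat c 192 37) (mulT c S Mi)))
      (mulT c (ofRat c 873 37) (mulT c C Mi))) A) (NT c A R)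

/-- The polynomial `Upoly` on Taylor models. -/
def UT (c : Cfg) (A R : TMod) : TMod :=
  (fun R2 =>
    mulT c (ofRat c 1 1024)
      (addT c (smulT c 129 R2) (mulT c A
        (subT c (mulT c A
          (addT c (mulT c A
            (addT c (mulT c A (subT c (smulT c 61440 A) (ofRat c 8512 1)))
              (addT c (ofRat c 1633 1) (smulT c 8390 R))))
            (addT c (subT c (ofRat c 820 1) (smulT c 5908 R)) (smulT c 61440 R2))))
          (smulT c 923 R)))))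
    (mulT c R R)

/-- The function `F1` on Taylor models. -/
def F1T (c : Cfg) (v w : TMod) : TMod :=
  preT c v w fun Mi A R S C =>
    addT c (subT c (addT c (subT c (mulT c (ofRat c 1 2) (mulT c S Mi)) (ofRat c 1 1))
      (mulT c (ofRat c 41 48) A)) (mulT c (ofRat c 97 192) R)) (UT c A R)

theorem preT_rep (c : Cfg) (ξ η : ℝ) (C : Ctx c ξ η) (a b : TMod) (v w : ℝ)
    (ha : RepAt c ξ η a v) (hb : RepAt c ξ η b w) (k : TMod → TMod → TMod → TMod → TMod → TMod) (x : ℝ)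
    (hk : ∀ Mi A R S D, RepAt c ξ η Mi (yvw v w) → RepAt c ξ η A (Asvw v w) → RepAt c ξ η R (Rsvw v w) →
      RepAt c ξ η S (Ssvw v w) → RepAt c ξ η D (v ^ 4 * w ^ 4) → RepAt c ξ η (k Mi A R S D) x) :
    RepAt c ξ η (preT c a b k) x := by
  have r2v := repAt_mul C ha ha
  have r2w := repAt_mul C hb hb
  have r4v := repAt_mul C r2v r2v
  have r4w := repAt_mul C r2w r2w
  have r5v := repAt_mul C r4v ha
  have r5w := repAt_mul C r4w hb
  have r6v := repAt_mul C r5v ha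
  have r6w := repAt_mul C r5w hb
  have r12v := repAt_mul C r6v r6v
  have r12w := repAt_mul C r6w r6w
  have rMi := repAt_inv C (repAt_add C (repAt_add C (repAt_ofRat C 1 1) r12v) r12w)
  have ra1 := repAt_sub C (repAt_smul C 3 rMi) (repAt_ofRat C 1 1)
  have ra2 := repAt_sub C (repAt_smul C 3 (repAt_mul C r12v rMi)) (repAt_ofRat C 1 1)
  have ra3 := repAt_neg (repAt_add C ra1 ra2)
  have ra12 := repAt_mul C ra1 ra2
  have rA := repAt_mul C (repAt_ofRat C 1 6)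
    (repAt_add C (repAt_add C (repAt_mul C ra1 ra1) (repAt_mul C ra2 ra2)) (repAt_mul C ra3 ra3))
  have rR := repAt_mul C (repAt_ofRat C 1 2) (repAt_mul C ra12 ra3)
  have rS := repAt_add C (repAt_add C (repAt_add C (repAt_add C (repAt_add C (repAt_mul C r5v hb)
    (repAt_mul C ha r5w)) (repAt_mul C r6v hb)) (repAt_mul C ha r6w)) (repAt_mul C r6v r5w)) (repAt_mul C r5v r6w)
  have rD := repAt_mul C r4v r4w
  have eM : (((1 : ℕ) : ℝ) / ((1 : ℕ) : ℝ) + v * v * (v * v) * v * v * (v * v * (v * v) * v * v)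
      + w * w * (w * w) * w * w * (w * w * (w * w) * w * w))⁻¹ = yvw v w := by
    unfold yvw
    norm_num
    ring_nf
  refine hk _ _ _ _ _ (rMi.congr eM) (rA.congr ?_) (rR.congr ?_) (rS.congr ?_) (rD.congr ?_)
  · rw [eM]
    unfold Asvw a1vw a2vw
    push_cast
    ring
  · rw [eM]
    unfold Rsvw a1vw a2vw
    push_cast
    ring
  · unfold Ssvw
    ring
  · ring

theorem NT_rep (c : Cfg) (ξ η : ℝ) (C : Ctx c ξ η) (a b : TMod) (A R : ℝ)
    (ha : RepAt c ξ η a A) (hb : RepAt c ξ η b R) : RepAt c ξ η (NT c a b) (Npoly A R) := by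
  have r2 := repAt_mul C hb hb
  refine (repAt_mul C (repAt_ofRat C 1 1024)
    (repAt_sub C (repAt_mul C ha
      (repAt_add C (repAt_mul C ha
        (repAt_add C (repAt_mul C ha
          (repAt_sub C (repAt_mul C ha (repAt_sub C (repAt_smul C 2580 ha) (repAt_ofRat C 172 1)))
            (repAt_add C (repAt_ofRat C 14 1) (repAt_smul C 2203 hb))))
          (repAt_sub C (repAt_add C (repAt_ofRat C 308 1) (repAt_smul C 1173 hb)) (repAt_smul C 498 r2))))
        (repAt_sub C (repAt_smul C 100 hb) (repAt_smul C 46 r2))))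
      (repAt_smul C 318 r2))).congr ?_
  unfold Npoly
  push_cast
  ring

theorem UT_rep (c : Cfg) (ξ η : ℝ) (C : Ctx c ξ η) (a b : TMod) (A R : ℝ)
    (ha : RepAt c ξ η a A) (hb : RepAt c ξ η b R) : RepAt c ξ η (UT c a b) (Upoly A R) := by
  have r2 := repAt_mul C hb hb
  refine (repAt_mul C (repAt_ofRat C 1 1024)
    (repAt_add C (repAt_smul C 129 r2) (repAt_mul C ha
      (repAt_sub C (repAt_mul C ha
        (repAt_add C (repAt_mul C ha
          (repAt_add C (repAt_mul C ha (repAt_sub C (repAt_smul C 61440 ha) (repAt_ofRat C 8512 1)))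
            (repAt_add C (repAt_ofRat C 1633 1) (repAt_smul C 8390 hb))))
          (repAt_add C (repAt_sub C (repAt_ofRat C 820 1) (repAt_smul C 5908 hb)) (repAt_smul C 61440 r2))))
        (repAt_smul C 923 hb))))).congr ?_
  unfold Upoly
  push_cast
  ring

theorem F2T_rep (c : Cfg) (ξ η : ℝ) (C : Ctx c ξ η) (a b : TMod) (v w : ℝ)
    (ha : RepAt c ξ η a v) (hb : RepAt c ξ η b w) : RepAt c ξ η (F2T c a b) (F2 v w) := by
  refine preT_rep c ξ η C a b v w ha hb _ _ ?_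
  intro Mi A R S D rMi rA rR rS rD
  refine (repAt_sub C (repAt_sub C (repAt_add C (repAt_sub C (repAt_ofRat C 93 37)
    (repAt_mul C (repAt_ofRat C 192 37) (repAt_mul C rS rMi)))
    (repAt_mul C (repAt_ofRat C 873 37) (repAt_mul C rD rMi))) rA) (NT_rep c ξ η C A R _ _ rA rR)).congr ?_
  rw [F2_eq]
  push_cast
  ring

theorem F1T_rep (c : Cfg) (ξ η : ℝ) (C : Ctx c ξ η) (a b : TMod) (v w : ℝ)
    (ha : RepAt c ξ η a v) (hb : RepAt c ξ η b w) : RepAt c ξ η (F1T c a b) (F1 v w) := by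
  refine preT_rep c ξ η C a b v w ha hb _ _ ?_
  intro Mi A R S D rMi rA rR rS rD
  refine (repAt_add C (repAt_sub C (repAt_add C (repAt_sub C (repAt_mul C (repAt_ofRat C 1 2) (repAt_mul C rS rMi))
    (repAt_ofRat C 1 1)) (repAt_mul C (repAt_ofRat C 41 48) rA)) (repAt_mul C (repAt_ofRat C 97 192) rR))
    (UT_rep c ξ η C A R _ _ rA rR)).congr ?_
  rw [F1_eq]
  push_cast
  ring

/-- The position test for `F2`: above the diagonal or in the corner. -/
def outE2 (K i j : ℕ) : Bool :=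
  or (Nat.ble (Nat.add i 2) j)
    (and (Nat.ble (Nat.mul 1023 (Nat.pow 2 K)) (Nat.mul 1024 i))
      (Nat.ble (Nat.mul 1023 (Nat.pow 2 K)) (Nat.mul 1024 j)))

/-- The position test for `F1`: also the cells where the first coordinate is too large. -/
def outE1 (K i j : ℕ) : Bool :=
  or (outE2 K i j)
    (Nat.ble (Nat.succ (Nat.mul (Nat.add (Nat.add (Nat.pow 2 (Nat.mul 12 K)) (Nat.pow (Nat.succ i) 12))
      (Nat.pow (Nat.succ j) 12)) 11537)) (Nat.mul 24576 (Nat.pow 2 (Nat.mul 12 K))))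

lemma outE2_sound {K i j : ℕ} (h : outE2 K i j = true) {v w : ℝ} (hvw : InCell K i j v w) (hle : w ≤ v)
    (hc : v < 1 - 1 / 1024 ∨ w < 1 - 1 / 1024) : False := by
  have hK : (0 : ℝ) < 2 ^ K := by positivity
  unfold outE2 at h
  rw [Bool.or_eq_true, Bool.and_eq_true] at h
  rcases h with h | ⟨h1, h2⟩
  · have h3 : i + 2 ≤ j := Nat.le_of_ble_eq_true h
    have h4 : ((i : ℝ) + 2) ≤ j := by exact_mod_cast h3
    have h5 := hvw.2.1
    have h6 := hvw.2.2.1
    rw [le_div_iff₀ hK] at h5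
    rw [div_le_iff₀ hK] at h6
    nlinarith
  · have h3 : 1023 * 2 ^ K ≤ 1024 * i := Nat.le_of_ble_eq_true h1
    have h4 : 1023 * 2 ^ K ≤ 1024 * j := Nat.le_of_ble_eq_true h2
    have h5 : (1023 : ℝ) * 2 ^ K ≤ 1024 * i := by exact_mod_cast h3
    have h6 : (1023 : ℝ) * 2 ^ K ≤ 1024 * j := by exact_mod_cast h4
    have h7 := hvw.1
    have h8 := hvw.2.2.1
    rw [div_le_iff₀ hK] at h7 h8
    rcases hc with hc | hc <;> nlinarith

lemma pow12_le {K i : ℕ} {v : ℝ} (hK : (0 : ℝ) < 2 ^ K) (h0 : (i : ℝ) / 2 ^ K ≤ v) (h1 : v ≤ ((i : ℝ) + 1) / 2 ^ K) :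
    v ^ 12 * ((2 : ℝ) ^ K) ^ 12 ≤ ((i : ℝ) + 1) ^ 12 := by
  have hv0 : 0 ≤ v := le_trans (by positivity) h0
  rw [← mul_pow]
  refine pow_le_pow_left₀ (by positivity) ?_ 12
  rwa [le_div_iff₀ hK] at h1

lemma outE1_big {K i j : ℕ} {v w : ℝ} (hvw : InCell K i j v w)
    (h : (((2 : ℝ) ^ K) ^ 12 + ((i : ℝ) + 1) ^ 12 + ((j : ℝ) + 1) ^ 12) * 11537 + 1 ≤ 24576 * ((2 : ℝ) ^ K) ^ 12)
    (hb : 3 / Mvw v w ≤ 1 + tauMax) : False := by
  have hK : (0 : ℝ) < 2 ^ K := by positivity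
  have hv := pow12_le hK hvw.1 hvw.2.1
  have hw := pow12_le hK hvw.2.2.1 hvw.2.2.2
  have hM : 0 < Mvw v w := M_pos v w
  unfold tauMax at hb
  rw [div_le_iff₀ hM] at hb
  have hP : 0 < ((2 : ℝ) ^ K) ^ 12 := by positivity
  have e1 : 3 * 8192 ≤ 11537 * Mvw v w := by linarith
  have e2 : Mvw v w * ((2 : ℝ) ^ K) ^ 12 ≤ ((2 : ℝ) ^ K) ^ 12 + ((i : ℝ) + 1) ^ 12 + ((j : ℝ) + 1) ^ 12 := by
    unfold Mvw
    nlinarith
  have e3 : (3 * 8192) * ((2 : ℝ) ^ K) ^ 12 ≤ 11537 * Mvw v w * ((2 : ℝ) ^ K) ^ 12 :=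
    mul_le_mul_of_nonneg_right e1 hP.le
  nlinarith

lemma outE1_sound {K i j : ℕ} (h : outE1 K i j = true) {v w : ℝ} (hvw : InCell K i j v w) (hle : w ≤ v)
    (hc : v < 1 - 1 / 1024 ∨ w < 1 - 1 / 1024) (hb : 3 / Mvw v w ≤ 1 + tauMax) : False := by
  unfold outE1 at h
  rw [Bool.or_eq_true] at h
  rcases h with h | h
  · exact outE2_sound h hvw hle hc
  · refine outE1_big hvw ?_ hb
    have h1 := Nat.le_of_ble_eq_true h
    have h2 : (2 ^ (12 * K) + (i + 1) ^ 12 + (j + 1) ^ 12) * 11537 + 1 ≤ 24576 * 2 ^ (12 * K) := h1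
    have h3 : (((2 ^ (12 * K) + (i + 1) ^ 12 + (j + 1) ^ 12) * 11537 + 1 : ℕ) : ℝ) ≤ ((24576 * 2 ^ (12 * K) : ℕ) : ℝ) := by
      exact_mod_cast h2
    push_cast at h3
    have e : ((2 : ℝ) ^ K) ^ 12 = 2 ^ (12 * K) := by
      rw [← pow_mul, mul_comm]
    rw [e]
    exact h3

theorem F2_walk {v w : ℝ} (hv0 : 0 ≤ v) (hv1 : v ≤ 1) (hw0 : 0 ≤ w) (hw1 : w ≤ 1) (hwv : w ≤ v)
    (hc : v < 1 - 1 / 1024 ∨ w < 1 - 1 / 1024) : 0 ≤ F2 v w := by
  refine of_walk (Q := fun v w => w ≤ v → (v < 1 - 1 / 1024 ∨ w < 1 - 1 / 1024) → 0 ≤ F2 v w)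
    cfg6_valid (F2T_rep cfg6) (out := outE2) ?_ (fun v w h _ _ => h) 18 (by decide +kernel)
    v w hv0 hv1 hw0 hw1 hwv hc
  intro K i j h v w hvw hle hc
  exact (outE2_sound h hvw hle hc).elim

theorem F1_walk {v w : ℝ} (hv0 : 0 ≤ v) (hv1 : v ≤ 1) (hw0 : 0 ≤ w) (hw1 : w ≤ 1) (hwv : w ≤ v)
    (hc : v < 1 - 1 / 1024 ∨ w < 1 - 1 / 1024) (hb : 3 / Mvw v w ≤ 1 + tauMax) : 0 ≤ F1 v w := by
  refine of_walk (Q := fun v w => w ≤ v → (v < 1 - 1 / 1024 ∨ w < 1 - 1 / 1024) → 3 / Mvw v w ≤ 1 + tauMax → 0 ≤ F1 v w)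
    cfg6_valid (F1T_rep cfg6) (out := outE1) ?_ (fun v w h _ _ _ => h) 18 (by decide +kernel)
    v w hv0 hv1 hw0 hw1 hwv hc hb
  intro K i j h v w hvw hle hc hb
  exact (outE1_sound h hvw hle hc hb).elim

end Vale.Agent.P154.Hel.Q3
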