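import Vale.Agent.P154.Hel.Q3ECorner
import Vale.Agent.P154.Hel.Q3EWalk

/-!
The two inequalities `E2`, `E1` in the variables `v`, `w`.
-/

namespace Vale.Agent.P154.Hel.Q3

theorem E2_holds : E2 := by
  intro v w h0 hwv hv1
  have hv0 : 0 ≤ v := le_trans h0 hwv
  have hw1 : w ≤ 1 := le_trans hwv hv1
  by_cases hc : v < 1 - 1 / 1024 ∨ w < 1 - 1 / 1024
  · exact F2_walk hv0 hv1 h0 hw1 hwv hc
  · push Not at hc
    exact F2_corner hc.1 hv1 hc.2 hw1

theorem E1_holds : E1 := by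
  intro v w h0 hwv hv1 hb
  have hv0 : 0 ≤ v := le_trans h0 hwv
  have hw1 : w ≤ 1 := le_trans hwv hv1
  by_cases hc : v < 1 - 1 / 1024 ∨ w < 1 - 1 / 1024
  · exact F1_walk hv0 hv1 h0 hw1 hwv hc hb
  · push Not at hc
    exact F1_corner hc.1 hv1 hc.2 hw1

end Vale.Agent.P154.Hel.Q3
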