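import Mathlib

/-!
Layer D of the `q = 3`, `lam = -tau` certificate: the one variable facts on `exp` and `rpow` behind
the scalar planes. Pure real analysis; no data.
-/

namespace Vale.Agent.P154.Hel.Q3

noncomputable section

open Real Set

/-! ### Chords -/

/-- Writing a point of an interval as a convex combination of the end points. -/
theorem exists_convex {Z1 Z2 z : ℝ} (h1 : Z1 ≤ z) (h2 : z ≤ Z2) :
    ∃ l m : ℝ, 0 ≤ l ∧ 0 ≤ m ∧ l + m = 1 ∧ l * Z1 + m * Z2 = z := by
  rcases eq_or_lt_of_le (h1.trans h2) with h | h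
  · refine ⟨1, 0, by norm_num, le_refl _, by norm_num, ?_⟩
    have : z = Z1 := le_antisymm (h2.trans h.symm.le) h1
    rw [this]
    ring
  · have hd : 0 < Z2 - Z1 := by linarith
    refine ⟨(Z2 - z) / (Z2 - Z1), (z - Z1) / (Z2 - Z1), div_nonneg (by linarith) hd.le,
      div_nonneg (by linarith) hd.le, ?_, ?_⟩
    · field_simp
      ring
    · field_simp
      ring

/-! ### The Poisson plane -/

/-- The plane for the exponential. -/
theorem poi_scalar {a b q v E E1 E2 p Z1 Z2 zs zc : ℝ} (ha : 0 ≤ a) (hb : 0 ≤ b) (hE0 : 0 ≤ E)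
    (hE : E ≤ exp (-p)) (h1 : exp (-Z1) ≤ E1) (h2 : exp (-Z2) ≤ E2) (hz1 : Z1 ≤ zc) (hz2 : zc ≤ Z2)
    (hv1 : a - a * E * (1 + p) - b * (1 - E1) + q * Z1 ≤ v)
    (hv2 : a - a * E * (1 + p) - b * (1 - E2) + q * Z2 ≤ v) :
    a * (1 - exp (-zs)) - b * (1 - exp (-zc)) ≤ a * E * zs - q * zc + v := by
  have t1 : E * (1 + p - zs) ≤ exp (-zs) := by
    rcases le_total 0 (1 + p - zs) with hc | hc
    · have h3 : 1 + (p - zs) ≤ exp (p - zs) := by
        have := add_one_le_exp (p - zs)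
        linarith
      have h4 : exp (-zs) = exp (-p) * exp (p - zs) := by
        rw [← exp_add]
        congr 1
        ring
      rw [h4]
      have h5 : 0 ≤ exp (p - zs) := (exp_pos _).le
      calc E * (1 + p - zs) ≤ exp (-p) * (1 + p - zs) := mul_le_mul_of_nonneg_right hE hc
        _ ≤ exp (-p) * exp (p - zs) :=
          mul_le_mul_of_nonneg_left (by linarith) (exp_pos _).le
    · have : E * (1 + p - zs) ≤ 0 := mul_nonpos_of_nonneg_of_nonpos hE0 hc
      exact this.trans (exp_pos _).le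
  obtain ⟨l, m, l0, m0, lm, hz⟩ := exists_convex hz1 hz2
  have t2 : exp (-zc) ≤ l * exp (-Z1) + m * exp (-Z2) := by
    have := convexOn_exp.2 (mem_univ (-Z1)) (mem_univ (-Z2)) l0 m0 lm
    simp only [smul_eq_mul] at this
    have e : l * -Z1 + m * -Z2 = -zc := by
      rw [← hz]
      ring
    rwa [e] at this
  have t3 : exp (-zc) ≤ l * E1 + m * E2 := by
    have a1 := mul_le_mul_of_nonneg_left h1 l0
    have a2 := mul_le_mul_of_nonneg_left h2 m0
    linarith
  have t4 := mul_le_mul_of_nonneg_left t3 hb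
  have t5 := mul_le_mul_of_nonneg_left t1 ha
  have a1 := mul_le_mul_of_nonneg_left hv1 l0
  have a2 := mul_le_mul_of_nonneg_left hv2 m0
  have e : l * (a - a * E * (1 + p) - b * (1 - E1) + q * Z1)
      + m * (a - a * E * (1 + p) - b * (1 - E2) + q * Z2)
      = (l + m) * (a - a * E * (1 + p) - b) + b * (l * E1 + m * E2) + q * (l * Z1 + m * Z2) := by
    ring
  rw [lm, hz] at e
  have e3 : l * v + m * v = v := by rw [← add_mul, lm, one_mul]
  have e4 : a * (E * (1 + p - zs)) = a * E * (1 + p) - a * E * zs := by ring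
  rw [e4] at t5
  linarith

/-! ### The regular plane -/

/-- Bernoulli tangent for the power. -/
theorem rpow_tangent {t2 D p z F : ℝ} (hD : t2 * D = 1) (hD1 : 1 ≤ D)
    (hp : t2 * p < 1) (hz : t2 * z ≤ 1) (hF0 : 0 ≤ F) (hF : F ≤ (1 - t2 * p) ^ D) :
    F * (1 - (z - p) / (1 - t2 * p)) ≤ (1 - t2 * z) ^ D := by
  have hpos : 0 < 1 - t2 * p := by linarith
  have hz0 : 0 ≤ 1 - t2 * z := by linarith
  rcases le_total 0 (1 - (z - p) / (1 - t2 * p)) with hc | hc
  · set s := -(t2 * ((z - p) / (1 - t2 * p))) with hs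
    have e1 : 1 - t2 * z = (1 - t2 * p) * (1 + s) := by
      rw [hs]
      field_simp
      ring
    have hs1 : -1 ≤ s := by
      have : 0 ≤ (1 - t2 * z) / (1 - t2 * p) := div_nonneg hz0 hpos.le
      have e2 : (1 - t2 * z) / (1 - t2 * p) = 1 + s := by
        rw [e1]
        field_simp
      linarith
    have hb := one_add_mul_self_le_rpow_one_add hs1 hD1
    have e3 : 1 + D * s = 1 - (z - p) / (1 - t2 * p) := by
      rw [hs]
      have : D * (t2 * ((z - p) / (1 - t2 * p))) = (t2 * D) * ((z - p) / (1 - t2 * p)) := by ring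
      rw [mul_neg, this, hD]
      ring
    rw [e3] at hb
    rw [e1, mul_rpow hpos.le (by linarith)]
    exact mul_le_mul hF hb hc (rpow_nonneg hpos.le _)
  · have : F * (1 - (z - p) / (1 - t2 * p)) ≤ 0 := mul_nonpos_of_nonneg_of_nonpos hF0 hc
    exact this.trans (rpow_nonneg hz0 _)

/-- The plane for the power. -/
theorem reg_scalar {a b q v F E1 E2 p Z1 Z2 zs zc t2 D : ℝ} (ha : 0 ≤ a) (hb : 0 ≤ b)
    (ht : 0 < t2) (hD : t2 * D = 1) (hD1 : 1 ≤ D) (hp : t2 * p < 1) (hzs : t2 * zs ≤ 1)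
    (hZ2 : t2 * Z2 ≤ 1) (hF0 : 0 ≤ F)
    (hF : F ≤ (1 - t2 * p) ^ D)
    (h1 : (1 - t2 * Z1) ^ D ≤ E1) (h2 : (1 - t2 * Z2) ^ D ≤ E2) (hz1 : Z1 ≤ zc) (hz2 : zc ≤ Z2)
    (hv1 : a - a * F * (1 + p * (1 / (1 - t2 * p))) - b * (1 - E1) + q * Z1 ≤ v)
    (hv2 : a - a * F * (1 + p * (1 / (1 - t2 * p))) - b * (1 - E2) + q * Z2 ≤ v) :
    a * (1 - (1 - t2 * zs) ^ D) - b * (1 - (1 - t2 * zc) ^ D)
      ≤ a * F * (1 / (1 - t2 * p)) * zs - q * zc + v := by
  have t1 := rpow_tangent hD hD1 hp hzs hF0 hF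
  have hpos : 0 < 1 - t2 * p := by linarith
  obtain ⟨l, m, l0, m0, lm, hz⟩ := exists_convex hz1 hz2
  have hZ1' : 0 ≤ 1 - t2 * Z1 := by
    have : t2 * Z1 ≤ t2 * Z2 := mul_le_mul_of_nonneg_left (hz1.trans hz2) ht.le
    linarith
  have hZ2' : 0 ≤ 1 - t2 * Z2 := by linarith
  have t2' : (1 - t2 * zc) ^ D ≤ l * (1 - t2 * Z1) ^ D + m * (1 - t2 * Z2) ^ D := by
    have := (convexOn_rpow hD1).2 (mem_Ici.2 hZ1') (mem_Ici.2 hZ2') l0 m0 lm
    simp only [smul_eq_mul] at this
    have e : l * (1 - t2 * Z1) + m * (1 - t2 * Z2) = 1 - t2 * zc := by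
      rw [← hz]
      linear_combination lm
    rwa [e] at this
  have t3 : (1 - t2 * zc) ^ D ≤ l * E1 + m * E2 := by
    have a1 := mul_le_mul_of_nonneg_left h1 l0
    have a2 := mul_le_mul_of_nonneg_left h2 m0
    linarith
  have t4 := mul_le_mul_of_nonneg_left t3 hb
  have t5 := mul_le_mul_of_nonneg_left t1 ha
  have a1 := mul_le_mul_of_nonneg_left hv1 l0
  have a2 := mul_le_mul_of_nonneg_left hv2 m0
  set K := a - a * F * (1 + p * (1 / (1 - t2 * p))) with hK
  have e : l * (K - b * (1 - E1) + q * Z1) + m * (K - b * (1 - E2) + q * Z2)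
      = (l + m) * (K - b) + b * (l * E1 + m * E2) + q * (l * Z1 + m * Z2) := by
    ring
  rw [lm, hz] at e
  have e2 : a * (F * (1 - (zs - p) / (1 - t2 * p)))
      = a - K - a * F * (1 / (1 - t2 * p)) * zs := by
    rw [hK]
    field_simp
    ring
  rw [e2] at t5
  have e3 : l * v + m * v = v := by rw [← add_mul, lm, one_mul]
  linarith

/-! ### Taylor bounds for the exponential at negative arguments -/

theorem exp_neg_le_two {x : ℝ} (hx : 0 ≤ x) : exp (-x) ≤ 1 - x + x ^ 2 / 2 := by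
  have hm : MonotoneOn (fun y : ℝ => 1 - y + y ^ 2 / 2 - exp (-y)) (Ici 0) := by
    apply monotoneOn_of_deriv_nonneg (convex_Ici 0)
    · fun_prop
    · fun_prop
    · intro y hy
      have hd : HasDerivAt (fun y : ℝ => 1 - y + y ^ 2 / 2 - exp (-y))
          (-1 + y + exp (-y)) y := by
        have h1 : HasDerivAt (fun y : ℝ => 1 - y) (-1) y := by
          simpa using (hasDerivAt_id y).const_sub 1
        have h2 : HasDerivAt (fun y : ℝ => y ^ 2 / 2) y y := by
          have := (hasDerivAt_pow 2 y).div_const 2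
          simpa using this
        have h3 : HasDerivAt (fun y : ℝ => exp (-y)) (-exp (-y)) y := by
          have := (hasDerivAt_neg y).exp
          simpa using this
        exact ((h1.fun_add h2).fun_sub h3).congr_deriv (by ring)
      rw [hd.deriv]
      have := add_one_le_exp (-y)
      linarith
  have := hm (mem_Ici.2 le_rfl) (mem_Ici.2 hx) hx
  simp only [neg_zero, exp_zero] at this
  norm_num at this
  linarith

theorem exp_neg_ge_three {x : ℝ} (hx : 0 ≤ x) :
    1 - x + x ^ 2 / 2 - x ^ 3 / 6 ≤ exp (-x) := by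
  have hm : MonotoneOn (fun y : ℝ => exp (-y) - (1 - y + y ^ 2 / 2 - y ^ 3 / 6)) (Ici 0) := by
    apply monotoneOn_of_deriv_nonneg (convex_Ici 0)
    · fun_prop
    · fun_prop
    · intro y hy
      have hy0 : (0 : ℝ) ≤ y := by
        have := interior_subset hy
        exact this
      have hd : HasDerivAt (fun y : ℝ => exp (-y) - (1 - y + y ^ 2 / 2 - y ^ 3 / 6))
          (-exp (-y) + (1 - y + y ^ 2 / 2)) y := by
        have h1 : HasDerivAt (fun y : ℝ => 1 - y) (-1) y := by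
          simpa using (hasDerivAt_id y).const_sub 1
        have h2 : HasDerivAt (fun y : ℝ => y ^ 2 / 2) y y := by
          have := (hasDerivAt_pow 2 y).div_const 2
          simpa using this
        have h2' : HasDerivAt (fun y : ℝ => y ^ 3 / 6) (y ^ 2 / 2) y := by
          have := (hasDerivAt_pow 3 y).div_const 6
          refine this.congr_deriv ?_
          norm_num
          ring
        have h3 : HasDerivAt (fun y : ℝ => exp (-y)) (-exp (-y)) y := by
          have := (hasDerivAt_neg y).exp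
          simpa using this
        exact (h3.fun_sub ((h1.fun_add h2).fun_sub h2')).congr_deriv (by ring)
      rw [hd.deriv]
      have := exp_neg_le_two hy0
      linarith
  have := hm (mem_Ici.2 le_rfl) (mem_Ici.2 hx) hx
  simp only [neg_zero, exp_zero] at this
  norm_num at this
  linarith

/-! ### The logarithm -/

theorem log_one_sub_le {y : ℝ} (h0 : 0 ≤ y) (h1 : y < 1) :
    log (1 - y) ≤ -(y + y ^ 2 / 2 + y ^ 3 / 3 + y ^ 4 / 4) := by
  have habs : |y| < 1 := by
    rw [abs_of_nonneg h0]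
    exact h1
  have hs := hasSum_pow_div_log_of_abs_lt_one habs
  have := sum_le_hasSum (Finset.range 4) (fun i _ => by positivity) hs
  simp only [Finset.sum_range_succ, Finset.sum_range_zero] at this
  norm_num at this
  linarith

theorem log_one_sub_ge {y : ℝ} (h0 : 0 ≤ y) (h1 : y ≤ 3 / 10) :
    -(y + y ^ 2 / 2 + y ^ 3 / 3 + y ^ 4 / 4 + 10 / 7 * y ^ 5) ≤ log (1 - y) := by
  have habs : |y| < 1 := by
    rw [abs_of_nonneg h0]
    linarith
  have hs := abs_log_sub_add_sum_range_le habs 4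
  simp only [Finset.sum_range_succ, Finset.sum_range_zero] at hs
  rw [abs_of_nonneg h0] at hs
  norm_num at hs
  have h2 := (abs_le.1 hs).1
  have hy5 : 0 ≤ y ^ 5 := by positivity
  have h3 : y ^ 5 / (1 - y) ≤ 10 / 7 * y ^ 5 := by
    rw [div_le_iff₀ (by linarith)]
    nlinarith
  linarith

/-! ### The power versus the exponential -/

/-- Upper bound of the power. -/
theorem rpow_hi {t Z : ℝ} (ht : 0 < t) (hZ : 0 ≤ Z) (hy : t ^ 2 * Z < 1) :
    (1 - t ^ 2 * Z) ^ (1 / t ^ 2)
      ≤ exp (-Z) * (1 - (t ^ 2 * Z ^ 2 / 2 + t ^ 4 * Z ^ 3 / 3 + t ^ 6 * Z ^ 4 / 4)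
        + (t ^ 2 * Z ^ 2 / 2 + t ^ 4 * Z ^ 3 / 3 + t ^ 6 * Z ^ 4 / 4) ^ 2 / 2) := by
  set T := t ^ 2 * Z ^ 2 / 2 + t ^ 4 * Z ^ 3 / 3 + t ^ 6 * Z ^ 4 / 4 with hT
  have hT0 : 0 ≤ T := by positivity
  have ht2 : 0 < t ^ 2 := by positivity
  have hy0 : 0 ≤ t ^ 2 * Z := by positivity
  have hpos : 0 < 1 - t ^ 2 * Z := by linarith
  rw [rpow_def_of_pos hpos]
  have hl := log_one_sub_le hy0 hy
  have key : log (1 - t ^ 2 * Z) * (1 / t ^ 2) ≤ -Z + -T := by
    have h1 : -((t ^ 2 * Z) + (t ^ 2 * Z) ^ 2 / 2 + (t ^ 2 * Z) ^ 3 / 3 + (t ^ 2 * Z) ^ 4 / 4)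
        * (1 / t ^ 2) = -Z + -T := by
      rw [hT]
      field_simp
      ring
    rw [← h1]
    exact mul_le_mul_of_nonneg_right hl (by positivity)
  calc exp (log (1 - t ^ 2 * Z) * (1 / t ^ 2)) ≤ exp (-Z + -T) := exp_le_exp.2 key
    _ = exp (-Z) * exp (-T) := exp_add _ _
    _ ≤ exp (-Z) * (1 - T + T ^ 2 / 2) :=
      mul_le_mul_of_nonneg_left (exp_neg_le_two hT0) (exp_pos _).le

/-- Lower bound of the power. -/
theorem rpow_lo {t p : ℝ} (ht : 0 < t) (hp : 0 ≤ p) (hy : t ^ 2 * p ≤ 3 / 10) :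
    exp (-p) * (1 - (t ^ 2 * p ^ 2 / 2 + t ^ 4 * p ^ 3 / 3 + t ^ 6 * p ^ 4 / 4
          + 10 / 7 * t ^ 8 * p ^ 5)
        + (t ^ 2 * p ^ 2 / 2 + t ^ 4 * p ^ 3 / 3 + t ^ 6 * p ^ 4 / 4
          + 10 / 7 * t ^ 8 * p ^ 5) ^ 2 / 2
        - (t ^ 2 * p ^ 2 / 2 + t ^ 4 * p ^ 3 / 3 + t ^ 6 * p ^ 4 / 4
          + 10 / 7 * t ^ 8 * p ^ 5) ^ 3 / 6)
      ≤ (1 - t ^ 2 * p) ^ (1 / t ^ 2) := by
  set T := t ^ 2 * p ^ 2 / 2 + t ^ 4 * p ^ 3 / 3 + t ^ 6 * p ^ 4 / 4
          + 10 / 7 * t ^ 8 * p ^ 5 with hT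
  have hT0 : 0 ≤ T := by positivity
  have ht2 : 0 < t ^ 2 := by positivity
  have hy0 : 0 ≤ t ^ 2 * p := by positivity
  have hpos : 0 < 1 - t ^ 2 * p := by linarith
  rw [rpow_def_of_pos hpos]
  have hl := log_one_sub_ge hy0 hy
  have key : -p + -T ≤ log (1 - t ^ 2 * p) * (1 / t ^ 2) := by
    have h1 : -((t ^ 2 * p) + (t ^ 2 * p) ^ 2 / 2 + (t ^ 2 * p) ^ 3 / 3 + (t ^ 2 * p) ^ 4 / 4
        + 10 / 7 * (t ^ 2 * p) ^ 5) * (1 / t ^ 2) = -p + -T := by
      rw [hT]
      field_simp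
      ring
    rw [← h1]
    exact mul_le_mul_of_nonneg_right hl (by positivity)
  calc exp (-p) * (1 - T + T ^ 2 / 2 - T ^ 3 / 6) ≤ exp (-p) * exp (-T) :=
        mul_le_mul_of_nonneg_left (exp_neg_ge_three hT0) (exp_pos _).le
    _ = exp (-p + -T) := (exp_add _ _).symm
    _ ≤ exp (log (1 - t ^ 2 * p) * (1 / t ^ 2)) := exp_le_exp.2 key

/-! ### Monotonicity in the degree: Poisson -/

/-- Monotonicity of the Poisson map in the degree. -/
theorem poi_mono {a b ys yc d D : ℝ} (hd : 0 ≤ d) (hdD : d ≤ D) (hc : b * yc ≤ a * ys)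
    (hb : 0 ≤ b * yc) (hs : ys ≤ yc) :
    a * (1 - exp (-(d * ys))) - b * (1 - exp (-(d * yc)))
      ≤ a * (1 - exp (-(D * ys))) - b * (1 - exp (-(D * yc))) := by
  have hm : MonotoneOn
      (fun x : ℝ => a * (1 - exp (-(x * ys))) - b * (1 - exp (-(x * yc)))) (Ici 0) := by
    apply monotoneOn_of_deriv_nonneg (convex_Ici 0)
    · fun_prop
    · fun_prop
    · intro x hx
      have hx0 : (0 : ℝ) ≤ x := interior_subset hx
      have h1 : ∀ y : ℝ, HasDerivAt (fun x : ℝ => 1 - exp (-(x * y))) (y * exp (-(x * y))) x := by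
        intro y
        have h2 : HasDerivAt (fun x : ℝ => -(x * y)) (-y) x := by
          have := ((hasDerivAt_id' x).mul_const y).fun_neg
          simpa using this
        exact ((h2.exp).const_sub 1).congr_deriv (by ring)
      have hd := ((h1 ys).const_mul a).fun_sub ((h1 yc).const_mul b)
      rw [hd.deriv]
      have h3 : exp (-(x * yc)) ≤ exp (-(x * ys)) := by
        apply exp_le_exp.2
        have := mul_le_mul_of_nonneg_left hs hx0
        linarith
      have h4 : b * yc * exp (-(x * yc)) ≤ b * yc * exp (-(x * ys)) :=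
        mul_le_mul_of_nonneg_left h3 hb
      have h5 : b * yc * exp (-(x * ys)) ≤ a * ys * exp (-(x * ys)) :=
        mul_le_mul_of_nonneg_right hc (exp_pos _).le
      nlinarith
  exact hm (mem_Ici.2 hd) (mem_Ici.2 (hd.trans hdD)) hdD

/-! ### Monotonicity in the degree: regular trees -/

/-- The function `l(y) (1-y)^2 / y` is antitone on `(0,1)`. -/
theorem gh_antitone : AntitoneOn (fun y : ℝ => -log (1 - y) * (1 - y) ^ 2 / y) (Ioo 0 1) := by
  have hd : ∀ y ∈ Ioo (0 : ℝ) 1, HasDerivAt (fun y : ℝ => -log (1 - y) * (1 - y) ^ 2 / y)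
      ((1 - y) * (y + log (1 - y) * (1 + y)) / y ^ 2) y := by
    intro y hy
    obtain ⟨h0, h1⟩ := hy
    have hne : 1 - y ≠ 0 := by linarith
    have h2 : HasDerivAt (fun y : ℝ => 1 - y) (-1) y := by
      simpa using (hasDerivAt_id y).const_sub 1
    have h3 : HasDerivAt (fun y : ℝ => -log (1 - y)) (1 / (1 - y)) y := by
      have := (h2.log hne).fun_neg
      refine this.congr_deriv ?_
      field_simp
    have h4 : HasDerivAt (fun y : ℝ => (1 - y) ^ 2) (-(2 * (1 - y))) y := by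
      have := h2.fun_pow 2
      refine this.congr_deriv ?_
      norm_num
    have h5 := ((h3.fun_mul h4).fun_div (hasDerivAt_id' y) h0.ne')
    refine h5.congr_deriv ?_
    field_simp
    ring
  apply antitoneOn_of_deriv_nonpos (convex_Ioo 0 1)
  · exact fun y hy => (hd y hy).continuousAt.continuousWithinAt
  · intro y hy
    rw [interior_Ioo] at hy
    exact (hd y hy).differentiableAt.differentiableWithinAt
  · intro y hy
    rw [interior_Ioo] at hy
    rw [(hd y hy).deriv]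
    obtain ⟨h0, h1⟩ := hy
    have hl := log_one_sub_le h0.le h1
    have hy2 : y + log (1 - y) * (1 + y) ≤ 0 := by
      have h2 : log (1 - y) ≤ -y := by
        have : 0 ≤ y ^ 2 / 2 + y ^ 3 / 3 + y ^ 4 / 4 := by positivity
        linarith
      nlinarith
    apply div_nonpos_of_nonpos_of_nonneg _ (by positivity)
    exact mul_nonpos_of_nonneg_of_nonpos (by linarith) hy2

/-- The inequality between the two derivatives at exponent two. -/
theorem g_ineq {a b ys yc : ℝ} (hs0 : 0 ≤ ys) (hsc : ys ≤ yc) (hc : yc < 1) (hb : 0 ≤ b)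
    (hab : b * yc ≤ a * ys) :
    b * (-log (1 - yc) * (1 - yc) ^ 2) ≤ a * (-log (1 - ys) * (1 - ys) ^ 2) := by
  rcases eq_or_lt_of_le hs0 with h | h
  · subst h
    rcases eq_or_lt_of_le (hs0.trans hsc) with h2 | h2
    · subst h2
      simp
    · have hb0 : b = 0 := by
        have : b * yc ≤ 0 := by simpa using hab
        nlinarith
      subst hb0
      simp
  · have hcpos : 0 < yc := lt_of_lt_of_le h hsc
    have hanti := gh_antitone (a := ys) (b := yc) ⟨h, by linarith⟩ ⟨hcpos, hc⟩ hsc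
    simp only at hanti
    set gs := -log (1 - ys) * (1 - ys) ^ 2 with hgs
    set gc := -log (1 - yc) * (1 - yc) ^ 2 with hgc
    have hgs0 : 0 ≤ gs := by
      rw [hgs]
      have h1 : log (1 - ys) ≤ 0 := log_nonpos (by linarith) (by linarith)
      have h2 := sq_nonneg (1 - ys)
      nlinarith
    have h1 : b * yc * (gs / ys) ≤ a * ys * (gs / ys) :=
      mul_le_mul_of_nonneg_right hab (by positivity)
    have h2 : b * yc * (gc / yc) ≤ b * yc * (gs / ys) :=
      mul_le_mul_of_nonneg_left hanti (by positivity)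
    have e1 : a * ys * (gs / ys) = a * gs := by
      field_simp
    have e2 : b * yc * (gc / yc) = b * gc := by
      field_simp
    linarith

/-- Monotonicity of the regular map in the degree. -/
theorem reg_mono {a b ys yc : ℝ} {d : ℕ} {D : ℝ} (hd : 2 ≤ d) (hdD : (d : ℝ) ≤ D) (hs0 : 0 ≤ ys)
    (hsc : ys ≤ yc) (hc : yc < 1) (hb : 0 ≤ b) (hab : b * yc ≤ a * ys) :
    a * (1 - (1 - ys) ^ d) - b * (1 - (1 - yc) ^ d)
      ≤ a * (1 - (1 - ys) ^ D) - b * (1 - (1 - yc) ^ D) := by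
  have hps : 0 < 1 - ys := by linarith
  have hpc : 0 < 1 - yc := by linarith
  have hder : ∀ x : ℝ, HasDerivAt (fun x : ℝ => a * (1 - (1 - ys) ^ x) - b * (1 - (1 - yc) ^ x))
      (a * (-log (1 - ys)) * (1 - ys) ^ x - b * (-log (1 - yc)) * (1 - yc) ^ x) x := by
    intro x
    have h1 := (Real.hasStrictDerivAt_const_rpow hps x).hasDerivAt
    have h2 := (Real.hasStrictDerivAt_const_rpow hpc x).hasDerivAt
    have := ((h1.const_sub 1).const_mul a).fun_sub ((h2.const_sub 1).const_mul b)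
    exact this.congr_deriv (by ring)
  have hm : MonotoneOn (fun x : ℝ => a * (1 - (1 - ys) ^ x) - b * (1 - (1 - yc) ^ x)) (Ici 2) := by
    apply monotoneOn_of_deriv_nonneg (convex_Ici 2)
    · exact fun x _ => (hder x).continuousAt.continuousWithinAt
    · exact fun x _ => (hder x).differentiableAt.differentiableWithinAt
    · intro x hx
      rw [interior_Ici] at hx
      have hx2 : (2 : ℝ) ≤ x := le_of_lt hx
      rw [(hder x).deriv]
      have hg := g_ineq hs0 hsc hc hb hab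
      have es : (1 - ys) ^ x = (1 - ys) ^ 2 * (1 - ys) ^ (x - 2) := by
        rw [← rpow_natCast (1 - ys) 2, ← rpow_add hps]
        congr 1
        norm_num
      have ec : (1 - yc) ^ x = (1 - yc) ^ 2 * (1 - yc) ^ (x - 2) := by
        rw [← rpow_natCast (1 - yc) 2, ← rpow_add hpc]
        congr 1
        norm_num
      have hmon : (1 - yc) ^ (x - 2) ≤ (1 - ys) ^ (x - 2) :=
        rpow_le_rpow hpc.le (by linarith) (by linarith)
      have hl : 0 ≤ -log (1 - ys) := by
        have h1 : log (1 - ys) ≤ 0 := log_nonpos (by linarith) (by linarith)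
        linarith
      have h3 : 0 ≤ a * (-log (1 - ys) * (1 - ys) ^ 2) ∨ True := Or.inr trivial
      have hc0 : 0 ≤ (1 - yc) ^ (x - 2) := (rpow_pos_of_pos hpc _).le
      have hk : b * (-log (1 - yc) * (1 - yc) ^ 2) * (1 - yc) ^ (x - 2)
          ≤ a * (-log (1 - ys) * (1 - ys) ^ 2) * (1 - yc) ^ (x - 2) :=
        mul_le_mul_of_nonneg_right hg hc0
      have ha0 : 0 ≤ a * (-log (1 - ys) * (1 - ys) ^ 2) := by
        refine le_trans ?_ hg
        have h1 : log (1 - yc) ≤ 0 := log_nonpos (by linarith) (by linarith)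
        have h2 := sq_nonneg (1 - yc)
        have h4 : 0 ≤ -log (1 - yc) * (1 - yc) ^ 2 := mul_nonneg (by linarith) h2
        exact mul_nonneg hb h4
      have hk2 : a * (-log (1 - ys) * (1 - ys) ^ 2) * (1 - yc) ^ (x - 2)
          ≤ a * (-log (1 - ys) * (1 - ys) ^ 2) * (1 - ys) ^ (x - 2) :=
        mul_le_mul_of_nonneg_left hmon ha0
      rw [es, ec]
      nlinarith
  have h2 : (2 : ℝ) ≤ d := by exact_mod_cast hd
  have := hm (mem_Ici.2 h2) (mem_Ici.2 (h2.trans hdD)) hdD
  simp only [rpow_natCast] at this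
  exact this

/-! ### Regular versus Poisson at small scale -/

/-- The second order defect of the logarithm scales quadratically. -/
theorem eps_scale {s c : ℝ} (hs : 0 ≤ s) (hsc : s ≤ c) (hc : c < 1) :
    c ^ 2 * (-log (1 - s) - s) ≤ s ^ 2 * (-log (1 - c) - c) := by
  have hc0 : 0 ≤ c := hs.trans hsc
  have key : ∀ y : ℝ, 0 ≤ y → y < 1 →
      HasSum (fun n : ℕ => y ^ (n + 2) / ((n : ℝ) + 2)) (-log (1 - y) - y) := by
    intro y h0 h1
    have habs : |y| < 1 := by
      rw [abs_of_nonneg h0]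
      exact h1
    have hs := hasSum_pow_div_log_of_abs_lt_one habs
    have h2 := (hasSum_nat_add_iff' 1).2 hs
    simp only [Finset.sum_range_one] at h2
    norm_num at h2
    have e : (fun n : ℕ => y ^ (n + 2) / ((n : ℝ) + 2))
        = fun n : ℕ => y ^ (n + 1 + 1) / ((n : ℝ) + 1 + 1) := by
      funext n
      have e1 : ((n : ℝ) + 2) = (n : ℝ) + 1 + 1 := by ring
      have e2 : n + 2 = n + 1 + 1 := rfl
      rw [e1, e2]
    rw [e]
    exact h2
  have h1 := (key s hs (by linarith)).mul_left (c ^ 2)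
  have h2 := (key c hc0 hc).mul_left (s ^ 2)
  refine hasSum_le (fun n => ?_) h1 h2
  have h3 : s ^ n ≤ c ^ n := pow_le_pow_left₀ hs hsc n
  have h4 : 0 ≤ (n : ℝ) + 2 := by positivity
  have e1 : c ^ 2 * (s ^ (n + 2) / ((n : ℝ) + 2)) = (c ^ 2 * s ^ 2 / ((n : ℝ) + 2)) * s ^ n := by
    rw [pow_add]
    ring
  have e2 : s ^ 2 * (c ^ (n + 2) / ((n : ℝ) + 2)) = (c ^ 2 * s ^ 2 / ((n : ℝ) + 2)) * c ^ n := by
    rw [pow_add]
    ring
  rw [e1, e2]
  exact mul_le_mul_of_nonneg_left h3 (by positivity)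

/-- The power through the defect of the logarithm. -/
theorem rpow_eps {D y : ℝ} (hy : y < 1) :
    (1 - y) ^ D = exp (-(D * y)) * exp (-(D * (-log (1 - y) - y))) := by
  rw [rpow_def_of_pos (by linarith), ← exp_add]
  congr 1
  ring

/-- The defect of the logarithm is nonnegative. -/
theorem eps_nonneg {y : ℝ} (h0 : 0 ≤ y) (h1 : y < 1) : 0 ≤ -log (1 - y) - y := by
  have := log_one_sub_le h0 h1
  have h2 : 0 ≤ y ^ 2 / 2 + y ^ 3 / 3 + y ^ 4 / 4 := by positivity
  linarith

/-- Upper bound for the defect of the logarithm at small scale. -/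
theorem eps_le {c : ℝ} (h0 : 0 ≤ c) (h1 : c ≤ 7 / 200) :
    -log (1 - c) - c ≤ 200 / 193 * c ^ 2 := by
  have hlc : c < 1 := by linarith
  have habs : |c| < 1 := by
    rw [abs_of_nonneg h0]
    exact hlc
  have hs := abs_log_sub_add_sum_range_le habs 1
  simp only [Finset.sum_range_succ, Finset.sum_range_zero] at hs
  rw [abs_of_nonneg h0] at hs
  norm_num at hs
  have h2 := (abs_le.1 hs).1
  have h3 : c ^ 2 / (1 - c) ≤ 200 / 193 * c ^ 2 := by
    rw [div_le_iff₀ (by linarith)]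
    nlinarith [sq_nonneg c, mul_nonneg (sq_nonneg c) (sub_nonneg.2 h1)]
  linarith

theorem exp_mul_one_sub_le (x : ℝ) : exp x * (1 - x) ≤ 1 := by
  have h1 := add_one_le_exp (-x)
  have h3 : exp x * exp (-x) = 1 := by
    rw [← exp_add]
    simp
  have h4 : exp x * (1 - x) ≤ exp x * exp (-x) :=
    mul_le_mul_of_nonneg_left (by linarith) (exp_pos _).le
  linarith

/-- The exponential factor in the comparison of the regular and Poisson maps. -/
theorem factor_bound {r Z : ℝ} (hr1 : r ≤ 217 / 250) (hr0 : 0 ≤ r)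
    (hZ : Z ≤ 7 / 200) :
    r ^ 2 * exp (Z * (1 - 217 / 250)) * exp (Z * (217 / 250 - r))
      ≤ (217 / 250) ^ 2 * (100465 / 100000) := by
  have hf1 : r ^ 2 * exp (Z * (217 / 250 - r)) ≤ (217 / 250) ^ 2 := by
    set x := Z * (217 / 250 - r) with hx
    have h2 := exp_mul_one_sub_le x
    have h3 : r ^ 2 ≤ (217 / 250) ^ 2 * (1 - x) := by
      have h4 : Z * (217 / 250) ^ 2 ≤ 217 / 250 + r := by nlinarith
      have h5 : 0 ≤ 217 / 250 - r := by linarith
      have h6 := mul_le_mul_of_nonneg_right h4 h5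
      rw [hx]
      nlinarith
    calc r ^ 2 * exp x ≤ (217 / 250) ^ 2 * (1 - x) * exp x :=
          mul_le_mul_of_nonneg_right h3 (exp_pos _).le
      _ = (217 / 250) ^ 2 * (exp x * (1 - x)) := by ring
      _ ≤ (217 / 250) ^ 2 * 1 := mul_le_mul_of_nonneg_left h2 (by positivity)
      _ = (217 / 250) ^ 2 := by ring
  have hf2 : exp (Z * (1 - 217 / 250)) ≤ 100465 / 100000 := by
    set x := Z * (1 - 217 / 250) with hx
    have hx1 : x ≤ 231 / 50000 := by
      rw [hx]
      nlinarith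
    have h2 := exp_mul_one_sub_le x
    by_contra hn
    push Not at hn
    have h5 : (100465 / 100000 : ℝ) * (1 - 231 / 50000) ≤ exp x * (1 - x) :=
      mul_le_mul hn.le (by linarith) (by norm_num) (exp_pos _).le
    norm_num at h5
    linarith
  calc _ = exp (Z * (1 - 217 / 250)) * (r ^ 2 * exp (Z * (217 / 250 - r))) := by ring
    _ ≤ (100465 / 100000) * (217 / 250) ^ 2 :=
      mul_le_mul hf2 hf1 (by positivity) (by norm_num)
    _ = _ := by ring

/-- The lower bound of the defect `W` at the larger point. -/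
theorem W_lower {D c : ℝ} (hlc : c < 1) (hx20 : 0 ≤ D * (-log (1 - c) - c)) :
    exp (-(D * c)) * (D * (-log (1 - c) - c) - (D * (-log (1 - c) - c)) ^ 2 / 2)
      ≤ exp (-(D * c)) - (1 - c) ^ D := by
  rw [rpow_eps hlc]
  set x2 := D * (-log (1 - c) - c)
  have h1 := exp_neg_le_two hx20
  have h2 : exp (-(D * c)) * (x2 - x2 ^ 2 / 2) ≤ exp (-(D * c)) * (1 - exp (-x2)) :=
    mul_le_mul_of_nonneg_left (by linarith) (exp_pos _).le
  have e : exp (-(D * c)) * (1 - exp (-x2)) = exp (-(D * c)) - exp (-(D * c)) * exp (-x2) := by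
    ring
  linarith

/-- The upper bound of the defect `W` at the smaller point. -/
theorem W_upper {D s : ℝ} (hls : s < 1) :
    exp (-(D * s)) - (1 - s) ^ D ≤ exp (-(D * s)) * (D * (-log (1 - s) - s)) := by
  rw [rpow_eps hls]
  set es := D * (-log (1 - s) - s)
  have h1 := add_one_le_exp (-es)
  have h2 : exp (-(D * s)) * (1 - exp (-es)) ≤ exp (-(D * s)) * es :=
    mul_le_mul_of_nonneg_left (by linarith) (exp_pos _).le
  have e : exp (-(D * s)) * (1 - exp (-es)) = exp (-(D * s)) - exp (-(D * s)) * exp (-es) := by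
    ring
  linarith

/-- The numerical core of the comparison. -/
theorem W_core {a b r Z x2 : ℝ} (ha : a = 384 / 37) (hb : b = 291 / 37) (hr0 : 0 ≤ r)
    (hr1 : r ≤ 217 / 250) (hZ0 : 0 ≤ Z) (hZ : Z ≤ 7 / 200) (hx21 : x2 ≤ 1 / 700) :
    a * (r ^ 2 * exp (Z * (1 - 217 / 250)) * exp (Z * (217 / 250 - r))) ≤ b * (1 - x2 / 2) := by
  have h1 := factor_bound hr1 hr0 hZ
  rw [ha, hb]
  have h3 := mul_le_mul_of_nonneg_left h1 (show (0 : ℝ) ≤ 384 / 37 by norm_num)
  norm_num at h3 ⊢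
  linarith

/-- The regular map lies below the Poisson map at small scale. -/
theorem reg_le_poi {a b ys yc D : ℝ} (ha : a = 384 / 37) (hb : b = 291 / 37) (hD1 : 1 ≤ D)
    (hs0 : 0 ≤ ys) (hr : ys ≤ 217 / 250 * yc) (hZ : D * yc ≤ 7 / 200) :
    a * (1 - (1 - ys) ^ D) - b * (1 - (1 - yc) ^ D)
      ≤ a * (1 - exp (-(D * ys))) - b * (1 - exp (-(D * yc))) := by
  have hc0 : 0 ≤ yc := by linarith
  have hc1 : yc ≤ 7 / 200 := by nlinarith
  have hsc : ys ≤ yc := by linarith
  have hD0 : 0 < D := by linarith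
  have hb0 : 0 ≤ b := by
    rw [hb]
    norm_num
  have ha0 : 0 ≤ a := by
    rw [ha]
    norm_num
  suffices hW : a * (exp (-(D * ys)) - (1 - ys) ^ D) ≤ b * (exp (-(D * yc)) - (1 - yc) ^ D) by
    linarith
  rcases eq_or_lt_of_le hc0 with h | hc
  · subst h
    have : ys = 0 := by linarith
    subst this
    simp
  obtain ⟨r, rfl⟩ : ∃ r, ys = r * yc := ⟨ys / yc, by field_simp⟩
  have hr0 : 0 ≤ r := by
    by_contra hn
    push Not at hn
    nlinarith
  have hr1 : r ≤ 217 / 250 := by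
    by_contra hn
    push Not at hn
    nlinarith
  have hlc : yc < 1 := by linarith
  have hls : r * yc < 1 := by nlinarith
  have hec0 := eps_nonneg hc0 hlc
  have hes0 := eps_nonneg (y := r * yc) (by positivity) hls
  have hes1 : -log (1 - r * yc) - r * yc ≤ r ^ 2 * (-log (1 - yc) - yc) := by
    have := eps_scale (s := r * yc) (c := yc) (by positivity) hsc hlc
    have h2 : yc ^ 2 * (-log (1 - r * yc) - r * yc) ≤ yc ^ 2 * (r ^ 2 * (-log (1 - yc) - yc)) := by
      calc _ ≤ (r * yc) ^ 2 * (-log (1 - yc) - yc) := this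
        _ = _ := by ring
    exact le_of_mul_le_mul_left h2 (by positivity)
  have hx20 : 0 ≤ D * (-log (1 - yc) - yc) := by positivity
  have hx21 : D * (-log (1 - yc) - yc) ≤ 1 / 700 := by
    have h4 := mul_le_mul_of_nonneg_left (eps_le hc0 hc1) hD0.le
    have h6 : 200 / 193 * (D * yc) * yc ≤ 200 / 193 * (7 / 200) * (7 / 200) := by
      apply mul_le_mul _ hc1 hc0 (by positivity)
      linarith
    norm_num at h6
    nlinarith
  have hWc := W_lower hlc hx20
  have hWs := W_upper (D := D) hls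
  have hWs2 : exp (-(D * (r * yc))) * (D * (-log (1 - r * yc) - r * yc))
      ≤ exp (-(D * (r * yc))) * (r ^ 2 * (D * (-log (1 - yc) - yc))) := by
    apply mul_le_mul_of_nonneg_left _ (exp_pos _).le
    have := mul_le_mul_of_nonneg_left hes1 hD0.le
    nlinarith
  have hexp : exp (-(D * (r * yc))) = exp (-(D * yc)) * exp ((D * yc) * (1 - 217 / 250))
      * exp ((D * yc) * (217 / 250 - r)) := by
    rw [← exp_add, ← exp_add]
    congr 1
    ring
  have hmain := W_core ha hb hr0 hr1 (by positivity) hZ hx21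
  set Z := D * yc with hZdef
  set x2 := D * (-log (1 - yc) - yc) with hx2
  have hk1 : a * (exp (-(D * (r * yc))) - (1 - r * yc) ^ D)
      ≤ a * (exp (-(D * (r * yc))) * (r ^ 2 * x2)) :=
    mul_le_mul_of_nonneg_left (hWs.trans hWs2) ha0
  have hk2 : b * (exp (-Z) * (x2 - x2 ^ 2 / 2)) ≤ b * (exp (-Z) - (1 - yc) ^ D) :=
    mul_le_mul_of_nonneg_left hWc hb0
  refine hk1.trans (le_trans ?_ hk2)
  rw [hexp]
  have hk3 := mul_le_mul_of_nonneg_left hmain (mul_nonneg (exp_pos (-Z)).le hx20)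
  calc _ = exp (-Z) * x2 * (a * (r ^ 2 * exp (Z * (1 - 217 / 250)) * exp (Z * (217 / 250 - r)))) := by
        ring
    _ ≤ exp (-Z) * x2 * (b * (1 - x2 / 2)) := hk3
    _ = _ := by ring

end

end Vale.Agent.P154.Hel.Q3
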