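import Vale.Agent.P154.Hel.Law

/-!
The Hellinger Lyapunov method on the `d`-ary tree.
-/

namespace Vale.Agent.P154

namespace Hel

noncomputable section

open Finset Filter Topology

/-- The law of a point mass on the spin. -/
theorem isLawN_delta : IsLawN (fun (t i : Fin 3) => if t = i then (1 : ℝ) else 0) where
  nonneg := fun t i => by split_ifs <;> norm_num
  norm := fun i => by simp
  symm := fun g => by
    refine ⟨g.symm, fun t i => ?_⟩
    simp [Equiv.symm_apply_eq]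

theorem isLawN_Lk (d : ℕ) {lam : ℝ} (h0 : -(1 / 2) ≤ lam) (h1 : lam ≤ 1) (n : ℕ) :
    IsLawN (Lk d lam n) := by
  induction n with
  | zero =>
    have : Lk d lam 0 = fun τ i => (fun (t i : Fin 3) => if t = i then (1 : ℝ) else 0)
        (zeroEquiv d τ) i := by
      funext τ i
      rfl
    rw [this]
    exact isLawN_delta.comp_equiv (zeroEquiv d)
  | succ n ih =>
    rw [Lk_succ]
    exact ((ih.chan h0 h1).pow d).comp_equiv (splitEquiv d n)

/-- The Hellinger transform at the next level. -/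
theorem Ht_Lk_succ (d : ℕ) {lam : ℝ} (h0 : -(1 / 2) ≤ lam) (h1 : lam ≤ 1) (n : ℕ)
    (s : Fin 3 → ℝ) :
    Ht s (Lk d lam (n + 1)) = (Ht s (chanLaw lam (Lk d lam n))) ^ d := by
  rw [Lk_succ, Ht_comp_equiv, Ht_pow s ((isLawN_Lk d h0 h1 n).chan h0 h1).nonneg]

/-- The statistical quantity in terms of a nonnegative law. -/
theorem reconA_eqN (d : ℕ) {lam : ℝ} (n : ℕ) (hL : IsLawN (Lk d lam n)) :
    reconA 3 d lam n = ∑ τ, (1 / 6) *
      (|Lk d lam n τ 0 - (Lk d lam n τ 0 + Lk d lam n τ 1 + Lk d lam n τ 2) / 3|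
      + |Lk d lam n τ 1 - (Lk d lam n τ 0 + Lk d lam n τ 1 + Lk d lam n τ 2) / 3|
      + |Lk d lam n τ 2 - (Lk d lam n τ 0 + Lk d lam n τ 1 + Lk d lam n τ 2) / 3|) := by
  unfold reconA
  refine Finset.sum_congr rfl fun τ _ => ?_
  have p0 := hL.nonneg τ 0
  have p1 := hL.nonneg τ 1
  have p2 := hL.nonneg τ 2
  unfold Lk at p0 p1 p2 ⊢
  obtain ⟨x0, hx0⟩ : ∃ x, x = leafLik 3 d lam n 0 τ := ⟨_, rfl⟩
  obtain ⟨x1, hx1⟩ : ∃ x, x = leafLik 3 d lam n 1 τ := ⟨_, rfl⟩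
  obtain ⟨x2, hx2⟩ : ∃ x, x = leafLik 3 d lam n 2 τ := ⟨_, rfl⟩
  have hs : leafProb 3 d lam n τ = (x0 + x1 + x2) / 3 := by
    unfold leafProb
    rw [Fin.sum_univ_three, ← hx0, ← hx1, ← hx2]
    push_cast
    ring
  rw [hs, Fin.sum_univ_three, ← hx0, ← hx1, ← hx2]
  rw [← hx0] at p0
  rw [← hx1] at p1
  rw [← hx2] at p2
  obtain ⟨s, hss⟩ : ∃ s, s = (x0 + x1 + x2) / 3 := ⟨_, rfl⟩
  rw [← hss]
  by_cases hs0' : s = 0
  · have e0 : x0 = 0 := by linarith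
    have e1 : x1 = 0 := by linarith
    have e2 : x2 = 0 := by linarith
    subst e0 e1 e2
    rw [hs0']
    simp
  have hs0 : 0 < s := by
    refine lt_of_le_of_ne ?_ (Ne.symm hs0')
    rw [hss]
    positivity
  have key : ∀ x : ℝ, s * |(1 / ((3 : ℕ) : ℝ)) * x / s - 1 / ((3 : ℕ) : ℝ)| = (1 / 3) * |x - s| := by
    intro x
    have e : (1 / ((3 : ℕ) : ℝ)) * x / s - 1 / ((3 : ℕ) : ℝ) = (x - s) * (1 / (3 * s)) := by
      push_cast
      field_simp
    rw [e, abs_mul, abs_of_pos (by positivity : 0 < 1 / (3 * s))]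
    field_simp
  have e3 : s * ((1 / 2) * (|(1 / ((3 : ℕ) : ℝ)) * x0 / s - 1 / ((3 : ℕ) : ℝ)|
      + |(1 / ((3 : ℕ) : ℝ)) * x1 / s - 1 / ((3 : ℕ) : ℝ)|
      + |(1 / ((3 : ℕ) : ℝ)) * x2 / s - 1 / ((3 : ℕ) : ℝ)|))
      = (1 / 2) * (s * |(1 / ((3 : ℕ) : ℝ)) * x0 / s - 1 / ((3 : ℕ) : ℝ)|
      + s * |(1 / ((3 : ℕ) : ℝ)) * x1 / s - 1 / ((3 : ℕ) : ℝ)|
      + s * |(1 / ((3 : ℕ) : ℝ)) * x2 / s - 1 / ((3 : ℕ) : ℝ)|) := by ring
  rw [e3, key, key, key]
  ring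

/-- Nonreconstruction on the `d`-ary tree from the key inequality. -/
theorem hel_regular {ι : Type*} [Fintype ι] {w : ι → ℝ} {s : ι → Fin 3 → ℝ}
    (hs : ∀ j, AdmS (s j)) {d : ℕ} {lam κ : ℝ} (h0 : -(1 / 2) ≤ lam) (h1 : lam ≤ 1) (hκ : 0 < κ)
    (hK : RegKey w s d lam κ) : Tendsto (reconA 3 d lam) atTop (𝓝 0) := by
  have hL := isLawN_Lk d h0 h1
  have hY : Tendsto (fun n => YY (Lk d lam n)) atTop (𝓝 0) := by
    refine tendsto_zero_of_telescope (V := fun n => VV w s (Lk d lam n)) (κ := κ)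
      (B := ∑ j, |w j|) hκ (fun n => (hL n).YY_nonneg) (fun n => (hL n).abs_VV_le w hs) (fun n => ?_)
    obtain ⟨c, c0, e, h2, h3⟩ := hK _ _ ((hL n).hull hs h0 h1)
    have h4 := (hL n).key_sum hs h0 h1 h3
    have h5 : VV w s (Lk d lam (n + 1))
        = ∑ j, w j * (1 - (1 - (1 - Ht (s j) (chanLaw lam (Lk d lam n)))) ^ d) := by
      unfold VV
      refine Finset.sum_congr rfl fun j _ => ?_
      rw [Ht_Lk_succ d h0 h1]
      congr 3
      ring
    rw [h5]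
    linarith
  have hsq : Tendsto (fun n => Real.sqrt (YY (Lk d lam n) / 2)) atTop (𝓝 0) := by
    have := (Real.continuous_sqrt.tendsto (0 / 2)).comp (hY.div_const 2)
    have e : Real.sqrt (0 / 2) = 0 := by simp
    rw [e] at this
    exact this
  refine squeeze_zero (fun n => ?_) (fun n => ?_) hsq
  · rw [reconA_eqN d n (hL n)]
    refine Finset.sum_nonneg fun τ _ => ?_
    positivity
  · rw [reconA_eqN d n (hL n)]
    exact Real.le_sqrt_of_sq_le (hL n).sq_sum_le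

end

end Hel

end Vale.Agent.P154
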