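import Vale.Agent.P154.Hel.Q3SmallZ
import Vale.Agent.P154.Hel.Q3Scalar
import Vale.Agent.P154.Hel.Q3E
import Vale.Agent.P154.Hel.GW
import Vale.Agent.P154.Hel.Tree

/-!
The assembly: the key inequalities `PoiKey`, `RegKey` for `ww`, `ss`, at `lam = -t`, `0 < t <= tauMax`,
`d t^2 <= 1`, and the nonreconstruction statements.
-/

namespace Vale.Agent.P154.Hel.Q3

noncomputable section

open Real

/-- The constant of the key. -/
def kap : ℝ := 1 / 1000

/-- The range of the tangent point of the regular cells. -/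
def regPNat (d : PCell) : Bool := Nat.ble d.p 24576

theorem reg_p_nat : (regL.all regPNat) = true := by
  decide +kernel

theorem reg_p_le {d : PCell} (hd : d ∈ regL) : nz d.p ≤ 3 / 2 := by
  have h := Nat.le_of_ble_eq_true (List.all_eq_true.1 reg_p_nat d hd)
  have h' : (d.p : ℝ) ≤ 24576 := by exact_mod_cast h
  unfold nz
  rw [div_le_iff₀ (by norm_num)]
  linarith

theorem t2_le' {t : ℝ} (h0 : 0 < t) (h1 : t ≤ tauMax) : t ^ 2 ≤ 1 / 5 :=
  t2_le h0.le h1

/-- The term `kap Y^2` is absorbed. -/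
theorem kap_absorb {Y c : ℝ} (hY : 0 ≤ Y) (h : Y ≤ 1000 * c) (_hc : 0 ≤ c) : kap * Y ^ 2 ≤ c * Y := by
  unfold kap
  nlinarith

/-- The scalar step for the Poisson tree at the critical mean. -/
theorem poi_step {t : ℝ} {y : Fin 2 → ℝ} {Y : ℝ} (h0 : 0 < t) (h1 : t ≤ tauMax) (hf : HullFacts t y Y) :
    ∃ P q c v : ℝ, 0 ≤ P ∧ 0 ≤ q ∧ PlaneOK P q v c t ∧
      aw * (1 - exp (-(1 / t ^ 2 * y 0))) - bw * (1 - exp (-(1 / t ^ 2 * y 1))) + kap * Y ^ 2
        ≤ P * (1 / t ^ 2 * y 0) - q * (1 / t ^ 2 * y 1) + c * Y + v := by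
  have ht2 : 0 < t ^ 2 := by positivity
  set zs := 1 / t ^ 2 * y 0 with hzs
  set zc := 1 / t ^ 2 * y 1 with hzc
  have hz0 : 0 ≤ zc := by
    rw [hzc]
    have := hf.ys_nonneg.trans hf.ys_le
    positivity
  have hz1 : zc ≤ 43 / 25 := by
    rw [hzc, one_div, inv_mul_le_iff₀ ht2]
    linarith [hf.yc_le]
  have hY : Y ≤ 29 / 25 * zc := by
    have h := hf.Y_le
    rw [hzc]
    field_simp
    nlinarith
  have hY0 := hf.Y_nonneg
  have ha := aw_pos
  have hb := bw_pos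
  by_cases hsmall : zc ≤ 41 / 4096
  · refine ⟨aw * exp (-(41 / 48 * zc)), Qp zc, zc / 500, vS zc, by positivity, Qp_nonneg hsmall,
      small_plane hz0 hsmall h0.le h1, ?_⟩
    have hk : kap * Y ^ 2 ≤ zc / 500 * Y := by
      apply kap_absorb hY0 _ (by positivity)
      nlinarith
    have hs := poi_scalar (a := aw) (b := bw) (q := Qp zc) (v := vS zc) (E := exp (-(41 / 48 * zc)))
      (E1 := exp (-zc)) (E2 := exp (-zc)) (p := 41 / 48 * zc) (Z1 := zc) (Z2 := zc) (zs := zs) (zc := zc)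
      ha.le hb.le (exp_pos _).le le_rfl le_rfl le_rfl le_rfl le_rfl
      (by unfold vS; apply le_of_eq; ring) (by unfold vS; apply le_of_eq; ring)
    linarith
  · rw [not_le] at hsmall
    obtain ⟨d, hd, hd1, hd2⟩ := poi_cover (z := zc) (by norm_num at hsmall ⊢; linarith) hz1
    have hc := poi_facts hd
    refine ⟨aw * ne d.E, poiQ d, d.c0, poiV d, mul_nonneg ha.le hc.e0, poiQ_nonneg hc,
      poi_plane hd h0.le h1, ?_⟩
    have hk : kap * Y ^ 2 ≤ d.c0 * Y := by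
      apply kap_absorb hY0 _ (by unfold PCell.c0; have := hc.z1pos; positivity)
      unfold PCell.c0
      have := hc.rat
      nlinarith
    have hch : poiQ d * (nz d.Z2 - nz d.Z1) = bw * (ne d.E1 - ne d.E2) := by
      unfold poiQ chordQ
      have h3 : nz d.Z2 - nz d.Z1 ≠ 0 := (sub_pos.2 hc.z12).ne'
      field_simp
    have hs := poi_scalar (a := aw) (b := bw) (q := poiQ d) (v := poiV d) (E := ne d.E)
      (E1 := ne d.E1) (E2 := ne d.E2) (p := nz d.p) (Z1 := nz d.Z1) (Z2 := nz d.Z2) (zs := zs) (zc := zc)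
      ha.le hb.le hc.e0 hc.hE hc.hE1 hc.hE2 hd1 hd2
      (by unfold poiV planeV; apply le_of_eq; ring)
      (by unfold poiV planeV; apply le_of_eq; linear_combination hch)
    linarith

/-- The scalar step for the regular tree at the critical degree. -/
theorem reg_step {t : ℝ} {y : Fin 2 → ℝ} {Y : ℝ} (h0 : 0 < t) (h1 : t ≤ tauMax) (hf : HullFacts t y Y) :
    ∃ P q c v : ℝ, 0 ≤ P ∧ 0 ≤ q ∧ PlaneOK P q v c t ∧
      aw * (1 - (1 - y 0) ^ (1 / t ^ 2)) - bw * (1 - (1 - y 1) ^ (1 / t ^ 2)) + kap * Y ^ 2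
        ≤ P * (1 / t ^ 2 * y 0) - q * (1 / t ^ 2 * y 1) + c * Y + v := by
  have ht2 : 0 < t ^ 2 := by positivity
  have ht5 := t2_le' h0 h1
  have hD1 : 1 ≤ 1 / t ^ 2 := by
    rw [le_div_iff₀ ht2]
    linarith
  have hDt : t ^ 2 * (1 / t ^ 2) = 1 := by field_simp
  set zs := 1 / t ^ 2 * y 0 with hzs
  set zc := 1 / t ^ 2 * y 1 with hzc
  have hz0 : 0 ≤ zc := by
    rw [hzc]
    have := hf.ys_nonneg.trans hf.ys_le
    positivity
  have hz1 : zc ≤ 43 / 25 := by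
    rw [hzc, one_div, inv_mul_le_iff₀ ht2]
    linarith [hf.yc_le]
  have hys : t ^ 2 * zs = y 0 := by
    rw [hzs]
    field_simp
  have hyc : t ^ 2 * zc = y 1 := by
    rw [hzc]
    field_simp
  have hY : Y ≤ 29 / 25 * zc := by
    have h := hf.Y_le
    rw [hzc]
    field_simp
    nlinarith
  have hY0 := hf.Y_nonneg
  have ha := aw_pos
  have hb := bw_pos
  by_cases hsmall : zc ≤ 573 / 16384
  · obtain ⟨P, q, c, v, hP, hq, hOK, hs⟩ := poi_step h0 h1 hf
    refine ⟨P, q, c, v, hP, hq, hOK, ?_⟩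
    have hle := reg_le_poi (a := aw) (b := bw) (ys := y 0) (yc := y 1) (D := 1 / t ^ 2) rfl rfl hD1
      hf.ys_nonneg hf.ratio (by rw [← hzc]; norm_num at hsmall ⊢; linarith)
    linarith
  · rw [not_le] at hsmall
    obtain ⟨d, hd, hd1, hd2⟩ := reg_cover (z := zc) hsmall.le hz1
    have hc := reg_facts hd
    obtain ⟨s0, s1, _⟩ := reg_side hd h0.le h1
    have hg := gR_pos hc.p0 hc.ple h0.le h1
    have hp32 := reg_p_le hd
    have hpt : t ^ 2 * nz d.p ≤ 3 / 10 := by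
      have := mul_le_mul ht5 hp32 hc.p0 (by norm_num : (0 : ℝ) ≤ 1 / 5)
      linarith
    have hpt0 : 0 ≤ t ^ 2 * nz d.p := mul_nonneg ht2.le hc.p0
    refine ⟨aw * regF d t * gR (nz d.p) t, regQ d t, d.c0, regV d t,
      mul_nonneg (mul_nonneg ha.le s0) hg.le, s1, reg_plane hd h0.le h1, ?_⟩
    have hk : kap * Y ^ 2 ≤ d.c0 * Y := by
      apply kap_absorb hY0 _ (by unfold PCell.c0; have := hc.z1pos; positivity)
      unfold PCell.c0
      have := hc.rat
      nlinarith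
    have hch : regQ d t * (nz d.Z2 - nz d.Z1) = bw * (regE1 d t - regE2 d t) := by
      unfold regQ chordQ
      have h3 : nz d.Z2 - nz d.Z1 ≠ 0 := (sub_pos.2 hc.z12).ne'
      field_simp
    -- the enclosures
    have hZ1t : t ^ 2 * nz d.Z1 < 1 := by
      have h3 := mul_le_mul ht5 (hc.z12.le.trans hc.z2le) hc.z1pos.le (by norm_num : (0 : ℝ) ≤ 1 / 5)
      linarith
    have hZ2t : t ^ 2 * nz d.Z2 < 1 := by
      have h3 := mul_le_mul ht5 hc.z2le (hc.z1pos.le.trans hc.z12.le) (by norm_num : (0 : ℝ) ≤ 1 / 5)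
      linarith
    have hb1 : ∀ T : ℝ, 0 ≤ 1 - T + T ^ 2 / 2 := fun T => by nlinarith [sq_nonneg (T - 1)]
    have hE1 : (1 - t ^ 2 * nz d.Z1) ^ (1 / t ^ 2) ≤ regE1 d t := by
      have h3 := rpow_hi h0 hc.z1pos.le hZ1t
      refine h3.trans ?_
      unfold regE1 eR
      exact mul_le_mul_of_nonneg_right hc.hE1 (hb1 _)
    have hE2 : (1 - t ^ 2 * nz d.Z2) ^ (1 / t ^ 2) ≤ regE2 d t := by
      have h3 := rpow_hi h0 (hc.z1pos.le.trans hc.z12.le) hZ2t
      refine h3.trans ?_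
      unfold regE2 eR
      exact mul_le_mul_of_nonneg_right hc.hE2 (hb1 _)
    have hF : regF d t ≤ (1 - t ^ 2 * nz d.p) ^ (1 / t ^ 2) := by
      have h3 := rpow_lo h0 hc.p0 hpt
      unfold regF fR
      set T := t ^ 2 * nz d.p ^ 2 / 2 + t ^ 4 * nz d.p ^ 3 / 3 + t ^ 6 * nz d.p ^ 4 / 4
        + 10 / 7 * t ^ 8 * nz d.p ^ 5 with hT
      by_cases hbr : 0 ≤ 1 - T + T ^ 2 / 2 - T ^ 3 / 6
      · exact (mul_le_mul_of_nonneg_right hc.hE hbr).trans h3
      · rw [not_le] at hbr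
        have h4 : ne d.E * (1 - T + T ^ 2 / 2 - T ^ 3 / 6) ≤ 0 :=
          mul_nonpos_of_nonneg_of_nonpos hc.e0 hbr.le
        exact h4.trans (Real.rpow_nonneg (by linarith) _)
    have hpos : 1 - t ^ 2 * nz d.p ≠ 0 := by
      have : 0 < 1 - t ^ 2 * nz d.p := by linarith
      exact this.ne'
    have ehg : gR (nz d.p) t = 1 / (1 - t ^ 2 * nz d.p) := by
      unfold gR
      rw [one_div]
    have hzs1 : t ^ 2 * zs ≤ 1 := by
      rw [hys]
      have := hf.ys_le.trans hf.yc_le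
      nlinarith
    have hs := reg_scalar (a := aw) (b := bw) (q := regQ d t) (v := regV d t) (F := regF d t)
      (E1 := regE1 d t) (E2 := regE2 d t) (p := nz d.p) (Z1 := nz d.Z1) (Z2 := nz d.Z2) (zs := zs) (zc := zc)
      (t2 := t ^ 2) (D := 1 / t ^ 2) ha.le hb.le ht2 hDt hD1 (by linarith) hzs1 hZ2t.le s0 hF hE1 hE2 hd1 hd2
      (by unfold regV planeV; rw [ehg])
      (by unfold regV planeV; rw [ehg]; apply le_of_eq; linear_combination hch)
    rw [hys, hyc] at hs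
    rw [ehg]
    linarith

theorem sum_ww (f : Fin 2 → ℝ) : ∑ j, ww j * f j = aw * f 0 + -bw * f 1 := by
  rw [Fin.sum_univ_two]
  rfl

theorem sum_cc_y {P q t : ℝ} (ht : t ≠ 0) (y : Fin 2 → ℝ) :
    ∑ j, cc P q t j * y j = P * (1 / t ^ 2 * y 0) - q * (1 / t ^ 2 * y 1) := by
  rw [sum_cc]
  field_simp
  ring

/-- The key inequality for the Poisson tree. -/
theorem poi_key {t d : ℝ} (h0 : 0 < t) (h1 : t ≤ tauMax) (hd0 : 0 ≤ d) (hd : d * t ^ 2 ≤ 1) :
    PoiKey ww ss d (-t) kap := by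
  intro y Y hy
  have hf := hull_facts E1_holds E2_holds h0 h1 hy
  obtain ⟨P, q, c, v, hP, hq, hOK, hs⟩ := poi_step h0 h1 hf
  refine ⟨cc P q t, c, v, ?_, fun x hx => plane_pointwise E1_holds E2_holds h0 h1 hP hq hOK hx⟩
  have ht2 : 0 < t ^ 2 := by positivity
  have hdD : d ≤ 1 / t ^ 2 := by
    rw [le_div_iff₀ ht2]
    exact hd
  have hm := poi_mono (a := aw) (b := bw) (ys := y 0) (yc := y 1) hd0 hdD hf.central
    (mul_nonneg bw_pos.le (hf.ys_nonneg.trans hf.ys_le)) hf.ys_le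
  rw [sum_ww, sum_cc_y h0.ne']
  linarith

/-- The key inequality for the regular tree. -/
theorem reg_key {t : ℝ} {d : ℕ} (h0 : 0 < t) (h1 : t ≤ tauMax) (hd2 : 2 ≤ d) (hd : (d : ℝ) * t ^ 2 ≤ 1) :
    RegKey ww ss d (-t) kap := by
  intro y Y hy
  have hf := hull_facts E1_holds E2_holds h0 h1 hy
  obtain ⟨P, q, c, v, hP, hq, hOK, hs⟩ := reg_step h0 h1 hf
  refine ⟨cc P q t, c, v, ?_, fun x hx => plane_pointwise E1_holds E2_holds h0 h1 hP hq hOK hx⟩
  have ht2 : 0 < t ^ 2 := by positivity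
  have hdD : (d : ℝ) ≤ 1 / t ^ 2 := by
    rw [le_div_iff₀ ht2]
    exact hd
  have ht5 := t2_le' h0 h1
  have hyc : y 1 < 1 := by
    have := hf.yc_le
    nlinarith
  have hm := reg_mono (a := aw) (b := bw) (ys := y 0) (yc := y 1) hd2 hdD hf.ys_nonneg hf.ys_le hyc
    bw_pos.le hf.central
  rw [sum_ww, sum_cc_y h0.ne']
  have e0 : aw * (1 - (1 - y 0) ^ d) + -bw * (1 - (1 - y 1) ^ d)
      = aw * (1 - (1 - y 0) ^ d) - bw * (1 - (1 - y 1) ^ d) := by ring
  rw [e0]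
  linarith

theorem tauMax_le_half : tauMax ≤ 1 / 2 := tauMax_lt.le

theorem kap_pos : 0 < kap := by
  unfold kap
  norm_num

/-- Nonreconstruction on the regular tree for `lam = -t`. -/
theorem recon_neg {t : ℝ} {d : ℕ} (h0 : 0 < t) (h1 : t ≤ tauMax) (hd2 : 2 ≤ d) (hd : (d : ℝ) * t ^ 2 ≤ 1) :
    Filter.Tendsto (reconA 3 d (-t)) Filter.atTop (nhds 0) :=
  hel_regular (w := ww) adm_ss (by linarith [tauMax_le_half]) (by linarith) kap_pos (reg_key h0 h1 hd2 hd)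

/-- Nonreconstruction on the Poisson tree for `lam = -t`. -/
theorem gw_neg {t d : ℝ} (h0 : 0 < t) (h1 : t ≤ tauMax) (hd0 : 0 ≤ d) (hd : d * t ^ 2 ≤ 1) :
    (∀ n, Summable fun T : DTree n => T.prob (poissonWeight d) * T.treeA 3 (-t))
      ∧ Filter.Tendsto (gwA 3 (poissonWeight d) (-t)) Filter.atTop (nhds 0) :=
  hel_poisson (w := ww) adm_ss hd0 (by linarith [tauMax_le_half]) (by linarith) kap_pos (poi_key h0 h1 hd0 hd)

end

end Vale.Agent.P154.Hel.Q3
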