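import Vale.Agent.P154.Hel.Reduce
import Vale.Agent.P154.Hel.Q3Main
import Vale.Agent.P154.GWMain

/-!
Final reductions of the corner `q = 3`, `lam = -t`, `t` in `(3345/8192, 1/2]`: it is enough to treat the
`4`-ary tree at `t = 1/2`, the `5`-ary tree at `t = 1/sqrt 5`, and the Poisson tree on the critical curve.
-/

namespace Vale.Agent.P154

namespace Hel

noncomputable section

open Filter Topology

/-- The regular trees of the corner. -/
theorem corner_regular (h4 : Tendsto (reconA 3 4 (-(1 / 2))) atTop (𝓝 0))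
    (h5 : Tendsto (reconA 3 5 (-Real.sqrt (1 / 5))) atTop (𝓝 0))
    {d : ℕ} {t : ℝ} (h0 : 3345 / 8192 < t) (h1 : t ≤ 1 / 2) (hd : (d : ℝ) * t ^ 2 ≤ 1) :
    Tendsto (reconA 3 d (-t)) atTop (𝓝 0) := by
  have ht0 : 0 < t := by linarith
  have ht2 : 1 / 6 < t ^ 2 := by nlinarith
  have hd6 : (d : ℝ) < 6 := by
    by_contra hcon
    push Not at hcon
    nlinarith
  have hd5 : d ≤ 5 := by
    have : d < 6 := by exact_mod_cast hd6
    omega
  rcases Nat.lt_or_ge d 5 with h | h
  · -- degrade to `(4, 1/2)`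
    have e : -t = (2 * t) * (-(1 / 2)) := by ring
    rw [e]
    exact recon_of_param (by omega) (by norm_num) (by norm_num) (by positivity) (by linarith) h4
  · -- degrade to `(5, 1/sqrt 5)`
    have hd5' : d = 5 := by omega
    subst hd5'
    push_cast at hd
    obtain ⟨r, hr⟩ : ∃ r, r = Real.sqrt (1 / 5) := ⟨_, rfl⟩
    have hr0 : 0 < r := by rw [hr]; positivity
    have hr2 : r ^ 2 = 1 / 5 := by
      rw [hr]
      exact Real.sq_sqrt (by norm_num)
    rw [← hr] at h5
    have htr : t ≤ r := by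
      by_contra hcon
      push Not at hcon
      nlinarith
    have hr1 : r ≤ 1 / 2 := by nlinarith
    have e : -t = (t / r) * (-r) := by
      field_simp
    rw [e]
    exact recon_of_param le_rfl (by linarith) (by linarith) (by positivity)
      ((div_le_one hr0).2 htr) h5

/-- The Poisson trees of the corner. -/
theorem corner_poisson
    {d t : ℝ} (h0 : 3345 / 8192 < t) (h1 : t ≤ 1 / 2) (hd0 : 0 ≤ d) (hd : d * t ^ 2 ≤ 1)
    (hc : Tendsto (gwA 3 (poissonWeight (1 / t ^ 2)) (-t)) atTop (𝓝 0)) :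
    (∀ n, Summable fun T : DTree n => T.prob (poissonWeight d) * T.treeA 3 (-t))
      ∧ Tendsto (gwA 3 (poissonWeight d) (-t)) atTop (𝓝 0) := by
  have ht0 : 0 < t := by linarith
  have hle : d ≤ 1 / t ^ 2 := by
    rw [le_div_iff₀ (by positivity)]
    exact hd
  exact gw_of_le hd0 hle (by linarith) (by linarith) hc

/-- The complete statement for `q = 3`, from the three critical statements of the corner. -/
theorem potts3_all_of_critical (h4 : Tendsto (reconA 3 4 (-(1 / 2))) atTop (𝓝 0))
    (h5 : Tendsto (reconA 3 5 (-Real.sqrt (1 / 5))) atTop (𝓝 0))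
    (hc : ∀ t : ℝ, 3345 / 8192 < t → t ≤ 1 / 2 →
      Tendsto (gwA 3 (poissonWeight (1 / t ^ 2)) (-t)) atTop (𝓝 0)) :
    (∀ d : ℕ, 2 ≤ d → ∀ lam : ℝ, -(1 / 2) ≤ lam → (d : ℝ) * lam ^ 2 ≤ 1 →
      Tendsto (reconA 3 d lam) atTop (𝓝 0))
    ∧ (∀ d : ℝ, 0 < d → ∀ lam : ℝ, -(1 / 2) ≤ lam → lam ≤ 1 → d * lam ^ 2 ≤ 1 →
      (∀ n, Summable fun T : DTree n => T.prob (poissonWeight d) * T.treeA 3 lam)
      ∧ Tendsto (gwA 3 (poissonWeight d) lam) atTop (𝓝 0)) := by
  refine ⟨fun d hd lam h0 hlam => ?_, fun d hd lam h0 h1 hlam => ?_⟩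
  · rcases le_or_gt 0 lam with h | h
    · exact reconA_tendsto_zero hd h hlam
    · rcases le_or_gt (-(3345 / 8192)) lam with h' | h'
      · have := Q3.recon_neg (t := -lam) (d := d) (by linarith)
          (by unfold Q3.tauMax; linarith) hd (by rw [neg_sq]; exact hlam)
        rwa [neg_neg] at this
      · have := corner_regular h4 h5 (d := d) (t := -lam) (by linarith) (by linarith)
          (by rw [neg_sq]; exact hlam)
        rwa [neg_neg] at this
  · rcases le_or_gt 0 lam with h | h
    · exact gw_poisson hd h h1 hlam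
    · rcases le_or_gt (-(3345 / 8192)) lam with h' | h'
      · have := Q3.gw_neg (t := -lam) (d := d) (by linarith)
          (by unfold Q3.tauMax; linarith) hd.le (by rw [neg_sq]; exact hlam)
        rwa [neg_neg] at this
      · have := corner_poisson (d := d) (t := -lam) (by linarith) (by linarith) hd.le
          (by rw [neg_sq]; exact hlam) (hc (-lam) (by linarith) (by linarith))
        rwa [neg_neg] at this

end

end Hel

end Vale.Agent.P154
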