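import Vale.Agent.P154.Hel.GW

/-!
Monotonicity of the Hellinger defects along the chain of laws (Blackwell order), and the
resulting principle: the coefficients of the Lyapunov combination may depend on the law.
-/

namespace Vale.Agent.P154

namespace Hel

noncomputable section

open Finset Filter Topology

/-- Convex homogeneous functions on the orthant, bounded by a multiple of the mass. -/
structure CH (C : ℝ) (F : (Fin 3 → ℝ) → ℝ) : Prop where
  add : ∀ x y : Fin 3 → ℝ, (∀ i, 0 ≤ x i) → (∀ i, 0 ≤ y i) →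
    F (fun i => x i + y i) ≤ F x + F y
  smul : ∀ (c : ℝ) (x : Fin 3 → ℝ), 0 ≤ c → (∀ i, 0 ≤ x i) → F (fun i => c * x i) = c * F x
  bound : ∀ x : Fin 3 → ℝ, (∀ i, 0 ≤ x i) → |F x| ≤ C * mass x

section Basic

variable {Ω Ω₁ Ω₂ Ω' : Type*} [Fintype Ω] [Fintype Ω₁] [Fintype Ω₂] [Fintype Ω']

theorem CH.C_nonneg {C : ℝ} {F : (Fin 3 → ℝ) → ℝ} (h : CH C F) : 0 ≤ C := by
  have := h.bound (fun _ => 1) (fun _ => zero_le_one)
  have e : mass (fun _ => (1 : ℝ)) = 1 := by
    unfold mass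
    norm_num
  rw [e, mul_one] at this
  exact (abs_nonneg _).trans this

/-- A nonnegative vector is bounded through its values at the vertices. -/
theorem CH.le_vertices {C : ℝ} {F : (Fin 3 → ℝ) → ℝ} (h : CH C F) (x : Fin 3 → ℝ)
    (hx : ∀ i, 0 ≤ x i) :
    F x ≤ ∑ t : Fin 3, x t * F (fun i => if t = i then 1 else 0) := by
  have he : ∀ t i : Fin 3, (0 : ℝ) ≤ if t = i then 1 else 0 := fun t i => by
    split_ifs <;> norm_num
  have e1 : ∀ t : Fin 3, F (fun i => x t * (if t = i then 1 else 0))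
      = x t * F (fun i => if t = i then 1 else 0) := fun t => h.smul _ _ (hx t) (he t)
  have hxe : ∀ t i : Fin 3, 0 ≤ x t * (if t = i then (1 : ℝ) else 0) := fun t i =>
    mul_nonneg (hx t) (he t i)
  have e2 : x = fun i => (x 0 * (if (0 : Fin 3) = i then 1 else 0)
      + x 1 * (if (1 : Fin 3) = i then 1 else 0))
      + x 2 * (if (2 : Fin 3) = i then 1 else 0) := by
    funext i
    fin_cases i <;> simp
  have h1 := h.add (fun i => x 0 * (if (0 : Fin 3) = i then 1 else 0)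
      + x 1 * (if (1 : Fin 3) = i then 1 else 0))
    (fun i => x 2 * (if (2 : Fin 3) = i then 1 else 0))
    (fun i => add_nonneg (hxe 0 i) (hxe 1 i)) (hxe 2)
  have h2 := h.add (fun i => x 0 * (if (0 : Fin 3) = i then 1 else 0))
    (fun i => x 1 * (if (1 : Fin 3) = i then 1 else 0)) (hxe 0) (hxe 1)
  rw [Fin.sum_univ_three, ← e1, ← e1, ← e1]
  rw [← e2] at h1
  linarith

/-- Any law lies below the law of the point masses. -/
theorem IsLawN.sum_le_delta {L : Ω → Fin 3 → ℝ} (h : IsLawN L) {C : ℝ}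
    {F : (Fin 3 → ℝ) → ℝ} (hF : CH C F) :
    ∑ τ, F (L τ) ≤ ∑ t : Fin 3, F (fun i => if t = i then 1 else 0) := by
  refine (Finset.sum_le_sum fun τ _ => hF.le_vertices (L τ) (h.nonneg τ)).trans (le_of_eq ?_)
  rw [Finset.sum_comm]
  refine Finset.sum_congr rfl fun t _ => ?_
  rw [← Finset.sum_mul, h.norm, one_mul]

theorem IsLawN.abs_sum_le {L : Ω → Fin 3 → ℝ} (h : IsLawN L) {C : ℝ}
    {F : (Fin 3 → ℝ) → ℝ} (hF : CH C F) : |∑ τ, F (L τ)| ≤ C := by
  refine (Finset.abs_sum_le_sum_abs _ _).trans ?_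
  refine (Finset.sum_le_sum fun τ _ => hF.bound (L τ) (h.nonneg τ)).trans (le_of_eq ?_)
  rw [← Finset.mul_sum, h.sum_mass, mul_one]

/-- Precomposition with the channel. -/
theorem CH.comp_T {C : ℝ} {F : (Fin 3 → ℝ) → ℝ} (hF : CH C F) {lam : ℝ} (h0 : -(1 / 2) ≤ lam)
    (h1 : lam ≤ 1) : CH C (fun x => F (T lam x)) where
  add := fun x y hx hy => by
    have e : T lam (fun i => x i + y i) = fun i => T lam x i + T lam y i := by
      funext i
      unfold T mass
      ring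
    show F (T lam (fun i => x i + y i)) ≤ _
    rw [e]
    exact hF.add _ _ (T_nonneg hx h0 h1) (T_nonneg hy h0 h1)
  smul := fun c x hc hx => by
    have e : T lam (fun i => c * x i) = fun i => c * T lam x i := by
      funext i
      unfold T mass
      ring
    show F (T lam (fun i => c * x i)) = _
    rw [e]
    exact hF.smul _ _ hc (T_nonneg hx h0 h1)
  bound := fun x hx => by
    have := hF.bound _ (T_nonneg hx h0 h1)
    rwa [mass_T] at this

/-- Mixing over a law of the first factor. -/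
theorem CH.mix {C : ℝ} {F : (Fin 3 → ℝ) → ℝ} (hF : CH C F) {L : Ω → Fin 3 → ℝ} (h : IsLawN L) :
    CH C (fun v => ∑ τ, F (fun i => L τ i * v i)) where
  add := fun x y hx hy => by
    rw [← Finset.sum_add_distrib]
    refine Finset.sum_le_sum fun τ _ => ?_
    have e : (fun i => L τ i * (x i + y i)) = fun i => L τ i * x i + L τ i * y i := by
      funext i
      ring
    rw [e]
    exact hF.add _ _ (fun i => mul_nonneg (h.nonneg τ i) (hx i))
      (fun i => mul_nonneg (h.nonneg τ i) (hy i))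
  smul := fun c x hc hx => by
    rw [Finset.mul_sum]
    refine Finset.sum_congr rfl fun τ _ => ?_
    have e : (fun i => L τ i * (c * x i)) = fun i => c * (L τ i * x i) := by
      funext i
      ring
    rw [e]
    exact hF.smul _ _ hc (fun i => mul_nonneg (h.nonneg τ i) (hx i))
  bound := fun x hx => by
    refine (Finset.abs_sum_le_sum_abs _ _).trans ?_
    refine (Finset.sum_le_sum fun τ _ =>
      hF.bound _ (fun i => mul_nonneg (h.nonneg τ i) (hx i))).trans (le_of_eq ?_)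
    rw [← Finset.mul_sum]
    congr 1
    unfold mass
    rw [← Finset.sum_div, Finset.sum_add_distrib, Finset.sum_add_distrib, ← Finset.sum_mul,
      ← Finset.sum_mul, ← Finset.sum_mul, h.norm, h.norm, h.norm]
    ring

/-- Order between laws: every convex homogeneous function has larger sum on the second. -/
def DomL (L : Ω → Fin 3 → ℝ) (L' : Ω' → Fin 3 → ℝ) : Prop :=
  ∀ (C : ℝ) (F : (Fin 3 → ℝ) → ℝ), CH C F → ∑ τ, F (L τ) ≤ ∑ τ, F (L' τ)

theorem DomL.trans {Ω'' : Type*} [Fintype Ω''] {L : Ω → Fin 3 → ℝ} {L' : Ω' → Fin 3 → ℝ}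
    {L'' : Ω'' → Fin 3 → ℝ} (h : DomL L L') (h' : DomL L' L'') : DomL L L'' :=
  fun C F hF => (h C F hF).trans (h' C F hF)

theorem DomL.comp_equiv_left {L : Ω → Fin 3 → ℝ} {L' : Ω' → Fin 3 → ℝ} {Ω₃ : Type*} [Fintype Ω₃]
    (h : DomL L L') (E : Ω₃ ≃ Ω) : DomL (fun τ i => L (E τ) i) L' := fun C F hF => by
  have := Equiv.sum_comp E (fun τ => F (L τ))
  exact this.le.trans (h C F hF)

theorem DomL.comp_equiv_right {L : Ω → Fin 3 → ℝ} {L' : Ω' → Fin 3 → ℝ} {Ω₃ : Type*} [Fintype Ω₃]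
    (h : DomL L L') (E : Ω₃ ≃ Ω') : DomL L (fun τ i => L' (E τ) i) := fun C F hF => by
  have := Equiv.sum_comp E (fun τ => F (L' τ))
  exact (h C F hF).trans this.ge

theorem DomL.chan {L : Ω → Fin 3 → ℝ} {L' : Ω' → Fin 3 → ℝ} (h : DomL L L') {lam : ℝ}
    (h0 : -(1 / 2) ≤ lam) (h1 : lam ≤ 1) : DomL (chanLaw lam L) (chanLaw lam L') :=
  fun C F hF => h C _ (hF.comp_T h0 h1)

theorem sum_prodLaw (F : (Fin 3 → ℝ) → ℝ) (L₁ : Ω₁ → Fin 3 → ℝ) (L₂ : Ω₂ → Fin 3 → ℝ) :
    ∑ p, F (prodLaw L₁ L₂ p) = ∑ a, ∑ b, F (fun i => L₁ a i * L₂ b i) := by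
  rw [Fintype.sum_prod_type]
  rfl

/-- Monotonicity in the second factor of a product. -/
theorem DomL.prod_right {L₁ : Ω₁ → Fin 3 → ℝ} {L₂ : Ω₂ → Fin 3 → ℝ} {L₃ : Ω' → Fin 3 → ℝ}
    (h₁ : IsLawN L₁) (h : DomL L₂ L₃) : DomL (prodLaw L₁ L₂) (prodLaw L₁ L₃) := fun C F hF => by
  have key := h C _ (hF.mix h₁)
  rw [sum_prodLaw, sum_prodLaw, Finset.sum_comm]
  rw [Finset.sum_comm (s := (Finset.univ : Finset Ω₁))]
  exact key

theorem sum_prodLaw_comm (F : (Fin 3 → ℝ) → ℝ) (L₁ : Ω₁ → Fin 3 → ℝ) (L₂ : Ω₂ → Fin 3 → ℝ) :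
    ∑ p, F (prodLaw L₁ L₂ p) = ∑ a, ∑ b, F (fun i => L₂ b i * L₁ a i) := by
  rw [sum_prodLaw]
  refine Finset.sum_congr rfl fun a _ => Finset.sum_congr rfl fun b _ => ?_
  congr 1
  funext i
  ring

/-- Monotonicity in the first factor of a product. -/
theorem DomL.prod_left {L₁ : Ω₁ → Fin 3 → ℝ} {L₂ : Ω₂ → Fin 3 → ℝ} {L₃ : Ω' → Fin 3 → ℝ}
    (h₂ : IsLawN L₂) (h : DomL L₁ L₃) : DomL (prodLaw L₁ L₂) (prodLaw L₃ L₂) := fun C F hF => by
  rw [sum_prodLaw_comm, sum_prodLaw_comm]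
  exact h C _ (hF.mix h₂)

theorem DomL.pow {L : Ω → Fin 3 → ℝ} {L' : Ω' → Fin 3 → ℝ} (hL : IsLawN L) (hL' : IsLawN L')
    (h : DomL L L') (k : ℕ) : DomL (powLaw L k) (powLaw L' k) := by
  induction k with
  | zero =>
    intro C F _
    have e1 : ∀ f, powLaw L 0 f = fun _ => 1 := fun f => by
      funext i
      simp [powLaw]
    have e2 : ∀ f, powLaw L' 0 f = fun _ => 1 := fun f => by
      funext i
      simp [powLaw]
    simp only [e1, e2]
    simp
  | succ k ih =>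
    rw [powLaw_succ, powLaw_succ]
    refine DomL.comp_equiv_left (DomL.comp_equiv_right ?_ _) _
    exact (DomL.prod_left (hL.pow k) h).trans (DomL.prod_right hL' ih)

end Basic

/-- The defect function is convex and homogeneous. -/
theorem mono_add_pos {s x y : Fin 3 → ℝ} (hs : AdmS s) (hx : ∀ i, 0 < x i) (hy : ∀ i, 0 < y i) :
    mono s x + mono s y ≤ mono s (fun i => x i + y i) := by
  have hz : ∀ i, 0 < x i + y i := fun i => add_pos (hx i) (hy i)
  have hm : 0 < mono s (fun i => x i + y i) := by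
    unfold mono
    exact Finset.prod_pos fun i _ => Real.rpow_pos_of_pos (hz i) _
  have key : ∀ a : Fin 3 → ℝ, (∀ i, 0 < a i) →
      mono s a ≤ mono s (fun i => x i + y i) *
        (s 0 * (a 0 / (x 0 + y 0)) + s 1 * (a 1 / (x 1 + y 1)) + s 2 * (a 2 / (x 2 + y 2))) := by
    intro a ha
    have h1 := mono_le hs (x := fun i => a i / (x i + y i)) (fun i => (div_pos (ha i) (hz i)).le)
    have h2 : mono s (fun i => a i / (x i + y i)) = mono s a / mono s (fun i => x i + y i) := by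
      unfold mono
      rw [← Finset.prod_div_distrib]
      exact Finset.prod_congr rfl fun i _ => Real.div_rpow (ha i).le (hz i).le _
    rw [h2, div_le_iff₀ hm] at h1
    rw [mul_comm]
    exact h1
  have hkx := key x hx
  have hky := key y hy
  have e0 : x 0 / (x 0 + y 0) + y 0 / (x 0 + y 0) = 1 := by
    have := hz 0
    field_simp
  have e1 : x 1 / (x 1 + y 1) + y 1 / (x 1 + y 1) = 1 := by
    have := hz 1
    field_simp
  have e2 : x 2 / (x 2 + y 2) + y 2 / (x 2 + y 2) = 1 := by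
    have := hz 2
    field_simp
  have hsum := hs.sum
  have h3 : (s 0 * (x 0 / (x 0 + y 0)) + s 1 * (x 1 / (x 1 + y 1)) + s 2 * (x 2 / (x 2 + y 2)))
      + (s 0 * (y 0 / (x 0 + y 0)) + s 1 * (y 1 / (x 1 + y 1)) + s 2 * (y 2 / (x 2 + y 2))) = 1 := by
    calc _ = s 0 * (x 0 / (x 0 + y 0) + y 0 / (x 0 + y 0))
          + s 1 * (x 1 / (x 1 + y 1) + y 1 / (x 1 + y 1))
          + s 2 * (x 2 / (x 2 + y 2) + y 2 / (x 2 + y 2)) := by ring
      _ = 1 := by rw [e0, e1, e2]; linarith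
  calc mono s x + mono s y
      ≤ mono s (fun i => x i + y i) * (s 0 * (x 0 / (x 0 + y 0)) + s 1 * (x 1 / (x 1 + y 1))
          + s 2 * (x 2 / (x 2 + y 2)))
        + mono s (fun i => x i + y i) * (s 0 * (y 0 / (x 0 + y 0)) + s 1 * (y 1 / (x 1 + y 1))
          + s 2 * (y 2 / (x 2 + y 2))) := add_le_add hkx hky
    _ = mono s (fun i => x i + y i) := by
      rw [← mul_add, h3, mul_one]

/-- Superadditivity of a monomial on the closed orthant. -/
theorem mono_add {s x y : Fin 3 → ℝ} (hs : AdmS s) (hx : ∀ i, 0 ≤ x i) (hy : ∀ i, 0 ≤ y i) :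
    mono s x + mono s y ≤ mono s (fun i => x i + y i) := by
  have hc : ∀ a : Fin 3 → ℝ, Tendsto (fun ε : ℝ => mono s (fun i => a i + ε)) (𝓝[>] 0)
      (𝓝 (mono s a)) := by
    intro a
    have h1 : ContinuousAt (fun ε : ℝ => mono s (fun i => a i + ε)) 0 :=
      continuousAt_mono hs (f := fun (ε : ℝ) i => a i + ε) (fun i => by fun_prop)
    have h2 := h1.tendsto
    simp only [add_zero] at h2
    exact h2.mono_left nhdsWithin_le_nhds
  have h1 := (hc x).add (hc y)
  have h2 : Tendsto (fun ε : ℝ => mono s (fun i => (x i + y i) + 2 * ε)) (𝓝[>] 0)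
      (𝓝 (mono s (fun i => x i + y i))) := by
    have h3 : ContinuousAt (fun ε : ℝ => mono s (fun i => (x i + y i) + 2 * ε)) 0 :=
      continuousAt_mono hs (f := fun (ε : ℝ) i => (x i + y i) + 2 * ε) (fun i => by fun_prop)
    have h4 := h3.tendsto
    simp only [mul_zero, add_zero] at h4
    exact h4.mono_left nhdsWithin_le_nhds
  refine le_of_tendsto_of_tendsto h1 h2 ?_
  filter_upwards [self_mem_nhdsWithin] with ε hε
  have hε' : (0 : ℝ) < ε := hε
  have := mono_add_pos hs (x := fun i => x i + ε) (y := fun i => y i + ε)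
    (fun i => by have := hx i; linarith) (fun i => by have := hy i; linarith)
  refine this.trans (le_of_eq ?_)
  congr 1
  funext i
  ring

theorem mono_smul {s x : Fin 3 → ℝ} (hs : AdmS s) {c : ℝ} (hc : 0 ≤ c) (hx : ∀ i, 0 ≤ x i) :
    mono s (fun i => c * x i) = c * mono s x := by
  rcases eq_or_lt_of_le hc with h | h
  · subst h
    simp only [zero_mul]
    exact mono_zero hs
  · unfold mono
    simp only [Real.mul_rpow hc (hx _)]
    rw [Finset.prod_mul_distrib, Fin.prod_univ_three (fun i => c ^ s i),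
      ← Real.rpow_add h, ← Real.rpow_add h, hs.sum, Real.rpow_one]

/-- The defect function. -/
def dfc (s x : Fin 3 → ℝ) : ℝ := mass x - mono s x

theorem ch_dfc {s : Fin 3 → ℝ} (hs : AdmS s) : CH 3 (dfc s) where
  add := fun x y hx hy => by
    have := mono_add hs hx hy
    unfold dfc mass
    linarith
  smul := fun c x hc hx => by
    unfold dfc
    rw [mono_smul hs hc hx]
    unfold mass
    ring
  bound := fun x hx => by
    unfold dfc mass
    have h1 := mono_nonneg (s := s) hx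
    have h2 := mono_le hs hx
    have h3 := hs.nonneg 0
    have h4 := hs.nonneg 1
    have h5 := hs.nonneg 2
    have h6 := hx 0
    have h7 := hx 1
    have h8 := hx 2
    have h9 := hs.sum
    have e1 : s 0 * x 0 ≤ x 0 := by nlinarith
    have e2 : s 1 * x 1 ≤ x 1 := by nlinarith
    have e3 : s 2 * x 2 ≤ x 2 := by nlinarith
    rw [abs_le]
    constructor <;> linarith

theorem IsLawN.sum_dfc {Ω : Type*} [Fintype Ω] {L : Ω → Fin 3 → ℝ} (h : IsLawN L)
    (s : Fin 3 → ℝ) : ∑ τ, dfc s (L τ) = 1 - Ht s L := by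
  unfold dfc Ht
  rw [Finset.sum_sub_distrib, h.sum_mass]

/-! ### The regular tree -/

theorem dom_Lk (d : ℕ) {lam : ℝ} (h0 : -(1 / 2) ≤ lam) (h1 : lam ≤ 1) (n : ℕ) :
    DomL (Lk d lam (n + 1)) (Lk d lam n) := by
  have hL := isLawN_Lk d h0 h1
  induction n with
  | zero =>
    intro C F hF
    refine ((hL 1).sum_le_delta hF).trans (le_of_eq ?_)
    exact (Equiv.sum_comp (zeroEquiv d) (fun t : Fin 3 => F (fun i => if t = i then 1 else 0))).symm
  | succ n ih =>
    have h2 := DomL.pow ((hL (n + 1)).chan h0 h1) ((hL n).chan h0 h1) (ih.chan h0 h1) d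
    have h3 := (h2.comp_equiv_left (splitEquiv d (n + 1))).comp_equiv_right (splitEquiv d n)
    intro C F hF
    have h4 := h3 C F hF
    rw [Lk_succ d lam (n + 1)]
    conv_rhs => rw [Lk_succ d lam n]
    exact h4

theorem Ht_Lk_mono (d : ℕ) {lam : ℝ} (h0 : -(1 / 2) ≤ lam) (h1 : lam ≤ 1) {s : Fin 3 → ℝ}
    (hs : AdmS s) (n : ℕ) : 1 - Ht s (Lk d lam (n + 1)) ≤ 1 - Ht s (Lk d lam n) := by
  have hL := isLawN_Lk d h0 h1
  have := dom_Lk d h0 h1 n 3 _ (ch_dfc hs)
  rwa [(hL _).sum_dfc, (hL _).sum_dfc] at this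

/-- The key with coefficients depending on the point, for the `d`-ary tree. -/
def RegKeyB {ι : Type*} [Fintype ι] (s : ι → Fin 3 → ℝ) (d : ℕ) (lam κ B : ℝ) : Prop :=
  ∀ (y : ι → ℝ) (Y : ℝ), HullY s lam y Y →
    ∃ (a c : ι → ℝ) (c0 e : ℝ), (∀ j, a j ≤ B) ∧
      ∑ j, a j * (1 - (1 - y j) ^ d) + κ * Y ^ 2 ≤ ∑ j, c j * y j + c0 * Y + e ∧
      ∀ x : Fin 3 → ℝ, (∀ i, 0 < x i) →
        ∑ j, c j * psi (s j) lam x + c0 * yyv x + e * mass x ≤ phiF a s x

/-- The key with coefficients depending on the point, for the Poisson tree. -/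
def PoiKeyB {ι : Type*} [Fintype ι] (s : ι → Fin 3 → ℝ) (d lam κ B : ℝ) : Prop :=
  ∀ (y : ι → ℝ) (Y : ℝ), HullY s lam y Y →
    ∃ (a c : ι → ℝ) (c0 e : ℝ), (∀ j, a j ≤ B) ∧
      ∑ j, a j * (1 - Real.exp (-(d * y j))) + κ * Y ^ 2 ≤ ∑ j, c j * y j + c0 * Y + e ∧
      ∀ x : Fin 3 → ℝ, (∀ i, 0 < x i) →
        ∑ j, c j * psi (s j) lam x + c0 * yyv x + e * mass x ≤ phiF a s x

theorem abs_sum_defect_le {ι : Type*} [Fintype ι] (B : ℝ) (f : ι → ℝ) (hf : ∀ j, |f j| ≤ 1) :
    |B * ∑ j, f j| ≤ |B| * (Fintype.card ι : ℝ) := by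
  rw [abs_mul]
  refine mul_le_mul_of_nonneg_left ?_ (abs_nonneg _)
  refine (Finset.abs_sum_le_sum_abs _ _).trans ?_
  refine (Finset.sum_le_sum fun j _ => hf j).trans (le_of_eq ?_)
  simp

/-- Nonreconstruction on the `d`-ary tree with coefficients depending on the point. -/
theorem hel_regular_cells {ι : Type*} [Fintype ι] {s : ι → Fin 3 → ℝ}
    (hs : ∀ j, AdmS (s j)) {d : ℕ} {lam κ B : ℝ} (h0 : -(1 / 2) ≤ lam) (h1 : lam ≤ 1) (hκ : 0 < κ)
    (hK : RegKeyB s d lam κ B) : Tendsto (reconA 3 d lam) atTop (𝓝 0) := by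
  have hL := isLawN_Lk d h0 h1
  have hY : Tendsto (fun n => YY (Lk d lam n)) atTop (𝓝 0) := by
    refine tendsto_zero_of_telescope (V := fun n => B * ∑ j, (1 - Ht (s j) (Lk d lam n))) (κ := κ)
      (B := |B| * (Fintype.card ι : ℝ)) hκ (fun n => (hL n).YY_nonneg)
      (fun n => abs_sum_defect_le B _ (fun j => abs_one_sub_Ht (hL n) (hs j))) (fun n => ?_)
    obtain ⟨a, c, c0, e, ha, h2, h3⟩ := hK _ _ ((hL n).hull hs h0 h1)
    have h4 := (hL n).key_sum hs h0 h1 h3
    have h5 : ∑ j, a j * (1 - (1 - (1 - Ht (s j) (chanLaw lam (Lk d lam n)))) ^ d)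
        = ∑ j, a j * (1 - Ht (s j) (Lk d lam (n + 1))) := by
      refine Finset.sum_congr rfl fun j _ => ?_
      rw [Ht_Lk_succ d h0 h1]
      congr 3
      ring
    rw [h5] at h2
    unfold VV at h4
    have h6 : ∑ j, (a j * (1 - Ht (s j) (Lk d lam n)) - a j * (1 - Ht (s j) (Lk d lam (n + 1))))
        ≤ ∑ j, B * ((1 - Ht (s j) (Lk d lam n)) - (1 - Ht (s j) (Lk d lam (n + 1)))) := by
      refine Finset.sum_le_sum fun j _ => ?_
      rw [← mul_sub]
      exact mul_le_mul_of_nonneg_right (ha j) (sub_nonneg.2 (Ht_Lk_mono d h0 h1 (hs j) n))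
    rw [Finset.sum_sub_distrib, ← Finset.mul_sum, Finset.sum_sub_distrib, mul_sub] at h6
    show B * ∑ j, (1 - Ht (s j) (Lk d lam (n + 1))) + κ * (YY (Lk d lam n)) ^ 2
      ≤ B * ∑ j, (1 - Ht (s j) (Lk d lam n))
    linarith
  have hsq : Tendsto (fun n => Real.sqrt (YY (Lk d lam n) / 2)) atTop (𝓝 0) := by
    have := (Real.continuous_sqrt.tendsto (0 / 2)).comp (hY.div_const 2)
    have e : Real.sqrt (0 / 2) = 0 := by simp
    rw [e] at this
    exact this
  refine squeeze_zero (fun n => ?_) (fun n => ?_) hsq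
  · rw [reconA_eqN d n (hL n)]
    refine Finset.sum_nonneg fun τ _ => ?_
    positivity
  · rw [reconA_eqN d n (hL n)]
    exact Real.le_sqrt_of_sq_le (hL n).sq_sum_le

/-! ### Galton-Watson trees -/

section GWMono

variable {X : Type*} {p : X → ℝ}

theorem E1_sum' {A : Type*} [Fintype A] (hp0 : ∀ x, 0 ≤ p x) (hp : HasSum p 1) (f : A → X → ℝ)
    (C : A → ℝ) (hf : ∀ j x, |f j x| ≤ C j) :
    E1 p (fun x => ∑ j, f j x) = ∑ j, E1 p (f j) := by
  unfold E1
  simp only [Finset.mul_sum]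
  rw [Summable.tsum_finsetSum]
  intro j _
  exact E1_summable hp0 hp (hf j)

end GWMono

variable {w : ℕ → ℝ} {lam : ℝ}

/-- The mean over trees of the sum of a function over the atoms. -/
def ellG (w : ℕ → ℝ) (lam : ℝ) (n : ℕ) (G : (Fin 3 → ℝ) → ℝ) : ℝ :=
  E1 (fun T : DTree n => T.prob w) (fun T => ∑ τ, G (Lt lam T τ))

/-- The same over independent children at level `n`. -/
def MkG (w : ℕ → ℝ) (lam : ℝ) (n k : ℕ) (G : (Fin 3 → ℝ) → ℝ) : ℝ :=
  Ek (fun T : DTree n => T.prob w) k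
    (fun t => ∑ τ : (∀ c, DTree.Config 3 (t c)), G (piLaw (fun c => chanLaw lam (Lt lam (t c))) τ))

theorem isLawN_pi_t (h0 : -(1 / 2) ≤ lam) (h1 : lam ≤ 1) {n k : ℕ} (t : Fin k → DTree n) :
    IsLawN (piLaw (fun c => chanLaw lam (Lt lam (t c)))) :=
  IsLawN.pi fun c => (isLawN_Lt h0 h1 (t c)).chan h0 h1

theorem sum_Lt_node (G : (Fin 3 → ℝ) → ℝ) {n : ℕ} (k : ℕ) (t : Fin k → DTree n) :
    ∑ τ, G (Lt lam (DTree.node k t) τ)
      = ∑ τ : (∀ c, DTree.Config 3 (t c)), G (piLaw (fun c => chanLaw lam (Lt lam (t c))) τ) := by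
  refine Finset.sum_congr rfl fun τ _ => ?_
  rw [Lt_node]

theorem sum_pi_succ {k : ℕ} {Ω : Fin (k + 1) → Type} [∀ c, Fintype (Ω c)]
    (L : ∀ c, Ω c → Fin 3 → ℝ) (G : (Fin 3 → ℝ) → ℝ) :
    ∑ f, G (piLaw L f)
      = ∑ b, ∑ a, G (fun i => piLaw (fun c => L (Fin.succ c)) b i * L 0 a i) := by
  rw [piLaw_succ]
  have := Equiv.sum_comp (Fin.consEquiv Ω).symm
    (fun q => G (prodLaw (L 0) (piLaw (fun c => L (Fin.succ c))) q))
  refine this.trans ?_
  rw [sum_prodLaw_comm, Finset.sum_comm]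

theorem abs_sum_G_le {C : ℝ} {G : (Fin 3 → ℝ) → ℝ} (hG : CH C G) (h0 : -(1 / 2) ≤ lam)
    (h1 : lam ≤ 1) {n k : ℕ} (t : Fin k → DTree n) :
    |∑ τ : (∀ c, DTree.Config 3 (t c)), G (piLaw (fun c => chanLaw lam (Lt lam (t c))) τ)| ≤ C :=
  (isLawN_pi_t h0 h1 t).abs_sum_le hG

theorem MkG_zero (hw0 : ∀ k, 0 ≤ w k) (hw : HasSum w 1) (n : ℕ) (G : (Fin 3 → ℝ) → ℝ) :
    MkG w lam n 0 G = G (fun _ => 1) := by
  unfold MkG
  have : (fun t : Fin 0 → DTree n =>
      ∑ τ : (∀ c, DTree.Config 3 (t c)), G (piLaw (fun c => chanLaw lam (Lt lam (t c))) τ))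
      = fun _ => G (fun _ => 1) := by
    funext t
    have e : ∀ τ : (∀ c, DTree.Config 3 (t c)),
        piLaw (fun c => chanLaw lam (Lt lam (t c))) τ = fun _ => 1 := by
      intro τ
      funext i
      simp [piLaw]
    simp only [e]
    simp
  rw [this]
  exact Ek_const (fun T => prob_nonneg hw0 T) (prob_hasSum hw0 hw n) 0 _

theorem MkG_succ (hw0 : ∀ k, 0 ≤ w k) (hw : HasSum w 1) (h0 : -(1 / 2) ≤ lam) (h1 : lam ≤ 1)
    {C : ℝ} {G : (Fin 3 → ℝ) → ℝ} (hG : CH C G) (n k : ℕ) :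
    MkG w lam n (k + 1) G = E1 (fun T : DTree n => T.prob w) (fun x =>
      MkG w lam n k (fun v => ∑ a, G (fun i => v i * chanLaw lam (Lt lam x) a i))) := by
  unfold MkG
  rw [Ek_cons (fun T => prob_nonneg hw0 T) (prob_hasSum hw0 hw n) k
    (fun t => abs_sum_G_le hG h0 h1 t)]
  congr 1
  funext x
  congr 1
  funext t'
  exact sum_pi_succ (fun c => chanLaw lam (Lt lam ((Fin.cons x t' : Fin (k + 1) → DTree n) c))) G

theorem ell_succ (hw0 : ∀ k, 0 ≤ w k) (hw : HasSum w 1) (h0 : -(1 / 2) ≤ lam) (h1 : lam ≤ 1)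
    {C : ℝ} {G : (Fin 3 → ℝ) → ℝ} (hG : CH C G) (n : ℕ) :
    ellG w lam (n + 1) G = ∑' k, w k * MkG w lam n k G := by
  unfold ellG
  rw [E1_succ hw0 hw (F := fun T => ∑ τ, G (Lt lam T τ)) (C := C)
    (fun T => (isLawN_Lt h0 h1 T).abs_sum_le hG)]
  refine tsum_congr fun k => ?_
  unfold MkG
  congr 2
  funext t
  exact sum_Lt_node G k t

/-- Restriction to a fixed multiplier. -/
theorem CH.scale {C : ℝ} {G : (Fin 3 → ℝ) → ℝ} (hG : CH C G) {u : Fin 3 → ℝ} (hu : ∀ i, 0 ≤ u i) :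
    CH (C * (u 0 + u 1 + u 2)) (fun v => G (fun i => v i * u i)) where
  add := fun x y hx hy => by
    have e : (fun i => (x i + y i) * u i) = fun i => x i * u i + y i * u i := by
      funext i
      ring
    show G (fun i => (x i + y i) * u i) ≤ _
    rw [e]
    exact hG.add _ _ (fun i => mul_nonneg (hx i) (hu i)) (fun i => mul_nonneg (hy i) (hu i))
  smul := fun c x hc hx => by
    have e : (fun i => (c * x i) * u i) = fun i => c * (x i * u i) := by
      funext i
      ring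
    show G (fun i => (c * x i) * u i) = _
    rw [e]
    exact hG.smul _ _ hc (fun i => mul_nonneg (hx i) (hu i))
  bound := fun x hx => by
    refine (hG.bound _ (fun i => mul_nonneg (hx i) (hu i))).trans ?_
    rw [mul_assoc]
    refine mul_le_mul_of_nonneg_left ?_ hG.C_nonneg
    unfold mass
    have h0 := hu 0
    have h1 := hu 1
    have h2 := hu 2
    have h3 := hx 0
    have h4 := hx 1
    have h5 := hx 2
    have : 0 ≤ x 0 * u 1 + x 0 * u 2 + x 1 * u 0 + x 1 * u 2 + x 2 * u 0 + x 2 * u 1 := by positivity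
    nlinarith

/-- The function of the multiplier. -/
def KuG (w : ℕ → ℝ) (lam : ℝ) (n k : ℕ) (G : (Fin 3 → ℝ) → ℝ) (u : Fin 3 → ℝ) : ℝ :=
  MkG w lam n k (fun v => G (fun i => v i * u i))

theorem abs_sum_scale_le {C : ℝ} {G : (Fin 3 → ℝ) → ℝ} (hG : CH C G) (h0 : -(1 / 2) ≤ lam)
    (h1 : lam ≤ 1) {n k : ℕ} (t : Fin k → DTree n) {u : Fin 3 → ℝ} (hu : ∀ i, 0 ≤ u i) :
    |∑ τ : (∀ c, DTree.Config 3 (t c)),
      G (fun i => piLaw (fun c => chanLaw lam (Lt lam (t c))) τ i * u i)| ≤ C * mass u :=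
  (hG.mix (isLawN_pi_t h0 h1 t)).bound u hu

theorem ch_KuG (hw0 : ∀ k, 0 ≤ w k) (hw : HasSum w 1) (h0 : -(1 / 2) ≤ lam) (h1 : lam ≤ 1)
    {C : ℝ} {G : (Fin 3 → ℝ) → ℝ} (hG : CH C G) (n k : ℕ) : CH C (KuG w lam n k G) := by
  have hp0 : ∀ T : DTree n, 0 ≤ T.prob w := fun T => prob_nonneg hw0 T
  have hp := prob_hasSum hw0 hw n
  have hb := fun (u : Fin 3 → ℝ) (hu : ∀ i, 0 ≤ u i) (t : Fin k → DTree n) =>
    abs_sum_scale_le hG h0 h1 t hu
  refine ⟨fun x y hx hy => ?_, fun c x hc hx => ?_, fun x hx => ?_⟩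
  · unfold KuG MkG
    have hmono : Ek (fun T : DTree n => T.prob w) k (fun t =>
        ∑ τ : (∀ c, DTree.Config 3 (t c)),
          G (fun i => piLaw (fun c => chanLaw lam (Lt lam (t c))) τ i * (x i + y i)))
        ≤ Ek (fun T : DTree n => T.prob w) k (fun t =>
          ∑ τ : (∀ c, DTree.Config 3 (t c)),
            G (fun i => piLaw (fun c => chanLaw lam (Lt lam (t c))) τ i * x i)
          + ∑ τ : (∀ c, DTree.Config 3 (t c)),
            G (fun i => piLaw (fun c => chanLaw lam (Lt lam (t c))) τ i * y i)) := by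
      refine Ek_mono hp0 hp k (C := C * mass (fun i => x i + y i))
        (D := C * mass x + C * mass y)
        (fun t => hb _ (fun i => add_nonneg (hx i) (hy i)) t)
        (fun t => (abs_add_le _ _).trans (add_le_add (hb _ hx t) (hb _ hy t))) (fun t => ?_)
      rw [← Finset.sum_add_distrib]
      refine Finset.sum_le_sum fun τ _ => ?_
      have e : (fun i => piLaw (fun c => chanLaw lam (Lt lam (t c))) τ i * (x i + y i))
          = fun i => piLaw (fun c => chanLaw lam (Lt lam (t c))) τ i * x i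
            + piLaw (fun c => chanLaw lam (Lt lam (t c))) τ i * y i := by
        funext i
        ring
      rw [e]
      exact hG.add _ _ (fun i => mul_nonneg ((isLawN_pi_t h0 h1 t).nonneg τ i) (hx i))
        (fun i => mul_nonneg ((isLawN_pi_t h0 h1 t).nonneg τ i) (hy i))
    rw [Ek_add hp0 hp k (fun t => hb _ hx t) (fun t => hb _ hy t)] at hmono
    exact hmono
  · unfold KuG MkG
    rw [← Ek_const_mul]
    congr 2
    funext t
    rw [Finset.mul_sum]
    refine Finset.sum_congr rfl fun τ _ => ?_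
    have e : (fun i => piLaw (fun c => chanLaw lam (Lt lam (t c))) τ i * (c * x i))
        = fun i => c * (piLaw (fun c => chanLaw lam (Lt lam (t c))) τ i * x i) := by
      funext i
      ring
    beta_reduce
    rw [e]
    exact hG.smul _ _ hc (fun i => mul_nonneg ((isLawN_pi_t h0 h1 t).nonneg τ i) (hx i))
  · exact abs_Ek_le hp0 hp k (fun t => hb x hx t)

/-- Linearity over the atoms of one more child. -/
theorem MkG_mix (hw0 : ∀ k, 0 ≤ w k) (hw : HasSum w 1) (h0 : -(1 / 2) ≤ lam) (h1 : lam ≤ 1)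
    {C : ℝ} {G : (Fin 3 → ℝ) → ℝ} (hG : CH C G) {A : Type*} [Fintype A] (U : A → Fin 3 → ℝ)
    (hU : ∀ a i, 0 ≤ U a i) (n k : ℕ) :
    MkG w lam n k (fun v => ∑ a, G (fun i => v i * U a i)) = ∑ a, KuG w lam n k G (U a) := by
  have hp0 : ∀ T : DTree n, 0 ≤ T.prob w := fun T => prob_nonneg hw0 T
  have hp := prob_hasSum hw0 hw n
  unfold KuG MkG
  have := E1_sum' (p := prodW (fun T : DTree n => T.prob w) k) (prodW_nonneg hp0 k)
    (prodW_hasSum hp0 hp k)
    (fun (a : A) (t : Fin k → DTree n) => ∑ τ : (∀ c, DTree.Config 3 (t c)),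
      G (fun i => piLaw (fun c => chanLaw lam (Lt lam (t c))) τ i * U a i))
    (fun a => C * mass (U a)) (fun a t => abs_sum_scale_le hG h0 h1 t (hU a))
  refine Eq.trans ?_ this
  show E1 _ _ = E1 _ _
  congr 1
  funext t
  rw [Finset.sum_comm]

theorem ch_mix' {C : ℝ} {G : (Fin 3 → ℝ) → ℝ} (hG : CH C G) {A : Type*} [Fintype A]
    {L : A → Fin 3 → ℝ} (hL : IsLawN L) : CH C (fun v => ∑ a, G (fun i => v i * L a i)) := by
  have e : (fun v : Fin 3 → ℝ => ∑ a, G (fun i => v i * L a i))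
      = fun v => ∑ a, G (fun i => L a i * v i) := by
    funext v
    refine Finset.sum_congr rfl fun a _ => ?_
    congr 1
    funext i
    ring
  rw [e]
  exact hG.mix hL

/-- Passing from level `n + 1` to level `n` in the independent children. -/
theorem MkG_level (hw0 : ∀ k, 0 ≤ w k) (hw : HasSum w 1) (h0 : -(1 / 2) ≤ lam) (h1 : lam ≤ 1)
    {n : ℕ} (IH : ∀ (C : ℝ) (G : (Fin 3 → ℝ) → ℝ), CH C G → ellG w lam (n + 1) G ≤ ellG w lam n G)
    (k : ℕ) : ∀ (C : ℝ) (G : (Fin 3 → ℝ) → ℝ), CH C G →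
      MkG w lam (n + 1) k G ≤ MkG w lam n k G := by
  have hp0 : ∀ m, ∀ T : DTree m, 0 ≤ T.prob w := fun m T => prob_nonneg hw0 T
  have hp := fun m => prob_hasSum hw0 hw m
  induction k with
  | zero =>
    intro C G _
    rw [MkG_zero hw0 hw, MkG_zero hw0 hw]
  | succ k ih =>
    intro C G hG
    rw [MkG_succ hw0 hw h0 h1 hG, MkG_succ hw0 hw h0 h1 hG]
    have hGx : ∀ {m : ℕ} (x : DTree m), CH C
        (fun v => ∑ a, G (fun i => v i * chanLaw lam (Lt lam x) a i)) :=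
      fun x => ch_mix' hG ((isLawN_Lt h0 h1 x).chan h0 h1)
    have hK := ch_KuG hw0 hw h0 h1 hG n k
    have hKT := hK.comp_T h0 h1
    -- the mean over trees of the children at level `m` for the fixed function of level `n`
    have hsum : ∀ {m : ℕ} (x : DTree m),
        MkG w lam n k (fun v => ∑ a, G (fun i => v i * chanLaw lam (Lt lam x) a i))
          = ∑ a, KuG w lam n k G (T lam (Lt lam x a)) := fun x =>
      MkG_mix hw0 hw h0 h1 hG _ ((isLawN_Lt h0 h1 x).chan h0 h1).nonneg n k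
    have hb : ∀ {m : ℕ} (x : DTree m),
        |MkG w lam n k (fun v => ∑ a, G (fun i => v i * chanLaw lam (Lt lam x) a i))| ≤ C := by
      intro m x
      rw [hsum x]
      exact (isLawN_Lt h0 h1 x).abs_sum_le hKT
    have hb' : ∀ x : DTree (n + 1),
        |MkG w lam (n + 1) k (fun v => ∑ a, G (fun i => v i * chanLaw lam (Lt lam x) a i))| ≤ C :=
      fun x => abs_Ek_le (hp0 _) (hp _) k (fun t => abs_sum_G_le (hGx x) h0 h1 t)
    have step1 : E1 (fun T : DTree (n + 1) => T.prob w) (fun x =>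
          MkG w lam (n + 1) k (fun v => ∑ a, G (fun i => v i * chanLaw lam (Lt lam x) a i)))
        ≤ E1 (fun T : DTree (n + 1) => T.prob w) (fun x =>
          MkG w lam n k (fun v => ∑ a, G (fun i => v i * chanLaw lam (Lt lam x) a i))) :=
      E1_mono (hp0 _) (hp _) hb' hb (fun x => ih C _ (hGx x))
    refine step1.trans ?_
    have e1 : ∀ m : ℕ, E1 (fun T : DTree m => T.prob w) (fun x =>
          MkG w lam n k (fun v => ∑ a, G (fun i => v i * chanLaw lam (Lt lam x) a i)))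
        = ellG w lam m (fun z => KuG w lam n k G (T lam z)) := by
      intro m
      unfold ellG
      congr 1
      funext x
      exact hsum x
    rw [e1, e1]
    exact IH C _ hKT

/-- The mean of a convex homogeneous function decreases with the level. -/
theorem ell_mono (hw0 : ∀ k, 0 ≤ w k) (hw : HasSum w 1) (h0 : -(1 / 2) ≤ lam) (h1 : lam ≤ 1)
    (n : ℕ) : ∀ (C : ℝ) (G : (Fin 3 → ℝ) → ℝ), CH C G →
      ellG w lam (n + 1) G ≤ ellG w lam n G := by
  have hp0 : ∀ m, ∀ T : DTree m, 0 ≤ T.prob w := fun m T => prob_nonneg hw0 T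
  have hp := fun m => prob_hasSum hw0 hw m
  induction n with
  | zero =>
    intro C G hG
    obtain ⟨v, hv⟩ : ∃ v, v = ∑ t : Fin 3, G (fun i => if t = i then 1 else 0) := ⟨_, rfl⟩
    have e0 : ellG w lam 0 G = v := by
      unfold ellG
      have : (fun T : DTree 0 => ∑ τ, G (Lt lam T τ)) = fun _ => v := by
        funext T
        cases T
        rw [hv]
        rfl
      rw [this]
      exact E1_const (hp 0) v
    rw [e0]
    have hle : ellG w lam 1 G ≤ E1 (fun T : DTree 1 => T.prob w) (fun _ => v) :=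
      E1_mono (hp0 1) (hp 1) (C := C) (D := |v|) (fun T => (isLawN_Lt h0 h1 T).abs_sum_le hG)
        (fun _ => le_rfl) (fun T => by rw [hv]; exact (isLawN_Lt h0 h1 T).sum_le_delta hG)
    rwa [E1_const (hp 1)] at hle
  | succ n ih =>
    intro C G hG
    rw [ell_succ hw0 hw h0 h1 hG, ell_succ hw0 hw h0 h1 hG]
    have hb : ∀ m k : ℕ, |MkG w lam m k G| ≤ C := fun m k =>
      abs_Ek_le (hp0 _) (hp _) k (fun t => abs_sum_G_le hG h0 h1 t)
    have hs : ∀ m : ℕ, Summable fun k => w k * MkG w lam m k G := fun m => by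
      refine Summable.of_norm_bounded (g := fun k => w k * C) (hw.summable.mul_right C) fun k => ?_
      rw [Real.norm_eq_abs, abs_mul, abs_of_nonneg (hw0 k)]
      exact mul_le_mul_of_nonneg_left (hb m k) (hw0 k)
    exact (hs _).tsum_le_tsum
      (fun k => mul_le_mul_of_nonneg_left (MkG_level hw0 hw h0 h1 ih k C G hG) (hw0 k)) (hs _)

theorem xbarH_eq_ell (h0 : -(1 / 2) ≤ lam) (h1 : lam ≤ 1) (s : Fin 3 → ℝ)
    (n : ℕ) : xbarH w lam s n = ellG w lam n (dfc s) := by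
  unfold xbarH ellG
  congr 1
  funext T
  exact ((isLawN_Lt h0 h1 T).sum_dfc s).symm

theorem xbarH_mono (hw0 : ∀ k, 0 ≤ w k) (hw : HasSum w 1) (h0 : -(1 / 2) ≤ lam) (h1 : lam ≤ 1)
    {s : Fin 3 → ℝ} (hs : AdmS s) (n : ℕ) : xbarH w lam s (n + 1) ≤ xbarH w lam s n := by
  rw [xbarH_eq_ell h0 h1, xbarH_eq_ell h0 h1]
  exact ell_mono hw0 hw h0 h1 n 3 _ (ch_dfc hs)

/-- Nonreconstruction on the Poisson tree with coefficients depending on the point. -/
theorem hel_poisson_cells {ι : Type*} [Fintype ι] {s : ι → Fin 3 → ℝ}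
    (hs : ∀ j, AdmS (s j)) {d κ B : ℝ} (hd : 0 ≤ d) (h0 : -(1 / 2) ≤ lam) (h1 : lam ≤ 1)
    (hκ : 0 < κ) (hK : PoiKeyB s d lam κ B) :
    (∀ n, Summable fun T : DTree n => T.prob (poissonWeight d) * T.treeA 3 lam)
      ∧ Tendsto (gwA 3 (poissonWeight d) lam) atTop (𝓝 0) := by
  have hw0 := poisson_nonneg hd
  have hw := poisson_hasSum d
  refine ⟨gwA_summable' hw0 hw h0 h1, ?_⟩
  have hY : Tendsto (YbarH (poissonWeight d) lam) atTop (𝓝 0) := by
    refine tendsto_zero_of_telescope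
      (V := fun n => B * ∑ j, xbarH (poissonWeight d) lam (s j) n) (κ := κ)
      (B := |B| * (Fintype.card ι : ℝ)) hκ (YbarH_nonneg hw0 h0 h1)
      (fun n => abs_sum_defect_le B _ (fun j => abs_xbarH_le hw0 hw h0 h1 (hs j) n)) (fun n => ?_)
    obtain ⟨a, c, c0, e, ha, h2, h3⟩ := hK _ _ (hull_bar hw0 hw hs h0 h1 n)
    have h4 := key_bar hw0 hw hs h0 h1 n h3
    have h5 : ∑ j, a j * (1 - Real.exp (-(d * ybarH (poissonWeight d) lam (s j) n)))
        = ∑ j, a j * xbarH (poissonWeight d) lam (s j) (n + 1) :=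
      Finset.sum_congr rfl fun j _ => by rw [xbarH_succ hd h0 h1 (hs j)]
    rw [h5] at h2
    have h6 : ∑ j, (a j * xbarH (poissonWeight d) lam (s j) n
          - a j * xbarH (poissonWeight d) lam (s j) (n + 1))
        ≤ ∑ j, B * (xbarH (poissonWeight d) lam (s j) n
          - xbarH (poissonWeight d) lam (s j) (n + 1)) := by
      refine Finset.sum_le_sum fun j _ => ?_
      rw [← mul_sub]
      exact mul_le_mul_of_nonneg_right (ha j) (sub_nonneg.2 (xbarH_mono hw0 hw h0 h1 (hs j) n))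
    rw [Finset.sum_sub_distrib, ← Finset.mul_sum, Finset.sum_sub_distrib, mul_sub] at h6
    show B * ∑ j, xbarH (poissonWeight d) lam (s j) (n + 1)
      + κ * (YbarH (poissonWeight d) lam n) ^ 2 ≤ B * ∑ j, xbarH (poissonWeight d) lam (s j) n
    linarith
  have hsq : Tendsto (fun n => Real.sqrt (YbarH (poissonWeight d) lam n / 2)) atTop (𝓝 0) := by
    have := (Real.continuous_sqrt.tendsto (0 / 2)).comp (hY.div_const 2)
    have e : Real.sqrt (0 / 2) = 0 := by simp
    rw [e] at this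
    exact this
  refine squeeze_zero (fun n => ?_) (fun n => ?_) hsq
  · exact tsum_nonneg fun T => mul_nonneg (prob_nonneg hw0 T)
      (treeA_nonneg' T (lik_nonneg' h0 h1 T))
  · exact Real.le_sqrt_of_sq_le (gwA_sq_leH hw0 hw h0 h1 n)

end

end Hel

end Vale.Agent.P154
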