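import Vale.Agent.P154.Hel.TMCfg

/-!
A walker for a list of linear forms on a shared table of Taylor models: on each cell the table is built
once; each form is a list of integer coefficients; the forms that pass on a cell are dropped in its
subtree.
-/

namespace Vale.Agent.P154.Hel.TM

open Finset

/-- The positive part of a linear combination, without normalisation. -/
def linP : List TMod → List ℤ → ℕ
  | t :: ts, .ofNat 0 :: zs => (fun r => r) (linP ts zs)
  | t :: ts, .ofNat (n + 1) :: zs => Nat.add (Nat.mul (Nat.succ n) t.P) (linP ts zs)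
  | t :: ts, .negSucc n :: zs => Nat.add (Nat.mul (Nat.succ n) t.N) (linP ts zs)
  | _, _ => 0

/-- The negative part of a linear combination, without normalisation. -/
def linN : List TMod → List ℤ → ℕ
  | t :: ts, .ofNat 0 :: zs => (fun r => r) (linN ts zs)
  | t :: ts, .ofNat (n + 1) :: zs => Nat.add (Nat.mul (Nat.succ n) t.N) (linN ts zs)
  | t :: ts, .negSucc n :: zs => Nat.add (Nat.mul (Nat.succ n) t.P) (linN ts zs)
  | _, _ => 0

/-- The remainder of a linear combination. -/
def linR : List TMod → List ℤ → ℕ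
  | t :: ts, .ofNat 0 :: zs => (fun r => r) (linR ts zs)
  | t :: ts, .ofNat (n + 1) :: zs => Nat.add (Nat.mul (Nat.succ n) t.rem) (linR ts zs)
  | t :: ts, .negSucc n :: zs => Nat.add (Nat.mul (Nat.succ n) t.rem) (linR ts zs)
  | _, _ => 0

/-- The flags of a linear combination. -/
def linOk : List TMod → List ℤ → Bool
  | t :: ts, .ofNat 0 :: zs => (fun r => r) (linOk ts zs)
  | t :: ts, .ofNat (_ + 1) :: zs => and t.ok (linOk ts zs)
  | t :: ts, .negSucc _ :: zs => and t.ok (linOk ts zs)
  | _, _ => true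

/-- The sum of the absolute values of the coefficients. -/
def linS : List ℤ → ℕ
  | [] => 0
  | .ofNat n :: zs => Nat.add n (linS zs)
  | .negSucc n :: zs => Nat.add (Nat.succ n) (linS zs)

/-- The linear combination on the table. -/
def linT (c : Cfg) (ts : List TMod) (zs : List ℤ) : TMod :=
  addCore c (linP ts zs) (linN ts zs) (linR ts zs) (and (linOk ts zs) (Nat.ble (linS zs) c.TB))

/-- The real linear combination. -/
noncomputable def linV : List ℝ → List ℤ → ℝ
  | x :: xs, z :: zs => (z : ℝ) * x + linV xs zs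
  | _, _ => 0

lemma dig_mul_add_le {c : Cfg} (hc : c.Valid) {X Y : ℕ} (hX : Fmt c X) {n S : ℕ}
    (hY : ∀ k, dig (2 ^ c.w) Y k ≤ S * 2 ^ c.b) (hS : n + S ≤ 2 ^ c.b) (k : ℕ) :
    dig (2 ^ c.w) (n * X + Y) k = n * dig (2 ^ c.w) X k + dig (2 ^ c.w) Y k ∧
      dig (2 ^ c.w) (n * X + Y) k ≤ (n + S) * 2 ^ c.b := by
  have hW := Cfg.Valid.Wpos hc
  have h1 := pow_b_le hc
  have h3 := hc.hBig
  have hq : (2 ^ c.b) * (2 ^ c.b) ≤ (c.L * 2 ^ c.b) * (c.L * 2 ^ c.b) := Nat.mul_le_mul h1 h1
  have hbound : ∀ j, dig (2 ^ c.w) X j * n + dig (2 ^ c.w) Y j ≤ (n + S) * 2 ^ c.b := by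
    intro j
    have h4 := (hX.2 j).1
    have h5 := hY j
    have h6 : dig (2 ^ c.w) X j * n ≤ 2 ^ c.b * n := Nat.mul_le_mul_right _ h4.le
    nlinarith
  have hlt : ∀ j, dig (2 ^ c.w) X j * n + dig (2 ^ c.w) Y j < 2 ^ c.w := by
    intro j
    have h5 := hbound j
    have h6 : (n + S) * 2 ^ c.b ≤ 2 ^ c.b * 2 ^ c.b := Nat.mul_le_mul_right _ hS
    rw [pow_two] at h3
    have h7 : 0 ≤ (c.L * 2 ^ c.b) * (c.L * 2 ^ c.b) := Nat.zero_le _
    omega
  have hm : ∀ j, dig (2 ^ c.w) X j * n < 2 ^ c.w := by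
    intro j
    have := hlt j
    omega
  have e1 : ∀ j, dig (2 ^ c.w) (X * n) j = dig (2 ^ c.w) X j * n := fun j => dig_mul_const hW hm j
  have e2 : dig (2 ^ c.w) (X * n + Y) k = dig (2 ^ c.w) X k * n + dig (2 ^ c.w) Y k := by
    rw [dig_add hW (fun j => by rw [e1]; exact hlt j) k, e1]
  rw [mul_comm n X, e2, mul_comm n]
  exact ⟨rfl, hbound k⟩

lemma lam_mul_add {c : Cfg} (hc : c.Valid) {X Y : ℕ} (hX : Fmt c X) {n S : ℕ}
    (hY : ∀ k, dig (2 ^ c.w) Y k ≤ S * 2 ^ c.b) (hS : n + S ≤ 2 ^ c.b) (g : ℕ → ℝ) (m : ℕ) :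
    lam (2 ^ c.w) m (n * X + Y) g = (n : ℝ) * lam (2 ^ c.w) m X g + lam (2 ^ c.w) m Y g := by
  unfold lam
  rw [mul_sum, ← sum_add_distrib]
  refine sum_congr rfl fun k _ => ?_
  rw [(dig_mul_add_le hc hX hY hS k).1]
  push_cast
  ring

/-- The invariant of a linear combination. -/
lemma lin_core {c : Cfg} {ξ η : ℝ} (C : Ctx c ξ η) {ts : List TMod} {xs : List ℝ}
    (h : List.Forall₂ (RepAt c ξ η) ts xs) {zs : List ℤ} (hS : linS zs ≤ 2 ^ c.b)
    (hok : linOk ts zs = true) :
    (∀ k, dig (2 ^ c.w) (linP ts zs) k ≤ linS zs * 2 ^ c.b) ∧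
    (∀ k, dig (2 ^ c.w) (linN ts zs) k ≤ linS zs * 2 ^ c.b) ∧
    |linV xs zs - (lam (2 ^ c.w) c.L (linP ts zs) (mono c.ST ξ η)
        - lam (2 ^ c.w) c.L (linN ts zs) (mono c.ST ξ η)) * unit c| ≤ (linR ts zs : ℝ) * unit c := by
  have hc := C.hc
  induction h generalizing zs with
  | nil =>
    have e0 : ∀ zs : List ℤ, linP [] zs = 0 := by
      intro zs
      cases zs with
      | nil => rfl
      | cons z zs => rfl
    have e1 : ∀ zs : List ℤ, linN [] zs = 0 := by
      intro zs
      cases zs with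
      | nil => rfl
      | cons z zs => rfl
    have e2 : ∀ zs : List ℤ, linR [] zs = 0 := by
      intro zs
      cases zs with
      | nil => rfl
      | cons z zs => rfl
    have e3 : linV [] zs = 0 := by
      cases zs with
      | nil => rfl
      | cons z zs => rfl
    rw [e0, e1, e2, e3]
    refine ⟨fun k => ?_, fun k => ?_, ?_⟩
    · rw [dig_of_zero]
      exact Nat.zero_le _
    · rw [dig_of_zero]
      exact Nat.zero_le _
    · unfold lam
      simp [dig_of_zero]
  | @cons t x ts xs ht _ ih =>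
    cases zs with
    | nil =>
      refine ⟨fun k => ?_, fun k => ?_, ?_⟩
      · show dig _ 0 k ≤ _
        rw [dig_of_zero]
        exact Nat.zero_le _
      · show dig _ 0 k ≤ _
        rw [dig_of_zero]
        exact Nat.zero_le _
      · show |0 - (lam _ _ 0 _ - lam _ _ 0 _) * unit c| ≤ ((0 : ℕ) : ℝ) * unit c
        unfold lam
        simp [dig_of_zero]
    | cons z zs =>
      obtain ⟨gP, gN, _⟩ := ht.1
      cases z with
      | ofNat n =>
        cases n with
        | zero =>
          have hS' : linS zs ≤ 2 ^ c.b := by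
            have h1 : linS (Int.ofNat 0 :: zs) = 0 + linS zs := rfl
            omega
          have hok' : linOk ts zs = true := hok
          obtain ⟨h1, h2, h3⟩ := ih hS' hok'
          have e1 : linS (Int.ofNat 0 :: zs) = linS zs := by
            show 0 + linS zs = _
            omega
          refine ⟨fun k => ?_, fun k => ?_, ?_⟩
          · rw [e1]
            exact h1 k
          · rw [e1]
            exact h2 k
          · show |((Int.ofNat 0 : ℤ) : ℝ) * x + linV xs zs - _| ≤ _
            have e2 : ((Int.ofNat 0 : ℤ) : ℝ) * x + linV xs zs = linV xs zs := by simp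
            rw [e2]
            exact h3
        | succ n =>
          have eS : linS (Int.ofNat (n + 1) :: zs) = (n + 1) + linS zs := rfl
          have hS' : linS zs ≤ 2 ^ c.b := by omega
          have hok1 : and t.ok (linOk ts zs) = true := hok
          rw [Bool.and_eq_true] at hok1
          obtain ⟨h1, h2, h3⟩ := ih hS' hok1.2
          have hr := ht.2 hok1.1
          have eP : linP (t :: ts) (Int.ofNat (n + 1) :: zs) = (n + 1) * t.P + linP ts zs := rfl
          have eN : linN (t :: ts) (Int.ofNat (n + 1) :: zs) = (n + 1) * t.N + linN ts zs := rfl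
          have eR : linR (t :: ts) (Int.ofNat (n + 1) :: zs) = (n + 1) * t.rem + linR ts zs := rfl
          rw [eS]
          refine ⟨fun k => ?_, fun k => ?_, ?_⟩
          · rw [eP]
            exact (dig_mul_add_le hc gP h1 (by omega) k).2
          · rw [eN]
            exact (dig_mul_add_le hc gN h2 (by omega) k).2
          · rw [eP, eN, eR, lam_mul_add hc gP h1 (by omega), lam_mul_add hc gN h2 (by omega)]
            show |((Int.ofNat (n + 1) : ℤ) : ℝ) * x + linV xs zs - _| ≤ _
            have e3 : ((Int.ofNat (n + 1) : ℤ) : ℝ) = ((n + 1 : ℕ) : ℝ) := by simp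
            rw [e3]
            have e4 : ((n + 1 : ℕ) : ℝ) * x + linV xs zs
                - (((n + 1 : ℕ) : ℝ) * lam (2 ^ c.w) c.L t.P (mono c.ST ξ η) + lam (2 ^ c.w) c.L (linP ts zs) (mono c.ST ξ η)
                  - (((n + 1 : ℕ) : ℝ) * lam (2 ^ c.w) c.L t.N (mono c.ST ξ η) + lam (2 ^ c.w) c.L (linN ts zs) (mono c.ST ξ η))) * unit c
                = ((n + 1 : ℕ) : ℝ) * (x - t.V c ξ η) + (linV xs zs - (lam (2 ^ c.w) c.L (linP ts zs) (mono c.ST ξ η)
                  - lam (2 ^ c.w) c.L (linN ts zs) (mono c.ST ξ η)) * unit c) := by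
              unfold TMod.V val
              ring
            rw [e4]
            refine (abs_add_le _ _).trans ?_
            rw [abs_mul, Nat.abs_cast]
            push_cast
            have h5 := mul_le_mul_of_nonneg_left hr (by positivity : (0 : ℝ) ≤ (n : ℝ) + 1)
            push_cast at h5 h3 ⊢
            nlinarith
      | negSucc n =>
        have eS : linS (Int.negSucc n :: zs) = (n + 1) + linS zs := rfl
        have hS' : linS zs ≤ 2 ^ c.b := by omega
        have hok1 : and t.ok (linOk ts zs) = true := hok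
        rw [Bool.and_eq_true] at hok1
        obtain ⟨h1, h2, h3⟩ := ih hS' hok1.2
        have hr := ht.2 hok1.1
        have eP : linP (t :: ts) (Int.negSucc n :: zs) = (n + 1) * t.N + linP ts zs := rfl
        have eN : linN (t :: ts) (Int.negSucc n :: zs) = (n + 1) * t.P + linN ts zs := rfl
        have eR : linR (t :: ts) (Int.negSucc n :: zs) = (n + 1) * t.rem + linR ts zs := rfl
        rw [eS]
        refine ⟨fun k => ?_, fun k => ?_, ?_⟩
        · rw [eP]
          exact (dig_mul_add_le hc gN h1 (by omega) k).2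
        · rw [eN]
          exact (dig_mul_add_le hc gP h2 (by omega) k).2
        · rw [eP, eN, eR, lam_mul_add hc gN h1 (by omega), lam_mul_add hc gP h2 (by omega)]
          show |((Int.negSucc n : ℤ) : ℝ) * x + linV xs zs - _| ≤ _
          have e3 : ((Int.negSucc n : ℤ) : ℝ) = -((n + 1 : ℕ) : ℝ) := by
            rw [Int.cast_negSucc]
          rw [e3]
          have e4 : -((n + 1 : ℕ) : ℝ) * x + linV xs zs
              - (((n + 1 : ℕ) : ℝ) * lam (2 ^ c.w) c.L t.N (mono c.ST ξ η) + lam (2 ^ c.w) c.L (linP ts zs) (mono c.ST ξ η)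
                - (((n + 1 : ℕ) : ℝ) * lam (2 ^ c.w) c.L t.P (mono c.ST ξ η) + lam (2 ^ c.w) c.L (linN ts zs) (mono c.ST ξ η))) * unit c
              = -(((n + 1 : ℕ) : ℝ) * (x - t.V c ξ η)) + (linV xs zs - (lam (2 ^ c.w) c.L (linP ts zs) (mono c.ST ξ η)
                - lam (2 ^ c.w) c.L (linN ts zs) (mono c.ST ξ η)) * unit c) := by
            unfold TMod.V val
            ring
          rw [e4]
          refine (abs_add_le _ _).trans ?_
          rw [abs_neg, abs_mul, Nat.abs_cast]
          push_cast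
          have h5 := mul_le_mul_of_nonneg_left hr (by positivity : (0 : ℝ) ≤ (n : ℝ) + 1)
          push_cast at h5 h3 ⊢
          nlinarith

lemma repAt_lin {c : Cfg} {ξ η : ℝ} (C : Ctx c ξ η) {ts : List TMod} {xs : List ℝ}
    (h : List.Forall₂ (RepAt c ξ η) ts xs) (zs : List ℤ) :
    RepAt c ξ η (linT c ts zs) (linV xs zs) := by
  have hc := C.hc
  have hW := Cfg.Valid.Wpos hc
  refine ⟨good_mk hc _ _ _ _, fun hok => ?_⟩
  set A := linP ts zs with hA
  set B := linN ts zs with hB
  have hok' : (and (and (linOk ts zs) (Nat.ble (linS zs) c.TB))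
      (Nat.beq (Nat.add A (Nat.land (negPart c (splitD c A B)) c.MB))
        (Nat.add B (Nat.land (posPart c (splitD c A B)) c.MB)))) = true := hok
  simp only [Bool.and_eq_true] at hok'
  obtain ⟨⟨h1, h2⟩, h3⟩ := hok'
  have hS : linS zs ≤ 2 ^ c.b := by
    have := Nat.le_of_ble_eq_true h2
    rwa [hc.hTB] at this
  obtain ⟨d1, d2, d3⟩ := lin_core C h hS h1
  have hchk := Nat.eq_of_beq_eq_true h3
  have hP := fmt_land hc (posPart c (splitD c A B))
  have hN := fmt_land hc (negPart c (splitD c A B))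
  set P := Nat.land (posPart c (splitD c A B)) c.MB with hPd
  set N := Nat.land (negPart c (splitD c A B)) c.MB with hNd
  have h4 := pow_b_le hc
  have h5 := hc.hBig
  have hq : (2 ^ c.b) * (2 ^ c.b) ≤ (c.L * 2 ^ c.b) * (c.L * 2 ^ c.b) := Nat.mul_le_mul h4 h4
  rw [pow_two] at h5
  have hq2 : linS zs * 2 ^ c.b ≤ 2 ^ c.b * 2 ^ c.b := Nat.mul_le_mul_right _ hS
  have hq3 : 2 ^ c.b ≤ 2 ^ c.b * 2 ^ c.b := Nat.le_mul_of_pos_left _ (by positivity)
  have e := lam_of_eq hW (A := A) (B := N) (C := B) (D := P) hchk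
    (fun k => by
      have a1 : dig (2 ^ c.w) A k ≤ linS zs * 2 ^ c.b := d1 k
      have a2 := (hN.2 k).1
      omega)
    (fun k => by
      have a1 : dig (2 ^ c.w) B k ≤ linS zs * 2 ^ c.b := d2 k
      have a2 := (hP.2 k).1
      omega) c.L (mono c.ST ξ η)
  show |linV xs zs - (val c ξ η P - val c ξ η N) * unit c| ≤ _
  unfold val
  have e2 : lam (2 ^ c.w) c.L P (mono c.ST ξ η) - lam (2 ^ c.w) c.L N (mono c.ST ξ η)
      = lam (2 ^ c.w) c.L A (mono c.ST ξ η) - lam (2 ^ c.w) c.L B (mono c.ST ξ η) := by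
    linarith
  rw [e2]
  exact d3

/-- The forms that remain on a cell. -/
def remainF (c : Cfg) (ts : List TMod) : List (List ℤ) → List (List ℤ)
  | [] => []
  | z :: zs => cond (leafOK c (linT c ts z)) (remainF c ts zs) (z :: remainF c ts zs)

/-- The walk of a list of forms. `B` builds the table of a cell. -/
def formWalk (c : Cfg) (B : TMod → TMod → List TMod) : ℕ → ℕ → ℕ → ℕ → List (List ℤ) → Bool
  | 0, _, _, _, _ => false
  | f + 1, K, i, j, zs =>
    (fun rest =>
      match rest with
      | [] => true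
      | _ :: _ =>
        and (formWalk c B f (Nat.succ K) (Nat.mul 2 i) (Nat.mul 2 j) rest)
        (and (formWalk c B f (Nat.succ K) (Nat.succ (Nat.mul 2 i)) (Nat.mul 2 j) rest)
        (and (formWalk c B f (Nat.succ K) (Nat.mul 2 i) (Nat.succ (Nat.mul 2 j)) rest)
          (formWalk c B f (Nat.succ K) (Nat.succ (Nat.mul 2 i)) (Nat.succ (Nat.mul 2 j)) rest))))
      (remainF c (B (xiT c K i) (etaT c K j)) zs)

lemma remainF_sound {c : Cfg} {ξ η : ℝ} (C : Ctx c ξ η) {ts : List TMod} {xs : List ℝ}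
    (h : List.Forall₂ (RepAt c ξ η) ts xs) {zs : List (List ℤ)} {z : List ℤ} (hz : z ∈ zs) :
    z ∈ remainF c ts zs ∨ 0 ≤ linV xs z := by
  induction zs with
  | nil => simp at hz
  | cons y zs ih =>
    rw [List.mem_cons] at hz
    simp only [remainF]
    cases hy : leafOK c (linT c ts y) with
    | true =>
      rcases hz with rfl | hz
      · right
        exact leaf_sound C (repAt_lin C h _) hy
      · simpa using ih hz
    | false =>
      rcases hz with rfl | hz
      · left
        simp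
      · rcases ih hz with h1 | h1
        · left
          simp [h1]
        · exact Or.inr h1

/-- The soundness of the walk: all forms are nonnegative on the cell. -/
theorem formWalk_sound {c : Cfg} (hc : c.Valid) {B : TMod → TMod → List TMod} {G : ℝ → ℝ → List ℝ}
    (hB : ∀ ξ η (_ : Ctx c ξ η) (a b : TMod) (v w : ℝ), RepAt c ξ η a v → RepAt c ξ η b w →
      List.Forall₂ (RepAt c ξ η) (B a b) (G v w))
    (f K i j : ℕ) (zs : List (List ℤ)) (h : formWalk c B f K i j zs = true)
    {z : List ℤ} (hz : z ∈ zs) {v w : ℝ} (hv : InCell K i j v w) : 0 ≤ linV (G v w) z := by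
  induction f generalizing K i j zs with
  | zero => simp [formWalk] at h
  | succ f ih =>
    obtain ⟨ξ, hξ, e1⟩ := local_coord hv.1 hv.2.1
    obtain ⟨η, hη, e2⟩ := local_coord hv.2.2.1 hv.2.2.2
    have C : Ctx c ξ η := ⟨hc, hξ, hη⟩
    have hT : List.Forall₂ (RepAt c ξ η) (B (xiT c K i) (etaT c K j)) (G v w) := by
      refine hB ξ η C _ _ _ _ ?_ ?_
      · rw [e1]
        exact repAt_xi C K i
      · rw [e2]
        exact repAt_eta C K j
    rcases remainF_sound C hT hz with hr | hr
    · have h' : (match remainF c (B (xiT c K i) (etaT c K j)) zs with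
        | [] => true
        | _ :: _ =>
          and (formWalk c B f (Nat.succ K) (Nat.mul 2 i) (Nat.mul 2 j) (remainF c (B (xiT c K i) (etaT c K j)) zs))
          (and (formWalk c B f (Nat.succ K) (Nat.succ (Nat.mul 2 i)) (Nat.mul 2 j) (remainF c (B (xiT c K i) (etaT c K j)) zs))
          (and (formWalk c B f (Nat.succ K) (Nat.mul 2 i) (Nat.succ (Nat.mul 2 j)) (remainF c (B (xiT c K i) (etaT c K j)) zs))
            (formWalk c B f (Nat.succ K) (Nat.succ (Nat.mul 2 i)) (Nat.succ (Nat.mul 2 j)) (remainF c (B (xiT c K i) (etaT c K j)) zs))))) = true := h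
      generalize hR : remainF c (B (xiT c K i) (etaT c K j)) zs = R at h' hr
      cases R with
      | nil => simp at hr
      | cons y R =>
        simp only [Bool.and_eq_true] at h'
        obtain ⟨h1, h2, h3, h4⟩ := h'
        obtain ⟨i', hi', hi1, hi2⟩ := inCell_split hv.1 hv.2.1
        obtain ⟨j', hj', hj1, hj2⟩ := inCell_split hv.2.2.1 hv.2.2.2
        have hn : InCell (Nat.succ K) i' j' v w := ⟨hi1, hi2, hj1, hj2⟩
        rcases hi' with rfl | rfl <;> rcases hj' with rfl | rfl
        · exact ih _ _ _ _ h1 hr hn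
        · exact ih _ _ _ _ h3 hr hn
        · exact ih _ _ _ _ h2 hr hn
        · exact ih _ _ _ _ h4 hr hn
    · exact hr

/-- All top cells of level `K` imply the statement on the unit square. -/
theorem forms_of_cells {c : Cfg} (hc : c.Valid) {B : TMod → TMod → List TMod} {G : ℝ → ℝ → List ℝ}
    (hB : ∀ ξ η (_ : Ctx c ξ η) (a b : TMod) (v w : ℝ), RepAt c ξ η a v → RepAt c ξ η b w →
      List.Forall₂ (RepAt c ξ η) (B a b) (G v w))
    (f K : ℕ) (zs : List (List ℤ)) (h : ∀ i j, i < 2 ^ K → j < 2 ^ K → formWalk c B f K i j zs = true)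
    {z : List ℤ} (hz : z ∈ zs) {v w : ℝ} (hv0 : 0 ≤ v) (hv1 : v ≤ 1) (hw0 : 0 ≤ w) (hw1 : w ≤ 1) :
    0 ≤ linV (G v w) z := by
  have key : ∀ x : ℝ, 0 ≤ x → x ≤ 1 → ∃ i : ℕ, i < 2 ^ K ∧ (i : ℝ) / 2 ^ K ≤ x ∧ x ≤ ((i : ℝ) + 1) / 2 ^ K := by
    intro x h0 h1
    have hK : (0 : ℝ) < 2 ^ K := by positivity
    by_cases hx : x = 1
    · refine ⟨2 ^ K - 1, ?_, ?_, ?_⟩
      · have : 0 < 2 ^ K := by positivity
        omega
      · have h2 : 1 ≤ 2 ^ K := Nat.one_le_two_pow
        rw [hx, div_le_one hK]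
        have : ((2 ^ K - 1 : ℕ) : ℝ) = 2 ^ K - 1 := by
          rw [Nat.cast_sub h2]
          push_cast
          rfl
        rw [this]
        linarith
      · have h2 : 1 ≤ 2 ^ K := Nat.one_le_two_pow
        have : ((2 ^ K - 1 : ℕ) : ℝ) = 2 ^ K - 1 := by
          rw [Nat.cast_sub h2]
          push_cast
          rfl
        rw [this, hx]
        field_simp
        linarith
    · have hlt : x < 1 := lt_of_le_of_ne h1 hx
      refine ⟨⌊x * 2 ^ K⌋₊, ?_, ?_, ?_⟩
      · have h2 : ⌊x * 2 ^ K⌋₊ < ((2 ^ K : ℕ)) := by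
          rw [Nat.floor_lt (by positivity)]
          push_cast
          nlinarith
        exact h2
      · rw [div_le_iff₀ hK]
        exact Nat.floor_le (by positivity)
      · rw [le_div_iff₀ hK]
        exact (Nat.lt_floor_add_one _).le
  obtain ⟨i, hi, hi1, hi2⟩ := key v hv0 hv1
  obtain ⟨j, hj, hj1, hj2⟩ := key w hw0 hw1
  exact formWalk_sound hc hB f K i j zs (h i j hi hj) hz ⟨hi1, hi2, hj1, hj2⟩

end Vale.Agent.P154.Hel.TM
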