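import Vale.Agent.P154.Hel.Direct
import Vale.Agent.P154.Hel.FormWalk
import Vale.Agent.P154.Hel.RayLemma

/-!
The two rows of a plane at `t = 1/2` on a shared table of Taylor models: the plane inequality at `t = 1/2`
(row F) and the derivative along the rays (row D).
-/

namespace Vale.Agent.P154.Hel.Direct

open TM Q3

/-! ### The real functions of the chart -/

/-- The derivative of `six` in `y0`. -/
noncomputable def dsix0 (e : E3) (y0 y1 y2 : ℝ) : ℝ :=
  (e.1 : ℝ) * y0 ^ (e.1 - 1) * (y1 ^ e.2.1 * y2 ^ e.2.2 + y2 ^ e.2.1 * y1 ^ e.2.2)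
    + (e.2.1 : ℝ) * y0 ^ (e.2.1 - 1) * (y1 ^ e.1 * y2 ^ e.2.2 + y2 ^ e.1 * y1 ^ e.2.2)
    + (e.2.2 : ℝ) * y0 ^ (e.2.2 - 1) * (y1 ^ e.1 * y2 ^ e.2.1 + y2 ^ e.1 * y1 ^ e.2.1)

/-- `y1` times the derivative of `six` in `y1`. -/
noncomputable def r1six (e : E3) (y0 y1 y2 : ℝ) : ℝ :=
  y0 ^ e.1 * ((e.2.1 : ℝ) * (y1 ^ e.2.1 * y2 ^ e.2.2) + (e.2.2 : ℝ) * (y2 ^ e.2.1 * y1 ^ e.2.2))
    + y0 ^ e.2.1 * ((e.1 : ℝ) * (y1 ^ e.1 * y2 ^ e.2.2) + (e.2.2 : ℝ) * (y2 ^ e.1 * y1 ^ e.2.2))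
    + y0 ^ e.2.2 * ((e.1 : ℝ) * (y1 ^ e.1 * y2 ^ e.2.1) + (e.2.1 : ℝ) * (y2 ^ e.1 * y1 ^ e.2.1))

/-- `y2` times the derivative of `six` in `y2`. -/
noncomputable def r2six (e : E3) (y0 y1 y2 : ℝ) : ℝ :=
  y0 ^ e.1 * ((e.2.2 : ℝ) * (y1 ^ e.2.1 * y2 ^ e.2.2) + (e.2.1 : ℝ) * (y2 ^ e.2.1 * y1 ^ e.2.2))
    + y0 ^ e.2.1 * ((e.2.2 : ℝ) * (y1 ^ e.1 * y2 ^ e.2.2) + (e.1 : ℝ) * (y2 ^ e.1 * y1 ^ e.2.2))
    + y0 ^ e.2.2 * ((e.2.1 : ℝ) * (y1 ^ e.1 * y2 ^ e.2.1) + (e.1 : ℝ) * (y2 ^ e.1 * y1 ^ e.2.1))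

/-- The element of the table of the row D for one exponent. -/
noncomputable def ddR (e : E3) (M i1 i2 y0 y1 y2 : ℝ) : ℝ :=
  36 * (y0 ^ 11 * six e y0 y1 y2)
    + M * (dsix0 e y0 y1 y2 + y0 ^ 11 * (i1 * r1six e y0 y1 y2 + i2 * r2six e y0 y1 y2))
    - 144 * (M * y0 ^ 11)

/-- Expansion of `Sj` on the six permutations. -/
lemma Sj_six (s w : Fin 3 → ℝ) :
    Sj s w = (1 / 6) * (w 0 ^ s 0 * w 1 ^ s 1 * w 2 ^ s 2 * (s 0 / w 0 + s 1 / w 1 + s 2 / w 2)
      + w 0 ^ s 0 * w 2 ^ s 1 * w 1 ^ s 2 * (s 0 / w 0 + s 1 / w 2 + s 2 / w 1)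
      + w 1 ^ s 0 * w 0 ^ s 1 * w 2 ^ s 2 * (s 0 / w 1 + s 1 / w 0 + s 2 / w 2)
      + w 2 ^ s 0 * w 0 ^ s 1 * w 1 ^ s 2 * (s 0 / w 2 + s 1 / w 0 + s 2 / w 1)
      + w 1 ^ s 0 * w 2 ^ s 1 * w 0 ^ s 2 * (s 0 / w 1 + s 1 / w 2 + s 2 / w 0)
      + w 2 ^ s 0 * w 1 ^ s 1 * w 0 ^ s 2 * (s 0 / w 2 + s 1 / w 1 + s 2 / w 0)) := by
  unfold Sj mono
  rw [perm_univ]
  rw [Finset.sum_insert (by decide), Finset.sum_insert (by decide), Finset.sum_insert (by decide),
    Finset.sum_insert (by decide), Finset.sum_insert (by decide), Finset.sum_singleton]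
  simp only [Fin.prod_univ_three, Fin.sum_univ_three]
  have e1 : p1 0 = 0 := rfl
  have e2 : p1 1 = 1 := rfl
  have e3 : p1 2 = 2 := rfl
  have e4 : p2 0 = 0 := rfl
  have e5 : p2 1 = 2 := rfl
  have e6 : p2 2 = 1 := rfl
  have e7 : p3 0 = 1 := rfl
  have e8 : p3 1 = 0 := rfl
  have e9 : p3 2 = 2 := rfl
  have e10 : p4 0 = 2 := rfl
  have e11 : p4 1 = 0 := rfl
  have e12 : p4 2 = 1 := rfl
  have e13 : p5 0 = 1 := rfl
  have e14 : p5 1 = 2 := rfl
  have e15 : p5 2 = 0 := rfl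
  have e16 : p6 0 = 2 := rfl
  have e17 : p6 1 = 1 := rfl
  have e18 : p6 2 = 0 := rfl
  simp only [e1, e2, e3, e4, e5, e6, e7, e8, e9, e10, e11, e12, e13, e14, e15, e16, e17, e18]
  ring

lemma pow_factor {y : ℝ} (hy : 0 < y) (p : ℕ) :
    (p : ℝ) * y ^ p * (y ^ 12)⁻¹ * y ^ 11 = (p : ℝ) * y ^ (p - 1) := by
  cases p with
  | zero => simp
  | succ n =>
    have e : y ^ (n + 1) * (y ^ 12)⁻¹ * y ^ 11 = y ^ n := by
      have h : y ^ 12 ≠ 0 := (pow_pos hy 12).ne'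
      field_simp
      ring
    simp only [Nat.add_sub_cancel]
    calc ((n + 1 : ℕ) : ℝ) * y ^ (n + 1) * (y ^ 12)⁻¹ * y ^ 11
        = ((n + 1 : ℕ) : ℝ) * (y ^ (n + 1) * (y ^ 12)⁻¹ * y ^ 11) := by ring
      _ = _ := by rw [e]

/-- The value of `Dj` in the chart. -/
lemma Dj_grid (e : E3) {y0 y1 y2 M : ℝ} (h0 : 0 < y0) (h1 : 0 < y1) (h2 : 0 < y2)
    (hm : mass ![y0 ^ 12, y1 ^ 12, y2 ^ 12] = M / 3) :
    216 * y0 ^ 11 * Dj (sE e) ![y0 ^ 12, y1 ^ 12, y2 ^ 12]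
      = ddR e M (y1 ^ 12)⁻¹ (y2 ^ 12)⁻¹ y0 y1 y2 := by
  unfold Dj
  rw [chi_grid e h0.le h1.le h2.le, hm, Sj_six]
  simp only [sE, Matrix.cons_val_zero, Matrix.cons_val_one, Matrix.cons_val]
  simp only [rpow_grid h0.le, rpow_grid h1.le, rpow_grid h2.le]
  unfold ddR six dsix0 r1six r2six
  set a := e.1
  set b := e.2.1
  set c := e.2.2
  have fa := pow_factor h0 a
  have fb := pow_factor h0 b
  have fc := pow_factor h0 c
  rw [← fa, ← fb, ← fc]
  simp only [div_eq_mul_inv]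
  set W0 := (y0 ^ 12)⁻¹
  set W1 := (y1 ^ 12)⁻¹
  set W2 := (y2 ^ 12)⁻¹
  ring

/-! ### Symmetry and homogeneity of the row D -/

/-- The row D at a triple. -/
noncomputable def rowD (X : List E3) (C : List ℤ) (Eps Eta : ℤ) (x : Fin 3 → ℝ) : ℝ :=
  ∑ j : Fin X.length, ((C.getD j 0 : ℤ) : ℝ) * Dj (sE (X.get j)) (T (-(1 / 2)) x)
    + (Eps : ℝ) * yyv (T (-(1 / 2)) x) + (Eta : ℝ) * mass x

lemma Sj_perm (s w : Fin 3 → ℝ) (h : Equiv.Perm (Fin 3)) :
    Sj s (fun i => w (h i)) = Sj s w := by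
  unfold Sj
  congr 1
  exact Equiv.sum_comp (Equiv.mulLeft h) (fun g => mono s (fun i => w (g i)) * ∑ i, s i / w (g i))

lemma Dj_perm (s w : Fin 3 → ℝ) (h : Equiv.Perm (Fin 3)) :
    Dj s (fun i => w (h i)) = Dj s w := by
  unfold Dj
  rw [chi_perm, Sj_perm, mass_perm]

lemma rowD_perm (X : List E3) (C : List ℤ) (Eps Eta : ℤ) (x : Fin 3 → ℝ) (g : Equiv.Perm (Fin 3)) :
    rowD X C Eps Eta (fun i => x (g i)) = rowD X C Eps Eta x := by
  unfold rowD
  simp only [T_perm, Dj_perm, mass_perm, yyv_perm]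

lemma Sj_smul {s : Fin 3 → ℝ} (hs : AdmS s) {k : ℝ} (hk : 0 < k) {w : Fin 3 → ℝ} (hw : ∀ i, 0 ≤ w i) :
    Sj s (fun i => k * w i) = Sj s w := by
  unfold Sj
  congr 1
  refine Finset.sum_congr rfl fun g _ => ?_
  have key : mono s (fun i => k * w (g i)) = k * mono s (fun i => w (g i)) := by
    have := mono_mul (s := s) (a := fun _ => k) (b := fun i => w (g i)) (fun _ => hk.le) (fun i => hw _)
    rw [mono_const hs hk] at this
    exact this
  rw [key]
  have e : ∑ i, s i / (k * w (g i)) = k⁻¹ * ∑ i, s i / w (g i) := by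
    rw [Finset.mul_sum]
    refine Finset.sum_congr rfl fun i _ => ?_
    rw [div_mul_eq_div_div, div_eq_mul_inv, div_eq_mul_inv]
    ring_nf
  rw [e]
  field_simp

lemma Dj_smul {s : Fin 3 → ℝ} (hs : AdmS s) {k : ℝ} (hk : 0 < k) {w : Fin 3 → ℝ} (hw : ∀ i, 0 ≤ w i) :
    Dj s (fun i => k * w i) = k * Dj s w := by
  unfold Dj
  rw [chi_smul hs hk hw, Sj_smul hs hk hw, mass_smul]
  ring

lemma rowD_smul (X : List E3) (hX : ∀ e ∈ X, e.1 + e.2.1 + e.2.2 = 12) (C : List ℤ) (Eps Eta : ℤ)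
    {k : ℝ} (hk : 0 < k) {u : Fin 3 → ℝ} (hu : ∀ i, 0 ≤ u i) :
    rowD X C Eps Eta (fun i => k * u i) = k * rowD X C Eps Eta u := by
  have hT : ∀ i, 0 ≤ T (-(1 / 2)) u i := T_nonneg hu (by norm_num) (by norm_num)
  unfold rowD
  rw [T_smul]
  have e1 : ∀ j : Fin X.length, Dj (sE (X.get j)) (fun i => k * T (-(1 / 2)) u i)
      = k * Dj (sE (X.get j)) (T (-(1 / 2)) u) :=
    fun j => Dj_smul (adm_sE (hX _ (List.get_mem X j))) hk hT
  simp only [e1, yyv_smul hk, mass_smul]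
  rw [mul_add, mul_add, Finset.mul_sum]
  congr 1
  · congr 1
    · refine Finset.sum_congr rfl fun j _ => ?_
      ring
    · ring
  · ring

/-- The reduction of the row D to the chart. -/
theorem rowD_nonneg (X : List E3) (hX : ∀ e ∈ X, e.1 + e.2.1 + e.2.2 = 12) (C : List ℤ) (Eps Eta : ℤ)
    (H : ∀ v r : ℝ, 0 < v → v ≤ 1 → 0 < r → r ≤ 1 → 0 ≤ rowD X C Eps Eta ![1, v ^ 12, (v * r) ^ 12])
    (x : Fin 3 → ℝ) (hx : ∀ i, 0 < x i) : 0 ≤ rowD X C Eps Eta x := by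
  obtain ⟨g, g1, g2⟩ := exists_sorted x
  rw [← rowD_perm X C Eps Eta x g]
  set x' : Fin 3 → ℝ := fun i => x (g i) with hx'
  have p0 : 0 < x' 0 := hx _
  have p1 : 0 < x' 1 := hx _
  have p2 : 0 < x' 2 := hx _
  set v := (x' 1 / x' 0) ^ ((1 : ℝ) / 12) with hv
  set r := (x' 2 / x' 1) ^ ((1 : ℝ) / 12) with hr
  have v0 : 0 < v := Real.rpow_pos_of_pos (div_pos p1 p0) _
  have r0 : 0 < r := Real.rpow_pos_of_pos (div_pos p2 p1) _
  have v1 : v ≤ 1 := by
    apply Real.rpow_le_one (div_nonneg p1.le p0.le) _ (by norm_num)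
    rw [div_le_one p0]
    exact g1
  have r1 : r ≤ 1 := by
    apply Real.rpow_le_one (div_nonneg p2.le p1.le) _ (by norm_num)
    rw [div_le_one p1]
    exact g2
  have ev : v ^ 12 = x' 1 / x' 0 := pow12_eq (div_nonneg p1.le p0.le)
  have er : r ^ 12 = x' 2 / x' 1 := pow12_eq (div_nonneg p2.le p1.le)
  have ew : (v * r) ^ 12 = x' 2 / x' 0 := by
    rw [mul_pow, ev, er]
    field_simp
  have ex : x' = fun i => x' 0 * (![1, v ^ 12, (v * r) ^ 12] : Fin 3 → ℝ) i := by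
    funext i
    rw [ev, ew]
    fin_cases i
    · simp
    · simp
      field_simp
    · simp
      field_simp
  rw [ex, rowD_smul X hX C Eps Eta p0 (by
    intro i
    fin_cases i <;> simp <;> positivity)]
  exact mul_nonneg p0.le (H v r v0 v1 r0 r1)

/-! ### The table -/

/-- The real value of the twelve-fold root for the variable `y0`. -/
noncomputable def y0H (v r : ℝ) : ℝ := v * ((1 + r ^ 12) / 2) ^ ((1 : ℝ) / 12)
/-- The real value of the root for `y1`. -/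
noncomputable def y1H (v r : ℝ) : ℝ := ((1 + (v * r) ^ 12) / 2) ^ ((1 : ℝ) / 12)
/-- The real value of the root for `y2`. -/
noncomputable def y2H (v : ℝ) : ℝ := ((1 + v ^ 12) / 2) ^ ((1 : ℝ) / 12)
/-- The normaliser. -/
noncomputable def M3H (v r : ℝ) : ℝ := 1 + v ^ 12 + (v * r) ^ 12
/-- The numerator of the second moment. -/
noncomputable def Q3H (v r : ℝ) : ℝ := v ^ 12 + v ^ 12 * (v * r) ^ 12 + (v * r) ^ 12

/-- The real table of a cell. -/
noncomputable def tableR (X : List E3) (v r : ℝ) : List ℝ :=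
  M3H v r :: ((X.map fun e => six e 1 v (v * r)) ++ ((X.map fun e => six e (y0H v r) (y1H v r) (y2H v))
    ++ ((2 * M3H v r - 6 * (Q3H v r * (M3H v r)⁻¹)) ::
      ((X.map fun e => ddR e (M3H v r) (((1 + (v * r) ^ 12) / 2)⁻¹) (((1 + v ^ 12) / 2)⁻¹) (y0H v r) (y1H v r) (y2H v))
        ++ [y0H v r ^ 11 * (18 * M3H v r - 54 * (Q3H v r * (M3H v r)⁻¹)), 72 * (y0H v r ^ 11 * M3H v r)]))))

/-- The program of the derivative of `six` in `y0`. The coefficient `e.1` multiplies the power `e.1 - 1`. -/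
def dsix0T (c : Cfg) (p0 p1 p2 : List TMod) (e : E3) : TMod :=
  addT c (addT c
    (smulT c e.1 (mulT c (pick p0 (e.1 - 1)) (addT c (mulT c (pick p1 e.2.1) (pick p2 e.2.2)) (mulT c (pick p2 e.2.1) (pick p1 e.2.2)))))
    (smulT c e.2.1 (mulT c (pick p0 (e.2.1 - 1)) (addT c (mulT c (pick p1 e.1) (pick p2 e.2.2)) (mulT c (pick p2 e.1) (pick p1 e.2.2))))))
    (smulT c e.2.2 (mulT c (pick p0 (e.2.2 - 1)) (addT c (mulT c (pick p1 e.1) (pick p2 e.2.1)) (mulT c (pick p2 e.1) (pick p1 e.2.1)))))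

/-- The program of `r1six`. -/
def r1sixT (c : Cfg) (p0 p1 p2 : List TMod) (e : E3) : TMod :=
  addT c (addT c
    (mulT c (pick p0 e.1) (addT c (smulT c e.2.1 (mulT c (pick p1 e.2.1) (pick p2 e.2.2))) (smulT c e.2.2 (mulT c (pick p2 e.2.1) (pick p1 e.2.2)))))
    (mulT c (pick p0 e.2.1) (addT c (smulT c e.1 (mulT c (pick p1 e.1) (pick p2 e.2.2))) (smulT c e.2.2 (mulT c (pick p2 e.1) (pick p1 e.2.2))))))
    (mulT c (pick p0 e.2.2) (addT c (smulT c e.1 (mulT c (pick p1 e.1) (pick p2 e.2.1))) (smulT c e.2.1 (mulT c (pick p2 e.1) (pick p1 e.2.1)))))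

/-- The program of `r2six`. -/
def r2sixT (c : Cfg) (p0 p1 p2 : List TMod) (e : E3) : TMod :=
  addT c (addT c
    (mulT c (pick p0 e.1) (addT c (smulT c e.2.2 (mulT c (pick p1 e.2.1) (pick p2 e.2.2))) (smulT c e.2.1 (mulT c (pick p2 e.2.1) (pick p1 e.2.2)))))
    (mulT c (pick p0 e.2.1) (addT c (smulT c e.2.2 (mulT c (pick p1 e.1) (pick p2 e.2.2))) (smulT c e.1 (mulT c (pick p2 e.1) (pick p1 e.2.2))))))
    (mulT c (pick p0 e.2.2) (addT c (smulT c e.2.1 (mulT c (pick p1 e.1) (pick p2 e.2.1))) (smulT c e.1 (mulT c (pick p2 e.1) (pick p1 e.2.1)))))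

/-- The program of `ddR`. -/
def ddT (c : Cfg) (M i1 i2 y11 My : TMod) (p0 p1 p2 : List TMod) (e : E3) : TMod :=
  subT c (addT c (smulT c 36 (mulT c y11 (sixT c p0 p1 p2 e)))
      (mulT c M (addT c (dsix0T c p0 p1 p2 e)
        (mulT c y11 (addT c (mulT c i1 (r1sixT c p0 p1 p2 e)) (mulT c i2 (r2sixT c p0 p1 p2 e)))))))
    (smulT c 144 My)

/-- The table of a cell. -/
def tableT (c : Cfg) (X : List E3) (v r : TMod) : List TMod :=
  (fun pv => (fun w => (fun pw => (fun x1 x2 => (fun M => (fun one half => (fun w1 w2 =>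
    (fun p0 p1 p2 => (fun y11 Qi => (fun My =>
      M :: ((X.map fun e => sixT c (onesT c) pv pw e) ++ ((X.map fun e => sixT c p0 p1 p2 e)
        ++ ((subT c (smulT c 2 M) (smulT c 6 Qi)) ::
          ((X.map fun e => ddT c M (invT c w1) (invT c w2) y11 My p0 p1 p2 e)
            ++ [mulT c y11 (subT c (smulT c 18 M) (smulT c 54 Qi)), smulT c 72 My])))))
      (mulT c y11 M))
      (pick p0 11) (mulT c (addT c (addT c x1 (mulT c x1 x2)) x2) (invT c M)))
      (powsT c (mulT c v (rootT c (mulT c half (addT c one (pick (powsT c r) 12))))))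
      (powsT c (rootT c w1))
      (powsT c (rootT c w2)))
    (mulT c half (addT c one x2)) (mulT c half (addT c one x1)))
    (ofFix c c.TF) (ofRat c 1 2))
    (addT c (addT c (ofFix c c.TF) x1) x2))
    (pick pv 12) (pick pw 12))
    (powsT c w)) (mulT c v r)) (powsT c v)

lemma le12 {e : E3} (he : e.1 + e.2.1 + e.2.2 = 12) : e.1 ≤ 12 ∧ e.2.1 ≤ 12 ∧ e.2.2 ≤ 12 := by
  refine ⟨?_, ?_, ?_⟩ <;> omega

lemma repAt_dsix0 {c : Cfg} {ξ η : ℝ} (C : Ctx c ξ η) {p0 p1 p2 : List TMod} {y0 y1 y2 : ℝ}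
    (h0 : Tab c ξ η p0 y0) (h1 : Tab c ξ η p1 y1) (h2 : Tab c ξ η p2 y2) {e : E3}
    (he : e.1 + e.2.1 + e.2.2 = 12) : RepAt c ξ η (dsix0T c p0 p1 p2 e) (dsix0 e y0 y1 y2) := by
  obtain ⟨e0, e1, e2⟩ := le12 he
  refine (repAt_add C (repAt_add C
    (repAt_smul C _ (repAt_mul C (h0 _ (by omega)) (repAt_add C (repAt_mul C (h1 _ e1) (h2 _ e2)) (repAt_mul C (h2 _ e1) (h1 _ e2)))))
    (repAt_smul C _ (repAt_mul C (h0 _ (by omega)) (repAt_add C (repAt_mul C (h1 _ e0) (h2 _ e2)) (repAt_mul C (h2 _ e0) (h1 _ e2))))))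
    (repAt_smul C _ (repAt_mul C (h0 _ (by omega)) (repAt_add C (repAt_mul C (h1 _ e0) (h2 _ e1)) (repAt_mul C (h2 _ e0) (h1 _ e1)))))).congr ?_
  unfold dsix0
  ring

lemma repAt_r1six {c : Cfg} {ξ η : ℝ} (C : Ctx c ξ η) {p0 p1 p2 : List TMod} {y0 y1 y2 : ℝ}
    (h0 : Tab c ξ η p0 y0) (h1 : Tab c ξ η p1 y1) (h2 : Tab c ξ η p2 y2) {e : E3}
    (he : e.1 + e.2.1 + e.2.2 = 12) : RepAt c ξ η (r1sixT c p0 p1 p2 e) (r1six e y0 y1 y2) := by
  obtain ⟨e0, e1, e2⟩ := le12 he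
  exact repAt_add C (repAt_add C
    (repAt_mul C (h0 _ e0) (repAt_add C (repAt_smul C _ (repAt_mul C (h1 _ e1) (h2 _ e2))) (repAt_smul C _ (repAt_mul C (h2 _ e1) (h1 _ e2)))))
    (repAt_mul C (h0 _ e1) (repAt_add C (repAt_smul C _ (repAt_mul C (h1 _ e0) (h2 _ e2))) (repAt_smul C _ (repAt_mul C (h2 _ e0) (h1 _ e2))))))
    (repAt_mul C (h0 _ e2) (repAt_add C (repAt_smul C _ (repAt_mul C (h1 _ e0) (h2 _ e1))) (repAt_smul C _ (repAt_mul C (h2 _ e0) (h1 _ e1)))))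

lemma repAt_r2six {c : Cfg} {ξ η : ℝ} (C : Ctx c ξ η) {p0 p1 p2 : List TMod} {y0 y1 y2 : ℝ}
    (h0 : Tab c ξ η p0 y0) (h1 : Tab c ξ η p1 y1) (h2 : Tab c ξ η p2 y2) {e : E3}
    (he : e.1 + e.2.1 + e.2.2 = 12) : RepAt c ξ η (r2sixT c p0 p1 p2 e) (r2six e y0 y1 y2) := by
  obtain ⟨e0, e1, e2⟩ := le12 he
  exact repAt_add C (repAt_add C
    (repAt_mul C (h0 _ e0) (repAt_add C (repAt_smul C _ (repAt_mul C (h1 _ e1) (h2 _ e2))) (repAt_smul C _ (repAt_mul C (h2 _ e1) (h1 _ e2)))))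
    (repAt_mul C (h0 _ e1) (repAt_add C (repAt_smul C _ (repAt_mul C (h1 _ e0) (h2 _ e2))) (repAt_smul C _ (repAt_mul C (h2 _ e0) (h1 _ e2))))))
    (repAt_mul C (h0 _ e2) (repAt_add C (repAt_smul C _ (repAt_mul C (h1 _ e0) (h2 _ e1))) (repAt_smul C _ (repAt_mul C (h2 _ e0) (h1 _ e1)))))

lemma repAt_dd {c : Cfg} {ξ η : ℝ} (CC : Ctx c ξ η) {p0 p1 p2 : List TMod} {y0 y1 y2 Mv i1v i2v : ℝ}
    (h0 : Tab c ξ η p0 y0) (h1 : Tab c ξ η p1 y1) (h2 : Tab c ξ η p2 y2) {M i1 i2 My : TMod}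
    (hM : RepAt c ξ η M Mv) (hi1 : RepAt c ξ η i1 i1v) (hi2 : RepAt c ξ η i2 i2v)
    (hMy : RepAt c ξ η My (Mv * y0 ^ 11)) {e : E3}
    (he : e.1 + e.2.1 + e.2.2 = 12) :
    RepAt c ξ η (ddT c M i1 i2 (pick p0 11) My p0 p1 p2 e) (ddR e Mv i1v i2v y0 y1 y2) := by
  have hy := h0 11 (by norm_num)
  exact (repAt_sub CC (repAt_add CC (repAt_smul CC 36 (repAt_mul CC hy (repAt_six CC h0 h1 h2 he)))
    (repAt_mul CC hM (repAt_add CC (repAt_dsix0 CC h0 h1 h2 he)
      (repAt_mul CC hy (repAt_add CC (repAt_mul CC hi1 (repAt_r1six CC h0 h1 h2 he))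
        (repAt_mul CC hi2 (repAt_r2six CC h0 h1 h2 he)))))))
    (repAt_smul CC 144 hMy)).congr (by
      unfold ddR
      push_cast
      ring)

lemma forall2_map {c : Cfg} {ξ η : ℝ} {X : List E3} {f : E3 → TMod} {g : E3 → ℝ}
    (h : ∀ e ∈ X, RepAt c ξ η (f e) (g e)) :
    List.Forall₂ (RepAt c ξ η) (X.map f) (X.map g) := by
  induction X with
  | nil => exact List.Forall₂.nil
  | cons e X ih =>
    exact List.Forall₂.cons (h e (by simp)) (ih fun e' he' => h e' (by simp [he']))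

lemma forall2_append {c : Cfg} {ξ η : ℝ} {a b : List TMod} {x y : List ℝ}
    (h1 : List.Forall₂ (RepAt c ξ η) a x) (h2 : List.Forall₂ (RepAt c ξ η) b y) :
    List.Forall₂ (RepAt c ξ η) (a ++ b) (x ++ y) := by
  induction h1 with
  | nil => exact h2
  | cons h _ ih => exact List.Forall₂.cons h ih

/-- The table encloses the real table. -/
theorem table_rep {c : Cfg} {ξ η : ℝ} (CC : Ctx c ξ η) {X : List E3} (hX : ∀ e ∈ X, e.1 + e.2.1 + e.2.2 = 12)
    {a b : TMod} {v r : ℝ} (ha : RepAt c ξ η a v) (hb : RepAt c ξ η b r) :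
    List.Forall₂ (RepAt c ξ η) (tableT c X a b) (tableR X v r) := by
  have tv := tab_powsT CC ha
  have tr := tab_powsT CC hb
  have rw' := repAt_mul CC ha hb
  have tw := tab_powsT CC rw'
  have hx1 := tv 12 le_rfl
  have hx2 := tw 12 le_rfl
  have hr12 := tr 12 le_rfl
  have hone := repAt_one CC
  have hM : RepAt c ξ η _ (M3H v r) := repAt_add CC (repAt_add CC hone hx1) hx2
  have hh : RepAt c ξ η (ofRat c 1 2) (1 / 2) := (repAt_ofRat CC 1 2).congr (by norm_num)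
  have e0 : 0 ≤ (1 + r ^ 12) / 2 := by positivity
  have e1 : 0 ≤ (1 + (v * r) ^ 12) / 2 := by positivity
  have e2 : 0 ≤ (1 + v ^ 12) / 2 := by positivity
  have r0 := (repAt_mul CC hh (repAt_add CC hone hr12)).congr (y := (1 + r ^ 12) / 2) (by ring)
  have r1 := (repAt_mul CC hh (repAt_add CC hone hx2)).congr (y := (1 + (v * r) ^ 12) / 2) (by ring)
  have r2 := (repAt_mul CC hh (repAt_add CC hone hx1)).congr (y := (1 + v ^ 12) / 2) (by ring)
  have t0 : Tab c ξ η _ (y0H v r) := tab_powsT CC (repAt_mul CC ha (repAt_root CC r0 (Real.rpow_nonneg e0 _) (pow12_eq e0)))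
  have t1 : Tab c ξ η _ (y1H v r) := tab_powsT CC (repAt_root CC r1 (Real.rpow_nonneg e1 _) (pow12_eq e1))
  have t2 : Tab c ξ η _ (y2H v) := tab_powsT CC (repAt_root CC r2 (Real.rpow_nonneg e2 _) (pow12_eq e2))
  have hQi : RepAt c ξ η _ (Q3H v r * (M3H v r)⁻¹) :=
    repAt_mul CC (repAt_add CC (repAt_add CC hx1 (repAt_mul CC hx1 hx2)) hx2) (repAt_inv CC hM)
  have hy11 := t0 11 (by norm_num)
  have hMy := repAt_mul CC hy11 hM
  have hMy' := hMy.congr (y := M3H v r * y0H v r ^ 11) (by ring)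
  refine List.Forall₂.cons hM ?_
  refine forall2_append (forall2_map fun e he => repAt_six CC (tab_onesT CC) tv tw (hX e he)) ?_
  refine forall2_append (forall2_map fun e he => repAt_six CC t0 t1 t2 (hX e he)) ?_
  refine List.Forall₂.cons ((repAt_sub CC (repAt_smul CC 2 hM) (repAt_smul CC 6 hQi)).congr (by norm_num)) ?_
  refine forall2_append (forall2_map fun e he => repAt_dd CC t0 t1 t2 hM (repAt_inv CC r1) (repAt_inv CC r2) hMy' (hX e he)) ?_
  refine List.Forall₂.cons ((repAt_mul CC hy11 (repAt_sub CC (repAt_smul CC 18 hM) (repAt_smul CC 54 hQi))).congr (by norm_num)) ?_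
  refine List.Forall₂.cons ((repAt_smul CC 72 hMy).congr (by norm_num)) List.Forall₂.nil

/-! ### The two rows as linear forms on the table -/

lemma linV_nil (xs : List ℝ) : linV xs [] = 0 := by
  cases xs <;> rfl

lemma linV_append (xs ys : List ℝ) (zs ws : List ℤ) (h : xs.length = zs.length) :
    linV (xs ++ ys) (zs ++ ws) = linV xs zs + linV ys ws := by
  induction xs generalizing zs with
  | nil =>
    cases zs with
    | nil => simp [linV]
    | cons z zs => simp at h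
  | cons x xs ih =>
    cases zs with
    | nil => simp at h
    | cons z zs =>
      simp only [List.length_cons, Nat.add_right_cancel_iff] at h
      simp only [List.cons_append, linV, ih zs h]
      ring

lemma linV_map (f : E3 → ℝ) (X : List E3) (A : List ℤ) : linV (X.map f) A = sumR f X A := by
  induction X generalizing A with
  | nil => simp [linV, sumR]
  | cons e X ih =>
    cases A with
    | nil => simp [linV, sumR]
    | cons a A => simp [linV, sumR, ih]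

lemma sumR_neg (f : E3 → ℝ) (X : List E3) (A : List ℤ) :
    sumR f X (A.map fun a => -a) = -sumR f X A := by
  induction X generalizing A with
  | nil => simp [sumR]
  | cons e X ih =>
    cases A with
    | nil => simp [sumR]
    | cons a A =>
      simp only [List.map_cons, sumR, ih]
      push_cast
      ring

lemma sumR_mul (β : ℝ) (f : E3 → ℝ) (X : List E3) (A : List ℤ) :
    β * sumR f X A = sumR (fun e => β * f e) X A := by
  induction X generalizing A with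
  | nil => simp [sumR]
  | cons e X ih =>
    cases A with
    | nil => simp [sumR]
    | cons a A =>
      simp only [sumR, ← ih]
      ring

lemma linV_zeros (xs : List ℝ) (ws : List ℤ) (ys : List ℝ) :
    linV (xs ++ ys) (List.replicate xs.length 0 ++ ws) = linV ys ws := by
  induction xs with
  | nil => simp
  | cons x xs ih =>
    simp only [List.cons_append, List.length_cons, List.replicate_succ, linV, ih]
    simp

/-- Row F as a form. -/
def formF (X : List E3) (A C : List ℤ) (C0 E : ℤ) : List ℤ :=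
  coreK X A C E :: ((A.map fun a => -a) ++ (C ++ [-C0]))

/-- Row D as a form. -/
def formD (X : List E3) (C : List ℤ) (Eps Eta : ℤ) : List ℤ :=
  List.replicate (1 + (X.length + (X.length + 1))) 0 ++ (C ++ [Eps, Eta])

theorem linV_formF (X : List E3) (A C : List ℤ) (C0 E : ℤ) (hA : A.length = X.length)
    (hC : C.length = X.length) (v r : ℝ) :
    linV (tableR X v r) (formF X A C C0 E) = valHalf X A C C0 E v r := by
  unfold tableR formF valHalf coreR
  simp only [linV]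
  rw [linV_append _ _ _ _ (by simp [hA]), linV_append _ _ _ _ (by simp [hC])]
  rw [linV_map, linV_map, sumR_neg]
  simp only [linV, linV_nil]
  unfold M3H Q3H y0H y1H y2H
  push_cast
  ring

/-- The row D in the chart, multiplied by a positive factor. -/
theorem linV_formD (X : List E3) (C : List ℤ) (Eps Eta : ℤ) (hC : C.length = X.length)
    {v r : ℝ} (hv : 0 < v) (hr : 0 < r) :
    linV (tableR X v r) (formD X C Eps Eta)
      = 216 * y0H v r ^ 11 * rowD X C Eps Eta ![1, v ^ 12, (v * r) ^ 12] := by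
  have e0 : 0 < (1 + r ^ 12) / 2 := by positivity
  have e1 : 0 < (1 + (v * r) ^ 12) / 2 := by positivity
  have e2 : 0 < (1 + v ^ 12) / 2 := by positivity
  have p0 : 0 < y0H v r := mul_pos hv (Real.rpow_pos_of_pos e0 _)
  have p1 : 0 < y1H v r := Real.rpow_pos_of_pos e1 _
  have p2 : 0 < y2H v := Real.rpow_pos_of_pos e2 _
  have q0 : y0H v r ^ 12 = v ^ 12 * ((1 + r ^ 12) / 2) := by
    unfold y0H
    rw [mul_pow, pow12_eq e0.le]
  have q1 : y1H v r ^ 12 = (1 + (v * r) ^ 12) / 2 := pow12_eq e1.le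
  have q2 : y2H v ^ 12 = (1 + v ^ 12) / 2 := pow12_eq e2.le
  have hT : T (-(1 / 2)) ![1, v ^ 12, (v * r) ^ 12] = ![y0H v r ^ 12, y1H v r ^ 12, y2H v ^ 12] := by
    rw [q0, q1, q2]
    funext i
    fin_cases i <;> simp [T, mass, mul_pow] <;> ring
  have hmass : mass ![y0H v r ^ 12, y1H v r ^ 12, y2H v ^ 12] = M3H v r / 3 := by
    rw [q0, q1, q2]
    simp [mass, M3H, mul_pow]
    ring
  have hmass0 : mass (![1, v ^ 12, (v * r) ^ 12] : Fin 3 → ℝ) = M3H v r / 3 := by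
    simp [mass, M3H]
  have hpos : ∀ i, 0 < (![1, v ^ 12, (v * r) ^ 12] : Fin 3 → ℝ) i := by
    intro i
    fin_cases i <;> simp <;> positivity
  have hyy0 : yyv (![1, v ^ 12, (v * r) ^ 12] : Fin 3 → ℝ)
      = M3H v r / 3 - Q3H v r * (M3H v r)⁻¹ := by
    simp only [yyv, yy, Matrix.cons_val_zero, Matrix.cons_val_one, Matrix.cons_val]
    simp only [M3H, Q3H, div_eq_mul_inv, one_mul, mul_one]
  have hyy : yyv (T (-(1 / 2)) ![1, v ^ 12, (v * r) ^ 12])
      = (1 / 4) * (M3H v r / 3 - Q3H v r * (M3H v r)⁻¹) := by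
    have h3 : T (-(1 / 2)) (![1, v ^ 12, (v * r) ^ 12] : Fin 3 → ℝ)
        = rayW ![1, v ^ 12, (v * r) ^ 12] (1 / 2) := T_neg_eq_rayW _ _
    rw [h3, yyv_rayW hpos, hyy0]
    ring
  unfold rowD
  rw [hT] at hyy ⊢
  rw [hmass0, hyy]
  rw [sum_fin (fun e => Dj (sE e) ![y0H v r ^ 12, y1H v r ^ 12, y2H v ^ 12]) X C]
  have hdd : (216 * y0H v r ^ 11) * sumR (fun e => Dj (sE e) ![y0H v r ^ 12, y1H v r ^ 12, y2H v ^ 12]) X C
      = sumR (fun e => ddR e (M3H v r) (((1 + (v * r) ^ 12) / 2)⁻¹) (((1 + v ^ 12) / 2)⁻¹)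
          (y0H v r) (y1H v r) (y2H v)) X C := by
    rw [sumR_mul]
    refine sumR_congr (fun e _ => ?_) C
    rw [Dj_grid e p0 p1 p2 hmass, q1, q2]
  have hsplit : tableR X v r = (M3H v r :: ((X.map fun e => six e 1 v (v * r)) ++
      ((X.map fun e => six e (y0H v r) (y1H v r) (y2H v)) ++ [2 * M3H v r - 6 * (Q3H v r * (M3H v r)⁻¹)])))
      ++ ((X.map fun e => ddR e (M3H v r) (((1 + (v * r) ^ 12) / 2)⁻¹) (((1 + v ^ 12) / 2)⁻¹) (y0H v r) (y1H v r) (y2H v))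
        ++ [y0H v r ^ 11 * (18 * M3H v r - 54 * (Q3H v r * (M3H v r)⁻¹)), 72 * (y0H v r ^ 11 * M3H v r)]) := by
    unfold tableR
    simp
  have hlen : (1 + (X.length + (X.length + 1))) = (M3H v r :: ((X.map fun e => six e 1 v (v * r)) ++
      ((X.map fun e => six e (y0H v r) (y1H v r) (y2H v)) ++ [2 * M3H v r - 6 * (Q3H v r * (M3H v r)⁻¹)]))).length := by
    simp
    omega
  unfold formD
  rw [hsplit, hlen, linV_zeros, linV_append _ _ _ _ (by simp [hC]), linV_map]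
  simp only [linV]
  rw [← hdd]
  ring

/-! ### The theorems -/

/-- The walk of a list of forms on the table. -/
abbrev walkT (c : Cfg) (X : List E3) (f K i j : ℕ) (zs : List (List ℤ)) : Bool :=
  formWalk c (tableT c X) f K i j zs

/-- The forms of a walk are nonnegative on the square. -/
theorem forms_nonneg {c : Cfg} (hc : c.Valid) {X : List E3} (hX : ∀ e ∈ X, e.1 + e.2.1 + e.2.2 = 12)
    (f K : ℕ) (zs : List (List ℤ)) (h : ∀ i j, i < 2 ^ K → j < 2 ^ K → walkT c X f K i j zs = true)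
    {z : List ℤ} (hz : z ∈ zs) {v r : ℝ} (hv0 : 0 ≤ v) (hv1 : v ≤ 1) (hr0 : 0 ≤ r) (hr1 : r ≤ 1) :
    0 ≤ linV (tableR X v r) z :=
  forms_of_cells hc (fun ξ η CC a b v r ha hb => table_rep CC hX ha hb) f K zs h hz hv0 hv1 hr0 hr1

/-- Row F from the nonnegativity of its form. -/
theorem rowF_of_form {X : List E3} (hX : ∀ e ∈ X, e.1 + e.2.1 + e.2.2 = 12) {A C : List ℤ} {C0 E : ℤ}
    (hA : A.length = X.length) (hC : C.length = X.length) (D : ℕ) (hD : 0 < D)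
    (H : ∀ v r : ℝ, 0 ≤ v → v ≤ 1 → 0 ≤ r → r ≤ 1 → 0 ≤ linV (tableR X v r) (formF X A C C0 E))
    (x : Fin 3 → ℝ) (hx : ∀ i, 0 < x i) :
    ∑ j, coef C D X.length j * psi (expo X j) (-(1 / 2)) x + ((C0 : ℝ) / D) * yyv x + ((E : ℝ) / D) * mass x
      ≤ phiF (coef A D X.length) (expo X) x := by
  refine plane_of_defect X A C C0 E D (t := 1 / 2) ?_ x hx
  refine defect_nonneg X hX A C C0 E D hD (by norm_num) le_rfl ?_
  intro v r v0 v1 r0 r1
  have hG : 0 ≤ valHalf X A C C0 E v r := by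
    rw [← linV_formF X A C C0 E hA hC]
    exact H v r v0 v1 r0 r1
  have e0 : 0 ≤ (1 + r ^ 12) / 2 := by positivity
  have e1 : 0 ≤ (1 + (v * r) ^ 12) / 2 := by positivity
  have e2 : 0 ≤ (1 + v ^ 12) / 2 := by positivity
  refine ⟨_, _, _, mul_nonneg v0 (Real.rpow_nonneg e0 _), Real.rpow_nonneg e1 _, Real.rpow_nonneg e2 _, ?_, hG⟩
  have e3 : (v * ((1 + r ^ 12) / 2) ^ ((1 : ℝ) / 12)) ^ 12 = v ^ 12 * ((1 + r ^ 12) / 2) := by
    rw [mul_pow, pow12_eq e0]
  rw [e3, pow12_eq e1, pow12_eq e2]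
  funext i
  fin_cases i <;> simp [T, mass, mul_pow] <;> ring

/-- Row D from the nonnegativity of its form. -/
theorem rowD_of_form {X : List E3} (hX : ∀ e ∈ X, e.1 + e.2.1 + e.2.2 = 12) {C : List ℤ} {Eps Eta : ℤ}
    (hC : C.length = X.length)
    (H : ∀ v r : ℝ, 0 ≤ v → v ≤ 1 → 0 ≤ r → r ≤ 1 → 0 ≤ linV (tableR X v r) (formD X C Eps Eta))
    (x : Fin 3 → ℝ) (hx : ∀ i, 0 < x i) : 0 ≤ rowD X C Eps Eta x := by
  refine rowD_nonneg X hX C Eps Eta ?_ x hx
  intro v r v0 v1 r0 r1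
  have h := H v r v0.le v1 r0.le r1
  rw [linV_formD X C Eps Eta hC v0 r0] at h
  have e0 : 0 < (1 + r ^ 12) / 2 := by positivity
  have p0 : 0 < y0H v r := mul_pos v0 (Real.rpow_pos_of_pos e0 _)
  have : 0 < 216 * y0H v r ^ 11 := by positivity
  exact nonneg_of_mul_nonneg_right h this

/-- A plane: the coefficients of both rows, as numerators over a common denominator. -/
structure Plane where
  /-- the coefficients of the left side in `phi` -/
  A : List ℤ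
  /-- the coefficients of the characters -/
  C : List ℤ
  /-- the coefficient of `yyv` in row F -/
  C0 : ℤ
  /-- the coefficient of `mass` in row F -/
  E : ℤ
  /-- the coefficient of `yyv` in row D -/
  Eps : ℤ
  /-- the coefficient of `mass` in row D -/
  Eta : ℤ

/-- The forms of a list of planes. -/
def planeForms (X : List E3) : List Plane → List (List ℤ)
  | [] => []
  | p :: L => formF X p.A p.C p.C0 p.E :: formD X p.C p.Eps p.Eta :: planeForms X L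

lemma mem_planeForms (X : List E3) {L : List Plane} {p : Plane} (h : p ∈ L) :
    formF X p.A p.C p.C0 p.E ∈ planeForms X L ∧ formD X p.C p.Eps p.Eta ∈ planeForms X L := by
  induction L with
  | nil => simp at h
  | cons q L ih =>
    simp only [planeForms, List.mem_cons]
    rw [List.mem_cons] at h
    rcases h with rfl | h
    · exact ⟨Or.inl rfl, Or.inr (Or.inl rfl)⟩
    · obtain ⟨h1, h2⟩ := ih h
      exact ⟨Or.inr (Or.inr h1), Or.inr (Or.inr h2)⟩

/-- The two rows of every plane of a list, from a successful walk on all the top cells. -/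
theorem planes_rows {c : Cfg} (hc : c.Valid) {X : List E3} (hX : ∀ e ∈ X, e.1 + e.2.1 + e.2.2 = 12)
    (f K : ℕ) (L : List Plane)
    (h : ∀ i j, i < 2 ^ K → j < 2 ^ K → walkT c X f K i j (planeForms X L) = true)
    {p : Plane} (hp : p ∈ L) (hA : p.A.length = X.length) (hC : p.C.length = X.length) (D : ℕ) (hD : 0 < D) :
    (∀ x : Fin 3 → ℝ, (∀ i, 0 < x i) →
      ∑ j, coef p.C D X.length j * psi (expo X j) (-(1 / 2)) x + ((p.C0 : ℝ) / D) * yyv x + ((p.E : ℝ) / D) * mass x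
        ≤ phiF (coef p.A D X.length) (expo X) x) ∧
    (∀ x : Fin 3 → ℝ, (∀ i, 0 < x i) → 0 ≤ rowD X p.C p.Eps p.Eta x) := by
  obtain ⟨h1, h2⟩ := mem_planeForms X hp
  exact ⟨rowF_of_form hX hA hC D hD fun v r v0 v1 r0 r1 => forms_nonneg hc hX f K _ h h1 v0 v1 r0 r1,
    rowD_of_form hX hC fun v r v0 v1 r0 r1 => forms_nonneg hc hX f K _ h h2 v0 v1 r0 r1⟩

/-! ### Splitting the walk into many declarations -/

/-- All the forms of a list are nonnegative on a cell. -/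
def GoodCell (X : List E3) (zs : List (List ℤ)) (K i j : ℕ) : Prop :=
  ∀ z ∈ zs, ∀ v r : ℝ, InCell K i j v r → 0 ≤ linV (tableR X v r) z

/-- A successful walk on a cell. -/
theorem goodCell_of_walk {c : Cfg} (hc : c.Valid) {X : List E3} (hX : ∀ e ∈ X, e.1 + e.2.1 + e.2.2 = 12)
    {zs : List (List ℤ)} {f K i j : ℕ} (h : walkT c X f K i j zs = true) : GoodCell X zs K i j :=
  fun _ hz _ _ hv =>
    formWalk_sound hc (fun ξ η CC a b v r ha hb => table_rep CC hX ha hb) f K i j zs h hz hv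

/-- A cell from its four children, the first index being that of `v`. -/
theorem goodCell_split {X : List E3} {zs : List (List ℤ)} {K i j K' i0 i1 j0 j1 : ℕ}
    (eK : K' = K + 1) (ei0 : i0 = 2 * i) (ei1 : i1 = 2 * i + 1) (ej0 : j0 = 2 * j) (ej1 : j1 = 2 * j + 1)
    (h00 : GoodCell X zs K' i0 j0) (h10 : GoodCell X zs K' i1 j0)
    (h01 : GoodCell X zs K' i0 j1) (h11 : GoodCell X zs K' i1 j1) : GoodCell X zs K i j := by
  subst eK ei0 ei1 ej0 ej1
  intro z hz v r hv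
  obtain ⟨i', hi', hi1, hi2⟩ := inCell_split hv.1 hv.2.1
  obtain ⟨j', hj', hj1, hj2⟩ := inCell_split hv.2.2.1 hv.2.2.2
  have hn : InCell (K + 1) i' j' v r := ⟨hi1, hi2, hj1, hj2⟩
  rcases hi' with rfl | rfl <;> rcases hj' with rfl | rfl
  · exact h00 z hz v r hn
  · exact h01 z hz v r hn
  · exact h10 z hz v r hn
  · exact h11 z hz v r hn

/-- The two rows of every plane of a list, from the root cell. -/
theorem planes_rows_of_good {X : List E3} (hX : ∀ e ∈ X, e.1 + e.2.1 + e.2.2 = 12)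
    {L : List Plane} {zs : List (List ℤ)} (hz : planeForms X L = zs) (h : GoodCell X zs 0 0 0)
    {p : Plane} (hp : p ∈ L) (hA : p.A.length = X.length) (hC : p.C.length = X.length) (D : ℕ) (hD : 0 < D) :
    (∀ x : Fin 3 → ℝ, (∀ i, 0 < x i) →
      ∑ j, coef p.C D X.length j * psi (expo X j) (-(1 / 2)) x + ((p.C0 : ℝ) / D) * yyv x + ((p.E : ℝ) / D) * mass x
        ≤ phiF (coef p.A D X.length) (expo X) x) ∧
    (∀ x : Fin 3 → ℝ, (∀ i, 0 < x i) → 0 ≤ rowD X p.C p.Eps p.Eta x) := by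
  subst hz
  obtain ⟨h1, h2⟩ := mem_planeForms X hp
  have key : ∀ z ∈ planeForms X L, ∀ v r : ℝ, 0 ≤ v → v ≤ 1 → 0 ≤ r → r ≤ 1 → 0 ≤ linV (tableR X v r) z := by
    intro z hz v r v0 v1 r0 r1
    refine h z hz v r ⟨?_, ?_, ?_, ?_⟩ <;> simpa
  exact ⟨rowF_of_form hX hA hC D hD fun v r v0 v1 r0 r1 => key _ h1 v r v0 v1 r0 r1,
    rowD_of_form hX hC fun v r v0 v1 r0 r1 => key _ h2 v r v0 v1 r0 r1⟩

/-- The global list of characters, with exponents over `12`. -/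
def X9 : List E3 := [(11, 1, 0), (10, 1, 1), (9, 3, 0), (9, 2, 1), (7, 4, 1), (7, 3, 2), (6, 6, 0), (6, 3, 3), (4, 4, 4)]

theorem hX9 : ∀ e ∈ X9, e.1 + e.2.1 + e.2.2 = 12 := by decide

/-- Row F from the root cell. -/
theorem rowF_of_good {X : List E3} (hX : ∀ e ∈ X, e.1 + e.2.1 + e.2.2 = 12)
    {zs : List (List ℤ)} (h : GoodCell X zs 0 0 0) {A C : List ℤ} {C0 E : ℤ}
    (hz : formF X A C C0 E ∈ zs) (hA : A.length = X.length) (hC : C.length = X.length) (D : ℕ) (hD : 0 < D)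
    (x : Fin 3 → ℝ) (hx : ∀ i, 0 < x i) :
    ∑ j, coef C D X.length j * psi (expo X j) (-(1 / 2)) x + ((C0 : ℝ) / D) * yyv x + ((E : ℝ) / D) * mass x
      ≤ phiF (coef A D X.length) (expo X) x :=
  rowF_of_form hX hA hC D hD (fun v r v0 v1 r0 r1 => h _ hz v r ⟨by simpa, by simpa, by simpa, by simpa⟩) x hx

/-- Row D from the root cell. -/
theorem rowD_of_good {X : List E3} (hX : ∀ e ∈ X, e.1 + e.2.1 + e.2.2 = 12)
    {zs : List (List ℤ)} (h : GoodCell X zs 0 0 0) {C : List ℤ} {Eps Eta : ℤ}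
    (hz : formD X C Eps Eta ∈ zs) (hC : C.length = X.length)
    (x : Fin 3 → ℝ) (hx : ∀ i, 0 < x i) : 0 ≤ rowD X C Eps Eta x :=
  rowD_of_form hX hC (fun v r v0 v1 r0 r1 => h _ hz v r ⟨by simpa, by simpa, by simpa, by simpa⟩) x hx

/-- The forms of a list of planes, row F only. -/
def planeFormsF (X : List E3) : List Plane → List (List ℤ)
  | [] => []
  | p :: L => formF X p.A p.C p.C0 p.E :: planeFormsF X L

lemma mem_planeFormsF (X : List E3) {L : List Plane} {p : Plane} (h : p ∈ L) :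
    formF X p.A p.C p.C0 p.E ∈ planeFormsF X L := by
  induction L with
  | nil => simp at h
  | cons q L ih =>
    simp only [planeFormsF, List.mem_cons]
    rw [List.mem_cons] at h
    rcases h with rfl | h
    · exact Or.inl rfl
    · exact Or.inr (ih h)

/-- Row F of every plane of a list, from the root cell, when only row F was walked. -/
theorem planes_rowF_of_good {X : List E3} (hX : ∀ e ∈ X, e.1 + e.2.1 + e.2.2 = 12)
    {L : List Plane} {zs : List (List ℤ)} (hz : planeFormsF X L = zs) (h : GoodCell X zs 0 0 0)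
    {p : Plane} (hp : p ∈ L) (hA : p.A.length = X.length) (hC : p.C.length = X.length) (D : ℕ) (hD : 0 < D)
    (x : Fin 3 → ℝ) (hx : ∀ i, 0 < x i) :
    ∑ j, coef p.C D X.length j * psi (expo X j) (-(1 / 2)) x + ((p.C0 : ℝ) / D) * yyv x + ((p.E : ℝ) / D) * mass x
      ≤ phiF (coef p.A D X.length) (expo X) x := by
  subst hz
  exact rowF_of_good hX h (mem_planeFormsF X hp) hA hC D hD x hx

end Vale.Agent.P154.Hel.Direct
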