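import Vale.Agent.P154.Hel.CornerReg
import Vale.Agent.P154.Hel.CornerHull
import Vale.Agent.P154.Hel.PlaneWalk
import Vale.Agent.P154.Hel.Mono

/-!
Poisson scalars for the corner of the `q = 3` certificate: the key inequality of the Poisson tree with mean
`d = 1 / t^2` on a region of hull points, from a list of planes and tangent data, by exact rational arithmetic.

A *row* is a range `[Z1, Z2]` of the normalised defect `d * y jc` of the centre character, split into *bins*: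
ranges `[r1, r2]` of the ratio `y j9 / y jc`. Each bin carries a plane and a tangent point for each positive
character. Negative characters are handled by convexity on the range of the cell.
-/

namespace Vale.Agent.P154.Hel.Corner

open Vale.Agent.P154.Hel Vale.Agent.P154.Hel.Direct Vale.Agent.P154.Hel.CornerHull

/-! ### Rational bounds of the exponential -/

/-- The Taylor polynomial of degree `11` in Horner form. -/
def tay12 (x : ℚ) : ℚ :=
  1 + x * (1 + x / 2 * (1 + x / 3 * (1 + x / 4 * (1 + x / 5 * (1 + x / 6 * (1 + x / 7 * (1 + x / 8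
    * (1 + x / 9 * (1 + x / 10 * (1 + x / 11))))))))))

/-- The square. -/
def qsq (x : ℚ) : ℚ := x * x

/-- The power `16`. -/
def pow16 (x : ℚ) : ℚ := qsq (qsq (qsq (qsq x)))

/-- A lower bound of `exp z` for `z ≥ 0`. -/
def expLoQ (z : ℚ) : ℚ := pow16 (tay12 (z / 16))

/-- An upper bound of `exp z` for `0 ≤ z ≤ 16`. -/
def expUpQ (z : ℚ) : ℚ := pow16 (tay12 (z / 16) + (z / 16) ^ 12 * 13 / (479001600 * 12))

theorem tay12_cast (x : ℚ) :
    ((tay12 x : ℚ) : ℝ) = ∑ i ∈ Finset.range 12, (x : ℝ) ^ i / (i.factorial : ℝ) := by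
  simp only [Finset.sum_range_succ, Finset.sum_range_zero, Nat.factorial, tay12]
  push_cast
  ring

theorem pow16_cast (x : ℚ) : ((pow16 x : ℚ) : ℝ) = (x : ℝ) ^ 16 := by
  unfold pow16 qsq
  push_cast
  ring

theorem exp_sixteen (z : ℝ) : Real.exp z = Real.exp (z / 16) ^ 16 := by
  rw [← Real.exp_nat_mul]
  congr 1
  push_cast
  ring

theorem tay12_pos {x : ℚ} (hx : 0 ≤ x) : (0 : ℝ) < ((tay12 x : ℚ) : ℝ) := by
  have hx' : (0 : ℝ) ≤ (x : ℝ) := by exact_mod_cast hx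
  rw [tay12_cast]
  have h1 := Finset.single_le_sum (f := fun i : ℕ => (x : ℝ) ^ i / (i.factorial : ℝ))
    (s := Finset.range 12) (fun i _ => by positivity) (Finset.mem_range.2 (by norm_num : 0 < 12))
  simp only [pow_zero, Nat.factorial, Nat.cast_one, div_one] at h1
  linarith

theorem expLoQ_le {z : ℚ} (hz : 0 ≤ z) : ((expLoQ z : ℚ) : ℝ) ≤ Real.exp (z : ℝ) := by
  have hx : (0 : ℚ) ≤ z / 16 := by positivity
  have hx' : (0 : ℝ) ≤ ((z / 16 : ℚ) : ℝ) := by exact_mod_cast hx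
  unfold expLoQ
  rw [pow16_cast, exp_sixteen (z : ℝ)]
  have h := Real.sum_le_exp_of_nonneg hx' 12
  rw [← tay12_cast] at h
  have e : ((z / 16 : ℚ) : ℝ) = (z : ℝ) / 16 := by push_cast; rfl
  rw [e] at h
  exact pow_le_pow_left₀ (tay12_pos hx).le h 16

theorem expLoQ_pos {z : ℚ} (hz : 0 ≤ z) : (0 : ℝ) < ((expLoQ z : ℚ) : ℝ) := by
  have hx : (0 : ℚ) ≤ z / 16 := by positivity
  unfold expLoQ
  rw [pow16_cast]
  exact pow_pos (tay12_pos hx) 16

/-- An upper bound of `exp (-z)`. -/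
theorem exp_neg_le_Q {z : ℚ} (hz : 0 ≤ z) : Real.exp (-(z : ℝ)) ≤ (((expLoQ z)⁻¹ : ℚ) : ℝ) := by
  rw [Real.exp_neg]
  push_cast
  exact inv_anti₀ (expLoQ_pos hz) (expLoQ_le hz)

theorem exp_le_expUpQ {z : ℚ} (hz : 0 ≤ z) (hz1 : z ≤ 16) : Real.exp (z : ℝ) ≤ ((expUpQ z : ℚ) : ℝ) := by
  have hx : (0 : ℚ) ≤ z / 16 := by positivity
  have hx' : (0 : ℝ) ≤ ((z / 16 : ℚ) : ℝ) := by exact_mod_cast hx
  have hx1 : z / 16 ≤ 1 := by
    rw [div_le_one (by norm_num)]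
    exact hz1
  have hx1' : ((z / 16 : ℚ) : ℝ) ≤ 1 := by exact_mod_cast hx1
  unfold expUpQ
  rw [pow16_cast, exp_sixteen (z : ℝ)]
  have h := Real.exp_bound' hx' hx1' (n := 12) (by norm_num)
  rw [← tay12_cast] at h
  have e : ((z / 16 : ℚ) : ℝ) = (z : ℝ) / 16 := by push_cast; rfl
  rw [e] at h hx'
  refine pow_le_pow_left₀ (Real.exp_pos _).le (h.trans (le_of_eq ?_)) 16
  have hf : ((Nat.factorial 12 : ℕ) : ℝ) = 479001600 := by norm_num [Nat.factorial]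
  rw [hf, Rat.cast_add]
  congr 1
  push_cast
  ring

/-! ### Real lemmas -/

/-- The tangent of a positive character. -/
theorem poi_ub_tan {a c q z : ℝ} (ha : 0 ≤ a) (hc : 0 ≤ c) (hq : c ≤ a * Real.exp (-q)) :
    a * (1 - Real.exp (-z)) - c * z ≤ a - c * (1 + q) := by
  have h1 := cornerHull_exp_tangent (-z) (-q)
  have h2 : c * (1 + (-z - -q)) ≤ a * Real.exp (-z) := by
    rcases le_total 0 (1 + (-z - -q)) with h | h
    · have h3 := mul_le_mul_of_nonneg_right hq h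
      have h4 := mul_le_mul_of_nonneg_left h1 ha
      nlinarith
    · have h3 : c * (1 + (-z - -q)) ≤ 0 := mul_nonpos_of_nonneg_of_nonpos hc h
      have h4 : 0 ≤ a * Real.exp (-z) := mul_nonneg ha (Real.exp_pos _).le
      linarith
  nlinarith

/-- The bound of a negative character on its range. -/
theorem poi_ub_rng {a c lo hi z M : ℝ} (ha : a ≤ 0) (h1 : lo ≤ z) (h2 : z ≤ hi)
    (hlo : a * (1 - Real.exp (-lo)) - c * lo ≤ M) (hhi : a * (1 - Real.exp (-hi)) - c * hi ≤ M) :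
    a * (1 - Real.exp (-z)) - c * z ≤ M := by
  obtain ⟨l, m, l0, m0, lm, hz⟩ := exists_convex h1 h2
  have hc := convexOn_exp.2 (x := -lo) (y := -hi) (Set.mem_univ _) (Set.mem_univ _) l0 m0 lm
  simp only [smul_eq_mul] at hc
  have e1 : l * -lo + m * -hi = -z := by
    rw [← hz]
    ring
  rw [e1] at hc
  have h4 : a * (l * Real.exp (-lo) + m * Real.exp (-hi)) ≤ a * Real.exp (-z) :=
    mul_le_mul_of_nonpos_left hc ha
  have h5 := mul_le_mul_of_nonneg_left hlo l0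
  have h6 := mul_le_mul_of_nonneg_left hhi m0
  have e2 : l * M + m * M = M := by
    rw [← add_mul, lm, one_mul]
  have e3 : c * z = c * (l * lo + m * hi) := by rw [hz]
  have e4 : a = a * (l + m) := by rw [lm, mul_one]
  nlinarith

/-! ### Data -/

/-- A bin: a range of the ratio, a plane and tangent points. -/
structure PBin where
  r1 : ℚ
  r2 : ℚ
  pl : Direct.Plane
  q : List ℚ

/-- A row: a range of the normalised centre defect and its bins. -/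
structure PRow where
  Z1 : ℚ
  Z2 : ℚ
  bins : List PBin

/-- Parameters of a check. -/
structure PPar where
  /-- the denominator of the planes -/
  D : ℕ
  /-- number of characters -/
  n : ℕ
  /-- index of the centre character -/
  jc : ℕ
  /-- index of the second negative character -/
  j9 : ℕ
  /-- the coefficient of the square of the second moment -/
  κ : ℚ
  /-- the bound of the positive coefficients -/
  B : ℚ
  /-- the constant `L` of the ray lemma -/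
  L : ℚ
  /-- the constant `H` of the ray lemma -/
  H : ℚ

/-- The coefficient `a j` of a plane. -/
def aP (p : PPar) (P : Direct.Plane) (j : ℕ) : ℚ := (P.A.getD j 0 : ℚ) / p.D

/-- The coefficient `P j` of a plane: the multiplier of `z j`. -/
def cP (p : PPar) (P : Direct.Plane) (j : ℕ) : ℚ := (P.C.getD j 0 : ℚ) / (4 * p.D)

/-- The coefficient of the second moment of a plane after the ray lemma. -/
def c0P (p : PPar) (P : Direct.Plane) : ℚ := ((P.C0 : ℚ) - p.L * ((P.Eps : ℚ) / 4)) / p.D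

/-- The constant of a plane after the ray lemma. -/
def eP (p : PPar) (P : Direct.Plane) : ℚ := ((P.E : ℚ) - p.H * ((P.Eta : ℚ) / 4)) / p.D

/-- The upper bound of the function of a negative character at a rational point. -/
def fP (a c z : ℚ) : ℚ := a * (1 - (expLoQ z)⁻¹) - c * z

/-- The upper bound of the function of a character on a cell. -/
def ubP (p : PPar) (b : PBin) (Z1 Z2 : ℚ) (j : ℕ) : ℚ :=
  if j = p.jc then qmax (fP (aP p b.pl j) (cP p b.pl j) Z1) (fP (aP p b.pl j) (cP p b.pl j) Z2)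
  else if j = p.j9 then
    qmax (fP (aP p b.pl j) (cP p b.pl j) (b.r1 * Z1)) (fP (aP p b.pl j) (cP p b.pl j) (b.r2 * Z2))
  else if aP p b.pl j = 0 then 0
  else aP p b.pl j - cP p b.pl j * (1 + b.q.getD j 0)

/-- The condition on a character. -/
def charP (p : PPar) (b : PBin) (j : ℕ) : Bool :=
  decide (aP p b.pl j ≤ p.B) &&
  if j = p.jc ∨ j = p.j9 then decide (aP p b.pl j ≤ 0)
  else
    decide (0 ≤ aP p b.pl j) && decide (0 ≤ cP p b.pl j) &&
      if aP p b.pl j = 0 then true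
      else decide (0 ≤ b.q.getD j 0) && decide (b.q.getD j 0 ≤ 16) &&
        decide (cP p b.pl j * expUpQ (b.q.getD j 0) ≤ aP p b.pl j)

/-- The largest value of the second moment on a cell. -/
def MaxP (Z2 : ℚ) : ℚ := if 6 / 5 * Z2 ≤ 1 then 6 / 5 * Z2 else 1

/-- The check of the scalar inequality on a cell. -/
def pbinOK (p : PPar) (Z1 Z2 : ℚ) (b : PBin) : Bool :=
  decide (0 ≤ b.r1 * Z1) && decide (0 ≤ Z1) && decide (0 ≤ b.pl.Eps) && decide (0 ≤ b.pl.Eta) &&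
  allTo p.n (charP p b) &&
  decide (sumTo p.n (ubP p b Z1 Z2)
      + qmax 0 (p.κ * (MaxP Z2) ^ 2 - c0P p b.pl * MaxP Z2) ≤ eP p b.pl)

/-- The check of a row. -/
def prowOK (p : PPar) (r : PRow) : Bool :=
  decide (0 < r.Z1) && r.bins.all (pbinOK p r.Z1 r.Z2) &&
  chainOK (fun b : PBin => b.r1) (fun b : PBin => b.r2) (293 / 500) r.bins 1

/-- The check of a list of rows, covering the range `[Za, Zb]` of the normalised centre defect. -/
def prowsOK (p : PPar) (Za Zb : ℚ) (rows : List PRow) : Bool :=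
  decide (0 ≤ p.κ) && decide (0 < p.D) &&
  rows.all (prowOK p) && chainOK (fun r : PRow => r.Z1) (fun r : PRow => r.Z2) Za rows Zb

/-! ### Soundness -/

noncomputable section

theorem aP_cast (p : PPar) (P : Direct.Plane) (j : ℕ) :
    ((aP p P j : ℚ) : ℝ) = ((P.A.getD j 0 : ℤ) : ℝ) / p.D := by
  unfold aP
  push_cast
  rfl

theorem cP_cast (p : PPar) (P : Direct.Plane) (j : ℕ) :
    ((cP p P j : ℚ) : ℝ) = ((P.C.getD j 0 : ℤ) : ℝ) / (4 * p.D) := by
  unfold cP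
  push_cast
  rfl

/-- The bound at a point for a negative character. -/
theorem fP_bound {a c z : ℚ} (ha : a ≤ 0) (hz : 0 ≤ z) :
    (a : ℝ) * (1 - Real.exp (-(z : ℝ))) - (c : ℝ) * z ≤ ((fP a c z : ℚ) : ℝ) := by
  have ha' : (a : ℝ) ≤ 0 := by exact_mod_cast ha
  have h := exp_neg_le_Q hz
  unfold fP
  push_cast at h ⊢
  nlinarith

/-- The bound for one character. -/
theorem charP_ub {p : PPar} {b : PBin} {Z1 Z2 : ℚ} {j : ℕ} (hOK : charP p b j = true)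
    (hZ1 : 0 ≤ Z1) (hr1 : 0 ≤ b.r1 * Z1) (hr2 : 0 ≤ b.r2 * Z2) (hZ2 : 0 ≤ Z2) {zj zc z9 : ℝ}
    (hz0 : 0 ≤ zj) (hc : j = p.jc → zj = zc) (h9 : j = p.j9 → zj = z9)
    (hc1 : (Z1 : ℝ) ≤ zc) (hc2 : zc ≤ (Z2 : ℝ))
    (h91 : ((b.r1 * Z1 : ℚ) : ℝ) ≤ z9) (h92 : z9 ≤ ((b.r2 * Z2 : ℚ) : ℝ)) :
    ((aP p b.pl j : ℚ) : ℝ) * (1 - Real.exp (-zj)) - ((cP p b.pl j : ℚ) : ℝ) * zj
      ≤ ((ubP p b Z1 Z2 j : ℚ) : ℝ) := by
  unfold charP at hOK
  rw [Bool.and_eq_true] at hOK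
  obtain ⟨_, hOK⟩ := hOK
  unfold ubP
  by_cases h1 : j = p.jc
  · rw [if_pos (Or.inl h1), decide_eq_true_eq] at hOK
    rw [if_pos h1]
    have ha' : ((aP p b.pl j : ℚ) : ℝ) ≤ 0 := by exact_mod_cast hOK
    refine poi_ub_rng ha' (lo := (Z1 : ℝ)) (hi := (Z2 : ℝ))
      (by rw [hc h1]; exact hc1) (by rw [hc h1]; exact hc2) ?_ ?_
    · exact (fP_bound hOK hZ1).trans (Rat.cast_le.2 (le_qmax_left _ _))
    · exact (fP_bound hOK hZ2).trans (Rat.cast_le.2 (le_qmax_right _ _))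
  · by_cases h2 : j = p.j9
    · rw [if_pos (Or.inr h2), decide_eq_true_eq] at hOK
      rw [if_neg h1, if_pos h2]
      have ha' : ((aP p b.pl j : ℚ) : ℝ) ≤ 0 := by exact_mod_cast hOK
      refine poi_ub_rng ha' (lo := ((b.r1 * Z1 : ℚ) : ℝ)) (hi := ((b.r2 * Z2 : ℚ) : ℝ))
        (by rw [h9 h2]; exact h91) (by rw [h9 h2]; exact h92) ?_ ?_
      · exact (fP_bound hOK hr1).trans (Rat.cast_le.2 (le_qmax_left _ _))
      · exact (fP_bound hOK hr2).trans (Rat.cast_le.2 (le_qmax_right _ _))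
    · have hn : ¬ (j = p.jc ∨ j = p.j9) := by tauto
      rw [if_neg hn, Bool.and_eq_true, Bool.and_eq_true, decide_eq_true_eq, decide_eq_true_eq] at hOK
      obtain ⟨⟨ha, hcc⟩, hs⟩ := hOK
      rw [if_neg h1, if_neg h2]
      have ha' : (0 : ℝ) ≤ ((aP p b.pl j : ℚ) : ℝ) := by exact_mod_cast ha
      have hcc' : (0 : ℝ) ≤ ((cP p b.pl j : ℚ) : ℝ) := by exact_mod_cast hcc
      by_cases h0 : aP p b.pl j = 0
      · rw [if_pos h0, h0]
        have : (0 : ℝ) ≤ ((cP p b.pl j : ℚ) : ℝ) * zj := mul_nonneg hcc' hz0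
        push_cast
        linarith
      · rw [if_neg h0] at hs ⊢
        rw [Bool.and_eq_true, Bool.and_eq_true, decide_eq_true_eq, decide_eq_true_eq,
          decide_eq_true_eq] at hs
        obtain ⟨⟨hq0, hq1⟩, hle⟩ := hs
        have hu := exp_le_expUpQ hq0 hq1
        have hle' : ((cP p b.pl j : ℚ) : ℝ) * ((expUpQ (b.q.getD j 0) : ℚ) : ℝ)
            ≤ ((aP p b.pl j : ℚ) : ℝ) := by exact_mod_cast hle
        have hE : ((cP p b.pl j : ℚ) : ℝ) ≤ ((aP p b.pl j : ℚ) : ℝ)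
            * Real.exp (-((b.q.getD j 0 : ℚ) : ℝ)) := by
          rw [Real.exp_neg, ← div_eq_mul_inv, le_div_iff₀ (Real.exp_pos _)]
          exact (mul_le_mul_of_nonneg_left hu hcc').trans hle'
        have h4 := poi_ub_tan (z := zj) ha' hcc' hE
        refine h4.trans (le_of_eq ?_)
        push_cast
        rfl

/-- The scalar inequality on a cell. -/
theorem pbin_scalar {p : PPar} {Z1 Z2 : ℚ} {b : PBin} (hκ : 0 ≤ p.κ)
    (hOK : pbinOK p Z1 Z2 b = true) {z : Fin p.n → ℝ} {Y : ℝ} {jc j9 : Fin p.n}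
    (hjc : (jc : ℕ) = p.jc) (hj9 : (j9 : ℕ) = p.j9) (h0 : ∀ j, 0 ≤ z j)
    (hc1 : (Z1 : ℝ) ≤ z jc) (hc2 : z jc ≤ (Z2 : ℝ))
    (h91 : ((b.r1 * Z1 : ℚ) : ℝ) ≤ z j9) (h92 : z j9 ≤ ((b.r2 * Z2 : ℚ) : ℝ))
    (hY0 : 0 ≤ Y) (hY1 : Y ≤ 6 / 5 * z jc) (hY2 : Y ≤ 1) :
    ∑ j : Fin p.n, ((aP p b.pl j : ℚ) : ℝ) * (1 - Real.exp (-z j)) + (p.κ : ℝ) * Y ^ 2
      ≤ ∑ j : Fin p.n, ((cP p b.pl j : ℚ) : ℝ) * z j + ((c0P p b.pl : ℚ) : ℝ) * Y + ((eP p b.pl : ℚ) : ℝ) := by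
  have hOK' := hOK
  unfold pbinOK at hOK'
  simp only [Bool.and_eq_true, decide_eq_true_eq] at hOK'
  obtain ⟨⟨⟨⟨⟨hr1, hZ1⟩, _⟩, _⟩, hch⟩, hsum⟩ := hOK'
  have hZ1' : (0 : ℝ) ≤ (Z1 : ℝ) := by exact_mod_cast hZ1
  have hZ2 : 0 ≤ Z2 := by
    have h3 : (0 : ℝ) ≤ (Z2 : ℝ) := le_trans (le_trans hZ1' hc1) hc2
    exact_mod_cast h3
  have hr2 : 0 ≤ b.r2 * Z2 := by
    have h3 : (0 : ℝ) ≤ ((b.r2 * Z2 : ℚ) : ℝ) := le_trans (h0 j9) h92
    exact_mod_cast h3
  have hchar : ∀ j : Fin p.n, ((aP p b.pl j : ℚ) : ℝ) * (1 - Real.exp (-z j))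
      - ((cP p b.pl j : ℚ) : ℝ) * z j ≤ ((ubP p b Z1 Z2 j : ℚ) : ℝ) := by
    intro j
    refine charP_ub (allTo_spec hch j.2) hZ1 hr1 hr2 hZ2 (h0 j) (zc := z jc) (z9 := z j9) ?_ ?_
      hc1 hc2 h91 h92
    · intro h
      have : j = jc := Fin.ext (by rw [h, hjc])
      rw [this]
    · intro h
      have : j = j9 := Fin.ext (by rw [h, hj9])
      rw [this]
  have hs := Finset.sum_le_sum fun j (_ : j ∈ (Finset.univ : Finset (Fin p.n))) => hchar j
  rw [Finset.sum_sub_distrib, sum_sumTo (n := p.n) (ubP p b Z1 Z2)] at hs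
  have hκ' : (0 : ℝ) ≤ p.κ := by exact_mod_cast hκ
  have hM : Y ≤ ((MaxP Z2 : ℚ) : ℝ) := by
    unfold MaxP
    split_ifs with h
    · push_cast
      have : 6 / 5 * z jc ≤ 6 / 5 * (Z2 : ℝ) := by linarith
      linarith
    · push_cast
      exact hY2
  have hq := quad_ub (κ := (p.κ : ℝ)) (c0 := ((c0P p b.pl : ℚ) : ℝ)) (Y := Y)
    (M := ((MaxP Z2 : ℚ) : ℝ))
    (U := ((qmax 0 (p.κ * (MaxP Z2) ^ 2 - c0P p b.pl * MaxP Z2) : ℚ) : ℝ))
    hκ' hY0 hM (by exact_mod_cast le_qmax_left _ _)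
    (by
      have := le_qmax_right 0 (p.κ * (MaxP Z2) ^ 2 - c0P p b.pl * MaxP Z2)
      have h3 := (Rat.cast_le (K := ℝ)).2 this
      push_cast at h3 ⊢
      exact h3)
  have hsum2 : ((sumTo p.n (ubP p b Z1 Z2) : ℚ) : ℝ)
      + ((qmax 0 (p.κ * (MaxP Z2) ^ 2 - c0P p b.pl * MaxP Z2) : ℚ) : ℝ)
      ≤ ((eP p b.pl : ℚ) : ℝ) := by
    exact_mod_cast hsum
  linarith

/-- The two rows of a plane, as given by the walker. -/
def PoiPlane (X : List E3) (D : ℕ) (P : Direct.Plane) : Prop :=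
  (∀ x : Fin 3 → ℝ, (∀ i, 0 < x i) →
    ∑ j, coef P.C D X.length j * psi (expo X j) (-(1 / 2)) x + ((P.C0 : ℝ) / D) * yyv x + ((P.E : ℝ) / D) * mass x
      ≤ phiF (coef P.A D X.length) (expo X) x) ∧
  (∀ x : Fin 3 → ℝ, (∀ i, 0 < x i) → 0 ≤ rowD X P.C P.Eps P.Eta x)

/-- The pointwise inequality at `t` from the two rows. -/
theorem poi_pointwise {X : List E3} (hX : ∀ e ∈ X, e.1 + e.2.1 + e.2.2 = 12) {D : ℕ} (hD : 0 < D)
    {P : Direct.Plane} (hP : PoiPlane X D P) {L H t0 t : ℝ} (ht0 : 0 < t0)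
    (hE0 : 0 ≤ P.Eps) (hE1 : 0 ≤ P.Eta) (hL : 1 / (2 * t0) - 1 ≤ L) (hH : 1 / (2 * t0 ^ 2) - 2 ≤ H)
    (h0 : t0 ≤ t) (h1 : t ≤ 1 / 2) {x : Fin 3 → ℝ} (hx : ∀ i, 0 < x i) :
    ∑ j, (coef P.C D X.length j / 4) / t ^ 2 * psi (expo X j) (-t) x
      + (((P.C0 : ℝ) - L * ((P.Eps : ℝ) / 4)) / D) * yyv x + (((P.E : ℝ) - H * ((P.Eta : ℝ) / 4)) / D) * mass x
      ≤ phiF (coef P.A D X.length) (expo X) x := by
  have hDr : (0 : ℝ) < D := by exact_mod_cast hD
  have hadm : ∀ j, AdmS (expo X j) := fun j => adm_sE (hX _ (List.get_mem X j))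
  obtain ⟨hF, hDD⟩ := hP
  refine plane_t_uniform hadm (coef P.A D X.length) (fun j => coef P.C D X.length j / 4)
    (ε := (P.Eps : ℝ) / (4 * D)) (η := (P.Eta : ℝ) / (4 * D)) ht0 ?_ ?_ hL hH ?_ ?_ h0 h1 hx
  · have : (0 : ℝ) ≤ (P.Eps : ℝ) := by exact_mod_cast hE0
    positivity
  · have : (0 : ℝ) ≤ (P.Eta : ℝ) := by exact_mod_cast hE1
    positivity
  · intro x hx
    have h2 := hF x hx
    refine le_trans (le_of_eq ?_) h2
    congr 1
    · congr 1
      · refine Finset.sum_congr rfl fun j _ => ?_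
        ring
      · congr 1
        field_simp
        ring
    · congr 1
      field_simp
      ring
  · intro x hx
    have h2 := hDD x hx
    have h3 : 0 ≤ (1 / (4 * (D : ℝ))) * rowD X P.C P.Eps P.Eta x := by positivity
    refine le_trans h3 (le_of_eq ?_)
    unfold rowD
    rw [mul_add, mul_add, Finset.mul_sum]
    congr 1
    · congr 1
      · refine Finset.sum_congr rfl fun j _ => ?_
        unfold coef expo
        field_simp
      · field_simp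
    · field_simp

/-- The key inequality at a point of the hull, from the rows. -/
theorem poi_rows {X : List E3} (hX : ∀ e ∈ X, e.1 + e.2.1 + e.2.2 = 12) {p : PPar} (hn : p.n = X.length)
    {Za Zb : ℚ} {rows : List PRow} (hchk : prowsOK p Za Zb rows = true)
    (hpl : ∀ r ∈ rows, ∀ b ∈ r.bins, PoiPlane X p.D b.pl)
    {jc j9 : Fin X.length} (hjc : (jc : ℕ) = p.jc) (hj9 : (j9 : ℕ) = p.j9)
    {t0 t : ℝ} (ht0 : 0 < t0) (hL : 1 / (2 * t0) - 1 ≤ (p.L : ℝ)) (hH : 1 / (2 * t0 ^ 2) - 2 ≤ (p.H : ℝ))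
    (ht : t0 ≤ t) (ht1 : t ≤ 1 / 2) {y : Fin X.length → ℝ} {Y : ℝ}
    (hf : CornerHullFacts jc j9 t y Y)
    (ha : (Za : ℝ) ≤ 1 / t ^ 2 * y jc) (hb : 1 / t ^ 2 * y jc ≤ (Zb : ℝ)) :
    ∃ (a c : Fin X.length → ℝ) (c0 e : ℝ), (∀ j, a j ≤ (p.B : ℝ)) ∧
      ∑ j, a j * (1 - Real.exp (-(1 / t ^ 2 * y j))) + (p.κ : ℝ) * Y ^ 2 ≤ ∑ j, c j * y j + c0 * Y + e ∧
      ∀ x : Fin 3 → ℝ, (∀ i, 0 < x i) →
        ∑ j, c j * psi (expo X j) (-t) x + c0 * yyv x + e * mass x ≤ phiF a (expo X) x := by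
  obtain ⟨D, n, jc', j9', κ, B, L, H⟩ := p
  simp only at hn hjc hj9 hL hH ha hb ⊢
  subst hn
  have hchk' := hchk
  unfold prowsOK at hchk'
  simp only [Bool.and_eq_true, decide_eq_true_eq, List.all_eq_true] at hchk'
  obtain ⟨⟨⟨hκ, hD⟩, hrows⟩, hcov⟩ := hchk'
  obtain ⟨r, hr, hr1', hr2'⟩ := chainOK_spec hcov ha hb
  have hrow := hrows r hr
  unfold prowOK at hrow
  simp only [Bool.and_eq_true, decide_eq_true_eq, List.all_eq_true] at hrow
  obtain ⟨⟨hZ1pos, hbins⟩, hcov2⟩ := hrow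
  have ht00 : 0 < t := lt_of_lt_of_le ht0 ht
  have hd : 0 < 1 / t ^ 2 := by positivity
  set d := 1 / t ^ 2 with hdd
  have hzc : 0 < d * y jc := lt_of_lt_of_le (by exact_mod_cast hZ1pos) hr1'
  have hyc : 0 < y jc := by
    by_contra hn
    push Not at hn
    have := mul_nonpos_of_nonneg_of_nonpos hd.le hn
    linarith
  have hρ1 : (((293 / 500 : ℚ)) : ℝ) ≤ y j9 / y jc := by
    rw [le_div_iff₀ hyc]
    push_cast
    exact hf.y921_ge
  have hρ2 : y j9 / y jc ≤ ((1 : ℚ) : ℝ) := by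
    rw [div_le_iff₀ hyc]
    push_cast
    linarith [hf.y_le_c j9]
  obtain ⟨b, hb', hb1, hb2⟩ := chainOK_spec hcov2 hρ1 hρ2
  have hbin := hbins b hb'
  have hbin' := hbin
  unfold pbinOK at hbin'
  simp only [Bool.and_eq_true, decide_eq_true_eq] at hbin'
  obtain ⟨⟨⟨⟨⟨hr1Z, _⟩, hEps⟩, hEta⟩, hch⟩, _⟩ := hbin'
  have hZ1pos' : (0 : ℝ) < r.Z1 := by exact_mod_cast hZ1pos
  have hr10 : (0 : ℝ) ≤ b.r1 := by
    have h2 : (0 : ℝ) ≤ ((b.r1 * r.Z1 : ℚ) : ℝ) := by exact_mod_cast hr1Z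
    push_cast at h2
    exact nonneg_of_mul_nonneg_left h2 hZ1pos'
  have hrho : b.r1 * y jc ≤ y j9 := (le_div_iff₀ hyc).1 hb1
  have hrho2 : y j9 ≤ b.r2 * y jc := (div_le_iff₀ hyc).1 hb2
  have hr20 : (0 : ℝ) ≤ b.r2 := by
    have h4 : 0 ≤ (b.r2 : ℝ) * y jc := (hf.y_nonneg j9).trans hrho2
    exact nonneg_of_mul_nonneg_left h4 hyc
  have h91 : ((b.r1 * r.Z1 : ℚ) : ℝ) ≤ d * y j9 := by
    push_cast
    calc (b.r1 : ℝ) * r.Z1 ≤ b.r1 * (d * y jc) := mul_le_mul_of_nonneg_left hr1' hr10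
      _ = d * (b.r1 * y jc) := by ring
      _ ≤ d * y j9 := mul_le_mul_of_nonneg_left hrho hd.le
  have h92 : d * y j9 ≤ ((b.r2 * r.Z2 : ℚ) : ℝ) := by
    push_cast
    calc d * y j9 ≤ d * (b.r2 * y jc) := mul_le_mul_of_nonneg_left hrho2 hd.le
      _ = b.r2 * (d * y jc) := by ring
      _ ≤ b.r2 * r.Z2 := mul_le_mul_of_nonneg_left hr2' hr20
  have hY1 : Y ≤ 6 / 5 * (d * y jc) := by
    have h2 := hf.tY_le
    have ht2 : 0 < t ^ 2 := by positivity
    have e : d * t ^ 2 = 1 := by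
      rw [hdd]
      field_simp
    have h3 := mul_le_mul_of_nonneg_left h2 hd.le
    have e2 : d * (t ^ 2 * Y) = Y := by
      rw [← mul_assoc, e, one_mul]
    rw [e2] at h3
    linarith
  have hz0 : ∀ j, 0 ≤ d * y j := fun j => mul_nonneg hd.le (hf.y_nonneg j)
  have hs := pbin_scalar (p := ⟨D, X.length, jc', j9', κ, B, L, H⟩) hκ hbin
    (z := fun j => d * y j) (Y := Y) (jc := jc) (j9 := j9) hjc hj9 hz0 hr1' hr2' h91 h92
    hf.Y_nonneg hY1 hf.Y_le_one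
  have hDpos : 0 < D := hD
  refine ⟨fun j => ((aP ⟨D, X.length, jc', j9', κ, B, L, H⟩ b.pl j : ℚ) : ℝ),
    fun j => ((cP ⟨D, X.length, jc', j9', κ, B, L, H⟩ b.pl j : ℚ) : ℝ) * d,
    ((c0P ⟨D, X.length, jc', j9', κ, B, L, H⟩ b.pl : ℚ) : ℝ),
    ((eP ⟨D, X.length, jc', j9', κ, B, L, H⟩ b.pl : ℚ) : ℝ), ?_, ?_, ?_⟩
  · intro j
    have h2 := allTo_spec hch j.2
    unfold charP at h2
    rw [Bool.and_eq_true, decide_eq_true_eq] at h2
    exact Rat.cast_le.2 h2.1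
  · refine hs.trans (le_of_eq ?_)
    congr 2
    refine Finset.sum_congr rfl fun j _ => ?_
    ring
  · intro x hx
    have hDr : (0 : ℝ) < D := by exact_mod_cast hDpos
    have h3 := poi_pointwise hX hDpos (hpl r hr b hb') ht0 hEps hEta hL hH ht ht1 hx
    have e1 : (fun j : Fin X.length => ((aP ⟨D, X.length, jc', j9', κ, B, L, H⟩ b.pl j : ℚ) : ℝ))
        = coef b.pl.A D X.length := by
      funext j
      rw [aP_cast]
      rfl
    rw [e1]
    refine le_trans (le_of_eq ?_) h3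
    congr 1
    · congr 1
      · refine Finset.sum_congr rfl fun j _ => ?_
        beta_reduce
        rw [cP_cast]
        unfold coef
        rw [hdd]
        field_simp
      · congr 1
        unfold c0P
        push_cast
        rfl
    · congr 1
      unfold eP
      push_cast
      rfl

/-- The key of the Poisson tree from the rows and a key for small `z`. -/
theorem poiKeyB_of_rows {X : List E3} (hX : ∀ e ∈ X, e.1 + e.2.1 + e.2.2 = 12) {p : PPar} (hn : p.n = X.length)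
    {Za : ℚ} {rows : List PRow} (hchk : prowsOK p Za 4 rows = true)
    (hpl : ∀ r ∈ rows, ∀ b ∈ r.bins, PoiPlane X p.D b.pl)
    {jc j9 : Fin X.length} (hjc : (jc : ℕ) = p.jc) (hj9 : (j9 : ℕ) = p.j9)
    (hC : X.get jc = (4, 4, 4)) (h9 : X.get j9 = (9, 2, 1))
    {t0 t : ℝ} (ht0 : 0 < t0) (hL : 1 / (2 * t0) - 1 ≤ (p.L : ℝ)) (hH : 1 / (2 * t0 ^ 2) - 2 ≤ (p.H : ℝ))
    (ht : t0 ≤ t) (ht1 : t ≤ 1 / 2)
    (hsmall : ∀ (y : Fin X.length → ℝ) (Y : ℝ), HullY (expo X) (-t) y Y → 1 / t ^ 2 * y jc ≤ (Za : ℝ) →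
      ∃ (a c : Fin X.length → ℝ) (c0 e : ℝ), (∀ j, a j ≤ (p.B : ℝ)) ∧
        ∑ j, a j * (1 - Real.exp (-(1 / t ^ 2 * y j))) + (p.κ : ℝ) * Y ^ 2 ≤ ∑ j, c j * y j + c0 * Y + e ∧
        ∀ x : Fin 3 → ℝ, (∀ i, 0 < x i) →
          ∑ j, c j * psi (expo X j) (-t) x + c0 * yyv x + e * mass x ≤ phiF a (expo X) x) :
    PoiKeyB (expo X) (1 / t ^ 2) (-t) (p.κ : ℝ) (p.B : ℝ) := by
  intro y Y hy
  have ht00 : 0 < t := lt_of_lt_of_le ht0 ht
  have hf := corner_hull_facts X hX hC h9 ht00 ht1 hy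
  rcases le_total (1 / t ^ 2 * y jc) (Za : ℝ) with h | h
  · exact hsmall y Y hy h
  · have hz4 : 1 / t ^ 2 * y jc ≤ ((4 : ℚ) : ℝ) := by
      have h1 := hf.yc_le_tY
      have h2 := hf.Y_le_one
      have ht2 : 0 < t ^ 2 := by positivity
      rw [one_div, inv_mul_le_iff₀ ht2]
      push_cast
      nlinarith
    exact poi_rows hX hn hchk hpl hjc hj9 ht0 hL hH ht ht1 hf h hz4

end

end Vale.Agent.P154.Hel.Corner
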