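import Vale.Agent.P154.Hel.CornerRegKey
import Vale.Agent.P154.Hel.PlaneWalk

/-!
From the two rows of a plane at `t = 1/2` (`Direct.planes_rows`) to the plane at the channel `-t`, in the format
of the regular scalars.
-/

namespace Vale.Agent.P154.Hel.Corner

open Vale.Agent.P154.Hel Vale.Agent.P154.Hel.Direct

noncomputable section

theorem mass_pos_of {x : Fin 3 → ℝ} (hx : ∀ i, 0 < x i) : 0 ≤ mass x := by
  unfold mass
  have h2 := hx 0
  have h3 := hx 1
  have h4 := hx 2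
  positivity

/-- The scalar plane of a plane with rows: same left side, `C = 4 P`, lower coefficients of the two
homogeneous terms. -/
structure PlaneLink (X : List E3) (q : Direct.Plane) (P : Plane) (L H : ℝ) (D : ℕ) : Prop where
  hA : P.A = q.A
  hC : ∀ j : ℕ, q.C.getD j 0 = 4 * P.C.getD j 0
  hC0 : (P.C0 : ℝ) ≤ q.C0 - L * q.Eps / 4
  hE : (P.E : ℝ) ≤ q.E - H * q.Eta / 4

theorem coef_four {X : List E3} {q : Direct.Plane} {P : Plane} {L H : ℝ} {D : ℕ}
    (h : PlaneLink X q P L H D) (j : Fin X.length) :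
    coef q.C D X.length j = 4 * coef P.C D X.length j := by
  unfold coef
  rw [h.hC j]
  push_cast
  ring

/-- The case `t = 1/2`, with row F only. -/
theorem planeHolds_half {X : List E3} {q : Direct.Plane} {P : Plane} {L H : ℝ} {D : ℕ} (hD : 0 < D)
    (h : PlaneLink X q P L H D) (hL : 0 ≤ L * q.Eps) (hH : 0 ≤ H * q.Eta)
    (hF : ∀ x : Fin 3 → ℝ, (∀ i, 0 < x i) →
      ∑ j, coef q.C D X.length j * psi (expo X j) (-(1 / 2)) x + ((q.C0 : ℝ) / D) * yyv x
        + ((q.E : ℝ) / D) * mass x ≤ phiF (coef q.A D X.length) (expo X) x) :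
    PlaneHolds X 3 D (-(1 / 2)) P := by
  intro x hx
  have h1 := hF x hx
  rw [h.hA]
  have hDp : (0 : ℝ) < D := by exact_mod_cast hD
  have hy := yyv_nonneg' hx
  have hm := mass_pos_of hx
  have e1 : ∑ j, ((3 + 1 : ℕ) : ℝ) * coef P.C D X.length j * psi (expo X j) (-(1 / 2)) x
      = ∑ j, coef q.C D X.length j * psi (expo X j) (-(1 / 2)) x := by
    refine Finset.sum_congr rfl fun j _ => ?_
    rw [coef_four h j]
    push_cast
    ring
  rw [e1]
  have h2 : ((P.C0 : ℝ) / D) * yyv x ≤ ((q.C0 : ℝ) / D) * yyv x := by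
    refine mul_le_mul_of_nonneg_right ?_ hy
    refine div_le_div_of_nonneg_right ?_ hDp.le
    have := h.hC0
    linarith
  have h3 : ((P.E : ℝ) / D) * mass x ≤ ((q.E : ℝ) / D) * mass x := by
    refine mul_le_mul_of_nonneg_right ?_ hm
    refine div_le_div_of_nonneg_right ?_ hDp.le
    have := h.hE
    linarith
  linarith

/-- The case of a general `t`, with both rows. -/
theorem planeHolds_rows {X : List E3} (hX : ∀ e ∈ X, e.1 + e.2.1 + e.2.2 = 12)
    {q : Direct.Plane} {P : Plane} {L H : ℝ} {D dd : ℕ} (hD : 0 < D)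
    (h : PlaneLink X q P L H D) (hEps : 0 ≤ q.Eps) (hEta : 0 ≤ q.Eta)
    {t t0 : ℝ} (ht0 : 0 < t0) (h0 : t0 ≤ t) (h1 : t ≤ 1 / 2) (hdd : t ^ 2 * ((dd + 1 : ℕ) : ℝ) = 1)
    (hL : 1 / (2 * t0) - 1 ≤ L) (hH : 1 / (2 * t0 ^ 2) - 2 ≤ H)
    (hF : ∀ x : Fin 3 → ℝ, (∀ i, 0 < x i) →
      ∑ j, coef q.C D X.length j * psi (expo X j) (-(1 / 2)) x + ((q.C0 : ℝ) / D) * yyv x
        + ((q.E : ℝ) / D) * mass x ≤ phiF (coef q.A D X.length) (expo X) x)
    (hDr : ∀ x : Fin 3 → ℝ, (∀ i, 0 < x i) → 0 ≤ rowD X q.C q.Eps q.Eta x) :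
    PlaneHolds X dd D (-t) P := by
  have hDp : (0 : ℝ) < D := by exact_mod_cast hD
  have hEps' : (0 : ℝ) ≤ q.Eps := by exact_mod_cast hEps
  have hEta' : (0 : ℝ) ≤ q.Eta := by exact_mod_cast hEta
  have hS : ∀ j, AdmS (expo X j) := fun j => adm_sE (hX _ (List.get_mem X j))
  intro x hx
  have hmain := plane_t_uniform hS (coef q.A D X.length) (coef P.C D X.length)
    (c0 := (q.C0 : ℝ) / D - L * ((q.Eps : ℝ) / (4 * D)))
    (e := (q.E : ℝ) / D - H * ((q.Eta : ℝ) / (4 * D)))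
    (ε := (q.Eps : ℝ) / (4 * D)) (η := (q.Eta : ℝ) / (4 * D)) (L := L) (H := H) (t0 := t0)
    ht0 (by positivity) (by positivity) hL hH ?_ ?_ h0 h1 hx
  · rw [h.hA]
    have hy := yyv_nonneg' hx
    have hm := mass_pos_of hx
    have ht : 0 < t := lt_of_lt_of_le ht0 h0
    have e1 : ∑ j, ((dd + 1 : ℕ) : ℝ) * coef P.C D X.length j * psi (expo X j) (-t) x
        = ∑ j, coef P.C D X.length j / t ^ 2 * psi (expo X j) (-t) x := by
      refine Finset.sum_congr rfl fun j _ => ?_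
      have : ((dd + 1 : ℕ) : ℝ) = 1 / t ^ 2 := by
        field_simp
        linarith
      rw [this]
      ring
    rw [e1]
    have h2 : ((P.C0 : ℝ) / D) * yyv x
        ≤ ((q.C0 : ℝ) / D - L * ((q.Eps : ℝ) / (4 * D))) * yyv x := by
      refine mul_le_mul_of_nonneg_right ?_ hy
      have := h.hC0
      have e : (q.C0 : ℝ) / D - L * ((q.Eps : ℝ) / (4 * D)) = ((q.C0 : ℝ) - L * q.Eps / 4) / D := by
        field_simp
      rw [e]
      exact div_le_div_of_nonneg_right this hDp.le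
    have h3 : ((P.E : ℝ) / D) * mass x
        ≤ ((q.E : ℝ) / D - H * ((q.Eta : ℝ) / (4 * D))) * mass x := by
      refine mul_le_mul_of_nonneg_right ?_ hm
      have := h.hE
      have e : (q.E : ℝ) / D - H * ((q.Eta : ℝ) / (4 * D)) = ((q.E : ℝ) - H * q.Eta / 4) / D := by
        field_simp
      rw [e]
      exact div_le_div_of_nonneg_right this hDp.le
    linarith
  · intro z hz
    have h2 := hF z hz
    have e1 : ∑ j, (4 * coef P.C D X.length j) * psi (expo X j) (-(1 / 2)) z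
        = ∑ j, coef q.C D X.length j * psi (expo X j) (-(1 / 2)) z := by
      refine Finset.sum_congr rfl fun j _ => ?_
      rw [coef_four h j]
    rw [e1]
    have e2 : (q.C0 : ℝ) / D - L * ((q.Eps : ℝ) / (4 * D)) + L * ((q.Eps : ℝ) / (4 * D)) = (q.C0 : ℝ) / D := by
      ring
    have e3 : (q.E : ℝ) / D - H * ((q.Eta : ℝ) / (4 * D)) + H * ((q.Eta : ℝ) / (4 * D)) = (q.E : ℝ) / D := by
      ring
    rw [e2, e3]
    exact h2
  · intro z hz
    have h2 := hDr z hz
    unfold rowD at h2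
    have h4D : (0 : ℝ) < 4 * D := by positivity
    have e : ∑ j, coef P.C D X.length j * Dj (expo X j) (T (-(1 / 2)) z)
          + (q.Eps : ℝ) / (4 * D) * yyv (T (-(1 / 2)) z) + (q.Eta : ℝ) / (4 * D) * mass z
        = (∑ j : Fin X.length, ((q.C.getD j 0 : ℤ) : ℝ) * Dj (sE (X.get j)) (T (-(1 / 2)) z)
            + (q.Eps : ℝ) * yyv (T (-(1 / 2)) z) + (q.Eta : ℝ) * mass z) / (4 * D) := by
      have e0 : ∀ j : Fin X.length, coef P.C D X.length j * Dj (expo X j) (T (-(1 / 2)) z)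
          = ((q.C.getD j 0 : ℤ) : ℝ) * Dj (sE (X.get j)) (T (-(1 / 2)) z) / (4 * D) := by
        intro j
        unfold coef expo
        rw [h.hC j]
        push_cast
        field_simp
      rw [add_div, add_div, Finset.sum_div, Finset.sum_congr rfl (fun j _ => e0 j)]
      ring
    rw [e]
    exact div_nonneg h2 h4D.le

end

end Vale.Agent.P154.Hel.Corner
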