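import Vale.Agent.P154.Neg.GW

/-!
Hellinger transforms (exact multiplicative characters) of laws of likelihood triples:
definitions and the extension of pointwise inequalities from positive to nonnegative triples.
-/

namespace Vale.Agent.P154

namespace Hel

noncomputable section

open Finset Filter Topology

/-- The mass of a triple. -/
def mass (x : Fin 3 → ℝ) : ℝ := (x 0 + x 1 + x 2) / 3

/-- The channel on a triple. -/
def T (lam : ℝ) (x : Fin 3 → ℝ) : Fin 3 → ℝ := fun i => lam * x i + (1 - lam) * mass x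

/-- The monomial with exponent vector `s`. -/
def mono (s x : Fin 3 → ℝ) : ℝ := ∏ i, (x i) ^ (s i)

/-- The symmetrised monomial, homogeneous of degree one when `s` sums to one. -/
def chi (s x : Fin 3 → ℝ) : ℝ := (1 / 6) * ∑ g : Equiv.Perm (Fin 3), mono s (fun i => x (g i))

/-- The function `mass - chi` after the channel. -/
def psi (s : Fin 3 → ℝ) (lam : ℝ) (x : Fin 3 → ℝ) : ℝ := mass x - chi s (T lam x)

/-- The Lyapunov density. -/
def phiF {ι : Type*} [Fintype ι] (w : ι → ℝ) (s : ι → Fin 3 → ℝ) (x : Fin 3 → ℝ) : ℝ :=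
  ∑ j, w j * (mass x - chi (s j) x)

/-- The second moment density on a vector. -/
def yyv (x : Fin 3 → ℝ) : ℝ := yy (x 0) (x 1) (x 2)

/-- The numbers `(y, Y)` lie in the convex hull of the curve `(psi, yy)` (over mass). -/
def HullY {ι : Type*} [Fintype ι] (s : ι → Fin 3 → ℝ) (lam : ℝ) (y : ι → ℝ) (Y : ℝ) : Prop :=
  ∀ (c : ι → ℝ) (c0 e : ℝ),
    (∀ x : Fin 3 → ℝ, (∀ i, 0 < x i) → ∑ j, c j * psi (s j) lam x + c0 * yyv x ≤ e * mass x) →
    ∑ j, c j * y j + c0 * Y ≤ e

/-- The key inequality for the `d`-ary tree. -/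
def RegKey {ι : Type*} [Fintype ι] (w : ι → ℝ) (s : ι → Fin 3 → ℝ) (d : ℕ) (lam κ : ℝ) : Prop :=
  ∀ (y : ι → ℝ) (Y : ℝ), HullY s lam y Y →
    ∃ (c : ι → ℝ) (c0 e : ℝ),
      ∑ j, w j * (1 - (1 - y j) ^ d) + κ * Y ^ 2 ≤ ∑ j, c j * y j + c0 * Y + e ∧
      ∀ x : Fin 3 → ℝ, (∀ i, 0 < x i) →
        ∑ j, c j * psi (s j) lam x + c0 * yyv x + e * mass x ≤ phiF w s x

/-- The key inequality for the Poisson tree. -/
def PoiKey {ι : Type*} [Fintype ι] (w : ι → ℝ) (s : ι → Fin 3 → ℝ) (d lam κ : ℝ) : Prop :=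
  ∀ (y : ι → ℝ) (Y : ℝ), HullY s lam y Y →
    ∃ (c : ι → ℝ) (c0 e : ℝ),
      ∑ j, w j * (1 - Real.exp (-(d * y j))) + κ * Y ^ 2 ≤ ∑ j, c j * y j + c0 * Y + e ∧
      ∀ x : Fin 3 → ℝ, (∀ i, 0 < x i) →
        ∑ j, c j * psi (s j) lam x + c0 * yyv x + e * mass x ≤ phiF w s x

/-- Admissible exponent vector. -/
structure AdmS (s : Fin 3 → ℝ) : Prop where
  nonneg : ∀ i, 0 ≤ s i
  sum : s 0 + s 1 + s 2 = 1

theorem mass_T (lam : ℝ) (x : Fin 3 → ℝ) : mass (T lam x) = mass x := by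
  unfold mass T mass
  ring

theorem T_nonneg {x : Fin 3 → ℝ} (hx : ∀ i, 0 ≤ x i) {lam : ℝ} (h0 : -(1 / 2) ≤ lam)
    (h1 : lam ≤ 1) (i : Fin 3) : 0 ≤ T lam x i := by
  unfold T mass
  have hv0 := hx 0
  have hv1 := hx 1
  have hv2 := hx 2
  have hvi := hx i
  have hle : x i ≤ x 0 + x 1 + x 2 := by
    fin_cases i <;> simp <;> linarith
  rcases le_or_gt 0 lam with hl | hl
  · have h2 : 0 ≤ 1 - lam := by linarith
    positivity
  · nlinarith

theorem mono_nonneg {s x : Fin 3 → ℝ} (hx : ∀ i, 0 ≤ x i) : 0 ≤ mono s x :=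
  Finset.prod_nonneg fun i _ => Real.rpow_nonneg (hx i) _

theorem mono_mul {s a b : Fin 3 → ℝ} (ha : ∀ i, 0 ≤ a i) (hb : ∀ i, 0 ≤ b i) :
    mono s (fun i => a i * b i) = mono s a * mono s b := by
  unfold mono
  rw [← Finset.prod_mul_distrib]
  exact Finset.prod_congr rfl fun i _ => Real.mul_rpow (ha i) (hb i)

/-- Weighted arithmetic-geometric mean inequality for a monomial. -/
theorem mono_le {s x : Fin 3 → ℝ} (hs : AdmS s) (hx : ∀ i, 0 ≤ x i) :
    mono s x ≤ s 0 * x 0 + s 1 * x 1 + s 2 * x 2 := by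
  have h := Real.geom_mean_le_arith_mean3_weighted (hs.nonneg 0) (hs.nonneg 1) (hs.nonneg 2)
    (hx 0) (hx 1) (hx 2) hs.sum
  unfold mono
  rw [Fin.prod_univ_three]
  exact h

theorem exists_pos_exp {s : Fin 3 → ℝ} (hs : AdmS s) : ∃ i, s i ≠ 0 := by
  by_contra h
  push Not at h
  have := hs.sum
  rw [h 0, h 1, h 2] at this
  norm_num at this

theorem mono_zero {s : Fin 3 → ℝ} (hs : AdmS s) : mono s (fun _ => 0) = 0 := by
  obtain ⟨i, hi⟩ := exists_pos_exp hs
  unfold mono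
  exact Finset.prod_eq_zero (Finset.mem_univ i) (Real.zero_rpow hi)

theorem chi_zero {s : Fin 3 → ℝ} (hs : AdmS s) : chi s (fun _ => 0) = 0 := by
  unfold chi
  have : ∑ g : Equiv.Perm (Fin 3), mono s (fun i => (fun _ : Fin 3 => (0 : ℝ)) (g i)) = 0 :=
    Finset.sum_eq_zero fun _ _ => mono_zero hs
  rw [this, mul_zero]

theorem T_zero (lam : ℝ) : T lam (fun _ => 0) = fun _ => 0 := by
  funext i
  simp [T, mass]

theorem mass_zero : mass (fun _ => 0) = 0 := by
  simp [mass]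

theorem psi_zero {s : Fin 3 → ℝ} (hs : AdmS s) (lam : ℝ) : psi s lam (fun _ => 0) = 0 := by
  unfold psi
  rw [T_zero, chi_zero hs, mass_zero]
  ring

theorem yyv_zero : yyv (fun _ => 0) = 0 := by
  simp [yyv, yy]

theorem continuousAt_mass (x : Fin 3 → ℝ) : ContinuousAt mass x := by
  unfold mass
  fun_prop

theorem continuousAt_T (lam : ℝ) (x : Fin 3 → ℝ) (i : Fin 3) :
    ContinuousAt (fun z => T lam z i) x := by
  unfold T mass
  fun_prop

theorem continuousAt_mono {s : Fin 3 → ℝ} (hs : AdmS s) {ι : Type*} [TopologicalSpace ι]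
    {f : ι → Fin 3 → ℝ} {z : ι} (hf : ∀ i, ContinuousAt (fun a => f a i) z) :
    ContinuousAt (fun a => mono s (f a)) z := by
  unfold mono
  refine tendsto_finsetProd _ fun i _ => ?_
  have h1 := Real.continuousAt_rpow_const (f z i) (s i) (Or.inr (hs.nonneg i))
  exact ContinuousAt.comp (f := fun a => f a i) (g := fun u => u ^ s i) h1 (hf i)

theorem continuousAt_chi {s : Fin 3 → ℝ} (hs : AdmS s) {ι : Type*} [TopologicalSpace ι]
    {f : ι → Fin 3 → ℝ} {z : ι} (hf : ∀ i, ContinuousAt (fun a => f a i) z) :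
    ContinuousAt (fun a => chi s (f a)) z := by
  unfold chi
  refine ContinuousAt.mul continuousAt_const ?_
  refine tendsto_finsetSum _ fun g _ => ?_
  exact continuousAt_mono hs (f := fun a i => f a (g i)) (fun i => hf (g i))

theorem continuousAt_psi {s : Fin 3 → ℝ} (hs : AdmS s) (lam : ℝ) (x : Fin 3 → ℝ) :
    ContinuousAt (psi s lam) x := by
  unfold psi
  exact (continuousAt_mass x).sub (continuousAt_chi hs (fun i => continuousAt_T lam x i))

theorem continuousAt_yyv {x : Fin 3 → ℝ} (hx : x 0 + x 1 + x 2 ≠ 0) : ContinuousAt yyv x := by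
  unfold yyv yy
  have h : ContinuousAt (fun z : Fin 3 → ℝ => z 0 * z 1 + z 1 * z 2 + z 2 * z 0) x := by fun_prop
  have h2 : ContinuousAt (fun z : Fin 3 → ℝ => z 0 + z 1 + z 2) x := by fun_prop
  exact (h2.div_const 3).sub (h.div h2 hx)

theorem continuousAt_phiF {ι : Type*} [Fintype ι] (w : ι → ℝ) {s : ι → Fin 3 → ℝ}
    (hs : ∀ j, AdmS (s j)) (x : Fin 3 → ℝ) : ContinuousAt (phiF w s) x := by
  unfold phiF
  refine tendsto_finsetSum _ fun j _ => ?_
  refine ContinuousAt.mul continuousAt_const ((continuousAt_mass x).sub ?_)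
  exact continuousAt_chi (hs j) (f := fun a => a) (fun i => (continuous_apply i).continuousAt)

/-- A pointwise inequality on positive triples extends to nonnegative triples by continuity. -/
theorem extend_nonneg {F G : (Fin 3 → ℝ) → ℝ} {x : Fin 3 → ℝ} (hx : ∀ i, 0 ≤ x i)
    (hF : ContinuousAt F x) (hG : ContinuousAt G x)
    (h : ∀ z : Fin 3 → ℝ, (∀ i, 0 < z i) → F z ≤ G z) : F x ≤ G x := by
  have hp : ContinuousAt (fun ε : ℝ => (fun i => x i + ε : Fin 3 → ℝ)) 0 := by fun_prop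
  have e0 : (fun i => x i + (0 : ℝ) : Fin 3 → ℝ) = x := by
    funext i
    simp
  have hF' : Tendsto (fun ε : ℝ => F (fun i => x i + ε)) (𝓝[>] 0) (𝓝 (F x)) := by
    have : ContinuousAt F (fun i => x i + (0 : ℝ)) := by rw [e0]; exact hF
    have h2 := ContinuousAt.comp (f := fun ε : ℝ => (fun i => x i + ε : Fin 3 → ℝ)) (g := F) this hp
    have h3 := h2.tendsto
    simp only [Function.comp_def, e0] at h3
    exact h3.mono_left nhdsWithin_le_nhds
  have hG' : Tendsto (fun ε : ℝ => G (fun i => x i + ε)) (𝓝[>] 0) (𝓝 (G x)) := by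
    have : ContinuousAt G (fun i => x i + (0 : ℝ)) := by rw [e0]; exact hG
    have h2 := ContinuousAt.comp (f := fun ε : ℝ => (fun i => x i + ε : Fin 3 → ℝ)) (g := G) this hp
    have h3 := h2.tendsto
    simp only [Function.comp_def, e0] at h3
    exact h3.mono_left nhdsWithin_le_nhds
  refine le_of_tendsto_of_tendsto hF' hG' ?_
  filter_upwards [self_mem_nhdsWithin] with ε hε
  refine h _ fun i => ?_
  have := hx i
  have h2 : (0 : ℝ) < ε := hε
  linarith

theorem eq_zero_of_sum {x : Fin 3 → ℝ} (hx : ∀ i, 0 ≤ x i) (h : x 0 + x 1 + x 2 = 0) :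
    x = fun _ => 0 := by
  funext i
  have h0 := hx 0
  have h1 := hx 1
  have h2 := hx 2
  fin_cases i
  · show x 0 = 0
    linarith
  · show x 1 = 0
    linarith
  · show x 2 = 0
    linarith

/-- The key pointwise inequality, on nonnegative triples. -/
theorem key_nonneg {ι : Type*} [Fintype ι] {w : ι → ℝ} {s : ι → Fin 3 → ℝ} (hs : ∀ j, AdmS (s j))
    {lam : ℝ} {c : ι → ℝ} {c0 e : ℝ}
    (h : ∀ x : Fin 3 → ℝ, (∀ i, 0 < x i) →
      ∑ j, c j * psi (s j) lam x + c0 * yyv x + e * mass x ≤ phiF w s x)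
    {x : Fin 3 → ℝ} (hx : ∀ i, 0 ≤ x i) :
    ∑ j, c j * psi (s j) lam x + c0 * yyv x + e * mass x ≤ phiF w s x := by
  by_cases h0 : x 0 + x 1 + x 2 = 0
  · rw [eq_zero_of_sum hx h0]
    unfold phiF
    simp only [psi_zero (hs _), yyv_zero, mass_zero, chi_zero (hs _)]
    simp
  · refine extend_nonneg hx ?_ (continuousAt_phiF w hs x) h
    refine ContinuousAt.add (ContinuousAt.add ?_ ?_) ?_
    · refine tendsto_finsetSum _ fun j _ => ?_
      exact ContinuousAt.mul continuousAt_const (continuousAt_psi (hs j) lam x)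
    · exact ContinuousAt.mul continuousAt_const (continuousAt_yyv h0)
    · exact ContinuousAt.mul continuousAt_const (continuousAt_mass x)

/-- The hull inequality, on nonnegative triples. -/
theorem hull_nonneg {ι : Type*} [Fintype ι] {s : ι → Fin 3 → ℝ} (hs : ∀ j, AdmS (s j))
    {lam : ℝ} {c : ι → ℝ} {c0 e : ℝ}
    (h : ∀ x : Fin 3 → ℝ, (∀ i, 0 < x i) → ∑ j, c j * psi (s j) lam x + c0 * yyv x ≤ e * mass x)
    {x : Fin 3 → ℝ} (hx : ∀ i, 0 ≤ x i) :
    ∑ j, c j * psi (s j) lam x + c0 * yyv x ≤ e * mass x := by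
  by_cases h0 : x 0 + x 1 + x 2 = 0
  · rw [eq_zero_of_sum hx h0]
    simp only [psi_zero (hs _), yyv_zero, mass_zero]
    simp
  · refine extend_nonneg hx ?_ (ContinuousAt.mul continuousAt_const (continuousAt_mass x)) h
    refine ContinuousAt.add ?_ ?_
    · refine tendsto_finsetSum _ fun j _ => ?_
      exact ContinuousAt.mul continuousAt_const (continuousAt_psi (hs j) lam x)
    · exact ContinuousAt.mul continuousAt_const (continuousAt_yyv h0)

end

end Hel

end Vale.Agent.P154
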