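import Vale.Agent.P154.Hel.Q3Rpow

/-!
Layer B of the `q = 3`, `lam = -tau` certificate: moments of mean-one triples, the channel and the
bounds on `psi`, `phiF` in terms of `A`, `R`.
-/

namespace Vale.Agent.P154.Hel.Q3

noncomputable section

open Finset

/-- The domain of the moments. -/
def Dom (A R : ℝ) : Prop := 0 ≤ A ∧ A ≤ 1 ∧ R ^ 2 ≤ A ^ 3 ∧ 3 * A - 1 ≤ 2 * R

theorem sum_of_mass {u : Fin 3 → ℝ} (hm : mass u = 1) : u 0 + u 1 + u 2 = 3 := by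
  unfold mass at hm
  linarith

theorem prod_moments {u : Fin 3 → ℝ} (hm : mass u = 1) :
    u 0 * u 1 * u 2 = 1 - 3 * AA u + 2 * RR u := by
  have h := sum_of_mass hm
  have e : u 2 = 3 - u 0 - u 1 := by linarith
  unfold AA RR
  rw [e]
  ring

theorem dom_of {u : Fin 3 → ℝ} (h : ∀ i, 0 ≤ u i) (hm : mass u = 1) : Dom (AA u) (RR u) := by
  have hs := sum_of_mass hm
  have h0 := h 0
  have h1 := h 1
  have h2 := h 2
  have e : u 2 = 3 - u 0 - u 1 := by linarith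
  refine ⟨?_, ?_, ?_, ?_⟩
  · unfold AA
    positivity
  · unfold AA
    nlinarith [mul_nonneg h0 h1, mul_nonneg h1 h2, mul_nonneg h2 h0]
  · have key : AA u ^ 3 - RR u ^ 2 = ((u 0 - u 1) * (u 1 - u 2) * (u 2 - u 0)) ^ 2 / 108 := by
      unfold AA RR
      rw [e]
      ring
    have : 0 ≤ ((u 0 - u 1) * (u 1 - u 2) * (u 2 - u 0)) ^ 2 / 108 := by positivity
    linarith
  · have := prod_moments hm
    have hp : 0 ≤ u 0 * u 1 * u 2 := by positivity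
    linarith

theorem coord_le_three {u : Fin 3 → ℝ} (h : ∀ i, 0 ≤ u i) (hm : mass u = 1) (i : Fin 3) :
    u i ≤ 3 := by
  have hs := sum_of_mass hm
  have h0 := h 0
  have h1 := h 1
  have h2 := h 2
  fin_cases i <;> simp <;> linarith

theorem T_neg_apply {u : Fin 3 → ℝ} (hm : mass u = 1) (t : ℝ) (i : Fin 3) :
    T (-t) u i = 1 - t * (u i - 1) := by
  unfold T
  rw [hm]
  ring

theorem AA_T {u : Fin 3 → ℝ} (hm : mass u = 1) (t : ℝ) : AA (T (-t) u) = t ^ 2 * AA u := by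
  unfold AA
  rw [T_neg_apply hm, T_neg_apply hm, T_neg_apply hm]
  ring

theorem RR_T {u : Fin 3 → ℝ} (hm : mass u = 1) (t : ℝ) : RR (T (-t) u) = -(t ^ 3 * RR u) := by
  unfold RR
  rw [T_neg_apply hm, T_neg_apply hm, T_neg_apply hm]
  ring

theorem T_pos {u : Fin 3 → ℝ} (h : ∀ i, 0 ≤ u i) (hm : mass u = 1) {t : ℝ} (h0 : 0 ≤ t)
    (h1 : t < 1 / 2) (i : Fin 3) : 0 < T (-t) u i := by
  rw [T_neg_apply hm]
  have := coord_le_three h hm i
  nlinarith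

theorem T_le {u : Fin 3 → ℝ} (h : ∀ i, 0 ≤ u i) (hm : mass u = 1) {t : ℝ} (h0 : 0 ≤ t)
    (i : Fin 3) : T (-t) u i ≤ 1 + t := by
  rw [T_neg_apply hm]
  have := h i
  nlinarith

theorem tauMax_lt : tauMax < 1 / 2 := by
  unfold tauMax
  norm_num

/-! ### Homogeneity -/

theorem mono_const {s : Fin 3 → ℝ} (hs : AdmS s) {m : ℝ} (hm : 0 < m) :
    mono s (fun _ => m) = m := by
  unfold mono
  rw [Fin.prod_univ_three, ← Real.rpow_add hm, ← Real.rpow_add hm, hs.sum, Real.rpow_one]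

theorem chi_smul {s : Fin 3 → ℝ} (hs : AdmS s) {m : ℝ} (hm : 0 < m) {y : Fin 3 → ℝ}
    (hy : ∀ i, 0 ≤ y i) : chi s (fun i => m * y i) = m * chi s y := by
  unfold chi
  have key : ∀ g : Equiv.Perm (Fin 3),
      mono s (fun i => m * y (g i)) = m * mono s (fun i => y (g i)) := by
    intro g
    have := mono_mul (s := s) (a := fun _ => m) (b := fun i => y (g i)) (fun _ => hm.le)
      (fun i => hy _)
    rw [mono_const hs hm] at this
    exact this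
  simp only [key]
  rw [← Finset.mul_sum]
  ring

/-- The normalisation of a triple. -/
def nrm (x : Fin 3 → ℝ) : Fin 3 → ℝ := fun i => x i / mass x

theorem mass_pos {x : Fin 3 → ℝ} (hx : ∀ i, 0 < x i) : 0 < mass x := by
  unfold mass
  have h0 := hx 0
  have h1 := hx 1
  have h2 := hx 2
  positivity

theorem mass_nrm {x : Fin 3 → ℝ} (hx : ∀ i, 0 < x i) : mass (nrm x) = 1 := by
  have hm := mass_pos hx
  have e : (x 0 + x 1 + x 2) / 3 = mass x := rfl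
  have : mass (nrm x) = mass x / mass x := by
    show (x 0 / mass x + x 1 / mass x + x 2 / mass x) / 3 = mass x / mass x
    calc (x 0 / mass x + x 1 / mass x + x 2 / mass x) / 3
        = ((x 0 + x 1 + x 2) / 3) / mass x := by ring
      _ = mass x / mass x := by rw [e]
  rw [this, div_self hm.ne']

theorem nrm_pos {x : Fin 3 → ℝ} (hx : ∀ i, 0 < x i) (i : Fin 3) : 0 < nrm x i :=
  div_pos (hx i) (mass_pos hx)

theorem mul_nrm {x : Fin 3 → ℝ} (hx : ∀ i, 0 < x i) (i : Fin 3) : mass x * nrm x i = x i := by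
  have hm := mass_pos hx
  unfold nrm
  field_simp

theorem T_nrm {x : Fin 3 → ℝ} (hx : ∀ i, 0 < x i) (lam : ℝ) :
    T lam x = fun i => mass x * T lam (nrm x) i := by
  funext i
  have hm := mass_pos hx
  unfold T
  rw [mass_nrm hx]
  have := mul_nrm hx i
  linear_combination (-lam) * this

theorem psi_nrm {s : Fin 3 → ℝ} (hs : AdmS s) {x : Fin 3 → ℝ} (hx : ∀ i, 0 < x i) {t : ℝ}
    (h0 : 0 ≤ t) (h1 : t < 1 / 2) :
    psi s (-t) x = mass x * (1 - chi s (T (-t) (nrm x))) := by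
  have hm := mass_pos hx
  unfold psi
  rw [T_nrm hx (-t), chi_smul hs hm
    (fun i => (T_pos (fun i => (nrm_pos hx i).le) (mass_nrm hx) h0 h1 i).le)]
  ring

theorem chi_nrm {s : Fin 3 → ℝ} (hs : AdmS s) {x : Fin 3 → ℝ} (hx : ∀ i, 0 < x i) :
    chi s x = mass x * chi s (nrm x) := by
  have hm := mass_pos hx
  have : x = fun i => mass x * nrm x i := by
    funext i
    rw [mul_nrm hx]
  conv_lhs => rw [this]
  exact chi_smul hs hm (fun i => (nrm_pos hx i).le)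

theorem yyv_nrm {x : Fin 3 → ℝ} (hx : ∀ i, 0 < x i) : yyv x = mass x * AA (nrm x) := by
  have hm := mass_pos hx
  have h1 := sum_of_mass (mass_nrm hx)
  have e0 := mul_nrm hx 0
  have e1 := mul_nrm hx 1
  have e2 := mul_nrm hx 2
  unfold yyv yy
  rw [← e0, ← e1, ← e2]
  set m := mass x
  set a := nrm x 0
  set b := nrm x 1
  set c := nrm x 2 with hc
  have ec : AA (nrm x) = ((a - 1) ^ 2 + (b - 1) ^ 2 + (c - 1) ^ 2) / 6 := rfl
  rw [ec]
  have e3 : m * a + m * b + m * c = 3 * m := by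
    have : a + b + c = 3 := h1
    nlinarith
  rw [e3]
  have hc' : c = 3 - a - b := by
    have : a + b + c = 3 := h1
    linarith
  rw [hc']
  field_simp
  ring

theorem phiF_nrm {x : Fin 3 → ℝ} (hx : ∀ i, 0 < x i) :
    phiF ww ss x = mass x * (aw * (1 - chi sS (nrm x)) - bw * (1 - chi sC (nrm x))) := by
  unfold phiF
  rw [Fin.sum_univ_two]
  have e0 : ww 0 = aw := rfl
  have e1 : ww 1 = -bw := rfl
  have e2 : ss 0 = sS := rfl
  have e3 : ss 1 = sC := rfl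
  rw [e0, e1, e2, e3, chi_nrm admS hx, chi_nrm admC hx]
  ring

/-! ### The central character -/

theorem chiC_eq {y : Fin 3 → ℝ} (hy : ∀ i, 0 ≤ y i) :
    chi sC y = (y 0 * y 1 * y 2) ^ ((1 : ℝ) / 3) := by
  rw [chi_six]
  simp only [sC, Matrix.cons_val_zero, Matrix.cons_val_one, Matrix.cons_val]
  rw [Real.mul_rpow (mul_nonneg (hy 0) (hy 1)) (hy 2), Real.mul_rpow (hy 0) (hy 1)]
  ring

/-- The Taylor polynomial of the cube root from above. -/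
theorem cbrt_le {w : ℝ} (h0 : 0 ≤ w) (h1 : w ≤ 1) :
    (1 - w) ^ ((1 : ℝ) / 3) ≤ 1 - w / 3 - w ^ 2 / 9 - 5 / 81 * w ^ 3 - 10 / 243 * w ^ 4 := by
  set B := 1 - w / 3 - w ^ 2 / 9 - 5 / 81 * w ^ 3 - 10 / 243 * w ^ 4 with hB
  have hw2 : w ^ 2 ≤ 1 := pow_le_one₀ h0 h1
  have hw3 : w ^ 3 ≤ 1 := pow_le_one₀ h0 h1
  have hw4 : w ^ 4 ≤ 1 := pow_le_one₀ h0 h1
  have hB0 : 0 ≤ B := by
    rw [hB]
    linarith
  have hQ : 0 ≤ 22 / 243 + 22 / 2187 * w - 55 / 19683 * w ^ 3 - 1925 / 531441 * w ^ 4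
      - 550 / 531441 * w ^ 5 - 500 / 1594323 * w ^ 6 - 1000 / 14348907 * w ^ 7 := by
    have hw5 : w ^ 5 ≤ 1 := pow_le_one₀ h0 h1
    have hw6 : w ^ 6 ≤ 1 := pow_le_one₀ h0 h1
    have hw7 : w ^ 7 ≤ 1 := pow_le_one₀ h0 h1
    linarith
  have hc : 1 - w ≤ B ^ 3 := by
    have : B ^ 3 - (1 - w) = w ^ 5 * (22 / 243 + 22 / 2187 * w - 55 / 19683 * w ^ 3
        - 1925 / 531441 * w ^ 4 - 550 / 531441 * w ^ 5 - 500 / 1594323 * w ^ 6
        - 1000 / 14348907 * w ^ 7) := by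
      rw [hB]
      ring
    have h2 := mul_nonneg (pow_nonneg h0 5) hQ
    linarith
  calc (1 - w) ^ ((1 : ℝ) / 3) ≤ (B ^ 3) ^ ((1 : ℝ) / 3) :=
        Real.rpow_le_rpow (by linarith) hc (by norm_num)
    _ = B := by
        rw [← Real.rpow_natCast, ← Real.rpow_mul hB0]
        norm_num

/-- The cube root from below. -/
theorem le_cbrt {w : ℝ} (h0 : 0 ≤ w) (h1 : w ≤ 16 / 25) :
    1 - w / 3 - w ^ 2 / 9 - 23 / 200 * w ^ 3 ≤ (1 - w) ^ ((1 : ℝ) / 3) := by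
  set L := 1 - w / 3 - w ^ 2 / 9 - 23 / 200 * w ^ 3 with hL
  have hL0 : 0 ≤ L := by
    rw [hL]
    nlinarith [pow_nonneg h0 2, pow_nonneg h0 3]
  have hc : L ^ 3 ≤ 1 - w := by
    have : 1 - w - L ^ 3 = w ^ 3 * (863 / 5400 - 23 / 100 * w - (421 / 16200) * w ^ 2
      - (371723 / 29160000) * w ^ 3 + (18883 / 1080000) * w ^ 4 + (529 / 120000) * w ^ 5
      + (12167 / 8000000) * w ^ 6) := by
      rw [hL]
      ring
    have h2' : w ^ 2 ≤ 16 / 25 * w := by nlinarith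
    have h3' : w ^ 3 ≤ (16 / 25) ^ 2 * w := by nlinarith [pow_nonneg h0 2]
    have h4' : (16 / 25) ^ 4 + 4 * (16 / 25) ^ 3 * (w - 16 / 25) ≤ w ^ 4 := by
      have : 0 ≤ (w - 16 / 25) ^ 2 * (w ^ 2 + 2 * (16 / 25) * w + 3 * (16 / 25) ^ 2) := by
        positivity
      nlinarith
    have hQ : 0 ≤ 863 / 5400 - 23 / 100 * w - (421 / 16200) * w ^ 2
      - (371723 / 29160000) * w ^ 3 + (18883 / 1080000) * w ^ 4 + (529 / 120000) * w ^ 5
      + (12167 / 8000000) * w ^ 6 := by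
      have h5' := pow_nonneg h0 5
      have h6' := pow_nonneg h0 6
      norm_num at h3' h4'
      linarith
    have h2 := mul_nonneg (pow_nonneg h0 3) hQ
    linarith
  calc L = (L ^ 3) ^ ((1 : ℝ) / 3) := by
        rw [← Real.rpow_natCast, ← Real.rpow_mul hL0]
        norm_num
    _ ≤ (1 - w) ^ ((1 : ℝ) / 3) := Real.rpow_le_rpow (by positivity) hc (by norm_num)

/-! ### AM-GM between the two characters -/

theorem rp12 {y : ℝ} (hy : 0 ≤ y) (k : ℕ) (e : ℝ) (he : e = (k : ℝ) / 12) :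
    y ^ e = (y ^ ((1 : ℝ) / 12)) ^ k := by
  rw [← Real.rpow_natCast, ← Real.rpow_mul hy, he]
  congr 1
  ring

theorem chiC_le_chiS {y : Fin 3 → ℝ} (hy : ∀ i, 0 ≤ y i) : chi sC y ≤ chi sS y := by
  rw [chi_six, chi_six]
  simp only [sS, sC, Matrix.cons_val_zero, Matrix.cons_val_one, Matrix.cons_val]
  have r1 : ∀ i, y i ^ ((1 : ℝ) / 3) = (y i ^ ((1 : ℝ) / 12)) ^ 4 :=
    fun i => rp12 (hy i) 4 _ (by norm_num)
  have r2 : ∀ i, y i ^ ((1 : ℝ) / 2) = (y i ^ ((1 : ℝ) / 12)) ^ 6 :=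
    fun i => rp12 (hy i) 6 _ (by norm_num)
  have r3 : ∀ i, y i ^ ((5 : ℝ) / 12) = (y i ^ ((1 : ℝ) / 12)) ^ 5 :=
    fun i => rp12 (hy i) 5 _ (by norm_num)
  simp only [r1, r2, r3]
  have ha : 0 ≤ y 0 ^ ((1 : ℝ) / 12) := Real.rpow_nonneg (hy 0) _
  have hb : 0 ≤ y 1 ^ ((1 : ℝ) / 12) := Real.rpow_nonneg (hy 1) _
  have hc : 0 ≤ y 2 ^ ((1 : ℝ) / 12) := Real.rpow_nonneg (hy 2) _
  set a := y 0 ^ ((1 : ℝ) / 12)
  set b := y 1 ^ ((1 : ℝ) / 12)
  set c := y 2 ^ ((1 : ℝ) / 12)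
  have h1 : 0 ≤ a ^ 5 * (b ^ 2 - c ^ 2) ^ 2 := by positivity
  have h2 : 0 ≤ b ^ 5 * (a ^ 2 - c ^ 2) ^ 2 := by positivity
  have h3 : 0 ≤ c ^ 5 * (a ^ 2 - b ^ 2) ^ 2 := by positivity
  have h4 : 0 ≤ a ^ 3 + b ^ 3 + c ^ 3 - 3 * a * b * c := by
    nlinarith [mul_nonneg ha (sq_nonneg (b - c)), mul_nonneg hb (sq_nonneg (a - c)),
      mul_nonneg hc (sq_nonneg (a - b)), mul_nonneg ha (sq_nonneg (a - b)),
      mul_nonneg hb (sq_nonneg (b - c)), mul_nonneg hc (sq_nonneg (c - a)),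
      mul_nonneg hb (sq_nonneg (a - b)), mul_nonneg hc (sq_nonneg (b - c)),
      mul_nonneg ha (sq_nonneg (c - a))]
  have h5 : 0 ≤ a * b * c * (a ^ 5 * (b ^ 2 - c ^ 2) ^ 2 + b ^ 5 * (a ^ 2 - c ^ 2) ^ 2
      + c ^ 5 * (a ^ 2 - b ^ 2) ^ 2 + 2 * a ^ 2 * b ^ 2 * c ^ 2 * (a ^ 3 + b ^ 3 + c ^ 3
        - 3 * a * b * c)) := by positivity
  nlinarith [h5]

/-- The main character dominates the central one, so `psi sS <= psi sC`. -/
theorem psiS_le_psiC {x : Fin 3 → ℝ} (hx : ∀ i, 0 < x i) {t : ℝ} (h0 : 0 ≤ t) (h1 : t < 1 / 2) :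
    psi sS (-t) x ≤ psi sC (-t) x := by
  rw [psi_nrm admS hx h0 h1, psi_nrm admC hx h0 h1]
  have := chiC_le_chiS (fun i => (T_pos (fun i => (nrm_pos hx i).le) (mass_nrm hx) h0 h1 i).le)
  have hm := mass_pos hx
  exact mul_le_mul_of_nonneg_left (by linarith) hm.le

/-- `psi` is nonnegative: the characters lie below the mass. -/
theorem chi_le_one {s : Fin 3 → ℝ} (hs : AdmS s) {y : Fin 3 → ℝ} (hy : ∀ i, 0 ≤ y i)
    (hm : mass y = 1) : chi s y ≤ 1 := by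
  rw [chi_six]
  have g0 := hs.nonneg 0
  have g1 := hs.nonneg 1
  have g2 := hs.nonneg 2
  have h := hs.sum
  have key : ∀ a b c : ℝ, 0 ≤ a → 0 ≤ b → 0 ≤ c →
      a ^ s 0 * b ^ s 1 * c ^ s 2 ≤ s 0 * a + s 1 * b + s 2 * c :=
    fun a b c ha hb hc => Real.geom_mean_le_arith_mean3_weighted g0 g1 g2 ha hb hc h
  have k1 := key _ _ _ (hy 0) (hy 1) (hy 2)
  have k2 := key _ _ _ (hy 0) (hy 2) (hy 1)
  have k3 := key _ _ _ (hy 1) (hy 0) (hy 2)
  have k4 := key _ _ _ (hy 2) (hy 0) (hy 1)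
  have k5 := key _ _ _ (hy 1) (hy 2) (hy 0)
  have k6 := key _ _ _ (hy 2) (hy 1) (hy 0)
  have hs3 := sum_of_mass hm
  have e : (s 0 * y 0 + s 1 * y 1 + s 2 * y 2) + (s 0 * y 0 + s 1 * y 2 + s 2 * y 1)
      + (s 0 * y 1 + s 1 * y 0 + s 2 * y 2) + (s 0 * y 2 + s 1 * y 0 + s 2 * y 1)
      + (s 0 * y 1 + s 1 * y 2 + s 2 * y 0) + (s 0 * y 2 + s 1 * y 1 + s 2 * y 0)
      = 2 * (s 0 + s 1 + s 2) * (y 0 + y 1 + y 2) := by ring
  rw [h, hs3] at e
  linarith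

theorem psi_nonneg {s : Fin 3 → ℝ} (hs : AdmS s) {x : Fin 3 → ℝ} (hx : ∀ i, 0 < x i) {t : ℝ}
    (h0 : 0 ≤ t) (h1 : t < 1 / 2) : 0 ≤ psi s (-t) x := by
  rw [psi_nrm hs hx h0 h1]
  have hu : ∀ i, 0 ≤ nrm x i := fun i => (nrm_pos hx i).le
  have := chi_le_one hs (fun i => (T_pos hu (mass_nrm hx) h0 h1 i).le)
    (by rw [mass_T, mass_nrm hx])
  have hm := mass_pos hx
  exact mul_nonneg hm.le (by linarith)

/-! ### Bounds on `psi` -/

/-- `psi sS` from above. -/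
theorem psiS_le (hE : E1) {x : Fin 3 → ℝ} (hx : ∀ i, 0 < x i) {t : ℝ} (h0 : 0 < t)
    (h1 : t ≤ tauMax) :
    psi sS (-t) x ≤ mass x * t ^ 2 * zetaS (AA (nrm x)) (RR (nrm x)) t := by
  have ht : t < 1 / 2 := lt_of_le_of_lt h1 tauMax_lt
  have hu : ∀ i, 0 ≤ nrm x i := fun i => (nrm_pos hx i).le
  have hmu := mass_nrm hx
  rw [psi_nrm admS hx h0.le ht]
  have hy := T_pos hu hmu h0.le ht
  have hb : ∀ i, T (-t) (nrm x) i ≤ 1 + tauMax :=
    fun i => (T_le hu hmu h0.le i).trans (by linarith)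
  have hmy : mass (T (-t) (nrm x)) = 1 := by rw [mass_T, hmu]
  have key := C1 hE _ hy hmy hb
  rw [AA_T hmu, RR_T hmu] at key
  have e := Utau_eq (AA (nrm x)) (RR (nrm x)) t h0.ne'
  have e2 : Upoly (t ^ 2 * AA (nrm x)) (-(t ^ 3 * RR (nrm x)))
      = t ^ 2 * Utau (AA (nrm x)) (RR (nrm x)) t := by
    rw [e]
    field_simp
  rw [e2] at key
  have hm := mass_pos hx
  calc mass x * (1 - chi sS (T (-t) (nrm x)))
      ≤ mass x * (41 / 48 * (t ^ 2 * AA (nrm x)) - 97 / 192 * -(t ^ 3 * RR (nrm x))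
          + t ^ 2 * Utau (AA (nrm x)) (RR (nrm x)) t) :=
        mul_le_mul_of_nonneg_left key hm.le
    _ = _ := by
        unfold zetaS
        ring

/-- The quantity `W = 3 A + 2 t R`: the product of the coordinates after the channel is
`1 - t^2 W`. -/
def WW (A R t : ℝ) : ℝ := 3 * A + 2 * t * R

theorem prod_T {u : Fin 3 → ℝ} (hm : mass u = 1) (t : ℝ) :
    T (-t) u 0 * T (-t) u 1 * T (-t) u 2 = 1 - t ^ 2 * WW (AA u) (RR u) t := by
  have hmy : mass (T (-t) u) = 1 := by rw [mass_T, hm]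
  rw [prod_moments hmy, AA_T hm, RR_T hm]
  unfold WW
  ring

theorem prod_le_one {y : Fin 3 → ℝ} (hy : ∀ i, 0 ≤ y i) (hm : mass y = 1) :
    y 0 * y 1 * y 2 ≤ 1 := by
  have hs := sum_of_mass hm
  have h0 := hy 0
  have h1 := hy 1
  have h2 := hy 2
  have key : 27 * (y 0 * y 1 * y 2) ≤ (y 0 + y 1 + y 2) ^ 3 := by
    nlinarith [mul_nonneg h0 (sq_nonneg (y 1 - y 2)), mul_nonneg h1 (sq_nonneg (y 2 - y 0)),
      mul_nonneg h2 (sq_nonneg (y 0 - y 1)), mul_nonneg h0 (sq_nonneg (y 0 - y 1)),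
      mul_nonneg h0 (sq_nonneg (y 0 - y 2)), mul_nonneg h1 (sq_nonneg (y 1 - y 0)),
      mul_nonneg h1 (sq_nonneg (y 1 - y 2)), mul_nonneg h2 (sq_nonneg (y 2 - y 0)),
      mul_nonneg h2 (sq_nonneg (y 2 - y 1))]
  rw [hs] at key
  linarith

/-- The range of `W`. -/
theorem WW_range {u : Fin 3 → ℝ} (h : ∀ i, 0 ≤ u i) (hm : mass u = 1) {t : ℝ} (h0 : 0 < t)
    (h1 : t < 1 / 2) :
    0 ≤ WW (AA u) (RR u) t ∧ t ^ 2 * WW (AA u) (RR u) t ≤ 1 := by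
  have hy := T_pos h hm h0.le h1
  have hmy : mass (T (-t) u) = 1 := by rw [mass_T, hm]
  have e := prod_T hm t
  have h2 := prod_le_one (fun i => (hy i).le) hmy
  have h3 : 0 < T (-t) u 0 * T (-t) u 1 * T (-t) u 2 := by
    have := hy 0
    have := hy 1
    have := hy 2
    positivity
  constructor
  · have : 0 ≤ t ^ 2 * WW (AA u) (RR u) t := by linarith
    exact nonneg_of_mul_nonneg_right this (by positivity)
  · linarith

theorem chiC_T {u : Fin 3 → ℝ} (h : ∀ i, 0 ≤ u i) (hm : mass u = 1) {t : ℝ} (h0 : 0 < t)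
    (h1 : t < 1 / 2) :
    chi sC (T (-t) u) = (1 - t ^ 2 * WW (AA u) (RR u) t) ^ ((1 : ℝ) / 3) := by
  rw [chiC_eq (fun i => (T_pos h hm h0.le h1 i).le), prod_T hm]

/-- `psi sC` from below. -/
theorem psiC_ge {x : Fin 3 → ℝ} (hx : ∀ i, 0 < x i) {t : ℝ} (h0 : 0 < t) (h1 : t < 1 / 2) :
    mass x * t ^ 2 * zetaC (AA (nrm x)) (RR (nrm x)) t ≤ psi sC (-t) x := by
  have hu : ∀ i, 0 ≤ nrm x i := fun i => (nrm_pos hx i).le
  have hmu := mass_nrm hx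
  rw [psi_nrm admC hx h0.le h1, chiC_T hu hmu h0 h1]
  obtain ⟨W0, W1⟩ := WW_range hu hmu h0 h1
  obtain ⟨A0, -, -, -⟩ := dom_of hu hmu
  have hm := mass_pos hx
  set A := AA (nrm x)
  set R := RR (nrm x)
  set W := WW A R t with hW
  have hc := cbrt_le (w := t ^ 2 * W) (by positivity) W1
  have t3 : 27 * A ^ 3 + 54 * A ^ 2 * t * R ≤ W ^ 3 := by
    have : 0 ≤ (W - 3 * A) ^ 2 * (W + 2 * (3 * A)) := by positivity
    have e : W ^ 3 - (27 * A ^ 3 + 54 * A ^ 2 * t * R) = (W - 3 * A) ^ 2 * (W + 2 * (3 * A)) := by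
      rw [hW]
      unfold WW
      ring
    linarith
  have t4 : 81 * A ^ 4 + 216 * A ^ 3 * t * R ≤ W ^ 4 := by
    have : 0 ≤ (W - 3 * A) ^ 2 * (W ^ 2 + 2 * W * (3 * A) + 3 * (3 * A) ^ 2) := by positivity
    have e : W ^ 4 - (81 * A ^ 4 + 216 * A ^ 3 * t * R)
        = (W - 3 * A) ^ 2 * (W ^ 2 + 2 * W * (3 * A) + 3 * (3 * A) ^ 2) := by
      rw [hW]
      unfold WW
      ring
    linarith
  have e : t ^ 2 * zetaC A R t = t ^ 2 * W / 3 + (t ^ 2 * W) ^ 2 / 9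
      + 5 / 81 * (t ^ 6 * (27 * A ^ 3 + 54 * A ^ 2 * t * R))
      + 10 / 243 * (t ^ 8 * (81 * A ^ 4 + 216 * A ^ 3 * t * R)) := by
    unfold zetaC
    rw [hW]
    unfold WW
    ring
  have k3 := mul_le_mul_of_nonneg_left t3 (show 0 ≤ t ^ 6 by positivity)
  have k4 := mul_le_mul_of_nonneg_left t4 (show 0 ≤ t ^ 8 by positivity)
  have main : t ^ 2 * zetaC A R t ≤ 1 - (1 - t ^ 2 * W) ^ ((1 : ℝ) / 3) := by
    rw [e]
    have e3 : (t ^ 2 * W) ^ 3 = t ^ 6 * W ^ 3 := by ring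
    have e4 : (t ^ 2 * W) ^ 4 = t ^ 8 * W ^ 4 := by ring
    rw [e3, e4] at hc
    linarith
  calc mass x * t ^ 2 * zetaC A R t = mass x * (t ^ 2 * zetaC A R t) := by ring
    _ ≤ _ := mul_le_mul_of_nonneg_left main hm.le

/-- The upper bound for `psi sC`. -/
def zetaCU (W t : ℝ) : ℝ := W / 3 + t ^ 2 * W ^ 2 / 9 + 23 / 200 * t ^ 4 * W ^ 3

/-- The range of `W`, explicit. -/
theorem WW_le {A R t : ℝ} (hD : Dom A R) (h0 : 0 ≤ t) : WW A R t ≤ 3 + 2 * t := by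
  obtain ⟨A0, A1, h3, -⟩ := hD
  have hA3 : A ^ 3 ≤ 1 := pow_le_one₀ A0 A1
  have hR : R ≤ 1 := by nlinarith
  unfold WW
  nlinarith

/-- `psi sC` from above. -/
theorem psiC_le {x : Fin 3 → ℝ} (hx : ∀ i, 0 < x i) {t : ℝ} (h0 : 0 < t) (h1 : t ≤ tauMax) :
    psi sC (-t) x ≤ mass x * t ^ 2 * zetaCU (WW (AA (nrm x)) (RR (nrm x)) t) t := by
  have ht : t < 1 / 2 := lt_of_le_of_lt h1 tauMax_lt
  have hu : ∀ i, 0 ≤ nrm x i := fun i => (nrm_pos hx i).le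
  have hmu := mass_nrm hx
  rw [psi_nrm admC hx h0.le ht, chiC_T hu hmu h0 ht]
  obtain ⟨W0, W1⟩ := WW_range hu hmu h0 ht
  have hW := WW_le (dom_of hu hmu) h0.le
  have hm := mass_pos hx
  set W := WW (AA (nrm x)) (RR (nrm x)) t
  have hsmall : t ^ 2 * W ≤ 16 / 25 := by
    have h2 : t ^ 2 ≤ tauMax ^ 2 := pow_le_pow_left₀ h0.le h1 2
    have h3 : t ^ 2 * W ≤ tauMax ^ 2 * (3 + 2 * tauMax) := by
      apply mul_le_mul h2 (by linarith) W0 (by positivity)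
    refine h3.trans ?_
    unfold tauMax
    norm_num
  have hc := le_cbrt (w := t ^ 2 * W) (by positivity) hsmall
  have main : 1 - (1 - t ^ 2 * W) ^ ((1 : ℝ) / 3) ≤ t ^ 2 * zetaCU W t := by
    unfold zetaCU
    have e : t ^ 2 * (W / 3 + t ^ 2 * W ^ 2 / 9 + 23 / 200 * t ^ 4 * W ^ 3)
        = t ^ 2 * W / 3 + (t ^ 2 * W) ^ 2 / 9 + 23 / 200 * (t ^ 2 * W) ^ 3 := by ring
    rw [e]
    linarith
  calc mass x * (1 - (1 - t ^ 2 * W) ^ ((1 : ℝ) / 3))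
      ≤ mass x * (t ^ 2 * zetaCU W t) := mul_le_mul_of_nonneg_left main hm.le
    _ = _ := by ring

/-- The numerical range of `zeta_c`. -/
theorem zetaCU_le {W t : ℝ} (h0 : 0 ≤ t) (h1 : t ≤ tauMax) (W0 : 0 ≤ W) (hW : W ≤ 3 + 2 * t) :
    zetaCU W t ≤ 43 / 25 := by
  have ht2 : t ^ 2 ≤ tauMax ^ 2 := pow_le_pow_left₀ h0 h1 2
  have ht4 : t ^ 4 ≤ tauMax ^ 4 := pow_le_pow_left₀ h0 h1 4
  have hW' : W ≤ 3 + 2 * tauMax := by linarith
  have hW2 : W ^ 2 ≤ (3 + 2 * tauMax) ^ 2 := pow_le_pow_left₀ W0 hW' 2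
  have hW3 : W ^ 3 ≤ (3 + 2 * tauMax) ^ 3 := pow_le_pow_left₀ W0 hW' 3
  have a1 : t ^ 2 * W ^ 2 ≤ tauMax ^ 2 * (3 + 2 * tauMax) ^ 2 :=
    mul_le_mul ht2 hW2 (by positivity) (by positivity)
  have a2 : t ^ 4 * W ^ 3 ≤ tauMax ^ 4 * (3 + 2 * tauMax) ^ 3 :=
    mul_le_mul ht4 hW3 (by positivity) (by positivity)
  unfold zetaCU
  have a3 : t ^ 2 * W ^ 2 / 9 ≤ tauMax ^ 2 * (3 + 2 * tauMax) ^ 2 / 9 := by linarith
  have a4 : 23 / 200 * t ^ 4 * W ^ 3 ≤ 23 / 200 * (tauMax ^ 4 * (3 + 2 * tauMax) ^ 3) := by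
    linarith
  have a5 : W / 3 ≤ (3 + 2 * tauMax) / 3 := by linarith
  have : (3 + 2 * tauMax) / 3 + tauMax ^ 2 * (3 + 2 * tauMax) ^ 2 / 9
      + 23 / 200 * (tauMax ^ 4 * (3 + 2 * tauMax) ^ 3) ≤ 43 / 25 := by
    unfold tauMax
    norm_num
  linarith

/-! ### The Lyapunov density -/

/-- `phiF` from below. -/
theorem phiF_ge (hE : E2) {x : Fin 3 → ℝ} (hx : ∀ i, 0 < x i) :
    mass x * (AA (nrm x) + Npoly (AA (nrm x)) (RR (nrm x))) ≤ phiF ww ss x := by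
  rw [phiF_nrm hx]
  exact mul_le_mul_of_nonneg_left (C2 hE _ (nrm_pos hx) (mass_nrm hx)) (mass_pos hx).le

/-! ### Positivity of the lower polynomial -/

/-- `Npoly` is nonnegative on the domain of moments. -/
theorem Npoly_nonneg {A R : ℝ} (hD : Dom A R) : 0 ≤ Npoly A R := by
  obtain ⟨A0, A1, hR, -⟩ := hD
  set h := 308 - 332 * A - 218 * A ^ 2 + 2082 * A ^ 3 with hh
  set g := 100 + 1173 * A - 2203 * A ^ 2 with hg
  have key : 1024 * Npoly A R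
      = A * (A * h + R * g) + (318 + 46 * A + 498 * A ^ 2) * (A ^ 3 - R ^ 2) := by
    unfold Npoly
    rw [hh, hg]
    ring
  have hpos : 0 < h := by
    rw [hh]
    nlinarith [mul_nonneg A0 (sq_nonneg (A - 27 / 100)), sq_nonneg (A - 267 / 1000)]
  have hsq : A * g ^ 2 ≤ h ^ 2 := by
    rcases le_total A (3 / 4) with hA | hA
    · have g1 : g ≤ 260 := by
        rw [hg]
        nlinarith [sq_nonneg (A - 1173 / 4406)]
      have g2 : -260 ≤ g := by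
        rw [hg]
        nlinarith [mul_nonneg A0 (sub_nonneg.2 hA)]
      have g3 : g ^ 2 ≤ 67600 := by nlinarith
      have h1 : 240 ≤ h := by
        rw [hh]
        nlinarith [mul_nonneg A0 (sq_nonneg (A - 27 / 100)), sq_nonneg (A - 267 / 1000)]
      have h2 : 57600 ≤ h ^ 2 := by nlinarith
      nlinarith [sq_nonneg g]
    · have s0 : 0 ≤ A - 3 / 4 := by linarith
      have p2 := pow_nonneg s0 2
      have p3 := pow_nonneg s0 3
      have a1 : 0 ≤ h + g := by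
        rw [hh, hg]
        nlinarith
      have a2 : 0 ≤ h - g := by
        rw [hh, hg]
        nlinarith
      have a3 : g ^ 2 ≤ h ^ 2 := by nlinarith [mul_nonneg a1 a2]
      nlinarith [sq_nonneg g]
  have hlin : 0 ≤ A * h + R * g := by
    by_contra hc
    push Not at hc
    have h1 : 0 ≤ A * h := mul_nonneg A0 hpos.le
    have h2 : R * g < -(A * h) := by linarith
    have h3 : (A * h) ^ 2 < (R * g) ^ 2 := by nlinarith
    have h4 : (R * g) ^ 2 ≤ A ^ 3 * g ^ 2 := by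
      rw [mul_pow]
      exact mul_le_mul_of_nonneg_right hR (sq_nonneg g)
    have h5 : A ^ 3 * g ^ 2 ≤ A ^ 2 * h ^ 2 := by
      have := mul_le_mul_of_nonneg_left hsq (sq_nonneg A)
      nlinarith
    have h6 : (A * h) ^ 2 = A ^ 2 * h ^ 2 := by ring
    linarith
  have h7 : 0 ≤ (318 + 46 * A + 498 * A ^ 2) * (A ^ 3 - R ^ 2) :=
    mul_nonneg (by positivity) (by linarith)
  have h8 := mul_nonneg A0 hlin
  linarith

/-- The central combination after the channel is nonnegative. -/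
theorem central_nonneg (hE : E2) {x : Fin 3 → ℝ} (hx : ∀ i, 0 < x i) {t : ℝ} (h0 : 0 < t)
    (h1 : t < 1 / 2) : bw * psi sC (-t) x ≤ aw * psi sS (-t) x := by
  have hu : ∀ i, 0 ≤ nrm x i := fun i => (nrm_pos hx i).le
  have hmu := mass_nrm hx
  rw [psi_nrm admC hx h0.le h1, psi_nrm admS hx h0.le h1]
  have hy := T_pos hu hmu h0.le h1
  have hmy : mass (T (-t) (nrm x)) = 1 := by rw [mass_T, hmu]
  have key := C2 hE _ hy hmy
  have hd := dom_of (fun i => (hy i).le) hmy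
  have h2 := Npoly_nonneg hd
  have h3 := hd.1
  have hm := mass_pos hx
  have : bw * (1 - chi sC (T (-t) (nrm x))) ≤ aw * (1 - chi sS (T (-t) (nrm x))) := by linarith
  nlinarith

end

end Vale.Agent.P154.Hel.Q3
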