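import Vale.Agent.P154.Hel.TMRoot
import Vale.Agent.P154.Hel.Q3Moments

/-!
A generic tool for pointwise plane inequalities
`∑ c_j psi (s_j) (-t) x + c0 yyv x + e mass x ≤ phiF a s x` with exponents on the grid `1/12`:
the inequality is reduced to a function of two variables `v, r` in the unit square, with
`x = (1, v^12, (v r)^12)`, which is checked by a Taylor model walker.
-/

namespace Vale.Agent.P154.Hel.Direct

open TM Q3

/-! ### Real level -/

/-- An exponent triple on the grid `1/12`. -/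
abbrev E3 := ℕ × ℕ × ℕ

/-- The exponent vector. -/
noncomputable def sE (e : E3) : Fin 3 → ℝ := ![(e.1 : ℝ) / 12, (e.2.1 : ℝ) / 12, (e.2.2 : ℝ) / 12]

lemma adm_sE {e : E3} (h : e.1 + e.2.1 + e.2.2 = 12) : AdmS (sE e) where
  nonneg := by
    intro i
    fin_cases i <;> simp [sE] <;> positivity
  sum := by
    have h' : (e.1 : ℝ) + e.2.1 + e.2.2 = 12 := by exact_mod_cast h
    simp only [sE, Matrix.cons_val_zero, Matrix.cons_val_one, Matrix.cons_val]
    linarith

/-- Six times the symmetrised monomial in twelfth roots. -/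
noncomputable def six (e : E3) (y0 y1 y2 : ℝ) : ℝ :=
  y0 ^ e.1 * (y1 ^ e.2.1 * y2 ^ e.2.2 + y2 ^ e.2.1 * y1 ^ e.2.2)
    + y0 ^ e.2.1 * (y1 ^ e.1 * y2 ^ e.2.2 + y2 ^ e.1 * y1 ^ e.2.2)
    + y0 ^ e.2.2 * (y1 ^ e.1 * y2 ^ e.2.1 + y2 ^ e.1 * y1 ^ e.2.1)

lemma rpow_grid {y : ℝ} (hy : 0 ≤ y) (n : ℕ) : (y ^ 12) ^ ((n : ℝ) / 12) = y ^ n := by
  rw [← Real.rpow_natCast y 12, ← Real.rpow_mul hy, ← Real.rpow_natCast y n]
  congr 1
  push_cast
  ring

lemma chi_grid (e : E3) {y0 y1 y2 : ℝ} (h0 : 0 ≤ y0) (h1 : 0 ≤ y1) (h2 : 0 ≤ y2) :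
    chi (sE e) ![y0 ^ 12, y1 ^ 12, y2 ^ 12] = (1 / 6) * six e y0 y1 y2 := by
  rw [chi_six]
  simp only [sE, Matrix.cons_val_zero, Matrix.cons_val_one, Matrix.cons_val]
  simp only [rpow_grid h0, rpow_grid h1, rpow_grid h2]
  unfold six
  ring

/-- A sum along a list of exponents with integer coefficients. -/
noncomputable def sumR (f : E3 → ℝ) : List E3 → List ℤ → ℝ
  | e :: X, a :: A => (a : ℝ) * f e + sumR f X A
  | _, _ => 0

/-- The sum of the coefficients along a list of exponents. -/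
def zsum : List E3 → List ℤ → ℤ
  | _ :: X, a :: A => a + zsum X A
  | _, _ => 0

lemma sum_fin (f : E3 → ℝ) (X : List E3) (A : List ℤ) :
    ∑ j : Fin X.length, ((A.getD j 0 : ℤ) : ℝ) * f (X.get j) = sumR f X A := by
  induction X generalizing A with
  | nil => simp [sumR]
  | cons e X ih =>
    cases A with
    | nil => simp [sumR]
    | cons a A =>
      have h := ih A
      simp only [sumR, ← h]
      show ∑ j : Fin (X.length + 1), (((a :: A).getD (j : ℕ) 0 : ℤ) : ℝ) * f ((e :: X).get j) = _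
      rw [Fin.sum_univ_succ]
      simp

lemma sumR_linear (f : E3 → ℝ) (α β : ℝ) (X : List E3) (A : List ℤ) :
    sumR (fun e => α - β * f e) X A = α * (zsum X A : ℝ) - β * sumR f X A := by
  induction X generalizing A with
  | nil => simp [sumR, zsum]
  | cons e X ih =>
    cases A with
    | nil => simp [sumR, zsum]
    | cons a A =>
      simp only [sumR, zsum, ih]
      push_cast
      ring

lemma sumR_congr {f g : E3 → ℝ} {X : List E3} (h : ∀ e ∈ X, f e = g e) (A : List ℤ) :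
    sumR f X A = sumR g X A := by
  induction X generalizing A with
  | nil => simp [sumR]
  | cons e X ih =>
    cases A with
    | nil => simp [sumR]
    | cons a A =>
      simp only [sumR]
      rw [h e (by simp), ih (fun e' he' => h e' (by simp [he'])) A]

/-- The function in the chart. -/
noncomputable def coreR (X : List E3) (A C : List ℤ) (K C0 : ℤ) (v w y0 y1 y2 : ℝ) : ℝ :=
  (K : ℝ) * (1 + v ^ 12 + w ^ 12) - sumR (fun e => six e 1 v w) X A + sumR (fun e => six e y0 y1 y2) X C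
    - (C0 : ℝ) * (2 * (1 + v ^ 12 + w ^ 12)
      - 6 * ((v ^ 12 + v ^ 12 * w ^ 12 + w ^ 12) * (1 + v ^ 12 + w ^ 12)⁻¹))

/-- The scale of the function in the chart. -/
def coreK (X : List E3) (A C : List ℤ) (E : ℤ) : ℤ := 2 * (zsum X A - zsum X C - E)

/-- The coefficients of a plane. -/
noncomputable def coef (A : List ℤ) (D : ℕ) (n : ℕ) : Fin n → ℝ := fun j => ((A.getD j 0 : ℤ) : ℝ) / D

/-- The exponents of a plane. -/
noncomputable def expo (X : List E3) : Fin X.length → Fin 3 → ℝ := fun j => sE (X.get j)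

/-- The defect of the plane inequality at a triple. -/
noncomputable def defect (X : List E3) (A C : List ℤ) (C0 E : ℤ) (D : ℕ) (t : ℝ) (x : Fin 3 → ℝ) : ℝ :=
  phiF (coef A D X.length) (expo X) x
    - (∑ j, coef C D X.length j * psi (expo X j) (-t) x + ((C0 : ℝ) / D) * yyv x + ((E : ℝ) / D) * mass x)

lemma defect_chart (X : List E3) (A C : List ℤ) (C0 E : ℤ) (D : ℕ) (hD : 0 < D) {t v w y0 y1 y2 : ℝ}
    (hv : 0 ≤ v) (hw : 0 ≤ w) (h0 : 0 ≤ y0) (h1 : 0 ≤ y1) (h2 : 0 ≤ y2)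
    (hT : T (-t) ![1, v ^ 12, w ^ 12] = ![y0 ^ 12, y1 ^ 12, y2 ^ 12]) :
    6 * (D : ℝ) * defect X A C C0 E D t ![1, v ^ 12, w ^ 12]
      = coreR X A C (coreK X A C E) C0 v w y0 y1 y2 := by
  have hDr : (D : ℝ) ≠ 0 := by exact_mod_cast hD.ne'
  have hM : (0 : ℝ) < 1 + v ^ 12 + w ^ 12 := by positivity
  set u : Fin 3 → ℝ := ![1, v ^ 12, w ^ 12] with hu
  have hm : mass u = (1 + v ^ 12 + w ^ 12) / 3 := by
    simp [mass, hu]
  have hy : yyv u = (1 + v ^ 12 + w ^ 12) / 3 - (v ^ 12 + v ^ 12 * w ^ 12 + w ^ 12) * (1 + v ^ 12 + w ^ 12)⁻¹ := by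
    simp only [yyv, yy, hu, Matrix.cons_val_zero, Matrix.cons_val_one, Matrix.cons_val]
    rw [div_eq_mul_inv (1 * v ^ 12 + v ^ 12 * w ^ 12 + w ^ 12 * 1) _]
    ring
  have hchi : ∀ e : E3, chi (sE e) u = (1 / 6) * six e 1 v w := by
    intro e
    have := chi_grid e (zero_le_one) hv hw
    rwa [one_pow] at this
  have hchiT : ∀ e : E3, chi (sE e) (T (-t) u) = (1 / 6) * six e y0 y1 y2 := by
    intro e
    rw [hT]
    exact chi_grid e h0 h1 h2
  have e1 : phiF (coef A D X.length) (expo X) u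
      = (1 / (D : ℝ)) * sumR (fun e => mass u - (1 / 6) * six e 1 v w) X A := by
    unfold phiF coef expo
    rw [← sum_fin, Finset.mul_sum]
    refine Finset.sum_congr rfl fun j _ => ?_
    rw [hchi]
    ring
  have e2 : ∑ j, coef C D X.length j * psi (expo X j) (-t) u
      = (1 / (D : ℝ)) * sumR (fun e => mass u - (1 / 6) * six e y0 y1 y2) X C := by
    unfold coef expo psi
    rw [← sum_fin, Finset.mul_sum]
    refine Finset.sum_congr rfl fun j _ => ?_
    rw [hchiT]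
    ring
  unfold defect coreR coreK
  rw [e1, e2, sumR_linear, sumR_linear, hy, hm]
  push_cast
  field_simp
  ring

/-! ### Symmetry and homogeneity of the defect -/

lemma T_perm (lam : ℝ) (x : Fin 3 → ℝ) (g : Equiv.Perm (Fin 3)) :
    T lam (fun i => x (g i)) = fun i => T lam x (g i) := by
  funext i
  unfold T
  rw [mass_perm]

lemma yyv_perm (x : Fin 3 → ℝ) (g : Equiv.Perm (Fin 3)) : yyv (fun i => x (g i)) = yyv x := by
  unfold yyv yy
  have h1 := sum_perm3 x g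
  have h2 := sum_perm3 (fun i => x i ^ 2) g
  have e : ∀ a b d : ℝ, a * b + b * d + d * a = ((a + b + d) ^ 2 - (a ^ 2 + b ^ 2 + d ^ 2)) / 2 := by
    intro a b d
    ring
  rw [e, e (x 0), h1, h2]

lemma psi_perm (s : Fin 3 → ℝ) (lam : ℝ) (x : Fin 3 → ℝ) (g : Equiv.Perm (Fin 3)) :
    psi s lam (fun i => x (g i)) = psi s lam x := by
  unfold psi
  rw [T_perm, chi_perm, mass_perm]

lemma defect_perm (X : List E3) (A C : List ℤ) (C0 E : ℤ) (D : ℕ) (t : ℝ) (x : Fin 3 → ℝ)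
    (g : Equiv.Perm (Fin 3)) :
    defect X A C C0 E D t (fun i => x (g i)) = defect X A C C0 E D t x := by
  unfold defect phiF
  simp only [psi_perm, chi_perm, mass_perm, yyv_perm]

lemma T_smul (lam k : ℝ) (u : Fin 3 → ℝ) : T lam (fun i => k * u i) = fun i => k * T lam u i := by
  funext i
  simp only [T, mass]
  ring

lemma mass_smul (k : ℝ) (u : Fin 3 → ℝ) : mass (fun i => k * u i) = k * mass u := by
  simp only [mass]
  ring

lemma yyv_smul {k : ℝ} (hk : 0 < k) (u : Fin 3 → ℝ) : yyv (fun i => k * u i) = k * yyv u := by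
  simp only [yyv, yy]
  by_cases h : u 0 + u 1 + u 2 = 0
  · have e : k * u 0 + k * u 1 + k * u 2 = k * (u 0 + u 1 + u 2) := by ring
    rw [e, h]
    simp
  · have e : k * u 0 + k * u 1 + k * u 2 = k * (u 0 + u 1 + u 2) := by ring
    rw [e]
    field_simp

lemma psi_smul {s : Fin 3 → ℝ} (hs : AdmS s) {lam k : ℝ} (hk : 0 < k) {u : Fin 3 → ℝ} (hu : ∀ i, 0 ≤ u i)
    (h0 : -(1 / 2) ≤ lam) (h1 : lam ≤ 1) :
    psi s lam (fun i => k * u i) = k * psi s lam u := by
  unfold psi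
  rw [T_smul, chi_smul hs hk (T_nonneg hu h0 h1), mass_smul]
  ring

lemma defect_smul (X : List E3) (hX : ∀ e ∈ X, e.1 + e.2.1 + e.2.2 = 12) (A C : List ℤ) (C0 E : ℤ) (D : ℕ)
    {t k : ℝ} (ht0 : 0 ≤ t) (ht1 : t ≤ 1 / 2) (hk : 0 < k) {u : Fin 3 → ℝ} (hu : ∀ i, 0 ≤ u i) :
    defect X A C C0 E D t (fun i => k * u i) = k * defect X A C C0 E D t u := by
  have hs : ∀ j, AdmS (expo X j) := fun j => adm_sE (hX _ (List.get_mem X j))
  unfold defect phiF
  have e1 : ∀ j, psi (expo X j) (-t) (fun i => k * u i) = k * psi (expo X j) (-t) u :=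
    fun j => psi_smul (hs j) hk hu (by linarith) (by linarith)
  have e2 : ∀ j, chi (expo X j) (fun i => k * u i) = k * chi (expo X j) u :=
    fun j => chi_smul (hs j) hk hu
  simp only [e1, e2, yyv_smul hk, mass_smul]
  rw [mul_sub, mul_add, mul_add, Finset.mul_sum, Finset.mul_sum]
  congr 1
  · refine Finset.sum_congr rfl fun j _ => ?_
    ring
  · congr 1
    · congr 1
      · refine Finset.sum_congr rfl fun j _ => ?_
        ring
      · ring
    · ring

/-- The reduction to the chart. -/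
theorem defect_nonneg (X : List E3) (hX : ∀ e ∈ X, e.1 + e.2.1 + e.2.2 = 12) (A C : List ℤ) (C0 E : ℤ)
    (D : ℕ) (hD : 0 < D) {t : ℝ} (ht0 : 0 ≤ t) (ht1 : t ≤ 1 / 2)
    (H : ∀ v r : ℝ, 0 ≤ v → v ≤ 1 → 0 ≤ r → r ≤ 1 → ∃ y0 y1 y2 : ℝ, 0 ≤ y0 ∧ 0 ≤ y1 ∧ 0 ≤ y2 ∧
      T (-t) ![1, v ^ 12, (v * r) ^ 12] = ![y0 ^ 12, y1 ^ 12, y2 ^ 12] ∧
      0 ≤ coreR X A C (coreK X A C E) C0 v (v * r) y0 y1 y2)
    (x : Fin 3 → ℝ) (hx : ∀ i, 0 < x i) : 0 ≤ defect X A C C0 E D t x := by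
  obtain ⟨g, g1, g2⟩ := exists_sorted x
  rw [← defect_perm X A C C0 E D t x g]
  set x' : Fin 3 → ℝ := fun i => x (g i) with hx'
  have p0 : 0 < x' 0 := hx _
  have p1 : 0 < x' 1 := hx _
  have p2 : 0 < x' 2 := hx _
  set v := (x' 1 / x' 0) ^ ((1 : ℝ) / 12) with hv
  set r := (x' 2 / x' 1) ^ ((1 : ℝ) / 12) with hr
  have v0 : 0 ≤ v := Real.rpow_nonneg (div_nonneg p1.le p0.le) _
  have r0 : 0 ≤ r := Real.rpow_nonneg (div_nonneg p2.le p1.le) _
  have v1 : v ≤ 1 := by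
    apply Real.rpow_le_one (div_nonneg p1.le p0.le) _ (by norm_num)
    rw [div_le_one p0]
    exact g1
  have r1 : r ≤ 1 := by
    apply Real.rpow_le_one (div_nonneg p2.le p1.le) _ (by norm_num)
    rw [div_le_one p1]
    exact g2
  have ev : v ^ 12 = x' 1 / x' 0 := pow12_eq (div_nonneg p1.le p0.le)
  have er : r ^ 12 = x' 2 / x' 1 := pow12_eq (div_nonneg p2.le p1.le)
  have ew : (v * r) ^ 12 = x' 2 / x' 0 := by
    rw [mul_pow, ev, er]
    field_simp
  have ex : x' = fun i => x' 0 * (![1, v ^ 12, (v * r) ^ 12] : Fin 3 → ℝ) i := by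
    funext i
    rw [ev, ew]
    fin_cases i
    · simp
    · simp
      field_simp
    · simp
      field_simp
  rw [ex, defect_smul X hX A C C0 E D ht0 ht1 p0 (by
    intro i
    fin_cases i <;> simp <;> positivity)]
  apply mul_nonneg p0.le
  obtain ⟨y0, y1, y2, h0, h1, h2, hT, hG⟩ := H v r v0 v1 r0 r1
  have := defect_chart X A C C0 E D hD v0 (mul_nonneg v0 r0) h0 h1 h2 hT
  rw [← this] at hG
  have hDr : (0 : ℝ) < 6 * D := by
    have : (0 : ℝ) < D := by exact_mod_cast hD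
    positivity
  exact nonneg_of_mul_nonneg_right hG hDr

/-- The conclusion in the form of the key inequalities. -/
theorem plane_of_defect (X : List E3) (A C : List ℤ) (C0 E : ℤ) (D : ℕ) {t : ℝ}
    (h : ∀ x : Fin 3 → ℝ, (∀ i, 0 < x i) → 0 ≤ defect X A C C0 E D t x)
    (x : Fin 3 → ℝ) (hx : ∀ i, 0 < x i) :
    ∑ j, coef C D X.length j * psi (expo X j) (-t) x + ((C0 : ℝ) / D) * yyv x + ((E : ℝ) / D) * mass x
      ≤ phiF (coef A D X.length) (expo X) x := by
  have := h x hx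
  unfold defect at this
  linarith

/-! ### Programs on Taylor models -/

/-- An element of a table. -/
def pick : List TMod → ℕ → TMod
  | [], _ => TMod.mk 0 0 0 0 false
  | a :: _, 0 => a
  | _ :: l, n + 1 => pick l n

/-- The table of powers, by a short addition chain. -/
def powsT (c : Cfg) (y : TMod) : List TMod :=
  (fun y2 => (fun y3 => (fun y4 => (fun y5 => (fun y6 =>
    [ofFix c c.TF, y, y2, y3, y4, y5, y6, mulT c y4 y3, mulT c y4 y4, mulT c y5 y4, mulT c y5 y5,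
      mulT c y6 y5, mulT c y6 y6])
    (mulT c y3 y3)) (mulT c y3 y2)) (mulT c y2 y2)) (mulT c y2 y)) (mulT c y y)

/-- The table of powers of one. -/
def onesT (c : Cfg) : List TMod :=
  (fun o => [o, o, o, o, o, o, o, o, o, o, o, o, o]) (ofFix c c.TF)

/-- A table of powers of `y`. -/
def Tab (c : Cfg) (ξ η : ℝ) (p : List TMod) (y : ℝ) : Prop :=
  ∀ k, k ≤ 12 → RepAt c ξ η (pick p k) (y ^ k)

lemma repAt_one {c : Cfg} {ξ η : ℝ} (C : Ctx c ξ η) : RepAt c ξ η (ofFix c c.TF) 1 := by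
  have h := repAt_ofFix C c.TF
  have hTF : (c.TF : ℝ) * unit c = 1 := by
    rw [C.hc.hTF]
    push_cast
    exact unit_mul c
  rwa [hTF] at h

lemma repAt_zero {c : Cfg} {ξ η : ℝ} (C : Ctx c ξ η) : RepAt c ξ η (ofFix c 0) 0 := by
  have h := repAt_ofFix C 0
  simpa using h

lemma tab_powsT {c : Cfg} {ξ η : ℝ} (C : Ctx c ξ η) {t : TMod} {y : ℝ} (h : RepAt c ξ η t y) :
    Tab c ξ η (powsT c t) y := by
  have r2 := repAt_mul C h h
  have r3 := repAt_mul C r2 h
  have r4 := repAt_mul C r2 r2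
  have r5 := repAt_mul C r3 r2
  have r6 := repAt_mul C r3 r3
  intro k hk
  interval_cases k
  · exact (repAt_one C).congr (by ring)
  · exact h.congr (by ring)
  · exact r2.congr (by ring)
  · exact r3.congr (by ring)
  · exact r4.congr (by ring)
  · exact r5.congr (by ring)
  · exact r6.congr (by ring)
  · exact (repAt_mul C r4 r3).congr (by ring)
  · exact (repAt_mul C r4 r4).congr (by ring)
  · exact (repAt_mul C r5 r4).congr (by ring)
  · exact (repAt_mul C r5 r5).congr (by ring)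
  · exact (repAt_mul C r6 r5).congr (by ring)
  · exact (repAt_mul C r6 r6).congr (by ring)

lemma tab_onesT {c : Cfg} {ξ η : ℝ} (C : Ctx c ξ η) : Tab c ξ η (onesT c) 1 := by
  have h := repAt_one C
  intro k hk
  rw [one_pow]
  interval_cases k <;> exact h

/-- The program for `six`. -/
def sixT (c : Cfg) (p0 p1 p2 : List TMod) (e : E3) : TMod :=
  addT c (addT c
    (mulT c (pick p0 e.1) (addT c (mulT c (pick p1 e.2.1) (pick p2 e.2.2)) (mulT c (pick p2 e.2.1) (pick p1 e.2.2))))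
    (mulT c (pick p0 e.2.1) (addT c (mulT c (pick p1 e.1) (pick p2 e.2.2)) (mulT c (pick p2 e.1) (pick p1 e.2.2)))))
    (mulT c (pick p0 e.2.2) (addT c (mulT c (pick p1 e.1) (pick p2 e.2.1)) (mulT c (pick p2 e.1) (pick p1 e.2.1))))

lemma repAt_six {c : Cfg} {ξ η : ℝ} (C : Ctx c ξ η) {p0 p1 p2 : List TMod} {y0 y1 y2 : ℝ}
    (h0 : Tab c ξ η p0 y0) (h1 : Tab c ξ η p1 y1) (h2 : Tab c ξ η p2 y2) {e : E3}
    (he : e.1 + e.2.1 + e.2.2 = 12) : RepAt c ξ η (sixT c p0 p1 p2 e) (six e y0 y1 y2) := by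
  have e0 : e.1 ≤ 12 := by omega
  have e1 : e.2.1 ≤ 12 := by omega
  have e2 : e.2.2 ≤ 12 := by omega
  exact repAt_add C (repAt_add C
    (repAt_mul C (h0 _ e0) (repAt_add C (repAt_mul C (h1 _ e1) (h2 _ e2)) (repAt_mul C (h2 _ e1) (h1 _ e2))))
    (repAt_mul C (h0 _ e1) (repAt_add C (repAt_mul C (h1 _ e0) (h2 _ e2)) (repAt_mul C (h2 _ e0) (h1 _ e2)))))
    (repAt_mul C (h0 _ e2) (repAt_add C (repAt_mul C (h1 _ e0) (h2 _ e1)) (repAt_mul C (h2 _ e0) (h1 _ e1))))

/-- An integer multiple; the zero multiple does not look at its argument. -/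
def termT (c : Cfg) : ℤ → TMod → TMod
  | .ofNat 0, _ => ofFix c 0
  | .ofNat (n + 1), t => smulT c (Nat.succ n) t
  | .negSucc n, t => negT (smulT c (Nat.succ n) t)

lemma repAt_term {c : Cfg} {ξ η : ℝ} (C : Ctx c ξ η) (z : ℤ) {t : TMod} {x : ℝ} (h : RepAt c ξ η t x) :
    RepAt c ξ η (termT c z t) ((z : ℝ) * x) := by
  cases z with
  | ofNat n =>
    cases n with
    | zero => exact (repAt_zero C).congr (by simp)
    | succ n =>
      refine (repAt_smul C (Nat.succ n) h).congr ?_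
      simp
  | negSucc n =>
    refine (repAt_neg (repAt_smul C (Nat.succ n) h)).congr ?_
    rw [Int.cast_negSucc]
    push_cast
    ring

/-- The sum of the multiples along a list. -/
def sumT (c : Cfg) (f : E3 → TMod) : List E3 → List ℤ → TMod
  | e :: X, a :: A => addT c (termT c a (f e)) (sumT c f X A)
  | _, _ => ofFix c 0

lemma repAt_sum {c : Cfg} {ξ η : ℝ} (C : Ctx c ξ η) {f : E3 → TMod} {g : E3 → ℝ} {X : List E3}
    (h : ∀ e ∈ X, RepAt c ξ η (f e) (g e)) (A : List ℤ) :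
    RepAt c ξ η (sumT c f X A) (sumR g X A) := by
  induction X generalizing A with
  | nil =>
    cases A <;> exact repAt_zero C
  | cons e X ih =>
    cases A with
    | nil => exact repAt_zero C
    | cons a A =>
      exact repAt_add C (repAt_term C a (h e (by simp))) (ih (fun e' he' => h e' (by simp [he'])) A)

/-- The program of `coreR`. -/
def coreT (c : Cfg) (X : List E3) (A C : List ℤ) (K C0 : ℤ) (x1 x2 M3 : TMod)
    (pv pw py0 py1 py2 : List TMod) : TMod :=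
  subT c (addT c (subT c (termT c K M3) (sumT c (sixT c (onesT c) pv pw) X A))
      (sumT c (sixT c py0 py1 py2) X C))
    (termT c C0 (subT c (smulT c 2 M3)
      (smulT c 6 (mulT c (addT c (addT c x1 (mulT c x1 x2)) x2) (invT c M3)))))

lemma repAt_core {c : Cfg} {ξ η : ℝ} (CC : Ctx c ξ η) {X : List E3} (hX : ∀ e ∈ X, e.1 + e.2.1 + e.2.2 = 12)
    (A C : List ℤ) (K C0 : ℤ) {x1 x2 M3 : TMod} {pv pw py0 py1 py2 : List TMod} {v w y0 y1 y2 : ℝ}
    (hv : Tab c ξ η pv v) (hw : Tab c ξ η pw w) (h0 : Tab c ξ η py0 y0) (h1 : Tab c ξ η py1 y1)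
    (h2 : Tab c ξ η py2 y2) (hx1 : RepAt c ξ η x1 (v ^ 12)) (hx2 : RepAt c ξ η x2 (w ^ 12))
    (hM : RepAt c ξ η M3 (1 + v ^ 12 + w ^ 12)) :
    RepAt c ξ η (coreT c X A C K C0 x1 x2 M3 pv pw py0 py1 py2) (coreR X A C K C0 v w y0 y1 y2) := by
  refine (repAt_sub CC (repAt_add CC (repAt_sub CC (repAt_term CC K hM)
      (repAt_sum CC (fun e he => repAt_six CC (tab_onesT CC) hv hw (hX e he)) A))
      (repAt_sum CC (fun e he => repAt_six CC h0 h1 h2 (hX e he)) C))
    (repAt_term CC C0 (repAt_sub CC (repAt_smul CC 2 hM)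
      (repAt_smul CC 6 (repAt_mul CC (repAt_add CC (repAt_add CC hx1 (repAt_mul CC hx1 hx2)) hx2)
        (repAt_inv CC hM)))))).congr ?_
  unfold coreR
  push_cast
  rfl

/-! ### The general value of `t`: all three roots directly -/

/-- The program with the twelfth roots of the three coordinates of the channel. -/
def progGen (c : Cfg) (τ τ1 : TMod) (X : List E3) (A C : List ℤ) (C0 E : ℤ) (v r : TMod) : TMod :=
  (fun pv => (fun w => (fun pw => (fun x1 x2 => (fun M3 => (fun m1 =>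
    coreT c X A C (coreK X A C E) C0 x1 x2 M3 pv pw
      (powsT c (rootT c (subT c m1 τ)))
      (powsT c (rootT c (subT c m1 (mulT c τ x1))))
      (powsT c (rootT c (subT c m1 (mulT c τ x2)))))
    (mulT c τ1 M3))
    (addT c (addT c (ofFix c c.TF) x1) x2))
    (pick pv 12) (pick pw 12))
    (powsT c w)) (mulT c v r)) (powsT c v)

/-- The coordinates of the channel in the chart. -/
noncomputable def uGen (t a v w : ℝ) : ℝ := (1 + t) / 3 * (1 + v ^ 12 + w ^ 12) - t * a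

lemma uGen_nonneg {t a v w : ℝ} (h0 : 0 ≤ t) (h1 : t ≤ 1 / 2) (ha : 0 ≤ a) (ha1 : a ≤ 1 + v ^ 12 + w ^ 12) :
    0 ≤ uGen t a v w := by
  unfold uGen
  have hM : 1 ≤ 1 + v ^ 12 + w ^ 12 := by
    have h2 : 0 ≤ v ^ 12 := by positivity
    have h3 : 0 ≤ w ^ 12 := by positivity
    linarith
  nlinarith

/-- The real function of the program. -/
noncomputable def valGen (t : ℝ) (X : List E3) (A C : List ℤ) (C0 E : ℤ) (v r : ℝ) : ℝ :=
  coreR X A C (coreK X A C E) C0 v (v * r)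
    (uGen t 1 v (v * r) ^ ((1 : ℝ) / 12))
    (uGen t (v ^ 12) v (v * r) ^ ((1 : ℝ) / 12))
    (uGen t ((v * r) ^ 12) v (v * r) ^ ((1 : ℝ) / 12))

lemma repAt_progGen {c : Cfg} {ξ η : ℝ} (CC : Ctx c ξ η) {X : List E3} (hX : ∀ e ∈ X, e.1 + e.2.1 + e.2.2 = 12)
    (A C : List ℤ) (C0 E : ℤ) {τ τ1 : TMod} {t : ℝ} (ht0 : 0 ≤ t) (ht1 : t ≤ 1 / 2)
    (hτ : RepAt c ξ η τ t) (hτ1 : RepAt c ξ η τ1 ((1 + t) / 3)) {a b : TMod} {v r : ℝ}
    (ha : RepAt c ξ η a v) (hb : RepAt c ξ η b r) :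
    RepAt c ξ η (progGen c τ τ1 X A C C0 E a b) (valGen t X A C C0 E v r) := by
  have tv := tab_powsT CC ha
  have rw' := repAt_mul CC ha hb
  have tw := tab_powsT CC rw'
  have hx1 := tv 12 le_rfl
  have hx2 := tw 12 le_rfl
  have hM := repAt_add CC (repAt_add CC (repAt_one CC) hx1) hx2
  have hm1 := repAt_mul CC hτ1 hM
  have p1 : 0 ≤ (v * r) ^ 12 := by positivity
  have p2 : 0 ≤ v ^ 12 := by positivity
  have e0 := uGen_nonneg (t := t) (a := 1) (v := v) (w := v * r) ht0 ht1 zero_le_one (by linarith)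
  have e1 := uGen_nonneg (t := t) (a := v ^ 12) (v := v) (w := v * r) ht0 ht1 p2 (by linarith)
  have e2 := uGen_nonneg (t := t) (a := (v * r) ^ 12) (v := v) (w := v * r) ht0 ht1 p1 (by linarith)
  have r0 : RepAt c ξ η (subT c (mulT c τ1 (addT c (addT c (ofFix c c.TF) (pick (powsT c a) 12)) (pick (powsT c (mulT c a b)) 12))) τ)
      (uGen t 1 v (v * r)) := (repAt_sub CC hm1 hτ).congr (by
    unfold uGen
    ring)
  have r1 := (repAt_sub CC hm1 (repAt_mul CC hτ hx1)).congr (y := uGen t (v ^ 12) v (v * r)) (by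
    unfold uGen
    ring)
  have r2 := (repAt_sub CC hm1 (repAt_mul CC hτ hx2)).congr (y := uGen t ((v * r) ^ 12) v (v * r)) (by
    unfold uGen
    ring)
  exact repAt_core CC hX A C _ C0 tv tw
    (tab_powsT CC (repAt_root CC r0 (Real.rpow_nonneg e0 _) (pow12_eq e0)))
    (tab_powsT CC (repAt_root CC r1 (Real.rpow_nonneg e1 _) (pow12_eq e1)))
    (tab_powsT CC (repAt_root CC r2 (Real.rpow_nonneg e2 _) (pow12_eq e2)))
    hx1 hx2 hM

lemma T_chart (t v w : ℝ) : T (-t) ![1, v ^ 12, w ^ 12]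
    = ![uGen t 1 v w, uGen t (v ^ 12) v w, uGen t (w ^ 12) v w] := by
  funext i
  fin_cases i <;> simp [T, mass, uGen] <;> ring

/-- The theorem for the general program. -/
theorem direct_gen {c : Cfg} (hc : c.Valid) (X : List E3) (hX : ∀ e ∈ X, e.1 + e.2.1 + e.2.2 = 12)
    (A C : List ℤ) (C0 E : ℤ) (D : ℕ) (hD : 0 < D) {τ τ1 : TMod} {t : ℝ} (ht0 : 0 ≤ t) (ht1 : t ≤ 1 / 2)
    (hτ : ∀ ξ η, Ctx c ξ η → RepAt c ξ η τ t) (hτ1 : ∀ ξ η, Ctx c ξ η → RepAt c ξ η τ1 ((1 + t) / 3))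
    (fuel : ℕ)
    (hw : walk2 (fun K i j => or ((fun _ _ _ => false) K i j) (cellChk c (progGen c τ τ1 X A C C0 E) K i j)) fuel 0 0 0 = true)
    (x : Fin 3 → ℝ) (hx : ∀ i, 0 < x i) :
    ∑ j, coef C D X.length j * psi (expo X j) (-t) x + ((C0 : ℝ) / D) * yyv x + ((E : ℝ) / D) * mass x
      ≤ phiF (coef A D X.length) (expo X) x := by
  refine plane_of_defect X A C C0 E D (t := t) ?_ x hx
  refine defect_nonneg X hX A C C0 E D hD ht0 ht1 ?_
  intro v r v0 v1 r0 r1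
  have hG : 0 ≤ valGen t X A C C0 E v r := by
    refine of_walk (Q := fun v r => 0 ≤ valGen t X A C C0 E v r) hc
      (F := progGen c τ τ1 X A C C0 E) (G := valGen t X A C C0 E)
      (fun ξ η CC a b v r ha hb => repAt_progGen CC hX A C C0 E ht0 ht1 (hτ ξ η CC) (hτ1 ξ η CC) ha hb)
      (out := fun _ _ _ => false) (fun K i j h => by simp at h) (fun v r h => h) fuel hw v r v0 v1 r0 r1
  have p1 : 0 ≤ (v * r) ^ 12 := by positivity
  have p2 : 0 ≤ v ^ 12 := by positivity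
  have e0 := uGen_nonneg (t := t) (a := 1) (v := v) (w := v * r) ht0 ht1 zero_le_one (by linarith)
  have e1 := uGen_nonneg (t := t) (a := v ^ 12) (v := v) (w := v * r) ht0 ht1 p2 (by linarith)
  have e2 := uGen_nonneg (t := t) (a := (v * r) ^ 12) (v := v) (w := v * r) ht0 ht1 p1 (by linarith)
  refine ⟨_, _, _, Real.rpow_nonneg e0 _, Real.rpow_nonneg e1 _, Real.rpow_nonneg e2 _, ?_, hG⟩
  rw [T_chart, pow12_eq e0, pow12_eq e1, pow12_eq e2]

/-! ### The value `t = 1/2`: the vanishing coordinate has a factor `v` -/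

/-- The program at `t = 1/2`. -/
def progHalf (c : Cfg) (X : List E3) (A C : List ℤ) (C0 E : ℤ) (v r : TMod) : TMod :=
  (fun pv => (fun w => (fun pw => (fun x1 x2 => (fun M3 => (fun one => (fun half =>
    coreT c X A C (coreK X A C E) C0 x1 x2 M3 pv pw
      (powsT c (mulT c v (rootT c (mulT c half (addT c one (pick (powsT c r) 12))))))
      (powsT c (rootT c (mulT c half (addT c one x2))))
      (powsT c (rootT c (mulT c half (addT c one x1)))))
    (ofRat c 1 2)) (ofFix c c.TF))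
    (addT c (addT c (ofFix c c.TF) x1) x2))
    (pick pv 12) (pick pw 12))
    (powsT c w)) (mulT c v r)) (powsT c v)

/-- The real function of the program at `t = 1/2`. -/
noncomputable def valHalf (X : List E3) (A C : List ℤ) (C0 E : ℤ) (v r : ℝ) : ℝ :=
  coreR X A C (coreK X A C E) C0 v (v * r)
    (v * ((1 + r ^ 12) / 2) ^ ((1 : ℝ) / 12))
    (((1 + (v * r) ^ 12) / 2) ^ ((1 : ℝ) / 12))
    (((1 + v ^ 12) / 2) ^ ((1 : ℝ) / 12))

lemma repAt_progHalf {c : Cfg} {ξ η : ℝ} (CC : Ctx c ξ η) {X : List E3} (hX : ∀ e ∈ X, e.1 + e.2.1 + e.2.2 = 12)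
    (A C : List ℤ) (C0 E : ℤ) {a b : TMod} {v r : ℝ}
    (ha : RepAt c ξ η a v) (hb : RepAt c ξ η b r) :
    RepAt c ξ η (progHalf c X A C C0 E a b) (valHalf X A C C0 E v r) := by
  have tv := tab_powsT CC ha
  have tr := tab_powsT CC hb
  have rw' := repAt_mul CC ha hb
  have tw := tab_powsT CC rw'
  have hx1 := tv 12 le_rfl
  have hx2 := tw 12 le_rfl
  have hr12 := tr 12 le_rfl
  have hone := repAt_one CC
  have hM := repAt_add CC (repAt_add CC hone hx1) hx2
  have hh : RepAt c ξ η (ofRat c 1 2) (1 / 2) := (repAt_ofRat CC 1 2).congr (by norm_num)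
  have e0 : 0 ≤ (1 + r ^ 12) / 2 := by positivity
  have e1 : 0 ≤ (1 + (v * r) ^ 12) / 2 := by positivity
  have e2 : 0 ≤ (1 + v ^ 12) / 2 := by positivity
  have r0 := (repAt_mul CC hh (repAt_add CC hone hr12)).congr (y := (1 + r ^ 12) / 2) (by ring)
  have r1 := (repAt_mul CC hh (repAt_add CC hone hx2)).congr (y := (1 + (v * r) ^ 12) / 2) (by ring)
  have r2 := (repAt_mul CC hh (repAt_add CC hone hx1)).congr (y := (1 + v ^ 12) / 2) (by ring)
  exact repAt_core CC hX A C _ C0 tv tw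
    (tab_powsT CC (repAt_mul CC ha (repAt_root CC r0 (Real.rpow_nonneg e0 _) (pow12_eq e0))))
    (tab_powsT CC (repAt_root CC r1 (Real.rpow_nonneg e1 _) (pow12_eq e1)))
    (tab_powsT CC (repAt_root CC r2 (Real.rpow_nonneg e2 _) (pow12_eq e2)))
    hx1 hx2 hM

/-- The theorem at `t = 1/2`. -/
theorem direct_half {c : Cfg} (hc : c.Valid) (X : List E3) (hX : ∀ e ∈ X, e.1 + e.2.1 + e.2.2 = 12)
    (A C : List ℤ) (C0 E : ℤ) (D : ℕ) (hD : 0 < D) (fuel : ℕ)
    (hw : walk2 (fun K i j => or ((fun _ _ _ => false) K i j) (cellChk c (progHalf c X A C C0 E) K i j)) fuel 0 0 0 = true)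
    (x : Fin 3 → ℝ) (hx : ∀ i, 0 < x i) :
    ∑ j, coef C D X.length j * psi (expo X j) (-(1 / 2)) x + ((C0 : ℝ) / D) * yyv x + ((E : ℝ) / D) * mass x
      ≤ phiF (coef A D X.length) (expo X) x := by
  refine plane_of_defect X A C C0 E D (t := 1 / 2) ?_ x hx
  refine defect_nonneg X hX A C C0 E D hD (by norm_num) le_rfl ?_
  intro v r v0 v1 r0 r1
  have hG : 0 ≤ valHalf X A C C0 E v r := by
    refine of_walk (Q := fun v r => 0 ≤ valHalf X A C C0 E v r) hc
      (F := progHalf c X A C C0 E) (G := valHalf X A C C0 E)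
      (fun ξ η CC a b v r ha hb => repAt_progHalf CC hX A C C0 E ha hb)
      (out := fun _ _ _ => false) (fun K i j h => by simp at h) (fun v r h => h) fuel hw v r v0 v1 r0 r1
  have e0 : 0 ≤ (1 + r ^ 12) / 2 := by positivity
  have e1 : 0 ≤ (1 + (v * r) ^ 12) / 2 := by positivity
  have e2 : 0 ≤ (1 + v ^ 12) / 2 := by positivity
  refine ⟨_, _, _, mul_nonneg v0 (Real.rpow_nonneg e0 _), Real.rpow_nonneg e1 _, Real.rpow_nonneg e2 _, ?_, hG⟩
  have e3 : (v * ((1 + r ^ 12) / 2) ^ ((1 : ℝ) / 12)) ^ 12 = v ^ 12 * ((1 + r ^ 12) / 2) := by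
    rw [mul_pow, pow12_eq e0]
  rw [e3, pow12_eq e1, pow12_eq e2]
  funext i
  fin_cases i <;> simp [T, mass, mul_pow] <;> ring

/-! ### A format for the planes -/

/-- Order 6, fixed point `2^-48`, values up to `2^32`. -/
def cfgD : Cfg := mkCfg 176 48 80 7

set_option maxRecDepth 100000 in
theorem cfgD_valid : cfgD.Valid := by
  refine ⟨?_, ?_, ?_, ?_, ?_, ?_, ?_, ?_, ?_, ?_, ?_, ?_, ?_, ?_, ?_, ?_, ?_, ?_, ?_⟩ <;> decide +kernel

/-- The enclosure of a constant: `|t - n / 2^f| ≤ r / 2^f`. -/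
theorem repAt_const {c : Cfg} {ξ η : ℝ} (C : Ctx c ξ η) {t : ℝ} {n r : ℕ}
    (h : |t - (n : ℝ) * unit c| ≤ (r : ℝ) * unit c) :
    RepAt c ξ η (ofFixR c n r true) t := by
  refine ⟨good_ofFixR C.hc _ _ _, fun hok => ?_⟩
  obtain ⟨h1, h2⟩ := ofFixR_V C hok
  rw [h2]
  exact h

end Vale.Agent.P154.Hel.Direct
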