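import Vale.Agent.P154.Hel.Direct

/-!
Example of the use of the direct tool: one plane at `t = 1/2`, with margin about `1e-5`
relative to coefficients of size `20`; the walk takes about 150 cells.
-/

namespace Vale.Agent.P154.Hel.Direct

open TM

/-- The exponents `i/12` of the example. -/
def X0 : List E3 := [(11, 1, 0), (6, 6, 0), (4, 4, 4)]
/-- The numerators of the weights `a_j`. -/
def A0 : List ℤ := [1242104, 223740, -1310720]
/-- The numerators of the coefficients `c_j`. -/
def C0 : List ℤ := [1854451, 306971, -1439826]
/-- The numerator of the constant `e`. -/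
def E0 : ℤ := -737497

theorem example_half (x : Fin 3 → ℝ) (hx : ∀ i, 0 < x i) :
    ∑ j, coef C0 65536 X0.length j * psi (expo X0 j) (-(1 / 2)) x + ((0 : ℤ) : ℝ) / (65536 : ℕ) * yyv x
        + ((E0 : ℝ) / (65536 : ℕ)) * mass x
      ≤ phiF (coef A0 65536 X0.length) (expo X0) x :=
  direct_half cfgD_valid X0 (by decide) A0 C0 0 E0 65536 (by norm_num) 16 (by decide +kernel) x hx

end Vale.Agent.P154.Hel.Direct
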