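import Vale.Agent.P154.Hel.FastWalk

/-!
The two rows of the planes at `t = 1/2` with the fast walker: the table of row F and the table of row D.
-/

namespace Vale.Agent.P154.Hel.Direct

open TM Q3

/-- The real tables of a cell. -/
noncomputable def tabsR (X : List E3) (v r : ℝ) : List ℝ × List ℝ :=
  (M3H v r :: ((X.map fun e => six e 1 v (v * r)) ++ ((X.map fun e => six e (y0H v r) (y1H v r) (y2H v))
      ++ [2 * M3H v r - 6 * (Q3H v r * (M3H v r)⁻¹)])),
    (X.map fun e => ddR e (M3H v r) (((1 + (v * r) ^ 12) / 2)⁻¹) (((1 + v ^ 12) / 2)⁻¹) (y0H v r) (y1H v r) (y2H v))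
        ++ [y0H v r ^ 11 * (18 * M3H v r - 54 * (Q3H v r * (M3H v r)⁻¹)), 72 * (y0H v r ^ 11 * M3H v r)])

/-- The tables of a cell. -/
def tabsT (c : Cfg) (X : List E3) (v r : TMod) : List TMod × List TMod :=
  (fun pv => (fun w => (fun pw => (fun x1 x2 => (fun M => (fun one half => (fun w1 w2 =>
    (fun p0 p1 p2 => (fun y11 Qi => (fun My =>
      (M :: ((X.map fun e => sixT c (onesT c) pv pw e) ++ ((X.map fun e => sixT c p0 p1 p2 e)
        ++ [subT c (smulT c 2 M) (smulT c 6 Qi)])),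
          (X.map fun e => ddT c M (invT c w1) (invT c w2) y11 My p0 p1 p2 e)
            ++ [mulT c y11 (subT c (smulT c 18 M) (smulT c 54 Qi)), smulT c 72 My]))
      (mulT c y11 M))
      (pick p0 11) (mulT c (addT c (addT c x1 (mulT c x1 x2)) x2) (invT c M)))
      (powsT c (mulT c v (rootT c (mulT c half (addT c one (pick (powsT c r) 12))))))
      (powsT c (rootT c w1))
      (powsT c (rootT c w2)))
    (mulT c half (addT c one x2)) (mulT c half (addT c one x1)))
    (ofFix c c.TF) (ofRat c 1 2))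
    (addT c (addT c (ofFix c c.TF) x1) x2))
    (pick pv 12) (pick pw 12))
    (powsT c w)) (mulT c v r)) (powsT c v)

/-- The tables enclose the real tables. -/
theorem tabs_rep {c : Cfg} {ξ η : ℝ} (CC : Ctx c ξ η) {X : List E3} (hX : ∀ e ∈ X, e.1 + e.2.1 + e.2.2 = 12)
    {a b : TMod} {v r : ℝ} (ha : RepAt c ξ η a v) (hb : RepAt c ξ η b r) :
    List.Forall₂ (RepAt c ξ η) (tabsT c X a b).1 (tabsR X v r).1 ∧
      List.Forall₂ (RepAt c ξ η) (tabsT c X a b).2 (tabsR X v r).2 := by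
  have tv := tab_powsT CC ha
  have tr := tab_powsT CC hb
  have rw' := repAt_mul CC ha hb
  have tw := tab_powsT CC rw'
  have hx1 := tv 12 le_rfl
  have hx2 := tw 12 le_rfl
  have hr12 := tr 12 le_rfl
  have hone := repAt_one CC
  have hM : RepAt c ξ η _ (M3H v r) := repAt_add CC (repAt_add CC hone hx1) hx2
  have hh : RepAt c ξ η (ofRat c 1 2) (1 / 2) := (repAt_ofRat CC 1 2).congr (by norm_num)
  have e0 : 0 ≤ (1 + r ^ 12) / 2 := by positivity
  have e1 : 0 ≤ (1 + (v * r) ^ 12) / 2 := by positivity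
  have e2 : 0 ≤ (1 + v ^ 12) / 2 := by positivity
  have r0 := (repAt_mul CC hh (repAt_add CC hone hr12)).congr (y := (1 + r ^ 12) / 2) (by ring)
  have r1 := (repAt_mul CC hh (repAt_add CC hone hx2)).congr (y := (1 + (v * r) ^ 12) / 2) (by ring)
  have r2 := (repAt_mul CC hh (repAt_add CC hone hx1)).congr (y := (1 + v ^ 12) / 2) (by ring)
  have t0 : Tab c ξ η _ (y0H v r) := tab_powsT CC (repAt_mul CC ha (repAt_root CC r0 (Real.rpow_nonneg e0 _) (pow12_eq e0)))
  have t1 : Tab c ξ η _ (y1H v r) := tab_powsT CC (repAt_root CC r1 (Real.rpow_nonneg e1 _) (pow12_eq e1))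
  have t2 : Tab c ξ η _ (y2H v) := tab_powsT CC (repAt_root CC r2 (Real.rpow_nonneg e2 _) (pow12_eq e2))
  have hQi : RepAt c ξ η _ (Q3H v r * (M3H v r)⁻¹) :=
    repAt_mul CC (repAt_add CC (repAt_add CC hx1 (repAt_mul CC hx1 hx2)) hx2) (repAt_inv CC hM)
  have hy11 := t0 11 (by norm_num)
  have hMy := repAt_mul CC hy11 hM
  have hMy' := hMy.congr (y := M3H v r * y0H v r ^ 11) (by ring)
  constructor
  · refine List.Forall₂.cons hM ?_
    refine forall2_append (forall2_map fun e he => repAt_six CC (tab_onesT CC) tv tw (hX e he)) ?_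
    refine forall2_append (forall2_map fun e he => repAt_six CC t0 t1 t2 (hX e he)) ?_
    exact List.Forall₂.cons ((repAt_sub CC (repAt_smul CC 2 hM) (repAt_smul CC 6 hQi)).congr (by norm_num)) List.Forall₂.nil
  · refine forall2_append (forall2_map fun e he => repAt_dd CC t0 t1 t2 hM (repAt_inv CC r1) (repAt_inv CC r2) hMy' (hX e he)) ?_
    refine List.Forall₂.cons ((repAt_mul CC hy11 (repAt_sub CC (repAt_smul CC 18 hM) (repAt_smul CC 54 hQi))).congr (by norm_num)) ?_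
    exact List.Forall₂.cons ((repAt_smul CC 72 hMy).congr (by norm_num)) List.Forall₂.nil

/-- Row F on its table. -/
theorem linV_tabF (X : List E3) (A C : List ℤ) (C0 E : ℤ) (hA : A.length = X.length)
    (hC : C.length = X.length) (v r : ℝ) :
    linV (tabsR X v r).1 (formF X A C C0 E) = valHalf X A C C0 E v r := by
  unfold tabsR formF valHalf coreR
  simp only [linV]
  rw [linV_append _ _ _ _ (by simp [hA]), linV_append _ _ _ _ (by simp [hC])]
  rw [linV_map, linV_map, sumR_neg]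
  simp only [linV, linV_nil]
  unfold M3H Q3H y0H y1H y2H
  push_cast
  ring

/-- The form of row D on its table. -/
def formDT (C : List ℤ) (Eps Eta : ℤ) : List ℤ := C ++ [Eps, Eta]

/-- Row D on its table, multiplied by a positive factor. -/
theorem linV_tabD (X : List E3) (C : List ℤ) (Eps Eta : ℤ) (hC : C.length = X.length)
    {v r : ℝ} (hv : 0 < v) (hr : 0 < r) :
    linV (tabsR X v r).2 (formDT C Eps Eta)
      = 216 * y0H v r ^ 11 * rowD X C Eps Eta ![1, v ^ 12, (v * r) ^ 12] := by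
  have e0 : 0 < (1 + r ^ 12) / 2 := by positivity
  have e1 : 0 < (1 + (v * r) ^ 12) / 2 := by positivity
  have e2 : 0 < (1 + v ^ 12) / 2 := by positivity
  have p0 : 0 < y0H v r := mul_pos hv (Real.rpow_pos_of_pos e0 _)
  have p1 : 0 < y1H v r := Real.rpow_pos_of_pos e1 _
  have p2 : 0 < y2H v := Real.rpow_pos_of_pos e2 _
  have q0 : y0H v r ^ 12 = v ^ 12 * ((1 + r ^ 12) / 2) := by
    unfold y0H
    rw [mul_pow, pow12_eq e0.le]
  have q1 : y1H v r ^ 12 = (1 + (v * r) ^ 12) / 2 := pow12_eq e1.le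
  have q2 : y2H v ^ 12 = (1 + v ^ 12) / 2 := pow12_eq e2.le
  have hT : T (-(1 / 2)) ![1, v ^ 12, (v * r) ^ 12] = ![y0H v r ^ 12, y1H v r ^ 12, y2H v ^ 12] := by
    rw [q0, q1, q2]
    funext i
    fin_cases i <;> simp [T, mass, mul_pow] <;> ring
  have hmass : mass ![y0H v r ^ 12, y1H v r ^ 12, y2H v ^ 12] = M3H v r / 3 := by
    rw [q0, q1, q2]
    simp [mass, M3H, mul_pow]
    ring
  have hmass0 : mass (![1, v ^ 12, (v * r) ^ 12] : Fin 3 → ℝ) = M3H v r / 3 := by
    simp [mass, M3H]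
  have hpos : ∀ i, 0 < (![1, v ^ 12, (v * r) ^ 12] : Fin 3 → ℝ) i := by
    intro i
    fin_cases i <;> simp <;> positivity
  have hyy0 : yyv (![1, v ^ 12, (v * r) ^ 12] : Fin 3 → ℝ)
      = M3H v r / 3 - Q3H v r * (M3H v r)⁻¹ := by
    simp only [yyv, yy, Matrix.cons_val_zero, Matrix.cons_val_one, Matrix.cons_val]
    simp only [M3H, Q3H, div_eq_mul_inv, one_mul, mul_one]
  have hyy : yyv (T (-(1 / 2)) ![1, v ^ 12, (v * r) ^ 12])
      = (1 / 4) * (M3H v r / 3 - Q3H v r * (M3H v r)⁻¹) := by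
    have h3 : T (-(1 / 2)) (![1, v ^ 12, (v * r) ^ 12] : Fin 3 → ℝ)
        = rayW ![1, v ^ 12, (v * r) ^ 12] (1 / 2) := T_neg_eq_rayW _ _
    rw [h3, yyv_rayW hpos, hyy0]
    ring
  unfold rowD
  rw [hT] at hyy ⊢
  rw [hmass0, hyy]
  rw [sum_fin (fun e => Dj (sE e) ![y0H v r ^ 12, y1H v r ^ 12, y2H v ^ 12]) X C]
  have hdd : (216 * y0H v r ^ 11) * sumR (fun e => Dj (sE e) ![y0H v r ^ 12, y1H v r ^ 12, y2H v ^ 12]) X C
      = sumR (fun e => ddR e (M3H v r) (((1 + (v * r) ^ 12) / 2)⁻¹) (((1 + v ^ 12) / 2)⁻¹)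
          (y0H v r) (y1H v r) (y2H v)) X C := by
    rw [sumR_mul]
    refine sumR_congr (fun e _ => ?_) C
    rw [Dj_grid e p0 p1 p2 hmass, q1, q2]
  unfold tabsR formDT
  simp only
  rw [linV_append _ _ _ _ (by simp [hC]), linV_map]
  simp only [linV, linV_nil]
  rw [← hdd]
  ring

/-- The list of forms of row F. -/
def formsF (X : List E3) (L : List Plane) : List (List ℤ) :=
  L.map fun p => formF X p.A p.C p.C0 p.E

/-- The list of forms of row D. -/
def formsD (L : List Plane) : List (List ℤ) :=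
  L.map fun p => formDT p.C p.Eps p.Eta

/-- A successful walk on a cell. -/
theorem goodC_of_walk {c : Cfg} (hc : c.Valid) {X : List E3} (hX : ∀ e ∈ X, e.1 + e.2.1 + e.2.2 = 12)
    {L : ℕ} (hL : L ≤ 2 ^ c.b) {zF zD : List (List ℤ)}
    (hSF : ∀ z ∈ zF, linS z ≤ L) (hSD : ∀ z ∈ zD, linS z ≤ L) {f K i j : ℕ}
    (h : fWalk c (tabsT c X) L f K i j zF zD = true) : GoodC (tabsR X) zF zD K i j :=
  fWalk_sound hc (fun _ _ CC _ _ _ _ ha hb => tabs_rep CC hX ha hb) hL f K i j zF zD hSF hSD h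

/-- Row F of a plane from the root cell. -/
theorem rowF_of_goodC {X : List E3} (hX : ∀ e ∈ X, e.1 + e.2.1 + e.2.2 = 12)
    {zF zD : List (List ℤ)} (h : GoodC (tabsR X) zF zD 0 0 0) {A C : List ℤ} {C0 E : ℤ}
    (hz : formF X A C C0 E ∈ zF) (hA : A.length = X.length) (hC : C.length = X.length) (D : ℕ) (hD : 0 < D)
    (x : Fin 3 → ℝ) (hx : ∀ i, 0 < x i) :
    ∑ j, coef C D X.length j * psi (expo X j) (-(1 / 2)) x + ((C0 : ℝ) / D) * yyv x + ((E : ℝ) / D) * mass x
      ≤ phiF (coef A D X.length) (expo X) x := by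
  refine plane_of_defect X A C C0 E D (t := 1 / 2) ?_ x hx
  refine defect_nonneg X hX A C C0 E D hD (by norm_num) le_rfl ?_
  intro v r v0 v1 r0 r1
  have hG : 0 ≤ valHalf X A C C0 E v r := by
    rw [← linV_tabF X A C C0 E hA hC]
    exact h.1 _ hz v r ⟨by simpa, by simpa, by simpa, by simpa⟩
  have e0 : 0 ≤ (1 + r ^ 12) / 2 := by positivity
  have e1 : 0 ≤ (1 + (v * r) ^ 12) / 2 := by positivity
  have e2 : 0 ≤ (1 + v ^ 12) / 2 := by positivity
  refine ⟨_, _, _, mul_nonneg v0 (Real.rpow_nonneg e0 _), Real.rpow_nonneg e1 _, Real.rpow_nonneg e2 _, ?_, hG⟩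
  have e3 : (v * ((1 + r ^ 12) / 2) ^ ((1 : ℝ) / 12)) ^ 12 = v ^ 12 * ((1 + r ^ 12) / 2) := by
    rw [mul_pow, pow12_eq e0]
  rw [e3, pow12_eq e1, pow12_eq e2]
  funext i
  fin_cases i <;> simp [T, mass, mul_pow] <;> ring

/-- Row D of a plane from the root cell. -/
theorem rowD_of_goodC {X : List E3} (hX : ∀ e ∈ X, e.1 + e.2.1 + e.2.2 = 12)
    {zF zD : List (List ℤ)} (h : GoodC (tabsR X) zF zD 0 0 0) {C : List ℤ} {Eps Eta : ℤ}
    (hz : formDT C Eps Eta ∈ zD) (hC : C.length = X.length)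
    (x : Fin 3 → ℝ) (hx : ∀ i, 0 < x i) : 0 ≤ rowD X C Eps Eta x := by
  refine rowD_nonneg X hX C Eps Eta ?_ x hx
  intro v r v0 v1 r0 r1
  have h1 := h.2 _ hz v r ⟨by simpa using v0.le, by simpa using v1, by simpa using r0.le, by simpa using r1⟩
  rw [linV_tabD X C Eps Eta hC v0 r0] at h1
  have e0 : 0 < (1 + r ^ 12) / 2 := by positivity
  have p0 : 0 < y0H v r := mul_pos v0 (Real.rpow_pos_of_pos e0 _)
  have : 0 < 216 * y0H v r ^ 11 := by positivity
  exact nonneg_of_mul_nonneg_right h1 this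

/-- The two rows of every plane of a list, from the root cell: the statement of `planes_rows`. -/
theorem fast_rows {X : List E3} (hX : ∀ e ∈ X, e.1 + e.2.1 + e.2.2 = 12)
    {L : List Plane} {zF zD : List (List ℤ)} (hzF : formsF X L = zF) (hzD : formsD L = zD)
    (h : GoodC (tabsR X) zF zD 0 0 0)
    {p : Plane} (hp : p ∈ L) (hA : p.A.length = X.length) (hC : p.C.length = X.length) (D : ℕ) (hD : 0 < D) :
    (∀ x : Fin 3 → ℝ, (∀ i, 0 < x i) →
      ∑ j, coef p.C D X.length j * psi (expo X j) (-(1 / 2)) x + ((p.C0 : ℝ) / D) * yyv x + ((p.E : ℝ) / D) * mass x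
        ≤ phiF (coef p.A D X.length) (expo X) x) ∧
    (∀ x : Fin 3 → ℝ, (∀ i, 0 < x i) → 0 ≤ rowD X p.C p.Eps p.Eta x) := by
  subst hzF hzD
  refine ⟨rowF_of_goodC hX h ?_ hA hC D hD, rowD_of_goodC hX h ?_ hC⟩
  · exact List.mem_map_of_mem (f := fun p : Plane => formF X p.A p.C p.C0 p.E) hp
  · exact List.mem_map_of_mem (f := fun p : Plane => formDT p.C p.Eps p.Eta) hp

/-- Row F of every plane of a list, from the root cell, when only row F was walked. -/
theorem fast_rowF {X : List E3} (hX : ∀ e ∈ X, e.1 + e.2.1 + e.2.2 = 12)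
    {L : List Plane} {zF : List (List ℤ)} (hzF : formsF X L = zF)
    (h : GoodC (tabsR X) zF [] 0 0 0)
    {p : Plane} (hp : p ∈ L) (hA : p.A.length = X.length) (hC : p.C.length = X.length) (D : ℕ) (hD : 0 < D)
    (x : Fin 3 → ℝ) (hx : ∀ i, 0 < x i) :
    ∑ j, coef p.C D X.length j * psi (expo X j) (-(1 / 2)) x + ((p.C0 : ℝ) / D) * yyv x + ((p.E : ℝ) / D) * mass x
      ≤ phiF (coef p.A D X.length) (expo X) x := by
  subst hzF
  exact rowF_of_goodC hX h (List.mem_map_of_mem (f := fun p : Plane => formF X p.A p.C p.C0 p.E) hp) hA hC D hD x hx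

end Vale.Agent.P154.Hel.Direct
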