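import Vale.Agent.P154.Hel.PlaneWalk

/-!
A faster walker for many linear forms on a shared table: the hot functions are written with recursors, the
flags and the remainders of the table are read once per cell, and the table has two parts, evaluated only when
a form on that part is still alive.
-/

namespace Vale.Agent.P154.Hel.Direct

open TM Q3

/-! ### The fast functions -/

/-- The positive part of a linear combination. -/
noncomputable def fP (ts : List TMod) : List ℤ → ℕ :=
  @List.rec TMod (fun _ => List ℤ → ℕ) (fun _ => 0)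
    (fun t _ ih zs => @List.rec ℤ (fun _ => ℕ) 0
      (fun z zs' _ => @Int.rec (fun _ => ℕ)
        (fun n => @Nat.rec (fun _ => ℕ) (ih zs') (fun m _ => Nat.add (Nat.mul (Nat.succ m) t.P) (ih zs')) n)
        (fun n => Nat.add (Nat.mul (Nat.succ n) t.N) (ih zs')) z) zs) ts

/-- The negative part of a linear combination. -/
noncomputable def fN (ts : List TMod) : List ℤ → ℕ :=
  @List.rec TMod (fun _ => List ℤ → ℕ) (fun _ => 0)
    (fun t _ ih zs => @List.rec ℤ (fun _ => ℕ) 0
      (fun z zs' _ => @Int.rec (fun _ => ℕ)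
        (fun n => @Nat.rec (fun _ => ℕ) (ih zs') (fun m _ => Nat.add (Nat.mul (Nat.succ m) t.N) (ih zs')) n)
        (fun n => Nat.add (Nat.mul (Nat.succ n) t.P) (ih zs')) z) zs) ts

/-- All flags of a table. -/
noncomputable def tabOk (ts : List TMod) : Bool :=
  @List.rec TMod (fun _ => Bool) true (fun t _ ih => @Bool.rec (fun _ => Bool) false ih t.ok) ts

/-- A bound for the remainders of a table. -/
noncomputable def tabRem (ts : List TMod) : ℕ :=
  @List.rec TMod (fun _ => ℕ) 0 (fun t _ ih => Nat.lor t.rem ih) ts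

lemma fP_eq (ts : List TMod) (zs : List ℤ) : fP ts zs = linP ts zs := by
  induction ts generalizing zs with
  | nil =>
    cases zs <;> rfl
  | cons t ts ih =>
    cases zs with
    | nil => rfl
    | cons z zs =>
      have h := ih zs
      cases z with
      | ofNat n =>
        cases n with
        | zero => exact h
        | succ n =>
          show Nat.add (Nat.mul (Nat.succ n) t.P) (fP ts zs) = Nat.add (Nat.mul (Nat.succ n) t.P) (linP ts zs)
          rw [h]
      | negSucc n =>
        show Nat.add (Nat.mul (Nat.succ n) t.N) (fP ts zs) = Nat.add (Nat.mul (Nat.succ n) t.N) (linP ts zs)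
        rw [h]

lemma fN_eq (ts : List TMod) (zs : List ℤ) : fN ts zs = linN ts zs := by
  induction ts generalizing zs with
  | nil =>
    cases zs <;> rfl
  | cons t ts ih =>
    cases zs with
    | nil => rfl
    | cons z zs =>
      have h := ih zs
      cases z with
      | ofNat n =>
        cases n with
        | zero => exact h
        | succ n =>
          show Nat.add (Nat.mul (Nat.succ n) t.N) (fN ts zs) = Nat.add (Nat.mul (Nat.succ n) t.N) (linN ts zs)
          rw [h]
      | negSucc n =>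
        show Nat.add (Nat.mul (Nat.succ n) t.P) (fN ts zs) = Nat.add (Nat.mul (Nat.succ n) t.P) (linN ts zs)
        rw [h]

lemma linOk_of_tabOk {ts : List TMod} (h : tabOk ts = true) (zs : List ℤ) : linOk ts zs = true := by
  induction ts generalizing zs with
  | nil => cases zs <;> rfl
  | cons t ts ih =>
    have h1 : @Bool.rec (fun _ => Bool) false (tabOk ts) t.ok = true := h
    cases ht : t.ok with
    | false =>
      rw [ht] at h1
      exact absurd h1 (by simp)
    | true =>
      rw [ht] at h1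
      have h2 : tabOk ts = true := h1
      cases zs with
      | nil => rfl
      | cons z zs =>
        cases z with
        | ofNat n =>
          cases n with
          | zero => exact ih h2 zs
          | succ n =>
            show and t.ok (linOk ts zs) = true
            rw [ht, ih h2 zs]
            rfl
        | negSucc n =>
          show and t.ok (linOk ts zs) = true
          rw [ht, ih h2 zs]
          rfl

lemma rem_le_lor (a b : ℕ) : a ≤ Nat.lor a b ∧ b ≤ Nat.lor a b := by
  constructor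
  · exact Nat.left_le_or
  · exact Nat.right_le_or

lemma linR_le (ts : List TMod) (zs : List ℤ) : linR ts zs ≤ linS zs * tabRem ts := by
  induction ts generalizing zs with
  | nil =>
    have : linR [] zs = 0 := by cases zs <;> rfl
    rw [this]
    exact Nat.zero_le _
  | cons t ts ih =>
    have e : tabRem (t :: ts) = Nat.lor t.rem (tabRem ts) := rfl
    obtain ⟨h1, h2⟩ := rem_le_lor t.rem (tabRem ts)
    cases zs with
    | nil => exact Nat.zero_le _
    | cons z zs =>
      have h3 := ih zs
      cases z with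
      | ofNat n =>
        cases n with
        | zero =>
          have e1 : linR (t :: ts) (Int.ofNat 0 :: zs) = linR ts zs := rfl
          have e2 : linS (Int.ofNat 0 :: zs) = 0 + linS zs := rfl
          rw [e1, e2, e, Nat.zero_add]
          exact h3.trans (Nat.mul_le_mul_left _ h2)
        | succ n =>
          have e1 : linR (t :: ts) (Int.ofNat (n + 1) :: zs) = (n + 1) * t.rem + linR ts zs := rfl
          have e2 : linS (Int.ofNat (n + 1) :: zs) = (n + 1) + linS zs := rfl
          rw [e1, e2, e, Nat.add_mul (n + 1) (linS zs)]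
          exact Nat.add_le_add (Nat.mul_le_mul_left _ h1) (h3.trans (Nat.mul_le_mul_left _ h2))
      | negSucc n =>
        have e1 : linR (t :: ts) (Int.negSucc n :: zs) = (n + 1) * t.rem + linR ts zs := rfl
        have e2 : linS (Int.negSucc n :: zs) = (n + 1) + linS zs := rfl
        rw [e1, e2, e, Nat.add_mul (n + 1) (linS zs)]
        exact Nat.add_le_add (Nat.mul_le_mul_left _ h1) (h3.trans (Nat.mul_le_mul_left _ h2))

/-- The linear combination with the remainder of the table. -/
noncomputable def fT (c : Cfg) (ts : List TMod) (R : ℕ) (z : List ℤ) : TMod :=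
  addCore c (fP ts z) (fN ts z) R true

lemma repAt_fT {c : Cfg} {ξ η : ℝ} (C : Ctx c ξ η) {ts : List TMod} {xs : List ℝ}
    (h : List.Forall₂ (RepAt c ξ η) ts xs) (hok : tabOk ts = true) {L : ℕ} (hL : L ≤ 2 ^ c.b) {z : List ℤ}
    (hz : linS z ≤ L) : RepAt c ξ η (fT c ts (L * tabRem ts) z) (linV xs z) := by
  have hc := C.hc
  have h0 := repAt_lin C h z
  refine ⟨good_mk hc _ _ _ _, fun hf => ?_⟩
  unfold fT at hf ⊢
  rw [fP_eq, fN_eq] at hf ⊢
  have hf' : and true (Nat.beq (Nat.add (linP ts z) (Nat.land (negPart c (splitD c (linP ts z) (linN ts z))) c.MB))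
      (Nat.add (linN ts z) (Nat.land (posPart c (splitD c (linP ts z) (linN ts z))) c.MB))) = true := hf
  have hb : Nat.ble (linS z) c.TB = true := by
    rw [hc.hTB]
    exact Nat.ble_eq_true_of_le (hz.trans hL)
  have hok2 : (linT c ts z).ok = true := by
    show and (and (linOk ts z) (Nat.ble (linS z) c.TB))
      (Nat.beq (Nat.add (linP ts z) (Nat.land (negPart c (splitD c (linP ts z) (linN ts z))) c.MB))
      (Nat.add (linN ts z) (Nat.land (posPart c (splitD c (linP ts z) (linN ts z))) c.MB))) = true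
    rw [linOk_of_tabOk hok z, hb]
    exact hf'
  have h1 := h0.2 hok2
  have hunit := unit_pos c
  have h2 : ((linT c ts z).rem : ℝ) ≤ ((L * tabRem ts : ℕ) : ℝ) := by
    have : (linT c ts z).rem = linR ts z := rfl
    rw [this]
    exact_mod_cast (linR_le ts z).trans (Nat.mul_le_mul_right _ hz)
  have e : (addCore c (linP ts z) (linN ts z) (L * tabRem ts) true).V c ξ η = (linT c ts z).V c ξ η := rfl
  rw [e]
  refine h1.trans ?_
  exact mul_le_mul_of_nonneg_right h2 hunit.le

/-- The forms that remain on a cell, for a table whose flags are set. -/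
noncomputable def fRemain (c : Cfg) (ts : List TMod) (R : ℕ) (zs : List (List ℤ)) : List (List ℤ) :=
  @List.rec (List ℤ) (fun _ => List (List ℤ)) []
    (fun z _ ih => @Bool.rec (fun _ => List (List ℤ)) (List.cons z ih) ih (leafOK c (fT c ts R z))) zs

/-- The forms that remain on a cell. The table is not looked at when there are no forms. -/
noncomputable def fStep (c : Cfg) (ts : List TMod) (L : ℕ) (zs : List (List ℤ)) : List (List ℤ) :=
  @List.rec (List ℤ) (fun _ => List (List ℤ)) []
    (fun _ _ _ => @Bool.rec (fun _ => List (List ℤ)) zs (fRemain c ts (Nat.mul L (tabRem ts)) zs) (tabOk ts)) zs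

lemma fRemain_sound {c : Cfg} {ξ η : ℝ} (C : Ctx c ξ η) {ts : List TMod} {xs : List ℝ}
    (h : List.Forall₂ (RepAt c ξ η) ts xs) (hok : tabOk ts = true) {L : ℕ} (hL : L ≤ 2 ^ c.b)
    {zs : List (List ℤ)} (hS : ∀ z ∈ zs, linS z ≤ L) {z : List ℤ} (hz : z ∈ zs) :
    z ∈ fRemain c ts (L * tabRem ts) zs ∨ 0 ≤ linV xs z := by
  induction zs with
  | nil => simp at hz
  | cons y zs ih =>
    have hS' : ∀ z ∈ zs, linS z ≤ L := fun z hz => hS z (List.mem_cons_of_mem _ hz)
    have e : fRemain c ts (L * tabRem ts) (y :: zs)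
        = @Bool.rec (fun _ => List (List ℤ)) (List.cons y (fRemain c ts (L * tabRem ts) zs))
          (fRemain c ts (L * tabRem ts) zs) (leafOK c (fT c ts (L * tabRem ts) y)) := rfl
    rw [e]
    rw [List.mem_cons] at hz
    cases hy : leafOK c (fT c ts (L * tabRem ts) y) with
    | true =>
      rcases hz with rfl | hz
      · right
        exact leaf_sound C (repAt_fT C h hok hL (hS z (List.mem_cons_self))) hy
      · exact ih hS' hz
    | false =>
      rcases hz with rfl | hz
      · left
        exact List.mem_cons_self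
      · rcases ih hS' hz with h1 | h1
        · left
          exact List.mem_cons_of_mem _ h1
        · exact Or.inr h1

lemma fRemain_sub (c : Cfg) (ts : List TMod) (R : ℕ) (zs : List (List ℤ)) {z : List ℤ}
    (hz : z ∈ fRemain c ts R zs) : z ∈ zs := by
  induction zs with
  | nil => exact hz
  | cons y zs ih =>
    have e : fRemain c ts R (y :: zs)
        = @Bool.rec (fun _ => List (List ℤ)) (List.cons y (fRemain c ts R zs))
          (fRemain c ts R zs) (leafOK c (fT c ts R y)) := rfl
    rw [e] at hz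
    cases hy : leafOK c (fT c ts R y) with
    | true =>
      rw [hy] at hz
      exact List.mem_cons_of_mem _ (ih hz)
    | false =>
      rw [hy] at hz
      rcases List.mem_cons.mp hz with rfl | h1
      · exact List.mem_cons_self
      · exact List.mem_cons_of_mem _ (ih h1)

lemma fStep_sub (c : Cfg) (ts : List TMod) (L : ℕ) (zs : List (List ℤ)) {z : List ℤ}
    (hz : z ∈ fStep c ts L zs) : z ∈ zs := by
  cases zs with
  | nil => exact hz
  | cons y zs =>
    have e : fStep c ts L (y :: zs) = @Bool.rec (fun _ => List (List ℤ)) (y :: zs)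
      (fRemain c ts (Nat.mul L (tabRem ts)) (y :: zs)) (tabOk ts) := rfl
    rw [e] at hz
    cases hy : tabOk ts with
    | true =>
      rw [hy] at hz
      exact fRemain_sub _ _ _ _ hz
    | false =>
      rw [hy] at hz
      exact hz

lemma fStep_sound {c : Cfg} {ξ η : ℝ} (C : Ctx c ξ η) {ts : List TMod} {xs : List ℝ}
    (h : List.Forall₂ (RepAt c ξ η) ts xs) {L : ℕ} (hL : L ≤ 2 ^ c.b)
    {zs : List (List ℤ)} (hS : ∀ z ∈ zs, linS z ≤ L) {z : List ℤ} (hz : z ∈ zs) :
    z ∈ fStep c ts L zs ∨ 0 ≤ linV xs z := by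
  cases zs with
  | nil => simp at hz
  | cons y zs =>
    have e : fStep c ts L (y :: zs) = @Bool.rec (fun _ => List (List ℤ)) (y :: zs)
      (fRemain c ts (Nat.mul L (tabRem ts)) (y :: zs)) (tabOk ts) := rfl
    rw [e]
    cases hy : tabOk ts with
    | true => exact fRemain_sound C h hy hL hS hz
    | false => exact Or.inl hz

/-- The walker on a table with two parts. -/
noncomputable def fWalk (c : Cfg) (B : TMod → TMod → List TMod × List TMod) (L : ℕ) :
    ℕ → ℕ → ℕ → ℕ → List (List ℤ) → List (List ℤ) → Bool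
  | 0, _, _, _, _, _ => false
  | f + 1, K, i, j, zF, zD =>
    (fun T => (fun rF rD =>
      @List.rec (List ℤ) (fun _ => Bool)
        (@List.rec (List ℤ) (fun _ => Bool) true
          (fun _ _ _ =>
            and (fWalk c B L f (Nat.succ K) (Nat.mul 2 i) (Nat.mul 2 j) rF rD)
            (and (fWalk c B L f (Nat.succ K) (Nat.succ (Nat.mul 2 i)) (Nat.mul 2 j) rF rD)
            (and (fWalk c B L f (Nat.succ K) (Nat.mul 2 i) (Nat.succ (Nat.mul 2 j)) rF rD)
              (fWalk c B L f (Nat.succ K) (Nat.succ (Nat.mul 2 i)) (Nat.succ (Nat.mul 2 j)) rF rD)))) rD)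
        (fun _ _ _ =>
            and (fWalk c B L f (Nat.succ K) (Nat.mul 2 i) (Nat.mul 2 j) rF rD)
            (and (fWalk c B L f (Nat.succ K) (Nat.succ (Nat.mul 2 i)) (Nat.mul 2 j) rF rD)
            (and (fWalk c B L f (Nat.succ K) (Nat.mul 2 i) (Nat.succ (Nat.mul 2 j)) rF rD)
              (fWalk c B L f (Nat.succ K) (Nat.succ (Nat.mul 2 i)) (Nat.succ (Nat.mul 2 j)) rF rD)))) rF)
      (fStep c T.1 L zF) (fStep c T.2 L zD))
    (B (xiT c K i) (etaT c K j))

/-- All the forms are nonnegative on a cell. -/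
def GoodC (G : ℝ → ℝ → List ℝ × List ℝ) (zF zD : List (List ℤ)) (K i j : ℕ) : Prop :=
  (∀ z ∈ zF, ∀ v r : ℝ, InCell K i j v r → 0 ≤ linV (G v r).1 z) ∧
    (∀ z ∈ zD, ∀ v r : ℝ, InCell K i j v r → 0 ≤ linV (G v r).2 z)

/-- The four children of a cell. -/
theorem goodC_split {G : ℝ → ℝ → List ℝ × List ℝ} {zF zD : List (List ℤ)} {K i j K' i0 i1 j0 j1 : ℕ}
    (eK : K' = K + 1) (ei0 : i0 = 2 * i) (ei1 : i1 = 2 * i + 1) (ej0 : j0 = 2 * j) (ej1 : j1 = 2 * j + 1)
    (h00 : GoodC G zF zD K' i0 j0) (h10 : GoodC G zF zD K' i1 j0)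
    (h01 : GoodC G zF zD K' i0 j1) (h11 : GoodC G zF zD K' i1 j1) : GoodC G zF zD K i j := by
  subst eK ei0 ei1 ej0 ej1
  have key : ∀ v r : ℝ, InCell K i j v r → ∃ i' j', ((i' = 2 * i ∧ j' = 2 * j) ∨ (i' = 2 * i + 1 ∧ j' = 2 * j)
      ∨ (i' = 2 * i ∧ j' = 2 * j + 1) ∨ (i' = 2 * i + 1 ∧ j' = 2 * j + 1)) ∧ InCell (K + 1) i' j' v r := by
    intro v r hv
    obtain ⟨i', hi', hi1, hi2⟩ := inCell_split hv.1 hv.2.1
    obtain ⟨j', hj', hj1, hj2⟩ := inCell_split hv.2.2.1 hv.2.2.2
    refine ⟨i', j', ?_, ⟨hi1, hi2, hj1, hj2⟩⟩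
    rcases hi' with rfl | rfl <;> rcases hj' with rfl | rfl
    · exact Or.inl ⟨rfl, rfl⟩
    · exact Or.inr (Or.inr (Or.inl ⟨rfl, rfl⟩))
    · exact Or.inr (Or.inl ⟨rfl, rfl⟩)
    · exact Or.inr (Or.inr (Or.inr ⟨rfl, rfl⟩))
  constructor
  · intro z hz v r hv
    obtain ⟨i', j', h, hn⟩ := key v r hv
    rcases h with ⟨rfl, rfl⟩ | ⟨rfl, rfl⟩ | ⟨rfl, rfl⟩ | ⟨rfl, rfl⟩
    · exact h00.1 z hz v r hn
    · exact h10.1 z hz v r hn
    · exact h01.1 z hz v r hn
    · exact h11.1 z hz v r hn
  · intro z hz v r hv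
    obtain ⟨i', j', h, hn⟩ := key v r hv
    rcases h with ⟨rfl, rfl⟩ | ⟨rfl, rfl⟩ | ⟨rfl, rfl⟩ | ⟨rfl, rfl⟩
    · exact h00.2 z hz v r hn
    · exact h10.2 z hz v r hn
    · exact h01.2 z hz v r hn
    · exact h11.2 z hz v r hn

/-- The soundness of the walk. -/
theorem fWalk_sound {c : Cfg} (hc : c.Valid) {B : TMod → TMod → List TMod × List TMod}
    {G : ℝ → ℝ → List ℝ × List ℝ}
    (hB : ∀ ξ η (_ : Ctx c ξ η) (a b : TMod) (v w : ℝ), RepAt c ξ η a v → RepAt c ξ η b w →
      List.Forall₂ (RepAt c ξ η) (B a b).1 (G v w).1 ∧ List.Forall₂ (RepAt c ξ η) (B a b).2 (G v w).2)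
    {L : ℕ} (hL : L ≤ 2 ^ c.b) (f K i j : ℕ) (zF zD : List (List ℤ))
    (hSF : ∀ z ∈ zF, linS z ≤ L) (hSD : ∀ z ∈ zD, linS z ≤ L)
    (h : fWalk c B L f K i j zF zD = true) : GoodC G zF zD K i j := by
  induction f generalizing K i j zF zD with
  | zero => exact absurd h (by simp [fWalk])
  | succ f ih =>
    set T := B (xiT c K i) (etaT c K j) with hT
    set rF := fStep c T.1 L zF with hrF
    set rD := fStep c T.2 L zD with hrD
    have subF : ∀ z ∈ rF, linS z ≤ L := fun z hz => hSF z (fStep_sub _ _ _ _ hz)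
    have subD : ∀ z ∈ rD, linS z ≤ L := fun z hz => hSD z (fStep_sub _ _ _ _ hz)
    -- the children
    have hch : (rF = [] ∧ rD = []) ∨ (GoodC G rF rD (K + 1) (2 * i) (2 * j) ∧ GoodC G rF rD (K + 1) (2 * i + 1) (2 * j)
        ∧ GoodC G rF rD (K + 1) (2 * i) (2 * j + 1) ∧ GoodC G rF rD (K + 1) (2 * i + 1) (2 * j + 1)) := by
      have h' : @List.rec (List ℤ) (fun _ => Bool)
        (@List.rec (List ℤ) (fun _ => Bool) true
          (fun _ _ _ =>
            and (fWalk c B L f (Nat.succ K) (Nat.mul 2 i) (Nat.mul 2 j) rF rD)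
            (and (fWalk c B L f (Nat.succ K) (Nat.succ (Nat.mul 2 i)) (Nat.mul 2 j) rF rD)
            (and (fWalk c B L f (Nat.succ K) (Nat.mul 2 i) (Nat.succ (Nat.mul 2 j)) rF rD)
              (fWalk c B L f (Nat.succ K) (Nat.succ (Nat.mul 2 i)) (Nat.succ (Nat.mul 2 j)) rF rD)))) rD)
        (fun _ _ _ =>
            and (fWalk c B L f (Nat.succ K) (Nat.mul 2 i) (Nat.mul 2 j) rF rD)
            (and (fWalk c B L f (Nat.succ K) (Nat.succ (Nat.mul 2 i)) (Nat.mul 2 j) rF rD)
            (and (fWalk c B L f (Nat.succ K) (Nat.mul 2 i) (Nat.succ (Nat.mul 2 j)) rF rD)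
              (fWalk c B L f (Nat.succ K) (Nat.succ (Nat.mul 2 i)) (Nat.succ (Nat.mul 2 j)) rF rD)))) rF = true := h
      have key : and (fWalk c B L f (Nat.succ K) (Nat.mul 2 i) (Nat.mul 2 j) rF rD)
            (and (fWalk c B L f (Nat.succ K) (Nat.succ (Nat.mul 2 i)) (Nat.mul 2 j) rF rD)
            (and (fWalk c B L f (Nat.succ K) (Nat.mul 2 i) (Nat.succ (Nat.mul 2 j)) rF rD)
              (fWalk c B L f (Nat.succ K) (Nat.succ (Nat.mul 2 i)) (Nat.succ (Nat.mul 2 j)) rF rD))) = true →
          GoodC G rF rD (K + 1) (2 * i) (2 * j) ∧ GoodC G rF rD (K + 1) (2 * i + 1) (2 * j)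
        ∧ GoodC G rF rD (K + 1) (2 * i) (2 * j + 1) ∧ GoodC G rF rD (K + 1) (2 * i + 1) (2 * j + 1) := by
        intro h2
        simp only [Bool.and_eq_true] at h2
        obtain ⟨h1, h3, h4, h5⟩ := h2
        exact ⟨ih _ _ _ _ _ subF subD h1, ih _ _ _ _ _ subF subD h3, ih _ _ _ _ _ subF subD h4,
          ih _ _ _ _ _ subF subD h5⟩
      clear_value rF rD
      cases rF with
      | cons y rF => exact Or.inr (key h')
      | nil =>
        cases rD with
        | nil => exact Or.inl ⟨rfl, rfl⟩
        | cons y rD => exact Or.inr (key h')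
    -- the local statement
    have hcell : ∀ v r : ℝ, InCell K i j v r →
        (∀ z ∈ zF, z ∈ rF ∨ 0 ≤ linV (G v r).1 z) ∧ (∀ z ∈ zD, z ∈ rD ∨ 0 ≤ linV (G v r).2 z) := by
      intro v r hv
      obtain ⟨ξ, hξ, e1⟩ := local_coord hv.1 hv.2.1
      obtain ⟨η, hη, e2⟩ := local_coord hv.2.2.1 hv.2.2.2
      have C : Ctx c ξ η := ⟨hc, hξ, hη⟩
      have hT' := hB ξ η C (xiT c K i) (etaT c K j) v r (by rw [e1]; exact repAt_xi C K i)
        (by rw [e2]; exact repAt_eta C K j)
      exact ⟨fun z hz => fStep_sound C hT'.1 hL hSF hz, fun z hz => fStep_sound C hT'.2 hL hSD hz⟩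
    have hchild : ∀ v r : ℝ, InCell K i j v r → (rF = [] ∧ rD = []) ∨
        ((∀ z ∈ rF, 0 ≤ linV (G v r).1 z) ∧ (∀ z ∈ rD, 0 ≤ linV (G v r).2 z)) := by
      intro v r hv
      rcases hch with h0 | ⟨h00, h10, h01, h11⟩
      · exact Or.inl h0
      · right
        have hg : GoodC G rF rD K i j := goodC_split rfl rfl rfl rfl rfl h00 h10 h01 h11
        exact ⟨fun z hz => hg.1 z hz v r hv, fun z hz => hg.2 z hz v r hv⟩
    constructor
    · intro z hz v r hv
      rcases (hcell v r hv).1 z hz with h1 | h1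
      · rcases hchild v r hv with ⟨h2, _⟩ | h2
        · rw [h2] at h1
          simp at h1
        · exact h2.1 z h1
      · exact h1
    · intro z hz v r hv
      rcases (hcell v r hv).2 z hz with h1 | h1
      · rcases hchild v r hv with ⟨_, h2⟩ | h2
        · rw [h2] at h1
          simp at h1
        · exact h2.2 z h1
      · exact h1

end Vale.Agent.P154.Hel.Direct
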