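import Vale.Agent.P154.Hel.FastPlane

/-!
Row D near the vertex: for small `y0` the form of row D depends on one variable only, up to tiny constants.
So the walk on the variable `y0` has one coordinate.
-/

namespace Vale.Agent.P154.Hel.Direct

open TM Q3

/-- The walker on one variable. -/
noncomputable def zWalk (c : Cfg) (B : TMod → List TMod) (L : ℕ) : ℕ → ℕ → ℕ → List (List ℤ) → Bool
  | 0, _, _, _ => false
  | f + 1, K, i, zs =>
    (fun rest => @List.rec (List ℤ) (fun _ => Bool) true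
        (fun _ _ _ => and (zWalk c B L f (Nat.succ K) (Nat.mul 2 i) rest)
          (zWalk c B L f (Nat.succ K) (Nat.succ (Nat.mul 2 i)) rest)) rest)
      (fStep c (B (xiT c K i)) L zs)

/-- The soundness of the walker on one variable. -/
theorem zWalk_sound {c : Cfg} (hc : c.Valid) {B : TMod → List TMod} {L : ℕ} (hL : L ≤ 2 ^ c.b)
    (f K i : ℕ) (zs : List (List ℤ)) (hS : ∀ z ∈ zs, linS z ≤ L) (h : zWalk c B L f K i zs = true)
    {z : List ℤ} (hz : z ∈ zs) {y : ℝ} (h1 : (i : ℝ) / 2 ^ K ≤ y) (h2 : y ≤ ((i : ℝ) + 1) / 2 ^ K)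
    {xs : List ℝ} (hxs : ∀ ξ η, Ctx c ξ η → ∀ a, RepAt c ξ η a y → List.Forall₂ (RepAt c ξ η) (B a) xs) :
    0 ≤ linV xs z := by
  induction f generalizing K i zs with
  | zero => exact absurd h (by simp [zWalk])
  | succ f ih =>
    obtain ⟨ξ, hξ, e1⟩ := local_coord h1 h2
    have C : Ctx c ξ 0 := ⟨hc, hξ, by simp⟩
    have hT : List.Forall₂ (RepAt c ξ 0) (B (xiT c K i)) xs :=
      hxs ξ 0 C _ (by rw [e1]; exact repAt_xi C K i)
    set rest := fStep c (B (xiT c K i)) L zs with hrest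
    have hS' : ∀ z ∈ rest, linS z ≤ L := fun z hz => hS z (fStep_sub _ _ _ _ hz)
    rcases fStep_sound C hT hL hS hz with hr | hr
    · have h' : @List.rec (List ℤ) (fun _ => Bool) true
        (fun _ _ _ => and (zWalk c B L f (Nat.succ K) (Nat.mul 2 i) rest)
          (zWalk c B L f (Nat.succ K) (Nat.succ (Nat.mul 2 i)) rest)) rest = true := h
      have key : and (zWalk c B L f (Nat.succ K) (Nat.mul 2 i) rest)
          (zWalk c B L f (Nat.succ K) (Nat.succ (Nat.mul 2 i)) rest) = true := by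
        rw [← hrest] at hr
        clear_value rest
        cases rest with
        | nil => simp at hr
        | cons y0 rs => exact h'
      rw [Bool.and_eq_true] at key
      obtain ⟨i', hi', hi1, hi2⟩ := inCell_split h1 h2
      rcases hi' with rfl | rfl
      · exact ih _ _ _ hS' key.1 hr hi1 hi2
      · exact ih _ _ _ hS' key.2 hr hi1 hi2
    · exact hr

/-- A constant between `0` and `2^-s`. -/
def zx (c : Cfg) (s : ℕ) : TMod := ofFixR c (2 ^ (c.f - s - 1)) (2 ^ (c.f - s - 1)) true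

lemma repAt_zx {c : Cfg} {ξ η : ℝ} (C : Ctx c ξ η) {s : ℕ} (hs : s + 1 ≤ c.f) {t : ℝ} (h0 : 0 ≤ t)
    (h1 : t ≤ ((2 : ℝ) ^ s)⁻¹) : RepAt c ξ η (zx c s) t := by
  refine repAt_const C ?_
  have e : ((2 ^ (c.f - s - 1) : ℕ) : ℝ) * unit c = ((2 : ℝ) ^ (s + 1))⁻¹ := by
    unfold unit
    have e1 : c.f = (c.f - s - 1) + (s + 1) := by omega
    have e2 : (2 : ℝ) ^ c.f = 2 ^ (c.f - s - 1) * 2 ^ (s + 1) := by
      rw [← pow_add, ← e1]
    rw [e2]
    push_cast
    field_simp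
  rw [e, abs_le]
  have e3 : ((2 : ℝ) ^ (s + 1))⁻¹ = ((2 : ℝ) ^ s)⁻¹ / 2 := by
    rw [pow_succ]
    field_simp
  rw [e3] at *
  constructor <;> linarith

/-- The table of row D for small `y0`. -/
def tabZ (c : Cfg) (X : List E3) (s : ℕ) (a : TMod) : List TMod :=
  (fun x => (fun M => (fun one half => (fun w => (fun p0 p1 => (fun y11 Qi => (fun My =>
      (X.map fun e => ddT c M (invT c w) (invT c w) y11 My p0 p1 p1 e)
        ++ [mulT c y11 (subT c (smulT c 18 M) (smulT c 54 Qi)), smulT c 72 My])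
    (mulT c y11 M))
    (pick p0 11) (mulT c (addT c (addT c x (mulT c x x)) x) (invT c M)))
    (powsT c a) (powsT c (rootT c w)))
    (mulT c half (addT c one x)))
    (ofFix c c.TF) (ofRat c 1 2))
    (addT c (addT c (ofFix c c.TF) x) x))
    (zx c s)

/-- The table encloses the real table. -/
theorem tabZ_rep {c : Cfg} {ξ η : ℝ} (CC : Ctx c ξ η) {X : List E3} (hX : ∀ e ∈ X, e.1 + e.2.1 + e.2.2 = 12)
    {s : ℕ} (hs : s + 1 ≤ c.f) {a : TMod} {v r : ℝ} (ha : RepAt c ξ η a (y0H v r))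
    (hr0 : 0 ≤ r) (hr1 : r ≤ 1) (hvs : v ^ 12 ≤ ((2 : ℝ) ^ s)⁻¹) :
    List.Forall₂ (RepAt c ξ η) (tabZ c X s a) (tabsR X v r).2 := by
  have p12 : 0 ≤ v ^ 12 := by positivity
  have w12 : (v * r) ^ 12 ≤ v ^ 12 := by
    rw [mul_pow]
    have : r ^ 12 ≤ 1 := pow_le_one₀ hr0 hr1
    nlinarith
  have q12 : 0 ≤ (v * r) ^ 12 := by positivity
  have hx1 : RepAt c ξ η (zx c s) (v ^ 12) := repAt_zx CC hs p12 hvs
  have hx2 : RepAt c ξ η (zx c s) ((v * r) ^ 12) := repAt_zx CC hs q12 (w12.trans hvs)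
  have hone := repAt_one CC
  have hM : RepAt c ξ η _ (M3H v r) := repAt_add CC (repAt_add CC hone hx1) hx2
  have hh : RepAt c ξ η (ofRat c 1 2) (1 / 2) := (repAt_ofRat CC 1 2).congr (by norm_num)
  have e1 : 0 ≤ (1 + (v * r) ^ 12) / 2 := by positivity
  have e2 : 0 ≤ (1 + v ^ 12) / 2 := by positivity
  have r1 := (repAt_mul CC hh (repAt_add CC hone hx2)).congr (y := (1 + (v * r) ^ 12) / 2) (by ring)
  have r2 := (repAt_mul CC hh (repAt_add CC hone hx1)).congr (y := (1 + v ^ 12) / 2) (by ring)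
  have t0 := tab_powsT CC ha
  have t1 : Tab c ξ η _ (y1H v r) := tab_powsT CC (repAt_root CC r1 (Real.rpow_nonneg e1 _) (pow12_eq e1))
  have t2 : Tab c ξ η _ (y2H v) := tab_powsT CC (repAt_root CC r2 (Real.rpow_nonneg e2 _) (pow12_eq e2))
  have hQi : RepAt c ξ η _ (Q3H v r * (M3H v r)⁻¹) :=
    repAt_mul CC (repAt_add CC (repAt_add CC hx1 (repAt_mul CC hx1 hx2)) hx2) (repAt_inv CC hM)
  have hy11 := t0 11 (by norm_num)
  have hMy := repAt_mul CC hy11 hM
  have hMy' := hMy.congr (y := M3H v r * y0H v r ^ 11) (by ring)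
  refine forall2_append (forall2_map fun e he => repAt_dd CC t0 t1 t2 hM (repAt_inv CC r1) (repAt_inv CC r2) hMy' (hX e he)) ?_
  refine List.Forall₂.cons ((repAt_mul CC hy11 (repAt_sub CC (repAt_smul CC 18 hM) (repAt_smul CC 54 hQi))).congr (by norm_num)) ?_
  exact List.Forall₂.cons ((repAt_smul CC 72 hMy).congr (by norm_num)) List.Forall₂.nil

/-- All the forms of row D are nonnegative when `y0` lies in a cell and `v^12 ≤ 2^-s`. -/
def GoodZ (X : List E3) (zs : List (List ℤ)) (s K i : ℕ) : Prop :=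
  ∀ z ∈ zs, ∀ v r : ℝ, 0 ≤ r → r ≤ 1 → v ^ 12 ≤ ((2 : ℝ) ^ s)⁻¹ →
    (i : ℝ) / 2 ^ K ≤ y0H v r → y0H v r ≤ ((i : ℝ) + 1) / 2 ^ K → 0 ≤ linV (tabsR X v r).2 z

/-- A successful walk on one variable. -/
theorem goodZ_of_walk {c : Cfg} (hc : c.Valid) {X : List E3} (hX : ∀ e ∈ X, e.1 + e.2.1 + e.2.2 = 12)
    {L : ℕ} (hL : L ≤ 2 ^ c.b) {zs : List (List ℤ)} (hS : ∀ z ∈ zs, linS z ≤ L) {s : ℕ} (hs : s + 1 ≤ c.f)
    {f K i : ℕ} (h : zWalk c (tabZ c X s) L f K i zs = true) : GoodZ X zs s K i :=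
  fun _ hz _ _ hr0 hr1 hvs h1 h2 => zWalk_sound hc hL f K i zs hS h hz h1 h2
    (fun _ _ CC _ ha => tabZ_rep CC hX hs ha hr0 hr1 hvs)

/-- The two children of a cell. -/
theorem goodZ_split {X : List E3} {zs : List (List ℤ)} {s K i K' i0 i1 : ℕ}
    (eK : K' = K + 1) (ei0 : i0 = 2 * i) (ei1 : i1 = 2 * i + 1)
    (h0 : GoodZ X zs s K' i0) (h1 : GoodZ X zs s K' i1) : GoodZ X zs s K i := by
  subst eK ei0 ei1
  intro z hz v r hr0 hr1 hvs h2 h3
  obtain ⟨i', hi', hi1, hi2⟩ := inCell_split h2 h3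
  rcases hi' with rfl | rfl
  · exact h0 z hz v r hr0 hr1 hvs hi1 hi2
  · exact h1 z hz v r hr0 hr1 hvs hi1 hi2

/-- From the forms of both rows to the forms of row F on a cell. -/
theorem GoodC.weakF {G : ℝ → ℝ → List ℝ × List ℝ} {zF zD : List (List ℤ)} {K i j : ℕ}
    (h : GoodC G zF zD K i j) : GoodC G zF [] K i j :=
  ⟨h.1, fun _ hz => by simp at hz⟩

/-- From the forms of both rows to the forms of row D on a cell. -/
theorem GoodC.weakD {G : ℝ → ℝ → List ℝ × List ℝ} {zF zD : List (List ℤ)} {K i j : ℕ}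
    (h : GoodC G zF zD K i j) : GoodC G [] zD K i j :=
  ⟨fun _ hz => by simp at hz, h.2⟩

lemma y0H_props {v r : ℝ} (hv : 0 < v) (hr0 : 0 ≤ r) (hr1 : r ≤ 1) :
    0 < y0H v r ∧ y0H v r ≤ v ∧ v ^ 12 ≤ 2 * y0H v r ^ 12 := by
  have e0 : 0 < (1 + r ^ 12) / 2 := by positivity
  have e1 : (1 + r ^ 12) / 2 ≤ 1 := by
    have : r ^ 12 ≤ 1 := pow_le_one₀ hr0 hr1
    linarith
  have h2 : ((1 + r ^ 12) / 2) ^ ((1 : ℝ) / 12) ≤ 1 := Real.rpow_le_one e0.le e1 (by norm_num)
  refine ⟨mul_pos hv (Real.rpow_pos_of_pos e0 _), ?_, ?_⟩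
  · unfold y0H
    nlinarith
  · unfold y0H
    rw [mul_pow, pow12_eq e0.le]
    have h3 : 0 ≤ v ^ 12 := by positivity
    have h4 : 0 ≤ r ^ 12 := by positivity
    nlinarith

/-- Row D of a plane, from the walks near the vertex and the cells with `v ≥ 1/4`. -/
theorem rowD_of_zones {X : List E3} (hX : ∀ e ∈ X, e.1 + e.2.1 + e.2.2 = 12) {zD : List (List ℤ)}
    (hZ1 : GoodZ X zD 35 3 0) (hZ2 : GoodZ X zD 27 4 2) (hZ3 : GoodZ X zD 23 4 3)
    (h20 : GoodC (tabsR X) [] zD 2 1 0) (h21 : GoodC (tabsR X) [] zD 2 1 1)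
    (h22 : GoodC (tabsR X) [] zD 2 1 2) (h23 : GoodC (tabsR X) [] zD 2 1 3)
    (h10 : GoodC (tabsR X) [] zD 1 1 0) (h11 : GoodC (tabsR X) [] zD 1 1 1)
    {C : List ℤ} {Eps Eta : ℤ} (hz : formDT C Eps Eta ∈ zD) (hC : C.length = X.length)
    (x : Fin 3 → ℝ) (hx : ∀ i, 0 < x i) : 0 ≤ rowD X C Eps Eta x := by
  refine rowD_nonneg X hX C Eps Eta ?_ x hx
  intro v r v0 v1 r0 r1
  have key : 0 ≤ linV (tabsR X v r).2 (formDT C Eps Eta) := by
    obtain ⟨y0, y1, y2⟩ := y0H_props v0 r0.le r1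
    rcases le_total (y0H v r) (1 / 8) with h | h
    · refine hZ1 _ hz v r r0.le r1 ?_ (by norm_num; exact y0.le) (by norm_num; linarith)
      have h3 : y0H v r ^ 12 ≤ (1 / 8) ^ 12 := pow_le_pow_left₀ y0.le h 12
      norm_num at h3 ⊢
      linarith
    · rcases le_total (y0H v r) (3 / 16) with h' | h'
      · refine hZ2 _ hz v r r0.le r1 ?_ (by norm_num; linarith) (by norm_num; linarith)
        have h3 : y0H v r ^ 12 ≤ (3 / 16) ^ 12 := pow_le_pow_left₀ y0.le h' 12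
        norm_num at h3 ⊢
        linarith
      · rcases le_total (y0H v r) (1 / 4) with h'' | h''
        · refine hZ3 _ hz v r r0.le r1 ?_ (by norm_num; linarith) (by norm_num; linarith)
          have h3 : y0H v r ^ 12 ≤ (1 / 4) ^ 12 := pow_le_pow_left₀ y0.le h'' 12
          norm_num at h3 ⊢
          linarith
        · have hv4 : 1 / 4 ≤ v := h''.trans y1
          have hcell : ∀ (K i j : ℕ), GoodC (tabsR X) [] zD K i j → (i : ℝ) / 2 ^ K ≤ v → v ≤ ((i : ℝ) + 1) / 2 ^ K →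
              (j : ℝ) / 2 ^ K ≤ r → r ≤ ((j : ℝ) + 1) / 2 ^ K → 0 ≤ linV (tabsR X v r).2 (formDT C Eps Eta) :=
            fun K i j hg a1 a2 a3 a4 => hg.2 _ hz v r ⟨a1, a2, a3, a4⟩
          rcases le_total v (1 / 2) with hv | hv
          · rcases le_total r (1 / 4) with hr | hr
            · exact hcell 2 1 0 h20 (by norm_num; linarith) (by norm_num; linarith) (by norm_num; linarith) (by norm_num; linarith)
            · rcases le_total r (1 / 2) with hr' | hr'
              · exact hcell 2 1 1 h21 (by norm_num; linarith) (by norm_num; linarith) (by norm_num; linarith) (by norm_num; linarith)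
              · rcases le_total r (3 / 4) with hr'' | hr''
                · exact hcell 2 1 2 h22 (by norm_num; linarith) (by norm_num; linarith) (by norm_num; linarith) (by norm_num; linarith)
                · exact hcell 2 1 3 h23 (by norm_num; linarith) (by norm_num; linarith) (by norm_num; linarith) (by norm_num; linarith)
          · rcases le_total r (1 / 2) with hr | hr
            · exact hcell 1 1 0 h10 (by norm_num; linarith) (by norm_num; linarith) (by norm_num; linarith) (by norm_num; linarith)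
            · exact hcell 1 1 1 h11 (by norm_num; linarith) (by norm_num; linarith) (by norm_num; linarith) (by norm_num; linarith)
  rw [linV_tabD X C Eps Eta hC v0 r0] at key
  have e0 : 0 < (1 + r ^ 12) / 2 := by positivity
  have p0 : 0 < y0H v r := mul_pos v0 (Real.rpow_pos_of_pos e0 _)
  have : 0 < 216 * y0H v r ^ 11 := by positivity
  exact nonneg_of_mul_nonneg_right key this

/-- The two rows of every plane of a list, from the cells and the walks near the vertex. -/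
theorem zone_rows {X : List E3} (hX : ∀ e ∈ X, e.1 + e.2.1 + e.2.2 = 12)
    {L : List Plane} {zF zD : List (List ℤ)} (hzF : formsF X L = zF) (hzD : formsD L = zD)
    (hF : GoodC (tabsR X) zF [] 0 0 0)
    (hZ1 : GoodZ X zD 35 3 0) (hZ2 : GoodZ X zD 27 4 2) (hZ3 : GoodZ X zD 23 4 3)
    (h20 : GoodC (tabsR X) [] zD 2 1 0) (h21 : GoodC (tabsR X) [] zD 2 1 1)
    (h22 : GoodC (tabsR X) [] zD 2 1 2) (h23 : GoodC (tabsR X) [] zD 2 1 3)
    (h10 : GoodC (tabsR X) [] zD 1 1 0) (h11 : GoodC (tabsR X) [] zD 1 1 1)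
    {p : Plane} (hp : p ∈ L) (hA : p.A.length = X.length) (hC : p.C.length = X.length) (D : ℕ) (hD : 0 < D) :
    (∀ x : Fin 3 → ℝ, (∀ i, 0 < x i) →
      ∑ j, coef p.C D X.length j * psi (expo X j) (-(1 / 2)) x + ((p.C0 : ℝ) / D) * yyv x + ((p.E : ℝ) / D) * mass x
        ≤ phiF (coef p.A D X.length) (expo X) x) ∧
    (∀ x : Fin 3 → ℝ, (∀ i, 0 < x i) → 0 ≤ rowD X p.C p.Eps p.Eta x) := by
  subst hzF hzD
  refine ⟨rowF_of_goodC hX hF ?_ hA hC D hD,
    rowD_of_zones hX hZ1 hZ2 hZ3 h20 h21 h22 h23 h10 h11 ?_ hC⟩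
  · exact List.mem_map_of_mem (f := fun p : Plane => formF X p.A p.C p.C0 p.E) hp
  · exact List.mem_map_of_mem (f := fun p : Plane => formDT p.C p.Eps p.Eta) hp

end Vale.Agent.P154.Hel.Direct
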