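import Vale.Agent.P154.Hel.Defs

/-!
Laws of likelihood triples with possibly vanishing coordinates, and their Hellinger transforms.
-/

namespace Vale.Agent.P154

namespace Hel

noncomputable section

open Finset Filter Topology

variable {Ω Ω₁ Ω₂ Ω' : Type*} [Fintype Ω] [Fintype Ω₁] [Fintype Ω₂] [Fintype Ω']

/-- A nonnegative normalised symmetric family of likelihood triples. -/
structure IsLawN (L : Ω → Fin 3 → ℝ) : Prop where
  nonneg : ∀ τ i, 0 ≤ L τ i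
  norm : ∀ i, ∑ τ, L τ i = 1
  symm : ∀ g : Equiv.Perm (Fin 3), ∃ e : Ω ≃ Ω, ∀ τ i, L (e τ) i = L τ (g i)

/-- The Hellinger transform of a law. -/
def Ht (s : Fin 3 → ℝ) (L : Ω → Fin 3 → ℝ) : ℝ := ∑ τ, mono s (L τ)

/-- The Lyapunov function of a law. -/
def VV {ι : Type*} [Fintype ι] (w : ι → ℝ) (s : ι → Fin 3 → ℝ) (L : Ω → Fin 3 → ℝ) : ℝ :=
  ∑ j, w j * (1 - Ht (s j) L)

theorem Ht_prod (s : Fin 3 → ℝ) {L₁ : Ω₁ → Fin 3 → ℝ} {L₂ : Ω₂ → Fin 3 → ℝ}
    (h₁ : ∀ τ i, 0 ≤ L₁ τ i) (h₂ : ∀ τ i, 0 ≤ L₂ τ i) :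
    Ht s (prodLaw L₁ L₂) = Ht s L₁ * Ht s L₂ := by
  unfold Ht prodLaw
  rw [Fintype.sum_prod_type, Finset.sum_mul]
  refine Finset.sum_congr rfl fun τ _ => ?_
  rw [Finset.mul_sum]
  refine Finset.sum_congr rfl fun σ _ => ?_
  exact mono_mul (h₁ τ) (h₂ σ)

theorem Ht_comp_equiv (s : Fin 3 → ℝ) (L : Ω → Fin 3 → ℝ) (E : Ω' ≃ Ω) :
    Ht s (fun τ i => L (E τ) i) = Ht s L := by
  unfold Ht
  exact Equiv.sum_comp E (fun τ => mono s (L τ))

theorem IsLawN.sum_mass {L : Ω → Fin 3 → ℝ} (h : IsLawN L) : ∑ τ, mass (L τ) = 1 := by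
  unfold mass
  rw [← Finset.sum_div, Finset.sum_add_distrib, Finset.sum_add_distrib, h.norm, h.norm, h.norm]
  norm_num

theorem IsLawN.prod {L₁ : Ω₁ → Fin 3 → ℝ} {L₂ : Ω₂ → Fin 3 → ℝ} (h₁ : IsLawN L₁) (h₂ : IsLawN L₂) :
    IsLawN (prodLaw L₁ L₂) where
  nonneg := fun p i => mul_nonneg (h₁.nonneg p.1 i) (h₂.nonneg p.2 i)
  norm := fun i => by
    unfold prodLaw
    rw [Fintype.sum_prod_type]
    simp only [← Finset.mul_sum, h₂.norm, mul_one, h₁.norm]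
  symm := fun g => by
    obtain ⟨e₁, he₁⟩ := h₁.symm g
    obtain ⟨e₂, he₂⟩ := h₂.symm g
    refine ⟨Equiv.prodCongr e₁ e₂, fun p i => ?_⟩
    simp [prodLaw, he₁, he₂]

theorem IsLawN.comp_equiv {L : Ω → Fin 3 → ℝ} (h : IsLawN L) (E : Ω' ≃ Ω) :
    IsLawN (fun τ i => L (E τ) i) where
  nonneg := fun τ i => h.nonneg _ i
  norm := fun i => by rw [Equiv.sum_comp E (fun τ => L τ i)]; exact h.norm i
  symm := fun g => by
    obtain ⟨e, he⟩ := h.symm g
    refine ⟨E.trans (e.trans E.symm), fun τ i => ?_⟩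
    simp [he]

theorem IsLawN.pi {k : ℕ} {Ω : Fin k → Type} [∀ c, Fintype (Ω c)] {L : ∀ c, Ω c → Fin 3 → ℝ}
    (h : ∀ c, IsLawN (L c)) : IsLawN (piLaw L) where
  nonneg := fun f i => Finset.prod_nonneg fun c _ => (h c).nonneg _ i
  norm := fun i => by
    unfold piLaw
    have := (Finset.prod_univ_sum (fun c : Fin k => (Finset.univ : Finset (Ω c)))
      (fun c τ => L c τ i)).symm
    simp only [Fintype.piFinset_univ] at this
    rw [this]
    simp [(h _).norm]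
  symm := fun g => by
    choose e he using fun c => (h c).symm g
    refine ⟨Equiv.piCongrRight e, fun f i => ?_⟩
    simp [piLaw, he]

theorem IsLawN.pow {L : Ω → Fin 3 → ℝ} (h : IsLawN L) (k : ℕ) : IsLawN (powLaw L k) where
  nonneg := fun f i => Finset.prod_nonneg fun c _ => h.nonneg _ i
  norm := fun i => by
    unfold powLaw
    have := (Finset.prod_univ_sum (fun _ : Fin k => (Finset.univ : Finset Ω))
      (fun _ τ => L τ i)).symm
    simp only [Fintype.piFinset_univ] at this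
    rw [this]
    simp [h.norm]
  symm := fun g => by
    obtain ⟨e, he⟩ := h.symm g
    refine ⟨Equiv.piCongrRight (fun _ => e), fun f i => ?_⟩
    simp [powLaw, he]

theorem Ht_pi {k : ℕ} {Ω : Fin k → Type} [∀ c, Fintype (Ω c)] (s : Fin 3 → ℝ)
    {L : ∀ c, Ω c → Fin 3 → ℝ} (h : ∀ c τ i, 0 ≤ L c τ i) :
    Ht s (piLaw L) = ∏ c, Ht s (L c) := by
  induction k with
  | zero =>
    simp [Ht, piLaw, mono]
  | succ k ih =>
    have hn : ∀ f i, 0 ≤ piLaw (fun c => L (Fin.succ c)) f i :=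
      fun f i => Finset.prod_nonneg fun c _ => h _ _ _
    rw [piLaw_succ, Ht_comp_equiv, Ht_prod s (h 0) hn, Fin.prod_univ_succ, ih (fun c => h _)]

theorem Ht_pow (s : Fin 3 → ℝ) {L : Ω → Fin 3 → ℝ} (h : ∀ τ i, 0 ≤ L τ i) (k : ℕ) :
    Ht s (powLaw L k) = (Ht s L) ^ k := by
  induction k with
  | zero =>
    simp [Ht, powLaw, mono]
  | succ k ih =>
    have hn : ∀ f i, 0 ≤ powLaw L k f i := fun f i => Finset.prod_nonneg fun c _ => h _ _
    rw [powLaw_succ, Ht_comp_equiv, Ht_prod s h hn, ih, pow_succ]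
    ring

theorem chanLaw_eq (lam : ℝ) (L : Ω → Fin 3 → ℝ) (τ : Ω) : chanLaw lam L τ = T lam (L τ) := rfl

theorem IsLawN.chan {L : Ω → Fin 3 → ℝ} (h : IsLawN L) {lam : ℝ} (h0 : -(1 / 2) ≤ lam)
    (h1 : lam ≤ 1) : IsLawN (chanLaw lam L) where
  nonneg := fun τ i => T_nonneg (h.nonneg τ) h0 h1 i
  norm := fun i => by
    unfold chanLaw Tl
    rw [Finset.sum_add_distrib, ← Finset.mul_sum, ← Finset.mul_sum, h.norm]
    have := h.sum_mass
    unfold mass at this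
    rw [this]
    ring
  symm := fun g => by
    obtain ⟨e, he⟩ := h.symm g
    refine ⟨e, fun τ i => ?_⟩
    unfold chanLaw Tl
    have hs : L (e τ) 0 + L (e τ) 1 + L (e τ) 2 = L τ 0 + L τ 1 + L τ 2 := by
      rw [he, he, he]
      have := Equiv.sum_comp g (fun j => L τ j)
      simpa [Fin.sum_univ_three] using this
    rw [hs, he]

theorem IsLawN.Ht_nonneg {L : Ω → Fin 3 → ℝ} (h : IsLawN L) (s : Fin 3 → ℝ) : 0 ≤ Ht s L :=
  Finset.sum_nonneg fun τ _ => mono_nonneg (h.nonneg τ)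

theorem IsLawN.Ht_le_one {L : Ω → Fin 3 → ℝ} (h : IsLawN L) {s : Fin 3 → ℝ} (hs : AdmS s) :
    Ht s L ≤ 1 := by
  unfold Ht
  refine (Finset.sum_le_sum fun τ _ => mono_le hs (h.nonneg τ)).trans (le_of_eq ?_)
  rw [Finset.sum_add_distrib, Finset.sum_add_distrib, ← Finset.mul_sum, ← Finset.mul_sum,
    ← Finset.mul_sum, h.norm, h.norm, h.norm]
  have := hs.sum
  linarith

/-- Permuting coordinates does not change the Hellinger transform of a symmetric law. -/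
theorem IsLawN.Ht_perm {L : Ω → Fin 3 → ℝ} (h : IsLawN L) (s : Fin 3 → ℝ)
    (g : Equiv.Perm (Fin 3)) : ∑ τ, mono s (fun i => L τ (g i)) = Ht s L := by
  obtain ⟨e, he⟩ := h.symm g
  unfold Ht
  rw [← Equiv.sum_comp e (fun τ => mono s (L τ))]
  refine Finset.sum_congr rfl fun τ _ => ?_
  congr 1
  funext i
  rw [he]

theorem IsLawN.sum_chi {L : Ω → Fin 3 → ℝ} (h : IsLawN L) (s : Fin 3 → ℝ) :
    ∑ τ, chi s (L τ) = Ht s L := by
  unfold chi
  rw [← Finset.mul_sum, Finset.sum_comm]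
  simp only [h.Ht_perm s]
  simp only [Finset.sum_const, Finset.card_univ, nsmul_eq_mul]
  have : (Fintype.card (Equiv.Perm (Fin 3)) : ℝ) = 6 := by
    rw [Fintype.card_perm]
    simp [Nat.factorial]
  rw [this]
  ring

theorem IsLawN.sum_mass_sub_chi {L : Ω → Fin 3 → ℝ} (h : IsLawN L) (s : Fin 3 → ℝ) :
    ∑ τ, (mass (L τ) - chi s (L τ)) = 1 - Ht s L := by
  rw [Finset.sum_sub_distrib, h.sum_mass, h.sum_chi]

theorem IsLawN.sum_psi {L : Ω → Fin 3 → ℝ} (h : IsLawN L) {lam : ℝ} (h0 : -(1 / 2) ≤ lam)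
    (h1 : lam ≤ 1) (s : Fin 3 → ℝ) :
    ∑ τ, psi s lam (L τ) = 1 - Ht s (chanLaw lam L) := by
  unfold psi
  rw [Finset.sum_sub_distrib, h.sum_mass]
  congr 1
  exact (h.chan h0 h1).sum_chi s

theorem IsLawN.sum_phiF {ι : Type*} [Fintype ι] {L : Ω → Fin 3 → ℝ} (h : IsLawN L) (w : ι → ℝ)
    (s : ι → Fin 3 → ℝ) : ∑ τ, phiF w s (L τ) = VV w s L := by
  unfold phiF VV
  rw [Finset.sum_comm]
  refine Finset.sum_congr rfl fun j _ => ?_
  rw [← Finset.mul_sum, h.sum_mass_sub_chi]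

/-- The Lyapunov function of a law is bounded. -/
theorem IsLawN.abs_VV_le {ι : Type*} [Fintype ι] {L : Ω → Fin 3 → ℝ} (h : IsLawN L) (w : ι → ℝ)
    {s : ι → Fin 3 → ℝ} (hs : ∀ j, AdmS (s j)) : |VV w s L| ≤ ∑ j, |w j| := by
  unfold VV
  refine (Finset.abs_sum_le_sum_abs _ _).trans (Finset.sum_le_sum fun j _ => ?_)
  rw [abs_mul]
  have h1 := h.Ht_nonneg (s j)
  have h2 := h.Ht_le_one (hs j)
  have h3 : |1 - Ht (s j) L| ≤ 1 := by
    rw [abs_le]
    constructor <;> linarith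
  exact mul_le_of_le_one_right (abs_nonneg _) h3

theorem yyv_nonneg {x : Fin 3 → ℝ} (hx : ∀ i, 0 ≤ x i) : 0 ≤ yyv x := by
  unfold yyv yy
  by_cases h : x 0 + x 1 + x 2 = 0
  · rw [h]
    simp
  · have hs : 0 < x 0 + x 1 + x 2 :=
      lt_of_le_of_ne (by have := hx 0; have := hx 1; have := hx 2; positivity) (Ne.symm h)
    rw [sub_nonneg, div_le_div_iff₀ hs (by norm_num)]
    nlinarith [sq_nonneg (x 0 - x 1), sq_nonneg (x 1 - x 2), sq_nonneg (x 2 - x 0)]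

theorem yyv_le_mass {x : Fin 3 → ℝ} (hx : ∀ i, 0 ≤ x i) : yyv x ≤ mass x := by
  unfold yyv yy mass
  have h0 := hx 0
  have h1 := hx 1
  have h2 := hx 2
  have : 0 ≤ (x 0 * x 1 + x 1 * x 2 + x 2 * x 0) / (x 0 + x 1 + x 2) := by positivity
  linarith

theorem IsLawN.YY_nonneg {L : Ω → Fin 3 → ℝ} (h : IsLawN L) : 0 ≤ YY L :=
  Finset.sum_nonneg fun τ _ => yyv_nonneg (h.nonneg τ)

theorem IsLawN.YY_le_one {L : Ω → Fin 3 → ℝ} (h : IsLawN L) : YY L ≤ 1 := by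
  rw [← h.sum_mass]
  exact Finset.sum_le_sum fun τ _ => yyv_le_mass (h.nonneg τ)

theorem IsLawN.abs_YY_le {L : Ω → Fin 3 → ℝ} (h : IsLawN L) : |YY L| ≤ 1 := by
  rw [abs_of_nonneg h.YY_nonneg]
  exact h.YY_le_one

/-- The pair `(y, Y)` attached to a law is in the hull. -/
theorem IsLawN.hull {ι : Type*} [Fintype ι] {L : Ω → Fin 3 → ℝ} (h : IsLawN L)
    {s : ι → Fin 3 → ℝ} (hs : ∀ j, AdmS (s j)) {lam : ℝ} (h0 : -(1 / 2) ≤ lam) (h1 : lam ≤ 1) :
    HullY s lam (fun j => 1 - Ht (s j) (chanLaw lam L)) (YY L) := by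
  intro c c0 e hce
  have hsum := Finset.sum_le_sum fun τ (_ : τ ∈ (Finset.univ : Finset Ω)) =>
    hull_nonneg hs hce (h.nonneg τ)
  rw [Finset.sum_add_distrib, ← Finset.mul_sum, ← Finset.mul_sum, h.sum_mass, Finset.sum_comm,
    mul_one] at hsum
  refine le_of_eq_of_le ?_ hsum
  congr 1
  refine Finset.sum_congr rfl fun j _ => ?_
  rw [← Finset.mul_sum, h.sum_psi h0 h1]

/-- The key inequality, summed over the atoms of a law. -/
theorem IsLawN.key_sum {ι : Type*} [Fintype ι] {L : Ω → Fin 3 → ℝ} (h : IsLawN L)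
    {w : ι → ℝ} {s : ι → Fin 3 → ℝ} (hs : ∀ j, AdmS (s j)) {lam : ℝ} (h0 : -(1 / 2) ≤ lam)
    (h1 : lam ≤ 1) {c : ι → ℝ} {c0 e : ℝ}
    (hk : ∀ x : Fin 3 → ℝ, (∀ i, 0 < x i) →
      ∑ j, c j * psi (s j) lam x + c0 * yyv x + e * mass x ≤ phiF w s x) :
    ∑ j, c j * (1 - Ht (s j) (chanLaw lam L)) + c0 * YY L + e ≤ VV w s L := by
  have hsum := Finset.sum_le_sum fun τ (_ : τ ∈ (Finset.univ : Finset Ω)) =>
    key_nonneg hs hk (h.nonneg τ)
  rw [h.sum_phiF, Finset.sum_add_distrib, Finset.sum_add_distrib, ← Finset.mul_sum,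
    ← Finset.mul_sum, h.sum_mass, Finset.sum_comm, mul_one] at hsum
  refine le_of_eq_of_le ?_ hsum
  congr 2
  refine Finset.sum_congr rfl fun j _ => ?_
  rw [← Finset.mul_sum, h.sum_psi h0 h1]

/-- The bound for the statistical distance by `yy`, for nonnegative triples. -/
theorem dist_le_yyN {x1 x2 x3 : ℝ} (h1 : 0 ≤ x1) (h2 : 0 ≤ x2) (h3 : 0 ≤ x3) :
    (|x1 - (x1 + x2 + x3) / 3| + |x2 - (x1 + x2 + x3) / 3| + |x3 - (x1 + x2 + x3) / 3|) ^ 2
      ≤ 18 * ((x1 + x2 + x3) / 3) * yy x1 x2 x3 := by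
  by_cases hs0 : x1 + x2 + x3 = 0
  · have e1 : x1 = 0 := by linarith
    have e2 : x2 = 0 := by linarith
    have e3 : x3 = 0 := by linarith
    subst e1 e2 e3
    simp
  have hs : 0 < x1 + x2 + x3 := lt_of_le_of_ne (by positivity) (Ne.symm hs0)
  have key : 18 * ((x1 + x2 + x3) / 3) * yy x1 x2 x3
      = 3 * ((x1 - (x1 + x2 + x3) / 3) ^ 2 + (x2 - (x1 + x2 + x3) / 3) ^ 2
        + (x3 - (x1 + x2 + x3) / 3) ^ 2) := by
    unfold yy
    field_simp
    ring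
  rw [key, ← sq_abs (x1 - _), ← sq_abs (x2 - _), ← sq_abs (x3 - _)]
  nlinarith [sq_nonneg (|x1 - (x1 + x2 + x3) / 3| - |x2 - (x1 + x2 + x3) / 3|),
    sq_nonneg (|x2 - (x1 + x2 + x3) / 3| - |x3 - (x1 + x2 + x3) / 3|),
    sq_nonneg (|x3 - (x1 + x2 + x3) / 3| - |x1 - (x1 + x2 + x3) / 3|)]

/-- Bound of the statistical quantity. -/
theorem IsLawN.sq_sum_le {L : Ω → Fin 3 → ℝ} (h : IsLawN L) :
    (∑ τ, (1 / 6) * (|L τ 0 - (L τ 0 + L τ 1 + L τ 2) / 3| + |L τ 1 - (L τ 0 + L τ 1 + L τ 2) / 3|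
        + |L τ 2 - (L τ 0 + L τ 1 + L τ 2) / 3|)) ^ 2 ≤ YY L / 2 := by
  have := Finset.sum_sq_le_sum_mul_sum_of_sq_le_mul (Finset.univ : Finset Ω)
    (r := fun τ => (1 / 6) * (|L τ 0 - (L τ 0 + L τ 1 + L τ 2) / 3|
      + |L τ 1 - (L τ 0 + L τ 1 + L τ 2) / 3| + |L τ 2 - (L τ 0 + L τ 1 + L τ 2) / 3|))
    (f := fun τ => (L τ 0 + L τ 1 + L τ 2) / 3)
    (g := fun τ => yy (L τ 0) (L τ 1) (L τ 2) / 2)
    (fun τ _ => by
      have := h.nonneg τ 0; have := h.nonneg τ 1; have := h.nonneg τ 2; positivity)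
    (fun τ _ => by
      have := yyv_nonneg (h.nonneg τ)
      unfold yyv at this
      positivity)
    (fun τ _ => by
      have := dist_le_yyN (h.nonneg τ 0) (h.nonneg τ 1) (h.nonneg τ 2)
      nlinarith)
  have hm := h.sum_mass
  unfold mass at hm
  rw [hm, one_mul, ← Finset.sum_div] at this
  exact this

/-- The telescoping principle: a bounded sequence with a quadratic decrement has `Y n → 0`. -/
theorem tendsto_zero_of_telescope {V Y : ℕ → ℝ} {κ B : ℝ} (hκ : 0 < κ) (hY : ∀ n, 0 ≤ Y n)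
    (hV : ∀ n, |V n| ≤ B) (hs : ∀ n, V (n + 1) + κ * (Y n) ^ 2 ≤ V n) :
    Tendsto Y atTop (𝓝 0) := by
  have hpartial : ∀ N, ∑ n ∈ Finset.range N, κ * (Y n) ^ 2 ≤ V 0 - V N := by
    intro N
    induction N with
    | zero => simp
    | succ N ih =>
      rw [Finset.sum_range_succ]
      have := hs N
      linarith
  have hsummable : Summable fun n => κ * (Y n) ^ 2 := by
    refine summable_of_sum_range_le (c := 2 * B) (fun n => by positivity) (fun N => ?_)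
    have h1 := abs_le.1 (hV 0)
    have h2 := abs_le.1 (hV N)
    have := hpartial N
    linarith
  have hlim := hsummable.tendsto_atTop_zero
  have hlim2 : Tendsto (fun n => (Y n) ^ 2) atTop (𝓝 0) := by
    have := hlim.const_mul (1 / κ)
    rw [mul_zero] at this
    refine this.congr fun n => ?_
    field_simp
  have hlim3 : Tendsto (fun n => Real.sqrt ((Y n) ^ 2)) atTop (𝓝 0) := by
    have := (Real.continuous_sqrt.tendsto (0 : ℝ)).comp hlim2
    rw [Real.sqrt_zero] at this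
    exact this
  refine hlim3.congr fun n => ?_
  exact Real.sqrt_sq (hY n)

end

end Hel

end Vale.Agent.P154
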