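import Vale.Agent.P154.Hel.Q3Prog

/-!
The plane cells: programs and the reduction of the plane inequality to the walks.
-/

namespace Vale.Agent.P154.Hel.Q3

open Vale.Agent.P154.Hel.TM

/-- A cell. `Z1, Z2, p` in units `2^-14`, `E, E1, E2` in units `2^-30`. -/
structure PCell where
  Z1 : ℕ
  Z2 : ℕ
  p : ℕ
  E : ℕ
  E1 : ℕ
  E2 : ℕ

noncomputable section

/-- Value in units `2^-14`. -/
def nz (n : ℕ) : ℝ := (n : ℝ) / 16384

/-- Value in units `2^-30`. -/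
def ne (n : ℕ) : ℝ := (n : ℝ) / 1073741824

/-- The multiplier `c0 = (1/500) Z1` of the second moment. -/
def PCell.c0 (d : PCell) : ℝ := nz d.Z1 / 500

/-- The chord of the exponential. -/
def chordQ (z1 z2 e1 e2 : ℝ) : ℝ := bw * (e1 - e2) / (z2 - z1)

/-- The constant of the plane. -/
def planeV (z1 p F g e1 q : ℝ) : ℝ := aw - aw * F * (1 + p * g) - bw * (1 - e1) + q * z1

/-- The range of `x` along each curve, as a function of a point of the unit interval. -/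
def xOf (k : ℕ) (x : ℝ) : ℝ :=
  match k with
  | 0 => x
  | 1 => x / 2
  | _ => (1 + x) / 2

/-- The polynomial of a Poisson cell. -/
def GPoi (d : PCell) (k : ℕ) (x y : ℝ) : ℝ :=
  GG (aw * ne d.E) (chordQ (nz d.Z1) (nz d.Z2) (ne d.E1) (ne d.E2))
    (planeV (nz d.Z1) (nz d.p) (ne d.E) 1 (ne d.E1) (chordQ (nz d.Z1) (nz d.Z2) (ne d.E1) (ne d.E2)))
    d.c0 (xOf k x ^ 2) (rc k (xOf k x)) (tauOf y)

/-- The upper enclosure of `(1 - t^2 Z)^(1/t^2)` relative to `exp (-Z)`. -/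
def eR (z e t : ℝ) : ℝ :=
  let T := t ^ 2 * z ^ 2 / 2 + t ^ 4 * z ^ 3 / 3 + t ^ 6 * z ^ 4 / 4
  e * (1 - T + T ^ 2 / 2)

/-- The lower enclosure of `(1 - t^2 p)^(1/t^2)` relative to `exp (-p)`. -/
def fR (p e t : ℝ) : ℝ :=
  let T := t ^ 2 * p ^ 2 / 2 + t ^ 4 * p ^ 3 / 3 + t ^ 6 * p ^ 4 / 4 + 10 / 7 * t ^ 8 * p ^ 5
  e * (1 - T + T ^ 2 / 2 - T ^ 3 / 6)

/-- The reciprocal in the tangent. -/
def gR (p t : ℝ) : ℝ := (1 - t ^ 2 * p)⁻¹

/-- The polynomial of a regular cell. -/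
def GReg (d : PCell) (k : ℕ) (x y : ℝ) : ℝ :=
  let t := tauOf y
  let F := fR (nz d.p) (ne d.E) t
  let g := gR (nz d.p) t
  let e1 := eR (nz d.Z1) (ne d.E1) t
  let e2 := eR (nz d.Z2) (ne d.E2) t
  let q := chordQ (nz d.Z1) (nz d.Z2) e1 e2
  GG (aw * F * g) q (planeV (nz d.Z1) (nz d.p) F g e1 q) d.c0 (xOf k x ^ 2) (rc k (xOf k x)) t

end

/-- One. -/
def oneT (c : Cfg) : TMod := ofRat c 1 1

/-- The range of `x` on models. -/
def xT (c : Cfg) (k : ℕ) (a : TMod) : TMod :=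
  match k with
  | 0 => a
  | 1 => mulT c (ofRat c 1 2) a
  | _ => mulT c (ofRat c 1 2) (addT c (oneT c) a)

theorem xT_rep {c : Cfg} {ξ η : ℝ} (C : Ctx c ξ η) (k : ℕ) {a : TMod} {x : ℝ}
    (h : RepAt c ξ η a x) : RepAt c ξ η (xT c k a) (xOf k x) := by
  match k with
  | 0 => exact h
  | 1 =>
    show RepAt c ξ η (mulT c (ofRat c 1 2) a) (x / 2)
    exact (repAt_mul C (repAt_ofRat C 1 2) h).congr (by push_cast; ring)
  | n + 2 =>
    show RepAt c ξ η (mulT c (ofRat c 1 2) (addT c (oneT c) a)) ((1 + x) / 2)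
    exact (repAt_mul C (repAt_ofRat C 1 2) (repAt_add C
      ((repAt_ofRat C 1 1).congr (by norm_num) : RepAt c ξ η (oneT c) 1) h)).congr (by push_cast; ring)

/-- Program of a Poisson cell. -/
def FPoi (c : Cfg) (d : PCell) (k : ℕ) (a b : TMod) : TMod :=
  (fun P q c0 => (fun v =>
    withSCN c k (xT c k a) b (fun S Z N A _ =>
      subT c (subT c (addT c (subT c N (mulT c P S)) (mulT c q Z)) v) (mulT c c0 A)))
    (addT c (subT c (subT c (ofRat c 384 37)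
        (mulT c (mulT c (ofRat c 384 37) (ofRat c d.E 1073741824))
          (addT c (oneT c) (mulT c (ofRat c d.p 16384) (oneT c)))))
        (mulT c (ofRat c 291 37) (subT c (oneT c) (ofRat c d.E1 1073741824))))
      (mulT c q (ofRat c d.Z1 16384))))
    (mulT c (ofRat c 384 37) (ofRat c d.E 1073741824))
    (mulT c (ofRat c 291 37) (mulT c (subT c (ofRat c d.E1 1073741824) (ofRat c d.E2 1073741824))
      (invT c (subT c (ofRat c d.Z2 16384) (ofRat c d.Z1 16384)))))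
    (ofRat c d.Z1 (500 * 16384))

theorem FPoi_rep (c : Cfg) (d : PCell) (k : ℕ) (ξ η : ℝ) (C : Ctx c ξ η) (a b : TMod) (x y : ℝ)
    (ha : RepAt c ξ η a x) (hb : RepAt c ξ η b y) : RepAt c ξ η (FPoi c d k a b) (GPoi d k x y) := by
  have one : RepAt c ξ η (oneT c) 1 := (repAt_ofRat C 1 1).congr (by norm_num)
  have hE : RepAt c ξ η (ofRat c d.E 1073741824) (ne d.E) := (repAt_ofRat C d.E 1073741824).congr (by unfold ne; norm_num)
  have hE1 : RepAt c ξ η (ofRat c d.E1 1073741824) (ne d.E1) := (repAt_ofRat C d.E1 1073741824).congr (by unfold ne; norm_num)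
  have hE2 : RepAt c ξ η (ofRat c d.E2 1073741824) (ne d.E2) := (repAt_ofRat C d.E2 1073741824).congr (by unfold ne; norm_num)
  have hp : RepAt c ξ η (ofRat c d.p 16384) (nz d.p) := (repAt_ofRat C d.p 16384).congr (by unfold nz; norm_num)
  have hZ1 : RepAt c ξ η (ofRat c d.Z1 16384) (nz d.Z1) := (repAt_ofRat C d.Z1 16384).congr (by unfold nz; norm_num)
  have hZ2 : RepAt c ξ η (ofRat c d.Z2 16384) (nz d.Z2) := (repAt_ofRat C d.Z2 16384).congr (by unfold nz; norm_num)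
  have hac : RepAt c ξ η (ofRat c 384 37) aw := (repAt_ofRat C 384 37).congr (by unfold aw; norm_num)
  have hbc : RepAt c ξ η (ofRat c 291 37) bw := (repAt_ofRat C 291 37).congr (by unfold bw; norm_num)
  have hP := repAt_mul C hac hE
  have hq : RepAt c ξ η _ (chordQ (nz d.Z1) (nz d.Z2) (ne d.E1) (ne d.E2)) :=
    (repAt_mul C hbc (repAt_mul C (repAt_sub C hE1 hE2) (repAt_inv C (repAt_sub C hZ2 hZ1)))).congr
      (by unfold chordQ; ring)
  have hc0 : RepAt c ξ η (ofRat c d.Z1 (500 * 16384)) d.c0 :=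
    (repAt_ofRat C d.Z1 (500 * 16384)).congr (by unfold PCell.c0 nz; push_cast; ring)
  have hv : RepAt c ξ η _ (planeV (nz d.Z1) (nz d.p) (ne d.E) 1 (ne d.E1) (chordQ (nz d.Z1) (nz d.Z2) (ne d.E1) (ne d.E2))) :=
    (repAt_add C (repAt_sub C (repAt_sub C hac
        (repAt_mul C (repAt_mul C hac hE) (repAt_add C one (repAt_mul C hp one))))
        (repAt_mul C hbc (repAt_sub C one hE1)))
      (repAt_mul C hq hZ1)).congr (by unfold planeV; ring)
  refine withSCN_rep C k (xT_rep C k ha) hb ?_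
  intro S Z N A t hS hZ hN hA _
  exact (repAt_sub C (repAt_sub C (repAt_add C (repAt_sub C hN (repAt_mul C hP hS)) (repAt_mul C hq hZ)) hv)
    (repAt_mul C hc0 hA)).congr (by unfold GPoi GG; ring)

/-- The enclosure `eR` on models, from the powers of `t`. -/
def eRT (c : Cfg) (z e : ℕ) (t2 t4 t6 : TMod) : TMod :=
  (fun T =>
    mulT c (ofRat c e 1073741824)
      (addT c (subT c (oneT c) T) (mulT c (ofRat c 1 2) (mulT c T T))))
  (addT c (addT c (mulT c t2 (ofRat c (z ^ 2) (2 * 16384 ^ 2))) (mulT c t4 (ofRat c (z ^ 3) (3 * 16384 ^ 3))))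
    (mulT c t6 (ofRat c (z ^ 4) (4 * 16384 ^ 4))))

theorem eRT_rep {c : Cfg} {ξ η : ℝ} (C : Ctx c ξ η) (z e : ℕ) {t2 t4 t6 : TMod} {t : ℝ}
    (h2 : RepAt c ξ η t2 (t ^ 2)) (h4 : RepAt c ξ η t4 (t ^ 4)) (h6 : RepAt c ξ η t6 (t ^ 6)) :
    RepAt c ξ η (eRT c z e t2 t4 t6) (eR (nz z) (ne e) t) := by
  have one : RepAt c ξ η (oneT c) 1 := (repAt_ofRat C 1 1).congr (by norm_num)
  have hT : RepAt c ξ η _ (t ^ 2 * nz z ^ 2 / 2 + t ^ 4 * nz z ^ 3 / 3 + t ^ 6 * nz z ^ 4 / 4) :=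
    (repAt_add C (repAt_add C (repAt_mul C h2 (repAt_ofRat C (z ^ 2) (2 * 16384 ^ 2)))
      (repAt_mul C h4 (repAt_ofRat C (z ^ 3) (3 * 16384 ^ 3))))
      (repAt_mul C h6 (repAt_ofRat C (z ^ 4) (4 * 16384 ^ 4)))).congr
      (by unfold nz; push_cast; ring)
  exact (repAt_mul C (repAt_ofRat C e 1073741824)
    (repAt_add C (repAt_sub C one hT) (repAt_mul C (repAt_ofRat C 1 2) (repAt_mul C hT hT)))).congr
    (by unfold eR ne; push_cast; ring)

/-- The enclosure `fR` on models, from the powers of `t`. -/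
def fRT (c : Cfg) (p e : ℕ) (t2 t4 t6 t8 : TMod) : TMod :=
  (fun T => (fun T2 =>
    mulT c (ofRat c e 1073741824)
      (subT c (addT c (subT c (oneT c) T) (mulT c (ofRat c 1 2) T2)) (mulT c (ofRat c 1 6) (mulT c T2 T))))
    (mulT c T T))
  (addT c (addT c (addT c (mulT c t2 (ofRat c (p ^ 2) (2 * 16384 ^ 2))) (mulT c t4 (ofRat c (p ^ 3) (3 * 16384 ^ 3))))
    (mulT c t6 (ofRat c (p ^ 4) (4 * 16384 ^ 4)))) (mulT c t8 (ofRat c (10 * p ^ 5) (7 * 16384 ^ 5))))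

theorem fRT_rep {c : Cfg} {ξ η : ℝ} (C : Ctx c ξ η) (p e : ℕ) {t2 t4 t6 t8 : TMod} {t : ℝ}
    (h2 : RepAt c ξ η t2 (t ^ 2)) (h4 : RepAt c ξ η t4 (t ^ 4)) (h6 : RepAt c ξ η t6 (t ^ 6))
    (h8 : RepAt c ξ η t8 (t ^ 8)) :
    RepAt c ξ η (fRT c p e t2 t4 t6 t8) (fR (nz p) (ne e) t) := by
  have one : RepAt c ξ η (oneT c) 1 := (repAt_ofRat C 1 1).congr (by norm_num)
  have hT : RepAt c ξ η _ (t ^ 2 * nz p ^ 2 / 2 + t ^ 4 * nz p ^ 3 / 3 + t ^ 6 * nz p ^ 4 / 4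
      + 10 / 7 * t ^ 8 * nz p ^ 5) :=
    (repAt_add C (repAt_add C (repAt_add C (repAt_mul C h2 (repAt_ofRat C (p ^ 2) (2 * 16384 ^ 2)))
      (repAt_mul C h4 (repAt_ofRat C (p ^ 3) (3 * 16384 ^ 3))))
      (repAt_mul C h6 (repAt_ofRat C (p ^ 4) (4 * 16384 ^ 4))))
      (repAt_mul C h8 (repAt_ofRat C (10 * p ^ 5) (7 * 16384 ^ 5)))).congr
      (by unfold nz; push_cast; ring)
  have hT2 := repAt_mul C hT hT
  exact (repAt_mul C (repAt_ofRat C e 1073741824)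
    (repAt_sub C (repAt_add C (repAt_sub C one hT) (repAt_mul C (repAt_ofRat C 1 2) hT2))
      (repAt_mul C (repAt_ofRat C 1 6) (repAt_mul C hT2 hT)))).congr
    (by unfold fR ne; push_cast; ring)

/-- Program of a regular cell. -/
def FReg (c : Cfg) (d : PCell) (k : ℕ) (a b : TMod) : TMod :=
  withSCN c k (xT c k a) b (fun S Z N A t =>
    (fun t2 => (fun t4 => (fun t6 t8 =>
    (fun F g e1 e2 =>
    (fun q =>
    (fun v =>
      subT c (subT c (addT c (subT c N (mulT c (mulT c (mulT c (ofRat c 384 37) F) g) S)) (mulT c q Z)) v)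
        (mulT c (ofRat c d.Z1 (500 * 16384)) A))
    (addT c (subT c (subT c (ofRat c 384 37)
        (mulT c (mulT c (ofRat c 384 37) F) (addT c (oneT c) (mulT c (ofRat c d.p 16384) g))))
        (mulT c (ofRat c 291 37) (subT c (oneT c) e1)))
      (mulT c q (ofRat c d.Z1 16384))))
    (mulT c (ofRat c 291 37) (mulT c (subT c e1 e2)
      (invT c (subT c (ofRat c d.Z2 16384) (ofRat c d.Z1 16384))))))
    (fRT c d.p d.E t2 t4 t6 t8)
    (invT c (subT c (oneT c) (mulT c t2 (ofRat c d.p 16384))))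
    (eRT c d.Z1 d.E1 t2 t4 t6) (eRT c d.Z2 d.E2 t2 t4 t6))
    (mulT c t4 t2) (mulT c t4 t4))
    (mulT c t2 t2))
    (mulT c t t))

theorem FReg_rep (c : Cfg) (d : PCell) (k : ℕ) (ξ η : ℝ) (C : Ctx c ξ η) (a b : TMod) (x y : ℝ)
    (ha : RepAt c ξ η a x) (hb : RepAt c ξ η b y) : RepAt c ξ η (FReg c d k a b) (GReg d k x y) := by
  have one : RepAt c ξ η (oneT c) 1 := (repAt_ofRat C 1 1).congr (by norm_num)
  have hp : RepAt c ξ η (ofRat c d.p 16384) (nz d.p) := (repAt_ofRat C d.p 16384).congr (by unfold nz; norm_num)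
  have hZ1 : RepAt c ξ η (ofRat c d.Z1 16384) (nz d.Z1) := (repAt_ofRat C d.Z1 16384).congr (by unfold nz; norm_num)
  have hZ2 : RepAt c ξ η (ofRat c d.Z2 16384) (nz d.Z2) := (repAt_ofRat C d.Z2 16384).congr (by unfold nz; norm_num)
  have hac : RepAt c ξ η (ofRat c 384 37) aw := (repAt_ofRat C 384 37).congr (by unfold aw; norm_num)
  have hbc : RepAt c ξ η (ofRat c 291 37) bw := (repAt_ofRat C 291 37).congr (by unfold bw; norm_num)
  have hc0 : RepAt c ξ η (ofRat c d.Z1 (500 * 16384)) d.c0 :=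
    (repAt_ofRat C d.Z1 (500 * 16384)).congr (by unfold PCell.c0 nz; push_cast; ring)
  refine withSCN_rep C k (xT_rep C k ha) hb ?_
  intro S Z N A t hS hZ hN hA ht
  have t2 : RepAt c ξ η (mulT c t t) (tauOf y ^ 2) := (repAt_mul C ht ht).congr (by ring)
  have t4 : RepAt c ξ η (mulT c (mulT c t t) (mulT c t t)) (tauOf y ^ 4) := (repAt_mul C t2 t2).congr (by ring)
  have t6 : RepAt c ξ η (mulT c (mulT c (mulT c t t) (mulT c t t)) (mulT c t t)) (tauOf y ^ 6) :=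
    (repAt_mul C t4 t2).congr (by ring)
  have t8 : RepAt c ξ η (mulT c (mulT c (mulT c t t) (mulT c t t)) (mulT c (mulT c t t) (mulT c t t))) (tauOf y ^ 8) :=
    (repAt_mul C t4 t4).congr (by ring)
  have hF := fRT_rep C d.p d.E t2 t4 t6 t8
  have hg : RepAt c ξ η _ (gR (nz d.p) (tauOf y)) :=
    (repAt_inv C (repAt_sub C one (repAt_mul C t2 hp))).congr (by unfold gR; ring)
  have he1 := eRT_rep C d.Z1 d.E1 t2 t4 t6
  have he2 := eRT_rep C d.Z2 d.E2 t2 t4 t6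
  have hq : RepAt c ξ η _ (chordQ (nz d.Z1) (nz d.Z2) (eR (nz d.Z1) (ne d.E1) (tauOf y)) (eR (nz d.Z2) (ne d.E2) (tauOf y))) :=
    (repAt_mul C hbc (repAt_mul C (repAt_sub C he1 he2) (repAt_inv C (repAt_sub C hZ2 hZ1)))).congr
      (by unfold chordQ; ring)
  have hv := repAt_add C (repAt_sub C (repAt_sub C hac
        (repAt_mul C (repAt_mul C hac hF) (repAt_add C one (repAt_mul C hp hg))))
        (repAt_mul C hbc (repAt_sub C one he1)))
      (repAt_mul C hq hZ1)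
  exact (repAt_sub C (repAt_sub C (repAt_add C (repAt_sub C hN
      (repAt_mul C (repAt_mul C (repAt_mul C hac hF) hg) hS)) (repAt_mul C hq hZ)) hv)
    (repAt_mul C hc0 hA)).congr (by unfold GReg GG planeV; ring)

end Vale.Agent.P154.Hel.Q3
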