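import Mathlib

/-!
Definitions of the two-character certificate for `q = 3`, `lam = -tau`, `tau^2 <= 1/6`.
Everything here is plain polynomial data. `A`, `R` are the normalised moments of a mean-one triple,
`A = (sum alpha_i^2)/6`, `R = (sum alpha_i^3)/6`, `alpha_i = u_i - 1`.
-/

namespace Vale.Agent.P154.Hel.Q3

noncomputable section

/-- Weight of the main character. -/
def aw : ℝ := 384 / 37
/-- Weight of the centre character. -/
def bw : ℝ := 291 / 37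

/-- The lower polynomial in `(C2)`: `a phi_s - b phi_c >= A + Npoly A R` on all mean-one triples. -/
def Npoly (A R : ℝ) : ℝ :=
  (-318 * R ^ 2 + 100 * A * R - 46 * A * R ^ 2 + 308 * A ^ 2 + 1173 * A ^ 2 * R
    - 498 * A ^ 2 * R ^ 2 - 14 * A ^ 3 - 2203 * A ^ 3 * R - 172 * A ^ 4 + 2580 * A ^ 5) / 1024

/-- The upper polynomial in `(C1)`: `phi_s <= (41/48) A - (97/192) R + Upoly A R` on the
mean-one triples with all coordinates at most `1 + tau0`. -/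
def Upoly (A R : ℝ) : ℝ :=
  (129 * R ^ 2 - 923 * A * R + 820 * A ^ 2 - 5908 * A ^ 2 * R + 61440 * A ^ 2 * R ^ 2
    + 1633 * A ^ 3 + 8390 * A ^ 3 * R - 8512 * A ^ 4 + 61440 * A ^ 5) / 1024

/-- `Upoly (tau^2 A) (-tau^3 R) / tau^2`, written as a polynomial in `tau`. -/
def Utau (A R t : ℝ) : ℝ :=
  (129 * t ^ 4 * R ^ 2 + 923 * t ^ 3 * A * R + 820 * t ^ 2 * A ^ 2 + 5908 * t ^ 5 * A ^ 2 * R
    + 61440 * t ^ 8 * A ^ 2 * R ^ 2 + 1633 * t ^ 4 * A ^ 3 - 8390 * t ^ 7 * A ^ 3 * R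
    - 8512 * t ^ 6 * A ^ 4 + 61440 * t ^ 8 * A ^ 5) / 1024

/-- Upper bound of `psi_s / (mass * tau^2)`. -/
def zetaS (A R t : ℝ) : ℝ := 41 / 48 * A + 97 / 192 * t * R + Utau A R t

/-- Lower bound of `psi_c / (mass * tau^2)`. -/
def zetaC (A R t : ℝ) : ℝ :=
  (3 * A + 2 * t * R) / 3 + t ^ 2 * (3 * A + 2 * t * R) ^ 2 / 9
    + 5 / 81 * t ^ 4 * (27 * A ^ 3 + 54 * A ^ 2 * t * R)
    + 10 / 243 * t ^ 6 * (81 * A ^ 4 + 216 * A ^ 3 * t * R)

/-- The upper end of the range of `tau`; `1/6 < tauMax^2`. -/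
def tauMax : ℝ := 3345 / 8192

theorem Utau_eq (A R t : ℝ) (ht : t ≠ 0) :
    Utau A R t = Upoly (t ^ 2 * A) (-(t ^ 3 * R)) / t ^ 2 := by
  unfold Utau Upoly
  field_simp
  ring

end

end Vale.Agent.P154.Hel.Q3
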