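import Vale.Agent.P154.Hel.Q3CellData

/-!
Rational bounds of the exponential, checked by arithmetic of naturals.
-/

namespace Vale.Agent.P154.Hel.Q3

/-- Numerator of the Taylor polynomial of degree `9` of `exp (z / 2^17)`. -/
def tayLo (z : ℕ) : ℕ :=
  2 ^ 153 * 362880 + z * 2 ^ 136 * 362880 + z ^ 2 * 2 ^ 119 * 181440 + z ^ 3 * 2 ^ 102 * 60480
    + z ^ 4 * 2 ^ 85 * 15120 + z ^ 5 * 2 ^ 68 * 3024 + z ^ 6 * 2 ^ 51 * 504 + z ^ 7 * 2 ^ 34 * 72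
    + z ^ 8 * 2 ^ 17 * 9 + z ^ 9

/-- The common denominator of the Taylor polynomial. -/
def tayD : ℕ := 2 ^ 153 * 362880

theorem tay_sum (z : ℕ) :
    ∑ i ∈ Finset.range 10, ((z : ℝ) / 2 ^ 17) ^ i / (i.factorial : ℝ) = (tayLo z : ℝ) / tayD := by
  simp only [Finset.sum_range_succ, Finset.sum_range_zero, Nat.factorial, tayLo, tayD]
  push_cast
  field_simp
  ring

theorem tay_lo (z : ℕ) : (tayLo z : ℝ) / tayD ≤ Real.exp ((z : ℝ) / 2 ^ 17) := by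
  rw [← tay_sum]
  exact Real.sum_le_exp_of_nonneg (by positivity) 10

theorem tay_up {z : ℕ} (hz : z ≤ 2 ^ 17) :
    Real.exp ((z : ℝ) / 2 ^ 17) ≤ ((tayLo z : ℝ) + (z : ℝ) ^ 9) / tayD := by
  have hz' : (z : ℝ) ≤ 2 ^ 17 := by exact_mod_cast hz
  have h0 : (0 : ℝ) ≤ (z : ℝ) / 2 ^ 17 := by positivity
  have h1 : (z : ℝ) / 2 ^ 17 ≤ 1 := by
    rw [div_le_one (by positivity)]
    exact hz'
  have h := Real.exp_bound' h0 h1 (n := 10) (by norm_num)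
  rw [tay_sum] at h
  refine h.trans ?_
  rw [add_div]
  refine add_le_add_right ?_ _
  set y : ℝ := (z : ℝ) / 2 ^ 17 with hy
  have e : (z : ℝ) ^ 9 / (tayD : ℝ) = y ^ 9 / 362880 := by
    have hD : (tayD : ℝ) = (2 ^ 17) ^ 9 * 362880 := by
      unfold tayD
      push_cast
      norm_num
    rw [hy, div_pow, hD, div_div]
  rw [e]
  have hf : ((Nat.factorial 10 : ℕ) : ℝ) = 3628800 := by norm_num [Nat.factorial]
  rw [hf]
  have hy9 : 0 ≤ y ^ 9 := by positivity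
  have : y ^ 10 = y ^ 9 * y := by ring
  rw [this]
  have h2 : y ^ 9 * y ≤ y ^ 9 * 1 := mul_le_mul_of_nonneg_left h1 hy9
  push_cast
  have : y ^ 9 * y * ((10 : ℝ) + 1) / (3628800 * (10 : ℝ)) ≤ y ^ 9 * 1 * ((10 : ℝ) + 1) / (3628800 * (10 : ℝ)) := by
    apply div_le_div_of_nonneg_right _ (by norm_num)
    exact mul_le_mul_of_nonneg_right h2 (by norm_num)
  refine this.trans ?_
  rw [div_le_div_iff₀ (by norm_num) (by norm_num)]
  nlinarith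

theorem nz_eq (z : ℕ) : nz z = 8 * ((z : ℝ) / 2 ^ 17) := by
  unfold nz
  norm_num
  ring

theorem exp_nz (z : ℕ) : Real.exp (nz z) = Real.exp ((z : ℝ) / 2 ^ 17) ^ 8 := by
  rw [nz_eq, ← Real.exp_nat_mul]
  norm_num

theorem tayD_pos : (0 : ℝ) < (tayD : ℝ) := by
  unfold tayD
  positivity

theorem ne_le_exp {e z : ℕ} (hz : z ≤ 2 ^ 17) (h : e * (tayLo z + z ^ 9) ^ 8 ≤ 2 ^ 30 * tayD ^ 8) :
    ne e ≤ Real.exp (-nz z) := by
  have hD := tayD_pos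
  have h' : (e : ℝ) * ((tayLo z : ℝ) + (z : ℝ) ^ 9) ^ 8 ≤ 2 ^ 30 * (tayD : ℝ) ^ 8 := by exact_mod_cast h
  have h2 : Real.exp ((z : ℝ) / 2 ^ 17) ^ 8 ≤ (((tayLo z : ℝ) + (z : ℝ) ^ 9) / tayD) ^ 8 :=
    pow_le_pow_left₀ (Real.exp_pos _).le (tay_up hz) 8
  rw [Real.exp_neg, exp_nz]
  have hp : 0 < Real.exp ((z : ℝ) / 2 ^ 17) ^ 8 := by positivity
  rw [← one_div, le_div_iff₀ hp]
  unfold ne
  rw [div_mul_eq_mul_div, div_le_one (by positivity)]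
  calc (e : ℝ) * Real.exp ((z : ℝ) / 2 ^ 17) ^ 8
      ≤ (e : ℝ) * (((tayLo z : ℝ) + (z : ℝ) ^ 9) / tayD) ^ 8 := mul_le_mul_of_nonneg_left h2 (by positivity)
    _ ≤ 1073741824 := by
        rw [div_pow, ← mul_div_assoc, div_le_iff₀ (by positivity)]
        linarith

theorem exp_le_ne {e z : ℕ} (h : 2 ^ 30 * tayD ^ 8 ≤ e * tayLo z ^ 8) :
    Real.exp (-nz z) ≤ ne e := by
  have hD := tayD_pos
  have h' : (2 : ℝ) ^ 30 * (tayD : ℝ) ^ 8 ≤ (e : ℝ) * (tayLo z : ℝ) ^ 8 := by exact_mod_cast h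
  have h2 : ((tayLo z : ℝ) / tayD) ^ 8 ≤ Real.exp ((z : ℝ) / 2 ^ 17) ^ 8 :=
    pow_le_pow_left₀ (by positivity) (tay_lo z) 8
  rw [Real.exp_neg, exp_nz]
  have hp : 0 < Real.exp ((z : ℝ) / 2 ^ 17) ^ 8 := by positivity
  rw [← one_div, div_le_iff₀ hp]
  unfold ne
  rw [div_mul_eq_mul_div, le_div_iff₀ (by positivity)]
  calc (1 : ℝ) * 1073741824 ≤ (e : ℝ) * (((tayLo z : ℝ)) / tayD) ^ 8 := by
        rw [div_pow, ← mul_div_assoc, le_div_iff₀ (by positivity)]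
        linarith
    _ ≤ (e : ℝ) * Real.exp ((z : ℝ) / 2 ^ 17) ^ 8 := mul_le_mul_of_nonneg_left h2 (by positivity)

end Vale.Agent.P154.Hel.Q3
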