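import Vale.Agent.P154.Hel.Q3Plane

/-!
Layer G, first part, of the `q = 3`, `lam = -tau` certificate: the facts on the numbers `(y, Y)` that
follow from the hull condition.
-/

namespace Vale.Agent.P154.Hel.Q3

noncomputable section

open Finset

/-! ### Lower bound for `R` on the domain -/

theorem dom_R_ge {A R : ℝ} (hD : Dom A R) : -(A / 2) ≤ R := by
  obtain ⟨A0, A1, h3, h4⟩ := hD
  rcases le_total A (1 / 4) with h | h
  · by_contra hc
    push Not at hc
    have h5 : (A / 2) ^ 2 < R ^ 2 := by nlinarith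
    have h6 : A ^ 3 ≤ A ^ 2 / 4 := by nlinarith [sq_nonneg A, mul_nonneg (sq_nonneg A) (sub_nonneg.2 h)]
    nlinarith
  · linarith

/-- `A` from above through `zetaC`. -/
theorem A_le_zetaC {A R t : ℝ} (hD : Dom A R) (h0 : 0 ≤ t) (h1 : t ≤ tauMax) :
    A ≤ 29 / 25 * zetaC A R t := by
  have hR := dom_R_ge hD
  have A0 := hD.1
  have ht : t ≤ 3345 / 8192 := h1
  have htR : -(t * A / 2) ≤ t * R := by nlinarith
  have hW : A * (3 - t) ≤ 3 * A + 2 * t * R := by nlinarith
  have W0 : 0 ≤ 3 * A + 2 * t * R := by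
    have : 0 ≤ A * (3 - t) := mul_nonneg A0 (by linarith)
    linarith
  have a1 : 0 ≤ A + 2 * (t * R) := by nlinarith
  have a2 : 0 ≤ 3 * A + 8 * (t * R) := by nlinarith
  have b1 : 0 ≤ 27 * A ^ 3 + 54 * A ^ 2 * t * R := by
    have : 0 ≤ 27 * A ^ 2 * (A + 2 * (t * R)) := by positivity
    nlinarith
  have b2 : 0 ≤ 81 * A ^ 4 + 216 * A ^ 3 * t * R := by
    have : 0 ≤ 27 * A ^ 3 * (3 * A + 8 * (t * R)) := by positivity
    nlinarith
  have b3 : 0 ≤ t ^ 2 * (3 * A + 2 * t * R) ^ 2 / 9 := by positivity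
  have b4 : 0 ≤ 5 / 81 * t ^ 4 * (27 * A ^ 3 + 54 * A ^ 2 * t * R) := by positivity
  have b5 : 0 ≤ 10 / 243 * t ^ 6 * (81 * A ^ 4 + 216 * A ^ 3 * t * R) := by positivity
  unfold zetaC
  have c1 : A * (1 - t / 3) ≤ (3 * A + 2 * t * R) / 3 := by linarith
  have c2 : A ≤ 29 / 25 * (A * (1 - t / 3)) := by nlinarith
  nlinarith

/-! ### The ratio of the two characters -/

/-- Coefficient functions of the ratio inequality at `tauMax`. -/
def H0 (A : ℝ) : ℝ :=
  83 / 6000 + 962703711 / 85899345920 * A - 18981122173387425 / 4611686018427387904 * A ^ 2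
    + 251154448054197658543125 / 4835703278458516698824704 * A ^ 3
    - 235104117863246175795943359375 / 5070602400912917605986812821504 * A ^ 4
/-- Coefficient functions of the ratio inequality at `tauMax`. -/
def H1 (A : ℝ) : ℝ :=
  393149 / 13107200 + 9810041669973 / 562949953421312 * A
    - 308346727219888951125 / 9444732965739290427392 * A ^ 2
    + 38166591377892603364177021875 / 1267650600228229401496703205376 * A ^ 3
/-- Coefficient functions of the ratio inequality at `tauMax`. -/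
def H2 (A : ℝ) : ℝ :=
  33306241235864895 / 4611686018427387904 * A
    - 235104117863246175795943359375 / 5070602400912917605986812821504 * A ^ 3

theorem ratio_identity (A r : ℝ) :
    217 / 250 * zetaC A (A * r) tauMax - zetaS A (A * r) tauMax
      = A * (H0 A + H1 A * r + H2 A * r ^ 2) := by
  unfold zetaC zetaS Utau tauMax H0 H1 H2
  ring

theorem H1_pos {A : ℝ} (h0 : 0 ≤ A) (h1 : A ≤ 1) : 0 < H1 A := by
  unfold H1
  have h2 : A ^ 2 ≤ 1 := pow_le_one₀ h0 h1
  have h3 := pow_nonneg h0 3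
  norm_num at h2 h3 ⊢
  nlinarith

theorem region1 {A r : ℝ} (A0 : 0 ≤ A) (hr2 : r ^ 2 ≤ A) (hc : A ≤ 1 / 4) :
    0 ≤ H0 A + H1 A * r + H2 A * r ^ 2 := by
  have hH1 := H1_pos A0 (by linarith)
  have hlow : -(A + 1 / 4) ≤ r := by
    by_contra hn
    push Not at hn
    nlinarith [sq_nonneg (A - 1 / 4)]
  obtain ⟨s, rfl⟩ : ∃ s, A = 1 / 4 - s := ⟨1 / 4 - A, by ring⟩
  have s0 : 0 ≤ s := by linarith
  have s1 : s ≤ 1 / 4 := by linarith
  have hH2 : 0 ≤ H2 (1 / 4 - s) := by
    unfold H2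
    have : (1 / 4 - s) ^ 3 = (1 / 4 - s) * (1 / 4 - s) ^ 2 := by ring
    rw [this]
    have a2 : (1 / 4 - s) ^ 2 ≤ 1 / 16 := by nlinarith
    have : 0 ≤ (1 / 4 - s) * (33306241235864895 / 4611686018427387904
        - 235104117863246175795943359375 / 5070602400912917605986812821504
          * (1 / 4 - s) ^ 2) := by
      apply mul_nonneg (by linarith)
      norm_num at a2 ⊢
      linarith
    linarith
  have k1 : 0 ≤ H1 (1 / 4 - s) * (r + ((1 / 4 - s) + 1 / 4)) :=
    mul_nonneg hH1.le (by linarith)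
  have k2 : 0 ≤ H2 (1 / 4 - s) * r ^ 2 := mul_nonneg hH2 (sq_nonneg r)
  have k3 : 0 ≤ H0 (1 / 4 - s) - H1 (1 / 4 - s) * ((1 / 4 - s) + 1 / 4) := by
    have p2 := pow_nonneg s0 2
    have p3 : s ^ 3 ≤ s ^ 2 / 4 := by nlinarith
    have p4 : s ^ 4 ≤ s ^ 2 / 16 := by nlinarith
    have p5 : 0 ≤ s ^ 3 := pow_nonneg s0 3
    unfold H0 H1
    norm_num at p2 p3 p4 p5 ⊢
    linarith
  nlinarith

theorem region2_base {A : ℝ} (hc : 1 / 4 ≤ A) (hc2 : A ≤ 1 / 2) :
    0 ≤ H0 A + H1 A * (4 * A - 3 / 2) + H2 A * (4 * A - 3 / 2) ^ 2 := by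
  obtain ⟨s, rfl⟩ : ∃ s, A = 1 / 4 + s := ⟨A - 1 / 4, by ring⟩
  have s0 : 0 ≤ s := by linarith
  have s1 : s ≤ 1 / 4 := by linarith
  have p2 := pow_nonneg s0 2
  have p3 := pow_nonneg s0 3
  have p4 : s ^ 4 ≤ s ^ 3 / 4 := by nlinarith
  have p5 : s ^ 5 ≤ s ^ 3 / 16 := by nlinarith [pow_nonneg s0 4]
  have p6 : s ^ 3 ≤ s ^ 2 / 4 := by nlinarith
  unfold H0 H1 H2
  norm_num at p2 p3 p4 p5 p6 ⊢
  linarith

theorem region2 {A r : ℝ} (hr2 : r ^ 2 ≤ A) (h4 : 3 * A - 1 ≤ 2 * (A * r)) (hc : 1 / 4 ≤ A)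
    (hc2 : A ≤ 1 / 2) : 0 ≤ H0 A + H1 A * r + H2 A * r ^ 2 := by
  have A0 : 0 ≤ A := by linarith
  have hH1 := H1_pos A0 (by linarith)
  have hlow : 4 * A - 3 / 2 ≤ r := by
    by_contra hn
    push Not at hn
    have : 2 * A * r < 2 * A * (4 * A - 3 / 2) := by
      apply mul_lt_mul_of_pos_left hn (by linarith)
    nlinarith [mul_nonneg (sub_nonneg.2 hc2) (sub_nonneg.2 hc)]
  have hup : r ≤ 3 / 4 := by nlinarith
  have hup2 : -(3 / 4) ≤ r := by nlinarith
  have m2 : |H2 A| ≤ 1 / 200 := by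
    unfold H2
    have p3 : A ^ 3 ≤ 1 / 8 := by
      calc A ^ 3 ≤ (1 / 2) ^ 3 := pow_le_pow_left₀ A0 hc2 3
        _ = 1 / 8 := by norm_num
    have p4 := pow_nonneg A0 3
    rw [abs_le]
    norm_num at p3 p4 ⊢
    constructor <;> linarith
  have m1 : 3 / 100 ≤ H1 A := by
    unfold H1
    have h2 : A ^ 2 ≤ 1 / 4 := by nlinarith
    have h3 := pow_nonneg A0 3
    norm_num at h2 h3 ⊢
    nlinarith
  have hsum : |r + (4 * A - 3 / 2)| ≤ 2 := by
    rw [abs_le]
    constructor <;> linarith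
  have m3 : -(1 / 100) ≤ H2 A * (r + (4 * A - 3 / 2)) := by
    have := abs_mul (H2 A) (r + (4 * A - 3 / 2))
    have h2 : |H2 A| * |r + (4 * A - 3 / 2)| ≤ 1 / 200 * 2 :=
      mul_le_mul m2 hsum (abs_nonneg _) (by norm_num)
    have h3 := neg_abs_le (H2 A * (r + (4 * A - 3 / 2)))
    linarith
  have diff : 0 ≤ (r - (4 * A - 3 / 2)) * (H1 A + H2 A * (r + (4 * A - 3 / 2))) :=
    mul_nonneg (by linarith) (by linarith)
  have base := region2_base hc hc2
  nlinarith

theorem region3_base {A : ℝ} (hc2 : 1 / 2 ≤ A) (A1 : A ≤ 1) :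
    0 ≤ H0 A + H1 A * A + H2 A * A := by
  obtain ⟨s, rfl⟩ : ∃ s, A = 1 / 2 + s := ⟨A - 1 / 2, by ring⟩
  have s0 : 0 ≤ s := by linarith
  have s1 : s ≤ 1 / 2 := by linarith
  have p2 : s ^ 2 ≤ s / 2 := by nlinarith
  have p3 : s ^ 3 ≤ s / 4 := by nlinarith
  have p4 : s ^ 4 ≤ s / 8 := by nlinarith [pow_nonneg s0 3]
  unfold H0 H1 H2
  norm_num at p2 p3 p4 ⊢
  linarith

theorem region3 {A r : ℝ} (A1 : A ≤ 1) (hr2 : r ^ 2 ≤ A) (h4 : 3 * A - 1 ≤ 2 * (A * r))
    (hc2 : 1 / 2 ≤ A) : 0 ≤ H0 A + H1 A * r + H2 A * r ^ 2 := by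
  have A0 : 0 ≤ A := by linarith
  have hH1 := H1_pos A0 (by linarith)
  have hlow : A ≤ r := by
    by_contra hn
    push Not at hn
    have : 2 * A * r < 2 * A * A := by
      apply mul_lt_mul_of_pos_left hn (by linarith)
    nlinarith [mul_nonneg (sub_nonneg.2 A1) (sub_nonneg.2 hc2)]
  have hH2 : H2 A ≤ 0 := by
    unfold H2
    have : A ^ 3 = A * A ^ 2 := by ring
    rw [this]
    have a2 : 1 / 4 ≤ A ^ 2 := by nlinarith
    have : 0 ≤ A * (235104117863246175795943359375 / 5070602400912917605986812821504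
        * A ^ 2 - 33306241235864895 / 4611686018427387904) := by
      apply mul_nonneg A0
      norm_num at a2 ⊢
      linarith
    nlinarith
  have k1 : H1 A * A ≤ H1 A * r := mul_le_mul_of_nonneg_left hlow hH1.le
  have k2 : H2 A * A ≤ H2 A * r ^ 2 := mul_le_mul_of_nonpos_left hr2 hH2
  have base := region3_base hc2 A1
  linarith

/-- The ratio inequality at the largest `tau`. -/
theorem zeta_ratio_tau {A R : ℝ} (hD : Dom A R) :
    zetaS A R tauMax ≤ 217 / 250 * zetaC A R tauMax := by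
  obtain ⟨A0, A1, h3, h4⟩ := hD
  rcases eq_or_lt_of_le A0 with h | hA
  · subst h
    have hR : R = 0 := by
      have : R ^ 2 ≤ 0 := by simpa using h3
      nlinarith
    subst hR
    simp [zetaS, zetaC, Utau]
  · obtain ⟨r, rfl⟩ : ∃ r, R = A * r := ⟨R / A, by field_simp⟩
    have hr2 : r ^ 2 ≤ A := by
      have : A ^ 2 * r ^ 2 ≤ A ^ 2 * A := by nlinarith
      exact le_of_mul_le_mul_left this (by positivity)
    have e := ratio_identity A r
    suffices hH : 0 ≤ H0 A + H1 A * r + H2 A * r ^ 2 by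
      have := mul_nonneg A0 hH
      linarith
    rcases le_total A (1 / 4) with hc | hc
    · exact region1 A0 hr2 hc
    · rcases le_total A (1 / 2) with hc2 | hc2
      · exact region2 hr2 h4 hc hc2
      · exact region3 A1 hr2 h4 hc2

/-- Homogeneity of the upper bound under the scaling of `alpha`. -/
theorem zetaS_scale (A R k T : ℝ) :
    T ^ 2 * zetaS (k ^ 2 * A) (k ^ 3 * R) T = (k * T) ^ 2 * zetaS A R (k * T) := by
  unfold zetaS Utau
  ring

/-- Homogeneity of the lower bound under the scaling of `alpha`. -/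
theorem zetaC_scale (A R k T : ℝ) :
    T ^ 2 * zetaC (k ^ 2 * A) (k ^ 3 * R) T = (k * T) ^ 2 * zetaC A R (k * T) := by
  unfold zetaC
  ring

/-- The moments of a triple scaled towards its mean. -/
theorem dom_scale {u : Fin 3 → ℝ} (h : ∀ i, 0 ≤ u i) (hm : mass u = 1) {k : ℝ} (k0 : 0 ≤ k)
    (k1 : k ≤ 1) : Dom (k ^ 2 * AA u) (k ^ 3 * RR u) := by
  set v : Fin 3 → ℝ := fun i => 1 + k * (u i - 1) with hv
  have e1 : AA v = k ^ 2 * AA u := by
    unfold AA
    simp only [hv]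
    ring
  have e2 : RR v = k ^ 3 * RR u := by
    unfold RR
    simp only [hv]
    ring
  have hs := sum_of_mass hm
  have hmv : mass v = 1 := by
    unfold mass
    simp only [hv]
    linear_combination (k / 3) * hs
  have hvn : ∀ i, 0 ≤ v i := by
    intro i
    simp only [hv]
    have := h i
    nlinarith
  have := dom_of hvn hmv
  rwa [e1, e2] at this

/-- The ratio inequality for all `t`. -/
theorem zeta_ratio {u : Fin 3 → ℝ} (h : ∀ i, 0 ≤ u i) (hm : mass u = 1) {t : ℝ} (h0 : 0 < t)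
    (h1 : t ≤ tauMax) : zetaS (AA u) (RR u) t ≤ 217 / 250 * zetaC (AA u) (RR u) t := by
  have hT : 0 < tauMax := by
    unfold tauMax
    norm_num
  set k := t / tauMax with hk
  have k0 : 0 ≤ k := by positivity
  have k1 : k ≤ 1 := by
    rw [hk, div_le_one hT]
    exact h1
  have ekt : k * tauMax = t := by
    rw [hk]
    field_simp
  have hd := dom_scale h hm k0 k1
  have key := zeta_ratio_tau hd
  have s1 := zetaS_scale (AA u) (RR u) k tauMax
  have s2 := zetaC_scale (AA u) (RR u) k tauMax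
  rw [ekt] at s1 s2
  have ht2 : 0 < t ^ 2 := by positivity
  have hT2 : 0 < tauMax ^ 2 := by positivity
  have : tauMax ^ 2 * zetaS (k ^ 2 * AA u) (k ^ 3 * RR u) tauMax
      ≤ tauMax ^ 2 * (217 / 250 * zetaC (k ^ 2 * AA u) (k ^ 3 * RR u) tauMax) :=
    mul_le_mul_of_nonneg_left key hT2.le
  have e3 : tauMax ^ 2 * (217 / 250 * zetaC (k ^ 2 * AA u) (k ^ 3 * RR u) tauMax)
      = 217 / 250 * (tauMax ^ 2 * zetaC (k ^ 2 * AA u) (k ^ 3 * RR u) tauMax) := by ring
  rw [e3, s1, s2] at this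
  have e4 : 217 / 250 * (t ^ 2 * zetaC (AA u) (RR u) t)
      = t ^ 2 * (217 / 250 * zetaC (AA u) (RR u) t) := by ring
  rw [e4] at this
  exact le_of_mul_le_mul_left this ht2

/-- `psi sS <= (217/250) psi sC`. -/
theorem psiS_le_ratio (hE : E1) {x : Fin 3 → ℝ} (hx : ∀ i, 0 < x i) {t : ℝ} (h0 : 0 < t)
    (h1 : t ≤ tauMax) : psi sS (-t) x ≤ 217 / 250 * psi sC (-t) x := by
  have ht : t < 1 / 2 := lt_of_le_of_lt h1 tauMax_lt
  have hu : ∀ i, 0 ≤ nrm x i := fun i => (nrm_pos hx i).le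
  have hmu := mass_nrm hx
  have s1 := psiS_le hE hx h0 h1
  have s2 := psiC_ge hx h0 ht
  have hz := zeta_ratio hu hmu h0 h1
  have hm := mass_pos hx
  have : mass x * t ^ 2 * zetaS (AA (nrm x)) (RR (nrm x)) t
      ≤ mass x * t ^ 2 * (217 / 250 * zetaC (AA (nrm x)) (RR (nrm x)) t) :=
    mul_le_mul_of_nonneg_left hz (by positivity)
  nlinarith

/-! ### The hull facts -/

theorem yyv_nonneg {x : Fin 3 → ℝ} (hx : ∀ i, 0 < x i) : 0 ≤ yyv x := by
  rw [yyv_nrm hx]
  exact mul_nonneg (mass_pos hx).le (dom_of (fun i => (nrm_pos hx i).le) (mass_nrm hx)).1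

/-- The bundle of facts on a point of the hull. -/
structure HullFacts (t : ℝ) (y : Fin 2 → ℝ) (Y : ℝ) : Prop where
  ys_nonneg : 0 ≤ y 0
  ys_le : y 0 ≤ y 1
  central : bw * y 1 ≤ aw * y 0
  yc_le : y 1 ≤ 43 / 25 * t ^ 2
  Y_nonneg : 0 ≤ Y
  Y_le : t ^ 2 * Y ≤ 29 / 25 * y 1
  ratio : y 0 ≤ 217 / 250 * y 1

theorem sum_two (c f : Fin 2 → ℝ) : ∑ j, c j * f j = c 0 * f 0 + c 1 * f 1 :=
  Fin.sum_univ_two _

/-- All the facts on a point of the hull. -/
theorem hull_facts (hE1 : E1) (hE2 : E2) {t : ℝ} (h0 : 0 < t) (h1 : t ≤ tauMax)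
    {y : Fin 2 → ℝ} {Y : ℝ} (hy : HullY ss (-t) y Y) : HullFacts t y Y := by
  have ht : t < 1 / 2 := lt_of_le_of_lt h1 tauMax_lt
  have e0 : ss 0 = sS := rfl
  have e1 : ss 1 = sC := rfl
  refine ⟨?_, ?_, ?_, ?_, ?_, ?_, ?_⟩
  · have := hy ![-1, 0] 0 0 (fun x hx => by
      rw [sum_two, e0, e1]
      have := psi_nonneg admS hx h0.le ht
      simp
      linarith)
    rw [sum_two] at this
    simpa using this
  · have := hy ![1, -1] 0 0 (fun x hx => by
      rw [sum_two, e0, e1]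
      have := psiS_le_psiC hx h0.le ht
      simp
      linarith)
    rw [sum_two] at this
    simp at this
    linarith
  · have := hy ![-aw, bw] 0 0 (fun x hx => by
      rw [sum_two, e0, e1]
      have := central_nonneg hE2 hx h0 ht
      simp
      linarith)
    rw [sum_two] at this
    simp at this
    linarith
  · have := hy ![0, 1] 0 (43 / 25 * t ^ 2) (fun x hx => by
      rw [sum_two, e0, e1]
      have h2 := psiC_le hx h0 h1
      have hu : ∀ i, 0 ≤ nrm x i := fun i => (nrm_pos hx i).le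
      have hmu := mass_nrm hx
      obtain ⟨W0, -⟩ := WW_range hu hmu h0 ht
      have hW := WW_le (dom_of hu hmu) h0.le
      have h3 := zetaCU_le h0.le h1 W0 hW
      have hm := mass_pos hx
      have h4 : mass x * t ^ 2 * zetaCU (WW (AA (nrm x)) (RR (nrm x)) t) t
          ≤ mass x * t ^ 2 * (43 / 25) := mul_le_mul_of_nonneg_left h3 (by positivity)
      simp
      linarith)
    rw [sum_two] at this
    simp at this
    linarith
  · have := hy ![0, 0] (-1) 0 (fun x hx => by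
      rw [sum_two]
      have := yyv_nonneg hx
      simp
      linarith)
    rw [sum_two] at this
    simp at this
    linarith
  · have := hy ![0, -(29 / 25)] (t ^ 2) 0 (fun x hx => by
      rw [sum_two, e0, e1]
      have hu : ∀ i, 0 ≤ nrm x i := fun i => (nrm_pos hx i).le
      have hmu := mass_nrm hx
      have hd := dom_of hu hmu
      have h2 := A_le_zetaC hd h0.le h1
      have h3 := psiC_ge hx h0 ht
      rw [yyv_nrm hx]
      have hm := mass_pos hx
      have h4 : mass x * t ^ 2 * AA (nrm x)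
          ≤ mass x * t ^ 2 * (29 / 25 * zetaC (AA (nrm x)) (RR (nrm x)) t) :=
        mul_le_mul_of_nonneg_left h2 (by positivity)
      simp
      nlinarith)
    rw [sum_two] at this
    simp at this
    linarith
  · have := hy ![1, -(217 / 250)] 0 0 (fun x hx => by
      rw [sum_two, e0, e1]
      have := psiS_le_ratio hE1 hx h0 h1
      simp
      linarith)
    rw [sum_two] at this
    simp at this
    linarith

end

end Vale.Agent.P154.Hel.Q3
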