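import Vale.Agent.P154.Hel.Q3Moments

/-!
Layer C of the `q = 3`, `lam = -tau` certificate: a plane in `(zetaS, zetaC, A)` on the domain of
moments gives the pointwise inequality of the key inequalities `RegKey`, `PoiKey`.
-/

namespace Vale.Agent.P154.Hel.Q3

noncomputable section

open Finset

/-- The polynomial plane inequality on the domain of moments. -/
def PlaneOK (P q v c t : ℝ) : Prop :=
  ∀ A R : ℝ, Dom A R → P * zetaS A R t - q * zetaC A R t + c * A + v ≤ A + Npoly A R

/-- The coefficient vector of a plane. -/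
def cc (P q t : ℝ) : Fin 2 → ℝ := ![P / t ^ 2, -(q / t ^ 2)]

theorem sum_cc (P q t : ℝ) (f : Fin 2 → ℝ) :
    ∑ j, cc P q t j * f j = P / t ^ 2 * f 0 + -(q / t ^ 2) * f 1 := by
  rw [Fin.sum_univ_two]
  rfl

/-- A plane gives the pointwise inequality. -/
theorem plane_pointwise (hE1 : E1) (hE2 : E2) {P q v c t : ℝ} (h0 : 0 < t) (h1 : t ≤ tauMax)
    (hP : 0 ≤ P) (hq : 0 ≤ q) (hOK : PlaneOK P q v c t) {x : Fin 3 → ℝ} (hx : ∀ i, 0 < x i) :
    ∑ j, cc P q t j * psi (ss j) (-t) x + c * yyv x + v * mass x ≤ phiF ww ss x := by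
  have ht : t < 1 / 2 := lt_of_le_of_lt h1 tauMax_lt
  have hu : ∀ i, 0 ≤ nrm x i := fun i => (nrm_pos hx i).le
  have hmu := mass_nrm hx
  have hd := dom_of hu hmu
  have hm := mass_pos hx
  rw [sum_cc]
  have e0 : ss 0 = sS := rfl
  have e1 : ss 1 = sC := rfl
  rw [e0, e1]
  have s1 := psiS_le hE1 hx h0 h1
  have s2 := psiC_ge hx h0 ht
  have s3 := phiF_ge hE2 hx
  rw [yyv_nrm hx]
  have hOK' := hOK _ _ hd
  set A := AA (nrm x)
  set R := RR (nrm x)
  have ht2 : 0 < t ^ 2 := by positivity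
  have k1 : P / t ^ 2 * psi sS (-t) x ≤ mass x * (P * zetaS A R t) := by
    calc P / t ^ 2 * psi sS (-t) x
        ≤ P / t ^ 2 * (mass x * t ^ 2 * zetaS A R t) :=
          mul_le_mul_of_nonneg_left s1 (by positivity)
      _ = mass x * (P * zetaS A R t) := by
          field_simp
  have k2 : -(q / t ^ 2) * psi sC (-t) x ≤ mass x * (-(q * zetaC A R t)) := by
    have : q / t ^ 2 * (mass x * t ^ 2 * zetaC A R t) ≤ q / t ^ 2 * psi sC (-t) x :=
      mul_le_mul_of_nonneg_left s2 (by positivity)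
    have e : q / t ^ 2 * (mass x * t ^ 2 * zetaC A R t) = mass x * (q * zetaC A R t) := by
      field_simp
    rw [e] at this
    linarith
  have k3 := mul_le_mul_of_nonneg_left hOK' hm.le
  nlinarith

end

end Vale.Agent.P154.Hel.Q3
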