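import Vale.Agent.P154.Hel.Q3Exp
import Vale.Agent.P154.Hel.Q3Plane

/-!
Layer E: the plane inequality for all cells, for all points of the domain of moments and all
`t` in `[0, tauMax]`; the arithmetic facts about the cells; the cover of the range of `z`.
-/

namespace Vale.Agent.P154.Hel.Q3

open Vale.Agent.P154.Hel.TM

noncomputable section

/-- The coefficient of `R^2`. -/
def gam (P q A t : ℝ) : ℝ :=
  (-318 - 46 * A - 498 * A ^ 2) / 1024 - P * (129 * t ^ 4 + 61440 * t ^ 8 * A ^ 2) / 1024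
    + q * (4 / 9) * t ^ 4

theorem GG_quad (P q v c A t R : ℝ) :
    GG P q v c A R t = GG P q v c A 0 t + (GG P q v c A 1 t - GG P q v c A (-1) t) / 2 * R
      + gam P q A t * R ^ 2 := by
  unfold GG Npoly zetaS Utau zetaC gam
  ring

theorem quad_between {a b g lo hi R : ℝ} (hg : g ≤ 0) (h1 : lo ≤ R) (h2 : R ≤ hi)
    (f1 : 0 ≤ a + b * lo + g * lo ^ 2) (f2 : 0 ≤ a + b * hi + g * hi ^ 2) :
    0 ≤ a + b * R + g * R ^ 2 := by
  rcases eq_or_lt_of_le (h1.trans h2) with h | h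
  · have : R = lo := le_antisymm (by rw [h]; exact h2) h1
    rw [this]
    exact f1
  · have key : (hi - lo) * (a + b * R + g * R ^ 2)
        = (hi - R) * (a + b * lo + g * lo ^ 2) + (R - lo) * (a + b * hi + g * hi ^ 2)
          + (-g) * ((R - lo) * (hi - R) * (hi - lo)) := by ring
    have hpos : 0 < hi - lo := by linarith
    have h3 : 0 ≤ (hi - R) * (a + b * lo + g * lo ^ 2) :=
      mul_nonneg (by linarith) f1
    have h4 : 0 ≤ (R - lo) * (a + b * hi + g * hi ^ 2) :=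
      mul_nonneg (by linarith) f2
    have h5 : 0 ≤ (-g) * ((R - lo) * (hi - R) * (hi - lo)) :=
      mul_nonneg (by linarith) (mul_nonneg (mul_nonneg (by linarith) (by linarith)) hpos.le)
    have h6 : 0 ≤ (hi - lo) * (a + b * R + g * R ^ 2) := by
      rw [key]
      linarith
    exact nonneg_of_mul_nonneg_right h6 hpos

theorem t4_le {t : ℝ} (h0 : 0 ≤ t) (h1 : t ≤ tauMax) : t ^ 4 ≤ 7 / 250 := by
  have h2 : t ^ 4 ≤ tauMax ^ 4 := pow_le_pow_left₀ h0 h1 4
  refine h2.trans ?_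
  unfold tauMax
  norm_num

theorem gam_nonpos {P q A t : ℝ} (hP : 0 ≤ P) (hq : q ≤ 20) (hA : 0 ≤ A) (h0 : 0 ≤ t)
    (h1 : t ≤ tauMax) : gam P q A t ≤ 0 := by
  unfold gam
  have h4 := t4_le h0 h1
  have h40 : 0 ≤ t ^ 4 := by positivity
  have h3 : q * (4 / 9) * t ^ 4 ≤ 20 * (4 / 9) * (7 / 250) := by
    have : q * (4 / 9) * t ^ 4 ≤ 20 * (4 / 9) * t ^ 4 :=
      mul_le_mul_of_nonneg_right (by linarith) h40
    refine this.trans ?_
    exact mul_le_mul_of_nonneg_left h4 (by norm_num)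
  have h5 : 0 ≤ P * (129 * t ^ 4 + 61440 * t ^ 8 * A ^ 2) / 1024 := by positivity
  have h6 : 0 ≤ A ^ 2 := by positivity
  have h7 : (-318 - 46 * A - 498 * A ^ 2) / 1024 ≤ -318 / 1024 := by
    apply div_le_div_of_nonneg_right _ (by norm_num)
    linarith
  norm_num at h3 h7 ⊢
  linarith

/-- The plane inequality on the domain follows from the three boundary curves. -/
theorem plane_of_curves {P q v c t : ℝ} (hP : 0 ≤ P) (hq : q ≤ 20) (h0 : 0 ≤ t) (h1 : t ≤ tauMax)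
    (c0 : ∀ x, 0 ≤ x → x ≤ 1 → 0 ≤ GG P q v c (x ^ 2) (rc 0 x) t)
    (c1 : ∀ x, 0 ≤ x → x ≤ 1 / 2 → 0 ≤ GG P q v c (x ^ 2) (rc 1 x) t)
    (c2 : ∀ x, 1 / 2 ≤ x → x ≤ 1 → 0 ≤ GG P q v c (x ^ 2) (rc 2 x) t) :
    PlaneOK P q v c t := by
  intro A R hD
  obtain ⟨hA0, hA1, hR, hR3⟩ := hD
  set x := Real.sqrt A with hx
  have hx0 : 0 ≤ x := Real.sqrt_nonneg A
  have hx2 : x ^ 2 = A := Real.sq_sqrt hA0
  have hx1 : x ≤ 1 := by
    by_contra hc
    rw [not_le] at hc
    nlinarith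
  have hR' : R ^ 2 ≤ (x ^ 3) ^ 2 := by
    have : (x ^ 3) ^ 2 = (x ^ 2) ^ 3 := by ring
    rw [this, hx2]
    exact hR
  obtain ⟨hlo, hhi⟩ := abs_le_of_sq_le_sq' hR' (by positivity)
  have hg := gam_nonpos hP hq hA0 h0 h1
  have goal : 0 ≤ GG P q v c A R t := by
    rw [GG_quad]
    have e0 := c0 x hx0 hx1
    rw [hx2] at e0
    rw [GG_quad] at e0
    have e0' : 0 ≤ GG P q v c A 0 t + (GG P q v c A 1 t - GG P q v c A (-1) t) / 2 * x ^ 3
        + gam P q A t * (x ^ 3) ^ 2 := e0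
    by_cases hh : x ≤ 1 / 2
    · have e1 := c1 x hx0 hh
      rw [hx2, GG_quad] at e1
      have e1' : 0 ≤ GG P q v c A 0 t + (GG P q v c A 1 t - GG P q v c A (-1) t) / 2 * (-x ^ 3)
          + gam P q A t * (-x ^ 3) ^ 2 := e1
      exact quad_between hg hlo hhi e1' e0'
    · have e2 := c2 x (by linarith) hx1
      rw [hx2, GG_quad] at e2
      have e2' : 0 ≤ GG P q v c A 0 t + (GG P q v c A 1 t - GG P q v c A (-1) t) / 2 * ((3 * x ^ 2 - 1) / 2)
          + gam P q A t * ((3 * x ^ 2 - 1) / 2) ^ 2 := e2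
      have hlo' : (3 * x ^ 2 - 1) / 2 ≤ R := by
        rw [hx2]
        linarith
      exact quad_between hg hlo' hhi e2' e0'
  unfold GG at goal
  linarith

theorem tauOf_div {t : ℝ} : tauOf (t / tauMax) = t := by
  unfold tauOf tauMax
  field_simp

/-- Reading the plane inequality from a family of polynomials in curve form. -/
theorem curves_of_family {P q v c t : ℝ} {G : ℕ → ℝ → ℝ → ℝ}
    (hG : ∀ k x y, tauOf y = t → G k x y = GG P q v c (xOf k x ^ 2) (rc k (xOf k x)) t)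
    (hW : ∀ k, k ≤ 2 → ∀ x y, 0 ≤ x → x ≤ 1 → 0 ≤ y → y ≤ 1 → 0 ≤ G k x y)
    (hP : 0 ≤ P) (hq : q ≤ 20) (h0 : 0 ≤ t) (h1 : t ≤ tauMax) : PlaneOK P q v c t := by
  have hT : 0 < tauMax := by unfold tauMax; norm_num
  have hy0 : 0 ≤ t / tauMax := by positivity
  have hy1 : t / tauMax ≤ 1 := (div_le_one hT).2 h1
  refine plane_of_curves hP hq h0 h1 ?_ ?_ ?_
  · intro x hx0 hx1
    have h := hW 0 (by norm_num) x _ hx0 hx1 hy0 hy1
    rw [hG 0 x _ tauOf_div] at h
    exact h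
  · intro x hx0 hx1
    have h := hW 1 (by norm_num) (2 * x) _ (by linarith) (by linarith) hy0 hy1
    rw [hG 1 _ _ tauOf_div] at h
    have e : xOf 1 (2 * x) = x := by
      show 2 * x / 2 = x
      ring
    rw [e] at h
    exact h
  · intro x hx0 hx1
    have h := hW 2 (by norm_num) (2 * x - 1) _ (by linarith) (by linarith) hy0 hy1
    rw [hG 2 _ _ tauOf_div] at h
    have e : xOf 2 (2 * x - 1) = x := by
      show (1 + (2 * x - 1)) / 2 = x
      ring
    rw [e] at h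
    exact h

/-- The curves of a cell from its three walks. -/
theorem poi_walk_sound {d : PCell} {k : ℕ} (h : poiWalk d k = true) {x y : ℝ}
    (hx0 : 0 ≤ x) (hx1 : x ≤ 1) (hy0 : 0 ≤ y) (hy1 : y ≤ 1) : 0 ≤ GPoi d k x y :=
  of_walk (Q := fun v w => 0 ≤ GPoi d k v w) cfg6_valid
    (fun ξ η C a b v w ha hb => FPoi_rep cfg6 d k ξ η C a b v w ha hb)
    (out := fun _ _ _ => false) (by intro K i j h; cases h) (fun _ _ h => h) 13 h x y hx0 hx1 hy0 hy1

theorem reg_walk_sound {d : PCell} {k : ℕ} (h : regWalk d k = true) {x y : ℝ}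
    (hx0 : 0 ≤ x) (hx1 : x ≤ 1) (hy0 : 0 ≤ y) (hy1 : y ≤ 1) : 0 ≤ GReg d k x y :=
  of_walk (Q := fun v w => 0 ≤ GReg d k v w) cfg6_valid
    (fun ξ η C a b v w ha hb => FReg_rep cfg6 d k ξ η C a b v w ha hb)
    (out := fun _ _ _ => false) (by intro K i j h; cases h) (fun _ _ h => h) 13 h x y hx0 hx1 hy0 hy1

theorem poi_curves {d : PCell} (hd : d ∈ poiL) (k : ℕ) (hk : k ≤ 2) (x y : ℝ)
    (hx0 : 0 ≤ x) (hx1 : x ≤ 1) (hy0 : 0 ≤ y) (hy1 : y ≤ 1) : 0 ≤ GPoi d k x y := by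
  have h := List.all_eq_true.1 poi_walks d hd
  simp only [Bool.and_eq_true] at h
  obtain ⟨⟨h0, h1⟩, h2⟩ := h
  interval_cases k
  · exact poi_walk_sound h0 hx0 hx1 hy0 hy1
  · exact poi_walk_sound h1 hx0 hx1 hy0 hy1
  · exact poi_walk_sound h2 hx0 hx1 hy0 hy1

theorem reg_curves {d : PCell} (hd : d ∈ regL) (k : ℕ) (hk : k ≤ 2) (x y : ℝ)
    (hx0 : 0 ≤ x) (hx1 : x ≤ 1) (hy0 : 0 ≤ y) (hy1 : y ≤ 1) : 0 ≤ GReg d k x y := by
  have h := List.all_eq_true.1 reg_walks d hd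
  simp only [Bool.and_eq_true] at h
  obtain ⟨⟨h0, h1⟩, h2⟩ := h
  interval_cases k
  · exact reg_walk_sound h0 hx0 hx1 hy0 hy1
  · exact reg_walk_sound h1 hx0 hx1 hy0 hy1
  · exact reg_walk_sound h2 hx0 hx1 hy0 hy1

end

/-- The arithmetic check of a cell. -/
def cellNat (d : PCell) : Bool :=
  Nat.ble 1 d.Z1 && Nat.ble (d.Z1 + 1) d.Z2 && Nat.ble d.Z2 32768 && Nat.ble d.p 32768
    && Nat.ble d.E2 d.E1 && Nat.ble (d.Z2 * 29) (50 * d.Z1)
    && Nat.ble (d.E * (tayLo d.p + d.p ^ 9) ^ 8) (2 ^ 30 * tayD ^ 8)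
    && Nat.ble (2 ^ 30 * tayD ^ 8) (d.E1 * tayLo d.Z1 ^ 8)
    && Nat.ble (2 ^ 30 * tayD ^ 8) (d.E2 * tayLo d.Z2 ^ 8)

/-- The bound of the slope of a Poisson cell. -/
def slopeNat (d : PCell) : Bool :=
  Nat.ble (291 * (d.E1 - d.E2) * 16384) (20 * 37 * (d.Z2 - d.Z1) * 2 ^ 30)

theorem poi_nat : (poiL.all fun d => cellNat d && slopeNat d) = true := by
  decide +kernel

theorem reg_nat : (regL.all cellNat) = true := by
  decide +kernel

/-- The facts about a cell. -/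
structure CellFacts (d : PCell) : Prop where
  z1pos : 0 < nz d.Z1
  z12 : nz d.Z1 < nz d.Z2
  z2le : nz d.Z2 ≤ 2
  p0 : 0 ≤ nz d.p
  ple : nz d.p ≤ 2
  e21 : ne d.E2 ≤ ne d.E1
  e0 : 0 ≤ ne d.E
  e20 : 0 ≤ ne d.E2
  rat : nz d.Z2 * 29 ≤ 50 * nz d.Z1
  hE : ne d.E ≤ Real.exp (-nz d.p)
  hE1 : Real.exp (-nz d.Z1) ≤ ne d.E1
  hE2 : Real.exp (-nz d.Z2) ≤ ne d.E2

theorem cellFacts_of {d : PCell} (h : cellNat d = true) : CellFacts d := by
  simp only [cellNat, Bool.and_eq_true] at h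
  obtain ⟨⟨⟨⟨⟨⟨⟨⟨h1, h2⟩, h3⟩, h4⟩, h5⟩, h6⟩, h7⟩, h8⟩, h9⟩ := h
  have h1 := Nat.le_of_ble_eq_true h1
  have h2 := Nat.le_of_ble_eq_true h2
  have h3 := Nat.le_of_ble_eq_true h3
  have h4 := Nat.le_of_ble_eq_true h4
  have h5 := Nat.le_of_ble_eq_true h5
  have h6 := Nat.le_of_ble_eq_true h6
  have h7 := Nat.le_of_ble_eq_true h7
  have h8 := Nat.le_of_ble_eq_true h8
  have h9 := Nat.le_of_ble_eq_true h9
  have r1 : (1 : ℝ) ≤ d.Z1 := by exact_mod_cast h1
  have r2 : (d.Z1 : ℝ) + 1 ≤ d.Z2 := by exact_mod_cast h2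
  have r3 : (d.Z2 : ℝ) ≤ 32768 := by exact_mod_cast h3
  have r4 : (d.p : ℝ) ≤ 32768 := by exact_mod_cast h4
  have r5 : (d.E2 : ℝ) ≤ d.E1 := by exact_mod_cast h5
  have r6 : (d.Z2 : ℝ) * 29 ≤ 50 * d.Z1 := by exact_mod_cast h6
  refine ⟨?_, ?_, ?_, ?_, ?_, ?_, ?_, ?_, ?_, ?_, ?_, ?_⟩
  · unfold nz; positivity
  · unfold nz
    apply div_lt_div_of_pos_right _ (by norm_num)
    linarith
  · unfold nz
    rw [div_le_iff₀ (by norm_num)]
    linarith
  · unfold nz; positivity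
  · unfold nz
    rw [div_le_iff₀ (by norm_num)]
    linarith
  · unfold ne
    apply div_le_div_of_nonneg_right r5 (by norm_num)
  · unfold ne; positivity
  · unfold ne; positivity
  · unfold nz
    rw [div_mul_eq_mul_div, mul_div_assoc']
    apply div_le_div_of_nonneg_right r6 (by norm_num)
  · exact ne_le_exp (by omega) h7
  · exact exp_le_ne h8
  · exact exp_le_ne h9

theorem poi_facts {d : PCell} (hd : d ∈ poiL) : CellFacts d := by
  have h := List.all_eq_true.1 poi_nat d hd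
  simp only [Bool.and_eq_true] at h
  exact cellFacts_of h.1

theorem reg_facts {d : PCell} (hd : d ∈ regL) : CellFacts d :=
  cellFacts_of (List.all_eq_true.1 reg_nat d hd)

noncomputable section

theorem aw_pos : 0 < aw := by unfold aw; norm_num
theorem bw_pos : 0 < bw := by unfold bw; norm_num

/-- The slope of a Poisson cell. -/
def poiQ (d : PCell) : ℝ := chordQ (nz d.Z1) (nz d.Z2) (ne d.E1) (ne d.E2)

/-- The constant of a Poisson cell. -/
def poiV (d : PCell) : ℝ := planeV (nz d.Z1) (nz d.p) (ne d.E) 1 (ne d.E1) (poiQ d)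

theorem poiQ_nonneg {d : PCell} (h : CellFacts d) : 0 ≤ poiQ d := by
  unfold poiQ chordQ
  have := bw_pos
  have h1 := h.e21
  have h2 := h.z12
  apply div_nonneg (mul_nonneg this.le (by linarith)) (by linarith)

theorem poiQ_le {d : PCell} (hd : d ∈ poiL) : poiQ d ≤ 20 := by
  have h := List.all_eq_true.1 poi_nat d hd
  simp only [Bool.and_eq_true] at h
  have hf := cellFacts_of h.1
  have h2 := Nat.le_of_ble_eq_true h.2
  have hc := List.all_eq_true.1 poi_nat d hd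
  have z12 := hf.z12
  have e21 := hf.e21
  unfold nz at z12
  unfold ne at e21
  have zlt : (d.Z1 : ℝ) < d.Z2 := by
    have := (div_lt_div_iff_of_pos_right (by norm_num : (0:ℝ) < 16384)).1 z12
    exact this
  have elt : (d.E2 : ℝ) ≤ d.E1 := by
    have := (div_le_div_iff_of_pos_right (by norm_num : (0:ℝ) < 1073741824)).1 e21
    exact this
  have zn : d.Z1 ≤ d.Z2 := by exact_mod_cast zlt.le
  have en : d.E2 ≤ d.E1 := by exact_mod_cast elt
  have h3 : (291 : ℝ) * ((d.E1 : ℝ) - d.E2) * 16384 ≤ 20 * 37 * ((d.Z2 : ℝ) - d.Z1) * 2 ^ 30 := by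
    have := (Nat.cast_le (α := ℝ)).2 h2
    push_cast [Nat.cast_sub zn, Nat.cast_sub en] at this
    norm_num at this ⊢
    linarith
  unfold poiQ chordQ bw nz ne
  have hz : 0 < (d.Z2 : ℝ) / 16384 - (d.Z1 : ℝ) / 16384 := by
    rw [← sub_div]
    apply div_pos (by linarith) (by norm_num)
  rw [div_le_iff₀ hz]
  have e : 291 / 37 * ((d.E1 : ℝ) / 1073741824 - (d.E2 : ℝ) / 1073741824)
      = (291 * ((d.E1 : ℝ) - d.E2) * 16384) / (37 * 1073741824 * 16384) := by
    field_simp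
  rw [e, div_le_iff₀ (by norm_num)]
  norm_num at h3 ⊢
  nlinarith

/-- The plane of a Poisson cell. -/
theorem poi_plane {d : PCell} (hd : d ∈ poiL) {t : ℝ} (h0 : 0 ≤ t) (h1 : t ≤ tauMax) :
    PlaneOK (aw * ne d.E) (poiQ d) (poiV d) d.c0 t := by
  have hf := poi_facts hd
  refine curves_of_family (G := GPoi d) ?_ (fun k hk x y a b c e => poi_curves hd k hk x y a b c e)
    (mul_nonneg aw_pos.le hf.e0) (poiQ_le hd) h0 h1
  intro k x y hy
  unfold GPoi
  rw [hy]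
  rfl

/-- The enclosure at the first end of a regular cell. -/
def regE1 (d : PCell) (t : ℝ) : ℝ := eR (nz d.Z1) (ne d.E1) t

/-- The enclosure at the second end of a regular cell. -/
def regE2 (d : PCell) (t : ℝ) : ℝ := eR (nz d.Z2) (ne d.E2) t

/-- The enclosure at the tangent point of a regular cell. -/
def regF (d : PCell) (t : ℝ) : ℝ := fR (nz d.p) (ne d.E) t

/-- The slope of a regular cell. -/
def regQ (d : PCell) (t : ℝ) : ℝ := chordQ (nz d.Z1) (nz d.Z2) (regE1 d t) (regE2 d t)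

/-- The constant of a regular cell. -/
def regV (d : PCell) (t : ℝ) : ℝ :=
  planeV (nz d.Z1) (nz d.p) (regF d t) (gR (nz d.p) t) (regE1 d t) (regQ d t)

/-- The side conditions of a regular cell as polynomials. -/
def GSide (d : PCell) (i : ℕ) (_x y : ℝ) : ℝ :=
  match i with
  | 0 => regF d (tauOf y)
  | 1 => regQ d (tauOf y)
  | _ => 20 - regQ d (tauOf y)

end

/-- The program of the side conditions. -/
def FSide (c : Cfg) (d : PCell) (i : ℕ) (_a b : TMod) : TMod :=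
  (fun t => (fun t2 => (fun t4 => (fun t6 t8 =>
    match i with
    | 0 => fRT c d.p d.E t2 t4 t6 t8
    | 1 => mulT c (ofRat c 291 37) (mulT c (subT c (eRT c d.Z1 d.E1 t2 t4 t6) (eRT c d.Z2 d.E2 t2 t4 t6))
      (invT c (subT c (ofRat c d.Z2 16384) (ofRat c d.Z1 16384))))
    | _ => subT c (ofRat c 20 1) (mulT c (ofRat c 291 37) (mulT c (subT c (eRT c d.Z1 d.E1 t2 t4 t6) (eRT c d.Z2 d.E2 t2 t4 t6))
      (invT c (subT c (ofRat c d.Z2 16384) (ofRat c d.Z1 16384)))))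
    ) (mulT c t4 t2) (mulT c t4 t4))
    (mulT c t2 t2))
    (mulT c t t))
    (mulT c (ofRat c 3345 8192) b)

theorem FSide_rep (c : Cfg) (d : PCell) (i : ℕ) (ξ η : ℝ) (C : Ctx c ξ η) (a b : TMod) (x y : ℝ)
    (_ha : RepAt c ξ η a x) (hb : RepAt c ξ η b y) : RepAt c ξ η (FSide c d i a b) (GSide d i x y) := by
  have ht : RepAt c ξ η (mulT c (ofRat c 3345 8192) b) (tauOf y) :=
    (repAt_mul C (repAt_ofRat C 3345 8192) hb).congr (by unfold tauOf; norm_num)
  have t2 : RepAt c ξ η _ (tauOf y ^ 2) := (repAt_mul C ht ht).congr (by ring)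
  have t4 : RepAt c ξ η _ (tauOf y ^ 4) := (repAt_mul C t2 t2).congr (by ring)
  have t6 : RepAt c ξ η _ (tauOf y ^ 6) := (repAt_mul C t4 t2).congr (by ring)
  have t8 : RepAt c ξ η _ (tauOf y ^ 8) := (repAt_mul C t4 t4).congr (by ring)
  have hZ1 : RepAt c ξ η (ofRat c d.Z1 16384) (nz d.Z1) := (repAt_ofRat C d.Z1 16384).congr (by unfold nz; norm_num)
  have hZ2 : RepAt c ξ η (ofRat c d.Z2 16384) (nz d.Z2) := (repAt_ofRat C d.Z2 16384).congr (by unfold nz; norm_num)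
  have hbc : RepAt c ξ η (ofRat c 291 37) bw := (repAt_ofRat C 291 37).congr (by unfold bw; norm_num)
  have he1 := eRT_rep C d.Z1 d.E1 t2 t4 t6
  have he2 := eRT_rep C d.Z2 d.E2 t2 t4 t6
  have hq : RepAt c ξ η _ (regQ d (tauOf y)) :=
    (repAt_mul C hbc (repAt_mul C (repAt_sub C he1 he2) (repAt_inv C (repAt_sub C hZ2 hZ1)))).congr
      (by unfold regQ regE1 regE2 chordQ; ring)
  match i with
  | 0 => exact fRT_rep C d.p d.E t2 t4 t6 t8
  | 1 => exact hq
  | n + 2 =>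
    exact (repAt_sub C (repAt_ofRat C 20 1) hq).congr
      (by show (((20 : ℕ) : ℝ) / ((1 : ℕ) : ℝ)) - regQ d (tauOf y) = 20 - regQ d (tauOf y); norm_num)

/-- The walk of the side conditions of a regular cell. -/
def sideWalk (d : PCell) (i : ℕ) : Bool :=
  walk2 (fun K i' j => or ((fun _ _ _ => false) K i' j) (cellChk cfg6 (FSide cfg6 d i) K i' j)) 13 0 0 0

theorem side_walks : (regL.all fun d => sideWalk d 0 && sideWalk d 1 && sideWalk d 2) = true := by
  decide +kernel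

noncomputable section

theorem side_sound {d : PCell} {i : ℕ} (h : sideWalk d i = true) {y : ℝ}
    (hy0 : 0 ≤ y) (hy1 : y ≤ 1) : 0 ≤ GSide d i 0 y :=
  of_walk (Q := fun v w => 0 ≤ GSide d i v w) cfg6_valid
    (fun ξ η C a b v w ha hb => FSide_rep cfg6 d i ξ η C a b v w ha hb)
    (out := fun _ _ _ => false) (by intro K i j h; cases h) (fun _ _ h => h) 13 h 0 y le_rfl zero_le_one hy0 hy1

theorem reg_side {d : PCell} (hd : d ∈ regL) {t : ℝ} (h0 : 0 ≤ t) (h1 : t ≤ tauMax) :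
    0 ≤ regF d t ∧ 0 ≤ regQ d t ∧ regQ d t ≤ 20 := by
  have hT : 0 < tauMax := by unfold tauMax; norm_num
  have hy0 : 0 ≤ t / tauMax := by positivity
  have hy1 : t / tauMax ≤ 1 := (div_le_one hT).2 h1
  have h := List.all_eq_true.1 side_walks d hd
  simp only [Bool.and_eq_true] at h
  obtain ⟨⟨a, b⟩, c⟩ := h
  have s0 := side_sound a hy0 hy1
  have s1 := side_sound b hy0 hy1
  have s2 := side_sound c hy0 hy1
  have s0' : 0 ≤ regF d (tauOf (t / tauMax)) := s0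
  have s1' : 0 ≤ regQ d (tauOf (t / tauMax)) := s1
  have s2' : 0 ≤ 20 - regQ d (tauOf (t / tauMax)) := s2
  rw [tauOf_div] at s0' s1' s2'
  exact ⟨s0', s1', by linarith⟩

theorem t2_le {t : ℝ} (h0 : 0 ≤ t) (h1 : t ≤ tauMax) : t ^ 2 ≤ 1 / 5 := by
  have h2 : t ^ 2 ≤ tauMax ^ 2 := pow_le_pow_left₀ h0 h1 2
  refine h2.trans ?_
  unfold tauMax
  norm_num

theorem gR_pos {p t : ℝ} (hp0 : 0 ≤ p) (hp : p ≤ 2) (h0 : 0 ≤ t) (h1 : t ≤ tauMax) : 0 < gR p t := by
  unfold gR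
  have := t2_le h0 h1
  have h3 : t ^ 2 * p ≤ 1 / 5 * 2 := mul_le_mul this hp hp0 (by norm_num)
  apply inv_pos.2
  linarith

/-- The plane of a regular cell. -/
theorem reg_plane {d : PCell} (hd : d ∈ regL) {t : ℝ} (h0 : 0 ≤ t) (h1 : t ≤ tauMax) :
    PlaneOK (aw * regF d t * gR (nz d.p) t) (regQ d t) (regV d t) d.c0 t := by
  have hf := reg_facts hd
  obtain ⟨s0, _, s2⟩ := reg_side hd h0 h1
  have hg := gR_pos hf.p0 hf.ple h0 h1
  refine curves_of_family (G := GReg d) ?_ (fun k hk x y a b c e => reg_curves hd k hk x y a b c e)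
    (mul_nonneg (mul_nonneg aw_pos.le s0) hg.le) s2 h0 h1
  intro k x y hy
  unfold GReg
  simp only [hy]
  rfl

end

/-- The chain test for a cover. -/
def chainTo : List PCell → ℕ → ℕ → Bool
  | [], _, _ => false
  | d :: L, a, b => Nat.beq d.Z1 a && (Nat.ble b d.Z2 || chainTo L d.Z2 b)

theorem chainTo_sound {L : List PCell} {a b : ℕ} (h : chainTo L a b = true) {z : ℝ}
    (h0 : nz a ≤ z) (h1 : z ≤ nz b) : ∃ d ∈ L, nz d.Z1 ≤ z ∧ z ≤ nz d.Z2 := by
  induction L generalizing a with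
  | nil => simp [chainTo] at h
  | cons d L ih =>
    simp only [chainTo, Bool.and_eq_true, Bool.or_eq_true] at h
    obtain ⟨e, h2⟩ := h
    have e' : d.Z1 = a := Nat.eq_of_beq_eq_true e
    by_cases hz : z ≤ nz d.Z2
    · exact ⟨d, by simp, by rw [e']; exact h0, hz⟩
    · rw [not_le] at hz
      rcases h2 with h2 | h2
      · exfalso
        have := Nat.le_of_ble_eq_true h2
        have : nz b ≤ nz d.Z2 := by
          unfold nz
          apply div_le_div_of_nonneg_right _ (by norm_num)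
          exact_mod_cast this
        linarith
      · obtain ⟨d', hd', h3⟩ := ih h2 hz.le
        exact ⟨d', by simp [hd'], h3⟩

theorem poi_chain : chainTo poiL 164 28181 = true := by decide +kernel

theorem reg_chain : chainTo regL 573 28181 = true := by decide +kernel

/-- The cover of the range of `z` by the Poisson cells. -/
theorem poi_cover {z : ℝ} (h0 : 164 / 16384 ≤ z) (h1 : z ≤ 43 / 25) :
    ∃ d ∈ poiL, nz d.Z1 ≤ z ∧ z ≤ nz d.Z2 :=
  chainTo_sound poi_chain (by unfold nz; norm_num; norm_num at h0; linarith)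
    (by unfold nz; norm_num; norm_num at h1; linarith)

/-- The cover of the range of `z` by the regular cells. -/
theorem reg_cover {z : ℝ} (h0 : 573 / 16384 ≤ z) (h1 : z ≤ 43 / 25) :
    ∃ d ∈ regL, nz d.Z1 ≤ z ∧ z ≤ nz d.Z2 :=
  chainTo_sound reg_chain (by unfold nz; norm_num; norm_num at h0; linarith)
    (by unfold nz; norm_num; norm_num at h1; linarith)

end Vale.Agent.P154.Hel.Q3
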