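import Vale.Agent.P154.Hel.TMCfg
import Vale.Agent.P154.Hel.Q3Defs

/-!
The programs for the polynomial checks along the three boundary curves of the moment region.
The variables are `x` (`A = x^2`) and `y` (`tau = tauMax * y`).
-/

namespace Vale.Agent.P154.Hel.Q3

open Vale.Agent.P154.Hel.TM

noncomputable section

/-- The three boundary curves of the moment region. -/
def rc (k : ℕ) (x : ℝ) : ℝ :=
  match k with
  | 0 => x ^ 3
  | 1 => -x ^ 3
  | _ => (3 * x ^ 2 - 1) / 2

/-- The value of `tau`. -/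
def tauOf (y : ℝ) : ℝ := 3345 / 8192 * y

/-- The general plane polynomial. -/
def GG (P q v c A R t : ℝ) : ℝ :=
  A + Npoly A R - P * zetaS A R t + q * zetaC A R t - v - c * A

end

/-- The curves on models. -/
def rcT (c : Cfg) (k : ℕ) (x2 x3 : TMod) : TMod :=
  match k with
  | 0 => x3
  | 1 => negT x3
  | _ => mulT c (ofRat c 1 2) (subT c (smulT c 3 x2) (ofRat c 1 1))

theorem rcT_rep {c : Cfg} {ξ η : ℝ} (C : Ctx c ξ η) (k : ℕ) {a b : TMod} {x : ℝ}
    (h2 : RepAt c ξ η a (x * x)) (h3 : RepAt c ξ η b (x * x * x)) :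
    RepAt c ξ η (rcT c k a b) (rc k x) := by
  match k with
  | 0 =>
    show RepAt c ξ η b (x ^ 3)
    exact h3.congr (by ring)
  | 1 =>
    show RepAt c ξ η (negT b) (-x ^ 3)
    exact (repAt_neg h3).congr (by ring)
  | n + 2 =>
    show RepAt c ξ η (mulT c (ofRat c 1 2) (subT c (smulT c 3 a) (ofRat c 1 1))) ((3 * x ^ 2 - 1) / 2)
    exact (repAt_mul C (repAt_ofRat C 1 2) (repAt_sub C (repAt_smul C 3 h2) (repAt_ofRat C 1 1))).congr
      (by push_cast; ring)

/-- The shared computation of `zetaS`, `zetaC`, `A + Npoly` in continuation style. -/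
def withSCN (c : Cfg) (k : ℕ) (x y : TMod) (body : TMod → TMod → TMod → TMod → TMod → TMod) : TMod :=
  (fun t => (fun x2 => (fun x3 => (fun R =>
  (fun t2 => (fun t3 t4 => (fun t5 t6 t8 => (fun t7 =>
  (fun A2 => (fun A3 A4 => (fun A5 =>
  (fun R2 tR AR => (fun A2R A3R A2R2 AR2 W => (fun A2tR A3tR =>
  body
    (addT c (addT c (mulT c (ofRat c 41 48) x2) (mulT c (ofRat c 97 192) tR))
      (mulT c (ofRat c 1 1024)
        (subT c (addT c (addT c (addT c (addT c (addT c (addT c
          (smulT c 129 (mulT c t4 R2)) (smulT c 923 (mulT c t3 AR)))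
          (smulT c 820 (mulT c t2 A2))) (smulT c 5908 (mulT c t5 A2R)))
          (smulT c 61440 (mulT c t8 A2R2))) (smulT c 1633 (mulT c t4 A3)))
          (smulT c 61440 (mulT c t8 A5)))
          (addT c (smulT c 8390 (mulT c t7 A3R)) (smulT c 8512 (mulT c t6 A4))))))
    (addT c (addT c (addT c (mulT c (ofRat c 1 3) W) (mulT c (ofRat c 1 9) (mulT c t2 (mulT c W W))))
        (mulT c (ofRat c 5 81) (mulT c t4 (addT c (smulT c 27 A3) (smulT c 54 A2tR)))))
      (mulT c (ofRat c 10 243) (mulT c t6 (addT c (smulT c 81 A4) (smulT c 216 A3tR)))))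
    (addT c x2 (mulT c (ofRat c 1 1024)
      (subT c (addT c (addT c (addT c (smulT c 100 AR) (smulT c 308 A2)) (smulT c 1173 A2R))
          (smulT c 2580 A5))
        (addT c (addT c (addT c (addT c (smulT c 318 R2) (smulT c 46 AR2)) (smulT c 498 A2R2))
          (smulT c 14 A3)) (addT c (smulT c 2203 A3R) (smulT c 172 A4))))))
    x2 t)
  (mulT c A2 tR) (mulT c A3 tR))
  (mulT c A2 R) (mulT c A3 R) (mulT c A2 R2) (mulT c x2 R2) (addT c (smulT c 3 x2) (smulT c 2 tR)))
  (mulT c R R) (mulT c t R) (mulT c x2 R))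
  (mulT c A4 x2))
  (mulT c A2 x2) (mulT c A2 A2))
  (mulT c x2 x2))
  (mulT c t6 t))
  (mulT c t4 t) (mulT c t4 t2) (mulT c t4 t4))
  (mulT c t2 t) (mulT c t2 t2))
  (mulT c t t))
  (rcT c k x2 x3)) (mulT c x2 x)) (mulT c x x)) (mulT c (ofRat c 3345 8192) y)

theorem withSCN_rep {c : Cfg} {ξ η : ℝ} (C : Ctx c ξ η) (k : ℕ) {a b : TMod} {x y : ℝ}
    (hx : RepAt c ξ η a x) (hy : RepAt c ξ η b y) {body : TMod → TMod → TMod → TMod → TMod → TMod} {K : ℝ}
    (hb : ∀ S Z N A t, RepAt c ξ η S (zetaS (x ^ 2) (rc k x) (tauOf y)) →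
      RepAt c ξ η Z (zetaC (x ^ 2) (rc k x) (tauOf y)) →
      RepAt c ξ η N (x ^ 2 + Npoly (x ^ 2) (rc k x)) →
      RepAt c ξ η A (x ^ 2) → RepAt c ξ η t (tauOf y) → RepAt c ξ η (body S Z N A t) K) :
    RepAt c ξ η (withSCN c k a b body) K := by
  have ht : RepAt c ξ η (mulT c (ofRat c 3345 8192) b) (tauOf y) :=
    (repAt_mul C (repAt_ofRat C 3345 8192) hy).congr (by unfold tauOf; norm_num)
  have hx2 := repAt_mul C hx hx
  have hx3 := repAt_mul C hx2 hx
  have hR := rcT_rep C k hx2 hx3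
  have hA : RepAt c ξ η (mulT c a a) (x ^ 2) := hx2.congr (by ring)
  generalize tauOf y = τ at ht hb
  generalize rc k x = r at hR hb
  generalize x ^ 2 = X at hA hb
  have t2 := repAt_mul C ht ht
  have t3 := repAt_mul C t2 ht
  have t4 := repAt_mul C t2 t2
  have t5 := repAt_mul C t4 ht
  have t6 := repAt_mul C t4 t2
  have t8 := repAt_mul C t4 t4
  have t7 := repAt_mul C t6 ht
  have A2 := repAt_mul C hA hA
  have A3 := repAt_mul C A2 hA
  have A4 := repAt_mul C A2 A2
  have A5 := repAt_mul C A4 hA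
  have R2 := repAt_mul C hR hR
  have tR := repAt_mul C ht hR
  have AR := repAt_mul C hA hR
  have A2R := repAt_mul C A2 hR
  have A3R := repAt_mul C A3 hR
  have A2R2 := repAt_mul C A2 R2
  have AR2 := repAt_mul C hA R2
  have W := repAt_add C (repAt_smul C 3 hA) (repAt_smul C 2 tR)
  have A2tR := repAt_mul C A2 tR
  have A3tR := repAt_mul C A3 tR
  have gS := (repAt_add C (repAt_add C (repAt_mul C (repAt_ofRat C 41 48) hA)
      (repAt_mul C (repAt_ofRat C 97 192) tR))
      (repAt_mul C (repAt_ofRat C 1 1024)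
        (repAt_sub C (repAt_add C (repAt_add C (repAt_add C (repAt_add C (repAt_add C (repAt_add C
          (repAt_smul C 129 (repAt_mul C t4 R2)) (repAt_smul C 923 (repAt_mul C t3 AR)))
          (repAt_smul C 820 (repAt_mul C t2 A2))) (repAt_smul C 5908 (repAt_mul C t5 A2R)))
          (repAt_smul C 61440 (repAt_mul C t8 A2R2))) (repAt_smul C 1633 (repAt_mul C t4 A3)))
          (repAt_smul C 61440 (repAt_mul C t8 A5)))
          (repAt_add C (repAt_smul C 8390 (repAt_mul C t7 A3R)) (repAt_smul C 8512 (repAt_mul C t6 A4))))))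
  have gZ := (repAt_add C (repAt_add C (repAt_add C (repAt_mul C (repAt_ofRat C 1 3) W)
        (repAt_mul C (repAt_ofRat C 1 9) (repAt_mul C t2 (repAt_mul C W W))))
        (repAt_mul C (repAt_ofRat C 5 81) (repAt_mul C t4 (repAt_add C (repAt_smul C 27 A3) (repAt_smul C 54 A2tR)))))
      (repAt_mul C (repAt_ofRat C 10 243) (repAt_mul C t6 (repAt_add C (repAt_smul C 81 A4) (repAt_smul C 216 A3tR)))))
  have gN := (repAt_add C hA (repAt_mul C (repAt_ofRat C 1 1024)
      (repAt_sub C (repAt_add C (repAt_add C (repAt_add C (repAt_smul C 100 AR) (repAt_smul C 308 A2)) (repAt_smul C 1173 A2R))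
          (repAt_smul C 2580 A5))
        (repAt_add C (repAt_add C (repAt_add C (repAt_add C (repAt_smul C 318 R2) (repAt_smul C 46 AR2)) (repAt_smul C 498 A2R2))
          (repAt_smul C 14 A3)) (repAt_add C (repAt_smul C 2203 A3R) (repAt_smul C 172 A4))))))
  exact hb _ _ _ _ _ (gS.congr (by unfold zetaS Utau; push_cast; ring))
    (gZ.congr (by unfold zetaC; push_cast; ring))
    (gN.congr (by unfold Npoly; push_cast; ring)) hA ht

end Vale.Agent.P154.Hel.Q3
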