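import Vale.Agent.P154.Hel.Defs
import Vale.Agent.P154.Hel.Q3Defs

/-!
Layer A of the `q = 3`, `lam = -tau` certificate: from fractional powers to polynomials in `(v, w)`.
The two bivariate polynomial facts `E1`, `E2` are taken as hypotheses here.
-/

namespace Vale.Agent.P154.Hel.Q3

noncomputable section

open Finset Equiv

/-- The main exponent vector. -/
def sS : Fin 3 → ℝ := ![1 / 2, 5 / 12, 1 / 12]
/-- The central exponent vector. -/
def sC : Fin 3 → ℝ := ![1 / 3, 1 / 3, 1 / 3]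
/-- The two weights. -/
def ww : Fin 2 → ℝ := ![aw, -bw]
/-- The two exponent vectors. -/
def ss : Fin 2 → Fin 3 → ℝ := ![sS, sC]

theorem admS : AdmS sS where
  nonneg := by
    intro i
    fin_cases i <;> simp [sS] <;> norm_num
  sum := by
    simp [sS]
    norm_num

theorem admC : AdmS sC where
  nonneg := by
    intro i
    fin_cases i <;> simp [sC]
  sum := by
    simp [sC]
    norm_num

theorem adm_ss (j : Fin 2) : AdmS (ss j) := by
  fin_cases j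
  · exact admS
  · exact admC

/-- Second moment of a mean-one triple. -/
def AA (u : Fin 3 → ℝ) : ℝ := ((u 0 - 1) ^ 2 + (u 1 - 1) ^ 2 + (u 2 - 1) ^ 2) / 6
/-- Third moment of a mean-one triple. -/
def RR (u : Fin 3 → ℝ) : ℝ := ((u 0 - 1) ^ 3 + (u 1 - 1) ^ 3 + (u 2 - 1) ^ 3) / 6

/-- The normaliser in the `(v, w)` chart. -/
def Mvw (v w : ℝ) : ℝ := 1 + v ^ 12 + w ^ 12
/-- The main character in the `(v, w)` chart, up to the factor `3 / M`. -/
def chiSvw (v w : ℝ) : ℝ :=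
  (v ^ 5 * w + v * w ^ 5 + v ^ 6 * w + v * w ^ 6 + v ^ 6 * w ^ 5 + v ^ 5 * w ^ 6) / 6
/-- The central character in the `(v, w)` chart, up to the factor `3 / M`. -/
def chiCvw (v w : ℝ) : ℝ := v ^ 4 * w ^ 4
/-- `A` in the `(v, w)` chart. -/
def Avw (v w : ℝ) : ℝ :=
  ((3 / Mvw v w - 1) ^ 2 + (3 * v ^ 12 / Mvw v w - 1) ^ 2 + (3 * w ^ 12 / Mvw v w - 1) ^ 2) / 6
/-- `R` in the `(v, w)` chart. -/
def Rvw (v w : ℝ) : ℝ :=
  ((3 / Mvw v w - 1) ^ 3 + (3 * v ^ 12 / Mvw v w - 1) ^ 3 + (3 * w ^ 12 / Mvw v w - 1) ^ 3) / 6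

/-- The function of `(C2)`. -/
def F2 (v w : ℝ) : ℝ :=
  aw * (1 - 3 * chiSvw v w / Mvw v w) - bw * (1 - 3 * chiCvw v w / Mvw v w)
    - Avw v w - Npoly (Avw v w) (Rvw v w)
/-- The function of `(C1)`. -/
def F1 (v w : ℝ) : ℝ :=
  3 * chiSvw v w / Mvw v w - 1 + 41 / 48 * Avw v w - 97 / 192 * Rvw v w
    + Upoly (Avw v w) (Rvw v w)

/-- The bivariate polynomial fact behind `(C2)`. -/
def E2 : Prop := ∀ v w : ℝ, 0 ≤ w → w ≤ v → v ≤ 1 → 0 ≤ F2 v w
/-- The bivariate polynomial fact behind `(C1)`. -/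
def E1 : Prop := ∀ v w : ℝ, 0 ≤ w → w ≤ v → v ≤ 1 → 3 / Mvw v w ≤ 1 + tauMax → 0 ≤ F1 v w

/-! ### Symmetry -/

theorem chi_perm (s u : Fin 3 → ℝ) (h : Perm (Fin 3)) :
    chi s (fun i => u (h i)) = chi s u := by
  unfold chi
  congr 1
  exact Equiv.sum_comp (Equiv.mulLeft h) (fun g => mono s (fun i => u (g i)))

theorem sum_perm3 (f : Fin 3 → ℝ) (h : Perm (Fin 3)) :
    f (h 0) + f (h 1) + f (h 2) = f 0 + f 1 + f 2 := by
  have := Equiv.sum_comp h f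
  simpa [Fin.sum_univ_three] using this

theorem mass_perm (u : Fin 3 → ℝ) (h : Perm (Fin 3)) :
    mass (fun i => u (h i)) = mass u := by
  unfold mass
  rw [sum_perm3 u h]

theorem AA_perm (u : Fin 3 → ℝ) (h : Perm (Fin 3)) :
    AA (fun i => u (h i)) = AA u := by
  unfold AA
  rw [sum_perm3 (fun i => (u i - 1) ^ 2) h]

theorem RR_perm (u : Fin 3 → ℝ) (h : Perm (Fin 3)) :
    RR (fun i => u (h i)) = RR u := by
  unfold RR
  rw [sum_perm3 (fun i => (u i - 1) ^ 3) h]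

theorem exists_sorted (u : Fin 3 → ℝ) :
    ∃ g : Perm (Fin 3), u (g 1) ≤ u (g 0) ∧ u (g 2) ≤ u (g 1) := by
  have hm := Tuple.monotone_sort u
  refine ⟨(Tuple.sort u) * Equiv.swap 0 2, ?_, ?_⟩
  · have h : ((0 : Fin 3)) ≤ 1 := by decide
    have := hm h
    simpa [Function.comp, Equiv.swap_apply_def, Perm.mul_apply] using hm (show (1 : Fin 3) ≤ 2 by decide)
  · have := hm (show (0 : Fin 3) ≤ 1 by decide)
    simpa [Function.comp, Equiv.swap_apply_def, Perm.mul_apply] using this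

/-! ### Expansion of `chi` on the six permutations -/

/-- The six permutations. -/
def p1 : Perm (Fin 3) := ⟨![0, 1, 2], ![0, 1, 2], by decide, by decide⟩
def p2 : Perm (Fin 3) := ⟨![0, 2, 1], ![0, 2, 1], by decide, by decide⟩
def p3 : Perm (Fin 3) := ⟨![1, 0, 2], ![1, 0, 2], by decide, by decide⟩
def p4 : Perm (Fin 3) := ⟨![2, 0, 1], ![1, 2, 0], by decide, by decide⟩
def p5 : Perm (Fin 3) := ⟨![1, 2, 0], ![2, 0, 1], by decide, by decide⟩
def p6 : Perm (Fin 3) := ⟨![2, 1, 0], ![2, 1, 0], by decide, by decide⟩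

theorem perm_univ : (univ : Finset (Perm (Fin 3))) = {p1, p2, p3, p4, p5, p6} := by
  decide

theorem chi_six (s x : Fin 3 → ℝ) :
    chi s x = (1 / 6) * (x 0 ^ s 0 * x 1 ^ s 1 * x 2 ^ s 2 + x 0 ^ s 0 * x 2 ^ s 1 * x 1 ^ s 2
      + x 1 ^ s 0 * x 0 ^ s 1 * x 2 ^ s 2 + x 2 ^ s 0 * x 0 ^ s 1 * x 1 ^ s 2
      + x 1 ^ s 0 * x 2 ^ s 1 * x 0 ^ s 2 + x 2 ^ s 0 * x 1 ^ s 1 * x 0 ^ s 2) := by
  unfold chi mono
  rw [perm_univ]
  rw [Finset.sum_insert (by decide), Finset.sum_insert (by decide), Finset.sum_insert (by decide),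
    Finset.sum_insert (by decide), Finset.sum_insert (by decide), Finset.sum_singleton]
  simp only [Fin.prod_univ_three]
  have e1 : p1 0 = 0 := rfl
  have e2 : p1 1 = 1 := rfl
  have e3 : p1 2 = 2 := rfl
  have e4 : p2 0 = 0 := rfl
  have e5 : p2 1 = 2 := rfl
  have e6 : p2 2 = 1 := rfl
  have e7 : p3 0 = 1 := rfl
  have e8 : p3 1 = 0 := rfl
  have e9 : p3 2 = 2 := rfl
  have e10 : p4 0 = 2 := rfl
  have e11 : p4 1 = 0 := rfl
  have e12 : p4 2 = 1 := rfl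
  have e13 : p5 0 = 1 := rfl
  have e14 : p5 1 = 2 := rfl
  have e15 : p5 2 = 0 := rfl
  have e16 : p6 0 = 2 := rfl
  have e17 : p6 1 = 1 := rfl
  have e18 : p6 2 = 0 := rfl
  simp only [e1, e2, e3, e4, e5, e6, e7, e8, e9, e10, e11, e12, e13, e14, e15, e16, e17, e18]
  ring

/-! ### Fractional powers -/

theorem rp_aux {u a : ℝ} (hu : 0 ≤ u) (ha : 0 ≤ a) (k : ℕ) (e : ℝ) (he : (12 : ℝ) * e = k) :
    (u * a ^ 12) ^ e = u ^ e * a ^ k := by
  rw [Real.mul_rpow hu (by positivity)]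
  congr 1
  rw [← Real.rpow_natCast a 12, ← Real.rpow_mul ha]
  push_cast
  rw [he, Real.rpow_natCast]

theorem pow12_eq {x : ℝ} (hx : 0 ≤ x) : (x ^ ((1 : ℝ) / 12)) ^ 12 = x := by
  rw [← Real.rpow_natCast, ← Real.rpow_mul hx]
  norm_num

/-- `chi sS` in the chart. -/
theorem chiS_chart {u0 v w : ℝ} (hu : 0 < u0) (hv : 0 ≤ v) (hw : 0 ≤ w) :
    chi sS ![u0, u0 * v ^ 12, u0 * w ^ 12] = u0 * chiSvw v w := by
  rw [chi_six]
  simp only [sS, Matrix.cons_val_zero, Matrix.cons_val_one, Matrix.cons_val]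
  have r1 := rp_aux hu.le hv 6 (1 / 2) (by norm_num)
  have r2 := rp_aux hu.le hv 5 (5 / 12) (by norm_num)
  have r3 := rp_aux hu.le hv 1 (1 / 12) (by norm_num)
  have r4 := rp_aux hu.le hw 6 (1 / 2) (by norm_num)
  have r5 := rp_aux hu.le hw 5 (5 / 12) (by norm_num)
  have r6 := rp_aux hu.le hw 1 (1 / 12) (by norm_num)
  rw [r1, r2, r3, r4, r5, r6]
  have h : u0 ^ ((1 : ℝ) / 2) * u0 ^ ((5 : ℝ) / 12) * u0 ^ ((1 : ℝ) / 12) = u0 := by
    rw [← Real.rpow_add hu, ← Real.rpow_add hu]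
    norm_num
  unfold chiSvw
  set a := u0 ^ ((1 : ℝ) / 2)
  set b := u0 ^ ((5 : ℝ) / 12)
  set c := u0 ^ ((1 : ℝ) / 12)
  calc _ = (a * b * c) * ((v ^ 5 * w + v * w ^ 5 + v ^ 6 * w + v * w ^ 6 + v ^ 6 * w ^ 5
        + v ^ 5 * w ^ 6) / 6) := by ring
    _ = _ := by rw [h]

/-- `chi sC` in the chart. -/
theorem chiC_chart {u0 v w : ℝ} (hu : 0 < u0) (hv : 0 ≤ v) (hw : 0 ≤ w) :
    chi sC ![u0, u0 * v ^ 12, u0 * w ^ 12] = u0 * chiCvw v w := by
  rw [chi_six]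
  simp only [sC, Matrix.cons_val_zero, Matrix.cons_val_one, Matrix.cons_val]
  have r1 := rp_aux hu.le hv 4 (1 / 3) (by norm_num)
  have r2 := rp_aux hu.le hw 4 (1 / 3) (by norm_num)
  rw [r1, r2]
  have h : u0 ^ ((1 : ℝ) / 3) * u0 ^ ((1 : ℝ) / 3) * u0 ^ ((1 : ℝ) / 3) = u0 := by
    rw [← Real.rpow_add hu, ← Real.rpow_add hu]
    norm_num
  unfold chiCvw
  set a := u0 ^ ((1 : ℝ) / 3)
  calc _ = (a * a * a) * (v ^ 4 * w ^ 4) := by ring
    _ = _ := by rw [h]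

/-- The sorted data in the chart. -/
theorem exists_chart {u : Fin 3 → ℝ} (h : ∀ i, 0 < u i) (h1 : u 1 ≤ u 0) (h2 : u 2 ≤ u 1) :
    ∃ v w : ℝ, 0 ≤ w ∧ w ≤ v ∧ v ≤ 1 ∧ u = ![u 0, u 0 * v ^ 12, u 0 * w ^ 12] := by
  have h0 := h 0
  refine ⟨(u 1 / u 0) ^ ((1 : ℝ) / 12), (u 2 / u 0) ^ ((1 : ℝ) / 12),
    Real.rpow_nonneg (div_nonneg (h 2).le h0.le) _, ?_, ?_, ?_⟩
  · apply Real.rpow_le_rpow (div_nonneg (h 2).le h0.le) _ (by norm_num)
    exact div_le_div_of_nonneg_right h2 h0.le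
  · apply Real.rpow_le_one (div_nonneg (h 1).le h0.le) _ (by norm_num)
    rw [div_le_one h0]
    exact h1
  · rw [pow12_eq (div_nonneg (h 1).le h0.le), pow12_eq (div_nonneg (h 2).le h0.le)]
    funext i
    fin_cases i
    · simp
    · simp
      field_simp
    · simp
      field_simp

/-- The chart values. -/
theorem chart_values {u0 v w : ℝ}
    (hm : mass ![u0, u0 * v ^ 12, u0 * w ^ 12] = 1) :
    3 / Mvw v w = u0 ∧ AA ![u0, u0 * v ^ 12, u0 * w ^ 12] = Avw v w ∧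
      RR ![u0, u0 * v ^ 12, u0 * w ^ 12] = Rvw v w := by
  have hM : u0 * Mvw v w = 3 := by
    unfold mass at hm
    simp at hm
    unfold Mvw
    linarith
  have hMpos : 0 < Mvw v w := by
    unfold Mvw
    positivity
  have h3 : 3 / Mvw v w = u0 := by
    rw [div_eq_iff hMpos.ne']
    linarith
  have e1 : 3 * v ^ 12 / Mvw v w = u0 * v ^ 12 := by
    rw [mul_div_right_comm, h3]
  have e2 : 3 * w ^ 12 / Mvw v w = u0 * w ^ 12 := by
    rw [mul_div_right_comm, h3]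
  refine ⟨h3, ?_, ?_⟩
  · unfold AA Avw
    rw [h3, e1, e2]
    simp
  · unfold RR Rvw
    rw [h3, e1, e2]
    simp

/-- `(C2)`. -/
theorem C2 (hE : E2) (u : Fin 3 → ℝ) (h : ∀ i, 0 < u i) (hm : mass u = 1) :
    AA u + Npoly (AA u) (RR u) ≤ aw * (1 - chi sS u) - bw * (1 - chi sC u) := by
  obtain ⟨g, g1, g2⟩ := exists_sorted u
  have hp : ∀ i, 0 < (fun i => u (g i)) i := fun i => h _
  obtain ⟨v, w, w0, wv, v1, hc⟩ := exists_chart hp g1 g2
  have hm' : mass (fun i => u (g i)) = 1 := by rw [mass_perm, hm]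
  have hvv : 0 ≤ v := le_trans w0 wv
  rw [← chi_perm sS u g, ← chi_perm sC u g, ← AA_perm u g, ← RR_perm u g]
  set u' : Fin 3 → ℝ := fun i => u (g i) with hu'
  rw [hc] at hm' ⊢
  have hu0 : 0 < u' 0 := h _
  rw [chiS_chart hu0 hvv w0, chiC_chart hu0 hvv w0]
  obtain ⟨c1, c2, c3⟩ := chart_values hm'
  rw [c2, c3]
  have := hE v w w0 wv v1
  unfold F2 at this
  have e1 : 3 * chiSvw v w / Mvw v w = u' 0 * chiSvw v w := by
    rw [mul_div_right_comm, c1]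
  have e2 : 3 * chiCvw v w / Mvw v w = u' 0 * chiCvw v w := by
    rw [mul_div_right_comm, c1]
  rw [e1, e2] at this
  linarith

/-- `(C1)`. -/
theorem C1 (hE : E1) (u : Fin 3 → ℝ) (h : ∀ i, 0 < u i) (hm : mass u = 1)
    (hb : ∀ i, u i ≤ 1 + tauMax) :
    1 - chi sS u ≤ 41 / 48 * AA u - 97 / 192 * RR u + Upoly (AA u) (RR u) := by
  obtain ⟨g, g1, g2⟩ := exists_sorted u
  have hp : ∀ i, 0 < (fun i => u (g i)) i := fun i => h _
  obtain ⟨v, w, w0, wv, v1, hc⟩ := exists_chart hp g1 g2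
  have hm' : mass (fun i => u (g i)) = 1 := by rw [mass_perm, hm]
  have hvv : 0 ≤ v := le_trans w0 wv
  rw [← chi_perm sS u g, ← AA_perm u g, ← RR_perm u g]
  set u' : Fin 3 → ℝ := fun i => u (g i) with hu'
  have hb0 : u' 0 ≤ 1 + tauMax := hb _
  rw [hc] at hm' ⊢
  have hu0 : 0 < u' 0 := h _
  rw [chiS_chart hu0 hvv w0]
  obtain ⟨c1, c2, c3⟩ := chart_values hm'
  rw [c2, c3]
  have := hE v w w0 wv v1 (by rw [c1]; exact hb0)
  unfold F1 at this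
  have e1 : 3 * chiSvw v w / Mvw v w = u' 0 * chiSvw v w := by
    rw [mul_div_right_comm, c1]
  rw [e1] at this
  linarith

end

end Vale.Agent.P154.Hel.Q3
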