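import Vale.Agent.P154.Hel.Q3Cell
import Vale.Agent.P154.Hel.Q3Moments
import Vale.Agent.P154.Hel.Q3Scalar

/-!
Layer F, part one: the two polynomial inequalities of the small `Z` family away from the centre
(`A >= (173/1000)^2`), by walks along the boundary curves of the moment region.
-/

namespace Vale.Agent.P154.Hel.Q3

open Vale.Agent.P154.Hel.TM

noncomputable section

/-- The plane polynomial with rational data and no constant term. -/
def GPl (Pn Pd qn qd cn cd : ℕ) (k : ℕ) (x y : ℝ) : ℝ :=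
  GG ((Pn : ℝ) / Pd) ((qn : ℝ) / qd) 0 ((cn : ℝ) / cd) (xOf k x ^ 2) (rc k (xOf k x)) (tauOf y)

end

/-- Program of `GPl`. -/
def FPl (c : Cfg) (Pn Pd qn qd cn cd : ℕ) (k : ℕ) (a b : TMod) : TMod :=
  withSCN c k (xT c k a) b (fun S Z N A _ =>
    subT c (addT c (subT c N (mulT c (ofRat c Pn Pd) S)) (mulT c (ofRat c qn qd) Z))
      (mulT c (ofRat c cn cd) A))

theorem FPl_rep (c : Cfg) (Pn Pd qn qd cn cd k : ℕ) (ξ η : ℝ) (C : Ctx c ξ η) (a b : TMod)
    (x y : ℝ) (ha : RepAt c ξ η a x) (hb : RepAt c ξ η b y) :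
    RepAt c ξ η (FPl c Pn Pd qn qd cn cd k a b) (GPl Pn Pd qn qd cn cd k x y) := by
  refine withSCN_rep C k (xT_rep C k ha) hb ?_
  intro S Z N A t hS hZ hN hA _
  exact (repAt_sub C (repAt_add C (repAt_sub C hN (repAt_mul C (repAt_ofRat C Pn Pd) hS))
    (repAt_mul C (repAt_ofRat C qn qd) hZ)) (repAt_mul C (repAt_ofRat C cn cd) hA)).congr
    (by unfold GPl GG; ring)

/-- The cells to the left of `x = 173/1000` along the curves. -/
def outK (k K i : ℕ) : Bool :=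
  match k with
  | 0 => Nat.ble (Nat.mul (Nat.succ i) 1000) (Nat.mul 173 (Nat.pow 2 K))
  | 1 => Nat.ble (Nat.mul (Nat.succ i) 1000) (Nat.mul 346 (Nat.pow 2 K))
  | _ => false

/-- The walk of `GPl` along one curve. -/
def plWalk (Pn Pd qn qd cn cd k : ℕ) : Bool :=
  walk2 (fun K i j => or (outK k K i) (cellChk cfg6 (FPl cfg6 Pn Pd qn qd cn cd k) K i j)) 13 0 0 0

theorem outK_sound {k K i j : ℕ} (h : outK k K i = true) {v w : ℝ} (hv : InCell K i j v w)
    (hx : 173 / 1000 < xOf k v) : False := by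
  have hK : (0 : ℝ) < 2 ^ K := by positivity
  have h6 := hv.2.1
  rw [le_div_iff₀ hK] at h6
  match k, h, hx with
  | 0, h, hx =>
    have h3 : (i + 1) * 1000 ≤ 173 * 2 ^ K := Nat.le_of_ble_eq_true h
    have h4 : ((i : ℝ) + 1) * 1000 ≤ 173 * 2 ^ K := by exact_mod_cast h3
    have hx' : 173 / 1000 < v := hx
    nlinarith
  | 1, h, hx =>
    have h3 : (i + 1) * 1000 ≤ 346 * 2 ^ K := Nat.le_of_ble_eq_true h
    have h4 : ((i : ℝ) + 1) * 1000 ≤ 346 * 2 ^ K := by exact_mod_cast h3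
    have hx' : 173 / 1000 < v / 2 := hx
    nlinarith
  | n + 2, h, _ =>
    exact absurd h (by simp [outK])

/-- From a walk to the inequality along a curve. -/
theorem of_plWalk {Pn Pd qn qd cn cd k : ℕ} (h : plWalk Pn Pd qn qd cn cd k = true)
    (x y : ℝ) (hx0 : 0 ≤ x) (hx1 : x ≤ 1) (hy0 : 0 ≤ y) (hy1 : y ≤ 1)
    (hx : 173 / 1000 < xOf k x) : 0 ≤ GPl Pn Pd qn qd cn cd k x y := by
  refine of_walk (Q := fun x y => 173 / 1000 < xOf k x → 0 ≤ GPl Pn Pd qn qd cn cd k x y)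
    cfg6_valid (FPl_rep cfg6 Pn Pd qn qd cn cd k) (out := fun K i _ => outK k K i) ?_
    (fun v w h _ => h) 13 h x y hx0 hx1 hy0 hy1 hx
  intro K i j hk v w hvw hc
  exact (outK_sound hk hvw hc).elim

/-- The coefficient of `R^2`: the polynomial is concave in `R`. -/
theorem GG_concave {P q v c A R1 R2 t l m : ℝ} (hP : 0 ≤ P) (hq : q ≤ 8) (hA : 0 ≤ A) (ht0 : 0 ≤ t)
    (ht1 : t ≤ tauMax) (l0 : 0 ≤ l) (m0 : 0 ≤ m) (lm : l + m = 1) :
    l * GG P q v c A R1 t + m * GG P q v c A R2 t ≤ GG P q v c A (l * R1 + m * R2) t := by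
  have ht4 : t ^ 4 ≤ 28 / 1000 := by
    have : t ^ 4 ≤ tauMax ^ 4 := pow_le_pow_left₀ ht0 ht1 4
    refine this.trans ?_
    unfold tauMax
    norm_num
  have hm : m = 1 - l := by linarith
  subst hm
  have key : GG P q v c A (l * R1 + (1 - l) * R2) t - (l * GG P q v c A R1 t + (1 - l) * GG P q v c A R2 t)
      = ((318 + 46 * A + 498 * A ^ 2) / 1024 + P * (129 * t ^ 4 + 61440 * t ^ 8 * A ^ 2) / 1024
        - q * (4 / 9 * t ^ 4)) * (l * (1 - l) * (R1 - R2) ^ 2) := by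
    unfold GG zetaS zetaC Utau Npoly
    ring
  have h1 : q * (4 / 9 * t ^ 4) ≤ 8 * (4 / 9 * (28 / 1000)) := by
    have h2 : 0 ≤ 4 / 9 * t ^ 4 := by positivity
    calc q * (4 / 9 * t ^ 4) ≤ 8 * (4 / 9 * t ^ 4) := mul_le_mul_of_nonneg_right hq h2
      _ ≤ 8 * (4 / 9 * (28 / 1000)) := by linarith
  have h2 : 0 ≤ (318 + 46 * A + 498 * A ^ 2) / 1024 + P * (129 * t ^ 4 + 61440 * t ^ 8 * A ^ 2) / 1024
      - q * (4 / 9 * t ^ 4) := by
    have h3 : 318 / 1024 ≤ (318 + 46 * A + 498 * A ^ 2) / 1024 := by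
      have : 0 ≤ 46 * A + 498 * A ^ 2 := by positivity
      linarith
    have h4 : 0 ≤ P * (129 * t ^ 4 + 61440 * t ^ 8 * A ^ 2) / 1024 := by positivity
    norm_num at h1 h3 ⊢
    linarith
  have h3 := mul_nonneg h2 (mul_nonneg (mul_nonneg l0 m0) (sq_nonneg (R1 - R2)))
  linarith

/-- From the three curves to the inequality on the moment region. -/
theorem GG_of_curves {P q c : ℝ} (hP0 : 0 ≤ P) (hP : q ≤ 8)
    (h0 : ∀ x y : ℝ, 0 ≤ x → x ≤ 1 → 0 ≤ y → y ≤ 1 → 173 / 1000 < xOf 0 x →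
      0 ≤ GG P q 0 c (xOf 0 x ^ 2) (rc 0 (xOf 0 x)) (tauOf y))
    (h1 : ∀ x y : ℝ, 0 ≤ x → x ≤ 1 → 0 ≤ y → y ≤ 1 → 173 / 1000 < xOf 1 x →
      0 ≤ GG P q 0 c (xOf 1 x ^ 2) (rc 1 (xOf 1 x)) (tauOf y))
    (h2 : ∀ x y : ℝ, 0 ≤ x → x ≤ 1 → 0 ≤ y → y ≤ 1 → 173 / 1000 < xOf 2 x →
      0 ≤ GG P q 0 c (xOf 2 x ^ 2) (rc 2 (xOf 2 x)) (tauOf y))
    {A R t : ℝ} (hD : Dom A R)
    (hA : (173 / 1000 : ℝ) ^ 2 < A) (ht0 : 0 ≤ t) (ht1 : t ≤ tauMax) :
    0 ≤ GG P q 0 c A R t := by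
  obtain ⟨A0, A1, hR, hL⟩ := hD
  set x := Real.sqrt A with hx
  have hx0 : 0 ≤ x := Real.sqrt_nonneg A
  have hxx : x ^ 2 = A := Real.sq_sqrt A0
  have hx1 : x ≤ 1 := by nlinarith
  have hxl : 173 / 1000 < x := by
    by_contra hn
    push Not at hn
    have : x ^ 2 ≤ (173 / 1000) ^ 2 := pow_le_pow_left₀ hx0 hn 2
    linarith
  have hT : 0 < tauMax := by
    unfold tauMax
    norm_num
  set y := t / (3345 / 8192) with hy
  have hty : tauOf y = t := by
    unfold tauOf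
    rw [hy]
    field_simp
  have hy0 : 0 ≤ y := by positivity
  have hy1 : y ≤ 1 := by
    rw [hy, div_le_one (by norm_num)]
    exact ht1
  have hup : R ≤ x ^ 3 := by
    have h3 : R ^ 2 ≤ (x ^ 3) ^ 2 := by
      have : (x ^ 3) ^ 2 = (x ^ 2) ^ 3 := by ring
      rw [this, hxx]
      exact hR
    exact abs_le_of_sq_le_sq' h3 (by positivity) |>.2
  have hlow : -x ^ 3 ≤ R := by
    have h3 : R ^ 2 ≤ (x ^ 3) ^ 2 := by
      have : (x ^ 3) ^ 2 = (x ^ 2) ^ 3 := by ring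
      rw [this, hxx]
      exact hR
    exact abs_le_of_sq_le_sq' h3 (by positivity) |>.1
  have g0 : 0 ≤ GG P q 0 c A (x ^ 3) t := by
    have := h0 x y hx0 hx1 hy0 hy1 hxl
    simp only [xOf, rc] at this
    rwa [hty, hxx] at this
  rcases le_total x (1 / 2) with hc | hc
  · have g1 : 0 ≤ GG P q 0 c A (-x ^ 3) t := by
      have := h1 (2 * x) y (by positivity) (by linarith) hy0 hy1
        (by simpa [xOf] using hxl)
      simp only [xOf, rc] at this
      have e : 2 * x / 2 = x := by ring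
      rw [e] at this
      rwa [hty, hxx] at this
    obtain ⟨l, m, l0, m0, lm, hz⟩ := exists_convex hlow hup
    have := GG_concave (v := 0) (c := c) (A := A) (R1 := -x ^ 3) (R2 := x ^ 3) (t := t) hP0 hP A0
      ht0 ht1 l0 m0 lm
    rw [hz] at this
    have a1 := mul_nonneg l0 g1
    have a2 := mul_nonneg m0 g0
    linarith
  · have e : xOf 2 (2 * x - 1) = x := by
      show (1 + (2 * x - 1)) / 2 = x
      ring
    have g1 : 0 ≤ GG P q 0 c A ((3 * x ^ 2 - 1) / 2) t := by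
      have := h2 (2 * x - 1) y (by linarith) (by linarith) hy0 hy1 (by rw [e]; exact hxl)
      rw [e] at this
      have e2 : rc 2 x = (3 * x ^ 2 - 1) / 2 := rfl
      rw [e2, hty] at this
      rw [hxx] at this ⊢
      exact this
    have hlow2 : (3 * x ^ 2 - 1) / 2 ≤ R := by
      rw [hxx]
      linarith
    obtain ⟨l, m, l0, m0, lm, hz⟩ := exists_convex hlow2 hup
    have := GG_concave (v := 0) (c := c) (A := A) (R1 := (3 * x ^ 2 - 1) / 2) (R2 := x ^ 3) (t := t)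
      hP0 hP A0 ht0 ht1 l0 m0 lm
    rw [hz] at this
    have a1 := mul_nonneg l0 g1
    have a2 := mul_nonneg m0 g0
    linarith

/-- From the walks along the three curves to the inequality on the moment region. -/
theorem GG_of_walks {Pn Pd qn qd cn cd : ℕ} (hP : ((qn : ℝ) / qd) ≤ 8)
    (h0 : plWalk Pn Pd qn qd cn cd 0 = true) (h1 : plWalk Pn Pd qn qd cn cd 1 = true)
    (h2 : plWalk Pn Pd qn qd cn cd 2 = true) {A R t : ℝ} (hD : Dom A R)
    (hA : (173 / 1000 : ℝ) ^ 2 < A) (ht0 : 0 ≤ t) (ht1 : t ≤ tauMax) :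
    0 ≤ GG ((Pn : ℝ) / Pd) ((qn : ℝ) / qd) 0 ((cn : ℝ) / cd) A R t :=
  GG_of_curves (by positivity) hP
    (fun x y hx0 hx1 hy0 hy1 hx => of_plWalk h0 x y hx0 hx1 hy0 hy1 hx)
    (fun x y hx0 hx1 hy0 hy1 hx => of_plWalk h1 x y hx0 hx1 hy0 hy1 hx)
    (fun x y hx0 hx1 hy0 hy1 hx => of_plWalk h2 x y hx0 hx1 hy0 hy1 hx) hD hA ht0 ht1

/-! ### The two instances -/

theorem walks0 : (plWalk 77312237089 7449083904 291 37 0 1 0
    && plWalk 77312237089 7449083904 291 37 0 1 1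
    && plWalk 77312237089 7449083904 291 37 0 1 2) = true := by
  decide +kernel

theorem walks1 : (plWalk 76651240993 7449083904 11798533 1515520 41 2048000 0
    && plWalk 76651240993 7449083904 11798533 1515520 41 2048000 1
    && plWalk 76651240993 7449083904 11798533 1515520 41 2048000 2) = true := by
  decide +kernel

end Vale.Agent.P154.Hel.Q3
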