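import Vale.Agent.P154.Hel.Q3Planes
import Vale.Agent.P154.Hel.Q3Hull

/-!
Layer F: the family of planes for small `Z`, where a plane is tangent at `p = (41/48) Z`.
-/

namespace Vale.Agent.P154.Hel.Q3

open Vale.Agent.P154.Hel.TM

noncomputable section

/-- The constant term of the family. -/
def BB (A R t : ℝ) : ℝ := A + Npoly A R - aw * zetaS A R t + bw * zetaC A R t

/-- The coefficient of `-Z`. -/
def cc1 (A R t : ℝ) : ℝ := 2947 / 370 * zetaC A R t - 328 / 37 * zetaS A R t + A / 500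

/-- The coefficient of `Z^2`. -/
def cc2 (A R t : ℝ) : ℝ := 547 / 2220 - 1681 / 444 * zetaS A R t

/-- The lower bound of the plane polynomial. -/
def Xi (Z A R t : ℝ) : ℝ := BB A R t - Z * cc1 A R t + Z ^ 2 * cc2 A R t

/-- The tangent coefficient in polynomial form. -/
def Pp (Z : ℝ) : ℝ := aw - 328 / 37 * Z + 1681 / 444 * Z ^ 2

/-- The slope in `zetaC`. -/
def Qp (Z : ℝ) : ℝ := bw - 2947 / 370 * Z

theorem GG_Xi (Z A R t : ℝ) :
    GG (Pp Z) (Qp Z) (-(547 / 2220 * Z ^ 2)) (Z / 500) A R t = Xi Z A R t := by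
  unfold GG Xi BB cc1 cc2 Pp Qp aw bw
  ring

/-- The threshold in `x`. -/
def x1 : ℝ := 57 / 512

/-- The end of the range of `Z`. -/
def Z0 : ℝ := 41 / 4096

/-- The range of `x` in the upper region. -/
def xII (k : ℕ) (u : ℝ) : ℝ :=
  match k with
  | 0 => 57 / 512 + 455 / 512 * u
  | 1 => 57 / 512 + 199 / 512 * u
  | _ => (1 + u) / 2

/-- The three polynomials in the upper region. -/
def GII (k i : ℕ) (u y : ℝ) : ℝ :=
  match i with
  | 0 => cc1 (xII k u ^ 2) (rc k (xII k u)) (tauOf y)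
  | 1 => cc1 (xII k u ^ 2) (rc k (xII k u)) (tauOf y) - 41 / 2048 * cc2 (xII k u ^ 2) (rc k (xII k u)) (tauOf y)
  | _ => Xi (41 / 4096) (xII k u ^ 2) (rc k (xII k u)) (tauOf y)

end

/-- The range of `x` in the upper region on models. -/
def xIIT (c : Cfg) (k : ℕ) (a : TMod) : TMod :=
  match k with
  | 0 => addT c (ofRat c 57 512) (mulT c (ofRat c 455 512) a)
  | 1 => addT c (ofRat c 57 512) (mulT c (ofRat c 199 512) a)
  | _ => mulT c (ofRat c 1 2) (addT c (ofRat c 1 1) a)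

theorem xIIT_rep {c : Cfg} {ξ η : ℝ} (C : Ctx c ξ η) (k : ℕ) {a : TMod} {x : ℝ}
    (h : RepAt c ξ η a x) : RepAt c ξ η (xIIT c k a) (xII k x) := by
  match k with
  | 0 =>
    exact (repAt_add C (repAt_ofRat C 57 512) (repAt_mul C (repAt_ofRat C 455 512) h)).congr
      (by show _ = 57 / 512 + 455 / 512 * x; push_cast; ring)
  | 1 =>
    exact (repAt_add C (repAt_ofRat C 57 512) (repAt_mul C (repAt_ofRat C 199 512) h)).congr
      (by show _ = 57 / 512 + 199 / 512 * x; push_cast; ring)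
  | n + 2 =>
    exact (repAt_mul C (repAt_ofRat C 1 2) (repAt_add C (repAt_ofRat C 1 1) h)).congr
      (by show _ = (1 + x) / 2; push_cast; ring)

/-- The program of the upper region. -/
def FII (c : Cfg) (k i : ℕ) (a b : TMod) : TMod :=
  withSCN c k (xIIT c k a) b (fun S Z N A _ =>
    (fun c1 c2 =>
      match i with
      | 0 => c1
      | 1 => subT c c1 (mulT c (ofRat c 41 2048) c2)
      | _ => addT c (subT c (addT c (subT c N (mulT c (ofRat c 384 37) S)) (mulT c (ofRat c 291 37) Z))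
          (mulT c (ofRat c 41 4096) c1)) (mulT c (ofRat c 1681 16777216) c2))
    (addT c (subT c (mulT c (ofRat c 2947 370) Z) (mulT c (ofRat c 328 37) S)) (mulT c (ofRat c 1 500) A))
    (subT c (ofRat c 547 2220) (mulT c (ofRat c 1681 444) S)))

theorem FII_rep (c : Cfg) (k i : ℕ) (ξ η : ℝ) (C : Ctx c ξ η) (a b : TMod) (x y : ℝ)
    (ha : RepAt c ξ η a x) (hb : RepAt c ξ η b y) : RepAt c ξ η (FII c k i a b) (GII k i x y) := by
  refine withSCN_rep C k (xIIT_rep C k ha) hb ?_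
  intro S Z N A _ hS hZ hN hA _
  have h1 : RepAt c ξ η _ (cc1 (xII k x ^ 2) (rc k (xII k x)) (tauOf y)) :=
    (repAt_add C (repAt_sub C (repAt_mul C (repAt_ofRat C 2947 370) hZ) (repAt_mul C (repAt_ofRat C 328 37) hS))
      (repAt_mul C (repAt_ofRat C 1 500) hA)).congr (by unfold cc1; push_cast; ring)
  have h2 : RepAt c ξ η _ (cc2 (xII k x ^ 2) (rc k (xII k x)) (tauOf y)) :=
    (repAt_sub C (repAt_ofRat C 547 2220) (repAt_mul C (repAt_ofRat C 1681 444) hS)).congr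
      (by unfold cc2; push_cast; ring)
  match i with
  | 0 => exact h1
  | 1 =>
    exact (repAt_sub C h1 (repAt_mul C (repAt_ofRat C 41 2048) h2)).congr
      (by show _ = cc1 _ _ _ - 41 / 2048 * cc2 _ _ _; push_cast; ring)
  | n + 2 =>
    exact (repAt_add C (repAt_sub C (repAt_add C (repAt_sub C hN (repAt_mul C (repAt_ofRat C 384 37) hS))
        (repAt_mul C (repAt_ofRat C 291 37) hZ)) (repAt_mul C (repAt_ofRat C 41 4096) h1))
        (repAt_mul C (repAt_ofRat C 1681 16777216) h2)).congr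
      (by show _ = Xi (41 / 4096) _ _ _; unfold Xi BB aw bw; push_cast; ring)

/-- The walk of the upper region. -/
def walkII (k i : ℕ) : Bool :=
  walk2 (fun K i' j => or ((fun _ _ _ => false) K i' j) (cellChk cfg6 (FII cfg6 k i) K i' j)) 13 0 0 0

theorem walks_II : (List.all [0, 1, 2] fun k => List.all [0, 1, 2] fun i => walkII k i) = true := by
  decide +kernel

noncomputable section

/-- `Upoly` divided by `x^4` in the variables `A = x^2`, `w = e x`. -/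
def U4 (A w t : ℝ) : ℝ :=
  (820 * t ^ 2 + 923 * t ^ 3 * w + 1762 * t ^ 4 * A + 5908 * t ^ 5 * (w * A) - 8512 * t ^ 6 * A ^ 2
    - 8390 * t ^ 7 * (w * A ^ 2) + 122880 * t ^ 8 * A ^ 3) / 1024

/-- `Npoly` divided by `x^4`. -/
def N4 (A w : ℝ) : ℝ :=
  (308 + 100 * w - 332 * A + 1173 * (w * A) - 218 * A ^ 2 - 2203 * (w * A ^ 2) + 2082 * A ^ 3) / 1024

/-- The higher terms of `zetaC` divided by `x^4`. -/
def E4 (A w t : ℝ) : ℝ :=
  t ^ 2 * (3 + 2 * t * w) ^ 2 / 9 + 5 / 81 * t ^ 4 * (27 * A + 54 * t * (w * A))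
    + 10 / 243 * t ^ 6 * (81 * A ^ 2 + 216 * t * (w * A ^ 2))

/-- `zetaS` divided by `x^2`. -/
def S2x (A w t : ℝ) : ℝ := 41 / 48 + 97 / 192 * (t * w) + A * U4 A w t

/-- `zetaC` divided by `x^2`. -/
def C2x (A w t : ℝ) : ℝ := (3 + 2 * t * w) / 3 + A * E4 A w t

/-- `BB` divided by `x^4`. -/
def Bt (A w t : ℝ) : ℝ := N4 A w - aw * U4 A w t + bw * E4 A w t

/-- `cc1` divided by `x^2`. -/
def Ct (A w t : ℝ) : ℝ := 2947 / 370 * C2x A w t - 328 / 37 * S2x A w t + 1 / 500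

/-- `cc2` in the variables `A`, `w`. -/
def Ct2 (A w t : ℝ) : ℝ := 547 / 2220 - 1681 / 444 * (A * S2x A w t)

/-- The discriminant. -/
def Dt (A w t : ℝ) : ℝ := 4 * Bt A w t * Ct2 A w t - Ct A w t ^ 2

theorem BB_plus (x t : ℝ) : BB (x ^ 2) (x ^ 3) t = x ^ 4 * Bt (x ^ 2) x t := by
  unfold BB Bt N4 U4 E4 Npoly zetaS Utau zetaC aw bw
  ring

theorem BB_minus (x t : ℝ) : BB (x ^ 2) (-x ^ 3) t = x ^ 4 * Bt (x ^ 2) (-x) t := by
  unfold BB Bt N4 U4 E4 Npoly zetaS Utau zetaC aw bw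
  ring

theorem cc1_plus (x t : ℝ) : cc1 (x ^ 2) (x ^ 3) t = x ^ 2 * Ct (x ^ 2) x t := by
  unfold cc1 Ct C2x S2x U4 E4 zetaS Utau zetaC
  ring

theorem cc1_minus (x t : ℝ) : cc1 (x ^ 2) (-x ^ 3) t = x ^ 2 * Ct (x ^ 2) (-x) t := by
  unfold cc1 Ct C2x S2x U4 E4 zetaS Utau zetaC
  ring

theorem cc2_plus (x t : ℝ) : cc2 (x ^ 2) (x ^ 3) t = Ct2 (x ^ 2) x t := by
  unfold cc2 Ct2 S2x U4 zetaS Utau
  ring

theorem cc2_minus (x t : ℝ) : cc2 (x ^ 2) (-x ^ 3) t = Ct2 (x ^ 2) (-x) t := by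
  unfold cc2 Ct2 S2x U4 zetaS Utau
  ring

/-- The two polynomials in the lower region, in the variables `A`, `w`. -/
def GI0 (i : ℕ) (A w y : ℝ) : ℝ :=
  match i with
  | 0 => Dt A w (tauOf y)
  | _ => Ct2 A w (tauOf y) - 1 / 10

/-- The two polynomials in the lower region. -/
def GI (k i : ℕ) (u y : ℝ) : ℝ :=
  GI0 i ((57 / 512 * u) ^ 2)
    (match k with
      | 0 => 57 / 512 * u
      | _ => -(57 / 512 * u)) y

end

/-- The program of the lower region in the variables `A`, `w`. -/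
def FI0 (c : Cfg) (i : ℕ) (A w b : TMod) : TMod :=
  (fun t =>
    (fun t2 => (fun t3 t4 => (fun t5 t6 t8 => (fun t7 =>
    (fun A2 => (fun A3 wA => (fun wA2 =>
    (fun tw =>
    (fun W =>
    (fun U E =>
    (fun N =>
    (fun St =>
    (fun Bt Ct Cc =>
      match i with
      | 0 => subT c (smulT c 4 (mulT c Bt Cc)) (mulT c Ct Ct)
      | _ => subT c Cc (ofRat c 1 10))
    (addT c (subT c N (mulT c (ofRat c 384 37) U)) (mulT c (ofRat c 291 37) E))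
    (addT c (subT c (mulT c (ofRat c 2947 370) (addT c (mulT c (ofRat c 1 3) W) (mulT c A E)))
      (mulT c (ofRat c 328 37) St)) (ofRat c 1 500))
    (subT c (ofRat c 547 2220) (mulT c (ofRat c 1681 444) (mulT c A St))))
    (addT c (addT c (ofRat c 41 48) (mulT c (ofRat c 97 192) tw)) (mulT c A U)))
    (mulT c (ofRat c 1 1024) (subT c (addT c (addT c (addT c (ofRat c 308 1) (smulT c 100 w)) (smulT c 1173 wA)) (smulT c 2082 A3))
      (addT c (addT c (smulT c 332 A) (smulT c 218 A2)) (smulT c 2203 wA2)))))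
    (mulT c (ofRat c 1 1024) (subT c (addT c (addT c (addT c (addT c (smulT c 820 t2) (smulT c 923 (mulT c t3 w)))
        (smulT c 1762 (mulT c t4 A))) (smulT c 5908 (mulT c t5 wA))) (smulT c 122880 (mulT c t8 A3)))
      (addT c (smulT c 8512 (mulT c t6 A2)) (smulT c 8390 (mulT c t7 wA2)))))
    (addT c (addT c (mulT c (ofRat c 1 9) (mulT c t2 (mulT c W W)))
        (mulT c (ofRat c 5 81) (mulT c t4 (addT c (smulT c 27 A) (smulT c 54 (mulT c t wA))))))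
      (mulT c (ofRat c 10 243) (mulT c t6 (addT c (smulT c 81 A2) (smulT c 216 (mulT c t wA2)))))))
    (addT c (ofRat c 3 1) (smulT c 2 tw)))
    (mulT c t w))
    (mulT c w A2))
    (mulT c A2 A) (mulT c w A))
    (mulT c A A))
    (mulT c t6 t))
    (mulT c t4 t) (mulT c t4 t2) (mulT c t4 t4))
    (mulT c t2 t) (mulT c t2 t2))
    (mulT c t t))
    (mulT c (ofRat c 3345 8192) b)

theorem FI0_rep {c : Cfg} (i : ℕ) {ξ η : ℝ} (C : Ctx c ξ η) {Am w b : TMod} {A W y : ℝ}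
    (hA : RepAt c ξ η Am A) (hw : RepAt c ξ η w W) (hb : RepAt c ξ η b y) :
    RepAt c ξ η (FI0 c i Am w b) (GI0 i A W y) := by
  have ht : RepAt c ξ η (mulT c (ofRat c 3345 8192) b) (tauOf y) :=
    (repAt_mul C (repAt_ofRat C 3345 8192) hb).congr (by unfold tauOf; norm_num)
  have t2 := repAt_mul C ht ht
  have t3 := repAt_mul C t2 ht
  have t4 := repAt_mul C t2 t2
  have t5 := repAt_mul C t4 ht
  have t6 := repAt_mul C t4 t2
  have t8 := repAt_mul C t4 t4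
  have t7 := repAt_mul C t6 ht
  have A2 := repAt_mul C hA hA
  have A3 := repAt_mul C A2 hA
  have wA := repAt_mul C hw hA
  have wA2 := repAt_mul C hw A2
  have tw := repAt_mul C ht hw
  have WW := repAt_add C (repAt_ofRat C 3 1) (repAt_smul C 2 tw)
  have hE : RepAt c ξ η _ (E4 A W (tauOf y)) :=
    (repAt_add C (repAt_add C (repAt_mul C (repAt_ofRat C 1 9) (repAt_mul C t2 (repAt_mul C WW WW)))
        (repAt_mul C (repAt_ofRat C 5 81) (repAt_mul C t4 (repAt_add C (repAt_smul C 27 hA) (repAt_smul C 54 (repAt_mul C ht wA))))))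
      (repAt_mul C (repAt_ofRat C 10 243) (repAt_mul C t6 (repAt_add C (repAt_smul C 81 A2) (repAt_smul C 216 (repAt_mul C ht wA2)))))).congr
      (by unfold E4; push_cast; ring)
  have hU : RepAt c ξ η _ (U4 A W (tauOf y)) :=
    (repAt_mul C (repAt_ofRat C 1 1024) (repAt_sub C (repAt_add C (repAt_add C (repAt_add C (repAt_add C (repAt_smul C 820 t2) (repAt_smul C 923 (repAt_mul C t3 hw)))
        (repAt_smul C 1762 (repAt_mul C t4 hA))) (repAt_smul C 5908 (repAt_mul C t5 wA))) (repAt_smul C 122880 (repAt_mul C t8 A3)))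
      (repAt_add C (repAt_smul C 8512 (repAt_mul C t6 A2)) (repAt_smul C 8390 (repAt_mul C t7 wA2))))).congr
      (by unfold U4; push_cast; ring)
  have hN : RepAt c ξ η _ (N4 A W) :=
    (repAt_mul C (repAt_ofRat C 1 1024) (repAt_sub C (repAt_add C (repAt_add C (repAt_add C (repAt_ofRat C 308 1) (repAt_smul C 100 hw)) (repAt_smul C 1173 wA)) (repAt_smul C 2082 A3))
      (repAt_add C (repAt_add C (repAt_smul C 332 hA) (repAt_smul C 218 A2)) (repAt_smul C 2203 wA2)))).congr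
      (by unfold N4; push_cast; ring)
  have hS : RepAt c ξ η _ (S2x A W (tauOf y)) :=
    (repAt_add C (repAt_add C (repAt_ofRat C 41 48) (repAt_mul C (repAt_ofRat C 97 192) tw)) (repAt_mul C hA hU)).congr
      (by unfold S2x; push_cast; ring)
  have hB : RepAt c ξ η _ (Bt A W (tauOf y)) :=
    (repAt_add C (repAt_sub C hN (repAt_mul C (repAt_ofRat C 384 37) hU)) (repAt_mul C (repAt_ofRat C 291 37) hE)).congr
      (by unfold Bt aw bw; push_cast; ring)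
  have hC : RepAt c ξ η _ (Ct A W (tauOf y)) :=
    (repAt_add C (repAt_sub C (repAt_mul C (repAt_ofRat C 2947 370) (repAt_add C (repAt_mul C (repAt_ofRat C 1 3) WW) (repAt_mul C hA hE)))
      (repAt_mul C (repAt_ofRat C 328 37) hS)) (repAt_ofRat C 1 500)).congr
      (by unfold Ct C2x; push_cast; ring)
  have hCc : RepAt c ξ η _ (Ct2 A W (tauOf y)) :=
    (repAt_sub C (repAt_ofRat C 547 2220) (repAt_mul C (repAt_ofRat C 1681 444) (repAt_mul C hA hS))).congr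
      (by unfold Ct2; push_cast; ring)
  match i with
  | 0 =>
    exact (repAt_sub C (repAt_smul C 4 (repAt_mul C hB hCc)) (repAt_mul C hC hC)).congr
      (by show _ = Dt A W (tauOf y); unfold Dt; push_cast; ring)
  | n + 1 =>
    exact (repAt_sub C hCc (repAt_ofRat C 1 10)).congr
      (by show _ = Ct2 A W (tauOf y) - 1 / 10; push_cast; ring)

/-- The program of the lower region. -/
def FI (c : Cfg) (k i : ℕ) (a b : TMod) : TMod :=
  (fun x => FI0 c i (mulT c x x)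
    (match k with
      | 0 => x
      | _ => negT x) b)
  (mulT c (ofRat c 57 512) a)

theorem FI_rep (c : Cfg) (k i : ℕ) (ξ η : ℝ) (C : Ctx c ξ η) (a b : TMod) (u y : ℝ)
    (ha : RepAt c ξ η a u) (hb : RepAt c ξ η b y) : RepAt c ξ η (FI c k i a b) (GI k i u y) := by
  have hx : RepAt c ξ η _ (57 / 512 * u) :=
    (repAt_mul C (repAt_ofRat C 57 512) ha).congr (by push_cast; ring)
  have hA := (repAt_mul C hx hx).congr (show _ = (57 / 512 * u) ^ 2 by ring)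
  match k with
  | 0 => exact FI0_rep i C hA hx hb
  | n + 1 => exact FI0_rep i C hA (repAt_neg hx) hb

/-- The walk of the lower region. -/
def walkI (k i : ℕ) : Bool :=
  walk2 (fun K i' j => or ((fun _ _ _ => false) K i' j) (cellChk cfg6 (FI cfg6 k i) K i' j)) 13 0 0 0

theorem walks_I : (List.all [0, 1] fun k => List.all [0, 1] fun i => walkI k i) = true := by
  decide +kernel

noncomputable section

theorem walkI_sound {k i : ℕ} (h : walkI k i = true) {u y : ℝ}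
    (hu0 : 0 ≤ u) (hu1 : u ≤ 1) (hy0 : 0 ≤ y) (hy1 : y ≤ 1) : 0 ≤ GI k i u y :=
  of_walk (Q := fun v w => 0 ≤ GI k i v w) cfg6_valid
    (fun ξ η C a b v w ha hb => FI_rep cfg6 k i ξ η C a b v w ha hb)
    (out := fun _ _ _ => false) (by intro K i j h; cases h) (fun _ _ h => h) 13 h u y hu0 hu1 hy0 hy1

theorem walkII_sound {k i : ℕ} (h : walkII k i = true) {u y : ℝ}
    (hu0 : 0 ≤ u) (hu1 : u ≤ 1) (hy0 : 0 ≤ y) (hy1 : y ≤ 1) : 0 ≤ GII k i u y :=
  of_walk (Q := fun v w => 0 ≤ GII k i v w) cfg6_valid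
    (fun ξ η C a b v w ha hb => FII_rep cfg6 k i ξ η C a b v w ha hb)
    (out := fun _ _ _ => false) (by intro K i j h; cases h) (fun _ _ h => h) 13 h u y hu0 hu1 hy0 hy1

theorem walkI_all : walkI 0 0 = true ∧ walkI 0 1 = true ∧ walkI 1 0 = true ∧ walkI 1 1 = true := by
  have h := walks_I
  simp only [List.all_cons, List.all_nil, Bool.and_true, Bool.and_eq_true] at h
  exact ⟨h.1.1, h.1.2, h.2.1, h.2.2⟩

theorem walkII_all {k i : ℕ} (hk : k ≤ 2) (hi : i ≤ 2) : walkII k i = true := by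
  have h := walks_II
  simp only [List.all_cons, List.all_nil, Bool.and_true, Bool.and_eq_true] at h
  obtain ⟨⟨a0, a1, a2⟩, ⟨b0, b1, b2⟩, ⟨c0, c1, c2⟩⟩ := h
  interval_cases k <;> interval_cases i
  · exact a0
  · exact a1
  · exact a2
  · exact b0
  · exact b1
  · exact b2
  · exact c0
  · exact c1
  · exact c2

/-- Below the threshold the quadratic in `Z` has no real root. -/
theorem xi_of_disc {x t Z B C1 D c : ℝ} (hB : BB (x ^ 2) (rc 0 x) t = x ^ 4 * B)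
    (hC : cc1 (x ^ 2) (rc 0 x) t = x ^ 2 * C1) (hc : cc2 (x ^ 2) (rc 0 x) t = c) (hD : D = 4 * B * c - C1 ^ 2)
    (hD0 : 0 ≤ D) (hc0 : 0 < c) : 0 ≤ Xi Z (x ^ 2) (rc 0 x) t := by
  unfold Xi
  rw [hB, hC, hc]
  have key : 4 * c * (x ^ 4 * B - Z * (x ^ 2 * C1) + Z ^ 2 * c) = (2 * c * Z - x ^ 2 * C1) ^ 2 + x ^ 4 * D := by
    rw [hD]
    ring
  have h1 : 0 ≤ 4 * c * (x ^ 4 * B - Z * (x ^ 2 * C1) + Z ^ 2 * c) := by
    rw [key]
    positivity
  exact nonneg_of_mul_nonneg_right h1 (by positivity)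

theorem xi_of_disc' {x t Z B C1 D c : ℝ} (hB : BB (x ^ 2) (rc 1 x) t = x ^ 4 * B)
    (hC : cc1 (x ^ 2) (rc 1 x) t = x ^ 2 * C1) (hc : cc2 (x ^ 2) (rc 1 x) t = c) (hD : D = 4 * B * c - C1 ^ 2)
    (hD0 : 0 ≤ D) (hc0 : 0 < c) : 0 ≤ Xi Z (x ^ 2) (rc 1 x) t := by
  unfold Xi
  rw [hB, hC, hc]
  have key : 4 * c * (x ^ 4 * B - Z * (x ^ 2 * C1) + Z ^ 2 * c) = (2 * c * Z - x ^ 2 * C1) ^ 2 + x ^ 4 * D := by
    rw [hD]
    ring
  have h1 : 0 ≤ 4 * c * (x ^ 4 * B - Z * (x ^ 2 * C1) + Z ^ 2 * c) := by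
    rw [key]
    positivity
  exact nonneg_of_mul_nonneg_right h1 (by positivity)

theorem tauMax_pos : 0 < tauMax := by unfold tauMax; norm_num

/-- The lower region, upper curve. -/
theorem xi_low0 {x t : ℝ} (Z : ℝ) (hx0 : 0 ≤ x) (hx : x ≤ 57 / 512) (h0 : 0 ≤ t) (h1 : t ≤ tauMax) :
    0 ≤ Xi Z (x ^ 2) (rc 0 x) t := by
  obtain ⟨w00, w01, _, _⟩ := walkI_all
  have hu0 : 0 ≤ x / (57 / 512) := by positivity
  have hu1 : x / (57 / 512) ≤ 1 := (div_le_one (by norm_num)).2 hx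
  have hy0 : 0 ≤ t / tauMax := div_nonneg h0 tauMax_pos.le
  have hy1 : t / tauMax ≤ 1 := (div_le_one tauMax_pos).2 h1
  have e : 57 / 512 * (x / (57 / 512)) = x := by field_simp
  have a := walkI_sound w00 hu0 hu1 hy0 hy1
  have b := walkI_sound w01 hu0 hu1 hy0 hy1
  have a' : 0 ≤ Dt (x ^ 2) x t := by
    have : GI 0 0 (x / (57 / 512)) (t / tauMax) = Dt (x ^ 2) x t := by
      show Dt ((57 / 512 * (x / (57 / 512))) ^ 2) (57 / 512 * (x / (57 / 512))) (tauOf (t / tauMax)) = _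
      rw [e, tauOf_div]
    rwa [this] at a
  have b' : 0 ≤ Ct2 (x ^ 2) x t - 1 / 10 := by
    have : GI 0 1 (x / (57 / 512)) (t / tauMax) = Ct2 (x ^ 2) x t - 1 / 10 := by
      show Ct2 ((57 / 512 * (x / (57 / 512))) ^ 2) (57 / 512 * (x / (57 / 512))) (tauOf (t / tauMax)) - 1 / 10 = _
      rw [e, tauOf_div]
    rwa [this] at b
  exact xi_of_disc (BB_plus x t) (cc1_plus x t) (cc2_plus x t) rfl a' (by linarith)

/-- The lower region, lower curve. -/
theorem xi_low1 {x t : ℝ} (Z : ℝ) (hx0 : 0 ≤ x) (hx : x ≤ 57 / 512) (h0 : 0 ≤ t) (h1 : t ≤ tauMax) :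
    0 ≤ Xi Z (x ^ 2) (rc 1 x) t := by
  obtain ⟨_, _, w00, w01⟩ := walkI_all
  have hu0 : 0 ≤ x / (57 / 512) := by positivity
  have hu1 : x / (57 / 512) ≤ 1 := (div_le_one (by norm_num)).2 hx
  have hy0 : 0 ≤ t / tauMax := div_nonneg h0 tauMax_pos.le
  have hy1 : t / tauMax ≤ 1 := (div_le_one tauMax_pos).2 h1
  have e : 57 / 512 * (x / (57 / 512)) = x := by field_simp
  have a := walkI_sound w00 hu0 hu1 hy0 hy1
  have b := walkI_sound w01 hu0 hu1 hy0 hy1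
  have a' : 0 ≤ Dt (x ^ 2) (-x) t := by
    have : GI 1 0 (x / (57 / 512)) (t / tauMax) = Dt (x ^ 2) (-x) t := by
      show Dt ((57 / 512 * (x / (57 / 512))) ^ 2) (-(57 / 512 * (x / (57 / 512)))) (tauOf (t / tauMax)) = _
      rw [e, tauOf_div]
    rwa [this] at a
  have b' : 0 ≤ Ct2 (x ^ 2) (-x) t - 1 / 10 := by
    have : GI 1 1 (x / (57 / 512)) (t / tauMax) = Ct2 (x ^ 2) (-x) t - 1 / 10 := by
      show Ct2 ((57 / 512 * (x / (57 / 512))) ^ 2) (-(57 / 512 * (x / (57 / 512)))) (tauOf (t / tauMax)) - 1 / 10 = _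
      rw [e, tauOf_div]
    rwa [this] at b
  exact xi_of_disc' (BB_minus x t) (cc1_minus x t) (cc2_minus x t) rfl a' (by linarith)

/-- Monotonicity in `Z` in the upper region. -/
theorem xi_mono {A R t Z : ℝ} (h1 : 0 ≤ cc1 A R t) (h2 : 0 ≤ cc1 A R t - 41 / 2048 * cc2 A R t)
    (h3 : 0 ≤ Xi (41 / 4096) A R t) (hZ0 : 0 ≤ Z) (hZ : Z ≤ 41 / 4096) : 0 ≤ Xi Z A R t := by
  set c1 := cc1 A R t with hc1
  set c2 := cc2 A R t with hc2
  have key : Xi Z A R t = Xi (41 / 4096) A R t + (41 / 4096 - Z) * (c1 - (Z + 41 / 4096) * c2) := by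
    unfold Xi
    rw [← hc1, ← hc2]
    ring
  rw [key]
  have hs : 0 ≤ c1 - (Z + 41 / 4096) * c2 := by
    set s := (Z + 41 / 4096) / (41 / 2048) with hs
    have s0 : 0 ≤ s := by positivity
    have s1 : s ≤ 1 := by
      rw [hs, div_le_one (by norm_num)]
      linarith
    have e : c1 - (Z + 41 / 4096) * c2 = (1 - s) * c1 + s * (c1 - 41 / 2048 * c2) := by
      rw [hs]
      field_simp
      ring
    rw [e]
    exact add_nonneg (mul_nonneg (by linarith) h1) (mul_nonneg s0 h2)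
  exact add_nonneg h3 (mul_nonneg (by linarith) hs)

/-- The upper region, in the variable of the walk. -/
theorem xi_up {k : ℕ} (hk : k ≤ 2) {u y Z : ℝ} (hu0 : 0 ≤ u) (hu1 : u ≤ 1) (hy0 : 0 ≤ y) (hy1 : y ≤ 1)
    (hZ0 : 0 ≤ Z) (hZ : Z ≤ 41 / 4096) :
    0 ≤ Xi Z (xII k u ^ 2) (rc k (xII k u)) (tauOf y) := by
  have a := walkII_sound (walkII_all hk (show 0 ≤ 2 by norm_num)) hu0 hu1 hy0 hy1
  have b := walkII_sound (walkII_all hk (show 1 ≤ 2 by norm_num)) hu0 hu1 hy0 hy1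
  have c := walkII_sound (walkII_all hk (show 2 ≤ 2 by norm_num)) hu0 hu1 hy0 hy1
  exact xi_mono a b c hZ0 hZ

/-- The boundary curves for the family in polynomial form. -/
theorem xi_curve0 {x t Z : ℝ} (hx0 : 0 ≤ x) (hx1 : x ≤ 1) (h0 : 0 ≤ t) (h1 : t ≤ tauMax)
    (hZ0 : 0 ≤ Z) (hZ : Z ≤ 41 / 4096) : 0 ≤ Xi Z (x ^ 2) (rc 0 x) t := by
  by_cases hx : x ≤ 57 / 512
  · exact xi_low0 Z hx0 hx h0 h1
  · rw [not_le] at hx
    have hy0 : 0 ≤ t / tauMax := div_nonneg h0 tauMax_pos.le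
    have hy1 : t / tauMax ≤ 1 := (div_le_one tauMax_pos).2 h1
    have hu0 : 0 ≤ (x - 57 / 512) / (455 / 512) := div_nonneg (by linarith) (by norm_num)
    have hu1 : (x - 57 / 512) / (455 / 512) ≤ 1 := (div_le_one (by norm_num)).2 (by linarith)
    have a := xi_up (k := 0) (by norm_num) hu0 hu1 hy0 hy1 hZ0 hZ
    have e : xII 0 ((x - 57 / 512) / (455 / 512)) = x := by
      show 57 / 512 + 455 / 512 * ((x - 57 / 512) / (455 / 512)) = x
      field_simp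
      ring
    rwa [e, tauOf_div] at a

theorem xi_curve1 {x t Z : ℝ} (hx0 : 0 ≤ x) (hx1 : x ≤ 1 / 2) (h0 : 0 ≤ t) (h1 : t ≤ tauMax)
    (hZ0 : 0 ≤ Z) (hZ : Z ≤ 41 / 4096) : 0 ≤ Xi Z (x ^ 2) (rc 1 x) t := by
  by_cases hx : x ≤ 57 / 512
  · exact xi_low1 Z hx0 hx h0 h1
  · rw [not_le] at hx
    have hy0 : 0 ≤ t / tauMax := div_nonneg h0 tauMax_pos.le
    have hy1 : t / tauMax ≤ 1 := (div_le_one tauMax_pos).2 h1
    have hu0 : 0 ≤ (x - 57 / 512) / (199 / 512) := div_nonneg (by linarith) (by norm_num)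
    have hu1 : (x - 57 / 512) / (199 / 512) ≤ 1 := (div_le_one (by norm_num)).2 (by linarith)
    have a := xi_up (k := 1) (by norm_num) hu0 hu1 hy0 hy1 hZ0 hZ
    have e : xII 1 ((x - 57 / 512) / (199 / 512)) = x := by
      show 57 / 512 + 199 / 512 * ((x - 57 / 512) / (199 / 512)) = x
      field_simp
      ring
    rwa [e, tauOf_div] at a

theorem xi_curve2 {x t Z : ℝ} (hx0 : 1 / 2 ≤ x) (hx1 : x ≤ 1) (h0 : 0 ≤ t) (h1 : t ≤ tauMax)
    (hZ0 : 0 ≤ Z) (hZ : Z ≤ 41 / 4096) : 0 ≤ Xi Z (x ^ 2) (rc 2 x) t := by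
  have hy0 : 0 ≤ t / tauMax := div_nonneg h0 tauMax_pos.le
  have hy1 : t / tauMax ≤ 1 := (div_le_one tauMax_pos).2 h1
  have a := xi_up (k := 2) (by norm_num) (u := 2 * x - 1) (by linarith) (by linarith) hy0 hy1 hZ0 hZ
  have e : xII 2 (2 * x - 1) = x := by
    show (1 + (2 * x - 1)) / 2 = x
    ring
  rwa [e, tauOf_div] at a

theorem Pp_nonneg {Z : ℝ} (hZ0 : 0 ≤ Z) (hZ : Z ≤ 41 / 4096) : 0 ≤ Pp Z := by
  unfold Pp aw
  nlinarith [sq_nonneg Z]

theorem Qp_le {Z : ℝ} (hZ0 : 0 ≤ Z) : Qp Z ≤ 20 := by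
  unfold Qp bw
  linarith

theorem Qp_nonneg {Z : ℝ} (hZ : Z ≤ 41 / 4096) : 0 ≤ Qp Z := by
  unfold Qp bw
  linarith

/-- The plane of the family with polynomial coefficients. -/
theorem poly_plane {Z t : ℝ} (hZ0 : 0 ≤ Z) (hZ : Z ≤ 41 / 4096) (h0 : 0 ≤ t) (h1 : t ≤ tauMax) :
    PlaneOK (Pp Z) (Qp Z) (-(547 / 2220 * Z ^ 2)) (Z / 500) t := by
  refine plane_of_curves (Pp_nonneg hZ0 hZ) (Qp_le hZ0) h0 h1 ?_ ?_ ?_
  · intro x a b
    rw [GG_Xi]
    exact xi_curve0 a b h0 h1 hZ0 hZ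
  · intro x a b
    rw [GG_Xi]
    exact xi_curve1 a b h0 h1 hZ0 hZ
  · intro x a b
    rw [GG_Xi]
    exact xi_curve2 a b h0 h1 hZ0 hZ

/-- `zetaS` is nonnegative on the domain. -/
theorem zetaS_nonneg {A R t : ℝ} (hD : Dom A R) (h0 : 0 ≤ t) (h1 : t ≤ tauMax) : 0 ≤ zetaS A R t := by
  have hR := dom_R_ge hD
  obtain ⟨A0, A1, h3, _⟩ := hD
  have hA3 : A ^ 3 ≤ 1 := pow_le_one₀ A0 A1
  have hR1 : R ≤ 1 := by nlinarith [sq_nonneg (R - 1)]
  have ht : t ≤ 41 / 100 := h1.trans (by unfold tauMax; norm_num)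
  have t3 : t ^ 3 ≤ 7 / 100 := (pow_le_pow_left₀ h0 ht 3).trans (by norm_num)
  have t5 : t ^ 5 ≤ 12 / 1000 := (pow_le_pow_left₀ h0 ht 5).trans (by norm_num)
  have t6 : t ^ 6 ≤ 5 / 1000 := (pow_le_pow_left₀ h0 ht 6).trans (by norm_num)
  have t7 : t ^ 7 ≤ 2 / 1000 := (pow_le_pow_left₀ h0 ht 7).trans (by norm_num)
  have a2 : A ^ 2 ≤ A := by nlinarith
  have a3 : A ^ 3 ≤ A := by nlinarith [sq_nonneg A]
  have a4 : A ^ 4 ≤ A := by nlinarith [sq_nonneg A, pow_nonneg A0 3]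
  have r1 : -(t * A / 2) ≤ t * R := by nlinarith
  have r2 : -(t ^ 3 * A ^ 2 / 2) ≤ t ^ 3 * (A * R) := by
    have : 0 ≤ t ^ 3 * A * (R + A / 2) := mul_nonneg (by positivity) (by linarith)
    nlinarith
  have r3 : -(t ^ 5 * A ^ 3 / 2) ≤ t ^ 5 * (A ^ 2 * R) := by
    have : 0 ≤ t ^ 5 * A ^ 2 * (R + A / 2) := mul_nonneg (by positivity) (by linarith)
    nlinarith
  have r4 : t ^ 7 * (A ^ 3 * R) ≤ t ^ 7 * A ^ 3 := by
    have : 0 ≤ t ^ 7 * A ^ 3 * (1 - R) := mul_nonneg (by positivity) (by linarith)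
    nlinarith
  have q1 : t * A ≤ 41 / 100 * A := mul_le_mul_of_nonneg_right ht A0
  have q2 : t ^ 3 * A ^ 2 ≤ 7 / 100 * A := mul_le_mul t3 a2 (by positivity) (by norm_num)
  have q3 : t ^ 5 * A ^ 3 ≤ 12 / 1000 * A := mul_le_mul t5 a3 (by positivity) (by norm_num)
  have q4 : t ^ 7 * A ^ 3 ≤ 2 / 1000 * A := mul_le_mul t7 a3 (by positivity) (by norm_num)
  have q5 : t ^ 6 * A ^ 4 ≤ 5 / 1000 * A := mul_le_mul t6 a4 (by positivity) (by norm_num)
  have p1 : 0 ≤ t ^ 4 * R ^ 2 := by positivity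
  have p2 : 0 ≤ t ^ 2 * A ^ 2 := by positivity
  have p3 : 0 ≤ t ^ 8 * (A ^ 2 * R ^ 2) := by positivity
  have p4 : 0 ≤ t ^ 4 * A ^ 3 := by positivity
  have p5 : 0 ≤ t ^ 8 * A ^ 5 := by positivity
  unfold zetaS Utau
  have e : 129 * t ^ 4 * R ^ 2 + 923 * t ^ 3 * A * R + 820 * t ^ 2 * A ^ 2 + 5908 * t ^ 5 * A ^ 2 * R
    + 61440 * t ^ 8 * A ^ 2 * R ^ 2 + 1633 * t ^ 4 * A ^ 3 - 8390 * t ^ 7 * A ^ 3 * R
    - 8512 * t ^ 6 * A ^ 4 + 61440 * t ^ 8 * A ^ 5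
    = 129 * (t ^ 4 * R ^ 2) + 923 * (t ^ 3 * (A * R)) + 820 * (t ^ 2 * A ^ 2) + 5908 * (t ^ 5 * (A ^ 2 * R))
    + 61440 * (t ^ 8 * (A ^ 2 * R ^ 2)) + 1633 * (t ^ 4 * A ^ 3) - 8390 * (t ^ 7 * (A ^ 3 * R))
    - 8512 * (t ^ 6 * A ^ 4) + 61440 * (t ^ 8 * A ^ 5) := by ring
  rw [e]
  have e2 : 97 / 192 * t * R = 97 / 192 * (t * R) := by ring
  rw [e2]
  linarith

theorem exp_neg_le_quad {p : ℝ} (h0 : 0 ≤ p) : Real.exp (-p) ≤ 1 - p + p ^ 2 / 2 := by
  rw [Real.exp_neg, ← one_div, div_le_iff₀ (Real.exp_pos p)]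
  have h := Real.sum_le_exp_of_nonneg h0 4
  simp only [Finset.sum_range_succ, Finset.sum_range_zero, Nat.factorial] at h
  norm_num at h
  have hq : 0 < 1 - p + p ^ 2 / 2 := by nlinarith [sq_nonneg (p - 1)]
  have h2 := mul_le_mul_of_nonneg_left h hq.le
  refine le_trans ?_ h2
  have : 0 ≤ p ^ 3 / 6 + p ^ 4 / 12 + p ^ 5 / 12 := by positivity
  nlinarith

theorem exp_tangent_le {p : ℝ} (h0 : 0 ≤ p) (h1 : p ≤ 1) :
    1 - Real.exp (-p) * (1 + p) ≤ p ^ 2 / 2 := by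
  have h := Real.exp_bound' h0 h1 (n := 3) (by norm_num)
  simp only [Finset.sum_range_succ, Finset.sum_range_zero, Nat.factorial] at h
  norm_num at h
  have hp := Real.exp_pos p
  have hq : 0 ≤ 1 - p ^ 2 / 2 := by nlinarith
  have h2 := mul_le_mul_of_nonneg_left h hq
  have e : Real.exp (-p) * Real.exp p = 1 := by
    rw [← Real.exp_add]
    simp
  have h3 : (1 - p ^ 2 / 2) * Real.exp p ≤ 1 + p := by
    refine h2.trans ?_
    have : 0 ≤ p ^ 3 * (5 / 18) + p ^ 4 / 4 + p ^ 5 / 9 := by positivity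
    nlinarith
  have h4 := mul_le_mul_of_nonneg_left h3 (Real.exp_pos (-p)).le
  have e2 : Real.exp (-p) * ((1 - p ^ 2 / 2) * Real.exp p) = 1 - p ^ 2 / 2 := by
    calc _ = (Real.exp (-p) * Real.exp p) * (1 - p ^ 2 / 2) := by ring
      _ = _ := by rw [e, one_mul]
  rw [e2] at h4
  linarith

/-- The constant of the family. -/
def vS (Z : ℝ) : ℝ :=
  aw * (1 - Real.exp (-(41 / 48 * Z)) * (1 + 41 / 48 * Z)) - bw * (1 - Real.exp (-Z)) + Qp Z * Z

theorem P_le_Pp {Z : ℝ} (hZ0 : 0 ≤ Z) : aw * Real.exp (-(41 / 48 * Z)) ≤ Pp Z := by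
  have h := exp_neg_le_quad (p := 41 / 48 * Z) (by positivity)
  have := mul_le_mul_of_nonneg_left h aw_pos.le
  refine this.trans (le_of_eq ?_)
  unfold Pp aw
  ring

theorem vS_le {Z : ℝ} (hZ0 : 0 ≤ Z) (hZ : Z ≤ 41 / 4096) : vS Z ≤ -(547 / 2220 * Z ^ 2) := by
  have h1 := exp_tangent_le (p := 41 / 48 * Z) (by positivity) (by linarith)
  have h2 := exp_neg_le_quad hZ0
  have h3 := mul_le_mul_of_nonneg_left h1 aw_pos.le
  have h4 := mul_le_mul_of_nonneg_left h2 bw_pos.le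
  unfold vS Qp
  unfold aw bw at *
  nlinarith

/-- The plane of the family, `p = (41/48) Z`. -/
theorem small_plane {Z t : ℝ} (hZ0 : 0 ≤ Z) (hZ : Z ≤ 41 / 4096) (h0 : 0 ≤ t) (h1 : t ≤ tauMax) :
    PlaneOK (aw * Real.exp (-(41 / 48 * Z))) (Qp Z) (vS Z) (Z / 500) t := by
  intro A R hD
  have h := poly_plane hZ0 hZ h0 h1 A R hD
  have hS := zetaS_nonneg hD h0 h1
  have hP := mul_le_mul_of_nonneg_right (P_le_Pp hZ0) hS
  have hv := vS_le hZ0 hZ
  linarith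

end

end Vale.Agent.P154.Hel.Q3
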