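import Vale.Agent.P154.Hel.Mono

/-!
Reductions in the parameters: the laws of the tree grow in the Blackwell order when the degree grows
or when the channel gets less noisy. In particular `a_n` is monotone in these parameters, so it is
enough to treat the critical points.
-/

namespace Vale.Agent.P154

namespace Hel

noncomputable section

open Finset Filter Topology

section Basic

variable {Ω Ω' : Type*} [Fintype Ω] [Fintype Ω']

theorem CH.map_zero {C : ℝ} {F : (Fin 3 → ℝ) → ℝ} (h : CH C F) : F (fun _ => 0) = 0 := by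
  have := h.smul 0 (fun _ => 0) le_rfl (fun _ => le_rfl)
  simpa using this

/-- Subadditivity over a finite family. -/
theorem CH.sum_le_red {C : ℝ} {F : (Fin 3 → ℝ) → ℝ} (h : CH C F) {β : Type*} (S : Finset β)
    (y : β → Fin 3 → ℝ) (hy : ∀ b i, 0 ≤ y b i) :
    F (fun i => ∑ b ∈ S, y b i) ≤ ∑ b ∈ S, F (y b) := by
  classical
  induction S using Finset.induction_on with
  | empty =>
    simp only [Finset.sum_empty]
    exact (h.map_zero).le
  | insert a S ha ih =>
    simp only [Finset.sum_insert ha]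
    refine (h.add _ _ (hy a) (fun i => Finset.sum_nonneg fun b _ => hy b i)).trans ?_
    linarith

/-- The vector sum of the channel images of a law. -/
theorem IsLawN.sum_T {L : Ω → Fin 3 → ℝ} (h : IsLawN L) (lam : ℝ) (i : Fin 3) :
    ∑ τ, T lam (L τ) i = 1 := by
  unfold T
  rw [Finset.sum_add_distrib, ← Finset.mul_sum, ← Finset.mul_sum, h.norm, h.sum_mass]
  ring

/-- Degrading the channel lowers the law. -/
theorem dom_chan_degrade {L : Ω → Fin 3 → ℝ} (h : IsLawN L) {lam ρ : ℝ} (h0 : -(1 / 2) ≤ lam)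
    (h1 : lam ≤ 1) (hρ0 : 0 ≤ ρ) (hρ1 : ρ ≤ 1) : DomL (chanLaw (ρ * lam) L) (chanLaw lam L) := by
  intro C F hF
  have hT : ∀ τ i, 0 ≤ T lam (L τ) i := fun τ i => T_nonneg (h.nonneg τ) h0 h1 i
  -- Jensen for the constant vector
  have hJ : F (fun _ => 1) ≤ ∑ τ, F (T lam (L τ)) := by
    have := hF.sum_le_red Finset.univ (fun τ => T lam (L τ)) hT
    simp only [h.sum_T] at this
    exact this
  have hm : ∀ τ, 0 ≤ mass (L τ) := fun τ => by
    have := h.nonneg τ 0; have := h.nonneg τ 1; have := h.nonneg τ 2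
    unfold mass
    positivity
  have hpt : ∀ τ, F (T (ρ * lam) (L τ))
      ≤ ρ * F (T lam (L τ)) + (1 - ρ) * mass (L τ) * F (fun _ => 1) := by
    intro τ
    have e : T (ρ * lam) (L τ)
        = fun i => ρ * T lam (L τ) i + ((1 - ρ) * mass (L τ)) * (fun _ : Fin 3 => (1 : ℝ)) i := by
      funext i
      unfold T
      ring
    rw [e]
    have h1' := hF.add (fun i => ρ * T lam (L τ) i)
      (fun i => ((1 - ρ) * mass (L τ)) * (fun _ : Fin 3 => (1 : ℝ)) i)
      (fun i => mul_nonneg hρ0 (hT τ i))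
      (fun i => mul_nonneg (mul_nonneg (sub_nonneg.2 hρ1) (hm τ)) zero_le_one)
    rw [hF.smul ρ _ hρ0 (hT τ), hF.smul _ (fun _ => 1) (mul_nonneg (sub_nonneg.2 hρ1) (hm τ))
      (fun _ => zero_le_one)] at h1'
    exact h1'
  show ∑ τ, F (T (ρ * lam) (L τ)) ≤ ∑ τ, F (T lam (L τ))
  calc ∑ τ, F (T (ρ * lam) (L τ))
      ≤ ∑ τ, (ρ * F (T lam (L τ)) + (1 - ρ) * mass (L τ) * F (fun _ => 1)) :=
        Finset.sum_le_sum fun τ _ => hpt τ
    _ = ρ * ∑ τ, F (T lam (L τ)) + (1 - ρ) * F (fun _ => 1) := by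
        rw [Finset.sum_add_distrib, ← Finset.mul_sum]
        congr 1
        rw [← Finset.sum_mul, ← Finset.mul_sum, h.sum_mass, mul_one]
    _ ≤ ρ * ∑ τ, F (T lam (L τ)) + (1 - ρ) * ∑ τ, F (T lam (L τ)) := by
        have := mul_le_mul_of_nonneg_left hJ (sub_nonneg.2 hρ1)
        linarith
    _ = ∑ τ, F (T lam (L τ)) := by ring

/-- Multiplying by a mean one factor raises the law. -/
theorem CH.le_sum_mul {C : ℝ} {F : (Fin 3 → ℝ) → ℝ} (hF : CH C F) {L : Ω → Fin 3 → ℝ}
    (h : IsLawN L) {v : Fin 3 → ℝ} (hv : ∀ i, 0 ≤ v i) : F v ≤ ∑ a, F (fun i => L a i * v i) := by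
  have := hF.sum_le_red Finset.univ (fun a i => L a i * v i)
    (fun a i => mul_nonneg (h.nonneg a i) (hv i))
  simp only [← Finset.sum_mul, h.norm, one_mul] at this
  exact this

/-- One more independent factor raises the law. -/
theorem dom_pow_succ {L : Ω → Fin 3 → ℝ} (h : IsLawN L) (k : ℕ) :
    DomL (powLaw L k) (powLaw L (k + 1)) := by
  rw [powLaw_succ]
  refine DomL.comp_equiv_right ?_ _
  intro C F hF
  rw [sum_prodLaw, Finset.sum_comm]
  refine Finset.sum_le_sum fun b _ => ?_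
  exact hF.le_sum_mul h ((h.pow k).nonneg b)

theorem dom_pow_mono {L : Ω → Fin 3 → ℝ} (h : IsLawN L) {k k' : ℕ} (hk : k ≤ k') :
    DomL (powLaw L k) (powLaw L k') := by
  induction k', hk using Nat.le_induction with
  | base => intro C F _; exact le_rfl
  | succ m _ ih => exact ih.trans (dom_pow_succ h m)

end Basic

/-- Domination of the laws of the regular trees. -/
theorem dom_Lk_param {d d' : ℕ} (hd : d ≤ d') {lam ρ : ℝ} (h0 : -(1 / 2) ≤ lam) (h1 : lam ≤ 1)
    (hρ0 : 0 ≤ ρ) (hρ1 : ρ ≤ 1) (n : ℕ) :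
    DomL (Lk d (ρ * lam) n) (Lk d' lam n) := by
  have h0' : -(1 / 2) ≤ ρ * lam := by nlinarith
  have h1' : ρ * lam ≤ 1 := by nlinarith
  induction n with
  | zero =>
    intro C F _
    have e1 := Equiv.sum_comp (zeroEquiv d) (fun t : Fin 3 => F (fun i => if t = i then 1 else 0))
    have e2 := Equiv.sum_comp (zeroEquiv d') (fun t : Fin 3 => F (fun i => if t = i then 1 else 0))
    exact (e1.trans e2.symm).le
  | succ n ih =>
    have hL := isLawN_Lk d h0' h1' n
    have hL' := isLawN_Lk d' h0 h1 n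
    have a1 : DomL (powLaw (chanLaw (ρ * lam) (Lk d (ρ * lam) n)) d)
        (powLaw (chanLaw (ρ * lam) (Lk d' lam n)) d) :=
      DomL.pow (hL.chan h0' h1') (hL'.chan h0' h1') (ih.chan h0' h1') d
    have a2 : DomL (powLaw (chanLaw (ρ * lam) (Lk d' lam n)) d)
        (powLaw (chanLaw lam (Lk d' lam n)) d) :=
      DomL.pow (hL'.chan h0' h1') (hL'.chan h0 h1) (dom_chan_degrade hL' h0 h1 hρ0 hρ1) d
    have a3 : DomL (powLaw (chanLaw lam (Lk d' lam n)) d)
        (powLaw (chanLaw lam (Lk d' lam n)) d') :=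
      dom_pow_mono (hL'.chan h0 h1) hd
    have h3 := ((a1.trans (a2.trans a3)).comp_equiv_left (splitEquiv d n)).comp_equiv_right
      (splitEquiv d' n)
    intro C F hF
    have h4 := h3 C F hF
    rw [Lk_succ d (ρ * lam) n, Lk_succ d' lam n]
    exact h4

/-- The total variation functional. -/
def tvF (x : Fin 3 → ℝ) : ℝ :=
  (1 / 6) * (|x 0 - (x 0 + x 1 + x 2) / 3| + |x 1 - (x 0 + x 1 + x 2) / 3|
    + |x 2 - (x 0 + x 1 + x 2) / 3|)

theorem ch_tvF : CH 1 tvF where
  add := fun x y _ _ => by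
    unfold tvF
    have h0 := abs_add_le (x 0 - (x 0 + x 1 + x 2) / 3) (y 0 - (y 0 + y 1 + y 2) / 3)
    have h1 := abs_add_le (x 1 - (x 0 + x 1 + x 2) / 3) (y 1 - (y 0 + y 1 + y 2) / 3)
    have h2 := abs_add_le (x 2 - (x 0 + x 1 + x 2) / 3) (y 2 - (y 0 + y 1 + y 2) / 3)
    have e0 : x 0 + y 0 - (x 0 + y 0 + (x 1 + y 1) + (x 2 + y 2)) / 3
        = x 0 - (x 0 + x 1 + x 2) / 3 + (y 0 - (y 0 + y 1 + y 2) / 3) := by ring
    have e1 : x 1 + y 1 - (x 0 + y 0 + (x 1 + y 1) + (x 2 + y 2)) / 3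
        = x 1 - (x 0 + x 1 + x 2) / 3 + (y 1 - (y 0 + y 1 + y 2) / 3) := by ring
    have e2 : x 2 + y 2 - (x 0 + y 0 + (x 1 + y 1) + (x 2 + y 2)) / 3
        = x 2 - (x 0 + x 1 + x 2) / 3 + (y 2 - (y 0 + y 1 + y 2) / 3) := by ring
    rw [e0, e1, e2]
    linarith
  smul := fun c x hc _ => by
    unfold tvF
    have e0 : c * x 0 - (c * x 0 + c * x 1 + c * x 2) / 3 = c * (x 0 - (x 0 + x 1 + x 2) / 3) := by
      ring
    have e1 : c * x 1 - (c * x 0 + c * x 1 + c * x 2) / 3 = c * (x 1 - (x 0 + x 1 + x 2) / 3) := by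
      ring
    have e2 : c * x 2 - (c * x 0 + c * x 1 + c * x 2) / 3 = c * (x 2 - (x 0 + x 1 + x 2) / 3) := by
      ring
    rw [e0, e1, e2, abs_mul, abs_mul, abs_mul, abs_of_nonneg hc]
    ring
  bound := fun x hx => by
    have h0 := hx 0
    have h1 := hx 1
    have h2 := hx 2
    have hs : 0 ≤ (x 0 + x 1 + x 2) / 3 := by positivity
    have hb : ∀ a : ℝ, 0 ≤ a → |a - (x 0 + x 1 + x 2) / 3| ≤ a + (x 0 + x 1 + x 2) / 3 := fun a ha => by
      rw [abs_le]
      constructor <;> linarith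
    have hn : 0 ≤ tvF x := by
      unfold tvF
      positivity
    rw [abs_of_nonneg hn]
    unfold tvF mass
    have := hb _ h0
    have := hb _ h1
    have := hb _ h2
    linarith

/-- The quantity `a_n` of the regular tree is monotone in the degree and in the channel. -/
theorem reconA_le_of_param {d d' : ℕ} (hd : d ≤ d') {lam ρ : ℝ} (h0 : -(1 / 2) ≤ lam) (h1 : lam ≤ 1)
    (hρ0 : 0 ≤ ρ) (hρ1 : ρ ≤ 1) (n : ℕ) : reconA 3 d (ρ * lam) n ≤ reconA 3 d' lam n := by
  have h0' : -(1 / 2) ≤ ρ * lam := by nlinarith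
  have h1' : ρ * lam ≤ 1 := by nlinarith
  rw [reconA_eqN d n (isLawN_Lk d h0' h1' n), reconA_eqN d' n (isLawN_Lk d' h0 h1 n)]
  exact dom_Lk_param hd h0 h1 hρ0 hρ1 n 1 tvF ch_tvF

theorem reconA_nonneg' (d : ℕ) {lam : ℝ} (h0 : -(1 / 2) ≤ lam) (h1 : lam ≤ 1) (n : ℕ) :
    0 ≤ reconA 3 d lam n := by
  rw [reconA_eqN d n (isLawN_Lk d h0 h1 n)]
  refine Finset.sum_nonneg fun τ _ => ?_
  positivity

/-- Nonreconstruction propagates from a point to all smaller parameters. -/
theorem recon_of_param {d d' : ℕ} (hd : d ≤ d') {lam ρ : ℝ} (h0 : -(1 / 2) ≤ lam) (h1 : lam ≤ 1)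
    (hρ0 : 0 ≤ ρ) (hρ1 : ρ ≤ 1) (h : Tendsto (reconA 3 d' lam) atTop (𝓝 0)) :
    Tendsto (reconA 3 d (ρ * lam)) atTop (𝓝 0) := by
  have h0' : -(1 / 2) ≤ ρ * lam := by nlinarith
  have h1' : ρ * lam ≤ 1 := by nlinarith
  exact squeeze_zero (fun n => reconA_nonneg' d h0' h1' n)
    (fun n => reconA_le_of_param hd h0 h1 hρ0 hρ1 n) h

/-! ### The Poisson tree -/

section GW

variable {w w' : ℕ → ℝ} {lam : ℝ}

/-- Comparison of the independent children for two families of trees. -/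
theorem MkG_cross (hw0 : ∀ k, 0 ≤ w k) (hw : HasSum w 1) (hw0' : ∀ k, 0 ≤ w' k) (hw' : HasSum w' 1)
    (h0 : -(1 / 2) ≤ lam) (h1 : lam ≤ 1) {n : ℕ}
    (IH : ∀ (C : ℝ) (G : (Fin 3 → ℝ) → ℝ), CH C G → ellG w lam n G ≤ ellG w' lam n G) (k : ℕ) :
    ∀ (C : ℝ) (G : (Fin 3 → ℝ) → ℝ), CH C G → MkG w lam n k G ≤ MkG w' lam n k G := by
  have hp0 : ∀ T : DTree n, 0 ≤ T.prob w := fun T => prob_nonneg hw0 T
  have hp := prob_hasSum hw0 hw n
  have hp0' : ∀ T : DTree n, 0 ≤ T.prob w' := fun T => prob_nonneg hw0' T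
  have hp' := prob_hasSum hw0' hw' n
  induction k with
  | zero =>
    intro C G _
    rw [MkG_zero hw0 hw, MkG_zero hw0' hw']
  | succ k ih =>
    intro C G hG
    rw [MkG_succ hw0 hw h0 h1 hG, MkG_succ hw0' hw' h0 h1 hG]
    have hGx : ∀ (x : DTree n), CH C
        (fun v => ∑ a, G (fun i => v i * chanLaw lam (Lt lam x) a i)) :=
      fun x => ch_mix' hG ((isLawN_Lt h0 h1 x).chan h0 h1)
    have hK := ch_KuG hw0' hw' h0 h1 hG n k
    have hKT := hK.comp_T h0 h1
    have hsum : ∀ (x : DTree n),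
        MkG w' lam n k (fun v => ∑ a, G (fun i => v i * chanLaw lam (Lt lam x) a i))
          = ∑ a, KuG w' lam n k G (T lam (Lt lam x a)) := fun x =>
      MkG_mix hw0' hw' h0 h1 hG _ ((isLawN_Lt h0 h1 x).chan h0 h1).nonneg n k
    have hb : ∀ (x : DTree n),
        |MkG w' lam n k (fun v => ∑ a, G (fun i => v i * chanLaw lam (Lt lam x) a i))| ≤ C := by
      intro x
      rw [hsum x]
      exact (isLawN_Lt h0 h1 x).abs_sum_le hKT
    have hb' : ∀ x : DTree n,
        |MkG w lam n k (fun v => ∑ a, G (fun i => v i * chanLaw lam (Lt lam x) a i))| ≤ C :=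
      fun x => abs_Ek_le hp0 hp k (fun t => abs_sum_G_le (hGx x) h0 h1 t)
    have step1 : E1 (fun T : DTree n => T.prob w) (fun x =>
          MkG w lam n k (fun v => ∑ a, G (fun i => v i * chanLaw lam (Lt lam x) a i)))
        ≤ E1 (fun T : DTree n => T.prob w) (fun x =>
          MkG w' lam n k (fun v => ∑ a, G (fun i => v i * chanLaw lam (Lt lam x) a i))) :=
      E1_mono hp0 hp hb' hb (fun x => ih C _ (hGx x))
    refine step1.trans ?_
    have e1 : ∀ u : ℕ → ℝ, E1 (fun T : DTree n => T.prob u) (fun x =>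
          MkG w' lam n k (fun v => ∑ a, G (fun i => v i * chanLaw lam (Lt lam x) a i)))
        = ellG u lam n (fun z => KuG w' lam n k G (T lam z)) := by
      intro u
      unfold ellG
      congr 1
      funext x
      exact hsum x
    rw [e1, e1]
    exact IH C _ hKT

/-- Monotonicity of the independent children in the function. -/
theorem MkG_mono_fun (hw0 : ∀ k, 0 ≤ w k) (hw : HasSum w 1) (h0 : -(1 / 2) ≤ lam) (h1 : lam ≤ 1)
    {C D : ℝ} {G H : (Fin 3 → ℝ) → ℝ} (hG : CH C G) (hH : CH D H)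
    (hle : ∀ v : Fin 3 → ℝ, (∀ i, 0 ≤ v i) → G v ≤ H v) (n k : ℕ) :
    MkG w lam n k G ≤ MkG w lam n k H := by
  have hp0 : ∀ T : DTree n, 0 ≤ T.prob w := fun T => prob_nonneg hw0 T
  have hp := prob_hasSum hw0 hw n
  refine Ek_mono hp0 hp k (C := C) (D := D) (fun t => abs_sum_G_le hG h0 h1 t)
    (fun t => abs_sum_G_le hH h0 h1 t) (fun t => ?_)
  exact Finset.sum_le_sum fun τ _ => hle _ ((isLawN_pi_t h0 h1 t).nonneg τ)

/-- One more child raises the mean. -/
theorem MkG_add_child (hw0 : ∀ k, 0 ≤ w k) (hw : HasSum w 1) (h0 : -(1 / 2) ≤ lam) (h1 : lam ≤ 1)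
    {C : ℝ} {G : (Fin 3 → ℝ) → ℝ} (hG : CH C G) (n k : ℕ) :
    MkG w lam n k G ≤ MkG w lam n (k + 1) G := by
  have hp0 : ∀ T : DTree n, 0 ≤ T.prob w := fun T => prob_nonneg hw0 T
  have hp := prob_hasSum hw0 hw n
  rw [MkG_succ hw0 hw h0 h1 hG]
  have hGx : ∀ (x : DTree n), CH C
      (fun v => ∑ a, G (fun i => v i * chanLaw lam (Lt lam x) a i)) :=
    fun x => ch_mix' hG ((isLawN_Lt h0 h1 x).chan h0 h1)
  have hb : ∀ m : ℕ, |MkG w lam n m G| ≤ C := fun m =>
    abs_Ek_le hp0 hp m (fun t => abs_sum_G_le hG h0 h1 t)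
  have hb' : ∀ x : DTree n,
      |MkG w lam n k (fun v => ∑ a, G (fun i => v i * chanLaw lam (Lt lam x) a i))| ≤ C :=
    fun x => abs_Ek_le hp0 hp k (fun t => abs_sum_G_le (hGx x) h0 h1 t)
  have := E1_mono hp0 hp (g := fun _ : DTree n => MkG w lam n k G) (C := C) (D := C)
    (fun _ => hb k) hb' (fun x => ?_)
  · rwa [E1_const hp] at this
  · refine MkG_mono_fun hw0 hw h0 h1 hG (hGx x) (fun v hv => ?_) n k
    have e : ∀ a, (fun i => v i * chanLaw lam (Lt lam x) a i)
        = fun i => chanLaw lam (Lt lam x) a i * v i := fun a => by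
      funext i
      ring
    simp only [e]
    exact hG.le_sum_mul ((isLawN_Lt h0 h1 x).chan h0 h1) hv

end GW

/-- The Poisson laws convolve. -/
theorem poisson_convolve (d e : ℝ) (k : ℕ) :
    ∑ p ∈ Finset.HasAntidiagonal.antidiagonal k, poissonWeight d p.1 * poissonWeight e p.2
      = poissonWeight (d + e) k := by
  unfold poissonWeight
  rw [(Commute.all d e).add_pow', Finset.mul_sum, Finset.sum_div]
  refine Finset.sum_congr rfl fun p hp => ?_
  have hp' := Finset.HasAntidiagonal.mem_antidiagonal.1 hp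
  have hk : (p.2 + p.1).choose p.1 * p.2.factorial * p.1.factorial = (p.2 + p.1).factorial :=
    Nat.add_choose_mul_factorial_mul_factorial p.2 p.1
  rw [add_comm p.2 p.1, hp'] at hk
  have e1 : ((k.choose p.1 : ℕ) : ℝ) * (p.2.factorial : ℝ) * (p.1.factorial : ℝ) = (k.factorial : ℝ) := by
    exact_mod_cast hk
  have f1 : (p.1.factorial : ℝ) ≠ 0 := Nat.cast_ne_zero.2 p.1.factorial_ne_zero
  have f2 : (p.2.factorial : ℝ) ≠ 0 := Nat.cast_ne_zero.2 p.2.factorial_ne_zero
  have f3 : (k.factorial : ℝ) ≠ 0 := Nat.cast_ne_zero.2 k.factorial_ne_zero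
  rw [neg_add, Real.exp_add, nsmul_eq_mul, ← e1]
  have f4 : ((k.choose p.1 : ℕ) : ℝ) ≠ 0 := by
    intro h0
    rw [h0] at e1
    apply f3
    rw [← e1]
    ring
  field_simp

/-- Stochastic domination of the Poisson laws, for a bounded nondecreasing function. -/
theorem poisson_mono_tsum {d D : ℝ} (hd : 0 ≤ d) (hdD : d ≤ D) {f : ℕ → ℝ} {C : ℝ}
    (hf : ∀ k, |f k| ≤ C) (hm : Monotone f) :
    ∑' k, poissonWeight d k * f k ≤ ∑' k, poissonWeight D k * f k := by
  obtain ⟨e, he⟩ : ∃ e, e = D - d := ⟨_, rfl⟩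
  have he0 : 0 ≤ e := by rw [he]; linarith
  have hD : D = d + e := by rw [he]; ring
  have hp0 := poisson_nonneg hd
  have hq0 := poisson_nonneg he0
  have hp := poisson_hasSum d
  have hq := poisson_hasSum e
  -- the double series
  have hsum2 : Summable fun p : ℕ × ℕ => poissonWeight d p.1 * poissonWeight e p.2 :=
    hp.summable.mul_of_nonneg hq.summable hp0 hq0
  have hC : ∀ p : ℕ × ℕ, ‖poissonWeight d p.1 * poissonWeight e p.2 * f (p.1 + p.2)‖
      ≤ poissonWeight d p.1 * poissonWeight e p.2 * C := by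
    intro p
    rw [Real.norm_eq_abs, abs_mul, abs_of_nonneg (mul_nonneg (hp0 _) (hq0 _))]
    exact mul_le_mul_of_nonneg_left (hf _) (mul_nonneg (hp0 _) (hq0 _))
  have hS : Summable fun p : ℕ × ℕ => poissonWeight d p.1 * poissonWeight e p.2 * f (p.1 + p.2) :=
    Summable.of_norm_bounded (hsum2.mul_right C) hC
  -- sum along the antidiagonals
  have h1 : ∑' p : ℕ × ℕ, poissonWeight d p.1 * poissonWeight e p.2 * f (p.1 + p.2)
      = ∑' k, poissonWeight D k * f k := by
    rw [← (Finset.HasAntidiagonal.sigmaAntidiagonalEquivProd).tsum_eq, hD]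
    have hS' := (Finset.HasAntidiagonal.sigmaAntidiagonalEquivProd).summable_iff.2 hS
    refine Eq.trans (hS'.tsum_sigma' (fun k => (hasSum_fintype _).summable)) ?_
    refine tsum_congr fun k => ?_
    rw [tsum_fintype, ← poisson_convolve d e k, Finset.sum_mul]
    rw [← Finset.sum_coe_sort (Finset.HasAntidiagonal.antidiagonal k)
      (fun p => poissonWeight d p.1 * poissonWeight e p.2 * f k)]
    refine Finset.sum_congr rfl fun p _ => ?_
    have := Finset.HasAntidiagonal.mem_antidiagonal.1 p.2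
    simp only [Finset.HasAntidiagonal.sigmaAntidiagonalEquivProd, Equiv.coe_fn_mk, Function.comp]
    rw [this]
  -- sum along the rows
  have h2 : ∑' p : ℕ × ℕ, poissonWeight d p.1 * poissonWeight e p.2 * f (p.1 + p.2)
      = ∑' a, ∑' b, poissonWeight d a * poissonWeight e b * f (a + b) := hS.tsum_prod
  rw [← h1, h2]
  have hrow : ∀ a, Summable fun b => poissonWeight d a * poissonWeight e b * f (a + b) :=
    fun a => hS.prod_factor a
  have hle : ∀ a, poissonWeight d a * f a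
      ≤ ∑' b, poissonWeight d a * poissonWeight e b * f (a + b) := by
    intro a
    have hs0 : HasSum (fun b => poissonWeight d a * poissonWeight e b * f a)
        (poissonWeight d a * 1 * f a) := (hq.mul_left _).mul_right _
    have := hs0.tsum_eq
    rw [mul_one] at this
    rw [← this]
    refine (hs0.summable).tsum_le_tsum (fun b => ?_) (hrow a)
    refine mul_le_mul_of_nonneg_left (hm (Nat.le_add_right a b)) (mul_nonneg (hp0 _) (hq0 _))
  have hsumA : Summable fun a => poissonWeight d a * f a :=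
    Summable.of_norm_bounded (g := fun a => poissonWeight d a * C) (hp.summable.mul_right C) (fun a => by
      rw [Real.norm_eq_abs, abs_mul, abs_of_nonneg (hp0 _)]
      exact mul_le_mul_of_nonneg_left (hf _) (hp0 _))
  exact hsumA.tsum_le_tsum hle hS.prod

/-- The mean of a convex homogeneous function grows with the mean degree of the Poisson tree. -/
theorem ell_poisson_mono {d D lam : ℝ} (hd : 0 ≤ d) (hdD : d ≤ D) (h0 : -(1 / 2) ≤ lam)
    (h1 : lam ≤ 1) (n : ℕ) : ∀ (C : ℝ) (G : (Fin 3 → ℝ) → ℝ), CH C G →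
      ellG (poissonWeight d) lam n G ≤ ellG (poissonWeight D) lam n G := by
  have hD0 : 0 ≤ D := hd.trans hdD
  have hw0 := poisson_nonneg hd
  have hw := poisson_hasSum d
  have hw0' := poisson_nonneg hD0
  have hw' := poisson_hasSum D
  induction n with
  | zero =>
    intro C G hG
    have e0 : ∀ u : ℕ → ℝ, (∀ k, 0 ≤ u k) → HasSum u 1 →
        ellG u lam 0 G = ∑ t : Fin 3, G (fun i => if t = i then 1 else 0) := by
      intro u hu0 hu
      unfold ellG
      have : (fun T : DTree 0 => ∑ τ, G (Lt lam T τ))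
          = fun _ => ∑ t : Fin 3, G (fun i => if t = i then 1 else 0) := by
        funext T
        cases T
        rfl
      rw [this]
      exact E1_const (prob_hasSum hu0 hu 0) _
    rw [e0 _ hw0 hw, e0 _ hw0' hw']
  | succ n ih =>
    intro C G hG
    rw [ell_succ hw0 hw h0 h1 hG, ell_succ hw0' hw' h0 h1 hG]
    have hb : ∀ k : ℕ, |MkG (poissonWeight D) lam n k G| ≤ C := fun k =>
      abs_Ek_le (fun T => prob_nonneg hw0' T) (prob_hasSum hw0' hw' n) k
        (fun t => abs_sum_G_le hG h0 h1 t)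
    have hb0 : ∀ k : ℕ, |MkG (poissonWeight d) lam n k G| ≤ C := fun k =>
      abs_Ek_le (fun T => prob_nonneg hw0 T) (prob_hasSum hw0 hw n) k
        (fun t => abs_sum_G_le hG h0 h1 t)
    have hs : ∀ (u : ℕ → ℝ) (f : ℕ → ℝ), (∀ k, 0 ≤ u k) → Summable u → (∀ k, |f k| ≤ C) →
        Summable fun k => u k * f k := fun u f hu0 hu hf => by
      refine Summable.of_norm_bounded (g := fun k => u k * C) (hu.mul_right C) fun k => ?_
      rw [Real.norm_eq_abs, abs_mul, abs_of_nonneg (hu0 k)]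
      exact mul_le_mul_of_nonneg_left (hf k) (hu0 k)
    have s1 : ∑' k, poissonWeight d k * MkG (poissonWeight d) lam n k G
        ≤ ∑' k, poissonWeight d k * MkG (poissonWeight D) lam n k G :=
      (hs _ _ hw0 hw.summable hb0).tsum_le_tsum
        (fun k => mul_le_mul_of_nonneg_left
          (MkG_cross hw0 hw hw0' hw' h0 h1 ih k C G hG) (hw0 k))
        (hs _ _ hw0 hw.summable hb)
    have s2 : ∑' k, poissonWeight d k * MkG (poissonWeight D) lam n k G
        ≤ ∑' k, poissonWeight D k * MkG (poissonWeight D) lam n k G :=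
      poisson_mono_tsum hd hdD hb (monotone_nat_of_le_succ fun k =>
        MkG_add_child hw0' hw' h0 h1 hG n k)
    exact s1.trans s2

/-- `a_n` on the Galton-Watson tree, as a mean of a convex homogeneous function. -/
theorem gwA_eq_ell {w : ℕ → ℝ} {lam : ℝ} (h0 : -(1 / 2) ≤ lam) (h1 : lam ≤ 1) (n : ℕ) :
    gwA 3 w lam n = ellG w lam n tvF := by
  unfold gwA ellG E1
  refine tsum_congr fun T => ?_
  rw [treeA_eqN T (isLawN_Lt h0 h1 T)]
  rfl

/-- Nonreconstruction on the Poisson tree is monotone in the mean degree. -/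
theorem gw_of_le {d D lam : ℝ} (hd : 0 ≤ d) (hdD : d ≤ D) (h0 : -(1 / 2) ≤ lam) (h1 : lam ≤ 1)
    (h : Tendsto (gwA 3 (poissonWeight D) lam) atTop (𝓝 0)) :
    (∀ n, Summable fun T : DTree n => T.prob (poissonWeight d) * T.treeA 3 lam)
      ∧ Tendsto (gwA 3 (poissonWeight d) lam) atTop (𝓝 0) := by
  have hw0 := poisson_nonneg hd
  have hw := poisson_hasSum d
  refine ⟨gwA_summable' hw0 hw h0 h1, squeeze_zero (fun n => ?_) (fun n => ?_) h⟩
  · exact tsum_nonneg fun T => mul_nonneg (prob_nonneg hw0 T)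
      (treeA_nonneg' T (lik_nonneg' h0 h1 T))
  · rw [gwA_eq_ell h0 h1, gwA_eq_ell h0 h1]
    exact ell_poisson_mono hd hdD h0 h1 n 1 tvF ch_tvF

/-! ### Starting the Lyapunov argument after a burn-in -/

/-- The key with coefficients depending on the point, restricted to a set of points. -/
def RegKeyOn {ι : Type*} [Fintype ι] (s : ι → Fin 3 → ℝ) (d : ℕ) (lam κ B : ℝ)
    (R : (ι → ℝ) → ℝ → Prop) : Prop :=
  ∀ (y : ι → ℝ) (Y : ℝ), HullY s lam y Y → R y Y →
    ∃ (a c : ι → ℝ) (c0 e : ℝ), (∀ j, a j ≤ B) ∧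
      ∑ j, a j * (1 - (1 - y j) ^ d) + κ * Y ^ 2 ≤ ∑ j, c j * y j + c0 * Y + e ∧
      ∀ x : Fin 3 → ℝ, (∀ i, 0 < x i) →
        ∑ j, c j * psi (s j) lam x + c0 * yyv x + e * mass x ≤ phiF a s x

/-- Nonreconstruction on the `d`-ary tree from the key, valid from some level on. -/
theorem hel_regular_from {ι : Type*} [Fintype ι] {s : ι → Fin 3 → ℝ}
    (hs : ∀ j, AdmS (s j)) {d : ℕ} {lam κ B : ℝ} (h0 : -(1 / 2) ≤ lam) (h1 : lam ≤ 1) (hκ : 0 < κ)
    {R : (ι → ℝ) → ℝ → Prop} (hK : RegKeyOn s d lam κ B R) (N : ℕ)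
    (hN : ∀ n, N ≤ n → R (fun j => 1 - Ht (s j) (chanLaw lam (Lk d lam n))) (YY (Lk d lam n))) :
    Tendsto (reconA 3 d lam) atTop (𝓝 0) := by
  have hL := isLawN_Lk d h0 h1
  have hY : Tendsto (fun n => YY (Lk d lam (n + N))) atTop (𝓝 0) := by
    refine tendsto_zero_of_telescope
      (V := fun n => B * ∑ j, (1 - Ht (s j) (Lk d lam (n + N)))) (κ := κ)
      (B := |B| * (Fintype.card ι : ℝ)) hκ (fun n => (hL _).YY_nonneg)
      (fun n => abs_sum_defect_le B _ (fun j => abs_one_sub_Ht (hL _) (hs j))) (fun n => ?_)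
    obtain ⟨a, c, c0, e, ha, h2, h3⟩ := hK _ _ ((hL (n + N)).hull hs h0 h1)
      (hN (n + N) (Nat.le_add_left N n))
    have h4 := (hL (n + N)).key_sum hs h0 h1 h3
    have h5 : ∑ j, a j * (1 - (1 - (1 - Ht (s j) (chanLaw lam (Lk d lam (n + N))))) ^ d)
        = ∑ j, a j * (1 - Ht (s j) (Lk d lam (n + N + 1))) := by
      refine Finset.sum_congr rfl fun j _ => ?_
      rw [Ht_Lk_succ d h0 h1]
      congr 3
      ring
    rw [h5] at h2
    unfold VV at h4
    have h6 : ∑ j, (a j * (1 - Ht (s j) (Lk d lam (n + N)))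
          - a j * (1 - Ht (s j) (Lk d lam (n + N + 1))))
        ≤ ∑ j, B * ((1 - Ht (s j) (Lk d lam (n + N))) - (1 - Ht (s j) (Lk d lam (n + N + 1)))) := by
      refine Finset.sum_le_sum fun j _ => ?_
      rw [← mul_sub]
      exact mul_le_mul_of_nonneg_right (ha j) (sub_nonneg.2 (Ht_Lk_mono d h0 h1 (hs j) (n + N)))
    rw [Finset.sum_sub_distrib, ← Finset.mul_sum, Finset.sum_sub_distrib, mul_sub] at h6
    have e2 : n + 1 + N = n + N + 1 := by ring
    show B * ∑ j, (1 - Ht (s j) (Lk d lam (n + 1 + N))) + κ * (YY (Lk d lam (n + N))) ^ 2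
      ≤ B * ∑ j, (1 - Ht (s j) (Lk d lam (n + N)))
    rw [e2]
    linarith
  have hsq : Tendsto (fun n => Real.sqrt (YY (Lk d lam (n + N)) / 2)) atTop (𝓝 0) := by
    have := (Real.continuous_sqrt.tendsto (0 / 2)).comp (hY.div_const 2)
    have e : Real.sqrt (0 / 2) = 0 := by simp
    rw [e] at this
    exact this
  refine (tendsto_add_atTop_iff_nat N).1 ?_
  refine squeeze_zero (fun n => ?_) (fun n => ?_) hsq
  · exact reconA_nonneg' d h0 h1 _
  · rw [reconA_eqN d _ (hL _)]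
    exact Real.le_sqrt_of_sq_le (hL _).sq_sum_le

/-- The defect after the channel decreases with the level. -/
theorem y_Lk_mono (d : ℕ) {lam : ℝ} (h0 : -(1 / 2) ≤ lam) (h1 : lam ≤ 1) {s : Fin 3 → ℝ}
    (hs : AdmS s) (n : ℕ) :
    1 - Ht s (chanLaw lam (Lk d lam (n + 1))) ≤ 1 - Ht s (chanLaw lam (Lk d lam n)) := by
  have hL := isLawN_Lk d h0 h1
  have := (dom_Lk d h0 h1 n).chan h0 h1 3 _ (ch_dfc hs)
  rwa [((hL _).chan h0 h1).sum_dfc, ((hL _).chan h0 h1).sum_dfc] at this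

theorem y_Lk_antitone (d : ℕ) {lam : ℝ} (h0 : -(1 / 2) ≤ lam) (h1 : lam ≤ 1) {s : Fin 3 → ℝ}
    (hs : AdmS s) {N n : ℕ} (hn : N ≤ n) :
    1 - Ht s (chanLaw lam (Lk d lam n)) ≤ 1 - Ht s (chanLaw lam (Lk d lam N)) := by
  induction n, hn using Nat.le_induction with
  | base => exact le_rfl
  | succ m _ ih => exact (y_Lk_mono d h0 h1 hs m).trans ih

end

end Hel

end Vale.Agent.P154
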