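import Vale.Agent.P154.Hel.Reg4Data
import Vale.Agent.P154.Hel.CP.R4.All
import Vale.Agent.P154.Hel.Burn.Data.Good
import Vale.Agent.P154.Hel.Reduce
import Vale.Agent.P154.Hel.SmallFam2

/-!
The regular corner `d = 4`, `t = 1/2`: nonreconstruction from the burn-in, the planes and the small-`z` family.
-/

namespace Vale.Agent.P154.Hel.Corner

open Vale.Agent.P154.Hel Vale.Agent.P154.Hel.Direct Filter Topology

noncomputable section

theorem planes4 : ∀ r ∈ rows4, ∀ b ∈ r.bins, PlaneHolds Direct.X9 par4.dd par4.D (-(1 / 2)) b.pl :=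
  planes_of_link rows4_link fun _ hq x hx => Direct.R4.rows hq par4.D (by norm_num [par4]) x hx

/-- The indices of the centre and of `(9,2,1)`. -/
abbrev jc4 : Fin Direct.X9.length := ⟨8, by decide⟩
/-- The index of `(9,2,1)`. -/
abbrev j94 : Fin Direct.X9.length := ⟨3, by decide⟩

theorem four_X94 : Small.FourChars Direct.X9 (⟨6, by decide⟩ : Fin Direct.X9.length) ⟨7, by decide⟩ ⟨2, by decide⟩
    jc4 :=
  ⟨rfl, rfl, rfl, rfl⟩

/-- The key for centre defect at most `13/100`. -/
theorem reg4_key : RegKeyOn (expo Direct.X9) 4 (-(1 / 2)) ((par4.κ : ℚ) : ℝ) ((par4.B : ℚ) : ℝ)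
    (fun y _ => y jc4 ≤ 13 / 100) := by
  intro y Y hy hR
  have hf := CornerHull.corner_hull_facts Direct.X9 hX9 (iC := jc4) (i921 := j94) (t := 1 / 2) rfl rfl
    (by norm_num) le_rfl hy
  rcases le_total (y jc4) (((3 / 2000 : ℚ)) : ℝ) with hs | hs
  · have hs' : y jc4 ≤ 3 / 2000 := by
      have e : (((3 / 2000 : ℚ)) : ℝ) = 3 / 2000 := by norm_num
      rw [e] at hs
      exact hs
    refine Small.reg4_small_point four_X94 (Z1 := 9 / 2000) (by norm_num) (by norm_num [par4]) (by norm_num [par4])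
      (by norm_num [par4]) (fun Z h0 h1 x hx => Small.small_family_100 (by norm_num) le_rfl h0 (by linarith) hx)
      hf.y_nonneg (fun j => (hf.y_le_c j).trans hf.yc_le_one) hf.Y_nonneg hf.tY_le ?_
    linarith
  · refine reg_point_rows (p := par4) (by decide) rows4_ok (t := 1 / 2) (by norm_num [par4]) planes4 rfl rfl
      (by norm_num) (by norm_num [par4]) hf hs ?_
    have e : (((13 / 100 : ℚ)) : ℝ) = 13 / 100 := by norm_num
    rw [e]
    exact hR

theorem expo_jc4 : expo Direct.X9 jc4 = Burn.cs := by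
  funext i
  show sE (4, 4, 4) i = 1 / 3
  fin_cases i <;> simp [sE] <;> norm_num

/-- Nonreconstruction on the `4`-ary tree at the threshold `t = 1/2`. -/
theorem reg4_final : Tendsto (reconA 3 4 (-(1 / 2))) atTop (𝓝 0) := by
  refine hel_regular_from (s := expo Direct.X9) (fun j => adm_sE (hX9 _ (List.get_mem _ j)))
    (by norm_num) (by norm_num) (by norm_num [par4]) reg4_key 70 ?_
  intro n hn
  show 1 - Ht (expo Direct.X9 jc4) (chanLaw (-(1 / 2)) (Lk 4 (-(1 / 2)) n)) ≤ 13 / 100
  rw [expo_jc4]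
  have h1 := y_Lk_antitone 4 (lam := -(1 / 2)) (by norm_num) (by norm_num) Burn.adm_cs hn
  have h2 := Burn.Data.burn_theta
  norm_num at h2 ⊢
  linarith

end

end Vale.Agent.P154.Hel.Corner
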