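import Vale.Agent.P154.Hel.Walk5Def

/-!
The walk of the planes of `5`, part 0.
-/

namespace Vale.Agent.P154.Hel.Corner

set_option maxRecDepth 100000 in
theorem w5_1_0_0 : w5 15 1 0 0 = true := by
  decide +kernel

set_option maxRecDepth 100000 in
theorem w5_2_2_0 : w5 14 2 2 0 = true := by
  decide +kernel

set_option maxRecDepth 100000 in
theorem w5_2_3_0 : w5 14 2 3 0 = true := by
  decide +kernel

set_option maxRecDepth 100000 in
theorem w5_2_2_1 : w5 14 2 2 1 = true := by
  decide +kernel

set_option maxRecDepth 100000 in
theorem w5_2_3_1 : w5 14 2 3 1 = true := by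
  decide +kernel

set_option maxRecDepth 100000 in
theorem w5_1_0_1 : w5 15 1 0 1 = true := by
  decide +kernel

set_option maxRecDepth 100000 in
theorem w5_2_2_2 : w5 14 2 2 2 = true := by
  decide +kernel

set_option maxRecDepth 100000 in
theorem w5_3_6_4 : w5 13 3 6 4 = true := by
  decide +kernel

set_option maxRecDepth 100000 in
theorem w5_4_14_8 : w5 12 4 14 8 = true := by
  decide +kernel

set_option maxRecDepth 100000 in
theorem w5_4_15_8 : w5 12 4 15 8 = true := by
  decide +kernel

set_option maxRecDepth 100000 in
theorem w5_4_14_9 : w5 12 4 14 9 = true := by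
  decide +kernel

set_option maxRecDepth 100000 in
theorem w5_5_30_18 : w5 11 5 30 18 = true := by
  decide +kernel

set_option maxRecDepth 100000 in
theorem w5_5_31_18 : w5 11 5 31 18 = true := by
  decide +kernel

set_option maxRecDepth 100000 in
theorem w5_5_30_19 : w5 11 5 30 19 = true := by
  decide +kernel

set_option maxRecDepth 100000 in
theorem w5_6_62_38 : w5 10 6 62 38 = true := by
  decide +kernel

set_option maxRecDepth 100000 in
theorem w5_6_63_38 : w5 10 6 63 38 = true := by
  decide +kernel

set_option maxRecDepth 100000 in
theorem w5_6_62_39 : w5 10 6 62 39 = true := by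
  decide +kernel

set_option maxRecDepth 100000 in
theorem w5_6_63_39 : w5 10 6 63 39 = true := by
  decide +kernel

set_option maxRecDepth 100000 in
theorem w5_3_6_5 : w5 13 3 6 5 = true := by
  decide +kernel

set_option maxRecDepth 100000 in
theorem w5_4_14_10 : w5 12 4 14 10 = true := by
  decide +kernel

set_option maxRecDepth 100000 in
theorem w5_5_30_20 : w5 11 5 30 20 = true := by
  decide +kernel

set_option maxRecDepth 100000 in
theorem w5_5_31_20 : w5 11 5 31 20 = true := by
  decide +kernel

set_option maxRecDepth 100000 in
theorem w5_5_30_21 : w5 11 5 30 21 = true := by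
  decide +kernel

set_option maxRecDepth 100000 in
theorem w5_5_31_21 : w5 11 5 31 21 = true := by
  decide +kernel

set_option maxRecDepth 100000 in
theorem w5_4_14_11 : w5 12 4 14 11 = true := by
  decide +kernel

set_option maxRecDepth 100000 in
theorem w5_4_15_11 : w5 12 4 15 11 = true := by
  decide +kernel

set_option maxRecDepth 100000 in
theorem w5_2_2_3 : w5 14 2 2 3 = true := by
  decide +kernel

set_option maxRecDepth 100000 in
theorem w5_3_6_6 : w5 13 3 6 6 = true := by
  decide +kernel

set_option maxRecDepth 100000 in
theorem w5_3_7_6 : w5 13 3 7 6 = true := by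
  decide +kernel

end Vale.Agent.P154.Hel.Corner
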