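import Vale.Agent.P154.Hel.Walk5Def

/-!
The walk of the planes of `5`, part 1.
-/

namespace Vale.Agent.P154.Hel.Corner

set_option maxRecDepth 100000 in
theorem w5_4_12_14 : w5 12 4 12 14 = true := by
  decide +kernel

set_option maxRecDepth 100000 in
theorem w5_4_13_14 : w5 12 4 13 14 = true := by
  decide +kernel

set_option maxRecDepth 100000 in
theorem w5_4_12_15 : w5 12 4 12 15 = true := by
  decide +kernel

set_option maxRecDepth 100000 in
theorem w5_4_13_15 : w5 12 4 13 15 = true := by
  decide +kernel

set_option maxRecDepth 100000 in
theorem w5_4_14_14 : w5 12 4 14 14 = true := by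
  decide +kernel

set_option maxRecDepth 100000 in
theorem w5_4_15_14 : w5 12 4 15 14 = true := by
  decide +kernel

set_option maxRecDepth 100000 in
theorem w5_5_28_30 : w5 11 5 28 30 = true := by
  decide +kernel

set_option maxRecDepth 100000 in
theorem w5_5_29_30 : w5 11 5 29 30 = true := by
  decide +kernel

set_option maxRecDepth 100000 in
theorem w5_5_28_31 : w5 11 5 28 31 = true := by
  decide +kernel

set_option maxRecDepth 100000 in
theorem w5_5_29_31 : w5 11 5 29 31 = true := by
  decide +kernel

set_option maxRecDepth 100000 in
theorem w5_5_30_30 : w5 11 5 30 30 = true := by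
  decide +kernel

set_option maxRecDepth 100000 in
theorem w5_5_31_30 : w5 11 5 31 30 = true := by
  decide +kernel

set_option maxRecDepth 100000 in
theorem w5_6_60_62 : w5 10 6 60 62 = true := by
  decide +kernel

set_option maxRecDepth 100000 in
theorem w5_6_61_62 : w5 10 6 61 62 = true := by
  decide +kernel

set_option maxRecDepth 100000 in
theorem w5_6_60_63 : w5 10 6 60 63 = true := by
  decide +kernel

set_option maxRecDepth 100000 in
theorem w5_6_61_63 : w5 10 6 61 63 = true := by
  decide +kernel

set_option maxRecDepth 100000 in
theorem w5_6_62_62 : w5 10 6 62 62 = true := by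
  decide +kernel

end Vale.Agent.P154.Hel.Corner
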