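import Vale.Agent.P154.Hel.Walk5Def

/-!
The walk of the planes of `5`, part 2.
-/

namespace Vale.Agent.P154.Hel.Corner

set_option maxRecDepth 100000 in
theorem w5_6_63_62 : w5 10 6 63 62 = true := by
  decide +kernel

set_option maxRecDepth 100000 in
theorem w5_6_62_63 : w5 10 6 62 63 = true := by
  decide +kernel

set_option maxRecDepth 100000 in
theorem w5_7_126_126 : w5 9 7 126 126 = true := by
  decide +kernel

set_option maxRecDepth 100000 in
theorem w5_7_127_126 : w5 9 7 127 126 = true := by
  decide +kernel

set_option maxRecDepth 100000 in
theorem w5_7_126_127 : w5 9 7 126 127 = true := by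
  decide +kernel

set_option maxRecDepth 100000 in
theorem w5_7_127_127 : w5 9 7 127 127 = true := by
  decide +kernel

end Vale.Agent.P154.Hel.Corner
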