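import Vale.Agent.P154.Hel.SmallFam
import Vale.Agent.P154.Hel.Walk5P0
import Vale.Agent.P154.Hel.Walk5P1
import Vale.Agent.P154.Hel.Walk5P2

/-!
The regular corner `d = 5`, `t = sqrt (1/5)`: nonreconstruction from the small-`z` family.
-/

namespace Vale.Agent.P154.Hel.Corner

open Vale.Agent.P154.Hel Vale.Agent.P154.Hel.Direct Filter Topology

noncomputable section

/-- The value of `t`. -/
def t5 : ℝ := Real.sqrt (1 / 5)

theorem t5_sq : t5 ^ 2 = 1 / 5 := Real.sq_sqrt (by norm_num)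

theorem t5_lo : (125879436378039 : ℝ) / 2 ^ 48 ≤ t5 := by
  refine Real.le_sqrt_of_sq_le ?_
  norm_num

theorem t5_hi : t5 ≤ (125879436378040 : ℝ) / 2 ^ 48 := by
  refine Real.sqrt_le_iff.2 ⟨by norm_num, ?_⟩
  norm_num

theorem t5_pos : 0 < t5 := Real.sqrt_pos.2 (by norm_num)

theorem t5_le : t5 ≤ 1 / 2 := by
  have := t5_hi
  norm_num at this ⊢
  linarith

theorem unit_cfgD : TM.unit cfgD = 1 / 2 ^ 48 := by
  unfold TM.unit
  show ((2 : ℝ) ^ 48)⁻¹ = _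
  norm_num

theorem tau5_rep (ξ η : ℝ) (C : TM.Ctx cfgD ξ η) : TM.RepAt cfgD ξ η tau5 t5 := by
  refine repAt_const C ?_
  rw [unit_cfgD, abs_le]
  have h1 := t5_lo
  have h2 := t5_hi
  push_cast
  constructor <;> norm_num at h1 h2 ⊢ <;> linarith

theorem tau15_rep (ξ η : ℝ) (C : TM.Ctx cfgD ξ η) : TM.RepAt cfgD ξ η tau15 ((1 + t5) / 3) := by
  refine repAt_const C ?_
  rw [unit_cfgD, abs_le]
  have h1 := t5_lo
  have h2 := t5_hi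
  push_cast
  constructor <;> norm_num at h1 h2 ⊢ <;> linarith

/-- The forms on a cell. -/
abbrev C5 (K i j : ℕ) : Prop := TM.CellP (tableGR t5 X9) (formsFG X9 (rowDirect 4 rows5)) K i j

theorem hB5 (ξ η : ℝ) (CC : TM.Ctx cfgD ξ η) (a b : TM.TMod) (v r : ℝ) (ha : TM.RepAt cfgD ξ η a v)
    (hb : TM.RepAt cfgD ξ η b r) :
    List.Forall₂ (TM.RepAt cfgD ξ η) (tableG cfgD tau5 tau15 X9 a b) (tableGR t5 X9 v r) :=
  tableG_rep CC X9_sum t5_pos.le t5_le (tau5_rep ξ η CC) (tau15_rep ξ η CC) ha hb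

theorem c5_7_127_127 : C5 7 127 127 :=
  TM.cellP_of_walk cfgD_valid hB5 w5_7_127_127

theorem c5_7_126_127 : C5 7 126 127 :=
  TM.cellP_of_walk cfgD_valid hB5 w5_7_126_127

theorem c5_7_127_126 : C5 7 127 126 :=
  TM.cellP_of_walk cfgD_valid hB5 w5_7_127_126

theorem c5_7_126_126 : C5 7 126 126 :=
  TM.cellP_of_walk cfgD_valid hB5 w5_7_126_126

theorem c5_6_63_63 : C5 6 63 63 :=
  TM.cellP_split c5_7_126_126 c5_7_127_126 c5_7_126_127 c5_7_127_127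

theorem c5_6_62_63 : C5 6 62 63 :=
  TM.cellP_of_walk cfgD_valid hB5 w5_6_62_63

theorem c5_6_63_62 : C5 6 63 62 :=
  TM.cellP_of_walk cfgD_valid hB5 w5_6_63_62

theorem c5_6_62_62 : C5 6 62 62 :=
  TM.cellP_of_walk cfgD_valid hB5 w5_6_62_62

theorem c5_5_31_31 : C5 5 31 31 :=
  TM.cellP_split c5_6_62_62 c5_6_63_62 c5_6_62_63 c5_6_63_63

theorem c5_6_61_63 : C5 6 61 63 :=
  TM.cellP_of_walk cfgD_valid hB5 w5_6_61_63

theorem c5_6_60_63 : C5 6 60 63 :=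
  TM.cellP_of_walk cfgD_valid hB5 w5_6_60_63

theorem c5_6_61_62 : C5 6 61 62 :=
  TM.cellP_of_walk cfgD_valid hB5 w5_6_61_62

theorem c5_6_60_62 : C5 6 60 62 :=
  TM.cellP_of_walk cfgD_valid hB5 w5_6_60_62

theorem c5_5_30_31 : C5 5 30 31 :=
  TM.cellP_split c5_6_60_62 c5_6_61_62 c5_6_60_63 c5_6_61_63

theorem c5_5_31_30 : C5 5 31 30 :=
  TM.cellP_of_walk cfgD_valid hB5 w5_5_31_30

theorem c5_5_30_30 : C5 5 30 30 :=
  TM.cellP_of_walk cfgD_valid hB5 w5_5_30_30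

theorem c5_4_15_15 : C5 4 15 15 :=
  TM.cellP_split c5_5_30_30 c5_5_31_30 c5_5_30_31 c5_5_31_31

theorem c5_5_29_31 : C5 5 29 31 :=
  TM.cellP_of_walk cfgD_valid hB5 w5_5_29_31

theorem c5_5_28_31 : C5 5 28 31 :=
  TM.cellP_of_walk cfgD_valid hB5 w5_5_28_31

theorem c5_5_29_30 : C5 5 29 30 :=
  TM.cellP_of_walk cfgD_valid hB5 w5_5_29_30

theorem c5_5_28_30 : C5 5 28 30 :=
  TM.cellP_of_walk cfgD_valid hB5 w5_5_28_30

theorem c5_4_14_15 : C5 4 14 15 :=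
  TM.cellP_split c5_5_28_30 c5_5_29_30 c5_5_28_31 c5_5_29_31

theorem c5_4_15_14 : C5 4 15 14 :=
  TM.cellP_of_walk cfgD_valid hB5 w5_4_15_14

theorem c5_4_14_14 : C5 4 14 14 :=
  TM.cellP_of_walk cfgD_valid hB5 w5_4_14_14

theorem c5_3_7_7 : C5 3 7 7 :=
  TM.cellP_split c5_4_14_14 c5_4_15_14 c5_4_14_15 c5_4_15_15

theorem c5_4_13_15 : C5 4 13 15 :=
  TM.cellP_of_walk cfgD_valid hB5 w5_4_13_15

theorem c5_4_12_15 : C5 4 12 15 :=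
  TM.cellP_of_walk cfgD_valid hB5 w5_4_12_15

theorem c5_4_13_14 : C5 4 13 14 :=
  TM.cellP_of_walk cfgD_valid hB5 w5_4_13_14

theorem c5_4_12_14 : C5 4 12 14 :=
  TM.cellP_of_walk cfgD_valid hB5 w5_4_12_14

theorem c5_3_6_7 : C5 3 6 7 :=
  TM.cellP_split c5_4_12_14 c5_4_13_14 c5_4_12_15 c5_4_13_15

theorem c5_3_7_6 : C5 3 7 6 :=
  TM.cellP_of_walk cfgD_valid hB5 w5_3_7_6

theorem c5_3_6_6 : C5 3 6 6 :=
  TM.cellP_of_walk cfgD_valid hB5 w5_3_6_6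

theorem c5_2_3_3 : C5 2 3 3 :=
  TM.cellP_split c5_3_6_6 c5_3_7_6 c5_3_6_7 c5_3_7_7

theorem c5_2_2_3 : C5 2 2 3 :=
  TM.cellP_of_walk cfgD_valid hB5 w5_2_2_3

theorem c5_4_15_11 : C5 4 15 11 :=
  TM.cellP_of_walk cfgD_valid hB5 w5_4_15_11

theorem c5_4_14_11 : C5 4 14 11 :=
  TM.cellP_of_walk cfgD_valid hB5 w5_4_14_11

theorem c5_5_31_21 : C5 5 31 21 :=
  TM.cellP_of_walk cfgD_valid hB5 w5_5_31_21

theorem c5_5_30_21 : C5 5 30 21 :=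
  TM.cellP_of_walk cfgD_valid hB5 w5_5_30_21

theorem c5_5_31_20 : C5 5 31 20 :=
  TM.cellP_of_walk cfgD_valid hB5 w5_5_31_20

theorem c5_5_30_20 : C5 5 30 20 :=
  TM.cellP_of_walk cfgD_valid hB5 w5_5_30_20

theorem c5_4_15_10 : C5 4 15 10 :=
  TM.cellP_split c5_5_30_20 c5_5_31_20 c5_5_30_21 c5_5_31_21

theorem c5_4_14_10 : C5 4 14 10 :=
  TM.cellP_of_walk cfgD_valid hB5 w5_4_14_10

theorem c5_3_7_5 : C5 3 7 5 :=
  TM.cellP_split c5_4_14_10 c5_4_15_10 c5_4_14_11 c5_4_15_11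

theorem c5_3_6_5 : C5 3 6 5 :=
  TM.cellP_of_walk cfgD_valid hB5 w5_3_6_5

theorem c5_6_63_39 : C5 6 63 39 :=
  TM.cellP_of_walk cfgD_valid hB5 w5_6_63_39

theorem c5_6_62_39 : C5 6 62 39 :=
  TM.cellP_of_walk cfgD_valid hB5 w5_6_62_39

theorem c5_6_63_38 : C5 6 63 38 :=
  TM.cellP_of_walk cfgD_valid hB5 w5_6_63_38

theorem c5_6_62_38 : C5 6 62 38 :=
  TM.cellP_of_walk cfgD_valid hB5 w5_6_62_38

theorem c5_5_31_19 : C5 5 31 19 :=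
  TM.cellP_split c5_6_62_38 c5_6_63_38 c5_6_62_39 c5_6_63_39

theorem c5_5_30_19 : C5 5 30 19 :=
  TM.cellP_of_walk cfgD_valid hB5 w5_5_30_19

theorem c5_5_31_18 : C5 5 31 18 :=
  TM.cellP_of_walk cfgD_valid hB5 w5_5_31_18

theorem c5_5_30_18 : C5 5 30 18 :=
  TM.cellP_of_walk cfgD_valid hB5 w5_5_30_18

theorem c5_4_15_9 : C5 4 15 9 :=
  TM.cellP_split c5_5_30_18 c5_5_31_18 c5_5_30_19 c5_5_31_19

theorem c5_4_14_9 : C5 4 14 9 :=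
  TM.cellP_of_walk cfgD_valid hB5 w5_4_14_9

theorem c5_4_15_8 : C5 4 15 8 :=
  TM.cellP_of_walk cfgD_valid hB5 w5_4_15_8

theorem c5_4_14_8 : C5 4 14 8 :=
  TM.cellP_of_walk cfgD_valid hB5 w5_4_14_8

theorem c5_3_7_4 : C5 3 7 4 :=
  TM.cellP_split c5_4_14_8 c5_4_15_8 c5_4_14_9 c5_4_15_9

theorem c5_3_6_4 : C5 3 6 4 :=
  TM.cellP_of_walk cfgD_valid hB5 w5_3_6_4

theorem c5_2_3_2 : C5 2 3 2 :=
  TM.cellP_split c5_3_6_4 c5_3_7_4 c5_3_6_5 c5_3_7_5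

theorem c5_2_2_2 : C5 2 2 2 :=
  TM.cellP_of_walk cfgD_valid hB5 w5_2_2_2

theorem c5_1_1_1 : C5 1 1 1 :=
  TM.cellP_split c5_2_2_2 c5_2_3_2 c5_2_2_3 c5_2_3_3

theorem c5_1_0_1 : C5 1 0 1 :=
  TM.cellP_of_walk cfgD_valid hB5 w5_1_0_1

theorem c5_2_3_1 : C5 2 3 1 :=
  TM.cellP_of_walk cfgD_valid hB5 w5_2_3_1

theorem c5_2_2_1 : C5 2 2 1 :=
  TM.cellP_of_walk cfgD_valid hB5 w5_2_2_1

theorem c5_2_3_0 : C5 2 3 0 :=
  TM.cellP_of_walk cfgD_valid hB5 w5_2_3_0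

theorem c5_2_2_0 : C5 2 2 0 :=
  TM.cellP_of_walk cfgD_valid hB5 w5_2_2_0

theorem c5_1_1_0 : C5 1 1 0 :=
  TM.cellP_split c5_2_2_0 c5_2_3_0 c5_2_2_1 c5_2_3_1

theorem c5_1_0_0 : C5 1 0 0 :=
  TM.cellP_of_walk cfgD_valid hB5 w5_1_0_0

theorem c5_0_0_0 : C5 0 0 0 :=
  TM.cellP_split c5_1_0_0 c5_1_1_0 c5_1_0_1 c5_1_1_1

theorem planes5 : ∀ r ∈ rows5, ∀ b ∈ r.bins, PlaneHolds X9 par5.dd par5.D (-t5) b.pl :=
  planes_of_cellG t5_pos.le t5_le X9_sum (by norm_num [par5]) rows5_len c5_0_0_0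

/-- The four characters of the small family in the list of the corner. -/
theorem four_X9 : Small.FourChars X9 (⟨6, by decide⟩ : Fin X9.length) ⟨7, by decide⟩ ⟨2, by decide⟩ ⟨8, by decide⟩ :=
  ⟨rfl, rfl, rfl, rfl⟩

/-- Nonreconstruction for `d = 5`, `t = sqrt (1/5)`, from the small-`z` family. -/
theorem reg5_tendsto
    (fam : ∀ Z : ℝ, 0 ≤ Z → Z ≤ 3 / 1250 → ∀ x : Fin 3 → ℝ, (∀ i, 0 < x i) → Small.famL t5 Z x ≤ Small.phiS x) :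
    Tendsto (reconA 3 5 (-t5)) atTop (𝓝 0) := by
  refine reg_tendsto (p := par5) (ρ0 := 293 / 500) (Ya := 3 / 5000) (Yb := 4 / 5) (rows := rows5)
    (jc := ⟨8, by decide⟩) (j9 := ⟨3, by decide⟩) X9_sum (by decide) rows5_ok t5_pos t5_le ?_ planes5 rfl rfl
    rfl rfl (by norm_num) (by norm_num [par5]) ?_ (by norm_num [par5]) ?_
  · rw [t5_sq]
    norm_num [par5]
  · rw [t5_sq]
    norm_num
  · intro y Y hy hs
    have hf := CornerHull.corner_hull_facts X9 X9_sum (iC := ⟨8, by decide⟩) (i921 := ⟨3, by decide⟩)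
      rfl rfl t5_pos t5_le hy
    have hs' : y ⟨8, by decide⟩ ≤ 3 / 5000 := by
      have : (((3 / 5000 : ℚ)) : ℝ) = 3 / 5000 := by norm_num
      rw [this] at hs
      exact hs
    refine Small.reg5_small_point four_X9 t5_sq (Z1 := 3 / 1250) (by norm_num) (by norm_num [par5]) (by norm_num [par5])
      (by norm_num [par5]) fam hf.y_nonneg (fun j => (hf.y_le_c j).trans hf.yc_le_one) hf.Y_nonneg hf.tY_le ?_
    linarith

theorem t5_ge : (3345 : ℝ) / 8192 ≤ t5 := by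
  have := t5_lo
  norm_num at this ⊢
  linarith

/-- Nonreconstruction on the `5`-ary tree at the threshold `t = sqrt (1/5)`. -/
theorem reg5_final : Filter.Tendsto (reconA 3 5 (-t5)) Filter.atTop (nhds 0) :=
  reg5_tendsto fun _ h0 h1 _ hx => Small.small_family t5_ge t5_le h0 (by linarith) hx

end

end Vale.Agent.P154.Hel.Corner
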