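import Vale.Agent.P154.Hel.Reg5
import Vale.Agent.P154.Hel.SmallFam2

/-!
The regular corner `d = 5`, `t = sqrt (1/5)`: nonreconstruction.
-/

namespace Vale.Agent.P154.Hel.Corner

open Filter Topology

theorem reg5_final_sqrt : Tendsto (reconA 3 5 (-Real.sqrt (1 / 5))) atTop (𝓝 0) :=
  reg5_tendsto fun Z h0 h1 x hx =>
    Small.small_family_100 (t := t5) (Z := Z) (by
      have := t5_lo
      norm_num at this ⊢
      linarith) t5_le h0 (by linarith) hx

end Vale.Agent.P154.Hel.Corner
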