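import Vale.Agent.P154.Hel.PlaneWalk
import Vale.Agent.P154.Hel.AdaptiveWalk

/-!
A shared table for the plane inequalities at a general value of `t` (row F only, no singular coordinate).
-/

namespace Vale.Agent.P154.Hel.Direct

open TM Q3

/-- The table of a cell at a general value of `t`. -/
def tableG (c : Cfg) (τ τ1 : TMod) (X : List E3) (v r : TMod) : List TMod :=
  (fun pv => (fun w => (fun pw => (fun x1 x2 => (fun M => (fun m1 => (fun p0 p1 p2 =>
    M :: ((X.map fun e => sixT c (onesT c) pv pw e) ++ ((X.map fun e => sixT c p0 p1 p2 e)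
      ++ [subT c (smulT c 2 M) (smulT c 6 (mulT c (addT c (addT c x1 (mulT c x1 x2)) x2) (invT c M)))])))
    (powsT c (rootT c (subT c m1 τ)))
    (powsT c (rootT c (subT c m1 (mulT c τ x1))))
    (powsT c (rootT c (subT c m1 (mulT c τ x2)))))
    (mulT c τ1 M))
    (addT c (addT c (ofFix c c.TF) x1) x2))
    (pick pv 12) (pick pw 12))
    (powsT c w)) (mulT c v r)) (powsT c v)

/-- The real table of a cell at a general value of `t`. -/
noncomputable def tableGR (t : ℝ) (X : List E3) (v r : ℝ) : List ℝ :=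
  M3H v r :: ((X.map fun e => six e 1 v (v * r)) ++ ((X.map fun e =>
      six e (uGen t 1 v (v * r) ^ ((1 : ℝ) / 12)) (uGen t (v ^ 12) v (v * r) ^ ((1 : ℝ) / 12))
        (uGen t ((v * r) ^ 12) v (v * r) ^ ((1 : ℝ) / 12)))
    ++ [2 * M3H v r - 6 * (Q3H v r * (M3H v r)⁻¹)]))

theorem tableG_rep {c : Cfg} {ξ η : ℝ} (CC : Ctx c ξ η) {X : List E3}
    (hX : ∀ e ∈ X, e.1 + e.2.1 + e.2.2 = 12) {τ τ1 : TMod} {t : ℝ} (ht0 : 0 ≤ t) (ht1 : t ≤ 1 / 2)
    (hτ : RepAt c ξ η τ t) (hτ1 : RepAt c ξ η τ1 ((1 + t) / 3)) {a b : TMod} {v r : ℝ}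
    (ha : RepAt c ξ η a v) (hb : RepAt c ξ η b r) :
    List.Forall₂ (RepAt c ξ η) (tableG c τ τ1 X a b) (tableGR t X v r) := by
  have tv := tab_powsT CC ha
  have rw' := repAt_mul CC ha hb
  have tw := tab_powsT CC rw'
  have hx1 := tv 12 le_rfl
  have hx2 := tw 12 le_rfl
  have hM : RepAt c ξ η _ (M3H v r) := repAt_add CC (repAt_add CC (repAt_one CC) hx1) hx2
  have hm1 := repAt_mul CC hτ1 hM
  have p1 : 0 ≤ (v * r) ^ 12 := by positivity
  have p2 : 0 ≤ v ^ 12 := by positivity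
  have e0 := uGen_nonneg (t := t) (a := 1) (v := v) (w := v * r) ht0 ht1 zero_le_one (by linarith)
  have e1 := uGen_nonneg (t := t) (a := v ^ 12) (v := v) (w := v * r) ht0 ht1 p2 (by linarith)
  have e2 := uGen_nonneg (t := t) (a := (v * r) ^ 12) (v := v) (w := v * r) ht0 ht1 p1 (by linarith)
  have r0 := (repAt_sub CC hm1 hτ).congr (y := uGen t 1 v (v * r)) (by
    unfold uGen M3H
    ring)
  have r1 := (repAt_sub CC hm1 (repAt_mul CC hτ hx1)).congr (y := uGen t (v ^ 12) v (v * r)) (by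
    unfold uGen M3H
    ring)
  have r2 := (repAt_sub CC hm1 (repAt_mul CC hτ hx2)).congr (y := uGen t ((v * r) ^ 12) v (v * r)) (by
    unfold uGen M3H
    ring)
  have t0 := tab_powsT CC (repAt_root CC r0 (Real.rpow_nonneg e0 _) (pow12_eq e0))
  have t1 := tab_powsT CC (repAt_root CC r1 (Real.rpow_nonneg e1 _) (pow12_eq e1))
  have t2 := tab_powsT CC (repAt_root CC r2 (Real.rpow_nonneg e2 _) (pow12_eq e2))
  have hQi : RepAt c ξ η _ (Q3H v r * (M3H v r)⁻¹) :=
    repAt_mul CC (repAt_add CC (repAt_add CC hx1 (repAt_mul CC hx1 hx2)) hx2) (repAt_inv CC hM)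
  refine List.Forall₂.cons hM ?_
  refine forall2_append (forall2_map fun e he => repAt_six CC (tab_onesT CC) tv tw (hX e he)) ?_
  refine forall2_append (forall2_map fun e he => repAt_six CC t0 t1 t2 (hX e he)) ?_
  refine List.Forall₂.cons ((repAt_sub CC (repAt_smul CC 2 hM) (repAt_smul CC 6 hQi)).congr (by norm_num)) ?_
  exact List.Forall₂.nil

theorem linV_formF_gen (t : ℝ) (X : List E3) (A C : List ℤ) (C0 E : ℤ) (hA : A.length = X.length)
    (hC : C.length = X.length) (v r : ℝ) :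
    linV (tableGR t X v r) (formF X A C C0 E) = valGen t X A C C0 E v r := by
  unfold tableGR formF valGen coreR
  simp only [linV]
  rw [linV_append _ _ _ _ (by simp [hA]), linV_append _ _ _ _ (by simp [hC])]
  rw [linV_map, linV_map, sumR_neg]
  simp only [linV, linV_nil]
  unfold M3H Q3H
  push_cast
  ring

/-- The list of forms of a list of planes, row F only. -/
def formsFG (X : List E3) (L : List Plane) : List (List ℤ) :=
  L.map fun p => formF X p.A p.C p.C0 p.E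

/-- The plane inequality at a general value of `t`, from a successful walk on all the top cells. -/
theorem planes_gen {c : Cfg} (hc : c.Valid) {X : List E3} (hX : ∀ e ∈ X, e.1 + e.2.1 + e.2.2 = 12)
    {τ τ1 : TMod} {t : ℝ} (ht0 : 0 ≤ t) (ht1 : t ≤ 1 / 2)
    (hτ : ∀ ξ η, Ctx c ξ η → RepAt c ξ η τ t) (hτ1 : ∀ ξ η, Ctx c ξ η → RepAt c ξ η τ1 ((1 + t) / 3))
    (f K : ℕ) (L : List Plane)
    (h : ∀ i j, i < 2 ^ K → j < 2 ^ K → formWalk c (tableG c τ τ1 X) f K i j (formsFG X L) = true)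
    {p : Plane} (hp : p ∈ L) (hA : p.A.length = X.length) (hC : p.C.length = X.length) (D : ℕ) (hD : 0 < D)
    (x : Fin 3 → ℝ) (hx : ∀ i, 0 < x i) :
    ∑ j, coef p.C D X.length j * psi (expo X j) (-t) x + ((p.C0 : ℝ) / D) * yyv x + ((p.E : ℝ) / D) * mass x
      ≤ phiF (coef p.A D X.length) (expo X) x := by
  refine plane_of_defect X p.A p.C p.C0 p.E D (t := t) ?_ x hx
  refine defect_nonneg X hX p.A p.C p.C0 p.E D hD ht0 ht1 ?_
  intro v r v0 v1 r0 r1
  have hG : 0 ≤ valGen t X p.A p.C p.C0 p.E v r := by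
    rw [← linV_formF_gen t X p.A p.C p.C0 p.E hA hC]
    exact forms_of_cells hc (G := tableGR t X)
      (fun ξ η CC a b v r ha hb => tableG_rep CC hX ht0 ht1 (hτ ξ η CC) (hτ1 ξ η CC) ha hb)
      f K _ h (List.mem_map.2 ⟨p, hp, rfl⟩) v0 v1 r0 r1
  have p1 : 0 ≤ (v * r) ^ 12 := by positivity
  have p2 : 0 ≤ v ^ 12 := by positivity
  have e0 := uGen_nonneg (t := t) (a := 1) (v := v) (w := v * r) ht0 ht1 zero_le_one (by linarith)
  have e1 := uGen_nonneg (t := t) (a := v ^ 12) (v := v) (w := v * r) ht0 ht1 p2 (by linarith)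
  have e2 := uGen_nonneg (t := t) (a := (v * r) ^ 12) (v := v) (w := v * r) ht0 ht1 p1 (by linarith)
  refine ⟨_, _, _, Real.rpow_nonneg e0 _, Real.rpow_nonneg e1 _, Real.rpow_nonneg e2 _, ?_, hG⟩
  rw [T_chart, pow12_eq e0, pow12_eq e1, pow12_eq e2]

/-- The plane inequality at a general value of `t`, from the forms on the unit square. -/
theorem planes_genP {X : List E3} (hX : ∀ e ∈ X, e.1 + e.2.1 + e.2.2 = 12)
    {t : ℝ} (ht0 : 0 ≤ t) (ht1 : t ≤ 1 / 2) (L : List Plane)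
    (h : CellP (tableGR t X) (formsFG X L) 0 0 0)
    {p : Plane} (hp : p ∈ L) (hA : p.A.length = X.length) (hC : p.C.length = X.length) (D : ℕ) (hD : 0 < D)
    (x : Fin 3 → ℝ) (hx : ∀ i, 0 < x i) :
    ∑ j, coef p.C D X.length j * psi (expo X j) (-t) x + ((p.C0 : ℝ) / D) * yyv x + ((p.E : ℝ) / D) * mass x
      ≤ phiF (coef p.A D X.length) (expo X) x := by
  refine plane_of_defect X p.A p.C p.C0 p.E D (t := t) ?_ x hx
  refine defect_nonneg X hX p.A p.C p.C0 p.E D hD ht0 ht1 ?_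
  intro v r v0 v1 r0 r1
  have hG : 0 ≤ valGen t X p.A p.C p.C0 p.E v r := by
    rw [← linV_formF_gen t X p.A p.C p.C0 p.E hA hC]
    exact cellP_square h (List.mem_map.2 ⟨p, hp, rfl⟩) v0 v1 r0 r1
  have p1 : 0 ≤ (v * r) ^ 12 := by positivity
  have p2 : 0 ≤ v ^ 12 := by positivity
  have e0 := uGen_nonneg (t := t) (a := 1) (v := v) (w := v * r) ht0 ht1 zero_le_one (by linarith)
  have e1 := uGen_nonneg (t := t) (a := v ^ 12) (v := v) (w := v * r) ht0 ht1 p2 (by linarith)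
  have e2 := uGen_nonneg (t := t) (a := (v * r) ^ 12) (v := v) (w := v * r) ht0 ht1 p1 (by linarith)
  refine ⟨_, _, _, Real.rpow_nonneg e0 _, Real.rpow_nonneg e1 _, Real.rpow_nonneg e2 _, ?_, hG⟩
  rw [T_chart, pow12_eq e0, pow12_eq e1, pow12_eq e2]

end Vale.Agent.P154.Hel.Direct
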