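import Vale.Agent.P154.Hel.CornerRegBridge
import Vale.Agent.P154.Hel.TableGen
import Vale.Agent.P154.Hel.SmallPoint

/-!
Common part of the data modules of the regular corner: the list of exponents, the passage from the scalar
planes to the planes of the walker.
-/

namespace Vale.Agent.P154.Hel.Corner

open Vale.Agent.P154.Hel Vale.Agent.P154.Hel.Direct

/-- The exponents of the corner. -/
def X9 : List E3 :=
  [(11, 1, 0), (10, 1, 1), (9, 3, 0), (9, 2, 1), (7, 4, 1), (7, 3, 2), (6, 6, 0), (6, 3, 3), (4, 4, 4)]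

theorem X9_sum : ∀ e ∈ X9, e.1 + e.2.1 + e.2.2 = 12 := by decide

/-- The plane of the walker of a scalar plane, for the tree of arity `dd + 1`. -/
def toDirect (dd : ℕ) (P : Plane) : Direct.Plane where
  A := P.A
  C := P.C.map fun c => ((dd + 1 : ℕ) : ℤ) * c
  C0 := P.C0
  E := P.E
  Eps := 0
  Eta := 0

/-- All the planes of a list of rows. -/
def rowPlanes (rows : List RRow) : List Plane :=
  rows.flatMap fun r => r.bins.map fun b => b.pl

theorem mem_rowPlanes {rows : List RRow} {r : RRow} (hr : r ∈ rows) {b : RBin} (hb : b ∈ r.bins) :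
    b.pl ∈ rowPlanes rows := by
  unfold rowPlanes
  exact List.mem_flatMap.2 ⟨r, hr, List.mem_map.2 ⟨b, hb, rfl⟩⟩

/-- The planes of the walker of a list of rows. -/
def rowDirect (dd : ℕ) (rows : List RRow) : List Direct.Plane :=
  (rowPlanes rows).map (toDirect dd)

theorem coef_toDirect (dd : ℕ) (P : Plane) (D n : ℕ) (j : Fin n) :
    coef (toDirect dd P).C D n j = ((dd + 1 : ℕ) : ℝ) * coef P.C D n j := by
  unfold coef toDirect
  simp only
  have e : (P.C.map fun c => ((dd + 1 : ℕ) : ℤ) * c).getD j 0 = ((dd + 1 : ℕ) : ℤ) * P.C.getD j 0 := by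
    rw [List.getD_eq_getElem?_getD, List.getElem?_map, List.getD_eq_getElem?_getD]
    cases P.C[(j : ℕ)]? <;> simp
  rw [e]
  push_cast
  ring

/-- The inequality of the walker gives the scalar plane. -/
theorem planeHolds_of_direct {X : List E3} {dd D : ℕ} {lam : ℝ} {P : Plane}
    (h : ∀ x : Fin 3 → ℝ, (∀ i, 0 < x i) →
      ∑ j, coef (toDirect dd P).C D X.length j * psi (expo X j) lam x
        + (((toDirect dd P).C0 : ℝ) / D) * yyv x + (((toDirect dd P).E : ℝ) / D) * mass x
        ≤ phiF (coef (toDirect dd P).A D X.length) (expo X) x) :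
    PlaneHolds X dd D lam P := by
  intro x hx
  have h1 := h x hx
  have e : ∀ j : Fin X.length, ((dd + 1 : ℕ) : ℝ) * coef P.C D X.length j * psi (expo X j) lam x
      = coef (toDirect dd P).C D X.length j * psi (expo X j) lam x := by
    intro j
    rw [coef_toDirect]
  rw [Finset.sum_congr rfl fun j _ => e j]
  exact h1

/-- The length conditions of a list of rows. -/
def planesLenOK (n : ℕ) (rows : List RRow) : Bool :=
  (rowPlanes rows).all fun P => P.A.length == n && P.C.length == n

/-- The hypothesis on the planes of the rows, from the forms on the unit square. -/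
theorem planes_of_cellG {t : ℝ} (ht0 : 0 ≤ t) (ht1 : t ≤ 1 / 2)
    {X : List E3} (hX : ∀ e ∈ X, e.1 + e.2.1 + e.2.2 = 12) {dd D : ℕ} (hD : 0 < D) {rows : List RRow}
    (hlen : planesLenOK X.length rows = true)
    (h : TM.CellP (tableGR t X) (formsFG X (rowDirect dd rows)) 0 0 0) :
    ∀ r ∈ rows, ∀ b ∈ r.bins, PlaneHolds X dd D (-t) b.pl := by
  intro r hr b hb
  have hm := mem_rowPlanes hr hb
  have hl := List.all_eq_true.1 hlen _ hm
  simp only [Bool.and_eq_true, beq_iff_eq] at hl
  refine planeHolds_of_direct ?_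
  intro x hx
  exact planes_genP hX ht0 ht1 (rowDirect dd rows) h (List.mem_map.2 ⟨_, hm, rfl⟩) hl.1
    (by simp [toDirect, hl.2]) D hD x hx

/-- The same at `t = 1/2`, with the shared table of both rows. -/
theorem planes_of_cellH {X : List E3} (hX : ∀ e ∈ X, e.1 + e.2.1 + e.2.2 = 12) {D : ℕ} (hD : 0 < D)
    {rows : List RRow} (hlen : planesLenOK X.length rows = true)
    (h : TM.CellP (tableR X) (formsFG X (rowDirect 3 rows)) 0 0 0) :
    ∀ r ∈ rows, ∀ b ∈ r.bins, PlaneHolds X 3 D (-(1 / 2)) b.pl := by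
  intro r hr b hb
  have hm := mem_rowPlanes hr hb
  have hl := List.all_eq_true.1 hlen _ hm
  simp only [Bool.and_eq_true, beq_iff_eq] at hl
  refine planeHolds_of_direct ?_
  intro x hx
  have hA : (toDirect 3 b.pl).A.length = X.length := hl.1
  have hC : (toDirect 3 b.pl).C.length = X.length := by simp [toDirect, hl.2]
  refine rowF_of_form hX hA hC D hD ?_ x hx
  intro v r' v0 v1 r0 r1
  exact TM.cellP_square h (List.mem_map.2 ⟨_, List.mem_map.2 ⟨_, hm, rfl⟩, rfl⟩) v0 v1 r0 r1

/-- A scalar plane and a plane of the walker with the same data. -/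
def planeMatch (dd : ℕ) (P : Plane) (q : Direct.Plane) : Bool :=
  decide (q.A = P.A) && decide (q.C = P.C.map fun c => ((dd + 1 : ℕ) : ℤ) * c) && decide (q.C0 = P.C0) &&
    decide (q.E = P.E)

/-- All the scalar planes of the rows are in a list of planes of the walker. -/
def rowsLink (dd : ℕ) (rows : List RRow) (L : List Direct.Plane) : Bool :=
  rows.all fun r => r.bins.all fun b => L.any (planeMatch dd b.pl)

/-- The hypothesis on the planes of the rows, from the inequalities of a list of planes of the walker. -/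
theorem planes_of_link {X : List E3} {dd D : ℕ} {lam : ℝ} {rows : List RRow} {L : List Direct.Plane}
    (hl : rowsLink dd rows L = true)
    (hq : ∀ q ∈ L, ∀ x : Fin 3 → ℝ, (∀ i, 0 < x i) →
      ∑ j, coef q.C D X.length j * psi (expo X j) lam x + ((q.C0 : ℝ) / D) * yyv x + ((q.E : ℝ) / D) * mass x
        ≤ phiF (coef q.A D X.length) (expo X) x) :
    ∀ r ∈ rows, ∀ b ∈ r.bins, PlaneHolds X dd D lam b.pl := by
  intro r hr b hb
  have h1 := List.all_eq_true.1 hl r hr
  have h2 := List.all_eq_true.1 h1 b hb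
  obtain ⟨q, hqL, hm⟩ := List.any_eq_true.1 h2
  simp only [planeMatch, Bool.and_eq_true, decide_eq_true_eq] at hm
  obtain ⟨⟨⟨e1, e2⟩, e3⟩, e4⟩ := hm
  refine planeHolds_of_direct ?_
  intro x hx
  have h3 := hq q hqL x hx
  rw [e1, e2, e3, e4] at h3
  exact h3

end Vale.Agent.P154.Hel.Corner
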