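import Vale.Agent.P154.Hel.Q3ECorner
import Vale.Agent.P154.Hel.Q3EWalk

/-!
The near zone of the small-`z` family: upper bounds of the defects of the three characters
`(6,6,0)`, `(6,3,3)`, `(9,3,0)` and a lower bound of the Lyapunov density, on a small square at the
corner `v = w = 1`: exact jets at the corner and Taylor models on the rest of the square.
-/

namespace Vale.Agent.P154.Hel.Small

open TM Q3

noncomputable section

/-- `3 chi` of the character `(6,6,0)` in the chart. -/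
def CAvw (v w : ℝ) : ℝ := v ^ 6 + w ^ 6 + v ^ 6 * w ^ 6
/-- `3 chi` of the character `(6,3,3)` in the chart. -/
def CBvw (v w : ℝ) : ℝ := v ^ 3 * w ^ 3 + v ^ 6 * w ^ 3 + v ^ 3 * w ^ 6
/-- `6 chi` of the character `(9,3,0)` in the chart. -/
def CDvw (v w : ℝ) : ℝ := v ^ 3 + w ^ 3 + v ^ 9 + w ^ 9 + v ^ 9 * w ^ 3 + v ^ 3 * w ^ 9

/-- A polynomial in the two moments. -/
def polyR (c1 c2 c3 c4 c5 c6 A R : ℝ) : ℝ :=
  c1 * A + c2 * R + c3 * (A * A) + c4 * (A * R) + c5 * (A * (A * A)) + c6 * (R * R)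

/-- Upper bound of the defect of `(6,6,0)`. -/
def JA (A R : ℝ) : ℝ := polyR (3 / 4) (-(3 / 8)) (313 / 512) (-(93 / 128)) (541 / 512) (57 / 256) A R
/-- Upper bound of the defect of `(6,3,3)`. -/
def JB (A R : ℝ) : ℝ := polyR (15 / 16) (-(39 / 64)) (953 / 1024) (-(5043 / 4096)) (54919 / 32768) (6711 / 16384) A R
/-- Upper bound of the defect of `(9,3,0)`. -/
def JD (A R : ℝ) : ℝ := polyR (9 / 16) (-(9 / 32)) (497 / 1024) (-(1197 / 2048)) (29503 / 32768) (2979 / 16384) A R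
/-- Lower bound of the Lyapunov density, including the term `A`. -/
def JN (A R : ℝ) : ℝ := polyR 1 0 (181 / 512) (-(217 / 4096)) (4915 / 16384) (-(1721 / 24576)) A R

/-- The defect of the upper bound for `(6,6,0)`. -/
def FA (v w : ℝ) : ℝ := JA (Asvw v w) (Rsvw v w) - 1 + CAvw v w * yvw v w
/-- The defect of the upper bound for `(6,3,3)`. -/
def FB (v w : ℝ) : ℝ := JB (Asvw v w) (Rsvw v w) - 1 + CBvw v w * yvw v w
/-- The defect of the upper bound for `(9,3,0)`. -/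
def FD (v w : ℝ) : ℝ := JD (Asvw v w) (Rsvw v w) - 1 + 1 / 2 * (CDvw v w * yvw v w)
/-- The defect of the lower bound of the density. -/
def FN (v w : ℝ) : ℝ :=
  275 / 96 - 83 / 24 * (CAvw v w * yvw v w) - 9 * (CBvw v w * yvw v w) - 1 / 2 * (CDvw v w * yvw v w)
    + 1017 / 32 * (v ^ 4 * w ^ 4 * yvw v w) - JN (Asvw v w) (Rsvw v w)

/-! ### The corner -/

/-- `v^3`. -/
def X_v3 : TMod := mulX cfgX X_v2 X_v
/-- `w^3`. -/
def X_w3 : TMod := mulX cfgX X_w2 X_w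
/-- `v^9`. -/
def X_v9 : TMod := mulX cfgX X_v6 X_v3
/-- `w^9`. -/
def X_w9 : TMod := mulX cfgX X_w6 X_w3
/-- One. -/
def X_one : TMod := ofNatX cfgX 1
/-- `CA / M`. -/
def X_YA : TMod := mulX cfgX (addT cfgX (addT cfgX X_v6 X_w6) (mulX cfgX X_v6 X_w6)) X_Mh
/-- `CB / M`. -/
def X_YB : TMod := mulX cfgX (addT cfgX (addT cfgX (mulX cfgX X_v3 X_w3) (mulX cfgX X_v6 X_w3)) (mulX cfgX X_v3 X_w6)) X_Mh
/-- `CD / M`. -/
def X_YD : TMod := mulX cfgX (addT cfgX (addT cfgX (addT cfgX (addT cfgX (addT cfgX X_v3 X_w3) X_v9) X_w9)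
  (mulX cfgX X_v9 X_w3)) (mulX cfgX X_v3 X_w9)) X_Mh

/-- The scaled `FA`. -/
def X_GA : TMod := subT cfgX (addT cfgX (addT cfgX (addT cfgX (subT cfgX (addT cfgX (subT cfgX (smulT cfgX 10119960924716187648 X_Ah) (smulT cfgX 3470494144278528 X_Rh)) (smulT cfgX 574874610048 X_Ah2)) (smulT cfgX 468612864 X_AR)) (smulT cfgX 69248 X_Ah3)) (smulT cfgX 98496 X_Rh2)) (smulT cfgX 88529418169417209544704 X_YA)) (smulT cfgX 193613837536515437274267648 X_one)
/-- The scaled `FB`. -/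
def X_GB : TMod := subT cfgX (addT cfgX (addT cfgX (addT cfgX (subT cfgX (addT cfgX (subT cfgX (smulT cfgX 12649951155895234560 X_Ah) (smulT cfgX 5639552984452608 X_Rh)) (smulT cfgX 875168535744 X_Ah2)) (smulT cfgX 794090952 X_AR)) (smulT cfgX 109838 X_Ah3)) (smulT cfgX 181197 X_Rh2)) (smulT cfgX 88529418169417209544704 X_YB)) (smulT cfgX 193613837536515437274267648 X_one)
/-- The scaled `FD`. -/
def X_GD : TMod := subT cfgX (addT cfgX (addT cfgX (addT cfgX (subT cfgX (addT cfgX (subT cfgX (smulT cfgX 7589970693537140736 X_Ah) (smulT cfgX 2602870608208896 X_Rh)) (smulT cfgX 456410033856 X_Ah2)) (smulT cfgX 376968816 X_AR)) (smulT cfgX 59006 X_Ah3)) (smulT cfgX 80433 X_Rh2)) (smulT cfgX 44264709084708604772352 X_YD)) (smulT cfgX 193613837536515437274267648 X_one)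
/-- The scaled `FN`. -/
def X_GN : TMod := addT cfgX (subT cfgX (subT cfgX (subT cfgX (addT cfgX (addT cfgX (subT cfgX (addT cfgX (subT cfgX (negT (smulT cfgX 13493281232954916864 X_Ah)) (smulT cfgX 332435477376 X_Ah2)) (smulT cfgX 34169688 X_AR)) (smulT cfgX 19660 X_Ah3)) (smulT cfgX 30978 X_Rh2)) (smulT cfgX 554622972109809846358579200 X_one)) (smulT cfgX 306164237835901183008768 X_YA)) (smulT cfgX 796764763524754885902336 X_YB)) (smulT cfgX 44264709084708604772352 X_YD)) (smulT cfgX 2813575571196790690842624 X_CM)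

theorem X_GA_ok : cornerOK cfgX X_GA = true := by decide +kernel
theorem X_GB_ok : cornerOK cfgX X_GB = true := by decide +kernel
theorem X_GD_ok : cornerOK cfgX X_GD = true := by decide +kernel
theorem X_GN_ok : cornerOK cfgX X_GN = true := by decide +kernel

/-- The shared enclosures. -/
structure XRS (ξ η Θ v w : ℝ) : Prop where
  rone : RepX cfgX ξ η Θ X_one 1
  rYA : RepX cfgX ξ η Θ X_YA (CAvw v w * (2187 * yvw v w))
  rYB : RepX cfgX ξ η Θ X_YB (CBvw v w * (2187 * yvw v w))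
  rYD : RepX cfgX ξ η Θ X_YD (CDvw v w * (2187 * yvw v w))
  rCM : RepX cfgX ξ η Θ X_CM (v ^ 4 * w ^ 4 * (2187 * yvw v w))
  rAh : RepX cfgX ξ η Θ X_Ah (AhV v w)
  rRh : RepX cfgX ξ η Θ X_Rh (RhV v w)
  rAh2 : RepX cfgX ξ η Θ X_Ah2 (AhV v w ^ 2)
  rRh2 : RepX cfgX ξ η Θ X_Rh2 (RhV v w ^ 2)
  rAh3 : RepX cfgX ξ η Θ X_Ah3 (AhV v w ^ 3)
  rAR : RepX cfgX ξ η Θ X_AR (AhV v w * RhV v w)

lemma xrs_all {ξ η θ Θ : ℝ} (C : CtxX cfgX ξ η θ Θ) : XRS ξ η Θ (1 - ξ / 2 ^ 10) (1 - η / 2 ^ 10) := by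
  have hc := C.hc
  have R0 := xr_all C
  set v := 1 - ξ / 2 ^ 10 with hv
  set w := 1 - η / 2 ^ 10 with hw
  have hL : cfgX.L = 49 := rfl
  have hST : cfgX.ST = 7 := rfl
  have rv : RepX cfgX ξ η Θ X_v v := repX_cornerX C 10 (by rw [hST]; norm_num) (by rw [hST, hL]; norm_num)
  have rw' : RepX cfgX ξ η Θ X_w w := repX_cornerY C 10 (by rw [hST]; norm_num) (by rw [hST, hL]; norm_num)
  have rv2 : RepX cfgX ξ η Θ X_v2 (v ^ 2) := (repX_mul C rv rv).congr (by ring)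
  have rw2 : RepX cfgX ξ η Θ X_w2 (w ^ 2) := (repX_mul C rw' rw').congr (by ring)
  have rv3 : RepX cfgX ξ η Θ X_v3 (v ^ 3) := (repX_mul C rv2 rv).congr (by ring)
  have rw3 : RepX cfgX ξ η Θ X_w3 (w ^ 3) := (repX_mul C rw2 rw').congr (by ring)
  have rv4 : RepX cfgX ξ η Θ X_v4 (v ^ 4) := (repX_mul C rv2 rv2).congr (by ring)
  have rw4 : RepX cfgX ξ η Θ X_w4 (w ^ 4) := (repX_mul C rw2 rw2).congr (by ring)
  have rv5 : RepX cfgX ξ η Θ X_v5 (v ^ 5) := (repX_mul C rv4 rv).congr (by ring)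
  have rw5 : RepX cfgX ξ η Θ X_w5 (w ^ 5) := (repX_mul C rw4 rw').congr (by ring)
  have rv6 : RepX cfgX ξ η Θ X_v6 (v ^ 6) := (repX_mul C rv5 rv).congr (by ring)
  have rw6 : RepX cfgX ξ η Θ X_w6 (w ^ 6) := (repX_mul C rw5 rw').congr (by ring)
  have rv9 : RepX cfgX ξ η Θ X_v9 (v ^ 9) := (repX_mul C rv6 rv3).congr (by ring)
  have rw9 : RepX cfgX ξ η Θ X_w9 (w ^ 9) := (repX_mul C rw6 rw3).congr (by ring)
  have rv12 : RepX cfgX ξ η Θ X_v12 (v ^ 12) := (repX_mul C rv6 rv6).congr (by ring)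
  have rw12 : RepX cfgX ξ η Θ X_w12 (w ^ 12) := (repX_mul C rw6 rw6).congr (by ring)
  have rM : RepX cfgX ξ η Θ X_M (1 + v ^ 12 + w ^ 12) :=
    (repX_add C (repX_add C (repX_ofNatX C 1) rv12) rw12).congr (by norm_num)
  have hM1 : 1 ≤ 1 + v ^ 12 + w ^ 12 := by
    have h1 : 0 ≤ v ^ 12 := by positivity
    have h2 : 0 ≤ w ^ 12 := by positivity
    linarith
  have rMh : RepX cfgX ξ η Θ X_Mh (2187 * yvw v w) :=
    (repX_inv C (good_polyLit hc _ _) rM hM1).congr (by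
      unfold yvw
      norm_num)
  exact
    { rone := (repX_ofNatX C 1).congr (by norm_num)
      rYA := repX_mul C ((repX_add C (repX_add C rv6 rw6) (repX_mul C rv6 rw6)).congr (by unfold CAvw; ring)) rMh
      rYB := repX_mul C ((repX_add C (repX_add C (repX_mul C rv3 rw3) (repX_mul C rv6 rw3)) (repX_mul C rv3 rw6)).congr (by unfold CBvw; ring)) rMh
      rYD := repX_mul C ((repX_add C (repX_add C (repX_add C (repX_add C (repX_add C rv3 rw3) rv9) rw9)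
        (repX_mul C rv9 rw3)) (repX_mul C rv3 rw9)).congr (by unfold CDvw; ring)) rMh
      rCM := R0.rCM
      rAh := R0.rAh
      rRh := R0.rRh
      rAh2 := R0.rAh2
      rRh2 := R0.rRh2
      rAh3 := R0.rAh3
      rAR := R0.rAR }

lemma GA_rep {ξ η θ Θ : ℝ} (C : CtxX cfgX ξ η θ Θ) :
    RepX cfgX ξ η Θ X_GA (193613837536515437274267648 * FA (1 - ξ / 2 ^ 10) (1 - η / 2 ^ 10)) := by
  have R := xrs_all C
  set v := 1 - ξ / 2 ^ 10 with hv
  set w := 1 - η / 2 ^ 10 with hw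
  refine (repX_sub C (repX_add C (repX_add C (repX_add C (repX_sub C (repX_add C (repX_sub C (repX_smul C 10119960924716187648 R.rAh) (repX_smul C 3470494144278528 R.rRh)) (repX_smul C 574874610048 R.rAh2)) (repX_smul C 468612864 R.rAR)) (repX_smul C 69248 R.rAh3)) (repX_smul C 98496 R.rRh2)) (repX_smul C 88529418169417209544704 R.rYA)) (repX_smul C 193613837536515437274267648 R.rone)).congr ?_
  unfold FA JA polyR
  rw [As_eq, Rs_eq]
  push_cast
  ring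

lemma GB_rep {ξ η θ Θ : ℝ} (C : CtxX cfgX ξ η θ Θ) :
    RepX cfgX ξ η Θ X_GB (193613837536515437274267648 * FB (1 - ξ / 2 ^ 10) (1 - η / 2 ^ 10)) := by
  have R := xrs_all C
  set v := 1 - ξ / 2 ^ 10 with hv
  set w := 1 - η / 2 ^ 10 with hw
  refine (repX_sub C (repX_add C (repX_add C (repX_add C (repX_sub C (repX_add C (repX_sub C (repX_smul C 12649951155895234560 R.rAh) (repX_smul C 5639552984452608 R.rRh)) (repX_smul C 875168535744 R.rAh2)) (repX_smul C 794090952 R.rAR)) (repX_smul C 109838 R.rAh3)) (repX_smul C 181197 R.rRh2)) (repX_smul C 88529418169417209544704 R.rYB)) (repX_smul C 193613837536515437274267648 R.rone)).congr ?_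
  unfold FB JB polyR
  rw [As_eq, Rs_eq]
  push_cast
  ring

lemma GD_rep {ξ η θ Θ : ℝ} (C : CtxX cfgX ξ η θ Θ) :
    RepX cfgX ξ η Θ X_GD (193613837536515437274267648 * FD (1 - ξ / 2 ^ 10) (1 - η / 2 ^ 10)) := by
  have R := xrs_all C
  set v := 1 - ξ / 2 ^ 10 with hv
  set w := 1 - η / 2 ^ 10 with hw
  refine (repX_sub C (repX_add C (repX_add C (repX_add C (repX_sub C (repX_add C (repX_sub C (repX_smul C 7589970693537140736 R.rAh) (repX_smul C 2602870608208896 R.rRh)) (repX_smul C 456410033856 R.rAh2)) (repX_smul C 376968816 R.rAR)) (repX_smul C 59006 R.rAh3)) (repX_smul C 80433 R.rRh2)) (repX_smul C 44264709084708604772352 R.rYD)) (repX_smul C 193613837536515437274267648 R.rone)).congr ?_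
  unfold FD JD polyR
  rw [As_eq, Rs_eq]
  push_cast
  ring

lemma GN_rep {ξ η θ Θ : ℝ} (C : CtxX cfgX ξ η θ Θ) :
    RepX cfgX ξ η Θ X_GN (193613837536515437274267648 * FN (1 - ξ / 2 ^ 10) (1 - η / 2 ^ 10)) := by
  have R := xrs_all C
  set v := 1 - ξ / 2 ^ 10 with hv
  set w := 1 - η / 2 ^ 10 with hw
  refine (repX_add C (repX_sub C (repX_sub C (repX_sub C (repX_add C (repX_add C (repX_sub C (repX_add C (repX_sub C (repX_neg (repX_smul C 13493281232954916864 R.rAh)) (repX_smul C 332435477376 R.rAh2)) (repX_smul C 34169688 R.rAR)) (repX_smul C 19660 R.rAh3)) (repX_smul C 30978 R.rRh2)) (repX_smul C 554622972109809846358579200 R.rone)) (repX_smul C 306164237835901183008768 R.rYA)) (repX_smul C 796764763524754885902336 R.rYB)) (repX_smul C 44264709084708604772352 R.rYD)) (repX_smul C 2813575571196790690842624 R.rCM)).congr ?_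
  unfold FN JN polyR
  rw [As_eq, Rs_eq]
  push_cast
  ring

theorem FA_corner {v w : ℝ} (hv0 : 1 - 1 / 1024 ≤ v) (hv1 : v ≤ 1) (hw0 : 1 - 1 / 1024 ≤ w) (hw1 : w ≤ 1) :
    0 ≤ FA v w := by
  obtain ⟨ξ, η, θ, Θ, C, hθ, rfl, rfl⟩ := corner_ctx hv0 hv1 hw0 hw1
  have h := corner_sound rfl C hθ (GA_rep C) X_GA_ok
  exact nonneg_of_mul_nonneg_right h (by norm_num)

theorem FB_corner {v w : ℝ} (hv0 : 1 - 1 / 1024 ≤ v) (hv1 : v ≤ 1) (hw0 : 1 - 1 / 1024 ≤ w) (hw1 : w ≤ 1) :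
    0 ≤ FB v w := by
  obtain ⟨ξ, η, θ, Θ, C, hθ, rfl, rfl⟩ := corner_ctx hv0 hv1 hw0 hw1
  have h := corner_sound rfl C hθ (GB_rep C) X_GB_ok
  exact nonneg_of_mul_nonneg_right h (by norm_num)

theorem FD_corner {v w : ℝ} (hv0 : 1 - 1 / 1024 ≤ v) (hv1 : v ≤ 1) (hw0 : 1 - 1 / 1024 ≤ w) (hw1 : w ≤ 1) :
    0 ≤ FD v w := by
  obtain ⟨ξ, η, θ, Θ, C, hθ, rfl, rfl⟩ := corner_ctx hv0 hv1 hw0 hw1
  have h := corner_sound rfl C hθ (GD_rep C) X_GD_ok
  exact nonneg_of_mul_nonneg_right h (by norm_num)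

theorem FN_corner {v w : ℝ} (hv0 : 1 - 1 / 1024 ≤ v) (hv1 : v ≤ 1) (hw0 : 1 - 1 / 1024 ≤ w) (hw1 : w ≤ 1) :
    0 ≤ FN v w := by
  obtain ⟨ξ, η, θ, Θ, C, hθ, rfl, rfl⟩ := corner_ctx hv0 hv1 hw0 hw1
  have h := corner_sound rfl C hθ (GN_rep C) X_GN_ok
  exact nonneg_of_mul_nonneg_right h (by norm_num)

end

end Vale.Agent.P154.Hel.Small
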