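import Vale.Agent.P154.Hel.SmallW
import Vale.Agent.P154.Hel.Q3Moments
import Vale.Agent.P154.Hel.Direct

/-!
The near zone of the small-`z` family for `q = 3`: the pointwise inequality for the triples with
`AA (nrm x) ≤ 1/200`, for all `t` in `(0, 1/2]` with `t ≥ 0` and all `Z ≤ 1`, by polynomial bounds.
-/

namespace Vale.Agent.P154.Hel.Small

open TM Q3 Direct

noncomputable section

/-- The character `(6,6,0)`. -/
def sA : Fin 3 → ℝ := sE (6, 6, 0)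
/-- The character `(6,3,3)`. -/
def sB : Fin 3 → ℝ := sE (6, 3, 3)
/-- The character `(9,3,0)`. -/
def sD : Fin 3 → ℝ := sE (9, 3, 0)
/-- The character `(4,4,4)`. -/
def sZ : Fin 3 → ℝ := sE (4, 4, 4)

theorem adm_sA : AdmS sA := adm_sE (by norm_num)
theorem adm_sB : AdmS sB := adm_sE (by norm_num)
theorem adm_sD : AdmS sD := adm_sE (by norm_num)
theorem adm_sZ : AdmS sZ := adm_sE (by norm_num)

theorem sZ_eq : sZ = sC := by
  funext i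
  fin_cases i <;> simp [sZ, sE, sC] <;> norm_num

/-- The density of the family on a triple. -/
def phiS (x : Fin 3 → ℝ) : ℝ :=
  83 / 24 * (mass x - chi sA x) + 9 * (mass x - chi sB x) + (mass x - chi sD x)
    - 339 / 32 * (mass x - chi sZ x)

/-! ### Triples in the chart -/

lemma chart_chi_aux (u0 : ℝ) (hu : 0 < u0) : ∃ y0 : ℝ, 0 ≤ y0 ∧ y0 ^ 12 = u0 :=
  ⟨u0 ^ ((1 : ℝ) / 12), Real.rpow_nonneg hu.le _, pow12_eq hu.le⟩

lemma chart_vec {y0 u0 v w : ℝ} (h : y0 ^ 12 = u0) :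
    (![u0, u0 * v ^ 12, u0 * w ^ 12] : Fin 3 → ℝ) = ![y0 ^ 12, (y0 * v) ^ 12, (y0 * w) ^ 12] := by
  rw [← h, mul_pow, mul_pow]

theorem chiA_chart {u0 v w : ℝ} (hu : 0 < u0) (hv : 0 ≤ v) (hw : 0 ≤ w) :
    chi sA ![u0, u0 * v ^ 12, u0 * w ^ 12] = u0 * (CAvw v w / 3) := by
  obtain ⟨y0, h0, h⟩ := chart_chi_aux u0 hu
  rw [chart_vec h, sA, chi_grid _ h0 (mul_nonneg h0 hv) (mul_nonneg h0 hw), ← h]
  simp only [six, CAvw]
  ring

theorem chiB_chart {u0 v w : ℝ} (hu : 0 < u0) (hv : 0 ≤ v) (hw : 0 ≤ w) :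
    chi sB ![u0, u0 * v ^ 12, u0 * w ^ 12] = u0 * (CBvw v w / 3) := by
  obtain ⟨y0, h0, h⟩ := chart_chi_aux u0 hu
  rw [chart_vec h, sB, chi_grid _ h0 (mul_nonneg h0 hv) (mul_nonneg h0 hw), ← h]
  simp only [six, CBvw]
  ring

theorem chiD_chart {u0 v w : ℝ} (hu : 0 < u0) (hv : 0 ≤ v) (hw : 0 ≤ w) :
    chi sD ![u0, u0 * v ^ 12, u0 * w ^ 12] = u0 * (CDvw v w / 6) := by
  obtain ⟨y0, h0, h⟩ := chart_chi_aux u0 hu
  rw [chart_vec h, sD, chi_grid _ h0 (mul_nonneg h0 hv) (mul_nonneg h0 hw), ← h]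
  simp only [six, CDvw]
  ring

theorem chiZ_chart {u0 v w : ℝ} (hu : 0 < u0) (hv : 0 ≤ v) (hw : 0 ≤ w) :
    chi sZ ![u0, u0 * v ^ 12, u0 * w ^ 12] = u0 * (v ^ 4 * w ^ 4) := by
  obtain ⟨y0, h0, h⟩ := chart_chi_aux u0 hu
  rw [chart_vec h, sZ, chi_grid _ h0 (mul_nonneg h0 hv) (mul_nonneg h0 hw), ← h]
  simp only [six]
  ring

/-- A mean-one triple with small `A` lies in the small square of the chart. -/
lemma chart_small {u0 v w : ℝ} (hu : 0 < u0) (hw0 : 0 ≤ w) (hwv : w ≤ v) (hv1 : v ≤ 1)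
    (hM : u0 * (1 + v ^ 12 + w ^ 12) = 3)
    (hA : AA ![u0, u0 * v ^ 12, u0 * w ^ 12] ≤ 1 / 200) : 125 / 128 ≤ w := by
  by_contra hlt
  rw [not_le] at hlt
  have hw12 : w ^ 12 ≤ (125 / 128 : ℝ) ^ 12 := pow_le_pow_left₀ hw0 hlt.le 12
  have hw12' : w ^ 12 ≤ 7528 / 10000 := by
    refine hw12.trans ?_
    norm_num
  have hv12 : v ^ 12 ≤ 1 := pow_le_one₀ (hw0.trans hwv) hv1
  have hw12p : 0 ≤ w ^ 12 := by positivity
  have hu1 : 1 ≤ u0 := by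
    by_contra h
    rw [not_le] at h
    have : u0 * (1 + v ^ 12 + w ^ 12) < 1 * 3 := by
      have h3 : 1 + v ^ 12 + w ^ 12 ≤ 3 := by linarith
      have h4 : 0 < 1 + v ^ 12 + w ^ 12 := by positivity
      calc u0 * (1 + v ^ 12 + w ^ 12) < 1 * (1 + v ^ 12 + w ^ 12) :=
            mul_lt_mul_of_pos_right h h4
        _ ≤ 1 * 3 := by linarith
    linarith
  have hd : 2472 / 10000 ≤ u0 * (1 - w ^ 12) := by nlinarith
  have hA' : (u0 - 1) ^ 2 + (u0 * w ^ 12 - 1) ^ 2 ≤ 6 * (1 / 200) := by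
    unfold AA at hA
    simp only [Matrix.cons_val_zero, Matrix.cons_val_one, Matrix.cons_val] at hA
    nlinarith [sq_nonneg (u0 * v ^ 12 - 1)]
  have e : u0 * (1 - w ^ 12) = (u0 - 1) - (u0 * w ^ 12 - 1) := by ring
  nlinarith [sq_nonneg ((u0 - 1) + (u0 * w ^ 12 - 1))]

/-- The four bounds on mean-one triples with small `A`. -/
theorem triple_bounds {y : Fin 3 → ℝ} (hy : ∀ i, 0 < y i) (hm : mass y = 1) (hA : AA y ≤ 1 / 200) :
    1 - chi sA y ≤ JA (AA y) (RR y) ∧ 1 - chi sB y ≤ JB (AA y) (RR y) ∧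
      1 - chi sD y ≤ JD (AA y) (RR y) ∧
      JN (AA y) (RR y) ≤ 83 / 24 * (1 - chi sA y) + 9 * (1 - chi sB y) + (1 - chi sD y)
        - 339 / 32 * (1 - chi sZ y) := by
  obtain ⟨g, g1, g2⟩ := exists_sorted y
  have hp : ∀ i, 0 < (fun i => y (g i)) i := fun i => hy _
  obtain ⟨v, w, w0, wv, v1, hc⟩ := exists_chart hp g1 g2
  have hm' : mass (fun i => y (g i)) = 1 := by rw [mass_perm, hm]
  have hA' : AA (fun i => y (g i)) ≤ 1 / 200 := by rw [AA_perm]; exact hA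
  have hvv : 0 ≤ v := le_trans w0 wv
  rw [← chi_perm sA y g, ← chi_perm sB y g, ← chi_perm sD y g, ← chi_perm sZ y g, ← AA_perm y g,
    ← RR_perm y g]
  set u' : Fin 3 → ℝ := fun i => y (g i) with hu'
  have hu0 : 0 < u' 0 := hy _
  rw [hc] at hm' hA' ⊢
  obtain ⟨c1, c2, c3⟩ := chart_values hm'
  have hMv : u' 0 * (1 + v ^ 12 + w ^ 12) = 3 := by
    unfold mass at hm'
    simp at hm'
    linarith
  have hw := chart_small hu0 w0 wv v1 hMv hA'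
  obtain ⟨fA, fB, fD, fN⟩ := F_near v1 wv hw
  rw [chiA_chart hu0 hvv w0, chiB_chart hu0 hvv w0, chiD_chart hu0 hvv w0, chiZ_chart hu0 hvv w0,
    c2, c3, Avw_eq, Rvw_eq]
  have hy0 : y (g 0) = 3 * yvw v w := by
    rw [← c1]
    unfold Mvw yvw
    rw [div_eq_mul_inv]
  have hy0' : u' 0 = 3 * yvw v w := hy0
  rw [hy0']
  unfold FA at fA
  unfold FB at fB
  unfold FD at fD
  unfold FN at fN
  refine ⟨by linarith, by linarith, by linarith, by linarith⟩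

/-! ### The polynomial inequality -/

/-- The polynomial of the moments after the channel, divided by `t^2`. -/
def polyX (c1 c2 c3 c4 c5 c6 A R t : ℝ) : ℝ :=
  c1 * A - c2 * (t * R) + c3 * (t ^ 2 * (A * A)) - c4 * (t ^ 3 * (A * R))
    + c5 * (t ^ 4 * (A * (A * A))) + c6 * (t ^ 4 * (R * R))

lemma polyX_eq (c1 c2 c3 c4 c5 c6 A R t : ℝ) :
    polyR c1 c2 c3 c4 c5 c6 (t ^ 2 * A) (-(t ^ 3 * R)) = t ^ 2 * polyX c1 c2 c3 c4 c5 c6 A R t := by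
  unfold polyR polyX
  ring

/-- Upper bound of `psi sA` over `mass * t^2`. -/
def XA (A R t : ℝ) : ℝ := polyX (3 / 4) (-(3 / 8)) (313 / 512) (-(93 / 128)) (541 / 512) (57 / 256) A R t
/-- Upper bound of `psi sB` over `mass * t^2`. -/
def XB (A R t : ℝ) : ℝ := polyX (15 / 16) (-(39 / 64)) (953 / 1024) (-(5043 / 4096)) (54919 / 32768) (6711 / 16384) A R t
/-- Upper bound of `psi sD` over `mass * t^2`. -/
def XD (A R t : ℝ) : ℝ := polyX (9 / 16) (-(9 / 32)) (497 / 1024) (-(1197 / 2048)) (29503 / 32768) (2979 / 16384) A R t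

/-- The constant term in `Z`. -/
def G0f (A R t : ℝ) : ℝ :=
  JN A R - (83 / 24 * XA A R t + 9 * XB A R t + XD A R t) + 339 / 32 * zetaC A R t

/-- The coefficient of `Z`. -/
def Lf (A R t : ℝ) : ℝ :=
  83 / 24 * (3 / 4) * XA A R t + 9 * (15 / 16) * XB A R t + 9 / 16 * XD A R t
    - 339 / 32 * zetaC A R t - 1 / 4096 * A

lemma G0f_eq (A R t : ℝ) :
    G0f A R t = -(1721 / 24576) * R ^ 2 - 217 / 4096 * (A * R) + 181 / 512 * A ^ 2 + 4915 / 16384 * A ^ 3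
      - 4691 / 12288 * (t ^ 2 * A ^ 2) - 217 / 4096 * (t ^ 3 * (A * R)) + 1721 / 24576 * (t ^ 4 * R ^ 2)
      - 97433 / 49152 * (t ^ 4 * A ^ 3) + 565 / 16 * (t ^ 5 * (A ^ 2 * R)) + 565 / 16 * (t ^ 6 * A ^ 4)
      + 565 / 6 * (t ^ 7 * (A ^ 3 * R)) := by
  unfold G0f JN polyR XA XB XD polyX zetaC
  ring

lemma Lf_eq (A R t : ℝ) :
    Lf A R t = -(1729 / 4096) * A - 809 / 1024 * (t * R) - 14461 / 16384 * (t ^ 2 * A ^ 2)
      - 99841 / 65536 * (t ^ 3 * (A * R)) - 112555 / 196608 * (t ^ 4 * R ^ 2)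
      - 17559 / 65536 * (t ^ 4 * A ^ 3) - 565 / 16 * (t ^ 5 * (A ^ 2 * R)) - 565 / 16 * (t ^ 6 * A ^ 4)
      - 565 / 6 * (t ^ 7 * (A ^ 3 * R)) := by
  unfold Lf XA XB XD polyX zetaC
  ring

lemma abs_mono_le {P Pm S Q : ℝ} (h0 : 0 ≤ P) (h1 : P ≤ Pm) (hS : |S| ≤ Q) : |P * S| ≤ Pm * Q := by
  rw [abs_mul, abs_of_nonneg h0]
  exact mul_le_mul h1 hS (abs_nonneg _) (h0.trans h1)

/-- The bounds on the two coefficients. -/
theorem G0_L_bounds {A R t : ℝ} (hA0 : 0 ≤ A) (hA1 : A ≤ 1 / 200) (hR : R ^ 2 ≤ A ^ 3) (ht0 : 0 ≤ t)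
    (ht1 : t ≤ 1 / 2) : 507 / 2000 * A ^ 2 ≤ G0f A R t ∧ |Lf A R t| ≤ 113 / 250 * A := by
  have hA2 : 0 ≤ A ^ 2 := by positivity
  have hA3 : 0 ≤ A ^ 3 := by positivity
  have hA4 : 0 ≤ A ^ 4 := by positivity
  have hA3le : A ^ 3 ≤ 1 / 200 * A ^ 2 := by nlinarith
  have hA2le : A ^ 2 ≤ 1 / 200 * A := by nlinarith
  have hA3le' : A ^ 3 ≤ (1 / 200) ^ 2 * A := by nlinarith
  have hA4le : A ^ 4 ≤ (1 / 200) ^ 3 * A := by nlinarith
  have hA4le' : A ^ 4 ≤ 1 / 200 * A ^ 3 := by nlinarith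
  have hRabs : |R| ≤ 71 / 1000 * A := by
    have h1 : R ^ 2 ≤ (71 / 1000 * A) ^ 2 := by nlinarith
    exact abs_le_of_sq_le_sq h1 (by positivity)
  have hp : ∀ k : ℕ, 0 ≤ t ^ k ∧ t ^ k ≤ (1 / 2 : ℝ) ^ k := fun k =>
    ⟨by positivity, pow_le_pow_left₀ ht0 ht1 k⟩
  have hAR : |A * R| ≤ 71 / 1000 * A ^ 2 := by
    rw [abs_mul, abs_of_nonneg hA0]
    nlinarith [mul_le_mul_of_nonneg_left hRabs hA0]
  have hA2R : |A ^ 2 * R| ≤ 71 / 1000 * A ^ 3 := by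
    rw [abs_mul, abs_of_nonneg hA2]
    nlinarith [mul_le_mul_of_nonneg_left hRabs hA2]
  have hA3R : |A ^ 3 * R| ≤ 71 / 1000 * A ^ 4 := by
    rw [abs_mul, abs_of_nonneg hA3]
    nlinarith [mul_le_mul_of_nonneg_left hRabs hA3]
  have hR2 : 0 ≤ R ^ 2 := by positivity
  -- the monomials
  have m1 := abs_mono_le (hp 1).1 (hp 1).2 hRabs
  have m2 := abs_mono_le (hp 3).1 (hp 3).2 hAR
  have m3 := abs_mono_le (hp 5).1 (hp 5).2 hA2R
  have m4 := abs_mono_le (hp 7).1 (hp 7).2 hA3R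
  rw [abs_le] at hAR m1 m2 m3 m4
  have n1 : t ^ 2 * A ^ 2 ≤ (1 / 2) ^ 2 * A ^ 2 := mul_le_mul_of_nonneg_right (hp 2).2 hA2
  have n2 : t ^ 4 * A ^ 3 ≤ (1 / 2) ^ 4 * A ^ 3 := mul_le_mul_of_nonneg_right (hp 4).2 hA3
  have n3 : t ^ 4 * R ^ 2 ≤ (1 / 2) ^ 4 * R ^ 2 := mul_le_mul_of_nonneg_right (hp 4).2 hR2
  have n4 : t ^ 6 * A ^ 4 ≤ (1 / 2) ^ 6 * A ^ 4 := mul_le_mul_of_nonneg_right (hp 6).2 hA4
  have p1 : 0 ≤ t ^ 2 * A ^ 2 := mul_nonneg (hp 2).1 hA2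
  have p2 : 0 ≤ t ^ 4 * A ^ 3 := mul_nonneg (hp 4).1 hA3
  have p3 : 0 ≤ t ^ 4 * R ^ 2 := mul_nonneg (hp 4).1 hR2
  have p4 : 0 ≤ t ^ 6 * A ^ 4 := mul_nonneg (hp 6).1 hA4
  constructor
  · rw [G0f_eq]
    norm_num at m2 m3 m4 n1 n2 n3 n4
    linarith [hAR.1, m2.1, m3.1, m4.1]
  · rw [Lf_eq, abs_le]
    norm_num at m1 m2 m3 m4 n1 n2 n3 n4 hA3le' hA4le
    constructor <;> linarith [m1.1, m1.2, m2.1, m2.2, m3.1, m3.2, m4.1, m4.2]

/-- The polynomial inequality of the near zone. -/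
theorem near_poly {A R t : ℝ} (Z : ℝ) (hA0 : 0 ≤ A) (hA1 : A ≤ 1 / 200) (hR : R ^ 2 ≤ A ^ 3) (ht0 : 0 ≤ t)
    (ht1 : t ≤ 1 / 2) :
    83 / 24 * (1 - 3 / 4 * Z) * XA A R t + 9 * (1 - 15 / 16 * Z) * XB A R t + (1 - 9 / 16 * Z) * XD A R t
      - 339 / 32 * (1 - Z) * zetaC A R t + 1 / 4096 * Z * A - 21 / 100 * Z ^ 2 ≤ JN A R := by
  obtain ⟨h1, h2⟩ := G0_L_bounds hA0 hA1 hR ht0 ht1
  have h3 : Lf A R t ^ 2 ≤ (113 / 250 * A) ^ 2 := by
    rw [← sq_abs]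
    exact pow_le_pow_left₀ (abs_nonneg _) h2 2
  have hA2 : 0 ≤ A ^ 2 := by positivity
  have key : 0 ≤ G0f A R t + Z * Lf A R t + 21 / 100 * Z ^ 2 := by
    nlinarith [sq_nonneg (Lf A R t + 2 * (21 / 100) * Z)]
  have e : G0f A R t + Z * Lf A R t + 21 / 100 * Z ^ 2 = JN A R -
      (83 / 24 * (1 - 3 / 4 * Z) * XA A R t + 9 * (1 - 15 / 16 * Z) * XB A R t + (1 - 9 / 16 * Z) * XD A R t
      - 339 / 32 * (1 - Z) * zetaC A R t + 1 / 4096 * Z * A - 21 / 100 * Z ^ 2) := by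
    unfold G0f Lf
    ring
  linarith

/-! ### The channel on positive triples -/

theorem T_pos' {u : Fin 3 → ℝ} (h : ∀ i, 0 < u i) (hm : mass u = 1) {t : ℝ} (h0 : 0 ≤ t)
    (h1 : t ≤ 1 / 2) (i : Fin 3) : 0 < T (-t) u i := by
  rw [T_neg_apply hm]
  have hs := sum_of_mass hm
  have h2 := h 0
  have h3 := h 1
  have h4 := h 2
  have hi : u i < 3 := by
    fin_cases i
    · show u 0 < 3
      linarith
    · show u 1 < 3
      linarith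
    · show u 2 < 3
      linarith
  have h5 := h i
  rcases le_or_gt (u i) 1 with h6 | h6
  · nlinarith
  · nlinarith

theorem psi_nrm' {s : Fin 3 → ℝ} (hs : AdmS s) {x : Fin 3 → ℝ} (hx : ∀ i, 0 < x i) {t : ℝ}
    (h0 : 0 ≤ t) (h1 : t ≤ 1 / 2) :
    psi s (-t) x = mass x * (1 - chi s (T (-t) (nrm x))) := by
  have hm := mass_pos hx
  unfold psi
  rw [T_nrm hx (-t), chi_smul hs hm
    (fun i => (T_pos' (fun i => nrm_pos hx i) (mass_nrm hx) h0 h1 i).le)]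
  ring

/-- `psi sZ` from below. -/
theorem psiZ_ge {x : Fin 3 → ℝ} (hx : ∀ i, 0 < x i) {t : ℝ} (h0 : 0 < t) (h1 : t ≤ 1 / 2) :
    mass x * t ^ 2 * zetaC (AA (nrm x)) (RR (nrm x)) t ≤ psi sZ (-t) x := by
  have hu : ∀ i, 0 < nrm x i := fun i => nrm_pos hx i
  have hmu := mass_nrm hx
  have hy := T_pos' hu hmu h0.le h1
  have hmy : mass (T (-t) (nrm x)) = 1 := by rw [mass_T, hmu]
  have e0 := prod_T hmu t
  have h2 := prod_le_one (fun i => (hy i).le) hmy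
  have h3 : 0 < T (-t) (nrm x) 0 * T (-t) (nrm x) 1 * T (-t) (nrm x) 2 := by
    have := hy 0
    have := hy 1
    have := hy 2
    positivity
  have W0 : 0 ≤ WW (AA (nrm x)) (RR (nrm x)) t := by
    have : 0 ≤ t ^ 2 * WW (AA (nrm x)) (RR (nrm x)) t := by linarith
    exact nonneg_of_mul_nonneg_right this (by positivity)
  have W1 : t ^ 2 * WW (AA (nrm x)) (RR (nrm x)) t ≤ 1 := by linarith
  rw [sZ_eq, psi_nrm' admC hx h0.le h1, chiC_eq (fun i => (hy i).le), e0]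
  obtain ⟨A0, -, -, -⟩ := dom_of (fun i => (hu i).le) hmu
  have hm := mass_pos hx
  set A := AA (nrm x)
  set R := RR (nrm x)
  set W := WW A R t with hW
  have hc := cbrt_le (w := t ^ 2 * W) (by positivity) W1
  have t3 : 27 * A ^ 3 + 54 * A ^ 2 * t * R ≤ W ^ 3 := by
    have : 0 ≤ (W - 3 * A) ^ 2 * (W + 2 * (3 * A)) := by positivity
    have e : W ^ 3 - (27 * A ^ 3 + 54 * A ^ 2 * t * R) = (W - 3 * A) ^ 2 * (W + 2 * (3 * A)) := by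
      rw [hW]
      unfold WW
      ring
    linarith
  have t4 : 81 * A ^ 4 + 216 * A ^ 3 * t * R ≤ W ^ 4 := by
    have : 0 ≤ (W - 3 * A) ^ 2 * (W ^ 2 + 2 * W * (3 * A) + 3 * (3 * A) ^ 2) := by positivity
    have e : W ^ 4 - (81 * A ^ 4 + 216 * A ^ 3 * t * R)
        = (W - 3 * A) ^ 2 * (W ^ 2 + 2 * W * (3 * A) + 3 * (3 * A) ^ 2) := by
      rw [hW]
      unfold WW
      ring
    linarith
  have e : t ^ 2 * zetaC A R t = t ^ 2 * W / 3 + (t ^ 2 * W) ^ 2 / 9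
      + 5 / 81 * (t ^ 6 * (27 * A ^ 3 + 54 * A ^ 2 * t * R))
      + 10 / 243 * (t ^ 8 * (81 * A ^ 4 + 216 * A ^ 3 * t * R)) := by
    unfold zetaC
    rw [hW]
    unfold WW
    ring
  have k3 := mul_le_mul_of_nonneg_left t3 (show 0 ≤ t ^ 6 by positivity)
  have k4 := mul_le_mul_of_nonneg_left t4 (show 0 ≤ t ^ 8 by positivity)
  have main : t ^ 2 * zetaC A R t ≤ 1 - (1 - t ^ 2 * W) ^ ((1 : ℝ) / 3) := by
    rw [e]
    have e3 : (t ^ 2 * W) ^ 3 = t ^ 6 * W ^ 3 := by ring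
    have e4 : (t ^ 2 * W) ^ 4 = t ^ 8 * W ^ 4 := by ring
    rw [e3, e4] at hc
    linarith
  calc mass x * t ^ 2 * zetaC A R t = mass x * (t ^ 2 * zetaC A R t) := by ring
    _ ≤ _ := mul_le_mul_of_nonneg_left main hm.le

/-- The density in the normalised variables. -/
theorem phiS_nrm {x : Fin 3 → ℝ} (hx : ∀ i, 0 < x i) :
    phiS x = mass x * (83 / 24 * (1 - chi sA (nrm x)) + 9 * (1 - chi sB (nrm x)) + (1 - chi sD (nrm x))
      - 339 / 32 * (1 - chi sZ (nrm x))) := by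
  unfold phiS
  rw [chi_nrm adm_sA hx, chi_nrm adm_sB hx, chi_nrm adm_sD hx, chi_nrm adm_sZ hx]
  ring

/-- The left side of the family, in the order of the characters. -/
def famL (t Z : ℝ) (x : Fin 3 → ℝ) : ℝ :=
  83 / 24 * (1 - 3 / 4 * Z) / t ^ 2 * psi sA (-t) x + 9 * (1 - 15 / 16 * Z) / t ^ 2 * psi sB (-t) x
    + (1 - 9 / 16 * Z) / t ^ 2 * psi sD (-t) x - 339 / 32 * (1 - Z) / t ^ 2 * psi sZ (-t) x
    + 1 / 4096 * Z * yyv x - 21 / 100 * Z ^ 2 * mass x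

/-- **The near zone.** -/
theorem near_fam {x : Fin 3 → ℝ} (hx : ∀ i, 0 < x i) {t Z : ℝ} (h0 : 0 < t) (h1 : t ≤ 1 / 2)
    (hZ : Z ≤ 1) (hA : AA (nrm x) ≤ 1 / 200) : famL t Z x ≤ phiS x := by
  have hu : ∀ i, 0 < nrm x i := fun i => nrm_pos hx i
  have hmu := mass_nrm hx
  have hm := mass_pos hx
  obtain ⟨A0, -, R3, -⟩ := dom_of (fun i => (hu i).le) hmu
  have hy := T_pos' hu hmu h0.le h1
  have hmy : mass (T (-t) (nrm x)) = 1 := by rw [mass_T, hmu]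
  have ht2 : t ^ 2 ≤ 1 / 4 := by nlinarith
  have hAy : AA (T (-t) (nrm x)) ≤ 1 / 200 := by
    rw [AA_T hmu]
    nlinarith [sq_nonneg t]
  obtain ⟨b1, b2, b3, -⟩ := triple_bounds hy hmy hAy
  obtain ⟨-, -, -, b4⟩ := triple_bounds hu hmu hA
  rw [AA_T hmu, RR_T hmu] at b1 b2 b3
  have hpsi : 0 < t ^ 2 := by positivity
  have hC := psiZ_ge hx h0 h1
  have hyy := yyv_nrm hx
  rw [phiS_nrm hx]
  set A := AA (nrm x) with hAdef
  set R := RR (nrm x) with hRdef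
  set M := mass x with hMdef
  have eA : JA (t ^ 2 * A) (-(t ^ 3 * R)) = t ^ 2 * XA A R t := polyX_eq _ _ _ _ _ _ _ _ _
  have eB : JB (t ^ 2 * A) (-(t ^ 3 * R)) = t ^ 2 * XB A R t := polyX_eq _ _ _ _ _ _ _ _ _
  have eD : JD (t ^ 2 * A) (-(t ^ 3 * R)) = t ^ 2 * XD A R t := polyX_eq _ _ _ _ _ _ _ _ _
  rw [eA] at b1
  rw [eB] at b2
  rw [eD] at b3
  have pA : psi sA (-t) x / t ^ 2 ≤ M * XA A R t := by
    rw [psi_nrm' adm_sA hx h0.le h1, div_le_iff₀ hpsi]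
    linarith [mul_le_mul_of_nonneg_left b1 hm.le]
  have pB : psi sB (-t) x / t ^ 2 ≤ M * XB A R t := by
    rw [psi_nrm' adm_sB hx h0.le h1, div_le_iff₀ hpsi]
    linarith [mul_le_mul_of_nonneg_left b2 hm.le]
  have pD : psi sD (-t) x / t ^ 2 ≤ M * XD A R t := by
    rw [psi_nrm' adm_sD hx h0.le h1, div_le_iff₀ hpsi]
    linarith [mul_le_mul_of_nonneg_left b3 hm.le]
  have pC : M * zetaC A R t ≤ psi sZ (-t) x / t ^ 2 := by
    rw [le_div_iff₀ hpsi]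
    linarith
  have cA : 0 ≤ 83 / 24 * (1 - 3 / 4 * Z) := by linarith
  have cB : 0 ≤ 9 * (1 - 15 / 16 * Z) := by linarith
  have cD : 0 ≤ 1 - 9 / 16 * Z := by linarith
  have cC : 0 ≤ 339 / 32 * (1 - Z) := by linarith
  have qA := mul_le_mul_of_nonneg_left pA cA
  have qB := mul_le_mul_of_nonneg_left pB cB
  have qD := mul_le_mul_of_nonneg_left pD cD
  have qC := mul_le_mul_of_nonneg_left pC cC
  have key := near_poly Z A0 hA R3 h0.le h1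
  have key2 := mul_le_mul_of_nonneg_left (key.trans b4) hm.le
  unfold famL
  rw [hyy]
  have eL : 83 / 24 * (1 - 3 / 4 * Z) / t ^ 2 * psi sA (-t) x + 9 * (1 - 15 / 16 * Z) / t ^ 2 * psi sB (-t) x
    + (1 - 9 / 16 * Z) / t ^ 2 * psi sD (-t) x - 339 / 32 * (1 - Z) / t ^ 2 * psi sZ (-t) x
    = 83 / 24 * (1 - 3 / 4 * Z) * (psi sA (-t) x / t ^ 2) + 9 * (1 - 15 / 16 * Z) * (psi sB (-t) x / t ^ 2)
    + (1 - 9 / 16 * Z) * (psi sD (-t) x / t ^ 2) - 339 / 32 * (1 - Z) * (psi sZ (-t) x / t ^ 2) := by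
    ring
  rw [eL]
  linarith

end

end Vale.Agent.P154.Hel.Small
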