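import Vale.Agent.P154.Hel.SmallT
import Vale.Agent.P154.Hel.SmallN

/-!
The small-`z` family for `q = 3`: for `t` in `[3345/8192, 1/2]`, `Z` in `[0, 5/2048]` and positive triples,
`famL t Z x ≤ phiS x`. The triples with `AA (nrm x) ≤ 1/200` are the near zone; the others follow from
two planes at `Z = 0` and `Z = 5/2048` (rows F and D on a shared table, and the ray lemma).
-/

namespace Vale.Agent.P154.Hel.Small

open TM Q3 Direct

noncomputable section

/-- The exponents. -/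
def Xs : List E3 := [(6, 6, 0), (6, 3, 3), (9, 3, 0), (4, 4, 4)]

/-- The coefficients of the density. -/
def A0 : List ℤ := [87031808, 226492416, 25165824, -266600448]
/-- The characters of the plane at `Z = 0`. -/
def C00 : List ℤ := [348127232, 905969664, 100663296, -1066401792]
/-- The characters of the plane at `Z = 5/2048`. -/
def C01 : List ℤ := [347489792, 903896064, 100525056, -1063798272]
/-- The row D of the plane at `Z = 0`. -/
def D00 : List ℤ := [21757952, 56623104, 6291456, -66650112]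
/-- The row D of the plane at `Z = 5/2048`. -/
def D01 : List ℤ := [21718112, 56493504, 6282816, -66487392]

/-- The four forms. -/
def zsS : List (List ℤ) :=
  [formFS Xs A0 C00 66816 (-330) 6193152, formDS Xs D00 1 2752512,
    formFS Xs A0 C01 40719 (-199) 6193152, formDS Xs D01 1 2752512]

theorem walkS_ok : formWalk cfgD (tableST cfgD Xs) 10 0 0 0 zsS = true := by decide +kernel

theorem hXs : ∀ e ∈ Xs, e.1 + e.2.1 + e.2.2 = 12 := by
  decide

theorem hGs : ∀ e ∈ Xs, GoodE e := by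
  intro e he
  simp only [Xs, List.mem_cons, List.not_mem_nil, or_false] at he
  rcases he with rfl | rfl | rfl | rfl <;> simp [GoodE]

theorem formsS_ok {z : List ℤ} (hz : z ∈ zsS) {v r : ℝ} (hv0 : 0 ≤ v) (hv1 : v ≤ 1) (hr0 : 0 ≤ r)
    (hr1 : r ≤ 1) : 0 ≤ linV (tableSR Xs v r) z := by
  refine formsS_nonneg cfgD_valid hXs 10 0 zsS ?_ hz hv0 hv1 hr0 hr1
  intro i j hi hj
  have hi0 : i = 0 := by
    have : i < 1 := by simpa using hi
    omega
  have hj0 : j = 0 := by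
    have : j < 1 := by simpa using hj
    omega
  subst hi0 hj0
  exact walkS_ok

/-- The common denominator. -/
def DD : ℕ := 25165824

theorem DD_pos : 0 < DD := by
  unfold DD
  norm_num

/-- The characters as a family. -/
def Sx : Fin Xs.length → Fin 3 → ℝ := expo Xs

theorem Sx_adm (j : Fin Xs.length) : AdmS (Sx j) := adm_sE (hXs _ (List.get_mem Xs j))

/-- The plane from the two rows. -/
theorem rows_to_plane {C Dd : List ℤ} {C0 E Eps3 C3 : ℤ}
    (hCD : ∀ j : Fin Xs.length, ((C.getD j 0 : ℤ) : ℝ) = 16 * ((Dd.getD j 0 : ℤ) : ℝ))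
    (hE3 : (Eps3 : ℝ) = 2752512) (hC3 : (C3 : ℝ) = 6193152)
    (hF : ∀ x : Fin 3 → ℝ, (∀ i, 0 < x i) →
      ∑ j, coef C DD Xs.length j * psi (expo Xs j) (-(1 / 2)) x + ((C0 : ℝ) / DD) * yyv x
        + ((E : ℝ) / DD) * mass x + ((C3 : ℝ) / DD) * cub x
      ≤ phiF (coef A0 DD Xs.length) (expo Xs) x)
    (hD : ∀ x : Fin 3 → ℝ, (∀ i, 0 < x i) → 0 ≤ rowD Xs Dd 0 1 x + (Eps3 : ℝ) * cub x)
    {t : ℝ} (h0 : 3345 / 8192 ≤ t) (h1 : t ≤ 1 / 2) {x : Fin 3 → ℝ} (hx : ∀ i, 0 < x i) :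
    ∑ j, (coef C DD Xs.length j / 4) / t ^ 2 * psi (expo Xs j) (-t) x + ((C0 : ℝ) / DD) * yyv x
      + (((E : ℝ) - 4) / DD) * mass x ≤ phiF (coef A0 DD Xs.length) (expo Xs) x := by
  have hDr : (DD : ℝ) = 25165824 := by
    unfold DD
    norm_num
  refine plane_t_uniform3 Sx_adm (coef A0 DD Xs.length) (fun j => coef C DD Xs.length j / 4)
    (c0 := (C0 : ℝ) / DD) (e := ((E : ℝ) - 4) / DD) (η := 4 / DD) (ε₃ := 7 / 16) (H := 1) (H₃ := 9 / 16)
    (t0 := 3345 / 8192) (by norm_num) (by positivity) (by norm_num) (by norm_num) (by norm_num) ?_ ?_ h0 h1 hx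
  · intro y hy
    have h2 := hF y hy
    have e1 : ∑ j, (4 * (coef C DD Xs.length j / 4)) * psi (Sx j) (-(1 / 2)) y
        = ∑ j, coef C DD Xs.length j * psi (expo Xs j) (-(1 / 2)) y := by
      refine Finset.sum_congr rfl fun j _ => ?_
      congr 1
      ring
    rw [e1]
    have e2 : ((E : ℝ) - 4) / DD + 1 * (4 / DD) = (E : ℝ) / DD := by
      ring
    rw [e2]
    have e3 : (9 / 16 : ℝ) * (7 / 16) = (C3 : ℝ) / DD := by
      rw [hC3, hDr]
      norm_num
    rw [e3]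
    exact h2
  · intro y hy
    have h2 := hD y hy
    rw [hE3] at h2
    unfold rowD at h2
    have hpos : (0 : ℝ) ≤ 4 / DD := by positivity
    have h3 := mul_nonneg hpos h2
    have e1 : ∑ j, (coef C DD Xs.length j / 4) * Dj (Sx j) (T (-(1 / 2)) y)
        = (4 / DD) * ∑ j : Fin Xs.length, ((Dd.getD j 0 : ℤ) : ℝ) * Dj (sE (Xs.get j)) (T (-(1 / 2)) y) := by
      rw [Finset.mul_sum]
      refine Finset.sum_congr rfl fun j _ => ?_
      show (((C.getD j 0 : ℤ) : ℝ) / DD / 4) * _ = _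
      rw [hCD j]
      have : Sx j = sE (Xs.get j) := rfl
      rw [this]
      ring
    rw [e1]
    have e2 : (4 / (DD : ℝ)) * 2752512 = 7 / 16 := by
      rw [hDr]
      norm_num
    have e3 : (7 / 16 : ℝ) * cub y = (4 / DD) * (2752512 * cub y) := by
      rw [← e2]
      ring
    rw [e3]
    push_cast at h3
    have e4 : (4 / (DD : ℝ)) * ((∑ j : Fin Xs.length, ((Dd.getD j 0 : ℤ) : ℝ) * Dj (sE (Xs.get j)) (T (-(1 / 2)) y))
        + 0 * yyv (T (-(1 / 2)) y) + 1 * mass y + 2752512 * cub y)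
        = (4 / DD) * (∑ j : Fin Xs.length, ((Dd.getD j 0 : ℤ) : ℝ) * Dj (sE (Xs.get j)) (T (-(1 / 2)) y))
          + 4 / DD * mass y + 4 / DD * (2752512 * cub y) := by
      ring
    linarith

theorem form_F0 (x : Fin 3 → ℝ) (hx : ∀ i, 0 < x i) :
    ∑ j, coef C00 DD Xs.length j * psi (expo Xs j) (-(1 / 2)) x + (((66816 : ℤ) : ℝ) / DD) * yyv x
      + (((-330 : ℤ) : ℝ) / DD) * mass x + (((6193152 : ℤ) : ℝ) / DD) * cub x
    ≤ phiF (coef A0 DD Xs.length) (expo Xs) x :=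
  rowFS_of_form hXs rfl rfl DD DD_pos
    (fun _ _ v0 v1 r0 r1 => formsS_ok (by simp [zsS]) v0 v1 r0 r1) x hx

theorem form_D0 (x : Fin 3 → ℝ) (hx : ∀ i, 0 < x i) :
    0 ≤ rowD Xs D00 0 1 x + ((2752512 : ℤ) : ℝ) * cub x :=
  rowDS_of_form hXs hGs rfl (fun _ _ v0 v1 r0 r1 => formsS_ok (by simp [zsS]) v0 v1 r0 r1) x hx

theorem form_F1 (x : Fin 3 → ℝ) (hx : ∀ i, 0 < x i) :
    ∑ j, coef C01 DD Xs.length j * psi (expo Xs j) (-(1 / 2)) x + (((40719 : ℤ) : ℝ) / DD) * yyv x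
      + (((-199 : ℤ) : ℝ) / DD) * mass x + (((6193152 : ℤ) : ℝ) / DD) * cub x
    ≤ phiF (coef A0 DD Xs.length) (expo Xs) x :=
  rowFS_of_form hXs rfl rfl DD DD_pos
    (fun _ _ v0 v1 r0 r1 => formsS_ok (by simp [zsS]) v0 v1 r0 r1) x hx

theorem form_D1 (x : Fin 3 → ℝ) (hx : ∀ i, 0 < x i) :
    0 ≤ rowD Xs D01 0 1 x + ((2752512 : ℤ) : ℝ) * cub x :=
  rowDS_of_form hXs hGs rfl (fun _ _ v0 v1 r0 r1 => formsS_ok (by simp [zsS]) v0 v1 r0 r1) x hx

/-- The density of the family as a sum over the list. -/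
theorem phiF_eq (x : Fin 3 → ℝ) : phiF (coef A0 DD Xs.length) (expo Xs) x = phiS x := by
  have hDr : (DD : ℝ) = 25165824 := by
    unfold DD
    norm_num
  show ∑ j : Fin 4, coef A0 DD Xs.length j * (mass x - chi (expo Xs j) x) = phiS x
  rw [Fin.sum_univ_four]
  have e0 : coef A0 DD Xs.length (0 : Fin 4) = 83 / 24 := by
    show ((87031808 : ℤ) : ℝ) / DD = _
    rw [hDr]
    norm_num
  have e1 : coef A0 DD Xs.length (1 : Fin 4) = 9 := by
    show ((226492416 : ℤ) : ℝ) / DD = _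
    rw [hDr]
    norm_num
  have e2 : coef A0 DD Xs.length (2 : Fin 4) = 1 := by
    show ((25165824 : ℤ) : ℝ) / DD = _
    rw [hDr]
    norm_num
  have e3 : coef A0 DD Xs.length (3 : Fin 4) = -(339 / 32) := by
    show ((-266600448 : ℤ) : ℝ) / DD = _
    rw [hDr]
    norm_num
  rw [e0, e1, e2, e3]
  have s0 : expo Xs (0 : Fin 4) = sA := rfl
  have s1 : expo Xs (1 : Fin 4) = sB := rfl
  have s2 : expo Xs (2 : Fin 4) = sD := rfl
  have s3 : expo Xs (3 : Fin 4) = sZ := rfl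
  rw [s0, s1, s2, s3]
  unfold phiS
  ring

/-- The plane at `Z = 0`, with the shift. -/
theorem far_plane0 {t : ℝ} (h0 : 3345 / 8192 ≤ t) (h1 : t ≤ 1 / 2) {x : Fin 3 → ℝ} (hx : ∀ i, 0 < x i) :
    83 / 24 / t ^ 2 * psi sA (-t) x + 9 / t ^ 2 * psi sB (-t) x + 1 / t ^ 2 * psi sD (-t) x
      - 339 / 32 / t ^ 2 * psi sZ (-t) x + (66816 / 25165824) * yyv x - (334 / 25165824) * mass x ≤ phiS x := by
  have hDr : (DD : ℝ) = 25165824 := by
    unfold DD
    norm_num
  have h := rows_to_plane (C := C00) (Dd := D00) (C0 := 66816) (E := -330) (Eps3 := 2752512) (C3 := 6193152) ?_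
    (by norm_num) (by norm_num) form_F0 form_D0 h0 h1 hx
  · rw [phiF_eq] at h
    have hs : ∑ j : Fin Xs.length, (coef C00 DD Xs.length j / 4) / t ^ 2 * psi (expo Xs j) (-t) x
        = ∑ j : Fin 4, (coef C00 DD Xs.length j / 4) / t ^ 2 * psi (expo Xs j) (-t) x := rfl
    rw [hs, Fin.sum_univ_four] at h
    have e0 : coef C00 DD Xs.length (0 : Fin 4) / 4 = 83 / 24 := by
      show ((348127232 : ℤ) : ℝ) / DD / 4 = _
      rw [hDr]
      norm_num
    have e1 : coef C00 DD Xs.length (1 : Fin 4) / 4 = 9 := by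
      show ((905969664 : ℤ) : ℝ) / DD / 4 = _
      rw [hDr]
      norm_num
    have e2 : coef C00 DD Xs.length (2 : Fin 4) / 4 = 1 := by
      show ((100663296 : ℤ) : ℝ) / DD / 4 = _
      rw [hDr]
      norm_num
    have e3 : coef C00 DD Xs.length (3 : Fin 4) / 4 = -(339 / 32) := by
      show ((-1066401792 : ℤ) : ℝ) / DD / 4 = _
      rw [hDr]
      norm_num
    rw [e0, e1, e2, e3, hDr] at h
    have s0 : expo Xs (0 : Fin 4) = sA := rfl
    have s1 : expo Xs (1 : Fin 4) = sB := rfl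
    have s2 : expo Xs (2 : Fin 4) = sD := rfl
    have s3 : expo Xs (3 : Fin 4) = sZ := rfl
    rw [s0, s1, s2, s3] at h
    norm_num at h ⊢
    rw [neg_div, neg_mul] at h
    linarith
  · intro j
    have hj : ∀ j : Fin 4, ((C00.getD j 0 : ℤ) : ℝ) = 16 * ((D00.getD j 0 : ℤ) : ℝ) := by
      intro j
      fin_cases j <;> simp [C00, D00] <;> norm_num
    exact hj j

/-- The plane at `Z = 5/2048`, with the shift. -/
theorem far_plane1 {t : ℝ} (h0 : 3345 / 8192 ≤ t) (h1 : t ≤ 1 / 2) {x : Fin 3 → ℝ} (hx : ∀ i, 0 < x i) :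
    (347489792 / (4 * 25165824)) / t ^ 2 * psi sA (-t) x + (903896064 / (4 * 25165824)) / t ^ 2 * psi sB (-t) x
      + (100525056 / (4 * 25165824)) / t ^ 2 * psi sD (-t) x
      - (1063798272 / (4 * 25165824)) / t ^ 2 * psi sZ (-t) x
      + (40719 / 25165824) * yyv x - (203 / 25165824) * mass x ≤ phiS x := by
  have hDr : (DD : ℝ) = 25165824 := by
    unfold DD
    norm_num
  have h := rows_to_plane (C := C01) (Dd := D01) (C0 := 40719) (E := -199) (Eps3 := 2752512) (C3 := 6193152) ?_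
    (by norm_num) (by norm_num) form_F1 form_D1 h0 h1 hx
  · rw [phiF_eq] at h
    have hs : ∑ j : Fin Xs.length, (coef C01 DD Xs.length j / 4) / t ^ 2 * psi (expo Xs j) (-t) x
        = ∑ j : Fin 4, (coef C01 DD Xs.length j / 4) / t ^ 2 * psi (expo Xs j) (-t) x := rfl
    rw [hs, Fin.sum_univ_four] at h
    have e0 : coef C01 DD Xs.length (0 : Fin 4) / 4 = 347489792 / (4 * 25165824) := by
      show ((347489792 : ℤ) : ℝ) / DD / 4 = _
      rw [hDr]
      norm_num
    have e1 : coef C01 DD Xs.length (1 : Fin 4) / 4 = 903896064 / (4 * 25165824) := by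
      show ((903896064 : ℤ) : ℝ) / DD / 4 = _
      rw [hDr]
      norm_num
    have e2 : coef C01 DD Xs.length (2 : Fin 4) / 4 = 100525056 / (4 * 25165824) := by
      show ((100525056 : ℤ) : ℝ) / DD / 4 = _
      rw [hDr]
      norm_num
    have e3 : coef C01 DD Xs.length (3 : Fin 4) / 4 = -(1063798272 / (4 * 25165824)) := by
      show ((-1063798272 : ℤ) : ℝ) / DD / 4 = _
      rw [hDr]
      norm_num
    rw [e0, e1, e2, e3, hDr] at h
    have s0 : expo Xs (0 : Fin 4) = sA := rfl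
    have s1 : expo Xs (1 : Fin 4) = sB := rfl
    have s2 : expo Xs (2 : Fin 4) = sD := rfl
    have s3 : expo Xs (3 : Fin 4) = sZ := rfl
    rw [s0, s1, s2, s3] at h
    norm_num at h ⊢
    rw [neg_div, neg_mul] at h
    linarith
  · intro j
    have hj : ∀ j : Fin 4, ((C01.getD j 0 : ℤ) : ℝ) = 16 * ((D01.getD j 0 : ℤ) : ℝ) := by
      intro j
      fin_cases j <;> simp [C01, D01] <;> norm_num
    exact hj j

/-- The far zone: the family from the two planes. -/
theorem far_fam {t Z : ℝ} (h0 : 3345 / 8192 ≤ t) (h1 : t ≤ 1 / 2) (hZ0 : 0 ≤ Z) (hZ1 : Z ≤ 5 / 2048)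
    {x : Fin 3 → ℝ} (hx : ∀ i, 0 < x i) (hA : 1 / 200 ≤ AA (nrm x)) : famL t Z x ≤ phiS x := by
  have p0 := far_plane0 h0 h1 hx
  have p1 := far_plane1 h0 h1 hx
  have hm := mass_pos hx
  have hyy := yyv_nrm hx
  have hbig : mass x * (1 / 200) ≤ yyv x := by
    rw [hyy]
    exact mul_le_mul_of_nonneg_left hA hm.le
  have q0 : 0 ≤ (66816 / 25165824 : ℝ) * yyv x - (334 / 25165824) * mass x := by
    nlinarith
  have q1 : 0 ≤ ((40719 - 15) / 25165824 : ℝ) * yyv x - (203 / 25165824) * mass x := by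
    nlinarith
  -- the barycentric coordinate
  set l : ℝ := Z * (2048 / 5) with hl
  have hl0 : 0 ≤ l := by positivity
  have hl1 : l ≤ 1 := by
    rw [hl]
    linarith
  have r0 := mul_le_mul_of_nonneg_left p0 (sub_nonneg.mpr hl1)
  have r1 := mul_le_mul_of_nonneg_left p1 hl0
  have q2 := mul_nonneg (sub_nonneg.mpr hl1) q0
  have q3 := mul_nonneg hl0 q1
  have hZ2 : 0 ≤ 21 / 100 * Z ^ 2 * mass x := by positivity
  unfold famL
  have hZl : Z = l * (5 / 2048) := by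
    rw [hl]
    ring
  rw [hZl] at hZ2 ⊢
  set a1 := psi sA (-t) x / t ^ 2 with ha1
  set a2 := psi sB (-t) x / t ^ 2 with ha2
  set a3 := psi sD (-t) x / t ^ 2 with ha3
  set a4 := psi sZ (-t) x / t ^ 2 with ha4
  have eL : ∀ c : ℝ, ∀ s : Fin 3 → ℝ, c / t ^ 2 * psi s (-t) x = c * (psi s (-t) x / t ^ 2) := by
    intro c s
    ring
  simp only [eL] at r0 r1 ⊢
  rw [← ha1, ← ha2, ← ha3, ← ha4] at r0 r1 ⊢
  nlinarith

/-- **The small-`z` family.** -/
theorem small_family {t Z : ℝ} (h0 : 3345 / 8192 ≤ t) (h1 : t ≤ 1 / 2) (hZ0 : 0 ≤ Z) (hZ1 : Z ≤ 5 / 2048)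
    {x : Fin 3 → ℝ} (hx : ∀ i, 0 < x i) : famL t Z x ≤ phiS x := by
  rcases le_total (AA (nrm x)) (1 / 200) with hA | hA
  · exact near_fam hx (by linarith) h1 (by linarith) hA
  · exact far_fam h0 h1 hZ0 hZ1 hx hA

end

end Vale.Agent.P154.Hel.Small
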