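import Vale.Agent.P154.Hel.RayLemma

/-!
A variant of the ray lemma: the derivative bound is allowed a correction `ε₃ yyv^3 / mass^2`, which is
of third order at the centre; the plane inequality at `t = 1/2` pays a fraction of it.
-/

namespace Vale.Agent.P154

namespace Hel

noncomputable section

open Finset

/-- The correction term. -/
def cub (x : Fin 3 → ℝ) : ℝ := yyv x ^ 3 / mass x ^ 2

theorem yyv_mixX {x : Fin 3 → ℝ} (hx : ∀ i, 0 < x i) (τ : ℝ) : yyv (mixX x τ) = (2 * τ) ^ 2 * yyv x := by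
  have hm : x 0 + x 1 + x 2 ≠ 0 := by
    have h2 := hx 0
    have h3 := hx 1
    have h4 := hx 2
    positivity
  unfold yyv yy mixX mass
  have e : 2 * τ * x 0 + (1 - 2 * τ) * ((x 0 + x 1 + x 2) / 3) + (2 * τ * x 1 + (1 - 2 * τ) * ((x 0 + x 1 + x 2) / 3))
      + (2 * τ * x 2 + (1 - 2 * τ) * ((x 0 + x 1 + x 2) / 3)) = x 0 + x 1 + x 2 := by ring
  rw [e]
  field_simp
  ring

theorem cub_mixX {x : Fin 3 → ℝ} (hx : ∀ i, 0 < x i) (τ : ℝ) : cub (mixX x τ) = 64 * τ ^ 6 * cub x := by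
  unfold cub
  rw [yyv_mixX hx, mass_mixX]
  ring

/-- The monotone function along the ray. -/
def rayK {ι : Type*} [Fintype ι] (S : ι → Fin 3 → ℝ) (P : ι → ℝ) (x : Fin 3 → ℝ) (η ε₃ : ℝ) (τ : ℝ) : ℝ :=
  rayB S P x τ - η * mass x / (2 * τ ^ 2) + 16 * ε₃ * cub x * τ ^ 4

theorem hasDerivAt_rayK {ι : Type*} [Fintype ι] {S : ι → Fin 3 → ℝ} (hS : ∀ j, AdmS (S j)) (P : ι → ℝ)
    {x : Fin 3 → ℝ} (hx : ∀ i, 0 < x i) (η ε₃ : ℝ) {τ : ℝ} (h0 : 0 < τ) (h1 : τ ≤ 1 / 2) :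
    HasDerivAt (rayK S P x η ε₃)
      ((∑ j, P j * Dj (S j) (rayW x τ) + η * mass x + ε₃ * cub (mixX x τ)) / τ ^ 3) τ := by
  have h2 := hasDerivAt_rayB hS P hx h0 h1
  have h4 : HasDerivAt (fun σ : ℝ => 2 * σ ^ 2) (2 * (2 * τ)) τ := by
    have := (hasDerivAt_pow 2 τ).const_mul (2 : ℝ)
    simpa using this
  have h5 := (hasDerivAt_const τ (η * mass x)).div h4 (by positivity)
  have h6 : HasDerivAt (fun σ : ℝ => 16 * ε₃ * cub x * σ ^ 4) (16 * ε₃ * cub x * (4 * τ ^ 3)) τ := by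
    have := (hasDerivAt_pow 4 τ).const_mul (16 * ε₃ * cub x)
    simpa using this
  have h7 := (h2.sub h5).add h6
  refine HasDerivAt.congr_deriv (f := rayK S P x η ε₃) h7 ?_
  rw [cub_mixX hx]
  field_simp
  ring

/-- The variant of the ray lemma. -/
theorem plane_t_uniform3 {ι : Type*} [Fintype ι] {S : ι → Fin 3 → ℝ} (hS : ∀ j, AdmS (S j))
    (a P : ι → ℝ) {c0 e η ε₃ H H₃ t0 : ℝ} (ht0 : 0 < t0) (hη : 0 ≤ η) (hε₃ : 0 ≤ ε₃)
    (hH : 1 / (2 * t0 ^ 2) - 2 ≤ H) (hH₃ : 1 - 16 * t0 ^ 4 ≤ H₃)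
    (hF : ∀ x : Fin 3 → ℝ, (∀ i, 0 < x i) →
      ∑ j, (4 * P j) * psi (S j) (-(1 / 2)) x + c0 * yyv x + (e + H * η) * mass x + H₃ * ε₃ * cub x
        ≤ phiF a S x)
    (hD : ∀ x : Fin 3 → ℝ, (∀ i, 0 < x i) →
      0 ≤ ∑ j, P j * Dj (S j) (T (-(1 / 2)) x) + η * mass x + ε₃ * cub x)
    {t : ℝ} (h0 : t0 ≤ t) (h1 : t ≤ 1 / 2) {x : Fin 3 → ℝ} (hx : ∀ i, 0 < x i) :
    ∑ j, P j / t ^ 2 * psi (S j) (-t) x + c0 * yyv x + e * mass x ≤ phiF a S x := by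
  have ht : 0 < t := lt_of_lt_of_le ht0 h0
  have hm : 0 < mass x := by
    unfold mass
    have h2 := hx 0
    have h3 := hx 1
    have h4 := hx 2
    positivity
  have hY := yyv_nonneg' hx
  have hC : 0 ≤ cub x := by
    unfold cub
    positivity
  have hmono : MonotoneOn (rayK S P x η ε₃) (Set.Icc t (1 / 2)) := by
    have hder : ∀ τ ∈ Set.Icc t (1 / 2), HasDerivAt (rayK S P x η ε₃)
        ((∑ j, P j * Dj (S j) (rayW x τ) + η * mass x + ε₃ * cub (mixX x τ)) / τ ^ 3) τ :=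
      fun τ hτ => hasDerivAt_rayK hS P hx η ε₃ (lt_of_lt_of_le ht hτ.1) hτ.2
    refine monotoneOn_of_deriv_nonneg (convex_Icc _ _)
      (fun τ hτ => (hder τ hτ).continuousAt.continuousWithinAt)
      (fun τ hτ => (hder τ (interior_subset hτ)).differentiableAt.differentiableWithinAt) ?_
    intro τ hτ
    have hτ' := interior_subset hτ
    rw [(hder τ hτ').deriv]
    have hτ0 : 0 < τ := lt_of_lt_of_le ht hτ'.1
    refine div_nonneg ?_ (by positivity)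
    have h2 := hD (mixX x τ) (mixX_pos hx hτ0 hτ'.2)
    rw [T_half_mixX, mass_mixX] at h2
    exact h2
  have h2 := hmono (Set.left_mem_Icc.mpr h1) (Set.right_mem_Icc.mpr h1) h1
  unfold rayK at h2
  have h3 := hF x hx
  have e1 : rayB S P x (1 / 2) = ∑ j, (4 * P j) * psi (S j) (-(1 / 2)) x := by
    rw [rayB_eq]
    refine Finset.sum_congr rfl fun j _ => ?_
    congr 1
    field_simp
    norm_num
  rw [e1] at h2
  rw [← rayB_eq]
  have hinv : 1 / (2 * t ^ 2) - 2 ≤ H := by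
    have h5 : 1 / (2 * t ^ 2) ≤ 1 / (2 * t0 ^ 2) := by
      apply one_div_le_one_div_of_le (by positivity)
      have : t0 ^ 2 ≤ t ^ 2 := pow_le_pow_left₀ ht0.le h0 2
      linarith
    linarith
  have hfour : 1 - 16 * t ^ 4 ≤ H₃ := by
    have : t0 ^ 4 ≤ t ^ 4 := pow_le_pow_left₀ ht0.le h0 4
    linarith
  have k2 : η * mass x * (1 / (2 * t ^ 2) - 2) ≤ η * mass x * H :=
    mul_le_mul_of_nonneg_left hinv (mul_nonneg hη hm.le)
  have k3 : ε₃ * cub x * (1 - 16 * t ^ 4) ≤ ε₃ * cub x * H₃ :=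
    mul_le_mul_of_nonneg_left hfour (mul_nonneg hε₃ hC)
  have e3 : η * mass x / (2 * t ^ 2) = η * mass x * (1 / (2 * t ^ 2)) := by ring
  have e4 : η * mass x / (2 * (1 / 2 : ℝ) ^ 2) = η * mass x * 2 := by
    norm_num
    ring
  rw [e3, e4] at h2
  nlinarith

end

end Hel

end Vale.Agent.P154
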