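import Vale.Agent.P154.Hel.PlaneWalk
import Vale.Agent.P154.Hel.SmallRay

/-!
The rows of a plane with the third order correction, for characters with exponents `0` or at least `3`:
the row D is scaled by `y0 ^ 9`, which has a positive limit at `v = 0`.
-/

namespace Vale.Agent.P154.Hel.Direct

open TM Q3

/-- Exponents `0` or at least `3`. -/
def GoodE (e : E3) : Prop := (e.1 = 0 ∨ 3 ≤ e.1) ∧ (e.2.1 = 0 ∨ 3 ≤ e.2.1) ∧ (e.2.2 = 0 ∨ 3 ≤ e.2.2)

/-- The derivative of `six` in `y0`, times `y0 ^ (-9 + 12)`. -/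
noncomputable def dsixS (e : E3) (y0 y1 y2 : ℝ) : ℝ :=
  (e.1 : ℝ) * y0 ^ (e.1 - 3) * (y1 ^ e.2.1 * y2 ^ e.2.2 + y2 ^ e.2.1 * y1 ^ e.2.2)
    + (e.2.1 : ℝ) * y0 ^ (e.2.1 - 3) * (y1 ^ e.1 * y2 ^ e.2.2 + y2 ^ e.1 * y1 ^ e.2.2)
    + (e.2.2 : ℝ) * y0 ^ (e.2.2 - 3) * (y1 ^ e.1 * y2 ^ e.2.1 + y2 ^ e.1 * y1 ^ e.2.1)

/-- The element of the table of the row D for one exponent. -/
noncomputable def ddS (e : E3) (M i1 i2 y0 y1 y2 : ℝ) : ℝ :=
  36 * (y0 ^ 9 * six e y0 y1 y2)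
    + M * (dsixS e y0 y1 y2 + y0 ^ 9 * (i1 * r1six e y0 y1 y2 + i2 * r2six e y0 y1 y2))
    - 144 * (M * y0 ^ 9)

lemma pow_factorS {y : ℝ} (hy : 0 < y) {p : ℕ} (hp : p = 0 ∨ 3 ≤ p) :
    (p : ℝ) * y ^ p * (y ^ 12)⁻¹ * y ^ 9 = (p : ℝ) * y ^ (p - 3) := by
  rcases hp with rfl | hp
  · simp
  · obtain ⟨n, rfl⟩ : ∃ n, p = n + 3 := ⟨p - 3, by omega⟩
    have e : y ^ (n + 3) * (y ^ 12)⁻¹ * y ^ 9 = y ^ n := by
      have h : y ^ 12 ≠ 0 := (pow_pos hy 12).ne'
      field_simp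
      ring
    simp only [Nat.add_sub_cancel]
    calc ((n + 3 : ℕ) : ℝ) * y ^ (n + 3) * (y ^ 12)⁻¹ * y ^ 9
        = ((n + 3 : ℕ) : ℝ) * (y ^ (n + 3) * (y ^ 12)⁻¹ * y ^ 9) := by ring
      _ = _ := by rw [e]

/-- The value of `Dj` in the chart. -/
lemma Dj_gridS {e : E3} (he : GoodE e) {y0 y1 y2 M : ℝ} (h0 : 0 < y0) (h1 : 0 < y1) (h2 : 0 < y2)
    (hm : mass ![y0 ^ 12, y1 ^ 12, y2 ^ 12] = M / 3) :
    216 * y0 ^ 9 * Dj (sE e) ![y0 ^ 12, y1 ^ 12, y2 ^ 12]
      = ddS e M (y1 ^ 12)⁻¹ (y2 ^ 12)⁻¹ y0 y1 y2 := by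
  unfold Dj
  rw [chi_grid e h0.le h1.le h2.le, hm, Sj_six]
  simp only [sE, Matrix.cons_val_zero, Matrix.cons_val_one, Matrix.cons_val]
  simp only [rpow_grid h0.le, rpow_grid h1.le, rpow_grid h2.le]
  unfold ddS six dsixS r1six r2six
  set a := e.1 with ha
  set b := e.2.1 with hb
  set c := e.2.2 with hc
  have fa := pow_factorS h0 he.1
  have fb := pow_factorS h0 he.2.1
  have fc := pow_factorS h0 he.2.2
  rw [← ha] at fa
  rw [← hb] at fb
  rw [← hc] at fc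
  rw [← fa, ← fb, ← fc]
  simp only [div_eq_mul_inv]
  set W0 := (y0 ^ 12)⁻¹
  set W1 := (y1 ^ 12)⁻¹
  set W2 := (y2 ^ 12)⁻¹
  ring

/-! ### The reduction to the chart -/

/-- A symmetric homogeneous function which is nonnegative on the chart is nonnegative. -/
theorem chart_reduce {G : (Fin 3 → ℝ) → ℝ} (hperm : ∀ (x : Fin 3 → ℝ) (g : Equiv.Perm (Fin 3)),
      G (fun i => x (g i)) = G x)
    (hsmul : ∀ (k : ℝ) (u : Fin 3 → ℝ), 0 < k → (∀ i, 0 < u i) → G (fun i => k * u i) = k * G u)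
    (H : ∀ v r : ℝ, 0 < v → v ≤ 1 → 0 < r → r ≤ 1 → 0 ≤ G ![1, v ^ 12, (v * r) ^ 12])
    (x : Fin 3 → ℝ) (hx : ∀ i, 0 < x i) : 0 ≤ G x := by
  obtain ⟨g, g1, g2⟩ := exists_sorted x
  rw [← hperm x g]
  set x' : Fin 3 → ℝ := fun i => x (g i) with hx'
  have p0 : 0 < x' 0 := hx _
  have p1 : 0 < x' 1 := hx _
  have p2 : 0 < x' 2 := hx _
  set v := (x' 1 / x' 0) ^ ((1 : ℝ) / 12) with hv
  set r := (x' 2 / x' 1) ^ ((1 : ℝ) / 12) with hr
  have v0 : 0 < v := Real.rpow_pos_of_pos (div_pos p1 p0) _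
  have r0 : 0 < r := Real.rpow_pos_of_pos (div_pos p2 p1) _
  have v1 : v ≤ 1 := by
    apply Real.rpow_le_one (div_nonneg p1.le p0.le) _ (by norm_num)
    rw [div_le_one p0]
    exact g1
  have r1 : r ≤ 1 := by
    apply Real.rpow_le_one (div_nonneg p2.le p1.le) _ (by norm_num)
    rw [div_le_one p1]
    exact g2
  have ev : v ^ 12 = x' 1 / x' 0 := pow12_eq (div_nonneg p1.le p0.le)
  have er : r ^ 12 = x' 2 / x' 1 := pow12_eq (div_nonneg p2.le p1.le)
  have ew : (v * r) ^ 12 = x' 2 / x' 0 := by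
    rw [mul_pow, ev, er]
    field_simp
  have ex : x' = fun i => x' 0 * (![1, v ^ 12, (v * r) ^ 12] : Fin 3 → ℝ) i := by
    funext i
    rw [ev, ew]
    fin_cases i
    · simp
    · simp
      field_simp
    · simp
      field_simp
  rw [ex, hsmul _ _ p0 (by
    intro i
    fin_cases i <;> simp <;> positivity)]
  exact mul_nonneg p0.le (H v r v0 v1 r0 r1)

lemma cub_perm (x : Fin 3 → ℝ) (g : Equiv.Perm (Fin 3)) : cub (fun i => x (g i)) = cub x := by
  unfold cub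
  rw [yyv_perm, mass_perm]

lemma cub_smul {k : ℝ} (hk : 0 < k) {u : Fin 3 → ℝ} (hu : ∀ i, 0 < u i) :
    cub (fun i => k * u i) = k * cub u := by
  have hm : 0 < mass u := mass_pos hu
  unfold cub
  rw [yyv_smul hk, mass_smul]
  field_simp

/-- The normaliser of the second moment in the chart. -/
noncomputable def AhH (v r : ℝ) : ℝ := 1 - 3 * (Q3H v r * (M3H v r)⁻¹ * (M3H v r)⁻¹)

lemma M3H_pos (v r : ℝ) : 0 < M3H v r := by
  unfold M3H
  positivity

lemma mass_chart (v r : ℝ) : mass (![1, v ^ 12, (v * r) ^ 12] : Fin 3 → ℝ) = M3H v r / 3 := by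
  simp [mass, M3H]

lemma yyv_chart (v r : ℝ) : yyv (![1, v ^ 12, (v * r) ^ 12] : Fin 3 → ℝ)
    = M3H v r / 3 - Q3H v r * (M3H v r)⁻¹ := by
  simp only [yyv, yy, Matrix.cons_val_zero, Matrix.cons_val_one, Matrix.cons_val]
  simp only [M3H, Q3H, div_eq_mul_inv, one_mul, mul_one]

lemma cub_chart (v r : ℝ) : cub (![1, v ^ 12, (v * r) ^ 12] : Fin 3 → ℝ) = M3H v r / 3 * AhH v r ^ 3 := by
  unfold cub
  rw [mass_chart, yyv_chart]
  unfold AhH
  have h := (M3H_pos v r).ne'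
  field_simp

/-! ### The table -/

/-- The real table of a cell. -/
noncomputable def tableSR (X : List E3) (v r : ℝ) : List ℝ :=
  M3H v r :: ((X.map fun e => six e 1 v (v * r)) ++ ((X.map fun e => six e (y0H v r) (y1H v r) (y2H v))
    ++ ((2 * M3H v r - 6 * (Q3H v r * (M3H v r)⁻¹)) ::
      ((X.map fun e => ddS e (M3H v r) (((1 + (v * r) ^ 12) / 2)⁻¹) (((1 + v ^ 12) / 2)⁻¹) (y0H v r) (y1H v r) (y2H v))
        ++ [72 * (y0H v r ^ 9 * M3H v r), 2 * (M3H v r * AhH v r ^ 3), 72 * (y0H v r ^ 9 * M3H v r * AhH v r ^ 3)]))))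

/-- The program of `dsixS`. -/
def dsixST (c : Cfg) (p0 p1 p2 : List TMod) (e : E3) : TMod :=
  addT c (addT c
    (smulT c e.1 (mulT c (pick p0 (e.1 - 3)) (addT c (mulT c (pick p1 e.2.1) (pick p2 e.2.2)) (mulT c (pick p2 e.2.1) (pick p1 e.2.2)))))
    (smulT c e.2.1 (mulT c (pick p0 (e.2.1 - 3)) (addT c (mulT c (pick p1 e.1) (pick p2 e.2.2)) (mulT c (pick p2 e.1) (pick p1 e.2.2))))))
    (smulT c e.2.2 (mulT c (pick p0 (e.2.2 - 3)) (addT c (mulT c (pick p1 e.1) (pick p2 e.2.1)) (mulT c (pick p2 e.1) (pick p1 e.2.1)))))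

/-- The program of `ddS`. -/
def ddST (c : Cfg) (M i1 i2 y9 My : TMod) (p0 p1 p2 : List TMod) (e : E3) : TMod :=
  subT c (addT c (smulT c 36 (mulT c y9 (sixT c p0 p1 p2 e)))
      (mulT c M (addT c (dsixST c p0 p1 p2 e)
        (mulT c y9 (addT c (mulT c i1 (r1sixT c p0 p1 p2 e)) (mulT c i2 (r2sixT c p0 p1 p2 e)))))))
    (smulT c 144 My)

/-- The table of a cell. -/
def tableST (c : Cfg) (X : List E3) (v r : TMod) : List TMod :=
  (fun pv => (fun w => (fun pw => (fun x1 x2 => (fun M => (fun one half => (fun w1 w2 =>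
    (fun p0 p1 p2 => (fun y9 Mi => (fun Qi => (fun My Ah3 =>
      M :: ((X.map fun e => sixT c (onesT c) pv pw e) ++ ((X.map fun e => sixT c p0 p1 p2 e)
        ++ ((subT c (smulT c 2 M) (smulT c 6 Qi)) ::
          ((X.map fun e => ddST c M (invT c w1) (invT c w2) y9 My p0 p1 p2 e)
            ++ [smulT c 72 My, smulT c 2 (mulT c M Ah3), smulT c 72 (mulT c My Ah3)])))))
      (mulT c y9 M) ((fun Ah => mulT c (mulT c Ah Ah) Ah) (subT c one (smulT c 3 (mulT c Qi Mi)))))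
      (mulT c (addT c (addT c x1 (mulT c x1 x2)) x2) Mi))
      (pick p0 9) (invT c M))
      (powsT c (mulT c v (rootT c (mulT c half (addT c one (pick (powsT c r) 12))))))
      (powsT c (rootT c w1))
      (powsT c (rootT c w2)))
    (mulT c half (addT c one x2)) (mulT c half (addT c one x1)))
    (ofFix c c.TF) (ofRat c 1 2))
    (addT c (addT c (ofFix c c.TF) x1) x2))
    (pick pv 12) (pick pw 12))
    (powsT c w)) (mulT c v r)) (powsT c v)

lemma repAt_dsixS {c : Cfg} {ξ η : ℝ} (C : Ctx c ξ η) {p0 p1 p2 : List TMod} {y0 y1 y2 : ℝ}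
    (h0 : Tab c ξ η p0 y0) (h1 : Tab c ξ η p1 y1) (h2 : Tab c ξ η p2 y2) {e : E3}
    (he : e.1 + e.2.1 + e.2.2 = 12) : RepAt c ξ η (dsixST c p0 p1 p2 e) (dsixS e y0 y1 y2) := by
  obtain ⟨e0, e1, e2⟩ := le12 he
  refine (repAt_add C (repAt_add C
    (repAt_smul C _ (repAt_mul C (h0 _ (by omega)) (repAt_add C (repAt_mul C (h1 _ e1) (h2 _ e2)) (repAt_mul C (h2 _ e1) (h1 _ e2)))))
    (repAt_smul C _ (repAt_mul C (h0 _ (by omega)) (repAt_add C (repAt_mul C (h1 _ e0) (h2 _ e2)) (repAt_mul C (h2 _ e0) (h1 _ e2))))))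
    (repAt_smul C _ (repAt_mul C (h0 _ (by omega)) (repAt_add C (repAt_mul C (h1 _ e0) (h2 _ e1)) (repAt_mul C (h2 _ e0) (h1 _ e1)))))).congr ?_
  unfold dsixS
  ring

lemma repAt_ddS {c : Cfg} {ξ η : ℝ} (CC : Ctx c ξ η) {p0 p1 p2 : List TMod} {y0 y1 y2 Mv i1v i2v : ℝ}
    (h0 : Tab c ξ η p0 y0) (h1 : Tab c ξ η p1 y1) (h2 : Tab c ξ η p2 y2) {M i1 i2 My : TMod}
    (hM : RepAt c ξ η M Mv) (hi1 : RepAt c ξ η i1 i1v) (hi2 : RepAt c ξ η i2 i2v)
    (hMy : RepAt c ξ η My (Mv * y0 ^ 9)) {e : E3}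
    (he : e.1 + e.2.1 + e.2.2 = 12) :
    RepAt c ξ η (ddST c M i1 i2 (pick p0 9) My p0 p1 p2 e) (ddS e Mv i1v i2v y0 y1 y2) := by
  have hy := h0 9 (by norm_num)
  exact (repAt_sub CC (repAt_add CC (repAt_smul CC 36 (repAt_mul CC hy (repAt_six CC h0 h1 h2 he)))
    (repAt_mul CC hM (repAt_add CC (repAt_dsixS CC h0 h1 h2 he)
      (repAt_mul CC hy (repAt_add CC (repAt_mul CC hi1 (repAt_r1six CC h0 h1 h2 he))
        (repAt_mul CC hi2 (repAt_r2six CC h0 h1 h2 he)))))))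
    (repAt_smul CC 144 hMy)).congr (by
      unfold ddS
      push_cast
      ring)

/-- The table encloses the real table. -/
theorem tableS_rep {c : Cfg} {ξ η : ℝ} (CC : Ctx c ξ η) {X : List E3} (hX : ∀ e ∈ X, e.1 + e.2.1 + e.2.2 = 12)
    {a b : TMod} {v r : ℝ} (ha : RepAt c ξ η a v) (hb : RepAt c ξ η b r) :
    List.Forall₂ (RepAt c ξ η) (tableST c X a b) (tableSR X v r) := by
  have tv := tab_powsT CC ha
  have tr := tab_powsT CC hb
  have rw' := repAt_mul CC ha hb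
  have tw := tab_powsT CC rw'
  have hx1 := tv 12 le_rfl
  have hx2 := tw 12 le_rfl
  have hr12 := tr 12 le_rfl
  have hone := repAt_one CC
  have hM : RepAt c ξ η _ (M3H v r) := repAt_add CC (repAt_add CC hone hx1) hx2
  have hh : RepAt c ξ η (ofRat c 1 2) (1 / 2) := (repAt_ofRat CC 1 2).congr (by norm_num)
  have e0 : 0 ≤ (1 + r ^ 12) / 2 := by positivity
  have e1 : 0 ≤ (1 + (v * r) ^ 12) / 2 := by positivity
  have e2 : 0 ≤ (1 + v ^ 12) / 2 := by positivity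
  have r0 := (repAt_mul CC hh (repAt_add CC hone hr12)).congr (y := (1 + r ^ 12) / 2) (by ring)
  have r1 := (repAt_mul CC hh (repAt_add CC hone hx2)).congr (y := (1 + (v * r) ^ 12) / 2) (by ring)
  have r2 := (repAt_mul CC hh (repAt_add CC hone hx1)).congr (y := (1 + v ^ 12) / 2) (by ring)
  have t0 : Tab c ξ η _ (y0H v r) := tab_powsT CC (repAt_mul CC ha (repAt_root CC r0 (Real.rpow_nonneg e0 _) (pow12_eq e0)))
  have t1 : Tab c ξ η _ (y1H v r) := tab_powsT CC (repAt_root CC r1 (Real.rpow_nonneg e1 _) (pow12_eq e1))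
  have t2 : Tab c ξ η _ (y2H v) := tab_powsT CC (repAt_root CC r2 (Real.rpow_nonneg e2 _) (pow12_eq e2))
  have hMi := repAt_inv CC hM
  have hQi : RepAt c ξ η _ (Q3H v r * (M3H v r)⁻¹) :=
    repAt_mul CC (repAt_add CC (repAt_add CC hx1 (repAt_mul CC hx1 hx2)) hx2) hMi
  have hy9 := t0 9 (by norm_num)
  have hMy := repAt_mul CC hy9 hM
  have hMy' := hMy.congr (y := M3H v r * y0H v r ^ 9) (by ring)
  have hAh : RepAt c ξ η _ (AhH v r) :=
    (repAt_sub CC hone (repAt_smul CC 3 (repAt_mul CC hQi hMi))).congr (by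
      unfold AhH
      norm_num)
  have hAh3 := (repAt_mul CC (repAt_mul CC hAh hAh) hAh).congr (y := AhH v r ^ 3) (by ring)
  refine List.Forall₂.cons hM ?_
  refine forall2_append (forall2_map fun e he => repAt_six CC (tab_onesT CC) tv tw (hX e he)) ?_
  refine forall2_append (forall2_map fun e he => repAt_six CC t0 t1 t2 (hX e he)) ?_
  refine List.Forall₂.cons ((repAt_sub CC (repAt_smul CC 2 hM) (repAt_smul CC 6 hQi)).congr (by norm_num)) ?_
  refine forall2_append (forall2_map fun e he => repAt_ddS CC t0 t1 t2 hM (repAt_inv CC r1) (repAt_inv CC r2) hMy' (hX e he)) ?_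
  refine List.Forall₂.cons ((repAt_smul CC 72 hMy).congr (by norm_num)) ?_
  refine List.Forall₂.cons ((repAt_smul CC 2 (repAt_mul CC hM hAh3)).congr (by norm_num)) ?_
  refine List.Forall₂.cons ((repAt_smul CC 72 (repAt_mul CC hMy hAh3)).congr (by norm_num)) List.Forall₂.nil

/-! ### The two rows as linear forms on the table -/

/-- Row F as a form. -/
def formFS (X : List E3) (A C : List ℤ) (C0 E C3 : ℤ) : List ℤ :=
  formF X A C C0 E ++ (List.replicate (X.length + 1) 0 ++ [-C3, 0])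

/-- Row D as a form. -/
def formDS (X : List E3) (C : List ℤ) (Eta Eps3 : ℤ) : List ℤ :=
  List.replicate (1 + (X.length + (X.length + 1))) 0 ++ (C ++ [Eta, 0, Eps3])

lemma linV_replicate_zero (xs : List ℝ) (n : ℕ) : linV xs (List.replicate n 0) = 0 := by
  induction n generalizing xs with
  | zero => exact linV_nil xs
  | succ n ih =>
    cases xs with
    | nil => rfl
    | cons x xs =>
      simp only [List.replicate_succ, linV, ih]
      simp

lemma tableSR_split (X : List E3) (v r : ℝ) : tableSR X v r =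
    (M3H v r :: ((X.map fun e => six e 1 v (v * r)) ++
      ((X.map fun e => six e (y0H v r) (y1H v r) (y2H v)) ++ [2 * M3H v r - 6 * (Q3H v r * (M3H v r)⁻¹)])))
    ++ ((X.map fun e => ddS e (M3H v r) (((1 + (v * r) ^ 12) / 2)⁻¹) (((1 + v ^ 12) / 2)⁻¹) (y0H v r) (y1H v r) (y2H v))
        ++ [72 * (y0H v r ^ 9 * M3H v r), 2 * (M3H v r * AhH v r ^ 3), 72 * (y0H v r ^ 9 * M3H v r * AhH v r ^ 3)]) := by
  unfold tableSR
  simp

theorem linV_formFS (X : List E3) (A C : List ℤ) (C0 E C3 : ℤ) (hA : A.length = X.length)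
    (hC : C.length = X.length) (v r : ℝ) :
    linV (tableSR X v r) (formFS X A C C0 E C3)
      = valHalf X A C C0 E v r - (C3 : ℝ) * (2 * (M3H v r * AhH v r ^ 3)) := by
  rw [tableSR_split]
  unfold formFS
  have hlen : (M3H v r :: ((X.map fun e => six e 1 v (v * r)) ++
      ((X.map fun e => six e (y0H v r) (y1H v r) (y2H v)) ++ [2 * M3H v r - 6 * (Q3H v r * (M3H v r)⁻¹)]))).length
      = (formF X A C C0 E).length := by
    simp [formF, hA, hC]
  rw [linV_append _ _ _ _ hlen]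
  have e1 : (X.map fun e => ddS e (M3H v r) (((1 + (v * r) ^ 12) / 2)⁻¹) (((1 + v ^ 12) / 2)⁻¹) (y0H v r) (y1H v r) (y2H v))
        ++ [72 * (y0H v r ^ 9 * M3H v r), 2 * (M3H v r * AhH v r ^ 3), 72 * (y0H v r ^ 9 * M3H v r * AhH v r ^ 3)]
      = ((X.map fun e => ddS e (M3H v r) (((1 + (v * r) ^ 12) / 2)⁻¹) (((1 + v ^ 12) / 2)⁻¹) (y0H v r) (y1H v r) (y2H v))
        ++ [72 * (y0H v r ^ 9 * M3H v r)]) ++ [2 * (M3H v r * AhH v r ^ 3), 72 * (y0H v r ^ 9 * M3H v r * AhH v r ^ 3)] := by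
    simp
  rw [e1, linV_append _ _ _ _ (by simp), linV_replicate_zero]
  simp only [linV]
  have e2 : linV (M3H v r :: ((X.map fun e => six e 1 v (v * r)) ++
      ((X.map fun e => six e (y0H v r) (y1H v r) (y2H v)) ++ [2 * M3H v r - 6 * (Q3H v r * (M3H v r)⁻¹)])))
      (formF X A C C0 E) = valHalf X A C C0 E v r := by
    unfold formF valHalf coreR
    simp only [linV]
    rw [linV_append _ _ _ _ (by simp [hA]), linV_append _ _ _ _ (by simp [hC])]
    rw [linV_map, linV_map, sumR_neg]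
    simp only [linV]
    unfold M3H Q3H y0H y1H y2H
    push_cast
    ring
  rw [e2]
  push_cast
  ring

/-- The row D in the chart, multiplied by a positive factor. -/
theorem linV_formDS (X : List E3) (hG : ∀ e ∈ X, GoodE e) (C : List ℤ) (Eta Eps3 : ℤ) (hC : C.length = X.length)
    {v r : ℝ} (hv : 0 < v) (hr : 0 < r) :
    linV (tableSR X v r) (formDS X C Eta Eps3)
      = 216 * y0H v r ^ 9 * (rowD X C 0 Eta ![1, v ^ 12, (v * r) ^ 12]
          + (Eps3 : ℝ) * cub ![1, v ^ 12, (v * r) ^ 12]) := by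
  have e0 : 0 < (1 + r ^ 12) / 2 := by positivity
  have e1 : 0 < (1 + (v * r) ^ 12) / 2 := by positivity
  have e2 : 0 < (1 + v ^ 12) / 2 := by positivity
  have p0 : 0 < y0H v r := mul_pos hv (Real.rpow_pos_of_pos e0 _)
  have p1 : 0 < y1H v r := Real.rpow_pos_of_pos e1 _
  have p2 : 0 < y2H v := Real.rpow_pos_of_pos e2 _
  have q0 : y0H v r ^ 12 = v ^ 12 * ((1 + r ^ 12) / 2) := by
    unfold y0H
    rw [mul_pow, pow12_eq e0.le]
  have q1 : y1H v r ^ 12 = (1 + (v * r) ^ 12) / 2 := pow12_eq e1.le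
  have q2 : y2H v ^ 12 = (1 + v ^ 12) / 2 := pow12_eq e2.le
  have hT : T (-(1 / 2)) ![1, v ^ 12, (v * r) ^ 12] = ![y0H v r ^ 12, y1H v r ^ 12, y2H v ^ 12] := by
    rw [q0, q1, q2]
    funext i
    fin_cases i <;> simp [T, mass, mul_pow] <;> ring
  have hmass : mass ![y0H v r ^ 12, y1H v r ^ 12, y2H v ^ 12] = M3H v r / 3 := by
    rw [q0, q1, q2]
    simp [mass, M3H, mul_pow]
    ring
  have hmass0 := mass_chart v r
  unfold rowD
  rw [hT, hmass0, cub_chart]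
  simp only [Int.cast_zero, zero_mul, add_zero]
  rw [sum_fin (fun e => Dj (sE e) ![y0H v r ^ 12, y1H v r ^ 12, y2H v ^ 12]) X C]
  have hdd : (216 * y0H v r ^ 9) * sumR (fun e => Dj (sE e) ![y0H v r ^ 12, y1H v r ^ 12, y2H v ^ 12]) X C
      = sumR (fun e => ddS e (M3H v r) (((1 + (v * r) ^ 12) / 2)⁻¹) (((1 + v ^ 12) / 2)⁻¹)
          (y0H v r) (y1H v r) (y2H v)) X C := by
    rw [sumR_mul]
    refine sumR_congr (fun e he => ?_) C
    rw [Dj_gridS (hG e he) p0 p1 p2 hmass, q1, q2]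
  have hlen : (1 + (X.length + (X.length + 1))) = (M3H v r :: ((X.map fun e => six e 1 v (v * r)) ++
      ((X.map fun e => six e (y0H v r) (y1H v r) (y2H v)) ++ [2 * M3H v r - 6 * (Q3H v r * (M3H v r)⁻¹)]))).length := by
    simp
    omega
  unfold formDS
  rw [tableSR_split, hlen, linV_zeros, linV_append _ _ _ _ (by simp [hC]), linV_map]
  simp only [linV]
  rw [← hdd]
  push_cast
  ring

/-! ### The theorems -/

/-- The forms of a walk are nonnegative on the square. -/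
theorem formsS_nonneg {c : Cfg} (hc : c.Valid) {X : List E3} (hX : ∀ e ∈ X, e.1 + e.2.1 + e.2.2 = 12)
    (f K : ℕ) (zs : List (List ℤ)) (h : ∀ i j, i < 2 ^ K → j < 2 ^ K → formWalk c (tableST c X) f K i j zs = true)
    {z : List ℤ} (hz : z ∈ zs) {v r : ℝ} (hv0 : 0 ≤ v) (hv1 : v ≤ 1) (hr0 : 0 ≤ r) (hr1 : r ≤ 1) :
    0 ≤ linV (tableSR X v r) z :=
  forms_of_cells hc (fun _ _ CC _ _ _ _ ha hb => tableS_rep CC hX ha hb) f K zs h hz hv0 hv1 hr0 hr1

/-- Row F from the nonnegativity of its form. -/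
theorem rowFS_of_form {X : List E3} (hX : ∀ e ∈ X, e.1 + e.2.1 + e.2.2 = 12) {A C : List ℤ} {C0 E C3 : ℤ}
    (hA : A.length = X.length) (hC : C.length = X.length) (D : ℕ) (hD : 0 < D)
    (H : ∀ v r : ℝ, 0 ≤ v → v ≤ 1 → 0 ≤ r → r ≤ 1 → 0 ≤ linV (tableSR X v r) (formFS X A C C0 E C3))
    (x : Fin 3 → ℝ) (hx : ∀ i, 0 < x i) :
    ∑ j, coef C D X.length j * psi (expo X j) (-(1 / 2)) x + ((C0 : ℝ) / D) * yyv x + ((E : ℝ) / D) * mass x
        + ((C3 : ℝ) / D) * cub x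
      ≤ phiF (coef A D X.length) (expo X) x := by
  have hDr : (0 : ℝ) < D := by exact_mod_cast hD
  have key : 0 ≤ defect X A C C0 E D (1 / 2) x - ((C3 : ℝ) / D) * cub x := by
    refine chart_reduce (G := fun x => defect X A C C0 E D (1 / 2) x - ((C3 : ℝ) / D) * cub x)
      (fun x g => by
        show defect X A C C0 E D (1 / 2) _ - _ * cub _ = _
        rw [defect_perm, cub_perm])
      (fun k u hk hu => by
        show defect X A C C0 E D (1 / 2) _ - _ * cub _ = _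
        rw [defect_smul X hX A C C0 E D (by norm_num) le_rfl hk (fun i => (hu i).le), cub_smul hk hu]
        ring) ?_ x hx
    intro v r v0 v1 r0 r1
    show 0 ≤ defect X A C C0 E D (1 / 2) _ - _ * cub _
    have h := H v r v0.le v1 r0.le r1
    rw [linV_formFS X A C C0 E C3 hA hC] at h
    have e0 : 0 ≤ (1 + r ^ 12) / 2 := by positivity
    have e1 : 0 ≤ (1 + (v * r) ^ 12) / 2 := by positivity
    have e2 : 0 ≤ (1 + v ^ 12) / 2 := by positivity
    have e3 : (v * ((1 + r ^ 12) / 2) ^ ((1 : ℝ) / 12)) ^ 12 = v ^ 12 * ((1 + r ^ 12) / 2) := by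
      rw [mul_pow, pow12_eq e0]
    have hT : T (-(1 / 2)) ![1, v ^ 12, (v * r) ^ 12]
        = ![(v * ((1 + r ^ 12) / 2) ^ ((1 : ℝ) / 12)) ^ 12, (((1 + (v * r) ^ 12) / 2) ^ ((1 : ℝ) / 12)) ^ 12,
          (((1 + v ^ 12) / 2) ^ ((1 : ℝ) / 12)) ^ 12] := by
      rw [e3, pow12_eq e1, pow12_eq e2]
      funext i
      fin_cases i <;> simp [T, mass, mul_pow] <;> ring
    have hch := defect_chart X A C C0 E D hD v0.le (mul_nonneg v0.le r0.le)
      (mul_nonneg v0.le (Real.rpow_nonneg e0 _)) (Real.rpow_nonneg e1 _) (Real.rpow_nonneg e2 _) hT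
    have hval : valHalf X A C C0 E v r = 6 * (D : ℝ) * defect X A C C0 E D (1 / 2) ![1, v ^ 12, (v * r) ^ 12] := by
      rw [hch]
      rfl
    rw [hval] at h
    rw [cub_chart]
    have h6 : (0 : ℝ) < 6 * D := by positivity
    have e4 : 6 * (D : ℝ) * (defect X A C C0 E D (1 / 2) ![1, v ^ 12, (v * r) ^ 12]
        - (C3 : ℝ) / D * (M3H v r / 3 * AhH v r ^ 3))
        = 6 * (D : ℝ) * defect X A C C0 E D (1 / 2) ![1, v ^ 12, (v * r) ^ 12]
          - (C3 : ℝ) * (2 * (M3H v r * AhH v r ^ 3)) := by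
      field_simp
      ring
    rw [← e4] at h
    exact nonneg_of_mul_nonneg_right h h6
  unfold defect at key
  linarith

/-- Row D from the nonnegativity of its form. -/
theorem rowDS_of_form {X : List E3} (hX : ∀ e ∈ X, e.1 + e.2.1 + e.2.2 = 12) (hG : ∀ e ∈ X, GoodE e)
    {C : List ℤ} {Eta Eps3 : ℤ} (hC : C.length = X.length)
    (H : ∀ v r : ℝ, 0 ≤ v → v ≤ 1 → 0 ≤ r → r ≤ 1 → 0 ≤ linV (tableSR X v r) (formDS X C Eta Eps3))
    (x : Fin 3 → ℝ) (hx : ∀ i, 0 < x i) :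
    0 ≤ rowD X C 0 Eta x + (Eps3 : ℝ) * cub x := by
  refine chart_reduce (G := fun x => rowD X C 0 Eta x + (Eps3 : ℝ) * cub x)
    (fun x g => by
      show rowD X C 0 Eta _ + _ * cub _ = _
      rw [rowD_perm, cub_perm])
    (fun k u hk hu => by
      show rowD X C 0 Eta _ + _ * cub _ = _
      rw [rowD_smul X hX C 0 Eta hk (fun i => (hu i).le), cub_smul hk hu]
      ring) ?_ x hx
  intro v r v0 v1 r0 r1
  have h := H v r v0.le v1 r0.le r1
  rw [linV_formDS X hG C Eta Eps3 hC v0 r0] at h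
  have e0 : 0 < (1 + r ^ 12) / 2 := by positivity
  have p0 : 0 < y0H v r := mul_pos v0 (Real.rpow_pos_of_pos e0 _)
  have : 0 < 216 * y0H v r ^ 9 := by positivity
  exact nonneg_of_mul_nonneg_right h this

end Vale.Agent.P154.Hel.Direct
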