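import Vale.Agent.P154.Hel.SmallE

/-!
The near zone of the small-`z` family, away from the corner: Taylor models on a small square.
-/

namespace Vale.Agent.P154.Hel.Small

open TM Q3

/-- The common part of the programs. -/
def preS (c : Cfg) (v w : TMod) (k : TMod → TMod → TMod → TMod → TMod → TMod → TMod → TMod) : TMod :=
  (fun v2 w2 => (fun v3 w3 v4 w4 => (fun v6 w6 => (fun v9 w9 v12 w12 =>
  (fun Mi =>
  (fun a1 a2 => (fun a3 =>
  (fun a12 => (fun A R =>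
    k Mi A R
      (addT c (addT c v6 w6) (mulT c v6 w6))
      (addT c (addT c (mulT c v3 w3) (mulT c v6 w3)) (mulT c v3 w6))
      (addT c (addT c (addT c (addT c (addT c v3 w3) v9) w9) (mulT c v9 w3)) (mulT c v3 w9))
      (mulT c v4 w4))
    (mulT c (ofRat c 1 6) (addT c (addT c (mulT c a1 a1) (mulT c a2 a2)) (mulT c a3 a3)))
    (mulT c (ofRat c 1 2) (mulT c a12 a3)))
    (mulT c a1 a2))
    (negT (addT c a1 a2)))
    (subT c (smulT c 3 Mi) (ofRat c 1 1)) (subT c (smulT c 3 (mulT c v12 Mi)) (ofRat c 1 1)))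
    (invT c (addT c (addT c (ofRat c 1 1) v12) w12)))
    (mulT c v6 v3) (mulT c w6 w3) (mulT c v6 v6) (mulT c w6 w6))
    (mulT c v3 v3) (mulT c w3 w3))
    (mulT c v2 v) (mulT c w2 w) (mulT c v2 v2) (mulT c w2 w2))
    (mulT c v v) (mulT c w w)

theorem preS_rep (c : Cfg) (ξ η : ℝ) (C : Ctx c ξ η) (a b : TMod) (v w : ℝ)
    (ha : RepAt c ξ η a v) (hb : RepAt c ξ η b w)
    (k : TMod → TMod → TMod → TMod → TMod → TMod → TMod → TMod) (x : ℝ)
    (hk : ∀ Mi A R CA CB CD CC, RepAt c ξ η Mi (yvw v w) → RepAt c ξ η A (Asvw v w) →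
      RepAt c ξ η R (Rsvw v w) → RepAt c ξ η CA (CAvw v w) → RepAt c ξ η CB (CBvw v w) →
      RepAt c ξ η CD (CDvw v w) → RepAt c ξ η CC (v ^ 4 * w ^ 4) →
      RepAt c ξ η (k Mi A R CA CB CD CC) x) :
    RepAt c ξ η (preS c a b k) x := by
  have r2v := repAt_mul C ha ha
  have r2w := repAt_mul C hb hb
  have r3v := repAt_mul C r2v ha
  have r3w := repAt_mul C r2w hb
  have r4v := repAt_mul C r2v r2v
  have r4w := repAt_mul C r2w r2w
  have r6v := repAt_mul C r3v r3v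
  have r6w := repAt_mul C r3w r3w
  have r9v := repAt_mul C r6v r3v
  have r9w := repAt_mul C r6w r3w
  have r12v := repAt_mul C r6v r6v
  have r12w := repAt_mul C r6w r6w
  have rMi := repAt_inv C (repAt_add C (repAt_add C (repAt_ofRat C 1 1) r12v) r12w)
  have ra1 := repAt_sub C (repAt_smul C 3 rMi) (repAt_ofRat C 1 1)
  have ra2 := repAt_sub C (repAt_smul C 3 (repAt_mul C r12v rMi)) (repAt_ofRat C 1 1)
  have ra3 := repAt_neg (repAt_add C ra1 ra2)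
  have ra12 := repAt_mul C ra1 ra2
  have rA := repAt_mul C (repAt_ofRat C 1 6)
    (repAt_add C (repAt_add C (repAt_mul C ra1 ra1) (repAt_mul C ra2 ra2)) (repAt_mul C ra3 ra3))
  have rR := repAt_mul C (repAt_ofRat C 1 2) (repAt_mul C ra12 ra3)
  have eM : (((1 : ℕ) : ℝ) / ((1 : ℕ) : ℝ) + v * v * v * (v * v * v) * (v * v * v * (v * v * v))
      + w * w * w * (w * w * w) * (w * w * w * (w * w * w)))⁻¹ = yvw v w := by
    unfold yvw
    norm_num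
    ring_nf
  refine hk _ _ _ _ _ _ _ (rMi.congr eM) (rA.congr ?_) (rR.congr ?_)
    ((repAt_add C (repAt_add C r6v r6w) (repAt_mul C r6v r6w)).congr ?_)
    ((repAt_add C (repAt_add C (repAt_mul C r3v r3w) (repAt_mul C r6v r3w)) (repAt_mul C r3v r6w)).congr ?_)
    ((repAt_add C (repAt_add C (repAt_add C (repAt_add C (repAt_add C r3v r3w) r9v) r9w)
      (repAt_mul C r9v r3w)) (repAt_mul C r3v r9w)).congr ?_)
    ((repAt_mul C r4v r4w).congr ?_)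
  · rw [eM]
    unfold Asvw a1vw a2vw
    push_cast
    ring
  · rw [eM]
    unfold Rsvw a1vw a2vw
    push_cast
    ring
  · unfold CAvw
    ring
  · unfold CBvw
    ring
  · unfold CDvw
    ring
  · ring

/-- The upper polynomial on Taylor models. -/
def JUT (c : Cfg) (n1 d1 n2 d2 n3 d3 n4 d4 n5 d5 n6 d6 : ℕ) (A R : TMod) : TMod :=
  addT c (addT c (subT c (addT c (subT c (mulT c (ofRat c n1 d1) A) (mulT c (ofRat c n2 d2) R))
    (mulT c (ofRat c n3 d3) (mulT c A A))) (mulT c (ofRat c n4 d4) (mulT c A R)))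
    (mulT c (ofRat c n5 d5) (mulT c A (mulT c A A)))) (mulT c (ofRat c n6 d6) (mulT c R R))

theorem JUT_rep (c : Cfg) (ξ η : ℝ) (C : Ctx c ξ η) (n1 d1 n2 d2 n3 d3 n4 d4 n5 d5 n6 d6 : ℕ)
    (a b : TMod) (A R : ℝ) (ha : RepAt c ξ η a A) (hb : RepAt c ξ η b R) :
    RepAt c ξ η (JUT c n1 d1 n2 d2 n3 d3 n4 d4 n5 d5 n6 d6 a b)
      (polyR ((n1 : ℝ) / d1) (-((n2 : ℝ) / d2)) ((n3 : ℝ) / d3) (-((n4 : ℝ) / d4)) ((n5 : ℝ) / d5)
        ((n6 : ℝ) / d6) A R) := by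
  refine (repAt_add C (repAt_add C (repAt_sub C (repAt_add C (repAt_sub C (repAt_mul C (repAt_ofRat C n1 d1) ha)
    (repAt_mul C (repAt_ofRat C n2 d2) hb)) (repAt_mul C (repAt_ofRat C n3 d3) (repAt_mul C ha ha)))
    (repAt_mul C (repAt_ofRat C n4 d4) (repAt_mul C ha hb)))
    (repAt_mul C (repAt_ofRat C n5 d5) (repAt_mul C ha (repAt_mul C ha ha))))
    (repAt_mul C (repAt_ofRat C n6 d6) (repAt_mul C hb hb))).congr ?_
  unfold polyR
  ring

/-- `FA` on Taylor models. -/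
def FAT (c : Cfg) (v w : TMod) : TMod :=
  preS c v w fun Mi A R CA _ _ _ =>
    subT c (addT c (JUT c 3 4 3 8 313 512 93 128 541 512 57 256 A R) (mulT c CA Mi)) (ofRat c 1 1)

/-- `FB` on Taylor models. -/
def FBT (c : Cfg) (v w : TMod) : TMod :=
  preS c v w fun Mi A R _ CB _ _ =>
    subT c (addT c (JUT c 15 16 39 64 953 1024 5043 4096 54919 32768 6711 16384 A R) (mulT c CB Mi)) (ofRat c 1 1)

/-- `FD` on Taylor models. -/
def FDT (c : Cfg) (v w : TMod) : TMod :=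
  preS c v w fun Mi A R _ _ CD _ =>
    subT c (addT c (JUT c 9 16 9 32 497 1024 1197 2048 29503 32768 2979 16384 A R)
      (mulT c (ofRat c 1 2) (mulT c CD Mi))) (ofRat c 1 1)

/-- `FN` on Taylor models. -/
def FNT (c : Cfg) (v w : TMod) : TMod :=
  preS c v w fun Mi A R CA CB CD CC =>
    addT c (subT c (addT c (subT c (subT c (addT c (subT c (subT c (subT c (ofRat c 275 96)
      (mulT c (ofRat c 83 24) (mulT c CA Mi)))
      (smulT c 9 (mulT c CB Mi)))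
      (mulT c (ofRat c 1 2) (mulT c CD Mi)))
      (mulT c (ofRat c 1017 32) (mulT c CC Mi)))
      A)
      (mulT c (ofRat c 181 512) (mulT c A A)))
      (mulT c (ofRat c 217 4096) (mulT c A R)))
      (mulT c (ofRat c 4915 16384) (mulT c A (mulT c A A))))
      (mulT c (ofRat c 1721 24576) (mulT c R R))

theorem FAT_rep (c : Cfg) (ξ η : ℝ) (C : Ctx c ξ η) (a b : TMod) (v w : ℝ)
    (ha : RepAt c ξ η a v) (hb : RepAt c ξ η b w) : RepAt c ξ η (FAT c a b) (FA v w) := by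
  refine preS_rep c ξ η C a b v w ha hb _ _ ?_
  intro Mi A R CA CB CD CC rMi rA rR rCA _ _ _
  refine (repAt_sub C (repAt_add C (JUT_rep c ξ η C _ _ _ _ _ _ _ _ _ _ _ _ A R _ _ rA rR)
    (repAt_mul C rCA rMi)) (repAt_ofRat C 1 1)).congr ?_
  unfold FA JA
  norm_num
  ring

theorem FBT_rep (c : Cfg) (ξ η : ℝ) (C : Ctx c ξ η) (a b : TMod) (v w : ℝ)
    (ha : RepAt c ξ η a v) (hb : RepAt c ξ η b w) : RepAt c ξ η (FBT c a b) (FB v w) := by
  refine preS_rep c ξ η C a b v w ha hb _ _ ?_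
  intro Mi A R CA CB CD CC rMi rA rR _ rCB _ _
  refine (repAt_sub C (repAt_add C (JUT_rep c ξ η C _ _ _ _ _ _ _ _ _ _ _ _ A R _ _ rA rR)
    (repAt_mul C rCB rMi)) (repAt_ofRat C 1 1)).congr ?_
  unfold FB JB
  norm_num
  ring

theorem FDT_rep (c : Cfg) (ξ η : ℝ) (C : Ctx c ξ η) (a b : TMod) (v w : ℝ)
    (ha : RepAt c ξ η a v) (hb : RepAt c ξ η b w) : RepAt c ξ η (FDT c a b) (FD v w) := by
  refine preS_rep c ξ η C a b v w ha hb _ _ ?_
  intro Mi A R CA CB CD CC rMi rA rR _ _ rCD _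
  refine (repAt_sub C (repAt_add C (JUT_rep c ξ η C _ _ _ _ _ _ _ _ _ _ _ _ A R _ _ rA rR)
    (repAt_mul C (repAt_ofRat C 1 2) (repAt_mul C rCD rMi))) (repAt_ofRat C 1 1)).congr ?_
  unfold FD JD
  norm_num
  ring

theorem FNT_rep (c : Cfg) (ξ η : ℝ) (C : Ctx c ξ η) (a b : TMod) (v w : ℝ)
    (ha : RepAt c ξ η a v) (hb : RepAt c ξ η b w) : RepAt c ξ η (FNT c a b) (FN v w) := by
  refine preS_rep c ξ η C a b v w ha hb _ _ ?_
  intro Mi A R CA CB CD CC rMi rA rR rCA rCB rCD rCC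
  refine (repAt_add C (repAt_sub C (repAt_add C (repAt_sub C (repAt_sub C (repAt_add C (repAt_sub C (repAt_sub C (repAt_sub C
    (repAt_ofRat C 275 96)
    (repAt_mul C (repAt_ofRat C 83 24) (repAt_mul C rCA rMi)))
    (repAt_smul C 9 (repAt_mul C rCB rMi)))
    (repAt_mul C (repAt_ofRat C 1 2) (repAt_mul C rCD rMi)))
    (repAt_mul C (repAt_ofRat C 1017 32) (repAt_mul C rCC rMi)))
    rA)
    (repAt_mul C (repAt_ofRat C 181 512) (repAt_mul C rA rA)))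
    (repAt_mul C (repAt_ofRat C 217 4096) (repAt_mul C rA rR)))
    (repAt_mul C (repAt_ofRat C 4915 16384) (repAt_mul C rA (repAt_mul C rA rA))))
    (repAt_mul C (repAt_ofRat C 1721 24576) (repAt_mul C rR rR))).congr ?_
  unfold FN JN polyR
  push_cast
  ring

/-- The position test: above the diagonal, in the corner, or below the level `125/128`. -/
def outS (K i j : ℕ) : Bool :=
  or (outE2 K i j) (Nat.ble (Nat.succ (Nat.mul 128 (Nat.succ j))) (Nat.mul 125 (Nat.pow 2 K)))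

lemma outS_sound {K i j : ℕ} (h : outS K i j = true) {v w : ℝ} (hvw : InCell K i j v w) (hle : w ≤ v)
    (hc : v < 1 - 1 / 1024 ∨ w < 1 - 1 / 1024) (hw : 125 / 128 ≤ w) : False := by
  unfold outS at h
  rw [Bool.or_eq_true] at h
  rcases h with h | h
  · exact outE2_sound h hvw hle hc
  · have h1 := Nat.le_of_ble_eq_true h
    have h2 : 128 * (j + 1) + 1 ≤ 125 * 2 ^ K := h1
    have h3 : (128 : ℝ) * (j + 1) + 1 ≤ 125 * 2 ^ K := by exact_mod_cast h2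
    have hK : (0 : ℝ) < 2 ^ K := by positivity
    have h4 := hvw.2.2.2
    rw [le_div_iff₀ hK] at h4
    nlinarith

theorem FA_walk {v w : ℝ} (hv0 : 0 ≤ v) (hv1 : v ≤ 1) (hw0 : 0 ≤ w) (hw1 : w ≤ 1) (hwv : w ≤ v)
    (hc : v < 1 - 1 / 1024 ∨ w < 1 - 1 / 1024) (hw : 125 / 128 ≤ w) : 0 ≤ FA v w := by
  refine of_walk (Q := fun v w => w ≤ v → (v < 1 - 1 / 1024 ∨ w < 1 - 1 / 1024) → 125 / 128 ≤ w → 0 ≤ FA v w)
    cfg6_valid (FAT_rep cfg6) (out := outS) ?_ (fun v w h _ _ _ => h) 18 (by decide +kernel)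
    v w hv0 hv1 hw0 hw1 hwv hc hw
  intro K i j h v w hvw hle hc hw
  exact (outS_sound h hvw hle hc hw).elim

theorem FB_walk {v w : ℝ} (hv0 : 0 ≤ v) (hv1 : v ≤ 1) (hw0 : 0 ≤ w) (hw1 : w ≤ 1) (hwv : w ≤ v)
    (hc : v < 1 - 1 / 1024 ∨ w < 1 - 1 / 1024) (hw : 125 / 128 ≤ w) : 0 ≤ FB v w := by
  refine of_walk (Q := fun v w => w ≤ v → (v < 1 - 1 / 1024 ∨ w < 1 - 1 / 1024) → 125 / 128 ≤ w → 0 ≤ FB v w)
    cfg6_valid (FBT_rep cfg6) (out := outS) ?_ (fun v w h _ _ _ => h) 18 (by decide +kernel)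
    v w hv0 hv1 hw0 hw1 hwv hc hw
  intro K i j h v w hvw hle hc hw
  exact (outS_sound h hvw hle hc hw).elim

theorem FD_walk {v w : ℝ} (hv0 : 0 ≤ v) (hv1 : v ≤ 1) (hw0 : 0 ≤ w) (hw1 : w ≤ 1) (hwv : w ≤ v)
    (hc : v < 1 - 1 / 1024 ∨ w < 1 - 1 / 1024) (hw : 125 / 128 ≤ w) : 0 ≤ FD v w := by
  refine of_walk (Q := fun v w => w ≤ v → (v < 1 - 1 / 1024 ∨ w < 1 - 1 / 1024) → 125 / 128 ≤ w → 0 ≤ FD v w)
    cfg6_valid (FDT_rep cfg6) (out := outS) ?_ (fun v w h _ _ _ => h) 18 (by decide +kernel)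
    v w hv0 hv1 hw0 hw1 hwv hc hw
  intro K i j h v w hvw hle hc hw
  exact (outS_sound h hvw hle hc hw).elim

theorem FN_walk {v w : ℝ} (hv0 : 0 ≤ v) (hv1 : v ≤ 1) (hw0 : 0 ≤ w) (hw1 : w ≤ 1) (hwv : w ≤ v)
    (hc : v < 1 - 1 / 1024 ∨ w < 1 - 1 / 1024) (hw : 125 / 128 ≤ w) : 0 ≤ FN v w := by
  refine of_walk (Q := fun v w => w ≤ v → (v < 1 - 1 / 1024 ∨ w < 1 - 1 / 1024) → 125 / 128 ≤ w → 0 ≤ FN v w)
    cfg6_valid (FNT_rep cfg6) (out := outS) ?_ (fun v w h _ _ _ => h) 18 (by decide +kernel)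
    v w hv0 hv1 hw0 hw1 hwv hc hw
  intro K i j h v w hvw hle hc hw
  exact (outS_sound h hvw hle hc hw).elim

/-- The four bounds on the small square. -/
theorem F_near {v w : ℝ} (hv1 : v ≤ 1) (hwv : w ≤ v) (hw : 125 / 128 ≤ w) :
    0 ≤ FA v w ∧ 0 ≤ FB v w ∧ 0 ≤ FD v w ∧ 0 ≤ FN v w := by
  have hw0 : 0 ≤ w := by linarith
  have hv0 : 0 ≤ v := by linarith
  have hw1 : w ≤ 1 := by linarith
  by_cases hc : v < 1 - 1 / 1024 ∨ w < 1 - 1 / 1024
  · exact ⟨FA_walk hv0 hv1 hw0 hw1 hwv hc hw, FB_walk hv0 hv1 hw0 hw1 hwv hc hw,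
      FD_walk hv0 hv1 hw0 hw1 hwv hc hw, FN_walk hv0 hv1 hw0 hw1 hwv hc hw⟩
  · rw [not_or, not_lt, not_lt] at hc
    exact ⟨FA_corner hc.1 hv1 hc.2 hw1, FB_corner hc.1 hv1 hc.2 hw1, FD_corner hc.1 hv1 hc.2 hw1,
      FN_corner hc.1 hv1 hc.2 hw1⟩

end Vale.Agent.P154.Hel.Small
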