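import Vale.Agent.P154.Hel.TMInv

/-!
Two formats for the Taylor models: order 4 and order 6, fixed point `2^-64`.
The general theorem for a walker.
-/

namespace Vale.Agent.P154.Hel.TM

/-- Order 4. -/
def cfg4 : Cfg := mkCfg 176 64 80 5

/-- Order 6. -/
def cfg6 : Cfg := mkCfg 176 64 80 7

set_option maxRecDepth 100000 in
theorem cfg4_valid : cfg4.Valid := by
  refine ⟨?_, ?_, ?_, ?_, ?_, ?_, ?_, ?_, ?_, ?_, ?_, ?_, ?_, ?_, ?_, ?_, ?_, ?_, ?_⟩ <;> decide +kernel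

set_option maxRecDepth 100000 in
theorem cfg6_valid : cfg6.Valid := by
  refine ⟨?_, ?_, ?_, ?_, ?_, ?_, ?_, ?_, ?_, ?_, ?_, ?_, ?_, ?_, ?_, ?_, ?_, ?_, ?_⟩ <;> decide +kernel

lemma RepAt.congr {c : Cfg} {ξ η : ℝ} {t : TMod} {x y : ℝ} (h : RepAt c ξ η t x) (e : x = y) :
    RepAt c ξ η t y := e ▸ h

/-- The theorem obtained from a successful walk over the unit square. `Q v w` is the statement to
prove at a point: it follows either from the position of the point (`out`) or from `0 ≤ G v w`. -/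
theorem of_walk {c : Cfg} (hc : c.Valid) {F : TMod → TMod → TMod} {G : ℝ → ℝ → ℝ}
    (hF : ∀ ξ η (C : Ctx c ξ η) (a b : TMod) (v w : ℝ), RepAt c ξ η a v → RepAt c ξ η b w →
      RepAt c ξ η (F a b) (G v w))
    {Q : ℝ → ℝ → Prop} {out : ℕ → ℕ → ℕ → Bool}
    (hout : ∀ K i j, out K i j = true → ∀ v w, InCell K i j v w → Q v w)
    (hQ : ∀ v w, 0 ≤ G v w → Q v w) (fuel : ℕ)
    (h : walk2 (fun K i j => or (out K i j) (cellChk c F K i j)) fuel 0 0 0 = true)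
    (v w : ℝ) (hv0 : 0 ≤ v) (hv1 : v ≤ 1) (hw0 : 0 ≤ w) (hw1 : w ≤ 1) : Q v w := by
  refine walk2_sound (Q := Q) ?_ fuel 0 0 0 h v w ?_
  · intro K i j hc' v w hvw
    rw [Bool.or_eq_true] at hc'
    rcases hc' with h1 | h1
    · exact hout K i j h1 v w hvw
    · exact hQ v w (cellChk_sound hc hF h1 hvw)
  · refine ⟨?_, ?_, ?_, ?_⟩ <;> simpa

end Vale.Agent.P154.Hel.TM
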