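import Vale.Agent.P154.Hel.TMDigit

/-!
Taylor models in two local variables with packed coefficients (Kronecker substitution): a polynomial
of total degree `< ST` is stored as two natural numbers, the positive and the negative part of its
coefficients; the coefficient of `ξ^(d-j) η^j` is the digit number `d * ST + j` in base `2^w`.
All operations are written with the primitive operations on natural numbers and are validated by
identities between natural numbers checked at run time, so that the normalisations need no proof.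
-/

namespace Vale.Agent.P154.Hel.TM

open Finset

/-- The constants of a format. -/
structure Cfg where
  /-- Bits of a digit. -/
  w : ℕ
  /-- `w - 1`. -/
  w1 : ℕ
  /-- Fixed point bits. -/
  f : ℕ
  /-- Bits of a stored coefficient. -/
  b : ℕ
  /-- The order plus one. -/
  ST : ℕ
  /-- The number of positions, `ST * ST`. -/
  L : ℕ
  /-- `w * L`. -/
  wL : ℕ
  /-- `2^w - 1`. -/
  W1 : ℕ
  /-- `2^(w L) - 1`. -/
  LOW : ℕ
  /-- The top bit of every digit. -/
  SM : ℕ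
  /-- Mask of the stored coefficients. -/
  MB : ℕ
  /-- Mask of the rounding errors. -/
  MF : ℕ
  /-- Mask of the monomials without sign. -/
  MNE : ℕ
  /-- The position of `ξ`. -/
  PX : ℕ
  /-- The position of `η`. -/
  PY : ℕ
  /-- `2^b`. -/
  TB : ℕ
  /-- `2^f`. -/
  TF : ℕ

/-- The position `k` belongs to a monomial. -/
def supp (ST k : ℕ) : Prop := k % ST ≤ k / ST

instance (ST k : ℕ) : Decidable (supp ST k) := Nat.decLe _ _

/-- The monomial at position `k` has even exponents. -/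
def evenK (ST k : ℕ) : Prop := (k / ST - k % ST) % 2 = 0 ∧ (k % ST) % 2 = 0

instance (ST k : ℕ) : Decidable (evenK ST k) := instDecidableAnd

/-- The properties of the constants of a format. -/
structure Cfg.Valid (c : Cfg) : Prop where
  hw1 : c.w1 + 1 = c.w
  hW1 : c.W1 = 2 ^ c.w - 1
  hST : 2 ≤ c.ST
  hL : c.L = c.ST * c.ST
  hwL : c.wL = c.w * c.L
  hLOW : c.LOW = 2 ^ c.wL - 1
  hfb : c.f + 1 ≤ c.b
  hBig : 8 * (c.L * 2 ^ c.b) ^ 2 < 2 ^ c.w
  hMB : c.MB < (2 ^ c.w) ^ c.L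
  hMBd : ∀ k, k < c.L → dig (2 ^ c.w) c.MB k < 2 ^ c.b ∧ (¬ supp c.ST k → dig (2 ^ c.w) c.MB k = 0)
  hMF : c.MF < (2 ^ c.w) ^ c.L
  hMFd : ∀ k, k < c.L → dig (2 ^ c.w) c.MF k < 2 ^ c.f
  hMNE0 : dig (2 ^ c.w) c.MNE 0 = 0
  hMNEd : ∀ k, k < c.L → supp c.ST k → ¬ evenK c.ST k → dig (2 ^ c.w) c.MNE k = 2 ^ c.b - 1
  hMNE : c.MNE < (2 ^ c.w) ^ c.L
  hPX : c.PX = (2 ^ c.w) ^ c.ST
  hPY : c.PY = (2 ^ c.w) ^ (c.ST + 1)
  hTB : c.TB = 2 ^ c.b
  hTF : c.TF = 2 ^ c.f

/-- The monomial at position `k`. -/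
noncomputable def mono (ST : ℕ) (ξ η : ℝ) (k : ℕ) : ℝ :=
  if k % ST ≤ k / ST then ξ ^ (k / ST - k % ST) * η ^ (k % ST) else 0

lemma mono_mul {ST : ℕ} (hST : 2 ≤ ST) (ξ η : ℝ) {i j : ℕ} (hi : supp ST i) (hj : supp ST j)
    (hij : i + j < ST * ST) : mono ST ξ η i * mono ST ξ η j = mono ST ξ η (i + j) := by
  unfold supp at hi hj
  have hS : 0 < ST := by omega
  have ei := Nat.div_add_mod i ST
  have ej := Nat.div_add_mod j ST
  set d1 := i / ST with hd1
  set j1 := i % ST with hj1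
  set d2 := j / ST with hd2
  set j2 := j % ST with hj2
  have h1 : ST * (d1 + d2) + (j1 + j2) = i + j := by
    rw [mul_add]
    omega
  have h2 : ST * (d1 + d2) < ST * ST := by
    have : ST * (d1 + d2) ≤ i + j := by omega
    omega
  have h3 : d1 + d2 < ST := lt_of_mul_lt_mul_left h2 (Nat.zero_le _)
  have h4 : j1 + j2 < ST := by omega
  have e1 : (i + j) % ST = j1 + j2 := by
    rw [← h1, Nat.mul_add_mod, Nat.mod_eq_of_lt h4]
  have e2 : (i + j) / ST = d1 + d2 := by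
    rw [← h1, Nat.mul_add_div hS, Nat.div_eq_of_lt h4, add_zero]
  unfold mono
  rw [if_pos hi, if_pos hj, e1, e2, if_pos (by omega), ← hd1, ← hj1, ← hd2, ← hj2]
  have e3 : d1 + d2 - (j1 + j2) = (d1 - j1) + (d2 - j2) := by omega
  rw [e3, pow_add, pow_add]
  ring

lemma abs_mono_le {ST : ℕ} {ξ η : ℝ} (hξ : |ξ| ≤ 1) (hη : |η| ≤ 1) (k : ℕ) : |mono ST ξ η k| ≤ 1 := by
  unfold mono
  split_ifs
  · rw [abs_mul, abs_pow, abs_pow]
    exact mul_le_one₀ (pow_le_one₀ (abs_nonneg _) hξ) (by positivity) (pow_le_one₀ (abs_nonneg _) hη)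
  · simp

lemma mono_zero {ST : ℕ} (ξ η : ℝ) : mono ST ξ η 0 = 1 := by
  unfold mono
  simp

/-! ### Format of a packed polynomial -/

/-- A packed polynomial in the format. -/
def Fmt (c : Cfg) (X : ℕ) : Prop :=
  X < (2 ^ c.w) ^ c.L ∧ ∀ k, dig (2 ^ c.w) X k < 2 ^ c.b ∧ (¬ supp c.ST k → dig (2 ^ c.w) X k = 0)

/-- The context of the bounds: a valid format and a point of the square. -/
structure Ctx (c : Cfg) (ξ η : ℝ) : Prop where
  hc : c.Valid
  hξ : |ξ| ≤ 1
  hη : |η| ≤ 1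

lemma Cfg.Valid.Wpos {c : Cfg} (_ : c.Valid) : 0 < 2 ^ c.w := by positivity

lemma Cfg.Valid.W2 {c : Cfg} (hc : c.Valid) : 2 ≤ 2 ^ c.w := by
  have h := hc.hBig
  have h1 : 0 < 2 ^ c.b := by positivity
  have h2 : 0 < c.L := by
    rw [hc.hL]
    have := hc.hST
    positivity
  have h3 : 0 < (c.L * 2 ^ c.b) ^ 2 := by positivity
  omega

lemma dig_zero_of_ge {c : Cfg} {X k : ℕ} (hc : c.Valid) (hX : X < (2 ^ c.w) ^ c.L) (hk : c.L ≤ k) :
    dig (2 ^ c.w) X k = 0 := by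
  apply dig_eq_zero_of_lt
  refine lt_of_lt_of_le hX (Nat.pow_le_pow_right (Cfg.Valid.Wpos hc) hk)

lemma fmt_land {c : Cfg} (hc : c.Valid) (X : ℕ) : Fmt c (Nat.land X c.MB) := by
  have e : Nat.land X c.MB = X &&& c.MB := rfl
  rw [e]
  have hlt : (X &&& c.MB) < (2 ^ c.w) ^ c.L := lt_of_le_of_lt Nat.and_le_right hc.hMB
  refine ⟨hlt, fun k => ?_⟩
  by_cases hk : k < c.L
  · have h1 := dig_land_le (w := c.w) X c.MB k
    have h2 := hc.hMBd k hk
    refine ⟨lt_of_le_of_lt h1 h2.1, fun hs => ?_⟩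
    have := h2.2 hs
    omega
  · have h0 := dig_zero_of_ge hc hlt (not_lt.mp hk)
    rw [h0]
    exact ⟨by positivity, fun _ => rfl⟩

lemma dsum_le {c : Cfg} {X : ℕ} (hX : Fmt c X) : dsum (2 ^ c.w) c.L X ≤ c.L * 2 ^ c.b := by
  unfold dsum
  calc ∑ k ∈ range c.L, dig (2 ^ c.w) X k ≤ ∑ _k ∈ range c.L, 2 ^ c.b :=
        sum_le_sum fun k _ => (hX.2 k).1.le
    _ = c.L * 2 ^ c.b := by simp

/-- The value of a packed polynomial. -/
noncomputable def val (c : Cfg) (ξ η : ℝ) (X : ℕ) : ℝ := lam (2 ^ c.w) c.L X (mono c.ST ξ η)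

/-- The fixed point unit. -/
noncomputable def unit (c : Cfg) : ℝ := ((2 : ℝ) ^ c.f)⁻¹

lemma unit_pos (c : Cfg) : 0 < unit c := by
  unfold unit
  positivity

lemma unit_mul (c : Cfg) : (2 : ℝ) ^ c.f * unit c = 1 := by
  unfold unit
  field_simp

lemma abs_val_le {c : Cfg} {ξ η : ℝ} (C : Ctx c ξ η) (X : ℕ) :
    |val c ξ η X| ≤ (dsum (2 ^ c.w) c.L X : ℝ) :=
  abs_lam_le (abs_mono_le C.hξ C.hη)

/-! ### Products of packed polynomials -/

/-- The product of two values, up to the high digits of the product. -/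
lemma prod_bound {c : Cfg} {ξ η : ℝ} (C : Ctx c ξ η) {X Y : ℕ} (hX : Fmt c X) (hY : Fmt c Y) :
    |val c ξ η X * val c ξ η Y - lam (2 ^ c.w) c.L (X * Y) (mono c.ST ξ η)|
      ≤ (dsum (2 ^ c.w) c.L (X * Y / (2 ^ c.w) ^ c.L) : ℝ) := by
  have hc := C.hc
  have hW := Cfg.Valid.Wpos hc
  have hs : dsum (2 ^ c.w) c.L X * dsum (2 ^ c.w) c.L Y < 2 ^ c.w := by
    have h1 := dsum_le hX
    have h2 := dsum_le hY
    have h3 := Nat.mul_le_mul h1 h2
    have h4 := hc.hBig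
    rw [pow_two] at h4
    have : 0 ≤ (c.L * 2 ^ c.b) * (c.L * 2 ^ c.b) := Nat.zero_le _
    omega
  set m := mono c.ST ξ η with hm
  set W := 2 ^ c.w with hWd
  set gl : ℕ → ℝ := fun k => if k < c.L then m k else 0 with hgl
  set gh : ℕ → ℝ := fun k => if k < c.L then 0 else 1 with hgh
  have e1 := lam_mul hW hX.1 hY.1 hs gl
  have e2 := lam_mul hW hX.1 hY.1 hs gh
  have l1 : lam W (2 * c.L) (X * Y) gl = lam W c.L (X * Y) m := by
    unfold lam
    rw [two_mul, sum_range_add]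
    have h0 : ∑ x ∈ range c.L, (dig W (X * Y) (c.L + x) : ℝ) * gl (c.L + x) = 0 := by
      apply sum_eq_zero
      intro x _
      simp [hgl]
    rw [h0, add_zero]
    refine sum_congr rfl fun k hk => ?_
    simp [hgl, mem_range.mp hk]
  have l2 : lam W (2 * c.L) (X * Y) gh = (dsum W c.L (X * Y / W ^ c.L) : ℝ) := by
    unfold lam dsum
    rw [two_mul, sum_range_add]
    have h0 : ∑ x ∈ range c.L, (dig W (X * Y) x : ℝ) * gh x = 0 := by
      apply sum_eq_zero
      intro x hx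
      simp [hgh, mem_range.mp hx]
    rw [h0, zero_add]
    push_cast
    refine sum_congr rfl fun k _ => ?_
    rw [dig_high, add_comm k c.L]
    simp [hgh]
  have l3 : val c ξ η X * val c ξ η Y
      = ∑ i ∈ range c.L, ∑ j ∈ range c.L, (dig W X i : ℝ) * (dig W Y j : ℝ) * (m i * m j) := by
    unfold val lam
    rw [sum_mul_sum]
    refine sum_congr rfl fun i _ => sum_congr rfl fun j _ => ?_
    ring
  rw [← l1, ← l2, e1, e2, l3, ← sum_sub_distrib]
  refine (abs_sum_le_sum_abs _ _).trans (sum_le_sum fun i _ => ?_)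
  rw [← sum_sub_distrib]
  refine (abs_sum_le_sum_abs _ _).trans (sum_le_sum fun j _ => ?_)
  rw [← mul_sub, abs_mul]
  have hxy : (0 : ℝ) ≤ (dig W X i : ℝ) * (dig W Y j : ℝ) := by positivity
  rw [abs_of_nonneg hxy]
  by_cases hi : supp c.ST i
  · by_cases hj : supp c.ST j
    · apply mul_le_mul_of_nonneg_left _ hxy
      by_cases hij : i + j < c.L
      · have e : m i * m j = m (i + j) := by
          rw [hc.hL] at hij
          exact mono_mul hc.hST ξ η hi hj hij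
        simp [hgl, hgh, hij, e]
      · simp only [hgl, hgh, if_neg hij, sub_zero]
        rw [abs_mul]
        exact mul_le_one₀ (abs_mono_le C.hξ C.hη i) (abs_nonneg _) (abs_mono_le C.hξ C.hη j)
    · have h0 : dig W Y j = 0 := (hY.2 j).2 hj
      rw [h0]
      simp
  · have h0 : dig W X i = 0 := (hX.2 i).2 hi
    rw [h0]
    simp

/-- Digit bound for products. -/
lemma dig_prod_le {c : Cfg} (hc : c.Valid) {X Y : ℕ} (hX : Fmt c X) (hY : Fmt c Y) (k : ℕ) :
    dig (2 ^ c.w) (X * Y) k ≤ (c.L * 2 ^ c.b) ^ 2 := by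
  have hW := Cfg.Valid.Wpos hc
  have h1 := dsum_le hX
  have h2 := dsum_le hY
  have h3 := Nat.mul_le_mul h1 h2
  rw [← pow_two] at h3
  have hs : dsum (2 ^ c.w) c.L X * dsum (2 ^ c.w) c.L Y < 2 ^ c.w := by
    have h4 := hc.hBig
    omega
  by_cases hk : k < 2 * c.L
  · rw [dig_mul hW hX.1 hY.1 hs k hk]
    exact (conv_le _ _ _ _ _).trans h3
  · have h5 := mul_lt_pow hW hX.1 hY.1
    rw [dig_eq_zero_of_lt (lt_of_lt_of_le h5 (Nat.pow_le_pow_right hW (not_lt.mp hk)))]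
    exact Nat.zero_le _

/-- The sum of the high digits of a product. -/
lemma dsum_high_le {c : Cfg} {ξ η : ℝ} (C : Ctx c ξ η) {X Y : ℕ} (hX : Fmt c X) (hY : Fmt c Y) :
    dsum (2 ^ c.w) c.L (X * Y / (2 ^ c.w) ^ c.L) ≤ (c.L * 2 ^ c.b) ^ 2 := by
  have hc := C.hc
  have hW := Cfg.Valid.Wpos hc
  have h1 := dsum_le hX
  have h2 := dsum_le hY
  have h3 := Nat.mul_le_mul h1 h2
  rw [← pow_two] at h3
  have hs : dsum (2 ^ c.w) c.L X * dsum (2 ^ c.w) c.L Y < 2 ^ c.w := by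
    have h4 := hc.hBig
    omega
  have e2 := lam_mul hW hX.1 hY.1 hs (fun k => if k < c.L then 0 else 1)
  have l2 : lam (2 ^ c.w) (2 * c.L) (X * Y) (fun k => if k < c.L then 0 else 1)
      = (dsum (2 ^ c.w) c.L (X * Y / (2 ^ c.w) ^ c.L) : ℝ) := by
    unfold lam dsum
    rw [two_mul, sum_range_add]
    have h0 : ∑ x ∈ range c.L, (dig (2 ^ c.w) (X * Y) x : ℝ) * (if x < c.L then (0 : ℝ) else 1) = 0 := by
      apply sum_eq_zero
      intro x hx
      simp [mem_range.mp hx]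
    rw [h0, zero_add]
    push_cast
    refine sum_congr rfl fun k _ => ?_
    rw [dig_high, add_comm k c.L]
    simp
  have h5 : (dsum (2 ^ c.w) c.L (X * Y / (2 ^ c.w) ^ c.L) : ℝ)
      ≤ (dsum (2 ^ c.w) c.L X : ℝ) * (dsum (2 ^ c.w) c.L Y : ℝ) := by
    rw [← l2, e2]
    unfold dsum
    push_cast
    rw [sum_mul_sum]
    refine sum_le_sum fun i _ => sum_le_sum fun j _ => ?_
    have hxy : (0 : ℝ) ≤ (dig (2 ^ c.w) X i : ℝ) * (dig (2 ^ c.w) Y j : ℝ) := by positivity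
    split_ifs <;> simp [hxy]
  have h6 : dsum (2 ^ c.w) c.L (X * Y / (2 ^ c.w) ^ c.L) ≤ dsum (2 ^ c.w) c.L X * dsum (2 ^ c.w) c.L Y := by
    exact_mod_cast h5
  exact h6.trans h3

end Vale.Agent.P154.Hel.TM
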