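import Vale.Agent.P154.Hel.TMInv

/-!
Exact jets: the same packed polynomials, with products checked to be exact in the fixed point format
and a remainder proportional to the power `θ^ST` of the size `θ` of the point. This is what is needed
at a point where a function vanishes to high order.
-/

namespace Vale.Agent.P154.Hel.TM

open Finset

/-- The context: a point of size `θ ≤ 1`, `Θ = θ ^ ST`. -/
structure CtxX (c : Cfg) (ξ η θ Θ : ℝ) : Prop where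
  hc : c.Valid
  hξ : |ξ| ≤ θ
  hη : |η| ≤ θ
  hθ0 : 0 ≤ θ
  hθ1 : θ ≤ 1
  hΘ : Θ = θ ^ c.ST

lemma CtxX.ctx {c : Cfg} {ξ η θ Θ : ℝ} (C : CtxX c ξ η θ Θ) : Ctx c ξ η :=
  ⟨C.hc, C.hξ.trans C.hθ1, C.hη.trans C.hθ1⟩

lemma CtxX.Θ0 {c : Cfg} {ξ η θ Θ : ℝ} (C : CtxX c ξ η θ Θ) : 0 ≤ Θ := by
  rw [C.hΘ]
  exact pow_nonneg C.hθ0 _

lemma CtxX.Θ1 {c : Cfg} {ξ η θ Θ : ℝ} (C : CtxX c ξ η θ Θ) : Θ ≤ 1 := by
  rw [C.hΘ]
  exact pow_le_one₀ C.hθ0 C.hθ1

/-- A monomial is bounded by the power of the size. -/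
lemma abs_mono_le_pow {ST : ℕ} {ξ η θ : ℝ} (hξ : |ξ| ≤ θ) (hη : |η| ≤ θ) {k : ℕ} (hk : supp ST k) :
    |mono ST ξ η k| ≤ θ ^ (k / ST) := by
  unfold mono
  rw [if_pos (show k % ST ≤ k / ST from hk), abs_mul, abs_pow, abs_pow]
  unfold supp at hk
  have h0 : 0 ≤ θ := (abs_nonneg _).trans hξ
  have e : θ ^ (k / ST) = θ ^ (k / ST - k % ST) * θ ^ (k % ST) := by
    rw [← pow_add]
    congr 1
    omega
  rw [e]
  exact mul_le_mul (pow_le_pow_left₀ (abs_nonneg _) hξ _) (pow_le_pow_left₀ (abs_nonneg _) hη _)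
    (by positivity) (by positivity)

/-- Two monomials whose product is beyond the truncation. -/
lemma abs_mono_mul_high {ST : ℕ} {ξ η θ : ℝ} (hST : 2 ≤ ST) (hξ : |ξ| ≤ θ) (hη : |η| ≤ θ) (hθ1 : θ ≤ 1)
    {i j : ℕ} (hi : supp ST i) (hj : supp ST j) (hij : ST * ST ≤ i + j) :
    |mono ST ξ η i * mono ST ξ η j| ≤ θ ^ ST := by
  have h0 : 0 ≤ θ := (abs_nonneg _).trans hξ
  rw [abs_mul]
  have h1 := abs_mono_le_pow hξ hη hi
  have h2 := abs_mono_le_pow hξ hη hj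
  have h3 : |mono ST ξ η i| * |mono ST ξ η j| ≤ θ ^ (i / ST) * θ ^ (j / ST) :=
    mul_le_mul h1 h2 (abs_nonneg _) (by positivity)
  rw [← pow_add] at h3
  refine h3.trans (pow_le_pow_of_le_one h0 hθ1 ?_)
  unfold supp at hi hj
  have ei := Nat.div_add_mod i ST
  have ej := Nat.div_add_mod j ST
  have hS : 0 < ST := by omega
  by_contra hn
  push Not at hn
  have h4 : i / ST + j / ST + 1 ≤ ST := by omega
  have h5 : ST * (i / ST + j / ST + 1) ≤ ST * ST := Nat.mul_le_mul_left _ h4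
  rw [mul_add, mul_add, mul_one] at h5
  have h6 : i % ST + j % ST ≤ i / ST + j / ST := by omega
  omega

/-- The product of two values, up to the high digits of the product. -/
lemma prod_boundX {c : Cfg} {ξ η θ Θ : ℝ} (C : CtxX c ξ η θ Θ) {X Y : ℕ} (hX : Fmt c X) (hY : Fmt c Y) :
    |val c ξ η X * val c ξ η Y - lam (2 ^ c.w) c.L (X * Y) (mono c.ST ξ η)|
      ≤ Θ * (dsum (2 ^ c.w) c.L (X * Y / (2 ^ c.w) ^ c.L) : ℝ) := by
  have hc := C.hc
  have hW := Cfg.Valid.Wpos hc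
  have hs : dsum (2 ^ c.w) c.L X * dsum (2 ^ c.w) c.L Y < 2 ^ c.w := by
    have h1 := dsum_le hX
    have h2 := dsum_le hY
    have h3 := Nat.mul_le_mul h1 h2
    have h4 := hc.hBig
    rw [pow_two] at h4
    have : 0 ≤ (c.L * 2 ^ c.b) * (c.L * 2 ^ c.b) := Nat.zero_le _
    omega
  set m := mono c.ST ξ η with hm
  set W := 2 ^ c.w with hWd
  set gl : ℕ → ℝ := fun k => if k < c.L then m k else 0 with hgl
  set gh : ℕ → ℝ := fun k => if k < c.L then 0 else Θ with hgh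
  have e1 := lam_mul hW hX.1 hY.1 hs gl
  have e2 := lam_mul hW hX.1 hY.1 hs gh
  have l1 : lam W (2 * c.L) (X * Y) gl = lam W c.L (X * Y) m := by
    unfold lam
    rw [two_mul, sum_range_add]
    have h0 : ∑ x ∈ range c.L, (dig W (X * Y) (c.L + x) : ℝ) * gl (c.L + x) = 0 := by
      apply sum_eq_zero
      intro x _
      simp [hgl]
    rw [h0, add_zero]
    refine sum_congr rfl fun k hk => ?_
    simp [hgl, mem_range.mp hk]
  have l2 : lam W (2 * c.L) (X * Y) gh = Θ * (dsum W c.L (X * Y / W ^ c.L) : ℝ) := by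
    unfold lam dsum
    rw [two_mul, sum_range_add]
    have h0 : ∑ x ∈ range c.L, (dig W (X * Y) x : ℝ) * gh x = 0 := by
      apply sum_eq_zero
      intro x hx
      simp [hgh, mem_range.mp hx]
    rw [h0, zero_add]
    push_cast
    rw [mul_sum]
    refine sum_congr rfl fun k _ => ?_
    rw [dig_high, add_comm k c.L]
    simp [hgh, mul_comm]
  have l3 : val c ξ η X * val c ξ η Y
      = ∑ i ∈ range c.L, ∑ j ∈ range c.L, (dig W X i : ℝ) * (dig W Y j : ℝ) * (m i * m j) := by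
    unfold val lam
    rw [sum_mul_sum]
    refine sum_congr rfl fun i _ => sum_congr rfl fun j _ => ?_
    ring
  rw [← l1, ← l2, e1, e2, l3, ← sum_sub_distrib]
  refine (abs_sum_le_sum_abs _ _).trans (sum_le_sum fun i _ => ?_)
  rw [← sum_sub_distrib]
  refine (abs_sum_le_sum_abs _ _).trans (sum_le_sum fun j _ => ?_)
  rw [← mul_sub, abs_mul]
  have hxy : (0 : ℝ) ≤ (dig W X i : ℝ) * (dig W Y j : ℝ) := by positivity
  rw [abs_of_nonneg hxy]
  by_cases hi : supp c.ST i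
  · by_cases hj : supp c.ST j
    · apply mul_le_mul_of_nonneg_left _ hxy
      by_cases hij : i + j < c.L
      · have e : m i * m j = m (i + j) := by
          rw [hc.hL] at hij
          exact mono_mul hc.hST ξ η hi hj hij
        simp [hgl, hgh, hij, e]
      · simp only [hgl, hgh, if_neg hij, sub_zero]
        rw [C.hΘ]
        have hij' : c.ST * c.ST ≤ i + j := by
          rw [← hc.hL]
          exact not_lt.mp hij
        exact abs_mono_mul_high hc.hST C.hξ C.hη C.hθ1 hi hj hij'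
    · have h0 : dig W Y j = 0 := (hY.2 j).2 hj
      rw [h0]
      simp
  · have h0 : dig W X i = 0 := (hX.2 i).2 hi
    rw [h0]
    simp

/-! ### Enclosures -/

/-- `t` encloses `x` with a remainder proportional to `Θ`. -/
def RepX (c : Cfg) (ξ η Θ : ℝ) (t : TMod) (x : ℝ) : Prop :=
  Good c t ∧ (t.ok = true → |x - t.V c ξ η| ≤ (t.rem : ℝ) * Θ * unit c)

lemma RepX.congr {c : Cfg} {ξ η Θ : ℝ} {t : TMod} {x y : ℝ} (h : RepX c ξ η Θ t x) (e : x = y) :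
    RepX c ξ η Θ t y := e ▸ h

lemma repX_neg {c : Cfg} {ξ η Θ : ℝ} {a : TMod} {x : ℝ} (h : RepX c ξ η Θ a x) :
    RepX c ξ η Θ (negT a) (-x) := by
  refine ⟨good_neg h.1, fun hok => ?_⟩
  have h1 := h.2 hok
  show |-x - (val c ξ η a.N - val c ξ η a.P) * unit c| ≤ (a.rem : ℝ) * Θ * unit c
  have e : -x - (val c ξ η a.N - val c ξ η a.P) * unit c = -(x - (val c ξ η a.P - val c ξ η a.N) * unit c) := by
    ring
  rw [e, abs_neg]
  exact h1

lemma repX_add {c : Cfg} {ξ η θ Θ : ℝ} (C : CtxX c ξ η θ Θ) {a b : TMod} {x y : ℝ} (ha : RepX c ξ η Θ a x)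
    (hb : RepX c ξ η Θ b y) : RepX c ξ η Θ (addT c a b) (x + y) := by
  have hc := C.hc
  have hW := Cfg.Valid.Wpos hc
  have h1 := dig_fmt_add_le hc ha.1.1 hb.1.1
  have h2 := dig_fmt_add_le hc ha.1.2.1 hb.1.2.1
  have key := addCore_sound C.ctx (A := Nat.add a.P b.P) (B := Nat.add a.N b.N)
    (r := Nat.add a.rem b.rem) (ok := and a.ok b.ok) (fun k => (h1 k).1) (fun k => (h2 k).1)
  refine ⟨key.1, fun hok => ?_⟩
  obtain ⟨hab, hV⟩ := key.2 hok
  rw [Bool.and_eq_true] at hab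
  have ra := ha.2 hab.1
  have rb := hb.2 hab.2
  show |x + y - (addT c a b).V c ξ η| ≤ ((Nat.add a.rem b.rem : ℕ) : ℝ) * Θ * unit c
  have hV' : (addT c a b).V c ξ η = a.V c ξ η + b.V c ξ η := by
    show (addCore c _ _ _ _).V c ξ η = _
    rw [hV]
    have hda : ∀ k, dig (2 ^ c.w) a.P k + dig (2 ^ c.w) b.P k < 2 ^ c.w := by
      intro k
      rw [← (h1 k).2]
      have := (h1 k).1
      have := pow_b_le hc
      have := M_le_sq hc
      have := hc.hBig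
      omega
    have hdb : ∀ k, dig (2 ^ c.w) a.N k + dig (2 ^ c.w) b.N k < 2 ^ c.w := by
      intro k
      rw [← (h2 k).2]
      have := (h2 k).1
      have := pow_b_le hc
      have := M_le_sq hc
      have := hc.hBig
      omega
    have e1 : lam (2 ^ c.w) c.L (Nat.add a.P b.P) (mono c.ST ξ η) = val c ξ η a.P + val c ξ η b.P :=
      lam_add hW hda _ _
    have e2 : lam (2 ^ c.w) c.L (Nat.add a.N b.N) (mono c.ST ξ η) = val c ξ η a.N + val c ξ η b.N :=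
      lam_add hW hdb _ _
    rw [e1, e2]
    unfold TMod.V
    ring
  rw [hV']
  have e : x + y - (a.V c ξ η + b.V c ξ η) = (x - a.V c ξ η) + (y - b.V c ξ η) := by ring
  rw [e]
  refine (abs_add_le _ _).trans ?_
  show _ ≤ ((a.rem + b.rem : ℕ) : ℝ) * Θ * unit c
  push_cast
  rw [add_mul, add_mul]
  exact add_le_add ra rb

lemma repX_sub {c : Cfg} {ξ η θ Θ : ℝ} (C : CtxX c ξ η θ Θ) {a b : TMod} {x y : ℝ} (ha : RepX c ξ η Θ a x)
    (hb : RepX c ξ η Θ b y) : RepX c ξ η Θ (subT c a b) (x - y) := by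
  have hc := C.hc
  have hW := Cfg.Valid.Wpos hc
  have h1 := dig_fmt_add_le hc ha.1.1 hb.1.2.1
  have h2 := dig_fmt_add_le hc ha.1.2.1 hb.1.1
  have key := addCore_sound C.ctx (A := Nat.add a.P b.N) (B := Nat.add a.N b.P)
    (r := Nat.add a.rem b.rem) (ok := and a.ok b.ok) (fun k => (h1 k).1) (fun k => (h2 k).1)
  refine ⟨key.1, fun hok => ?_⟩
  obtain ⟨hab, hV⟩ := key.2 hok
  rw [Bool.and_eq_true] at hab
  have ra := ha.2 hab.1
  have rb := hb.2 hab.2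
  show |x - y - (subT c a b).V c ξ η| ≤ ((Nat.add a.rem b.rem : ℕ) : ℝ) * Θ * unit c
  have hV' : (subT c a b).V c ξ η = a.V c ξ η - b.V c ξ η := by
    show (addCore c _ _ _ _).V c ξ η = _
    rw [hV]
    have hda : ∀ k, dig (2 ^ c.w) a.P k + dig (2 ^ c.w) b.N k < 2 ^ c.w := by
      intro k
      rw [← (h1 k).2]
      have := (h1 k).1
      have := pow_b_le hc
      have := M_le_sq hc
      have := hc.hBig
      omega
    have hdb : ∀ k, dig (2 ^ c.w) a.N k + dig (2 ^ c.w) b.P k < 2 ^ c.w := by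
      intro k
      rw [← (h2 k).2]
      have := (h2 k).1
      have := pow_b_le hc
      have := M_le_sq hc
      have := hc.hBig
      omega
    have e1 : lam (2 ^ c.w) c.L (Nat.add a.P b.N) (mono c.ST ξ η) = val c ξ η a.P + val c ξ η b.N :=
      lam_add hW hda _ _
    have e2 : lam (2 ^ c.w) c.L (Nat.add a.N b.P) (mono c.ST ξ η) = val c ξ η a.N + val c ξ η b.P :=
      lam_add hW hdb _ _
    rw [e1, e2]
    unfold TMod.V
    ring
  rw [hV']
  have e : x - y - (a.V c ξ η - b.V c ξ η) = (x - a.V c ξ η) - (y - b.V c ξ η) := by ring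
  rw [e]
  refine (abs_sub _ _).trans ?_
  show _ ≤ ((a.rem + b.rem : ℕ) : ℝ) * Θ * unit c
  push_cast
  rw [add_mul, add_mul]
  exact add_le_add ra rb

lemma repX_smul {c : Cfg} {ξ η θ Θ : ℝ} (C : CtxX c ξ η θ Θ) (n : ℕ) {a : TMod} {x : ℝ} (ha : RepX c ξ η Θ a x) :
    RepX c ξ η Θ (smulT c n a) ((n : ℝ) * x) := by
  have hc := C.hc
  refine ⟨good_mk hc _ _ _ _, fun hok => ?_⟩
  have hok' : and a.ok (and (Nat.ble n c.TB) (and (Nat.beq (Nat.land (Nat.mul a.P n) c.MB) (Nat.mul a.P n))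
      (Nat.beq (Nat.land (Nat.mul a.N n) c.MB) (Nat.mul a.N n)))) = true := hok
  simp only [Bool.and_eq_true] at hok'
  obtain ⟨h1, h2, h3, h4⟩ := hok'
  have hn : n ≤ 2 ^ c.b := by
    rw [← hc.hTB]
    exact Nat.le_of_ble_eq_true h2
  have e1 := Nat.eq_of_beq_eq_true h3
  have e2 := Nat.eq_of_beq_eq_true h4
  have r := ha.2 h1
  show |(n : ℝ) * x - (val c ξ η (Nat.land (Nat.mul a.P n) c.MB) - val c ξ η (Nat.land (Nat.mul a.N n) c.MB)) * unit c|
    ≤ ((Nat.mul n a.rem : ℕ) : ℝ) * Θ * unit c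
  rw [e1, e2]
  have v1 : val c ξ η (Nat.mul a.P n) = (n : ℝ) * val c ξ η a.P := lam_mul_const hc ha.1.1 hn _ _
  have v2 : val c ξ η (Nat.mul a.N n) = (n : ℝ) * val c ξ η a.N := lam_mul_const hc ha.1.2.1 hn _ _
  rw [v1, v2]
  have e3 : (n : ℝ) * x - ((n : ℝ) * val c ξ η a.P - (n : ℝ) * val c ξ η a.N) * unit c
      = (n : ℝ) * (x - a.V c ξ η) := by
    unfold TMod.V
    ring
  rw [e3, abs_mul, Nat.abs_cast]
  show _ ≤ ((n * a.rem : ℕ) : ℝ) * Θ * unit c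
  push_cast
  have e4 : (n : ℝ) * (a.rem : ℝ) * Θ * unit c = (n : ℝ) * ((a.rem : ℝ) * Θ * unit c) := by ring
  rw [e4]
  exact mul_le_mul_of_nonneg_left r (Nat.cast_nonneg _)

lemma repX_ofFix {c : Cfg} {ξ η θ Θ : ℝ} (C : CtxX c ξ η θ Θ) (n : ℕ) :
    RepX c ξ η Θ (ofFix c n) ((n : ℝ) * unit c) := by
  refine ⟨good_ofFixR C.hc n 0 true, fun hok => ?_⟩
  have h := (ofFixR_V C.ctx hok).2
  show |_ - TMod.V c ξ η (ofFixR c n 0 true)| ≤ ((0 : ℕ) : ℝ) * Θ * unit c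
  rw [h]
  simp

/-- The integer `n`, as a Taylor model. -/
def ofNatX (c : Cfg) (n : ℕ) : TMod := ofFix c (Nat.mul n c.TF)

lemma repX_ofNatX {c : Cfg} {ξ η θ Θ : ℝ} (C : CtxX c ξ η θ Θ) (n : ℕ) :
    RepX c ξ η Θ (ofNatX c n) (n : ℝ) := by
  have h := repX_ofFix C (Nat.mul n c.TF)
  refine h.congr ?_
  show ((n * c.TF : ℕ) : ℝ) * unit c = _
  have hc := C.hc
  rw [hc.hTF]
  push_cast
  rw [mul_assoc, unit_mul, mul_one]

/-! ### Exact products -/

/-- Product, exact in the format up to the truncated part. -/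
def mulX (c : Cfg) (a b : TMod) : TMod :=
  (fun zp zn => (fun zpl znl => (fun d => (fun pp nn => (fun P N =>
    TMod.mk P N (Nat.add (Nat.mod P c.W1) (Nat.mod N c.W1))
      (Nat.add (Nat.shiftRight (Nat.add (Nat.add (Nat.add (Nat.mul a.nrm b.rem) (Nat.mul b.nrm a.rem))
          (Nat.mul a.rem b.rem))
        (Nat.add (Nat.mod (Nat.shiftRight zp c.wL) c.W1) (Nat.mod (Nat.shiftRight zn c.wL) c.W1))) c.f) 1)
      (and (and a.ok b.ok)
        (Nat.beq (Nat.add zpl (Nat.shiftLeft N c.f)) (Nat.add znl (Nat.shiftLeft P c.f)))))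
    (Nat.land (Nat.shiftRight pp c.f) c.MB) (Nat.land (Nat.shiftRight nn c.f) c.MB))
    (posPart c d) (negPart c d))
    (splitD c zpl znl))
    (Nat.land zp c.LOW) (Nat.land zn c.LOW))
  (Nat.add (Nat.mul a.P b.P) (Nat.mul a.N b.N)) (Nat.add (Nat.mul a.P b.N) (Nat.mul a.N b.P))

lemma good_mulX {c : Cfg} (hc : c.Valid) (a b : TMod) : Good c (mulX c a b) := good_mk hc _ _ _ _

/-- The main inequality of the exact product. -/
lemma mulX_core {c : Cfg} {ξ η θ Θ : ℝ} (C : CtxX c ξ η θ Θ) {a b : TMod} (ga : Good c a) (gb : Good c b)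
    {P N : ℕ} (hP : Fmt c P) (hN : Fmt c N)
    (hchk : (a.P * b.P + a.N * b.N) % (2 ^ c.w) ^ c.L + N * 2 ^ c.f
      = (a.P * b.N + a.N * b.P) % (2 ^ c.w) ^ c.L + P * 2 ^ c.f) :
    |a.V c ξ η * b.V c ξ η - (val c ξ η P - val c ξ η N) * unit c|
      ≤ ((dsum (2 ^ c.w) c.L ((a.P * b.P + a.N * b.N) / (2 ^ c.w) ^ c.L)
          + dsum (2 ^ c.w) c.L ((a.P * b.N + a.N * b.P) / (2 ^ c.w) ^ c.L) : ℕ) : ℝ) * Θ * unit c ^ 2 := by
  have hc := C.hc
  have hW := Cfg.Valid.Wpos hc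
  have hBig := hc.hBig
  set W := 2 ^ c.w with hWd
  set m := mono c.ST ξ η with hm
  obtain ⟨gaP, gaN, _⟩ := ga
  obtain ⟨gbP, gbN, _⟩ := gb
  set Z1 := a.P * b.P with hZ1
  set Z2 := a.N * b.N with hZ2
  set Z3 := a.P * b.N with hZ3
  set Z4 := a.N * b.P with hZ4
  have hM := M_le_sq hc
  have c12 : ∀ k, dig W Z1 k + dig W Z2 k < W := fun k => by
    have h : dig W Z1 k + dig W Z2 k ≤ 2 * (c.L * 2 ^ c.b) ^ 2 := dig_pair hc gaP gbP gaN gbN k
    omega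
  have c34 : ∀ k, dig W Z3 k + dig W Z4 k < W := fun k => by
    have h : dig W Z3 k + dig W Z4 k ≤ 2 * (c.L * 2 ^ c.b) ^ 2 := dig_pair hc gaP gbN gaN gbP k
    omega
  have p1 := prod_boundX C gaP gbP
  have p2 := prod_boundX C gaN gbN
  have p3 := prod_boundX C gaP gbN
  have p4 := prod_boundX C gaN gbP
  have a12 := lam_add hW c12 c.L m
  have a34 := lam_add hW c34 c.L m
  have d12 : dsum W c.L ((Z1 + Z2) / W ^ c.L) = dsum W c.L (Z1 / W ^ c.L) + dsum W c.L (Z2 / W ^ c.L) := by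
    unfold dsum
    rw [← sum_add_distrib]
    refine sum_congr rfl fun k _ => ?_
    rw [dig_high, dig_high, dig_high, dig_add hW c12]
  have d34 : dsum W c.L ((Z3 + Z4) / W ^ c.L) = dsum W c.L (Z3 / W ^ c.L) + dsum W c.L (Z4 / W ^ c.L) := by
    unfold dsum
    rw [← sum_add_distrib]
    refine sum_congr rfl fun k _ => ?_
    rw [dig_high, dig_high, dig_high, dig_add hW c34]
  set zpl := (Z1 + Z2) % W ^ c.L with hzpl
  set znl := (Z3 + Z4) % W ^ c.L with hznl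
  have lp : lam W c.L zpl m = lam W c.L (Z1 + Z2) m := lam_congr fun k hk => dig_low hW _ _ _ hk
  have ln : lam W c.L znl m = lam W c.L (Z3 + Z4) m := lam_congr fun k hk => dig_low hW _ _ _ hk
  have bp : ∀ k, dig W zpl k ≤ 2 * (c.L * 2 ^ c.b) ^ 2 := by
    intro k
    by_cases hk : k < c.L
    · rw [hzpl, dig_low hW _ _ _ hk, dig_add hW c12]
      exact dig_pair hc gaP gbP gaN gbN k
    · rw [dig_eq_zero_of_lt]
      · exact Nat.zero_le _
      · exact lt_of_lt_of_le (Nat.mod_lt _ (by positivity)) (Nat.pow_le_pow_right hW (not_lt.mp hk))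
  have bn : ∀ k, dig W znl k ≤ 2 * (c.L * 2 ^ c.b) ^ 2 := by
    intro k
    by_cases hk : k < c.L
    · rw [hznl, dig_low hW _ _ _ hk, dig_add hW c34]
      exact dig_pair hc gaP gbN gaN gbP k
    · rw [dig_eq_zero_of_lt]
      · exact Nat.zero_le _
      · exact lt_of_lt_of_le (Nat.mod_lt _ (by positivity)) (Nat.pow_le_pow_right hW (not_lt.mp hk))
  have hfb : 2 ^ c.f ≤ 2 ^ c.b := Nat.pow_le_pow_right (by norm_num) (by have := hc.hfb; omega)
  have hbf := pow_bf_le hc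
  have dN : ∀ k, dig W (N * 2 ^ c.f) k = dig W N k * 2 ^ c.f := fun k => dig_mul_const hW (fun j => by
    have h1 := (hN.2 j).1
    have h2 : dig W N j * 2 ^ c.f ≤ 2 ^ c.b * 2 ^ c.f := Nat.mul_le_mul_right _ h1.le
    omega) k
  have dP : ∀ k, dig W (P * 2 ^ c.f) k = dig W P k * 2 ^ c.f := fun k => dig_mul_const hW (fun j => by
    have h1 := (hP.2 j).1
    have h2 : dig W P j * 2 ^ c.f ≤ 2 ^ c.b * 2 ^ c.f := Nat.mul_le_mul_right _ h1.le
    omega) k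
  have bNf : ∀ k, dig W N k * 2 ^ c.f ≤ (c.L * 2 ^ c.b) ^ 2 := fun k =>
    (Nat.mul_le_mul_right _ (hN.2 k).1.le).trans hbf
  have bPf : ∀ k, dig W P k * 2 ^ c.f ≤ (c.L * 2 ^ c.b) ^ 2 := fun k =>
    (Nat.mul_le_mul_right _ (hP.2 k).1.le).trans hbf
  have cA : ∀ k, dig W zpl k + dig W (N * 2 ^ c.f) k < W := fun k => by
    rw [dN]
    have := bp k
    have := bNf k
    omega
  have cB : ∀ k, dig W znl k + dig W (P * 2 ^ c.f) k < W := fun k => by
    rw [dP]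
    have := bn k
    have := bPf k
    omega
  have ck := lam_of_eq hW hchk cA cB c.L m
  rw [lam_mul_const hc hN (by exact hfb), lam_mul_const hc hP (by exact hfb)] at ck
  have hu := unit_pos c
  have hu2 := unit_mul c
  unfold TMod.V
  unfold val at p1 p2 p3 p4 ⊢
  set vPa := lam W c.L a.P m
  set vNa := lam W c.L a.N m
  set vPb := lam W c.L b.P m
  set vNb := lam W c.L b.N m
  set vP := lam W c.L P m
  set vN := lam W c.L N m
  set dd := ((dsum W c.L ((Z1 + Z2) / W ^ c.L) + dsum W c.L ((Z3 + Z4) / W ^ c.L) : ℕ) : ℝ) with hdd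
  have hdd' : dd = (dsum W c.L (Z1 / W ^ c.L) : ℝ) + dsum W c.L (Z2 / W ^ c.L) + dsum W c.L (Z3 / W ^ c.L)
      + dsum W c.L (Z4 / W ^ c.L) := by
    rw [hdd, d12, d34]
    push_cast
    ring
  have e5 : (vPa - vNa) * unit c * ((vPb - vNb) * unit c) - (vP - vN) * unit c
      = (((vPa * vPb - lam W c.L Z1 m) + (vNa * vNb - lam W c.L Z2 m) - (vPa * vNb - lam W c.L Z3 m)
          - (vNa * vPb - lam W c.L Z4 m))) * unit c ^ 2 := by
    have h2f' : (2 : ℝ) ^ c.f * unit c = 1 := hu2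
    have e6 : (vP - vN) * unit c = (vP - vN) * ((2 : ℝ) ^ c.f * unit c) * unit c := by
      rw [h2f', mul_one]
    rw [e6]
    have e7 : lam W c.L Z1 m + lam W c.L Z2 m - (lam W c.L Z3 m + lam W c.L Z4 m)
        = (vP - vN) * 2 ^ c.f := by
      rw [← a12, ← a34, ← lp, ← ln]
      have ck' : lam W c.L zpl m + (((2 ^ c.f : ℕ) : ℝ) * vN)
          = lam W c.L znl m + (((2 ^ c.f : ℕ) : ℝ) * vP) := ck
      push_cast at ck'
      linarith
    have e8 : (vPa - vNa) * ((vPb - vNb)) = ((vPa * vPb - lam W c.L Z1 m) + (vNa * vNb - lam W c.L Z2 m)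
        - (vPa * vNb - lam W c.L Z3 m) - (vNa * vPb - lam W c.L Z4 m))
        + (lam W c.L Z1 m + lam W c.L Z2 m - (lam W c.L Z3 m + lam W c.L Z4 m)) := by
      ring
    calc (vPa - vNa) * unit c * ((vPb - vNb) * unit c) - (vP - vN) * ((2 : ℝ) ^ c.f * unit c) * unit c
        = ((vPa - vNa) * ((vPb - vNb)) - (vP - vN) * 2 ^ c.f) * unit c ^ 2 := by ring
      _ = _ := by
        rw [e8, e7]
        ring
  rw [e5, abs_mul, abs_of_nonneg (by positivity : (0 : ℝ) ≤ unit c ^ 2)]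
  apply mul_le_mul_of_nonneg_right _ (by positivity)
  rw [hdd', add_mul, add_mul, add_mul, mul_comm _ Θ, mul_comm _ Θ, mul_comm _ Θ, mul_comm _ Θ]
  refine (abs_sub _ _).trans (add_le_add ((abs_sub _ _).trans (add_le_add ((abs_add_le _ _).trans (add_le_add p1 p2)) p3)) p4)

/-- The real inequality for the exact product. -/
lemma mulX_real {x y va vb e ra rb na nb vp h Θ S : ℝ} (he : 0 < e) (hΘ0 : 0 ≤ Θ) (hΘ1 : Θ ≤ 1)
    (hra : 0 ≤ ra) (hrb : 0 ≤ rb)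
    (h1 : |x - va| ≤ ra * Θ * e) (h2 : |y - vb| ≤ rb * Θ * e) (h3 : |va| ≤ na * e) (h4 : |vb| ≤ nb * e)
    (hv : |va * vb - vp| ≤ h * Θ * e ^ 2)
    (hS : (na * rb + nb * ra + ra * rb + h) * e ≤ S) :
    |x * y - vp| ≤ S * Θ * e := by
  have hna : 0 ≤ na * e := (abs_nonneg _).trans h3
  have hnb : 0 ≤ nb * e := (abs_nonneg _).trans h4
  have e1 : x * y - va * vb = (x - va) * vb + va * (y - vb) + (x - va) * (y - vb) := by ring
  have b1 : |(x - va) * vb| ≤ ra * Θ * e * (nb * e) := by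
    rw [abs_mul]
    exact mul_le_mul h1 h4 (abs_nonneg _) (by positivity)
  have b2 : |va * (y - vb)| ≤ na * e * (rb * Θ * e) := by
    rw [abs_mul]
    exact mul_le_mul h3 h2 (abs_nonneg _) hna
  have b3 : |(x - va) * (y - vb)| ≤ ra * Θ * e * (rb * Θ * e) := by
    rw [abs_mul]
    exact mul_le_mul h1 h2 (abs_nonneg _) (by positivity)
  have b3' : ra * Θ * e * (rb * Θ * e) ≤ ra * Θ * e * (rb * e) := by
    apply mul_le_mul_of_nonneg_left _ (by positivity)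
    have : rb * Θ ≤ rb * 1 := mul_le_mul_of_nonneg_left hΘ1 hrb
    nlinarith
  have b4 : |x * y - va * vb| ≤ (na * rb + nb * ra + ra * rb) * Θ * e * e := by
    rw [e1]
    refine (abs_add_le _ _).trans ?_
    have := abs_add_le ((x - va) * vb) (va * (y - vb))
    nlinarith
  have e2 : x * y - vp = (x * y - va * vb) + (va * vb - vp) := by ring
  rw [e2]
  refine (abs_add_le _ _).trans ?_
  have hS' := mul_le_mul_of_nonneg_right hS (by positivity : 0 ≤ Θ * e)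
  nlinarith

lemma repX_mul {c : Cfg} {ξ η θ Θ : ℝ} (C : CtxX c ξ η θ Θ) {a b : TMod} {x y : ℝ} (ha : RepX c ξ η Θ a x)
    (hb : RepX c ξ η Θ b y) : RepX c ξ η Θ (mulX c a b) (x * y) := by
  have hc := C.hc
  refine ⟨good_mulX hc a b, fun hok => ?_⟩
  have ga := ha.1
  have gb := hb.1
  set zp := a.P * b.P + a.N * b.N with hzp
  set zn := a.P * b.N + a.N * b.P with hzn
  set zpl := Nat.land zp c.LOW with hzpl
  set znl := Nat.land zn c.LOW with hznl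
  set pp := posPart c (splitD c zpl znl) with hpp
  set nn := negPart c (splitD c zpl znl) with hnn
  set P := Nat.land (Nat.shiftRight pp c.f) c.MB with hP
  set N := Nat.land (Nat.shiftRight nn c.f) c.MB with hN
  have hok' : and (and a.ok b.ok)
      (Nat.beq (Nat.add zpl (Nat.shiftLeft N c.f)) (Nat.add znl (Nat.shiftLeft P c.f))) = true := hok
  rw [Bool.and_eq_true, Bool.and_eq_true] at hok'
  obtain ⟨⟨oka, okb⟩, hchk⟩ := hok'
  have hchk' := Nat.eq_of_beq_eq_true hchk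
  have e1 : ∀ X : ℕ, Nat.shiftLeft X c.f = X * 2 ^ c.f := fun X => Nat.shiftLeft_eq X c.f
  have hchk2 : zp % (2 ^ c.w) ^ c.L + N * 2 ^ c.f = zn % (2 ^ c.w) ^ c.L + P * 2 ^ c.f := by
    rw [← land_LOW hc, ← land_LOW hc, ← e1, ← e1]
    exact hchk'
  have core := mulX_core C ga gb (fmt_land hc _) (fmt_land hc _) hchk2
  have ra := ha.2 oka
  have rb := hb.2 okb
  have hna := abs_V_le C.ctx ga
  have hnb := abs_V_le C.ctx gb
  have hh : Nat.add (Nat.mod (Nat.shiftRight zp c.wL) c.W1) (Nat.mod (Nat.shiftRight zn c.wL) c.W1)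
      = dsum (2 ^ c.w) c.L (zp / (2 ^ c.w) ^ c.L) + dsum (2 ^ c.w) c.L (zn / (2 ^ c.w) ^ c.L) := by
    show Nat.mod _ _ + Nat.mod _ _ = _
    rw [hzp, hzn, high_mod C.ctx ga.1 gb.1 ga.2.1 gb.2.1, high_mod C.ctx ga.1 gb.2.1 ga.2.1 gb.1]
  set SS := Nat.add (Nat.add (Nat.add (Nat.mul a.nrm b.rem) (Nat.mul b.nrm a.rem)) (Nat.mul a.rem b.rem))
        (Nat.add (Nat.mod (Nat.shiftRight zp c.wL) c.W1) (Nat.mod (Nat.shiftRight zn c.wL) c.W1)) with hSS
  have main := mulX_real (x := x) (y := y) (va := a.V c ξ η) (vb := b.V c ξ η) (e := unit c)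
    (ra := a.rem) (rb := b.rem) (na := a.nrm) (nb := b.nrm) (Θ := Θ)
    (vp := (val c ξ η P - val c ξ η N) * unit c)
    (h := ((dsum (2 ^ c.w) c.L (zp / (2 ^ c.w) ^ c.L) + dsum (2 ^ c.w) c.L (zn / (2 ^ c.w) ^ c.L) : ℕ) : ℝ))
    (S := ((Nat.shiftRight SS c.f : ℕ) : ℝ) + 1)
    (unit_pos c) C.Θ0 C.Θ1 (Nat.cast_nonneg _) (Nat.cast_nonneg _) ra rb hna hnb core ?_
  · show |x * y - (val c ξ η P - val c ξ η N) * unit c| ≤ ((Nat.add (Nat.shiftRight SS c.f) 1 : ℕ) : ℝ) * Θ * unit c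
    refine main.trans (le_of_eq ?_)
    congr 2
    exact (Nat.cast_succ _).symm
  · have h := shr_bound SS c.f
    refine le_trans (le_of_eq ?_) h
    rw [hSS, hh]
    show _ = ((a.nrm * b.rem + b.nrm * a.rem + a.rem * b.rem + (_ + _) : ℕ) : ℝ) * _
    push_cast
    rfl

/-! ### Exact inverse -/

/-- A polynomial given by its two packed parts. -/
def polyLit (c : Cfg) (P N : ℕ) : TMod :=
  (fun P' N' => TMod.mk P' N' (Nat.add (Nat.mod P' c.W1) (Nat.mod N' c.W1)) 0 true)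
    (Nat.land P c.MB) (Nat.land N c.MB)

lemma good_polyLit {c : Cfg} (hc : c.Valid) (P N : ℕ) : Good c (polyLit c P N) := good_mk hc _ _ _ _

/-- The enclosure of `Q / m` from a candidate `g`: the residual `Q - m g` must vanish to the order of
the format. -/
def invX (c : Cfg) (Q : ℕ) (m g : TMod) : TMod :=
  (fun e => TMod.mk g.P g.N g.nrm e.rem
      (and (and m.ok e.ok) (and (Nat.beq e.P 0) (Nat.beq e.N 0))))
    (subT c (ofNatX c Q) (mulX c m (polyOf g)))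

lemma repX_polyOf {c : Cfg} {ξ η Θ : ℝ} {t : TMod} (g : Good c t) : RepX c ξ η Θ (polyOf t) (t.V c ξ η) := by
  refine ⟨g, fun _ => ?_⟩
  show |t.V c ξ η - t.V c ξ η| ≤ ((0 : ℕ) : ℝ) * Θ * unit c
  simp

lemma repX_inv {c : Cfg} {ξ η θ Θ : ℝ} (C : CtxX c ξ η θ Θ) {Q : ℕ} {m g : TMod} {x : ℝ} (hg : Good c g)
    (hm : RepX c ξ η Θ m x) (hx : 1 ≤ x) : RepX c ξ η Θ (invX c Q m g) ((Q : ℝ) * x⁻¹) := by
  have hc := C.hc
  set e := subT c (ofNatX c Q) (mulX c m (polyOf g)) with he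
  have r1 : RepX c ξ η Θ e ((Q : ℝ) - x * g.V c ξ η) :=
    repX_sub C (repX_ofNatX C Q) (repX_mul C hm (repX_polyOf hg))
  refine ⟨hg, fun hok => ?_⟩
  have hok' : and (and m.ok e.ok) (and (Nat.beq e.P 0) (Nat.beq e.N 0)) = true := hok
  simp only [Bool.and_eq_true] at hok'
  obtain ⟨⟨_, oke⟩, h1, h2⟩ := hok'
  have hP := Nat.eq_of_beq_eq_true h1
  have hN := Nat.eq_of_beq_eq_true h2
  have hr := r1.2 oke
  have hV : e.V c ξ η = 0 := by
    unfold TMod.V val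
    rw [hP, hN, lam_zero]
    simp
  rw [hV, sub_zero] at hr
  show |(Q : ℝ) * x⁻¹ - g.V c ξ η| ≤ (e.rem : ℝ) * Θ * unit c
  have hx0 : 0 < x := by linarith
  have e1 : (Q : ℝ) * x⁻¹ - g.V c ξ η = ((Q : ℝ) - x * g.V c ξ η) * x⁻¹ := by
    field_simp
  rw [e1, abs_mul, abs_of_pos (inv_pos.mpr hx0)]
  have h3 : x⁻¹ ≤ 1 := inv_le_one_of_one_le₀ hx
  calc |(Q : ℝ) - x * g.V c ξ η| * x⁻¹ ≤ |(Q : ℝ) - x * g.V c ξ η| * 1 :=
        mul_le_mul_of_nonneg_left h3 (abs_nonneg _)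
    _ ≤ _ := by rw [mul_one]; exact hr

/-! ### The coordinates of the corner -/

/-- The coordinate `1 - t / 2^s` with `t` at the position `pos`. -/
def cornerT (c : Cfg) (s pos : ℕ) : TMod :=
  (fun P N => TMod.mk P N (Nat.add (Nat.mod P c.W1) (Nat.mod N c.W1)) 0
      (and (Nat.ble (Nat.succ s) c.f) (and (Nat.beq P c.TF)
        (Nat.beq N (Nat.mul (Nat.shiftLeft 1 (Nat.sub c.f s)) pos)))))
    (Nat.land c.TF c.MB) (Nat.land (Nat.mul (Nat.shiftLeft 1 (Nat.sub c.f s)) pos) c.MB)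

lemma repX_corner {c : Cfg} {ξ η θ Θ : ℝ} (C : CtxX c ξ η θ Θ) (s q : ℕ) (hq0 : 0 < q) (hq : q < c.L) :
    RepX c ξ η Θ (cornerT c s ((2 ^ c.w) ^ q)) (1 - mono c.ST ξ η q / 2 ^ s) := by
  have hc := C.hc
  have hW := Cfg.Valid.Wpos hc
  refine ⟨good_mk hc _ _ _ _, fun hok => ?_⟩
  set R := Nat.shiftLeft 1 (Nat.sub c.f s) with hRd
  have hok' : and (Nat.ble (Nat.succ s) c.f) (and (Nat.beq (Nat.land c.TF c.MB) c.TF)
      (Nat.beq (Nat.land (Nat.mul R ((2 ^ c.w) ^ q)) c.MB) (Nat.mul R ((2 ^ c.w) ^ q)))) = true := hok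
  simp only [Bool.and_eq_true] at hok'
  obtain ⟨h1, h2, h3⟩ := hok'
  have hsf : s + 1 ≤ c.f := Nat.le_of_ble_eq_true h1
  have e2 := Nat.eq_of_beq_eq_true h2
  have e3 := Nat.eq_of_beq_eq_true h3
  have hRe : R = 2 ^ (c.f - s) := by
    rw [hRd]
    show 1 <<< _ = _
    rw [Nat.shiftLeft_eq, one_mul]
    rfl
  have hfb : 2 ^ c.f ≤ 2 ^ c.b := Nat.pow_le_pow_right (by norm_num) (by have := hc.hfb; omega)
  have hRb : R ≤ 2 ^ c.b := by
    rw [hRe]
    exact Nat.pow_le_pow_right (by norm_num) (by have := hc.hfb; omega)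
  have hM := pow_b_le hc
  have hM2 := M_le_sq hc
  have hB := hc.hBig
  have hTF : c.TF = 2 ^ c.f := hc.hTF
  have hTW : c.TF < 2 ^ c.w := by omega
  have hRW : R < 2 ^ c.w := by omega
  show |_ - (val c ξ η (Nat.land c.TF c.MB) - val c ξ η (Nat.land (Nat.mul R ((2 ^ c.w) ^ q)) c.MB)) * unit c|
    ≤ ((0 : ℕ) : ℝ) * Θ * unit c
  rw [e2, e3]
  unfold val
  have l1 : lam (2 ^ c.w) c.L c.TF (mono c.ST ξ η) = (c.TF : ℝ) := by
    rw [lam_small hTW (L_pos hc), mono_zero, mul_one]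
  have l2 : lam (2 ^ c.w) c.L (Nat.mul R ((2 ^ c.w) ^ q)) (mono c.ST ξ η) = (R : ℝ) * mono c.ST ξ η q := by
    have := lam_two (A := 0) (g := mono c.ST ξ η) hW hW hRW hq0 hq
    simp only [zero_add, Nat.cast_zero, zero_mul] at this
    exact this
  rw [l1, l2]
  have hu := unit_mul c
  have hTFr : (c.TF : ℝ) = 2 ^ c.f := by
    rw [hTF]
    push_cast
    rfl
  have hRr : (R : ℝ) * unit c = 1 / 2 ^ s := by
    rw [hRe]
    unfold unit
    push_cast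
    have : (2 : ℝ) ^ c.f = 2 ^ (c.f - s) * 2 ^ s := by
      rw [← pow_add]
      congr 1
      omega
    rw [this]
    field_simp
  have e4 : 1 - mono c.ST ξ η q / 2 ^ s - ((c.TF : ℝ) - (R : ℝ) * mono c.ST ξ η q) * unit c = 0 := by
    have e5 : ((c.TF : ℝ) - (R : ℝ) * mono c.ST ξ η q) * unit c
        = (c.TF : ℝ) * unit c - ((R : ℝ) * unit c) * mono c.ST ξ η q := by ring
    rw [e5, hRr, hTFr, hu]
    ring
  rw [e4]
  simp

/-! ### The test at the corner -/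

lemma repX_cornerX {c : Cfg} {ξ η θ Θ : ℝ} (C : CtxX c ξ η θ Θ) (s : ℕ) (h2 : 2 ≤ c.ST) (hL : c.ST < c.L) :
    RepX c ξ η Θ (cornerT c s c.PX) (1 - ξ / 2 ^ s) := by
  have h := repX_corner C s c.ST (by omega) hL
  rw [mono_ST h2] at h
  rw [C.hc.hPX]
  exact h

lemma repX_cornerY {c : Cfg} {ξ η θ Θ : ℝ} (C : CtxX c ξ η θ Θ) (s : ℕ) (h2 : 2 ≤ c.ST) (hL : c.ST + 1 < c.L) :
    RepX c ξ η Θ (cornerT c s c.PY) (1 - η / 2 ^ s) := by
  have h := repX_corner C s (c.ST + 1) (by omega) hL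
  rw [mono_ST1 h2] at h
  rw [C.hc.hPY]
  exact h


/-- The test for a function with the jet `κ (ξ^2 - ξ η + η^2)^2 + O(θ^5)` at order 6. -/
def cornerOK (c : Cfg) (t : TMod) : Bool :=
  (fun κ =>
    and t.ok <|
    and (Nat.beq (Nat.mod t.P ((2 ^ c.w) ^ 28)) 0) <|
    and (Nat.beq (Nat.mod t.N ((2 ^ c.w) ^ 28)) 0) <|
    and (Nat.beq (dig (2 ^ c.w) t.N 28) 0) <|
    and (Nat.beq (dig (2 ^ c.w) t.N 29) (Nat.mul 2 κ)) <|
    and (Nat.beq (dig (2 ^ c.w) t.P 29) 0) <|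
    and (Nat.beq (dig (2 ^ c.w) t.P 30) (Nat.mul 3 κ)) <|
    and (Nat.beq (dig (2 ^ c.w) t.N 30) 0) <|
    and (Nat.beq (dig (2 ^ c.w) t.N 31) (Nat.mul 2 κ)) <|
    and (Nat.beq (dig (2 ^ c.w) t.P 31) 0) <|
    and (Nat.beq (dig (2 ^ c.w) t.P 32) κ) <|
    and (Nat.beq (dig (2 ^ c.w) t.N 32) 0) <|
    Nat.ble (Nat.mul 16 (Nat.add t.rem (Nat.add (Nat.mod (Nat.div t.P ((2 ^ c.w) ^ 35)) c.W1)
      (Nat.mod (Nat.div t.N ((2 ^ c.w) ^ 35)) c.W1)))) (Nat.mul 9 κ))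
    (dig (2 ^ c.w) t.P 28)

lemma dig_low_zero {W X k n : ℕ} (hW : 0 < W) (h : X % W ^ n = 0) (hk : k < n) : dig W X k = 0 := by
  rw [← dig_low hW X n k hk, h, dig_of_zero]

/-- A row of the tail: the sum over the positions from `a` on. -/
lemma tail_bound {c : Cfg} {ξ η θ Θ : ℝ} (C : CtxX c ξ η θ Θ) {X : ℕ} (hX : Fmt c X) (a d : ℕ)
    (ha : c.ST * d ≤ a) (haL : a ≤ c.L) :
    |∑ k ∈ range (c.L - a), (dig (2 ^ c.w) X (a + k) : ℝ) * mono c.ST ξ η (a + k)|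
      ≤ θ ^ d * (dsum (2 ^ c.w) c.L (X / (2 ^ c.w) ^ a) : ℝ) := by
  have hc := C.hc
  have hS : 0 < c.ST := by have := hc.hST; omega
  refine (abs_sum_le_sum_abs _ _).trans ?_
  have h1 : ∀ k ∈ range (c.L - a), |(dig (2 ^ c.w) X (a + k) : ℝ) * mono c.ST ξ η (a + k)|
      ≤ θ ^ d * (dig (2 ^ c.w) (X / (2 ^ c.w) ^ a) k : ℝ) := by
    intro k _
    rw [abs_mul, Nat.abs_cast, dig_high, add_comm k a, mul_comm (θ ^ d)]
    apply mul_le_mul_of_nonneg_left _ (Nat.cast_nonneg _)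
    by_cases hs : supp c.ST (a + k)
    · refine (abs_mono_le_pow C.hξ C.hη hs).trans (pow_le_pow_of_le_one C.hθ0 C.hθ1 ?_)
      rw [Nat.le_div_iff_mul_le hS]
      rw [mul_comm]
      omega
    · unfold mono
      rw [if_neg (show ¬ (a + k) % c.ST ≤ (a + k) / c.ST from hs), abs_zero]
      exact pow_nonneg C.hθ0 _
  refine (sum_le_sum h1).trans ?_
  unfold dsum
  push_cast
  rw [← mul_sum]
  apply mul_le_mul_of_nonneg_left _ (pow_nonneg C.hθ0 _)
  have h2 : c.L - a ≤ c.L := by omega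
  exact sum_le_sum_of_subset_of_nonneg (range_subset_range.mpr h2) (fun _ _ _ => Nat.cast_nonneg _)

lemma quad_lower {ξ η θ : ℝ} (hθ : θ = |ξ| ∨ θ = |η|) :
    (9 / 16 : ℝ) * θ ^ 4 ≤ (ξ ^ 2 - ξ * η + η ^ 2) ^ 2 := by
  have h0 : (3 / 4 : ℝ) * θ ^ 2 ≤ ξ ^ 2 - ξ * η + η ^ 2 := by
    rcases hθ with h | h
    · rw [h, sq_abs]
      nlinarith [sq_nonneg (η - ξ / 2)]
    · rw [h, sq_abs]
      nlinarith [sq_nonneg (ξ - η / 2)]
  have h01 : 0 ≤ (3 / 4 : ℝ) * θ ^ 2 := by positivity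
  have h1 := pow_le_pow_left₀ h01 h0 2
  have e : ((3 / 4 : ℝ) * θ ^ 2) ^ 2 = (9 / 16 : ℝ) * θ ^ 4 := by ring
  rwa [e] at h1

/-- The real inequality at the corner. -/
lemma corner_real {κ q sP sN dP dN rem θ : ℝ} (hκ : 0 ≤ κ) (hθ0 : 0 ≤ θ) (hθ1 : θ ≤ 1) (hr0 : 0 ≤ rem)
    (hdP0 : 0 ≤ dP) (hdN0 : 0 ≤ dN) (hq : (9 / 16) * θ ^ 4 ≤ q) (tP : |sP| ≤ θ ^ 5 * dP)
    (tN : |sN| ≤ θ ^ 5 * dN) (h16 : 16 * (rem + (dP + dN)) ≤ 9 * κ) :
    0 ≤ κ * q + (sP - sN) - rem * θ ^ 7 := by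
  have h1 : κ * ((9 / 16) * θ ^ 4) ≤ κ * q := mul_le_mul_of_nonneg_left hq hκ
  have h2 : θ ^ 5 ≤ θ ^ 4 := pow_le_pow_of_le_one hθ0 hθ1 (by norm_num)
  have h3 : θ ^ 7 ≤ θ ^ 4 := pow_le_pow_of_le_one hθ0 hθ1 (by norm_num)
  have h4 : θ ^ 5 * dP ≤ θ ^ 4 * dP := mul_le_mul_of_nonneg_right h2 hdP0
  have h5 : θ ^ 5 * dN ≤ θ ^ 4 * dN := mul_le_mul_of_nonneg_right h2 hdN0
  have h6 : rem * θ ^ 7 ≤ rem * θ ^ 4 := mul_le_mul_of_nonneg_left h3 hr0
  have h7 : θ ^ 4 * (16 * (rem + (dP + dN))) ≤ θ ^ 4 * (9 * κ) :=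
    mul_le_mul_of_nonneg_left h16 (by positivity)
  have h8 := (abs_le.mp tP).1
  have h9 := (abs_le.mp tN).2
  linarith

/-- Nonnegativity at the corner. -/
lemma corner_sound {c : Cfg} (hST : c.ST = 7) {ξ η θ Θ : ℝ} (C : CtxX c ξ η θ Θ)
    (hθ : θ = |ξ| ∨ θ = |η|) {t : TMod} {x : ℝ} (h : RepX c ξ η Θ t x)
    (hl : cornerOK c t = true) : 0 ≤ x := by
  have hc := C.hc
  have hW := Cfg.Valid.Wpos hc
  have hL : c.L = 49 := by
    rw [hc.hL, hST]
  set W := 2 ^ c.w with hWd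
  set κ := dig W t.P 28 with hκ
  have hl' : (and t.ok <|
    and (Nat.beq (Nat.mod t.P (W ^ 28)) 0) <|
    and (Nat.beq (Nat.mod t.N (W ^ 28)) 0) <|
    and (Nat.beq (dig W t.N 28) 0) <|
    and (Nat.beq (dig W t.N 29) (Nat.mul 2 κ)) <|
    and (Nat.beq (dig W t.P 29) 0) <|
    and (Nat.beq (dig W t.P 30) (Nat.mul 3 κ)) <|
    and (Nat.beq (dig W t.N 30) 0) <|
    and (Nat.beq (dig W t.N 31) (Nat.mul 2 κ)) <|
    and (Nat.beq (dig W t.P 31) 0) <|
    and (Nat.beq (dig W t.P 32) κ) <|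
    and (Nat.beq (dig W t.N 32) 0) <|
    Nat.ble (Nat.mul 16 (Nat.add t.rem (Nat.add (Nat.mod (Nat.div t.P (W ^ 35)) c.W1)
      (Nat.mod (Nat.div t.N (W ^ 35)) c.W1)))) (Nat.mul 9 κ)) = true := hl
  simp only [Bool.and_eq_true] at hl'
  obtain ⟨hok, h1, h2, h3, h4, h5, h6, h7, h8, h9, h10, h11, h12⟩ := hl'
  have e1 := Nat.eq_of_beq_eq_true h1
  have e2 := Nat.eq_of_beq_eq_true h2
  have e3 := Nat.eq_of_beq_eq_true h3
  have e4 := Nat.eq_of_beq_eq_true h4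
  have e5 := Nat.eq_of_beq_eq_true h5
  have e6 := Nat.eq_of_beq_eq_true h6
  have e7 := Nat.eq_of_beq_eq_true h7
  have e8 := Nat.eq_of_beq_eq_true h8
  have e9 := Nat.eq_of_beq_eq_true h9
  have e10 := Nat.eq_of_beq_eq_true h10
  have e11 := Nat.eq_of_beq_eq_true h11
  have e12 := Nat.le_of_ble_eq_true h12
  obtain ⟨hP, hN, _⟩ := h.1
  have r := h.2 hok
  -- the digit sums
  have hdivP : t.P / W ^ 35 < W ^ c.L := lt_of_le_of_lt (Nat.div_le_self _ _) hP.1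
  have hdivN : t.N / W ^ 35 < W ^ c.L := lt_of_le_of_lt (Nat.div_le_self _ _) hN.1
  have hds : ∀ X, Fmt c X → dsum W c.L (X / W ^ 35) ≤ 2 * (c.L * 2 ^ c.b) ^ 2 := by
    intro X hX
    have h01 : dsum W c.L (X / W ^ 35) ≤ c.L * 2 ^ c.b := by
      unfold dsum
      calc ∑ k ∈ range c.L, dig W (X / W ^ 35) k ≤ ∑ _k ∈ range c.L, 2 ^ c.b :=
            sum_le_sum fun k _ => by
              rw [dig_high]
              exact (hX.2 _).1.le
        _ = c.L * 2 ^ c.b := by simp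
    have h9' := M_le_sq hc
    omega
  have m1 := mod_W1 hc hdivP (hds _ hP)
  have m2 := mod_W1 hc hdivN (hds _ hN)
  have e12' : 16 * (t.rem + (dsum W c.L (t.P / W ^ 35) + dsum W c.L (t.N / W ^ 35))) ≤ 9 * κ := by
    have e0 : Nat.div t.P (W ^ 35) = t.P / W ^ 35 := rfl
    have e0' : Nat.div t.N (W ^ 35) = t.N / W ^ 35 := rfl
    have := e12
    rw [e0, e0', m1, m2] at this
    exact this
  -- the decomposition
  set m := mono c.ST ξ η with hm
  have hmono : ∀ j : ℕ, j ≤ 4 → m (28 + j) = ξ ^ (4 - j) * η ^ j := by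
    intro j hj
    rw [hm]
    unfold mono
    have e0 : (28 + j) % c.ST = j := by
      rw [hST]
      omega
    have e0' : (28 + j) / c.ST = 4 := by
      rw [hST]
      omega
    rw [e0, e0', if_pos hj]
  have hdec : ∀ X, Fmt c X → val c ξ η X =
      (∑ k ∈ range 28, (dig W X k : ℝ) * m k)
      + ((dig W X 28 : ℝ) * (ξ ^ 4) + (dig W X 29 : ℝ) * (ξ ^ 3 * η) + (dig W X 30 : ℝ) * (ξ ^ 2 * η ^ 2)
        + (dig W X 31 : ℝ) * (ξ * η ^ 3) + (dig W X 32 : ℝ) * η ^ 4)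
      + ∑ k ∈ range (c.L - 35), (dig W X (35 + k) : ℝ) * m (35 + k) := by
    intro X hX
    show (∑ k ∈ range c.L, (dig W X k : ℝ) * m k) = _
    have h35 : c.L = 35 + (c.L - 35) := by omega
    conv_lhs => rw [h35, sum_range_add]
    have h28 : (35 : ℕ) = 28 + 7 := rfl
    refine congrArg₂ (· + ·) ?_ rfl
    rw [h28, sum_range_add]
    refine congrArg₂ (· + ·) rfl ?_
    have d33 : dig W X (28 + 5) = 0 := (hX.2 _).2 (by
      unfold supp
      rw [hST]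
      norm_num)
    have d34 : dig W X (28 + 6) = 0 := (hX.2 _).2 (by
      unfold supp
      rw [hST]
      norm_num)
    simp only [sum_range_succ, sum_range_zero, zero_add]
    rw [d33, d34]
    have m0 := hmono 0 (by norm_num)
    have m1 := hmono 1 (by norm_num)
    have m2 := hmono 2 (by norm_num)
    have m3 := hmono 3 (by norm_num)
    have m4 := hmono 4 (by norm_num)
    simp only [add_zero] at m0 ⊢
    rw [m0, m1, m2, m3, m4]
    norm_num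
  have hu := unit_pos c
  -- the values
  have vP := hdec t.P hP
  have vN := hdec t.N hN
  have zero1 : ∑ k ∈ range 28, (dig W t.P k : ℝ) * m k = 0 := by
    apply sum_eq_zero
    intro k hk
    rw [dig_low_zero hW e1 (mem_range.mp hk)]
    simp
  have zero2 : ∑ k ∈ range 28, (dig W t.N k : ℝ) * m k = 0 := by
    apply sum_eq_zero
    intro k hk
    rw [dig_low_zero hW e2 (mem_range.mp hk)]
    simp
  rw [zero1, e5, e6, e9, e10] at vP
  rw [zero2, e3, e4, e7, e8, e11] at vN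
  have tP := tail_bound C hP 35 5 (by rw [hST]) (by omega)
  have tN := tail_bound C hN 35 5 (by rw [hST]) (by omega)
  have tP' := abs_le.mp tP
  have tN' := abs_le.mp tN
  set sP := ∑ k ∈ range (c.L - 35), (dig W t.P (35 + k) : ℝ) * m (35 + k) with hsP
  set sN := ∑ k ∈ range (c.L - 35), (dig W t.N (35 + k) : ℝ) * m (35 + k) with hsN
  set dP := (dsum W c.L (t.P / W ^ 35) : ℝ) with hdP
  set dN := (dsum W c.L (t.N / W ^ 35) : ℝ) with hdN
  have hdiff : val c ξ η t.P - val c ξ η t.N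
      = (κ : ℝ) * (ξ ^ 2 - ξ * η + η ^ 2) ^ 2 + (sP - sN) := by
    have c2 : ((Nat.mul 2 κ : ℕ) : ℝ) = 2 * (κ : ℝ) := by
      show ((2 * κ : ℕ) : ℝ) = _
      push_cast
      rfl
    have c3 : ((Nat.mul 3 κ : ℕ) : ℝ) = 3 * (κ : ℝ) := by
      show ((3 * κ : ℕ) : ℝ) = _
      push_cast
      rfl
    have c1 : ((dig W t.P 28 : ℕ) : ℝ) = (κ : ℝ) := by rw [hκ]
    rw [vP, vN, c1, c2, c3]
    push_cast
    ring
  have hκ0 : (0 : ℝ) ≤ κ := Nat.cast_nonneg _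
  have hθ0 := C.hθ0
  have hθ1 := C.hθ1
  have hq := quad_lower hθ
  have hΘ : Θ = θ ^ 7 := by
    rw [C.hΘ, hST]
  have h16 : 16 * ((t.rem : ℝ) + (dP + dN)) ≤ 9 * (κ : ℝ) := by
    rw [hdP, hdN]
    exact_mod_cast e12'
  have hr0 : (0 : ℝ) ≤ t.rem := Nat.cast_nonneg _
  have hdP0 : 0 ≤ dP := Nat.cast_nonneg _
  have hdN0 : 0 ≤ dN := Nat.cast_nonneg _
  have hV : t.V c ξ η = ((κ : ℝ) * (ξ ^ 2 - ξ * η + η ^ 2) ^ 2 + (sP - sN)) * unit c := by
    unfold TMod.V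
    rw [hdiff]
  rw [hV] at r
  have hr := abs_le.mp r
  have hfin : 0 ≤ ((κ : ℝ) * (ξ ^ 2 - ξ * η + η ^ 2) ^ 2 + (sP - sN)) - (t.rem : ℝ) * Θ := by
    rw [hΘ]
    exact corner_real hκ0 hθ0 hθ1 hr0 hdP0 hdN0 hq tP tN h16
  have h10' : 0 ≤ (((κ : ℝ) * (ξ ^ 2 - ξ * η + η ^ 2) ^ 2 + (sP - sN)) - (t.rem : ℝ) * Θ) * unit c :=
    mul_nonneg hfin hu.le
  have e13 : (((κ : ℝ) * (ξ ^ 2 - ξ * η + η ^ 2) ^ 2 + (sP - sN)) - (t.rem : ℝ) * Θ) * unit c
      = ((κ : ℝ) * (ξ ^ 2 - ξ * η + η ^ 2) ^ 2 + (sP - sN)) * unit c - (t.rem : ℝ) * Θ * unit c := by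
    ring
  rw [e13] at h10'
  linarith [hr.1]

end Vale.Agent.P154.Hel.TM
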