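import Vale.Agent.P154.Hel.TMCfg

/-!
Example of the use of the engine: a positivity statement on the triangle minus a corner.
-/

namespace Vale.Agent.P154.Hel.TM

/-- The function of the example. -/
noncomputable def GEx (v w : ℝ) : ℝ :=
  let u2 := v ^ 12
  let u3 := w ^ 12
  let M := 1 + u2 + u3
  let a1 := 3 * M⁻¹ - 1
  let a2 := 3 * (u2 * M⁻¹) - 1
  let a3 := -(a1 + a2)
  let A := (a1 ^ 2 + a2 ^ 2 + a3 ^ 2) / 6
  let R := a1 * a2 * a3 / 2
  let S := v ^ 5 * w + v * w ^ 5 + v ^ 6 * w + v * w ^ 6 + v ^ 6 * w ^ 5 + v ^ 5 * w ^ 6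
  93 / 37 - 192 / 37 * (S * M⁻¹) + 873 / 37 * (v ^ 4 * w ^ 4 * M⁻¹) - A
    - 4 / 10 * (31 / 100 * A ^ 2 - 15 / 1000 * (A * R) - 1 / 10 * R ^ 2)

/-- The same program on Taylor models. -/
def FEx (c : Cfg) (v w : TMod) : TMod :=
  (fun v2 w2 => (fun v4 w4 => (fun v5 w5 => (fun v6 w6 => (fun v12 w12 =>
  (fun Mi =>
  (fun a1 a2 => (fun a3 =>
  (fun a12 => (fun A R =>
  (fun S C =>
    subT c (subT c (addT c (subT c (ofRat c 93 37) (mulT c (ofRat c 192 37) (mulT c S Mi)))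
      (mulT c (ofRat c 873 37) (mulT c C Mi))) A)
      (mulT c (ofRat c 4 10) (subT c (subT c (mulT c (ofRat c 31 100) (mulT c A A))
        (mulT c (ofRat c 15 1000) (mulT c A R))) (mulT c (ofRat c 1 10) (mulT c R R)))))
    (addT c (addT c (addT c (addT c (addT c (mulT c v5 w) (mulT c v w5)) (mulT c v6 w)) (mulT c v w6))
      (mulT c v6 w5)) (mulT c v5 w6))
    (mulT c v4 w4))
    (mulT c (ofRat c 1 6) (addT c (addT c (mulT c a1 a1) (mulT c a2 a2)) (mulT c a3 a3)))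
    (mulT c (ofRat c 1 2) (mulT c a12 a3)))
    (mulT c a1 a2))
    (negT (addT c a1 a2)))
    (subT c (smulT c 3 Mi) (ofRat c 1 1)) (subT c (smulT c 3 (mulT c v12 Mi)) (ofRat c 1 1)))
    (invT c (addT c (addT c (ofRat c 1 1) v12) w12)))
    (mulT c v6 v6) (mulT c w6 w6))
    (mulT c v5 v) (mulT c w5 w))
    (mulT c v4 v) (mulT c w4 w))
    (mulT c v2 v2) (mulT c w2 w2))
    (mulT c v v) (mulT c w w)

/-- Soundness of the program: one line per line of the program, all checks by the engine. -/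
theorem FEx_rep (c : Cfg) (ξ η : ℝ) (C : Ctx c ξ η) (a b : TMod) (v w : ℝ)
    (ha : RepAt c ξ η a v) (hb : RepAt c ξ η b w) : RepAt c ξ η (FEx c a b) (GEx v w) := by
  have r2v := repAt_mul C ha ha
  have r2w := repAt_mul C hb hb
  have r4v := repAt_mul C r2v r2v
  have r4w := repAt_mul C r2w r2w
  have r5v := repAt_mul C r4v ha
  have r5w := repAt_mul C r4w hb
  have r6v := repAt_mul C r5v ha
  have r6w := repAt_mul C r5w hb
  have r12v := repAt_mul C r6v r6v
  have r12w := repAt_mul C r6w r6w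
  have rMi := repAt_inv C (repAt_add C (repAt_add C (repAt_ofRat C 1 1) r12v) r12w)
  have ra1 := repAt_sub C (repAt_smul C 3 rMi) (repAt_ofRat C 1 1)
  have ra2 := repAt_sub C (repAt_smul C 3 (repAt_mul C r12v rMi)) (repAt_ofRat C 1 1)
  have ra3 := repAt_neg (repAt_add C ra1 ra2)
  have ra12 := repAt_mul C ra1 ra2
  have rA := repAt_mul C (repAt_ofRat C 1 6)
    (repAt_add C (repAt_add C (repAt_mul C ra1 ra1) (repAt_mul C ra2 ra2)) (repAt_mul C ra3 ra3))
  have rR := repAt_mul C (repAt_ofRat C 1 2) (repAt_mul C ra12 ra3)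
  have rS := repAt_add C (repAt_add C (repAt_add C (repAt_add C (repAt_add C (repAt_mul C r5v hb)
    (repAt_mul C ha r5w)) (repAt_mul C r6v hb)) (repAt_mul C ha r6w)) (repAt_mul C r6v r5w)) (repAt_mul C r5v r6w)
  have rC := repAt_mul C r4v r4w
  have rF := repAt_sub C (repAt_sub C (repAt_add C (repAt_sub C (repAt_ofRat C 93 37)
      (repAt_mul C (repAt_ofRat C 192 37) (repAt_mul C rS rMi)))
      (repAt_mul C (repAt_ofRat C 873 37) (repAt_mul C rC rMi))) rA)
    (repAt_mul C (repAt_ofRat C 4 10) (repAt_sub C (repAt_sub C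
      (repAt_mul C (repAt_ofRat C 31 100) (repAt_mul C rA rA))
      (repAt_mul C (repAt_ofRat C 15 1000) (repAt_mul C rA rR)))
      (repAt_mul C (repAt_ofRat C 1 10) (repAt_mul C rR rR))))
  refine rF.congr ?_
  unfold GEx
  norm_num
  ring

/-- The position test: above the diagonal, or in the corner `[127/128, 1]^2`. -/
def outEx (K i j : ℕ) : Bool :=
  or (Nat.ble (Nat.add i 2) j)
    (and (Nat.ble (Nat.mul 127 (Nat.pow 2 K)) (Nat.mul 128 i))
      (Nat.ble (Nat.mul 127 (Nat.pow 2 K)) (Nat.mul 128 j)))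

theorem GEx_nonneg (v w : ℝ) (hv0 : 0 ≤ v) (hv1 : v ≤ 1) (hw0 : 0 ≤ w) (hw1 : w ≤ 1) (hwv : w ≤ v)
    (hcorner : v < 127 / 128 ∨ w < 127 / 128) : 0 ≤ GEx v w := by
  refine of_walk (Q := fun v w => w ≤ v → (v < 127 / 128 ∨ w < 127 / 128) → 0 ≤ GEx v w)
    cfg4_valid (FEx_rep cfg4) (out := outEx) ?_ (fun v w h _ _ => h) 14 (by decide +kernel)
    v w hv0 hv1 hw0 hw1 hwv hcorner
  intro K i j h v w hvw hle hc
  have hK : (0 : ℝ) < 2 ^ K := by positivity
  unfold outEx at h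
  rw [Bool.or_eq_true, Bool.and_eq_true] at h
  rcases h with h | ⟨h1, h2⟩
  · exfalso
    have h3 : i + 2 ≤ j := Nat.le_of_ble_eq_true h
    have h4 : ((i : ℝ) + 2) ≤ j := by exact_mod_cast h3
    have h5 := hvw.2.1
    have h6 := hvw.2.2.1
    rw [le_div_iff₀ hK] at h5
    rw [div_le_iff₀ hK] at h6
    nlinarith
  · exfalso
    have h3 : 127 * 2 ^ K ≤ 128 * i := Nat.le_of_ble_eq_true h1
    have h4 : 127 * 2 ^ K ≤ 128 * j := Nat.le_of_ble_eq_true h2
    have h5 : (127 : ℝ) * 2 ^ K ≤ 128 * i := by exact_mod_cast h3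
    have h6 : (127 : ℝ) * 2 ^ K ≤ 128 * j := by exact_mod_cast h4
    have h7 := hvw.1
    have h8 := hvw.2.2.1
    rw [div_le_iff₀ hK] at h7 h8
    rcases hc with hc | hc <;> nlinarith

end Vale.Agent.P154.Hel.TM
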