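import Vale.Agent.P154.Hel.TMOps

/-!
Inverses of Taylor models, the test at a leaf, the quadtree walker.
-/

namespace Vale.Agent.P154.Hel.TM

open Finset

/-- The polynomial of a Taylor model, with no remainder. -/
def polyOf (t : TMod) : TMod := TMod.mk t.P t.N t.nrm 0 true

lemma repAt_polyOf {c : Cfg} {ξ η : ℝ} {t : TMod} (g : Good c t) : RepAt c ξ η (polyOf t) (t.V c ξ η) := by
  refine ⟨g, fun _ => ?_⟩
  show |t.V c ξ η - t.V c ξ η| ≤ ((0 : ℕ) : ℝ) * unit c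
  simp

/-- A Newton step for the inverse of `a`. -/
def newton (c : Cfg) (a two j : TMod) : TMod := mulT c j (subT c two (mulT c a j))

/-- An approximate inverse of `a`, by three Newton steps from a constant. -/
def invGuess (c : Cfg) (a : TMod) : TMod :=
  (fun two => newton c a two (newton c a two (newton c a two
    (ofFix c (Nat.div (Nat.shiftLeft 1 (Nat.mul 2 c.f))
      (Nat.sub (Nat.land a.P c.W1) (Nat.land a.N c.W1)))))))
    (ofFix c (Nat.mul 2 c.TF))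

/-- The enclosure of the inverse. The approximate inverse needs no proof, only the final residual is
bounded. -/
def invT (c : Cfg) (a : TMod) : TMod :=
  (fun g => (fun e => (fun eps =>
    TMod.mk g.P g.N g.nrm (Nat.add (Nat.shiftRight (Nat.mul 2 (Nat.mul g.nrm eps)) c.f) 1)
      (and (and a.ok e.ok) (Nat.ble (Nat.mul 2 eps) c.TF)))
    (Nat.add e.nrm e.rem))
    (subT c (ofFix c c.TF) (mulT c a (polyOf g))))
    (invGuess c a)

lemma good_invGuess {c : Cfg} (hc : c.Valid) (a : TMod) : Good c (invGuess c a) := good_mulT hc _ _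

/-- The real inequality for the inverse. -/
lemma inv_real {x g eps e nrm V : ℝ} (he : 0 < e) (hV : |V| ≤ nrm * e) (hg : g = V)
    (h1 : |1 - x * g| ≤ eps * e) (h2 : 2 * eps * e ≤ 1) (h3 : (2 * (nrm * eps)) * e ≤ 1 * (2 * nrm * eps * e)) :
    |x⁻¹ - g| ≤ 2 * nrm * eps * e * e := by
  subst hg
  have hδ : |1 - x * g| ≤ 1 / 2 := by linarith
  have hab := abs_le.mp hδ
  have hpos : 1 / 2 ≤ x * g := by linarith [hab.2]
  have hx : x ≠ 0 := by
    intro h
    rw [h] at hpos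
    norm_num at hpos
  have e1 : x⁻¹ - g = (1 - x * g) * x⁻¹ := by
    field_simp
  rw [e1, abs_mul]
  have h4 : |x⁻¹| ≤ 2 * |g| := by
    rw [abs_inv]
    have hx' : 0 < |x| := abs_pos.mpr hx
    rw [inv_le_iff_one_le_mul₀' hx']
    have : x * g ≤ |x| * |g| := by
      rw [← abs_mul]
      exact le_abs_self _
    linarith
  have h5 : |x⁻¹| ≤ 2 * (nrm * e) := by linarith
  have h6 : 0 ≤ eps * e := (abs_nonneg _).trans h1
  calc |1 - x * g| * |x⁻¹| ≤ (eps * e) * (2 * (nrm * e)) := mul_le_mul h1 h5 (abs_nonneg _) h6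
    _ = _ := by ring

lemma repAt_inv {c : Cfg} {ξ η : ℝ} (C : Ctx c ξ η) {a : TMod} {x : ℝ} (ha : RepAt c ξ η a x) :
    RepAt c ξ η (invT c a) x⁻¹ := by
  have hc := C.hc
  set g := invGuess c a with hg
  have gg : Good c g := good_invGuess hc a
  set e := subT c (ofFix c c.TF) (mulT c a (polyOf g)) with he
  have hTF : (c.TF : ℝ) * unit c = 1 := by
    rw [hc.hTF]
    push_cast
    exact unit_mul c
  have r1 : RepAt c ξ η e (1 - x * g.V c ξ η) := by
    have := repAt_sub C (repAt_ofFix C c.TF) (repAt_mul C ha (repAt_polyOf gg))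
    rwa [hTF] at this
  have gI : Good c (invT c a) := gg
  refine ⟨gI, fun hok => ?_⟩
  have hok' : and (and a.ok e.ok) (Nat.ble (Nat.mul 2 (Nat.add e.nrm e.rem)) c.TF) = true := hok
  rw [Bool.and_eq_true, Bool.and_eq_true] at hok'
  obtain ⟨⟨oka, oke⟩, hle⟩ := hok'
  have hle' : 2 * (e.nrm + e.rem) ≤ c.TF := Nat.le_of_ble_eq_true hle
  have h1 := r1.2 oke
  have h2 := abs_V_le C r1.1
  have hu := unit_pos c
  set eps := ((e.nrm + e.rem : ℕ) : ℝ) with heps
  have h3 : |1 - x * g.V c ξ η| ≤ eps * unit c := by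
    have e1 : 1 - x * g.V c ξ η = (1 - x * g.V c ξ η - e.V c ξ η) + e.V c ξ η := by ring
    rw [e1]
    refine (abs_add_le _ _).trans ?_
    rw [heps]
    push_cast
    rw [add_mul]
    linarith
  have h4 : 2 * eps * unit c ≤ 1 := by
    have h5 : (2 * eps : ℝ) ≤ c.TF := by
      rw [heps]
      exact_mod_cast hle'
    have := mul_le_mul_of_nonneg_right h5 hu.le
    linarith
  have key := inv_real (V := g.V c ξ η) (nrm := g.nrm) hu (abs_V_le C gg) rfl h3 h4 (by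
    apply le_of_eq
    ring)
  show |x⁻¹ - g.V c ξ η| ≤ ((Nat.add (Nat.shiftRight (Nat.mul 2 (Nat.mul g.nrm (Nat.add e.nrm e.rem))) c.f) 1 : ℕ) : ℝ) * unit c
  refine key.trans ?_
  apply mul_le_mul_of_nonneg_right _ hu.le
  have h6 := shr_bound (Nat.mul 2 (Nat.mul g.nrm (Nat.add e.nrm e.rem))) c.f
  refine le_trans (le_of_eq ?_) (le_trans h6 (le_of_eq ?_))
  · show _ = ((2 * (g.nrm * (e.nrm + e.rem)) : ℕ) : ℝ) * unit c
    rw [heps]
    push_cast
    ring
  · show _ = (((Nat.shiftRight (Nat.mul 2 (Nat.mul g.nrm (Nat.add e.nrm e.rem))) c.f + 1 : ℕ)) : ℝ)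
    push_cast
    rfl

/-! ### Integer multiples -/

/-- Multiplication by a small natural number. -/
def smulT (c : Cfg) (n : ℕ) (a : TMod) : TMod :=
  (fun P N =>
    TMod.mk P N (Nat.add (Nat.mod P c.W1) (Nat.mod N c.W1)) (Nat.mul n a.rem)
      (and a.ok (and (Nat.ble n c.TB) (and (Nat.beq P (Nat.mul a.P n)) (Nat.beq N (Nat.mul a.N n))))))
    (Nat.land (Nat.mul a.P n) c.MB) (Nat.land (Nat.mul a.N n) c.MB)

lemma repAt_smul {c : Cfg} {ξ η : ℝ} (C : Ctx c ξ η) (n : ℕ) {a : TMod} {x : ℝ} (ha : RepAt c ξ η a x) :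
    RepAt c ξ η (smulT c n a) ((n : ℝ) * x) := by
  have hc := C.hc
  refine ⟨good_mk hc _ _ _ _, fun hok => ?_⟩
  have hok' : and a.ok (and (Nat.ble n c.TB) (and (Nat.beq (Nat.land (Nat.mul a.P n) c.MB) (Nat.mul a.P n))
      (Nat.beq (Nat.land (Nat.mul a.N n) c.MB) (Nat.mul a.N n)))) = true := hok
  simp only [Bool.and_eq_true] at hok'
  obtain ⟨h1, h2, h3, h4⟩ := hok'
  have hn : n ≤ 2 ^ c.b := by
    rw [← hc.hTB]
    exact Nat.le_of_ble_eq_true h2
  have e1 := Nat.eq_of_beq_eq_true h3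
  have e2 := Nat.eq_of_beq_eq_true h4
  have r := ha.2 h1
  show |(n : ℝ) * x - (val c ξ η (Nat.land (Nat.mul a.P n) c.MB) - val c ξ η (Nat.land (Nat.mul a.N n) c.MB)) * unit c|
    ≤ ((Nat.mul n a.rem : ℕ) : ℝ) * unit c
  rw [e1, e2]
  have v1 : val c ξ η (Nat.mul a.P n) = (n : ℝ) * val c ξ η a.P := lam_mul_const hc ha.1.1 hn _ _
  have v2 : val c ξ η (Nat.mul a.N n) = (n : ℝ) * val c ξ η a.N := lam_mul_const hc ha.1.2.1 hn _ _
  rw [v1, v2]
  have e3 : (n : ℝ) * x - ((n : ℝ) * val c ξ η a.P - (n : ℝ) * val c ξ η a.N) * unit c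
      = (n : ℝ) * (x - a.V c ξ η) := by
    unfold TMod.V
    ring
  rw [e3, abs_mul, Nat.abs_cast]
  show _ ≤ ((n * a.rem : ℕ) : ℝ) * unit c
  push_cast
  rw [mul_assoc]
  exact mul_le_mul_of_nonneg_left r (Nat.cast_nonneg _)

/-! ### The test at a leaf -/

/-- Nonnegativity of the enclosed value on the whole cell. -/
def leafOK (c : Cfg) (t : TMod) : Bool :=
  and t.ok (Nat.ble (Nat.add (Nat.add t.rem (Nat.mod t.N c.W1)) (Nat.mod (Nat.land t.P c.MNE) c.W1))
    (Nat.land t.P c.W1))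

lemma mono_even_nonneg {ST : ℕ} (ξ η : ℝ) {k : ℕ} (h : evenK ST k) : 0 ≤ mono ST ξ η k := by
  unfold mono
  split_ifs
  · have h1 : Even (k / ST - k % ST) := Nat.even_iff.mpr h.1
    have h2 : Even (k % ST) := Nat.even_iff.mpr h.2
    exact mul_nonneg (h1.pow_nonneg _) (h2.pow_nonneg _)
  · exact le_rfl

lemma leaf_sound {c : Cfg} {ξ η : ℝ} (C : Ctx c ξ η) {t : TMod} {x : ℝ} (h : RepAt c ξ η t x)
    (hl : leafOK c t = true) : 0 ≤ x := by
  have hc := C.hc
  have hW := Cfg.Valid.Wpos hc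
  have hl' : and t.ok (Nat.ble (Nat.add (Nat.add t.rem (Nat.mod t.N c.W1)) (Nat.mod (Nat.land t.P c.MNE) c.W1))
    (Nat.land t.P c.W1)) = true := hl
  rw [Bool.and_eq_true] at hl'
  obtain ⟨hok, hle⟩ := hl'
  have hle' := Nat.le_of_ble_eq_true hle
  have r := h.2 hok
  obtain ⟨hP, hN, _⟩ := h.1
  set Po := Nat.land t.P c.MNE with hPo
  have ePo : Po = t.P &&& c.MNE := rfl
  have hPolt : Po < (2 ^ c.w) ^ c.L := by
    rw [ePo]
    exact lt_of_le_of_lt Nat.and_le_right hc.hMNE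
  have hdPo : ∀ k, dig (2 ^ c.w) Po k ≤ dig (2 ^ c.w) t.P k := by
    intro k
    rw [ePo, dig_land]
    exact Nat.and_le_left
  have hsPo : dsum (2 ^ c.w) c.L Po ≤ 2 * (c.L * 2 ^ c.b) ^ 2 := by
    have h1 : dsum (2 ^ c.w) c.L Po ≤ dsum (2 ^ c.w) c.L t.P := by
      unfold dsum
      exact sum_le_sum fun k _ => hdPo k
    have h2 := dsum_le hP
    have h3 := M_le_sq hc
    omega
  have e1 := mod_W1 hc hPolt hsPo
  have e2 := fmt_dsum_mod hc hN
  rw [e1, e2] at hle'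
  have e3 : Nat.land t.P c.W1 = t.P % 2 ^ c.w := by
    show t.P &&& c.W1 = _
    rw [hc.hW1, Nat.and_two_pow_sub_one_eq_mod]
  rw [e3] at hle'
  have hle2 : (t.rem : ℝ) + dsum (2 ^ c.w) c.L t.N + dsum (2 ^ c.w) c.L Po ≤ ((t.P % 2 ^ c.w : ℕ) : ℝ) := by
    exact_mod_cast hle'
  -- lower bound for the positive part
  have hlow : ((t.P % 2 ^ c.w : ℕ) : ℝ) - dsum (2 ^ c.w) c.L Po ≤ val c ξ η t.P := by
    unfold val lam dsum
    push_cast
    rw [← dig_zero]
    have hL0 : 0 ∈ range c.L := mem_range.mpr (L_pos hc)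
    have e4 : ((dig (2 ^ c.w) t.P 0 : ℕ) : ℝ) = ∑ k ∈ range c.L, if k = 0 then (dig (2 ^ c.w) t.P k : ℝ) else 0 := by
      rw [sum_ite_eq' (range c.L) 0]
      rw [if_pos hL0]
    rw [e4, ← sum_sub_distrib]
    refine sum_le_sum fun k _ => ?_
    have hm := abs_mono_le (ST := c.ST) C.hξ C.hη k
    have hm2 := abs_le.mp hm
    have hd0 : (0 : ℝ) ≤ dig (2 ^ c.w) t.P k := Nat.cast_nonneg _
    have hd1 : (0 : ℝ) ≤ dig (2 ^ c.w) Po k := Nat.cast_nonneg _
    by_cases hk0 : k = 0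
    · subst hk0
      rw [if_pos rfl, mono_zero]
      linarith
    · rw [if_neg hk0]
      by_cases hs : supp c.ST k
      · by_cases hev : evenK c.ST k
        · have := mul_nonneg hd0 (mono_even_nonneg (ST := c.ST) ξ η hev)
          linarith
        · by_cases hkL : k < c.L
          · have h5 := hc.hMNEd k hkL hs hev
            have h6 : dig (2 ^ c.w) Po k = dig (2 ^ c.w) t.P k := by
              rw [ePo, dig_land, h5, Nat.and_two_pow_sub_one_eq_mod, Nat.mod_eq_of_lt (hP.2 k).1]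
            rw [h6]
            nlinarith
          · have h7 := dig_zero_of_ge hc hP.1 (not_lt.mp hkL)
            rw [h7]
            simp
      · have h7 := (hP.2 k).2 hs
        rw [h7]
        simp only [Nat.cast_zero, zero_mul]
        linarith
  have hup : val c ξ η t.N ≤ dsum (2 ^ c.w) c.L t.N := (le_abs_self _).trans (abs_val_le C t.N)
  have hu := unit_pos c
  have h8 := abs_le.mp r
  have e5 : t.V c ξ η = (val c ξ η t.P - val c ξ η t.N) * unit c := rfl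
  rw [e5] at h8
  have h9 : (t.rem : ℝ) ≤ val c ξ η t.P - val c ξ η t.N := by linarith
  have := mul_le_mul_of_nonneg_right h9 hu.le
  linarith [h8.1]

/-! ### The walker -/

/-- Adaptive quadtree on the dyadic square number `(i, j)` of level `K`. -/
def walk2 (chk : ℕ → ℕ → ℕ → Bool) : ℕ → ℕ → ℕ → ℕ → Bool
  | 0, _, _, _ => false
  | f + 1, K, i, j =>
    cond (chk K i j) true
      (and (walk2 chk f (Nat.succ K) (Nat.mul 2 i) (Nat.mul 2 j))
      (and (walk2 chk f (Nat.succ K) (Nat.succ (Nat.mul 2 i)) (Nat.mul 2 j))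
      (and (walk2 chk f (Nat.succ K) (Nat.mul 2 i) (Nat.succ (Nat.mul 2 j)))
        (walk2 chk f (Nat.succ K) (Nat.succ (Nat.mul 2 i)) (Nat.succ (Nat.mul 2 j))))))

/-- The dyadic square number `(i, j)` of level `K`. -/
def InCell (K i j : ℕ) (v w : ℝ) : Prop :=
  (i : ℝ) / 2 ^ K ≤ v ∧ v ≤ ((i : ℝ) + 1) / 2 ^ K ∧ (j : ℝ) / 2 ^ K ≤ w ∧ w ≤ ((j : ℝ) + 1) / 2 ^ K

lemma inCell_split {i K : ℕ} {v : ℝ} (h1 : (i : ℝ) / 2 ^ K ≤ v) (h2 : v ≤ ((i : ℝ) + 1) / 2 ^ K) :
    ∃ i', (i' = Nat.mul 2 i ∨ i' = Nat.succ (Nat.mul 2 i)) ∧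
      (i' : ℝ) / 2 ^ (K + 1) ≤ v ∧ v ≤ ((i' : ℝ) + 1) / 2 ^ (K + 1) := by
  have h3 : (0 : ℝ) < 2 ^ K := by positivity
  have e : ((2 : ℝ) ^ (K + 1)) = 2 ^ K * 2 := pow_succ 2 K
  have h0 : 0 < (2 : ℝ) ^ (K + 1) := by positivity
  rcases le_total v (((i : ℝ) + 1 / 2) / 2 ^ K) with h | h
  · refine ⟨Nat.mul 2 i, Or.inl rfl, ?_, ?_⟩
    · show ((2 * i : ℕ) : ℝ) / _ ≤ v
      rw [e]
      push_cast
      refine le_trans (le_of_eq ?_) h1
      field_simp
    · show v ≤ (((2 * i : ℕ) : ℝ) + 1) / _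
      rw [e]
      push_cast
      refine le_trans h (le_of_eq ?_)
      field_simp
  · refine ⟨Nat.succ (Nat.mul 2 i), Or.inr rfl, ?_, ?_⟩
    · show ((2 * i + 1 : ℕ) : ℝ) / _ ≤ v
      rw [e]
      push_cast
      refine le_trans (le_of_eq ?_) h
      field_simp
    · show v ≤ (((2 * i + 1 : ℕ) : ℝ) + 1) / _
      rw [e]
      push_cast
      refine le_trans h2 (le_of_eq ?_)
      field_simp
      ring

lemma walk2_sound {Q : ℝ → ℝ → Prop} {chk : ℕ → ℕ → ℕ → Bool}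
    (hchk : ∀ K i j, chk K i j = true → ∀ v w, InCell K i j v w → Q v w)
    (f K i j : ℕ) (h : walk2 chk f K i j = true) (v w : ℝ) (hv : InCell K i j v w) : Q v w := by
  induction f generalizing K i j with
  | zero => simp [walk2] at h
  | succ f ih =>
    simp only [walk2] at h
    cases hc : chk K i j
    · rw [hc] at h
      simp only [cond_false, Bool.and_eq_true] at h
      obtain ⟨h1, h2, h3, h4⟩ := h
      obtain ⟨i', hi', hi1, hi2⟩ := inCell_split hv.1 hv.2.1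
      obtain ⟨j', hj', hj1, hj2⟩ := inCell_split hv.2.2.1 hv.2.2.2
      have hn : InCell (Nat.succ K) i' j' v w := ⟨hi1, hi2, hj1, hj2⟩
      rcases hi' with rfl | rfl <;> rcases hj' with rfl | rfl
      · exact ih _ _ _ h1 hn
      · exact ih _ _ _ h3 hn
      · exact ih _ _ _ h2 hn
      · exact ih _ _ _ h4 hn
    · exact hchk K i j hc v w hv

/-- The local coordinates of a point of a dyadic square. -/
lemma local_coord {K i : ℕ} {v : ℝ} (h1 : (i : ℝ) / 2 ^ K ≤ v) (h2 : v ≤ ((i : ℝ) + 1) / 2 ^ K) :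
    ∃ ξ : ℝ, |ξ| ≤ 1 ∧ v = (((2 * i + 1 : ℕ) : ℝ) + ξ) / 2 ^ (K + 1) := by
  have h3 : (0 : ℝ) < 2 ^ K := by positivity
  have e : ((2 : ℝ) ^ (K + 1)) = 2 ^ K * 2 := pow_succ 2 K
  refine ⟨v * 2 ^ (K + 1) - ((2 * i + 1 : ℕ) : ℝ), ?_, ?_⟩
  · rw [div_le_iff₀ h3] at h1
    rw [le_div_iff₀ h3] at h2
    rw [abs_le, e]
    push_cast
    constructor <;> nlinarith
  · rw [e]
    push_cast
    field_simp
    ring

/-- The test on a cell for a program `F` on Taylor models. -/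
def cellChk (c : Cfg) (F : TMod → TMod → TMod) (K i j : ℕ) : Bool :=
  leafOK c (F (xiT c K i) (etaT c K j))

/-- The soundness of the test on a cell. -/
lemma cellChk_sound {c : Cfg} (hc : c.Valid) {F : TMod → TMod → TMod} {G : ℝ → ℝ → ℝ}
    (hF : ∀ ξ η (C : Ctx c ξ η) (a b : TMod) (v w : ℝ), RepAt c ξ η a v → RepAt c ξ η b w →
      RepAt c ξ η (F a b) (G v w))
    {K i j : ℕ} (h : cellChk c F K i j = true) {v w : ℝ} (hv : InCell K i j v w) : 0 ≤ G v w := by
  obtain ⟨ξ, hξ, e1⟩ := local_coord hv.1 hv.2.1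
  obtain ⟨η, hη, e2⟩ := local_coord hv.2.2.1 hv.2.2.2
  have C : Ctx c ξ η := ⟨hc, hξ, hη⟩
  rw [e1, e2]
  exact leaf_sound C (hF ξ η C _ _ _ _ (repAt_xi C K i) (repAt_eta C K j)) h

/-! ### Construction of a format -/

/-- A mask: the digit `v` at the positions selected by `sel`. -/
def mkMask (w v : ℕ) (sel : ℕ → Bool) : ℕ → ℕ
  | 0 => 0
  | n + 1 => Nat.add (mkMask w v sel n) (cond (sel n) (Nat.shiftLeft v (Nat.mul w n)) 0)

/-- The format with order `ST - 1`, `w` bits per digit, `b` bits per coefficient, `f` fixed point bits. -/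
def mkCfg (w f b ST : ℕ) : Cfg :=
  { w := w
    w1 := w - 1
    f := f
    b := b
    ST := ST
    L := ST * ST
    wL := w * (ST * ST)
    W1 := 2 ^ w - 1
    LOW := 2 ^ (w * (ST * ST)) - 1
    SM := mkMask w (2 ^ (w - 1)) (fun _ => true) (ST * ST)
    MB := mkMask w (2 ^ b - 1) (fun k => decide (supp ST k)) (ST * ST)
    MF := mkMask w (2 ^ f - 1) (fun k => decide (supp ST k)) (ST * ST)
    MNE := mkMask w (2 ^ b - 1) (fun k => decide (supp ST k) && !decide (evenK ST k)) (ST * ST)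
    PX := 2 ^ (w * ST)
    PY := 2 ^ (w * (ST + 1))
    TB := 2 ^ b
    TF := 2 ^ f }

end Vale.Agent.P154.Hel.TM
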