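import Vale.Agent.P154.Hel.TMCore

/-!
The operations on Taylor models and their soundness.
-/

namespace Vale.Agent.P154.Hel.TM

open Finset

/-- A Taylor model: positive and negative coefficients, sum of their absolute values, remainder
in fixed point units, and a flag for the run time checks. -/
structure TMod where
  /-- Positive coefficients. -/
  P : ℕ
  /-- Negative coefficients. -/
  N : ℕ
  /-- The sum of the digits of both. -/
  nrm : ℕ
  /-- The remainder. -/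
  rem : ℕ
  /-- All checks have succeeded. -/
  ok : Bool

/-- The shape invariants of a Taylor model. -/
def Good (c : Cfg) (t : TMod) : Prop :=
  Fmt c t.P ∧ Fmt c t.N ∧ t.nrm = dsum (2 ^ c.w) c.L t.P + dsum (2 ^ c.w) c.L t.N

/-- The polynomial of a Taylor model at a point. -/
noncomputable def TMod.V (c : Cfg) (ξ η : ℝ) (t : TMod) : ℝ := (val c ξ η t.P - val c ξ η t.N) * unit c

/-- `t` encloses `x` at the point `(ξ, η)`. -/
def RepAt (c : Cfg) (ξ η : ℝ) (t : TMod) (x : ℝ) : Prop :=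
  Good c t ∧ (t.ok = true → |x - t.V c ξ η| ≤ (t.rem : ℝ) * unit c)

lemma abs_V_le {c : Cfg} {ξ η : ℝ} (C : Ctx c ξ η) {t : TMod} (g : Good c t) :
    |t.V c ξ η| ≤ (t.nrm : ℝ) * unit c := by
  unfold TMod.V
  rw [abs_mul, abs_of_pos (unit_pos c)]
  apply mul_le_mul_of_nonneg_right _ (unit_pos c).le
  rw [g.2.2]
  push_cast
  have h1 := abs_val_le C t.P
  have h2 := abs_val_le C t.N
  have h3 := abs_sub (val c ξ η t.P) (val c ξ η t.N)
  linarith

/-- The digit sum by a remainder. -/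
lemma mod_W1 {c : Cfg} (hc : c.Valid) {X : ℕ} (hX : X < (2 ^ c.w) ^ c.L)
    (hs : dsum (2 ^ c.w) c.L X ≤ 2 * (c.L * 2 ^ c.b) ^ 2) :
    Nat.mod X c.W1 = dsum (2 ^ c.w) c.L X := by
  show X % c.W1 = _
  rw [hc.hW1]
  apply mod_eq_dsum (Cfg.Valid.W2 hc) _ _ hX
  have h := hc.hBig
  have h1 : 1 ≤ (c.L * 2 ^ c.b) ^ 2 := by
    have : 0 < c.L := by
      rw [hc.hL]
      have := hc.hST
      positivity
    have : 0 < (c.L * 2 ^ c.b) ^ 2 := by positivity
    omega
  omega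

lemma M_ge_one {c : Cfg} (hc : c.Valid) : 1 ≤ c.L * 2 ^ c.b := by
  have h2 : 0 < c.L := by
    rw [hc.hL]
    have := hc.hST
    positivity
  have h3 : 0 < 2 ^ c.b := by positivity
  exact Nat.mul_pos h2 h3

lemma M_le_sq {c : Cfg} (hc : c.Valid) : c.L * 2 ^ c.b ≤ (c.L * 2 ^ c.b) ^ 2 := by
  have := M_ge_one hc
  nlinarith

lemma fmt_dsum_mod {c : Cfg} (hc : c.Valid) {X : ℕ} (hX : Fmt c X) :
    Nat.mod X c.W1 = dsum (2 ^ c.w) c.L X := by
  apply mod_W1 hc hX.1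
  have h1 := dsum_le hX
  have h2 := M_le_sq hc
  omega

lemma pow_b_le {c : Cfg} (hc : c.Valid) : 2 ^ c.b ≤ c.L * 2 ^ c.b := by
  have h2 : 1 ≤ c.L := by
    rw [hc.hL]
    have := hc.hST
    nlinarith
  have h3 : 0 < 2 ^ c.b := by positivity
  nlinarith

/-- Digit bound for `f` more bits. -/
lemma pow_bf_le {c : Cfg} (hc : c.Valid) : 2 ^ c.b * 2 ^ c.f ≤ (c.L * 2 ^ c.b) ^ 2 := by
  have h1 := pow_b_le hc
  have h2 : 2 ^ c.f ≤ 2 ^ c.b := Nat.pow_le_pow_right (by norm_num) (by have := hc.hfb; omega)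
  calc 2 ^ c.b * 2 ^ c.f ≤ (c.L * 2 ^ c.b) * (c.L * 2 ^ c.b) := Nat.mul_le_mul h1 (h2.trans h1)
    _ = _ := by rw [pow_two]

lemma lam_mul_const {c : Cfg} (hc : c.Valid) {X k : ℕ} (hX : Fmt c X) (hk : k ≤ 2 ^ c.b) (g : ℕ → ℝ) (n : ℕ) :
    lam (2 ^ c.w) n (X * k) g = (k : ℝ) * lam (2 ^ c.w) n X g := by
  have hW := Cfg.Valid.Wpos hc
  unfold lam
  rw [mul_sum]
  refine sum_congr rfl fun j _ => ?_
  rw [dig_mul_const hW ?_ j]
  · push_cast
    ring
  · intro j
    have h1 := (hX.2 j).1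
    have h2 := pow_b_le hc
    have h3 := hc.hBig
    have h4 : dig (2 ^ c.w) X j * k ≤ (c.L * 2 ^ c.b) * (c.L * 2 ^ c.b) :=
      Nat.mul_le_mul (h1.le.trans h2) (hk.trans h2)
    rw [pow_two] at h3
    omega

/-! ### Normalisation without proof: sign splitting digit by digit -/

/-- The signed digits with an offset. -/
def splitD (c : Cfg) (A B : ℕ) : ℕ := Nat.sub (Nat.add A c.SM) B

/-- Positive part of the digits. -/
def posPart (c : Cfg) (d : ℕ) : ℕ :=
  (fun s => Nat.land d (Nat.sub s (Nat.shiftRight s c.w1))) (Nat.land d c.SM)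

/-- Negative part of the digits. -/
def negPart (c : Cfg) (d : ℕ) : ℕ :=
  (fun g => Nat.sub g (Nat.land d (Nat.sub g (Nat.shiftRight g c.w1)))) (Nat.sub c.SM (Nat.land d c.SM))

/-! ### Sums -/

/-- Normalisation of the difference of two digit vectors. -/
def addCore (c : Cfg) (A B r : ℕ) (ok : Bool) : TMod :=
  (fun d => (fun P N =>
    TMod.mk P N (Nat.add (Nat.mod P c.W1) (Nat.mod N c.W1)) r
      (and ok (Nat.beq (Nat.add A N) (Nat.add B P))))
    (Nat.land (posPart c d) c.MB) (Nat.land (negPart c d) c.MB)) (splitD c A B)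

/-- Sum. -/
def addT (c : Cfg) (a b : TMod) : TMod :=
  addCore c (Nat.add a.P b.P) (Nat.add a.N b.N) (Nat.add a.rem b.rem) (and a.ok b.ok)

/-- Difference. -/
def subT (c : Cfg) (a b : TMod) : TMod :=
  addCore c (Nat.add a.P b.N) (Nat.add a.N b.P) (Nat.add a.rem b.rem) (and a.ok b.ok)

/-- Opposite. -/
def negT (a : TMod) : TMod := TMod.mk a.N a.P a.nrm a.rem a.ok

lemma good_mk {c : Cfg} (hc : c.Valid) (p n r : ℕ) (ok : Bool) :
    Good c (TMod.mk (Nat.land p c.MB) (Nat.land n c.MB)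
      (Nat.add (Nat.mod (Nat.land p c.MB) c.W1) (Nat.mod (Nat.land n c.MB) c.W1)) r ok) := by
  refine ⟨fmt_land hc p, fmt_land hc n, ?_⟩
  show (Nat.mod _ _ + Nat.mod _ _) = _
  rw [fmt_dsum_mod hc (fmt_land hc p), fmt_dsum_mod hc (fmt_land hc n)]

lemma good_neg {c : Cfg} {a : TMod} (g : Good c a) : Good c (negT a) := by
  refine ⟨g.2.1, g.1, ?_⟩
  show a.nrm = _
  rw [g.2.2]
  show _ = dsum _ _ a.N + dsum _ _ a.P
  ring

lemma repAt_neg {c : Cfg} {ξ η : ℝ} {a : TMod} {x : ℝ} (h : RepAt c ξ η a x) :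
    RepAt c ξ η (negT a) (-x) := by
  refine ⟨good_neg h.1, fun hok => ?_⟩
  have h1 := h.2 hok
  show |-x - (val c ξ η a.N - val c ξ η a.P) * unit c| ≤ (a.rem : ℝ) * unit c
  have e : -x - (val c ξ η a.N - val c ξ η a.P) * unit c = -(x - (val c ξ η a.P - val c ξ η a.N) * unit c) := by
    ring
  rw [e, abs_neg]
  exact h1

lemma dig_fmt_add_le {c : Cfg} (hc : c.Valid) {X Y : ℕ} (hX : Fmt c X) (hY : Fmt c Y) (k : ℕ) :
    dig (2 ^ c.w) (X + Y) k ≤ 2 * 2 ^ c.b ∧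
      dig (2 ^ c.w) (X + Y) k = dig (2 ^ c.w) X k + dig (2 ^ c.w) Y k := by
  have hW := Cfg.Valid.Wpos hc
  have h1 := pow_b_le hc
  have h2 := M_le_sq hc
  have h3 := hc.hBig
  have hd : ∀ j, dig (2 ^ c.w) X j + dig (2 ^ c.w) Y j < 2 ^ c.w := by
    intro j
    have := (hX.2 j).1
    have := (hY.2 j).1
    omega
  rw [dig_add hW hd k]
  have := (hX.2 k).1
  have := (hY.2 k).1
  exact ⟨by omega, rfl⟩

/-- The identity checked at run time gives the identity for the values. -/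
lemma lam_of_eq {W : ℕ} (hW : 0 < W) {A B C D : ℕ} (h : A + B = C + D)
    (h1 : ∀ k, dig W A k + dig W B k < W) (h2 : ∀ k, dig W C k + dig W D k < W)
    (n : ℕ) (g : ℕ → ℝ) : lam W n A g + lam W n B g = lam W n C g + lam W n D g := by
  rw [← lam_add hW h1, ← lam_add hW h2, h]

lemma addCore_sound {c : Cfg} {ξ η : ℝ} (C : Ctx c ξ η) {A B r : ℕ} {ok : Bool}
    (hA : ∀ k, dig (2 ^ c.w) A k ≤ 2 * 2 ^ c.b) (hB : ∀ k, dig (2 ^ c.w) B k ≤ 2 * 2 ^ c.b) :
    Good c (addCore c A B r ok) ∧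
      ((addCore c A B r ok).ok = true → ok = true ∧
        (addCore c A B r ok).V c ξ η = (lam (2 ^ c.w) c.L A (mono c.ST ξ η) - lam (2 ^ c.w) c.L B (mono c.ST ξ η)) * unit c) := by
  have hc := C.hc
  have hW := Cfg.Valid.Wpos hc
  refine ⟨good_mk hc _ _ _ _, fun hok => ?_⟩
  have hok' : (and ok (Nat.beq (Nat.add A (Nat.land (negPart c (splitD c A B)) c.MB))
      (Nat.add B (Nat.land (posPart c (splitD c A B)) c.MB)))) = true := hok
  rw [Bool.and_eq_true] at hok'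
  refine ⟨hok'.1, ?_⟩
  have hchk := Nat.eq_of_beq_eq_true hok'.2
  have hP := fmt_land hc (posPart c (splitD c A B))
  have hN := fmt_land hc (negPart c (splitD c A B))
  set P := Nat.land (posPart c (splitD c A B)) c.MB with hPd
  set N := Nat.land (negPart c (splitD c A B)) c.MB with hNd
  have h1 := pow_b_le hc
  have h2 := M_le_sq hc
  have h3 := hc.hBig
  have e := lam_of_eq hW (A := A) (B := N) (C := B) (D := P) hchk
    (fun k => by
      have := hA k
      have := (hN.2 k).1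
      omega)
    (fun k => by
      have := hB k
      have := (hP.2 k).1
      omega) c.L (mono c.ST ξ η)
  show (val c ξ η P - val c ξ η N) * unit c = _
  unfold val
  have e2 : lam (2 ^ c.w) c.L P (mono c.ST ξ η) - lam (2 ^ c.w) c.L N (mono c.ST ξ η)
      = lam (2 ^ c.w) c.L A (mono c.ST ξ η) - lam (2 ^ c.w) c.L B (mono c.ST ξ η) := by
    linarith
  rw [e2]

lemma repAt_add {c : Cfg} {ξ η : ℝ} (C : Ctx c ξ η) {a b : TMod} {x y : ℝ} (ha : RepAt c ξ η a x)
    (hb : RepAt c ξ η b y) : RepAt c ξ η (addT c a b) (x + y) := by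
  have hc := C.hc
  have hW := Cfg.Valid.Wpos hc
  have h1 := dig_fmt_add_le hc ha.1.1 hb.1.1
  have h2 := dig_fmt_add_le hc ha.1.2.1 hb.1.2.1
  have key := addCore_sound C (A := Nat.add a.P b.P) (B := Nat.add a.N b.N)
    (r := Nat.add a.rem b.rem) (ok := and a.ok b.ok) (fun k => (h1 k).1) (fun k => (h2 k).1)
  refine ⟨key.1, fun hok => ?_⟩
  obtain ⟨hab, hV⟩ := key.2 hok
  rw [Bool.and_eq_true] at hab
  have ra := ha.2 hab.1
  have rb := hb.2 hab.2
  show |x + y - (addT c a b).V c ξ η| ≤ ((Nat.add a.rem b.rem : ℕ) : ℝ) * unit c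
  have hV' : (addT c a b).V c ξ η = a.V c ξ η + b.V c ξ η := by
    show (addCore c _ _ _ _).V c ξ η = _
    rw [hV]
    have hda : ∀ k, dig (2 ^ c.w) a.P k + dig (2 ^ c.w) b.P k < 2 ^ c.w := by
      intro k
      rw [← (h1 k).2]
      have := (h1 k).1
      have := pow_b_le hc
      have := M_le_sq hc
      have := hc.hBig
      omega
    have hdb : ∀ k, dig (2 ^ c.w) a.N k + dig (2 ^ c.w) b.N k < 2 ^ c.w := by
      intro k
      rw [← (h2 k).2]
      have := (h2 k).1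
      have := pow_b_le hc
      have := M_le_sq hc
      have := hc.hBig
      omega
    have e1 : lam (2 ^ c.w) c.L (Nat.add a.P b.P) (mono c.ST ξ η) = val c ξ η a.P + val c ξ η b.P :=
      lam_add hW hda _ _
    have e2 : lam (2 ^ c.w) c.L (Nat.add a.N b.N) (mono c.ST ξ η) = val c ξ η a.N + val c ξ η b.N :=
      lam_add hW hdb _ _
    rw [e1, e2]
    unfold TMod.V
    ring
  rw [hV']
  have e : x + y - (a.V c ξ η + b.V c ξ η) = (x - a.V c ξ η) + (y - b.V c ξ η) := by ring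
  rw [e]
  refine (abs_add_le _ _).trans ?_
  show _ ≤ ((a.rem + b.rem : ℕ) : ℝ) * unit c
  push_cast
  rw [add_mul]
  exact add_le_add ra rb

lemma repAt_sub {c : Cfg} {ξ η : ℝ} (C : Ctx c ξ η) {a b : TMod} {x y : ℝ} (ha : RepAt c ξ η a x)
    (hb : RepAt c ξ η b y) : RepAt c ξ η (subT c a b) (x - y) := by
  have hc := C.hc
  have hW := Cfg.Valid.Wpos hc
  have h1 := dig_fmt_add_le hc ha.1.1 hb.1.2.1
  have h2 := dig_fmt_add_le hc ha.1.2.1 hb.1.1
  have key := addCore_sound C (A := Nat.add a.P b.N) (B := Nat.add a.N b.P)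
    (r := Nat.add a.rem b.rem) (ok := and a.ok b.ok) (fun k => (h1 k).1) (fun k => (h2 k).1)
  refine ⟨key.1, fun hok => ?_⟩
  obtain ⟨hab, hV⟩ := key.2 hok
  rw [Bool.and_eq_true] at hab
  have ra := ha.2 hab.1
  have rb := hb.2 hab.2
  show |x - y - (subT c a b).V c ξ η| ≤ ((Nat.add a.rem b.rem : ℕ) : ℝ) * unit c
  have hV' : (subT c a b).V c ξ η = a.V c ξ η - b.V c ξ η := by
    show (addCore c _ _ _ _).V c ξ η = _
    rw [hV]
    have hda : ∀ k, dig (2 ^ c.w) a.P k + dig (2 ^ c.w) b.N k < 2 ^ c.w := by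
      intro k
      rw [← (h1 k).2]
      have := (h1 k).1
      have := pow_b_le hc
      have := M_le_sq hc
      have := hc.hBig
      omega
    have hdb : ∀ k, dig (2 ^ c.w) a.N k + dig (2 ^ c.w) b.P k < 2 ^ c.w := by
      intro k
      rw [← (h2 k).2]
      have := (h2 k).1
      have := pow_b_le hc
      have := M_le_sq hc
      have := hc.hBig
      omega
    have e1 : lam (2 ^ c.w) c.L (Nat.add a.P b.N) (mono c.ST ξ η) = val c ξ η a.P + val c ξ η b.N :=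
      lam_add hW hda _ _
    have e2 : lam (2 ^ c.w) c.L (Nat.add a.N b.P) (mono c.ST ξ η) = val c ξ η a.N + val c ξ η b.P :=
      lam_add hW hdb _ _
    rw [e1, e2]
    unfold TMod.V
    ring
  rw [hV']
  have e : x - y - (a.V c ξ η - b.V c ξ η) = (x - a.V c ξ η) - (y - b.V c ξ η) := by ring
  rw [e]
  refine (abs_sub _ _).trans ?_
  show _ ≤ ((a.rem + b.rem : ℕ) : ℝ) * unit c
  push_cast
  rw [add_mul]
  exact add_le_add ra rb

/-! ### Products -/

/-- Product. -/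
def mulT (c : Cfg) (a b : TMod) : TMod :=
  (fun zp zn => (fun zpl znl => (fun d => (fun pp nn => (fun P N =>
    TMod.mk P N (Nat.add (Nat.mod P c.W1) (Nat.mod N c.W1))
      (Nat.add (Nat.add (Nat.shiftRight (Nat.add (Nat.add (Nat.mul a.nrm b.rem) (Nat.mul b.nrm a.rem))
          (Nat.mul a.rem b.rem)) c.f)
        (Nat.shiftRight (Nat.add (Nat.mod (Nat.shiftRight zp c.wL) c.W1)
          (Nat.mod (Nat.shiftRight zn c.wL) c.W1)) c.f)) (Nat.add c.L 2))
      (and (and a.ok b.ok)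
        (Nat.beq (Nat.add (Nat.add zpl (Nat.shiftLeft N c.f)) (Nat.land nn c.MF))
          (Nat.add (Nat.add znl (Nat.shiftLeft P c.f)) (Nat.land pp c.MF)))))
    (Nat.land (Nat.shiftRight pp c.f) c.MB) (Nat.land (Nat.shiftRight nn c.f) c.MB))
    (posPart c d) (negPart c d))
    (splitD c zpl znl))
    (Nat.land zp c.LOW) (Nat.land zn c.LOW))
  (Nat.add (Nat.mul a.P b.P) (Nat.mul a.N b.N)) (Nat.add (Nat.mul a.P b.N) (Nat.mul a.N b.P))

lemma land_LOW {c : Cfg} (hc : c.Valid) (X : ℕ) : Nat.land X c.LOW = X % (2 ^ c.w) ^ c.L := by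
  show X &&& c.LOW = _
  rw [hc.hLOW, Nat.and_two_pow_sub_one_eq_mod, hc.hwL, pow_mul]

lemma shr_wL {c : Cfg} (hc : c.Valid) (X : ℕ) : Nat.shiftRight X c.wL = X / (2 ^ c.w) ^ c.L := by
  show X >>> c.wL = _
  rw [Nat.shiftRight_eq_div_pow, hc.hwL, pow_mul]

/-- The real inequality for the product of two enclosures. -/
lemma mul_real {x y va vb e ra rb na nb vp h S H Ln : ℝ} (he : 0 < e)
    (hra : 0 ≤ ra) (hrb : 0 ≤ rb)
    (h1 : |x - va| ≤ ra * e) (h2 : |y - vb| ≤ rb * e) (h3 : |va| ≤ na * e) (h4 : |vb| ≤ nb * e)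
    (hv : |va * vb - vp| ≤ h * e ^ 2 + Ln * e)
    (hS : (na * rb + nb * ra + ra * rb) * e ≤ S) (hH : h * e ≤ H) :
    |x * y - vp| ≤ (S + H + Ln) * e := by
  have hna : 0 ≤ na * e := (abs_nonneg _).trans h3
  have hnb : 0 ≤ nb * e := (abs_nonneg _).trans h4
  have e1 : x * y - va * vb = (x - va) * vb + va * (y - vb) + (x - va) * (y - vb) := by ring
  have b1 : |(x - va) * vb| ≤ ra * e * (nb * e) := by
    rw [abs_mul]
    exact mul_le_mul h1 h4 (abs_nonneg _) (by positivity)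
  have b2 : |va * (y - vb)| ≤ na * e * (rb * e) := by
    rw [abs_mul]
    exact mul_le_mul h3 h2 (abs_nonneg _) hna
  have b3 : |(x - va) * (y - vb)| ≤ ra * e * (rb * e) := by
    rw [abs_mul]
    exact mul_le_mul h1 h2 (abs_nonneg _) (by positivity)
  have b4 : |x * y - va * vb| ≤ (na * rb + nb * ra + ra * rb) * e * e := by
    rw [e1]
    refine (abs_add_le _ _).trans ?_
    have := abs_add_le ((x - va) * vb) (va * (y - vb))
    nlinarith
  have b5 : (na * rb + nb * ra + ra * rb) * e * e ≤ S * e := mul_le_mul_of_nonneg_right hS he.le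
  have b6 : h * e ^ 2 ≤ H * e := by
    have := mul_le_mul_of_nonneg_right hH he.le
    nlinarith
  have e2 : x * y - vp = (x * y - va * vb) + (va * vb - vp) := by ring
  rw [e2]
  refine (abs_add_le _ _).trans ?_
  nlinarith

lemma shr_bound (a f : ℕ) : (a : ℝ) * ((2 : ℝ) ^ f)⁻¹ ≤ ((Nat.shiftRight a f : ℕ) : ℝ) + 1 := by
  have h : Nat.shiftRight a f = a / 2 ^ f := Nat.shiftRight_eq_div_pow a f
  rw [h]
  have h2 : (0 : ℝ) < 2 ^ f := by positivity
  rw [← div_eq_mul_inv, div_le_iff₀ h2]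
  have h3 : a < (a / 2 ^ f + 1) * 2 ^ f := by
    have := Nat.lt_succ_self (a / 2 ^ f)
    exact (Nat.div_lt_iff_lt_mul (by positivity)).mp this
  have h4 : (a : ℝ) < ((a / 2 ^ f + 1) * 2 ^ f : ℕ) := by exact_mod_cast h3
  push_cast at h4
  exact h4.le

/-- The digit facts for the low part of a product pair. -/
lemma dig_pair {c : Cfg} (hc : c.Valid) {X Y X' Y' : ℕ} (hX : Fmt c X) (hY : Fmt c Y) (hX' : Fmt c X')
    (hY' : Fmt c Y') (k : ℕ) :
    dig (2 ^ c.w) (X * Y) k + dig (2 ^ c.w) (X' * Y') k ≤ 2 * (c.L * 2 ^ c.b) ^ 2 := by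
  have h1 := dig_prod_le hc hX hY k
  have h2 := dig_prod_le hc hX' hY' k
  omega

/-- The main inequality of the product. -/
lemma mul_core {c : Cfg} {ξ η : ℝ} (C : Ctx c ξ η) {a b : TMod} (ga : Good c a) (gb : Good c b)
    {P N Ep En : ℕ} (hP : Fmt c P) (hN : Fmt c N)
    (hchk : (a.P * b.P + a.N * b.N) % (2 ^ c.w) ^ c.L + N * 2 ^ c.f + Nat.land En c.MF
      = (a.P * b.N + a.N * b.P) % (2 ^ c.w) ^ c.L + P * 2 ^ c.f + Nat.land Ep c.MF) :
    |a.V c ξ η * b.V c ξ η - (val c ξ η P - val c ξ η N) * unit c|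
      ≤ ((dsum (2 ^ c.w) c.L ((a.P * b.P + a.N * b.N) / (2 ^ c.w) ^ c.L)
          + dsum (2 ^ c.w) c.L ((a.P * b.N + a.N * b.P) / (2 ^ c.w) ^ c.L) : ℕ) : ℝ) * unit c ^ 2
        + (c.L : ℝ) * unit c := by
  have hc := C.hc
  have hW := Cfg.Valid.Wpos hc
  have hBig := hc.hBig
  have hsq : ∀ (A B : ℕ), 0 ≤ A * B := fun _ _ => Nat.zero_le _
  set W := 2 ^ c.w with hWd
  set m := mono c.ST ξ η with hm
  obtain ⟨gaP, gaN, _⟩ := ga
  obtain ⟨gbP, gbN, _⟩ := gb
  set Z1 := a.P * b.P with hZ1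
  set Z2 := a.N * b.N with hZ2
  set Z3 := a.P * b.N with hZ3
  set Z4 := a.N * b.P with hZ4
  have hM := M_le_sq hc
  -- carries
  have c12 : ∀ k, dig W Z1 k + dig W Z2 k < W := fun k => by
    have h : dig W Z1 k + dig W Z2 k ≤ 2 * (c.L * 2 ^ c.b) ^ 2 := dig_pair hc gaP gbP gaN gbN k
    omega
  have c34 : ∀ k, dig W Z3 k + dig W Z4 k < W := fun k => by
    have h : dig W Z3 k + dig W Z4 k ≤ 2 * (c.L * 2 ^ c.b) ^ 2 := dig_pair hc gaP gbN gaN gbP k
    omega
  -- the four products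
  have p1 := prod_bound C gaP gbP
  have p2 := prod_bound C gaN gbN
  have p3 := prod_bound C gaP gbN
  have p4 := prod_bound C gaN gbP
  -- the additive decompositions
  have a12 := lam_add hW c12 c.L m
  have a34 := lam_add hW c34 c.L m
  have d12 : dsum W c.L ((Z1 + Z2) / W ^ c.L) = dsum W c.L (Z1 / W ^ c.L) + dsum W c.L (Z2 / W ^ c.L) := by
    unfold dsum
    rw [← sum_add_distrib]
    refine sum_congr rfl fun k _ => ?_
    rw [dig_high, dig_high, dig_high, dig_add hW c12]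
  have d34 : dsum W c.L ((Z3 + Z4) / W ^ c.L) = dsum W c.L (Z3 / W ^ c.L) + dsum W c.L (Z4 / W ^ c.L) := by
    unfold dsum
    rw [← sum_add_distrib]
    refine sum_congr rfl fun k _ => ?_
    rw [dig_high, dig_high, dig_high, dig_add hW c34]
  -- the low parts
  set zpl := (Z1 + Z2) % W ^ c.L with hzpl
  set znl := (Z3 + Z4) % W ^ c.L with hznl
  have lp : lam W c.L zpl m = lam W c.L (Z1 + Z2) m := lam_congr fun k hk => dig_low hW _ _ _ hk
  have ln : lam W c.L znl m = lam W c.L (Z3 + Z4) m := lam_congr fun k hk => dig_low hW _ _ _ hk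
  have bp : ∀ k, dig W zpl k ≤ 2 * (c.L * 2 ^ c.b) ^ 2 := by
    intro k
    by_cases hk : k < c.L
    · rw [hzpl, dig_low hW _ _ _ hk, dig_add hW c12]
      exact dig_pair hc gaP gbP gaN gbN k
    · rw [dig_eq_zero_of_lt]
      · exact Nat.zero_le _
      · exact lt_of_lt_of_le (Nat.mod_lt _ (by positivity)) (Nat.pow_le_pow_right hW (not_lt.mp hk))
  have bn : ∀ k, dig W znl k ≤ 2 * (c.L * 2 ^ c.b) ^ 2 := by
    intro k
    by_cases hk : k < c.L
    · rw [hznl, dig_low hW _ _ _ hk, dig_add hW c34]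
      exact dig_pair hc gaP gbN gaN gbP k
    · rw [dig_eq_zero_of_lt]
      · exact Nat.zero_le _
      · exact lt_of_lt_of_le (Nat.mod_lt _ (by positivity)) (Nat.pow_le_pow_right hW (not_lt.mp hk))
  -- digits with f more bits
  have hfb : 2 ^ c.f ≤ 2 ^ c.b := Nat.pow_le_pow_right (by norm_num) (by have := hc.hfb; omega)
  have hbf := pow_bf_le hc
  have dN : ∀ k, dig W (N * 2 ^ c.f) k = dig W N k * 2 ^ c.f := fun k => dig_mul_const hW (fun j => by
    have h1 := (hN.2 j).1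
    have h2 : dig W N j * 2 ^ c.f ≤ 2 ^ c.b * 2 ^ c.f := Nat.mul_le_mul_right _ h1.le
    omega) k
  have dP : ∀ k, dig W (P * 2 ^ c.f) k = dig W P k * 2 ^ c.f := fun k => dig_mul_const hW (fun j => by
    have h1 := (hP.2 j).1
    have h2 : dig W P j * 2 ^ c.f ≤ 2 ^ c.b * 2 ^ c.f := Nat.mul_le_mul_right _ h1.le
    omega) k
  have bNf : ∀ k, dig W N k * 2 ^ c.f ≤ (c.L * 2 ^ c.b) ^ 2 := fun k =>
    (Nat.mul_le_mul_right _ (hN.2 k).1.le).trans hbf
  have bPf : ∀ k, dig W P k * 2 ^ c.f ≤ (c.L * 2 ^ c.b) ^ 2 := fun k =>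
    (Nat.mul_le_mul_right _ (hP.2 k).1.le).trans hbf
  -- rounding digits
  have hE : ∀ E k, dig W (Nat.land E c.MF) k < 2 ^ c.f := by
    intro E k
    have e0 : Nat.land E c.MF = E &&& c.MF := rfl
    by_cases hk : k < c.L
    · have h1 := dig_land_le (w := c.w) E c.MF k
      have h2 := hc.hMFd k hk
      rw [e0]
      exact lt_of_le_of_lt h1 h2
    · rw [dig_eq_zero_of_lt]
      · positivity
      · rw [e0]
        exact lt_of_lt_of_le (lt_of_le_of_lt Nat.and_le_right hc.hMF)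
          (Nat.pow_le_pow_right hW (not_lt.mp hk))
  have h2f : 2 ^ c.f ≤ (c.L * 2 ^ c.b) ^ 2 := by
    have := pow_b_le hc
    omega
  -- the check
  have cA : ∀ k, dig W zpl k + dig W (N * 2 ^ c.f) k < W := fun k => by
    rw [dN]
    have := bp k
    have := bNf k
    omega
  have cB : ∀ k, dig W znl k + dig W (P * 2 ^ c.f) k < W := fun k => by
    rw [dP]
    have := bn k
    have := bPf k
    omega
  have cA2 : ∀ k, dig W (zpl + N * 2 ^ c.f) k + dig W (Nat.land En c.MF) k < W := fun k => by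
    rw [dig_add hW cA, dN]
    have := bp k
    have := bNf k
    have := hE En k
    omega
  have cB2 : ∀ k, dig W (znl + P * 2 ^ c.f) k + dig W (Nat.land Ep c.MF) k < W := fun k => by
    rw [dig_add hW cB, dP]
    have := bn k
    have := bPf k
    have := hE Ep k
    omega
  have ck := lam_of_eq hW hchk cA2 cB2 c.L m
  rw [lam_add hW cA, lam_add hW cB, lam_mul_const hc hN (by exact hfb), lam_mul_const hc hP (by exact hfb)] at ck
  -- rounding errors
  have hEb : |lam W c.L (Nat.land Ep c.MF) m - lam W c.L (Nat.land En c.MF) m| ≤ (c.L : ℝ) * 2 ^ c.f := by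
    unfold lam
    rw [← sum_sub_distrib]
    refine (abs_sum_le_sum_abs _ _).trans ?_
    have : ∀ k ∈ range c.L, |(dig W (Nat.land Ep c.MF) k : ℝ) * m k - (dig W (Nat.land En c.MF) k : ℝ) * m k|
        ≤ (2 : ℝ) ^ c.f := by
      intro k _
      rw [← sub_mul, abs_mul]
      have h1 := hE Ep k
      have h2 := hE En k
      have h3 : (dig W (Nat.land Ep c.MF) k : ℝ) < 2 ^ c.f := by exact_mod_cast h1
      have h4 : (dig W (Nat.land En c.MF) k : ℝ) < 2 ^ c.f := by exact_mod_cast h2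
      have h5 : (0 : ℝ) ≤ dig W (Nat.land Ep c.MF) k := Nat.cast_nonneg _
      have h6 : (0 : ℝ) ≤ dig W (Nat.land En c.MF) k := Nat.cast_nonneg _
      have h7 : |(dig W (Nat.land Ep c.MF) k : ℝ) - dig W (Nat.land En c.MF) k| ≤ 2 ^ c.f := by
        rw [abs_le]
        constructor <;> linarith
      calc _ ≤ (2 : ℝ) ^ c.f * 1 := mul_le_mul h7 (abs_mono_le C.hξ C.hη k) (abs_nonneg _) (by positivity)
        _ = _ := mul_one _
    refine (sum_le_sum this).trans ?_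
    simp
  -- assembling
  have hu := unit_pos c
  have hu2 := unit_mul c
  unfold TMod.V
  unfold val at p1 p2 p3 p4 ⊢
  set vPa := lam W c.L a.P m
  set vNa := lam W c.L a.N m
  set vPb := lam W c.L b.P m
  set vNb := lam W c.L b.N m
  set vP := lam W c.L P m
  set vN := lam W c.L N m
  set dd := ((dsum W c.L ((Z1 + Z2) / W ^ c.L) + dsum W c.L ((Z3 + Z4) / W ^ c.L) : ℕ) : ℝ) with hdd
  have hdd' : dd = (dsum W c.L (Z1 / W ^ c.L) : ℝ) + dsum W c.L (Z2 / W ^ c.L) + dsum W c.L (Z3 / W ^ c.L)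
      + dsum W c.L (Z4 / W ^ c.L) := by
    rw [hdd, d12, d34]
    push_cast
    ring
  have e5 : (vPa - vNa) * unit c * ((vPb - vNb) * unit c) - (vP - vN) * unit c
      = (((vPa * vPb - lam W c.L Z1 m) + (vNa * vNb - lam W c.L Z2 m) - (vPa * vNb - lam W c.L Z3 m)
          - (vNa * vPb - lam W c.L Z4 m))
        + (lam W c.L (Nat.land Ep c.MF) m - lam W c.L (Nat.land En c.MF) m)) * unit c ^ 2 := by
    have h2f' : (2 : ℝ) ^ c.f * unit c = 1 := hu2
    have e6 : (vP - vN) * unit c = (vP - vN) * ((2 : ℝ) ^ c.f * unit c) * unit c := by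
      rw [h2f', mul_one]
    rw [e6]
    have e7 : lam W c.L Z1 m + lam W c.L Z2 m - (lam W c.L Z3 m + lam W c.L Z4 m)
        = (vP - vN) * 2 ^ c.f + (lam W c.L (Nat.land Ep c.MF) m - lam W c.L (Nat.land En c.MF) m) := by
      rw [← a12, ← a34, ← lp, ← ln]
      have ck' : lam W c.L zpl m + (((2 ^ c.f : ℕ) : ℝ) * vN) + lam W c.L (Nat.land En c.MF) m
          = lam W c.L znl m + (((2 ^ c.f : ℕ) : ℝ) * vP) + lam W c.L (Nat.land Ep c.MF) m := ck
      push_cast at ck'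
      linarith
    have e8 : (vPa - vNa) * ((vPb - vNb)) = ((vPa * vPb - lam W c.L Z1 m) + (vNa * vNb - lam W c.L Z2 m)
        - (vPa * vNb - lam W c.L Z3 m) - (vNa * vPb - lam W c.L Z4 m))
        + (lam W c.L Z1 m + lam W c.L Z2 m - (lam W c.L Z3 m + lam W c.L Z4 m)) := by
      ring
    calc (vPa - vNa) * unit c * ((vPb - vNb) * unit c) - (vP - vN) * ((2 : ℝ) ^ c.f * unit c) * unit c
        = ((vPa - vNa) * ((vPb - vNb)) - (vP - vN) * 2 ^ c.f) * unit c ^ 2 := by ring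
      _ = _ := by
        rw [e8, e7]
        ring
  rw [e5, abs_mul, abs_of_nonneg (by positivity : (0 : ℝ) ≤ unit c ^ 2)]
  have e9 : (c.L : ℝ) * unit c = (c.L : ℝ) * 2 ^ c.f * unit c ^ 2 := by
    have : (2 : ℝ) ^ c.f * unit c = 1 := hu2
    calc (c.L : ℝ) * unit c = (c.L : ℝ) * ((2 : ℝ) ^ c.f * unit c) * unit c := by
          rw [this, mul_one]
      _ = _ := by ring
  rw [e9, ← add_mul]
  apply mul_le_mul_of_nonneg_right _ (by positivity)
  refine (abs_add_le _ _).trans (add_le_add ?_ hEb)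
  rw [hdd']
  refine (abs_sub _ _).trans (add_le_add ((abs_sub _ _).trans (add_le_add ((abs_add_le _ _).trans (add_le_add p1 p2)) p3)) p4)

/-- The digit sum of the high part of the sum of two products. -/
lemma high_mod {c : Cfg} {ξ η : ℝ} (C : Ctx c ξ η) {X Y X' Y' : ℕ} (hX : Fmt c X) (hY : Fmt c Y)
    (hX' : Fmt c X') (hY' : Fmt c Y') :
    Nat.mod (Nat.shiftRight (X * Y + X' * Y') c.wL) c.W1
      = dsum (2 ^ c.w) c.L ((X * Y + X' * Y') / (2 ^ c.w) ^ c.L) := by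
  have hc := C.hc
  have hW := Cfg.Valid.Wpos hc
  have hBig := hc.hBig
  have c12 : ∀ k, dig (2 ^ c.w) (X * Y) k + dig (2 ^ c.w) (X' * Y') k < 2 ^ c.w := fun k => by
    have := dig_pair hc hX hY hX' hY' k
    omega
  rw [shr_wL hc]
  have h1 := mul_lt_pow hW hX.1 hY.1
  have h2 := mul_lt_pow hW hX'.1 hY'.1
  have h3 : X * Y + X' * Y' < (2 ^ c.w) ^ (2 * c.L) := by
    rw [← sum_dig hW (2 * c.L) (X * Y) h1, ← sum_dig hW (2 * c.L) (X' * Y') h2, ← sum_add_distrib]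
    have : ∀ k ∈ range (2 * c.L), dig (2 ^ c.w) (X * Y) k * (2 ^ c.w) ^ k + dig (2 ^ c.w) (X' * Y') k * (2 ^ c.w) ^ k
        = (dig (2 ^ c.w) (X * Y) k + dig (2 ^ c.w) (X' * Y') k) * (2 ^ c.w) ^ k := fun k _ => by ring
    rw [sum_congr rfl this]
    exact sum_lt_pow hW _ _ fun k _ => c12 k
  have h4 : (X * Y + X' * Y') / (2 ^ c.w) ^ c.L < (2 ^ c.w) ^ c.L := by
    apply Nat.div_lt_of_lt_mul
    rw [← pow_add, ← two_mul]
    exact h3
  apply mod_W1 hc h4
  have d12 : dsum (2 ^ c.w) c.L ((X * Y + X' * Y') / (2 ^ c.w) ^ c.L)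
      = dsum (2 ^ c.w) c.L (X * Y / (2 ^ c.w) ^ c.L) + dsum (2 ^ c.w) c.L (X' * Y' / (2 ^ c.w) ^ c.L) := by
    unfold dsum
    rw [← sum_add_distrib]
    refine sum_congr rfl fun k _ => ?_
    rw [dig_high, dig_high, dig_high, dig_add hW c12]
  rw [d12]
  have := dsum_high_le C hX hY
  have := dsum_high_le C hX' hY'
  omega

lemma good_mulT {c : Cfg} (hc : c.Valid) (a b : TMod) : Good c (mulT c a b) := good_mk hc _ _ _ _

lemma repAt_mul {c : Cfg} {ξ η : ℝ} (C : Ctx c ξ η) {a b : TMod} {x y : ℝ} (ha : RepAt c ξ η a x)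
    (hb : RepAt c ξ η b y) : RepAt c ξ η (mulT c a b) (x * y) := by
  have hc := C.hc
  refine ⟨good_mulT hc a b, fun hok => ?_⟩
  have ga := ha.1
  have gb := hb.1
  set zp := a.P * b.P + a.N * b.N with hzp
  set zn := a.P * b.N + a.N * b.P with hzn
  set zpl := Nat.land zp c.LOW with hzpl
  set znl := Nat.land zn c.LOW with hznl
  set pp := posPart c (splitD c zpl znl) with hpp
  set nn := negPart c (splitD c zpl znl) with hnn
  set P := Nat.land (Nat.shiftRight pp c.f) c.MB with hP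
  set N := Nat.land (Nat.shiftRight nn c.f) c.MB with hN
  have hok' : and (and a.ok b.ok)
      (Nat.beq (Nat.add (Nat.add zpl (Nat.shiftLeft N c.f)) (Nat.land nn c.MF))
        (Nat.add (Nat.add znl (Nat.shiftLeft P c.f)) (Nat.land pp c.MF))) = true := hok
  rw [Bool.and_eq_true, Bool.and_eq_true] at hok'
  obtain ⟨⟨oka, okb⟩, hchk⟩ := hok'
  have hchk' := Nat.eq_of_beq_eq_true hchk
  have e1 : ∀ X : ℕ, Nat.shiftLeft X c.f = X * 2 ^ c.f := fun X => Nat.shiftLeft_eq X c.f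
  have hchk2 : zp % (2 ^ c.w) ^ c.L + N * 2 ^ c.f + Nat.land nn c.MF
      = zn % (2 ^ c.w) ^ c.L + P * 2 ^ c.f + Nat.land pp c.MF := by
    rw [← land_LOW hc, ← land_LOW hc, ← e1, ← e1]
    exact hchk'
  have core := mul_core C ga gb (fmt_land hc _) (fmt_land hc _) hchk2
  have ra := ha.2 oka
  have rb := hb.2 okb
  have hna := abs_V_le C ga
  have hnb := abs_V_le C gb
  have hh : Nat.add (Nat.mod (Nat.shiftRight zp c.wL) c.W1) (Nat.mod (Nat.shiftRight zn c.wL) c.W1)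
      = dsum (2 ^ c.w) c.L (zp / (2 ^ c.w) ^ c.L) + dsum (2 ^ c.w) c.L (zn / (2 ^ c.w) ^ c.L) := by
    show Nat.mod _ _ + Nat.mod _ _ = _
    rw [hzp, hzn, high_mod C ga.1 gb.1 ga.2.1 gb.2.1, high_mod C ga.1 gb.2.1 ga.2.1 gb.1]
  have main := mul_real (x := x) (y := y) (va := a.V c ξ η) (vb := b.V c ξ η) (e := unit c)
    (ra := a.rem) (rb := b.rem) (na := a.nrm) (nb := b.nrm)
    (vp := (val c ξ η P - val c ξ η N) * unit c)
    (h := ((dsum (2 ^ c.w) c.L (zp / (2 ^ c.w) ^ c.L) + dsum (2 ^ c.w) c.L (zn / (2 ^ c.w) ^ c.L) : ℕ) : ℝ))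
    (S := ((Nat.shiftRight (Nat.add (Nat.add (Nat.mul a.nrm b.rem) (Nat.mul b.nrm a.rem))
          (Nat.mul a.rem b.rem)) c.f : ℕ) : ℝ) + 1)
    (H := ((Nat.shiftRight (Nat.add (Nat.mod (Nat.shiftRight zp c.wL) c.W1)
          (Nat.mod (Nat.shiftRight zn c.wL) c.W1)) c.f : ℕ) : ℝ) + 1)
    (Ln := c.L) (unit_pos c) (Nat.cast_nonneg _) (Nat.cast_nonneg _) ra rb hna hnb core ?_ ?_
  · show |x * y - (val c ξ η P - val c ξ η N) * unit c| ≤ ((Nat.add (Nat.add (Nat.shiftRight (Nat.add (Nat.add (Nat.mul a.nrm b.rem) (Nat.mul b.nrm a.rem))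
          (Nat.mul a.rem b.rem)) c.f)
        (Nat.shiftRight (Nat.add (Nat.mod (Nat.shiftRight zp c.wL) c.W1)
          (Nat.mod (Nat.shiftRight zn c.wL) c.W1)) c.f)) (Nat.add c.L 2) : ℕ) : ℝ) * unit c
    refine main.trans (le_of_eq ?_)
    congr 1
    show _ = ((_ + _ + (c.L + 2) : ℕ) : ℝ)
    push_cast
    ring
  · have h := shr_bound (Nat.add (Nat.add (Nat.mul a.nrm b.rem) (Nat.mul b.nrm a.rem))
          (Nat.mul a.rem b.rem)) c.f
    refine le_trans (le_of_eq ?_) h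
    show _ = ((a.nrm * b.rem + b.nrm * a.rem + a.rem * b.rem : ℕ) : ℝ) * _
    push_cast
    rfl
  · have h := shr_bound (Nat.add (Nat.mod (Nat.shiftRight zp c.wL) c.W1)
          (Nat.mod (Nat.shiftRight zn c.wL) c.W1)) c.f
    rw [hh] at h ⊢
    exact h

/-! ### Constants and coordinates -/

lemma fmt_zero {c : Cfg} (hc : c.Valid) : Fmt c 0 := by
  refine ⟨by positivity, fun k => ?_⟩
  rw [dig_of_zero]
  exact ⟨by positivity, fun _ => rfl⟩

lemma L_pos {c : Cfg} (hc : c.Valid) : 0 < c.L := by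
  rw [hc.hL]
  have := hc.hST
  positivity

lemma lam_zero (W n : ℕ) (g : ℕ → ℝ) : lam W n 0 g = 0 := by
  unfold lam
  apply sum_eq_zero
  intro k _
  rw [dig_of_zero]
  simp

lemma lam_small {W n X : ℕ} (hX : X < W) (hn : 0 < n) (g : ℕ → ℝ) : lam W n X g = (X : ℝ) * g 0 := by
  unfold lam
  rw [sum_eq_single 0]
  · rw [dig_zero, Nat.mod_eq_of_lt hX]
  · intro k _ hk
    have : X < W ^ k := by
      refine lt_of_lt_of_le hX ?_
      have : 1 ≤ k := by omega
      calc W = W ^ 1 := (pow_one W).symm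
        _ ≤ W ^ k := Nat.pow_le_pow_right (by omega) this
    rw [dig_eq_zero_of_lt this]
    simp
  · intro h
    exact absurd (mem_range.mpr hn) h

/-- A constant with a given remainder. -/
def ofFixR (c : Cfg) (n r : ℕ) (ok : Bool) : TMod :=
  (fun P => TMod.mk P 0 (Nat.mod P c.W1) r (and ok (and (Nat.beq P n) (Nat.ble (Nat.succ n) c.TB))))
    (Nat.land n c.MB)

/-- The constant `n` in fixed point units. -/
def ofFix (c : Cfg) (n : ℕ) : TMod := ofFixR c n 0 true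

/-- An enclosure of the fraction `p / q`. -/
def ofRat (c : Cfg) (p q : ℕ) : TMod :=
  ofFixR c (Nat.div (Nat.shiftLeft p c.f) q) 1 (Nat.ble 1 q)

lemma dsum_zero (W n : ℕ) : dsum W n 0 = 0 := by
  unfold dsum
  simp [dig_of_zero]

lemma good_ofFixR {c : Cfg} (hc : c.Valid) (n r : ℕ) (ok : Bool) : Good c (ofFixR c n r ok) := by
  refine ⟨fmt_land hc n, fmt_zero hc, ?_⟩
  show Nat.mod _ _ = dsum _ _ (Nat.land n c.MB) + dsum _ _ 0
  rw [fmt_dsum_mod hc (fmt_land hc n), dsum_zero, add_zero]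

lemma ofFixR_V {c : Cfg} {ξ η : ℝ} (C : Ctx c ξ η) {n r : ℕ} {ok : Bool}
    (hok : (ofFixR c n r ok).ok = true) : ok = true ∧ (ofFixR c n r ok).V c ξ η = (n : ℝ) * unit c := by
  have hc := C.hc
  have hok' : and ok (and (Nat.beq (Nat.land n c.MB) n) (Nat.ble (Nat.succ n) c.TB)) = true := hok
  rw [Bool.and_eq_true, Bool.and_eq_true] at hok'
  obtain ⟨h1, h2, h3⟩ := hok'
  refine ⟨h1, ?_⟩
  have e := Nat.eq_of_beq_eq_true h2
  have hlt : n < c.TB := Nat.le_of_ble_eq_true h3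
  rw [hc.hTB] at hlt
  have hM := pow_b_le hc
  have hM2 := M_le_sq hc
  have hB := hc.hBig
  have hW : n < 2 ^ c.w := by omega
  show (val c ξ η (Nat.land n c.MB) - val c ξ η 0) * unit c = _
  rw [e]
  unfold val
  rw [lam_zero, lam_small hW (L_pos hc), mono_zero]
  ring

lemma repAt_ofFix {c : Cfg} {ξ η : ℝ} (C : Ctx c ξ η) (n : ℕ) :
    RepAt c ξ η (ofFix c n) ((n : ℝ) * unit c) := by
  refine ⟨good_ofFixR C.hc n 0 true, fun hok => ?_⟩
  have h := (ofFixR_V C hok).2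
  show |_ - TMod.V c ξ η (ofFixR c n 0 true)| ≤ ((0 : ℕ) : ℝ) * unit c
  rw [h]
  simp

lemma repAt_ofRat {c : Cfg} {ξ η : ℝ} (C : Ctx c ξ η) (p q : ℕ) :
    RepAt c ξ η (ofRat c p q) ((p : ℝ) / q) := by
  refine ⟨good_ofFixR C.hc _ _ _, fun hok => ?_⟩
  obtain ⟨h1, h2⟩ := ofFixR_V C hok
  have hq : 1 ≤ q := Nat.le_of_ble_eq_true h1
  have hq' : (0 : ℝ) < q := by
    have : (1 : ℝ) ≤ q := by exact_mod_cast hq
    linarith
  show |_ - TMod.V c ξ η (ofFixR c (Nat.div (Nat.shiftLeft p c.f) q) 1 (Nat.ble 1 q))| ≤ ((1 : ℕ) : ℝ) * unit c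
  rw [h2]
  have hu := unit_pos c
  have hu2 := unit_mul c
  have e : Nat.div (Nat.shiftLeft p c.f) q = p * 2 ^ c.f / q := by
    have e1 : Nat.shiftLeft p c.f = p * 2 ^ c.f := Nat.shiftLeft_eq p c.f
    show Nat.shiftLeft p c.f / q = _
    rw [e1]
  rw [e]
  set n := p * 2 ^ c.f / q with hn
  have h3 : (n : ℝ) ≤ (p : ℝ) * 2 ^ c.f / q := by
    have := @Nat.cast_div_le ℝ _ _ _ (p * 2 ^ c.f) q
    push_cast at this
    exact this
  have h4 : (p : ℝ) * 2 ^ c.f / q ≤ (n : ℝ) + 1 := by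
    rw [div_le_iff₀ hq']
    have h5 : p * 2 ^ c.f < (n + 1) * q := by
      have := Nat.lt_succ_self n
      exact (Nat.div_lt_iff_lt_mul hq).mp this
    have h6 : ((p * 2 ^ c.f : ℕ) : ℝ) < (((n + 1) * q : ℕ) : ℝ) := by exact_mod_cast h5
    push_cast at h6
    exact h6.le
  have h5 : (p : ℝ) / q = ((p : ℝ) * 2 ^ c.f / q) * unit c := by
    calc (p : ℝ) / q = (p : ℝ) / q * ((2 : ℝ) ^ c.f * unit c) := by rw [hu2, mul_one]
      _ = _ := by ring
  rw [h5, ← sub_mul, abs_mul, abs_of_pos hu]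
  apply mul_le_mul_of_nonneg_right _ hu.le
  rw [abs_le]
  push_cast
  constructor <;> linarith

/-- The coordinate `(2 i + 1 + t) / 2^(K+1)`, with `t` at the position `pos`. -/
def coordT (c : Cfg) (K i pos : ℕ) : TMod :=
  (fun R => (fun A => (fun raw => (fun P =>
    TMod.mk P 0 (Nat.mod P c.W1) 0
      (and (Nat.ble (Nat.succ K) c.f) (and (Nat.beq P raw)
        (and (Nat.ble (Nat.succ A) c.TB) (Nat.ble (Nat.succ R) c.TB)))))
    (Nat.land raw c.MB))
    (Nat.add A (Nat.mul R pos)))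
    (Nat.mul (Nat.succ (Nat.mul 2 i)) R))
    (Nat.shiftLeft 1 (Nat.sub c.f (Nat.succ K)))

lemma lam_two {W n A R q : ℕ} (hW : 0 < W) (hA : A < W) (hR : R < W) (hq0 : 0 < q) (hq : q < n) (g : ℕ → ℝ) :
    lam W n (A + R * W ^ q) g = (A : ℝ) * g 0 + (R : ℝ) * g q := by
  set cc : ℕ → ℕ := fun k => if k = 0 then A else if k = q then R else 0 with hcc
  have hne : (0 : ℕ) ≠ q := by omega
  have hn0 : 0 ∈ range n := mem_range.mpr (by omega)
  have hnq : q ∈ range n := mem_range.mpr hq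
  have e0 : A + R * W ^ q = ∑ k ∈ range n, cc k * W ^ k := by
    rw [sum_eq_add 0 q hne]
    · simp [hcc, hq0.ne']
    · intro k _ hk
      simp [hcc, hk.1, hk.2]
    · intro h
      exact absurd hn0 h
    · intro h
      exact absurd hnq h
  have hcc' : ∀ k, k < n → cc k < W := by
    intro k _
    simp only [hcc]
    split_ifs
    · exact hA
    · exact hR
    · exact hW
  unfold lam
  rw [e0]
  have e1 : ∀ k ∈ range n, (dig W (∑ i ∈ range n, cc i * W ^ i) k : ℝ) * g k = (cc k : ℝ) * g k := by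
    intro k hk
    rw [dig_sum hW n cc hcc' k (mem_range.mp hk)]
  rw [sum_congr rfl e1, sum_eq_add 0 q hne]
  · simp [hcc, hq0.ne']
  · intro k _ hk
    simp [hcc, hk.1, hk.2]
  · intro h
    exact absurd hn0 h
  · intro h
    exact absurd hnq h

lemma repAt_coord {c : Cfg} {ξ η : ℝ} (C : Ctx c ξ η) (K i q : ℕ) (hq0 : 0 < q) (hq : q < c.L) :
    RepAt c ξ η (coordT c K i ((2 ^ c.w) ^ q))
      ((((2 * i + 1 : ℕ) : ℝ) + mono c.ST ξ η q) / 2 ^ (K + 1)) := by
  have hc := C.hc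
  have hW := Cfg.Valid.Wpos hc
  set R := Nat.shiftLeft 1 (Nat.sub c.f (Nat.succ K)) with hRd
  set A := Nat.mul (Nat.succ (Nat.mul 2 i)) R with hAd
  set raw := Nat.add A (Nat.mul R ((2 ^ c.w) ^ q)) with hraw
  have hgood : Good c (coordT c K i ((2 ^ c.w) ^ q)) := by
    refine ⟨fmt_land hc raw, fmt_zero hc, ?_⟩
    show Nat.mod _ _ = dsum _ _ (Nat.land raw c.MB) + dsum _ _ 0
    rw [fmt_dsum_mod hc (fmt_land hc raw), dsum_zero, add_zero]
  refine ⟨hgood, fun hok => ?_⟩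
  have hok' : and (Nat.ble (Nat.succ K) c.f) (and (Nat.beq (Nat.land raw c.MB) raw)
        (and (Nat.ble (Nat.succ A) c.TB) (Nat.ble (Nat.succ R) c.TB))) = true := hok
  simp only [Bool.and_eq_true] at hok'
  obtain ⟨h1, h2, h3, h4⟩ := hok'
  have hKf : K + 1 ≤ c.f := Nat.le_of_ble_eq_true h1
  have e := Nat.eq_of_beq_eq_true h2
  have hA : A < c.TB := Nat.le_of_ble_eq_true h3
  have hR : R < c.TB := Nat.le_of_ble_eq_true h4
  rw [hc.hTB] at hA hR
  have hM := pow_b_le hc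
  have hM2 := M_le_sq hc
  have hB := hc.hBig
  have hAW : A < 2 ^ c.w := by omega
  have hRW : R < 2 ^ c.w := by omega
  have hV : (coordT c K i ((2 ^ c.w) ^ q)).V c ξ η = ((A : ℝ) + (R : ℝ) * mono c.ST ξ η q) * unit c := by
    show (val c ξ η (Nat.land raw c.MB) - val c ξ η 0) * unit c = _
    rw [e]
    unfold val
    rw [lam_zero, hraw]
    have := lam_two (g := mono c.ST ξ η) hW hAW hRW hq0 hq
    show (lam (2 ^ c.w) c.L (A + R * (2 ^ c.w) ^ q) (mono c.ST ξ η) - 0) * unit c = _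
    rw [this, mono_zero]
    ring
  rw [hV]
  have hRe : R = 2 ^ (c.f - (K + 1)) := by
    rw [hRd]
    show 1 <<< _ = _
    rw [Nat.shiftLeft_eq, one_mul]
    rfl
  have hAe : (A : ℝ) = ((2 * i + 1 : ℕ) : ℝ) * R := by
    rw [hAd]
    show ((Nat.succ (2 * i) * R : ℕ) : ℝ) = _
    push_cast
    ring
  rw [hAe]
  have hu : (R : ℝ) * unit c = 1 / 2 ^ (K + 1) := by
    rw [hRe]
    unfold unit
    push_cast
    have : (2 : ℝ) ^ c.f = 2 ^ (c.f - (K + 1)) * 2 ^ (K + 1) := by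
      rw [← pow_add]
      congr 1
      omega
    rw [this]
    field_simp
  have e2 : ((((2 * i + 1 : ℕ) : ℝ)) * R + (R : ℝ) * mono c.ST ξ η q) * unit c
      = (((2 * i + 1 : ℕ) : ℝ) + mono c.ST ξ η q) * ((R : ℝ) * unit c) := by
    ring
  rw [e2, hu]
  have e3 : (((2 * i + 1 : ℕ) : ℝ) + mono c.ST ξ η q) / 2 ^ (K + 1)
      - (((2 * i + 1 : ℕ) : ℝ) + mono c.ST ξ η q) * (1 / 2 ^ (K + 1)) = 0 := by
    ring
  rw [e3]
  simp [coordT]

lemma mono_ST {ST : ℕ} (hST : 2 ≤ ST) (ξ η : ℝ) : mono ST ξ η ST = ξ := by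
  unfold mono
  have h1 : ST % ST = 0 := Nat.mod_self ST
  have h2 : ST / ST = 1 := Nat.div_self (by omega)
  rw [h1, h2]
  simp

lemma mono_ST1 {ST : ℕ} (hST : 2 ≤ ST) (ξ η : ℝ) : mono ST ξ η (ST + 1) = η := by
  unfold mono
  have h1 : (ST + 1) % ST = 1 := by
    rw [Nat.add_mod_left, Nat.mod_eq_of_lt (by omega)]
  have h2 : (ST + 1) / ST = 1 := by
    rw [Nat.add_div_left _ (by omega), Nat.div_eq_of_lt (by omega)]
  rw [h1, h2]
  simp

/-- The horizontal coordinate of a cell. -/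
def xiT (c : Cfg) (K i : ℕ) : TMod := coordT c K i c.PX

/-- The vertical coordinate of a cell. -/
def etaT (c : Cfg) (K j : ℕ) : TMod := coordT c K j c.PY

lemma repAt_xi {c : Cfg} {ξ η : ℝ} (C : Ctx c ξ η) (K i : ℕ) :
    RepAt c ξ η (xiT c K i) ((((2 * i + 1 : ℕ) : ℝ) + ξ) / 2 ^ (K + 1)) := by
  have hc := C.hc
  have hST := hc.hST
  have h := repAt_coord C K i c.ST (by omega) (by rw [hc.hL]; nlinarith)
  rw [mono_ST hST] at h
  unfold xiT
  rw [hc.hPX]
  exact h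

lemma repAt_eta {c : Cfg} {ξ η : ℝ} (C : Ctx c ξ η) (K j : ℕ) :
    RepAt c ξ η (etaT c K j) ((((2 * j + 1 : ℕ) : ℝ) + η) / 2 ^ (K + 1)) := by
  have hc := C.hc
  have hST := hc.hST
  have h := repAt_coord C K j (c.ST + 1) (by omega) (by rw [hc.hL]; nlinarith)
  rw [mono_ST1 hST] at h
  unfold etaT
  rw [hc.hPY]
  exact h

end Vale.Agent.P154.Hel.TM
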