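import Vale.Agent.P154.Hel.TMCfg

/-!
Enclosure of the twelfth root of a Taylor model. The approximate root needs no proof: it is a truncated
binomial series, and the final residual `g^12 - a` gives the remainder.
-/

namespace Vale.Agent.P154.Hel.TM

open Finset

/-- A lower bound, in fixed point units, of a polynomial on the unit square: a difference of
natural numbers written without truncation tests. -/
def lowerV (c : Cfg) (t : TMod) : ℕ :=
  Nat.sub (Nat.sub (Nat.land t.P c.W1) (Nat.mod (Nat.land t.P c.MNE) c.W1)) (Nat.mod t.N c.W1)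

lemma lowerV_le {c : Cfg} {ξ η : ℝ} (C : Ctx c ξ η) {t : TMod} (g : Good c t) (hL : 0 < lowerV c t) :
    (lowerV c t : ℝ) * unit c ≤ t.V c ξ η := by
  have hc := C.hc
  have hW := Cfg.Valid.Wpos hc
  obtain ⟨hP, hN, _⟩ := g
  set Po := Nat.land t.P c.MNE with hPo
  have ePo : Po = t.P &&& c.MNE := rfl
  have hPolt : Po < (2 ^ c.w) ^ c.L := by
    rw [ePo]
    exact lt_of_le_of_lt Nat.and_le_right hc.hMNE
  have hdPo : ∀ k, dig (2 ^ c.w) Po k ≤ dig (2 ^ c.w) t.P k := by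
    intro k
    rw [ePo, dig_land]
    exact Nat.and_le_left
  have hsPo : dsum (2 ^ c.w) c.L Po ≤ 2 * (c.L * 2 ^ c.b) ^ 2 := by
    have h1 : dsum (2 ^ c.w) c.L Po ≤ dsum (2 ^ c.w) c.L t.P := by
      unfold dsum
      exact sum_le_sum fun k _ => hdPo k
    have h2 := dsum_le hP
    have h3 := M_le_sq hc
    omega
  have e1 := mod_W1 hc hPolt hsPo
  have e2 := fmt_dsum_mod hc hN
  have e3 : Nat.land t.P c.W1 = t.P % 2 ^ c.w := by
    show t.P &&& c.W1 = _
    rw [hc.hW1, Nat.and_two_pow_sub_one_eq_mod]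
  have hLe : lowerV c t + dsum (2 ^ c.w) c.L Po + dsum (2 ^ c.w) c.L t.N = t.P % 2 ^ c.w := by
    unfold lowerV at hL ⊢
    rw [← hPo] at hL ⊢
    rw [e1, e2, e3] at hL ⊢
    change 0 < t.P % 2 ^ c.w - dsum (2 ^ c.w) c.L Po - dsum (2 ^ c.w) c.L t.N at hL
    change t.P % 2 ^ c.w - dsum (2 ^ c.w) c.L Po - dsum (2 ^ c.w) c.L t.N + _ + _ = _
    omega
  have hle2 : (lowerV c t : ℝ) + dsum (2 ^ c.w) c.L Po + dsum (2 ^ c.w) c.L t.N = ((t.P % 2 ^ c.w : ℕ) : ℝ) := by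
    exact_mod_cast hLe
  have hlow : ((t.P % 2 ^ c.w : ℕ) : ℝ) - dsum (2 ^ c.w) c.L Po ≤ val c ξ η t.P := by
    unfold val lam dsum
    push_cast
    rw [← dig_zero]
    have hL0 : 0 ∈ range c.L := mem_range.mpr (L_pos hc)
    have e4 : ((dig (2 ^ c.w) t.P 0 : ℕ) : ℝ) = ∑ k ∈ range c.L, if k = 0 then (dig (2 ^ c.w) t.P k : ℝ) else 0 := by
      rw [sum_ite_eq' (range c.L) 0]
      rw [if_pos hL0]
    rw [e4, ← sum_sub_distrib]
    refine sum_le_sum fun k _ => ?_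
    have hm := abs_mono_le (ST := c.ST) C.hξ C.hη k
    have hm2 := abs_le.mp hm
    have hd0 : (0 : ℝ) ≤ dig (2 ^ c.w) t.P k := Nat.cast_nonneg _
    have hd1 : (0 : ℝ) ≤ dig (2 ^ c.w) Po k := Nat.cast_nonneg _
    by_cases hk0 : k = 0
    · subst hk0
      rw [if_pos rfl, mono_zero]
      linarith
    · rw [if_neg hk0]
      by_cases hs : supp c.ST k
      · by_cases hev : evenK c.ST k
        · have := mul_nonneg hd0 (mono_even_nonneg (ST := c.ST) ξ η hev)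
          linarith
        · by_cases hkL : k < c.L
          · have h5 := hc.hMNEd k hkL hs hev
            have h6 : dig (2 ^ c.w) Po k = dig (2 ^ c.w) t.P k := by
              rw [ePo, dig_land, h5, Nat.and_two_pow_sub_one_eq_mod, Nat.mod_eq_of_lt (hP.2 k).1]
            rw [h6]
            nlinarith
          · have h7 := dig_zero_of_ge hc hP.1 (not_lt.mp hkL)
            rw [h7]
            simp
      · have h7 := (hP.2 k).2 hs
        rw [h7]
        simp only [Nat.cast_zero, zero_mul]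
        linarith
  have hup : val c ξ η t.N ≤ dsum (2 ^ c.w) c.L t.N := (le_abs_self _).trans (abs_val_le C t.N)
  have hu := unit_pos c
  have e5 : t.V c ξ η = (val c ξ η t.P - val c ξ η t.N) * unit c := rfl
  rw [e5]
  apply mul_le_mul_of_nonneg_right _ hu.le
  linarith

/-- A step of Newton's method for a twelfth root of a natural number in fixed point. -/
def rootStep (f x y : ℕ) : ℕ :=
  Nat.div (Nat.add (Nat.mul 11 y) (Nat.div (Nat.shiftLeft x (Nat.mul 11 f)) (Nat.pow y 11))) 12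

/-- Iteration of the step. -/
def rootIter (f x : ℕ) : ℕ → ℕ → ℕ
  | 0, y => y
  | n + 1, y => rootIter f x n (rootStep f x y)

/-- An approximate twelfth root of a natural number in fixed point. -/
def rootScalar (f x : ℕ) : ℕ :=
  rootIter f x 16 (Nat.shiftLeft 1 (Nat.div (Nat.add (Nat.add (Nat.mul 11 f) (Nat.log2 x)) 12) 12))

/-- The Horner scheme of the binomial series of `(1 + z)^(1/12)`, up to a given order. -/
def hornerT (c : Cfg) (z one : TMod) : List (ℕ × ℕ) → TMod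
  | [] => one
  | p :: l => subT c one (mulT c (ofRat c p.1 p.2) (mulT c z (hornerT c z one l)))

/-- The coefficients of the Horner scheme, innermost last. -/
def hornerL (c : Cfg) : List (ℕ × ℕ) :=
  List.drop (Nat.sub 7 c.ST) [(11, 24), (23, 36), (35, 48), (47, 60), (59, 72)]

/-- The approximate root. -/
def rootGuess (c : Cfg) (a : TMod) : TMod :=
  (fun x0 => (fun one => (fun z =>
    polyOf (mulT c (ofFix c (rootScalar c.f x0))
      (addT c one (mulT c (ofRat c 1 12) (mulT c z (hornerT c z one (hornerL c)))))))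
    (mulT c (ofFix c (Nat.div (Nat.shiftLeft 1 (Nat.mul 2 c.f)) x0)) (subT c (polyOf a) (ofFix c x0))))
    (ofFix c c.TF))
    (Nat.sub (Nat.land a.P c.W1) (Nat.land a.N c.W1))

/-- The enclosure of the root. -/
def rootT (c : Cfg) (a : TMod) : TMod :=
  (fun g => (fun g2 => (fun g3 => (fun g6 => (fun R => (fun L =>
    TMod.mk g.P g.N g.nrm
      (Nat.succ (Nat.div (Nat.shiftLeft (Nat.add R.nrm R.rem) (Nat.mul 11 c.f)) (Nat.pow L 11)))
      (and R.ok (and g.ok (Nat.ble 1 L))))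
    (lowerV c g))
    (subT c (mulT c g6 g6) a))
    (mulT c g3 g3))
    (mulT c g2 g))
    (mulT c g g))
    (rootGuess c a)

lemma good_rootGuess {c : Cfg} (hc : c.Valid) (a : TMod) : Good c (rootGuess c a) := good_mulT hc _ _

lemma root_real {x y γ ε : ℝ} (hy0 : 0 ≤ y) (hy : y ^ 12 = x) (hγ : 0 < γ) (hR : |γ ^ 12 - x| ≤ ε) :
    |y - γ| * γ ^ 11 ≤ ε := by
  subst hy
  have e : γ ^ 12 - y ^ 12 = (γ - y) * (γ ^ 11 + γ ^ 10 * y + γ ^ 9 * y ^ 2 + γ ^ 8 * y ^ 3 + γ ^ 7 * y ^ 4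
      + γ ^ 6 * y ^ 5 + γ ^ 5 * y ^ 6 + γ ^ 4 * y ^ 7 + γ ^ 3 * y ^ 8 + γ ^ 2 * y ^ 9 + γ * y ^ 10 + y ^ 11) := by
    ring
  rw [e, abs_mul] at hR
  refine le_trans ?_ hR
  rw [abs_sub_comm]
  apply mul_le_mul_of_nonneg_left _ (abs_nonneg _)
  refine le_trans ?_ (le_abs_self _)
  have h1 : 0 ≤ γ ^ 10 * y + γ ^ 9 * y ^ 2 + γ ^ 8 * y ^ 3 + γ ^ 7 * y ^ 4
      + γ ^ 6 * y ^ 5 + γ ^ 5 * y ^ 6 + γ ^ 4 * y ^ 7 + γ ^ 3 * y ^ 8 + γ ^ 2 * y ^ 9 + γ * y ^ 10 + y ^ 11 := by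
    positivity
  linarith

lemma root_rem {d Rn L u : ℝ} {f : ℕ} {q : ℝ} (hu : 0 < u) (hu2 : (2 : ℝ) ^ f * u = 1) (hL : 0 < L)
    (h1 : d * (L * u) ^ 11 ≤ Rn * u) (h2 : Rn * ((2 : ℝ) ^ f) ^ 11 ≤ L ^ 11 * q) : d ≤ q * u := by
  have hP : 0 < (L * u) ^ 11 := by positivity
  have h3 : Rn * u ≤ q * u * (L * u) ^ 11 := by
    have h4 : Rn = Rn * ((2 : ℝ) ^ f * u) ^ 11 := by
      rw [hu2]
      ring
    have h5 := mul_le_mul_of_nonneg_right h2 (show 0 ≤ u ^ 12 by positivity)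
    calc Rn * u = Rn * ((2 : ℝ) ^ f * u) ^ 11 * u := by rw [← h4]
      _ = Rn * ((2 : ℝ) ^ f) ^ 11 * u ^ 12 := by ring
      _ ≤ L ^ 11 * q * u ^ 12 := h5
      _ = q * u * (L * u) ^ 11 := by ring
  exact le_of_mul_le_mul_right (h1.trans h3) hP

lemma repAt_self {c : Cfg} {ξ η : ℝ} {t : TMod} (g : Good c t) : RepAt c ξ η t (t.V c ξ η) := by
  refine ⟨g, fun _ => ?_⟩
  rw [sub_self, abs_zero]
  exact mul_nonneg (Nat.cast_nonneg _) (unit_pos c).le

lemma repAt_root {c : Cfg} {ξ η : ℝ} (C : Ctx c ξ η) {a : TMod} {x y : ℝ} (ha : RepAt c ξ η a x)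
    (hy0 : 0 ≤ y) (hy : y ^ 12 = x) : RepAt c ξ η (rootT c a) y := by
  have hc := C.hc
  set g := rootGuess c a with hg
  have gg : Good c g := good_rootGuess hc a
  have hu := unit_pos c
  have rg : RepAt c ξ η g (g.V c ξ η) := repAt_self gg
  have r3 := repAt_mul C (repAt_mul C rg rg) rg
  have r12 := repAt_sub C (repAt_mul C (repAt_mul C r3 r3) (repAt_mul C r3 r3)) ha
  have gI : Good c (rootT c a) := gg
  refine ⟨gI, fun hok => ?_⟩
  set g3 := mulT c (mulT c g g) g with hg3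
  set R := subT c (mulT c (mulT c g3 g3) (mulT c g3 g3)) a with hR
  have hok' : and R.ok (and g.ok (Nat.ble 1 (lowerV c g))) = true := hok
  simp only [Bool.and_eq_true] at hok'
  obtain ⟨okR, -, hL⟩ := hok'
  have hL0 : 0 < lowerV c g := Nat.le_of_ble_eq_true hL
  have h1 := r12.2 okR
  have h2 := abs_V_le C r12.1
  have hlow := lowerV_le C gg hL0
  set γ := g.V c ξ η with hγ
  set L := lowerV c g with hLd
  have hLr : (0 : ℝ) < L := by exact_mod_cast hL0
  have hγ0 : 0 < γ := lt_of_lt_of_le (mul_pos hLr hu) hlow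
  set Rn := R.nrm + R.rem with hRn
  have hR2 : |γ ^ 12 - x| ≤ (Rn : ℝ) * unit c := by
    have e1 : γ ^ 12 - x = (γ * γ * γ * (γ * γ * γ) * (γ * γ * γ * (γ * γ * γ)) - x - R.V c ξ η) + R.V c ξ η := by
      ring
    rw [e1]
    refine (abs_add_le _ _).trans ?_
    rw [hRn]
    push_cast
    rw [add_mul]
    linarith
  have h3 := root_real hy0 hy hγ0 hR2
  have h4 : |y - γ| * ((L : ℝ) * unit c) ^ 11 ≤ (Rn : ℝ) * unit c := by
    refine le_trans ?_ h3
    apply mul_le_mul_of_nonneg_left _ (abs_nonneg _)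
    exact pow_le_pow_left₀ (by positivity) hlow 11
  show |y - γ| ≤ ((Nat.succ (Nat.div (Nat.shiftLeft (Nat.add R.nrm R.rem) (Nat.mul 11 c.f)) (Nat.pow L 11)) : ℕ) : ℝ) * unit c
  refine root_rem (f := c.f) (Rn := (Rn : ℝ)) (L := (L : ℝ)) hu (unit_mul c) hLr h4 ?_
  have hq : 0 < L ^ 11 := by positivity
  have h5 := Nat.lt_mul_div_succ (Rn * 2 ^ (11 * c.f)) hq
  have e2 : Nat.shiftLeft (Nat.add R.nrm R.rem) (Nat.mul 11 c.f) = Rn * 2 ^ (11 * c.f) := by
    show (R.nrm + R.rem) <<< (11 * c.f) = _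
    rw [Nat.shiftLeft_eq]
  have e3 : Nat.pow L 11 = L ^ 11 := rfl
  rw [e2, e3]
  have h6 : ((Rn * 2 ^ (11 * c.f) : ℕ) : ℝ) ≤ ((L ^ 11 * (Rn * 2 ^ (11 * c.f) / L ^ 11 + 1) : ℕ) : ℝ) := by
    exact_mod_cast h5.le
  push_cast at h6
  have e4 : ((2 : ℝ) ^ c.f) ^ 11 = 2 ^ (11 * c.f) := by
    rw [← pow_mul, mul_comm]
  rw [e4]
  refine h6.trans (le_of_eq ?_)
  push_cast [Nat.succ_eq_add_one]
  rfl

end Vale.Agent.P154.Hel.TM
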