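import Vale.Agent.P154.Hel.Reg5Data

/-!
The abbreviation of the walk of the planes of `5`.
-/

namespace Vale.Agent.P154.Hel.Corner

/-- The walk on a cell. -/
abbrev w5 (f K i j : ℕ) : Bool :=
  TM.formWalk Direct.cfgD (Direct.tableG Direct.cfgD tau5 tau15 X9) f K i j (Direct.formsFG X9 (rowDirect 4 rows5))

end Vale.Agent.P154.Hel.Corner
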